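import Mathlib
import Crest.Prelude.Def_Labels
import Crest.Prelude.Def_TreeIsing

/-!
# Row 160 (S0241): shared definitions

Generic part: finite window `W`, nonnegative weight `w` on plus sets `S ⊆ W`, evidence field
`r : E → ℝ` (`r v ∈ (-1,1)`, likelihood factor `1 + σ_v r_v`).
-/

set_option autoImplicit false

open MeasureTheory Filter Topology

namespace Crest.Agent.H14

open scoped Classical

section Generic

variable {E : Type*}

/-- velocity addition: combination of independent evidences -/
noncomputable def opl (a b : ℝ) : ℝ := (a + b) / (1 + a * b)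

/-- spin of `v` when the plus set is `S` -/
noncomputable def sp (S : Finset E) (v : E) : ℝ := if v ∈ S then 1 else -1

/-- likelihood of the evidence field `r` in the window `W` given the plus set `S` -/
noncomputable def tl (W : Finset E) (r : E → ℝ) (S : Finset E) : ℝ := ∏ v ∈ W, (1 + sp S v * r v)

/-- probability weight on the plus sets of the window `W` -/
structure Pos (W : Finset E) (w : Finset E → ℝ) : Prop where
  nonneg : ∀ S, S ⊆ W → 0 ≤ w S
  total : ∑ S ∈ W.powerset, w S = 1

/-- total likelihood of `r` -/
noncomputable def Lf (W : Finset E) (w : Finset E → ℝ) (r : E → ℝ) : ℝ :=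
  ∑ S ∈ W.powerset, w S * tl W r S

/-- posterior expectation of `g` given the evidence `r` -/
noncomputable def Ef (W : Finset E) (w : Finset E → ℝ) (g : Finset E → ℝ) (r : E → ℝ) : ℝ :=
  (∑ S ∈ W.powerset, w S * tl W r S * g S) / Lf W w r

/-- posterior mean of the spin at `z` -/
noncomputable def Mf (W : Finset E) (w : Finset E → ℝ) (z : E) (r : E → ℝ) : ℝ :=
  Ef W w (fun S => sp S z) r

/-- posterior covariance of the spins at `x` and `y` -/
noncomputable def Kf (W : Finset E) (w : Finset E → ℝ) (x y : E) (r : E → ℝ) : ℝ :=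
  Ef W w (fun S => sp S x * sp S y) r - Mf W w x r * Mf W w y r

/-- quantile function (in `u ∈ [0,1]`) of the density `(1 + κ z)/2` on `[-1,1]`, `|κ| ≤ 1` -/
noncomputable def Qf (κ u : ℝ) : ℝ := (4 * u - 2 + κ) / (1 + Real.sqrt ((1 - κ) ^ 2 + 4 * κ * u))

/-- evidence field at time `s`: the outcomes `Z v` with time `t v < s` have been absorbed -/
noncomputable def stt (r t Z : E → ℝ) (s : ℝ) : E → ℝ :=
  fun v => if t v < s then opl (r v) (Z v) else r v

/-- one iteration of the sequential sampler of one round. `a v` is the strength at `v`. -/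
noncomputable def stepZ (W : Finset E) (w : Finset E → ℝ) (r t a : E → ℝ) (u : E → unitInterval)
    (Z : E → ℝ) : E → ℝ :=
  fun v => if v ∈ W then a v * Qf (a v * Mf W w v (stt r t Z (t v))) (u v) else 0

/-- outcomes of one round: fixed point of `stepZ` (see `Zrd_eq`). -/
noncomputable def Zrd (W : Finset E) (w : Finset E → ℝ) (r t a : E → ℝ) (u : E → unitInterval) :
    E → ℝ :=
  (stepZ W w r t a u)^[W.card] (fun _ => 0)

/-- base strength -/
noncomputable def a0 : ℝ := 1 / 4

/-- strength of an observation at time `s` of round `k` (zero for `s ≥ 1`: not observed) -/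
noncomputable def str (k : ℕ) (s : ℝ) : ℝ :=
  if s < 1 then (if k = 0 then a0 * Real.sqrt s else a0) else 0

/-- time of the vertex `v` in round `k` (uniform on `[0,2]`) -/
noncomputable def tm (k : ℕ) (ω : E → ℕ → unitInterval) : E → ℝ := fun v => 2 * (ω v (2 * k) : ℝ)

/-- noise of round `k` -/
def ns (k : ℕ) (ω : E → ℕ → unitInterval) : E → unitInterval := fun v => ω v (2 * k + 1)

/-- evidence field after `k` rounds -/
noncomputable def Rst (W : Finset E) (w : Finset E → ℝ) :
    ℕ → (E → ℕ → unitInterval) → E → ℝ
  | 0, _ => fun _ => 0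
  | k + 1, ω => stt (Rst W w k ω) (tm k ω)
      (Zrd W w (Rst W w k ω) (tm k ω) (fun v => str k (tm k ω v)) (ns k ω)) 3

/-- outcomes of round `k` -/
noncomputable def Zst (W : Finset E) (w : Finset E → ℝ) (k : ℕ) (ω : E → ℕ → unitInterval) :
    E → ℝ :=
  Zrd W w (Rst W w k ω) (tm k ω) (fun v => str k (tm k ω v)) (ns k ω)

/-- evidence field at time `s` of round `k` -/
noncomputable def Xst (W : Finset E) (w : Finset E → ℝ) (k : ℕ) (s : ℝ)
    (ω : E → ℕ → unitInterval) : E → ℝ :=
  stt (Rst W w k ω) (tm k ω) (Zst W w k ω) s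

/-- the base probability space: independent uniform labels indexed by vertices and naturals -/
noncomputable def Pm (E : Type*) : Measure (E → ℕ → unitInterval) :=
  Measure.infinitePi (fun _ : E => Measure.infinitePi (fun _ : ℕ => (volume : Measure unitInterval)))

/-- outcome of one vertex under the null measure: observation iff `2θ < s` -/
noncomputable def sS (k : ℕ) (s : ℝ) (θ u : unitInterval) : ℝ :=
  if 2 * (θ : ℝ) < s then str k (2 * θ) * (2 * u - 1) else 0

/-- one vertex update of the (averaged) law of the evidence -/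
noncomputable def nuStep (ν : Measure ℝ) (k : ℕ) (s : ℝ) : Measure ℝ :=
  ((ν.prod ((volume : Measure unitInterval).prod (volume : Measure unitInterval))).withDensity
    (fun q => ENNReal.ofReal (1 + q.1 * sS k s q.2.1 q.2.2))).map
    (fun q => opl q.1 (sS k s q.2.1 q.2.2))

/-- law of the evidence at one vertex after `k` rounds (averaged over the spin) -/
noncomputable def nuR : ℕ → Measure ℝ
  | 0 => Measure.dirac 0
  | k + 1 => nuStep (nuR k) k 3

/-- law of the evidence at one vertex at time `s` of round `k` -/
noncomputable def nuS (k : ℕ) (s : ℝ) : Measure ℝ := nuStep (nuR k) k s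

/-- product measure of single vertex evidence laws -/
noncomputable def Nm (E : Type*) (ν : Measure ℝ) : Measure (E → ℝ) :=
  Measure.infinitePi (fun _ : E => ν)

/-- expectation in the static model: evidence field with density `Lf W w` w.r.t. the product
measure. Only meant for `F` depending on the coordinates in `W`. -/
noncomputable def EE (ν : Measure ℝ) (W : Finset E) (w : Finset E → ℝ) (F : (E → ℝ) → ℝ) : ℝ :=
  ∫ r, F r * Lf W w r ∂(Nm E ν)

/-- admissible single vertex evidence laws -/
structure Null (ν : Measure ℝ) (ρ : ℝ) : Prop where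
  prob : IsProbabilityMeasure ν
  symm : ν.map (fun x => -x) = ν
  lt : ρ < 1
  supp : ∀ᵐ x ∂ν, |x| ≤ ρ

/-- sign flip of the coordinates in `D` -/
noncomputable def flip (D : Finset E) (r : E → ℝ) : E → ℝ := fun v => if v ∈ D then -r v else r v

end Generic

section Tree

variable {V : Type*} (G : SimpleGraph V) (lam : ℝ)

/-- Ising weight of the plus set `S` in the window `W` -/
noncomputable def mu (W S : Finset V) : ℝ :=
  Crest.ProbabilityR.TreeIsing.isingWeight G lam W (fun v => decide (v ∈ S))

/-- parent of `v` in the tree rooted at `x` -/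
noncomputable def par (x v : V) : V :=
  if h : ∃ p, G.Adj v p ∧ G.dist x v = G.dist x p + 1 then h.choose else v

/-- descendants of `u` inside `W` when the tree is rooted at `x` (`u` included) -/
noncomputable def desc (x u : V) (W : Finset V) : Finset V :=
  W.filter (fun v => G.dist x v = G.dist x u + G.dist u v)

/-- subtrees: finite vertex sets closed under taking parents w.r.t. each of their points -/
def IsSub (W : Finset V) : Prop := ∀ x ∈ W, ∀ v ∈ W, par G x v ∈ W

/-- children of `u` inside `W` when the tree is rooted at `x` (`= ch G x u ∩ W`) -/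
noncomputable def chl (x u : V) (W : Finset V) : Finset V :=
  W.filter (fun w => w ≠ x ∧ par G x w = u)

/-- likelihood, posterior mean, posterior covariance of the free Ising state in the window `W` -/
noncomputable def LW (W : Finset V) (r : V → ℝ) : ℝ := Lf W (mu G lam W) r
noncomputable def MW (W : Finset V) (z : V) (r : V → ℝ) : ℝ := Mf W (mu G lam W) z r
noncomputable def KW (W : Finset V) (x y : V) (r : V → ℝ) : ℝ := Kf W (mu G lam W) x y r

/-- expectation in the static model of the window `W` -/
noncomputable def EI (ν : Measure ℝ) (W : Finset V) (F : (V → ℝ) → ℝ) : ℝ :=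
  ∫ r, F r * LW G lam W r ∂(Nm V ν)

/-- cavity magnetisation at `u` in the tree rooted at `x` -/
noncomputable def tau (W : Finset V) (x u : V) (r : V → ℝ) : ℝ := MW G lam (desc G x u W) u r

/-- normalised damping factor -/
noncomputable def gam (t : ℝ) : ℝ := (1 - t ^ 2) / (1 - lam ^ 2 * t ^ 2)

/-- vertices of the path from `u` (excluded) down to `y` (included), tree rooted at `x` -/
noncomputable def pth (x u y : V) (W : Finset V) : Finset V :=
  W.filter (fun z => z ≠ u ∧ z ∈ desc G x u W ∧ y ∈ desc G x z W)

/-- product of the damping factors along the path from `u` (excluded) to `y` (included) -/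
noncomputable def PP (W : Finset V) (x u y : V) (r : V → ℝ) : ℝ :=
  ∏ z ∈ pth G x u y W, gam lam (tau G lam W x z r)

/-- weighted size of the subtree below `u` -/
noncomputable def Sh (W : Finset V) (x u : V) (r : V → ℝ) : ℝ :=
  ∑ y ∈ desc G x u W, lam ^ (2 * G.dist u y) * PP G lam W x u y r

/-- admissible evidence fields -/
def Adm (W : Finset V) (r : V → ℝ) : Prop := ∀ v ∈ W, |r v| < 1

/-- standing hypotheses: `(b+1)`-regular tree, `lam^2 b ≤ 1` -/
structure Tr (b : ℕ) : Prop where
  tree : G.IsTree
  reg : ∀ [G.LocallyFinite], G.IsRegularOfDegree (b + 1)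
  two : 2 ≤ b
  nonneg : 0 ≤ lam
  crit : lam ^ 2 * b ≤ 1

/-- test functions in the window `W` -/
structure Tst (W : Finset V) (F : (V → ℝ) → ℝ) : Prop where
  meas : Measurable F
  dep : DependsOn F (W : Set V)
  bdd : ∃ C : ℝ, ∀ r, Adm W r → |F r| ≤ C

/-- `F` is even under the sign flip of the coordinates in `D` -/
def EvenOn (D : Finset V) (F : (V → ℝ) → ℝ) : Prop := ∀ r, F (flip D r) = F r

end Tree

/-- lower constant for the second moment of the evidence -/
noncomputable def c1 : ℝ := 1 / 192

/-- moment hypotheses on the single vertex evidence law at "time" `s ∈ (0,1]` -/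
structure Mom (ν : Measure ℝ) (s : ℝ) : Prop where
  pos : 0 < s
  le_one : s ≤ 1
  lower : c1 * s ^ 2 ≤ ∫ x, x ^ 2 ∂ν
  upper : ∫ x, x ^ 2 ∂ν ≤ s ^ 2
  mom : ∀ p : ℕ, 1 ≤ p → ∫ x, x ^ (2 * p) ∂ν ≤ s ^ p

end Crest.Agent.H14
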