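import Mathlib
import Crest.Prelude.Def_TreeIsing
import Crest.Agent.H14.Defs

/-! Row 160 (T1, helper12): combinatorics of a locally finite tree rooted at a vertex `x`:
parents, children, balls, parent-closed finite windows, and the Ising weight as a product over
non-root vertices. -/

set_option autoImplicit false

open SimpleGraph

namespace Crest.Agent.H14

variable {V : Type*} {G : SimpleGraph V}

theorem par_spec {x v : V} (h : ∃ u, G.Adj v u ∧ G.dist x v = G.dist x u + 1) :
    G.Adj v (par G x v) ∧ G.dist x v = G.dist x (par G x v) + 1 := by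
  unfold par
  rw [dif_pos h]
  exact h.choose_spec

theorem exists_closer (hT : G.IsTree) {x v : V} (h : v ≠ x) :
    ∃ u, G.Adj v u ∧ G.dist x v = G.dist x u + 1 := by
  obtain ⟨p, hp⟩ := hT.connected.exists_walk_length_eq_dist v x
  cases p with
  | nil => exact absurd rfl h
  | @cons _ u _ hadj p' =>
    refine ⟨u, hadj, ?_⟩
    have h1 : G.dist v x = p'.length + 1 := by rw [← hp]; simp
    have h2 : G.dist u x ≤ p'.length := dist_le p'
    rcases hT.dist_eq_dist_add_one_of_adj x hadj with h3 | h3
    · exact h3
    · rw [dist_comm (u := x) (v := u), dist_comm (u := x) (v := v)] at h3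
      omega

theorem adj_par (hT : G.IsTree) {x v : V} (h : v ≠ x) : G.Adj v (par G x v) :=
  (par_spec (exists_closer hT h)).1

theorem dist_par (hT : G.IsTree) {x v : V} (h : v ≠ x) :
    G.dist x v = G.dist x (par G x v) + 1 :=
  (par_spec (exists_closer hT h)).2

@[simp] theorem par_self (x : V) : par G x x = x := by
  unfold par
  rw [dif_neg]
  rintro ⟨u, _, h⟩
  simp at h

/-- Uniqueness of the neighbour closer to `x`. -/
theorem closer_unique (hT : G.IsTree) {x v u u' : V} (hu : G.Adj v u)
    (hd : G.dist x v = G.dist x u + 1) (hu' : G.Adj v u') (hd' : G.dist x v = G.dist x u' + 1) :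
    u = u' := by
  obtain ⟨p, hp⟩ := hT.connected.exists_walk_length_eq_dist x u
  obtain ⟨p', hp'⟩ := hT.connected.exists_walk_length_eq_dist x u'
  have h1 : (p.concat hu.symm).IsPath := by
    apply Walk.isPath_of_length_eq_dist
    rw [Walk.length_concat, hp, hd]
  have h2 : (p'.concat hu'.symm).IsPath := by
    apply Walk.isPath_of_length_eq_dist
    rw [Walk.length_concat, hp', hd']
  have h3 : p.concat hu.symm = p'.concat hu'.symm :=
    (hT.existsUnique_path x v).unique h1 h2
  have h4 := congrArg Walk.penultimate h3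
  simpa using h4

theorem par_eq_of (hT : G.IsTree) {x v u : V} (hadj : G.Adj v u)
    (hd : G.dist x v = G.dist x u + 1) : par G x v = u := by
  have hvx : v ≠ x := by
    rintro rfl
    simp at hd
  exact closer_unique hT (adj_par hT hvx) (dist_par hT hvx) hadj hd

/-- adjacency through parents -/
theorem adj_iff_par (hT : G.IsTree) (x : V) {u v : V} :
    G.Adj u v ↔ (u ≠ x ∧ v = par G x u) ∨ (v ≠ x ∧ u = par G x v) := by
  constructor
  · intro h
    rcases hT.dist_eq_dist_add_one_of_adj x h with h1 | h1
    · left
      refine ⟨?_, (par_eq_of hT h h1).symm⟩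
      rintro rfl
      simp at h1
    · right
      refine ⟨?_, (par_eq_of hT h.symm h1).symm⟩
      rintro rfl
      simp at h1
  · rintro (⟨h1, rfl⟩ | ⟨h1, rfl⟩)
    · exact adj_par hT h1
    · exact (adj_par hT h1).symm

theorem not_par_par (hT : G.IsTree) {x u v : V} (hu : u ≠ x) (hv : v ≠ x) (h1 : v = par G x u)
    (h2 : u = par G x v) : False := by
  have h3 := dist_par hT hu
  have h4 := dist_par hT hv
  rw [← h1] at h3
  rw [← h2] at h4
  omega

theorem par_ne_self (hT : G.IsTree) {x v : V} (hv : v ≠ x) : par G x v ≠ v :=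
  (adj_par hT hv).ne'

theorem dist_le_dist_par (hT : G.IsTree) (c x v : V) : G.dist c v ≤ G.dist c (par G x v) + 1 := by
  by_cases hv : v = x
  · subst hv; simp
  · have := (adj_par hT hv)
    rcases hT.dist_eq_dist_add_one_of_adj c this with h | h <;> omega

theorem dist_par_le (hT : G.IsTree) (c x v : V) : G.dist c (par G x v) ≤ G.dist c v + 1 := by
  by_cases hv : v = x
  · subst hv; simp
  · have := (adj_par hT hv)
    rcases hT.dist_eq_dist_add_one_of_adj c this with h | h <;> omega

/-- If the edge `v → par x v` leads away from `c`, then the geodesic from `c` to `x` goes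
through it. -/
theorem dist_eq_of_away (hT : G.IsTree) {c x : V} : ∀ (n : ℕ) {v u : V}, G.dist x u = n → v ≠ x →
    par G x v = u → G.dist c u = G.dist c v + 1 → G.dist c x = G.dist c u + G.dist x u := by
  intro n
  induction n with
  | zero =>
    intro v u hn _ _ _
    have : x = u := by
      have := (hT.connected.dist_eq_zero_iff (u := x) (v := u)).1 hn
      exact this
    subst this
    simp
  | succ n ih =>
    intro v u hn hv hvu hd
    have hux : u ≠ x := by
      rintro rfl
      simp at hn
    have h1 := dist_par hT hux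
    have hadj := adj_par hT hux
    have hne : par G x u ≠ v := by
      intro h
      rw [h] at h1
      have h2 := dist_par hT hv
      rw [hvu] at h2
      omega
    have h2 : G.dist c (par G x u) = G.dist c u + 1 := by
      rcases hT.dist_eq_dist_add_one_of_adj c hadj with h | h
      · exfalso
        apply hne
        have hadj2 : G.Adj u v := by rw [← hvu]; exact (adj_par hT hv).symm
        exact closer_unique hT hadj h hadj2 hd
      · exact h
    have h3 := ih (v := u) (u := par G x u) (by omega) hux rfl h2
    omega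

section balls

variable [G.LocallyFinite]

open scoped Classical in
variable (G) in
/-- The closed ball of radius `R` around `c`, as a finset. -/
noncomputable def bl (c : V) : ℕ → Finset V
  | 0 => {c}
  | (n + 1) => bl c n ∪ (bl c n).biUnion fun v => G.neighborFinset v

theorem mem_bl (hT : G.IsTree) {c v : V} : ∀ {R : ℕ}, v ∈ bl G c R ↔ G.dist c v ≤ R := by
  intro R
  induction R generalizing v with
  | zero =>
    simp only [bl, Finset.mem_singleton, Nat.le_zero]
    rw [hT.connected.dist_eq_zero_iff]
    exact eq_comm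
  | succ n ih =>
    simp only [bl, Finset.mem_union, Finset.mem_biUnion, mem_neighborFinset]
    constructor
    · rintro (h | ⟨u, hu, hadj⟩)
      · exact (ih.1 h).trans (Nat.le_succ n)
      · have := ih.1 hu
        rcases hT.dist_eq_dist_add_one_of_adj c hadj with h | h <;> omega
    · intro h
      by_cases h1 : G.dist c v ≤ n
      · exact Or.inl (ih.2 h1)
      · right
        have hvc : v ≠ c := by
          rintro rfl
          simp at h1
        refine ⟨par G c v, ih.2 ?_, (adj_par hT hvc).symm⟩
        have := dist_par hT hvc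
        omega

theorem self_mem_bl (hT : G.IsTree) (c : V) (R : ℕ) : c ∈ bl G c R := by
  rw [mem_bl hT]; simp

theorem bl_mono (hT : G.IsTree) {c : V} {R R' : ℕ} (h : R ≤ R') : bl G c R ⊆ bl G c R' := by
  intro v hv
  rw [mem_bl hT] at hv ⊢
  omega

theorem bl_subset_bl (hT : G.IsTree) {c c' : V} {R R' : ℕ} (h : G.dist c' c + R ≤ R') :
    bl G c R ⊆ bl G c' R' := by
  intro v hv
  rw [mem_bl hT] at hv ⊢
  have := hT.connected.dist_triangle (u := c') (v := c) (w := v)
  omega

end balls

/-- A finite window containing the root and closed under taking parents. -/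
structure ParClosed (G : SimpleGraph V) (x : V) (W : Finset V) : Prop where
  root : x ∈ W
  par_mem : ∀ v ∈ W, par G x v ∈ W

theorem bl_parClosed [G.LocallyFinite] (hT : G.IsTree) {c x : V} {R : ℕ} (hx : x ∈ bl G c R) :
    ParClosed G x (bl G c R) := by
  refine ⟨hx, fun v hv => ?_⟩
  by_cases hvx : v = x
  · subst hvx; simpa using hx
  rw [mem_bl hT] at hx hv ⊢
  rcases hT.dist_eq_dist_add_one_of_adj c (adj_par hT hvx) with h | h
  · omega
  · have := dist_eq_of_away hT (c := c) (x := x) _ (v := v) (u := par G x v) rfl hvx rfl h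
    omega

theorem ParClosed.connected (hT : G.IsTree) {x : V} {W : Finset V} (hW : ParClosed G x W) :
    (G.induce (W : Set V)).Connected := by
  have hreach : ∀ (n : ℕ) (v : V) (hv : v ∈ (W : Set V)), G.dist x v = n →
      (G.induce (W : Set V)).Reachable ⟨v, hv⟩ ⟨x, hW.root⟩ := by
    intro n
    induction n with
    | zero =>
      intro v hv h
      have : x = v := (hT.connected.dist_eq_zero_iff).1 h
      subst this
      exact Reachable.refl _
    | succ n ih =>
      intro v hv h
      have hvx : v ≠ x := by
        rintro rfl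
        simp at h
      have h1 := dist_par hT hvx
      have hp : par G x v ∈ (W : Set V) := hW.par_mem v hv
      have h2 := ih (par G x v) hp (by omega)
      refine Reachable.trans ?_ h2
      apply Adj.reachable
      exact adj_par hT hvx
  rw [connected_iff]
  refine ⟨?_, ⟨⟨x, hW.root⟩⟩⟩
  rintro ⟨u, hu⟩ ⟨v, hv⟩
  exact (hreach _ u hu rfl).trans (hreach _ v hv rfl).symm

/-- In a tree, a walk from `v` to `x` passes through `par x v`. -/
theorem par_mem_support (hT : G.IsTree) {x v : V} (hv : v ≠ x) (p : G.Walk v x) :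
    par G x v ∈ p.support := by
  classical
  obtain ⟨q, hq⟩ := hT.connected.exists_walk_length_eq_dist (par G x v) x
  have hd := dist_par hT hv
  have h1 : (Walk.cons (adj_par hT hv) q).IsPath := by
    apply Walk.isPath_of_length_eq_dist
    rw [Walk.length_cons, hq, dist_comm (u := v) (v := x), hd, dist_comm]
  have h2 : p.bypass = Walk.cons (adj_par hT hv) q :=
    (hT.existsUnique_path v x).unique (Walk.bypass_isPath p) h1
  apply Walk.support_bypass_subset_support p
  rw [h2, Walk.support_cons]
  exact List.mem_cons_of_mem _ q.start_mem_support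

theorem parClosed_of_connected (hT : G.IsTree) {x : V} {W : Finset V}
    (hW : (G.induce (W : Set V)).Connected) (hx : x ∈ W) : ParClosed G x W := by
  refine ⟨hx, fun v hv => ?_⟩
  by_cases hvx : v = x
  · subst hvx; simpa using hx
  obtain ⟨p⟩ := hW.preconnected ⟨v, hv⟩ ⟨x, hx⟩
  let f : (G.induce (W : Set V)) →g G := (Embedding.induce (W : Set V)).toHom
  have h1 : par G x v ∈ p.support.map f := by
    rw [← Walk.support_map]
    exact par_mem_support hT hvx (p.map f)
  rw [List.mem_map] at h1
  obtain ⟨w, _, hw⟩ := h1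
  have : (w : V) = par G x v := hw
  rw [← this]
  exact w.2

section children

variable [G.LocallyFinite]

open scoped Classical in
variable (G) in
/-- The children of `u` when the tree is rooted at `x`. -/
noncomputable def ch (x u : V) : Finset V := (G.neighborFinset u).erase (par G x u)

theorem mem_ch' {x u v : V} : v ∈ ch G x u ↔ v ≠ par G x u ∧ G.Adj u v := by
  simp [ch]

theorem mem_ch (hT : G.IsTree) {x u v : V} : v ∈ ch G x u ↔ v ≠ x ∧ par G x v = u := by
  rw [mem_ch']
  constructor
  · rintro ⟨h1, h2⟩
    rcases (adj_iff_par hT x).1 h2 with ⟨_, h4⟩ | ⟨h3, h4⟩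
    · exact absurd h4 h1
    · exact ⟨h3, h4.symm⟩
  · rintro ⟨h1, rfl⟩
    refine ⟨?_, (adj_par hT h1).symm⟩
    intro h
    by_cases hp : par G x v = x
    · rw [hp, par_self] at h
      exact h1 h
    · exact not_par_par hT h1 hp rfl h

theorem dist_ch (hT : G.IsTree) {x u v : V} (h : v ∈ ch G x u) : G.dist x v = G.dist x u + 1 := by
  rw [mem_ch hT] at h
  rw [dist_par hT h.1, h.2]

theorem card_ch_root (x : V) : (ch G x x).card = G.degree x := by
  classical
  have : ch G x x = G.neighborFinset x := by
    unfold ch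
    rw [par_self]
    convert Finset.erase_eq_of_notMem (s := G.neighborFinset x) (a := x) (by simp) using 2
  rw [this, card_neighborFinset_eq_degree]

theorem card_ch (hT : G.IsTree) {x u : V} (h : u ≠ x) : (ch G x u).card + 1 = G.degree u := by
  classical
  have hmem : par G x u ∈ G.neighborFinset u := by
    rw [mem_neighborFinset]; exact adj_par hT h
  have : ch G x u = (G.neighborFinset u).erase (par G x u) := by
    unfold ch; convert rfl
  rw [this, Finset.card_erase_of_mem hmem, card_neighborFinset_eq_degree]
  have : 0 < G.degree u := by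
    rw [← card_neighborFinset_eq_degree]
    exact Finset.card_pos.2 ⟨_, hmem⟩
  omega

theorem card_ch_root_regular {d : ℕ} (hreg : G.IsRegularOfDegree d) (x : V) :
    (ch G x x).card = d := by
  rw [card_ch_root, hreg x]

theorem card_ch_regular (hT : G.IsTree) {d : ℕ} (hreg : G.IsRegularOfDegree d) {x u : V}
    (h : u ≠ x) : (ch G x u).card = d - 1 := by
  have := card_ch hT h
  rw [hreg u] at this
  omega

/-- children of a vertex well inside the ball are in the ball -/
theorem ch_subset_bl (hT : G.IsTree) {c x u : V} {R : ℕ} (h : G.dist c u + 1 ≤ R) :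
    ch G x u ⊆ bl G c R := by
  intro v hv
  rw [mem_ch hT] at hv
  rw [mem_bl hT]
  have := dist_le_dist_par hT c x v
  rw [hv.2] at this
  omega

theorem ch_disjoint (hT : G.IsTree) (x : V) {u v : V} (h : u ≠ v) :
    Disjoint (ch G x u) (ch G x v) := by
  rw [Finset.disjoint_left]
  intro w hu hv
  rw [mem_ch hT] at hu hv
  exact h (hu.2.symm.trans hv.2)

end children

open Crest.ProbabilityR.TreeIsing in
/-- The Ising weight of a parent-closed window as a product over its non-root vertices. -/
theorem isingWeight_eq_prod (hT : G.IsTree) {x : V} {W : Finset V} (hW : ParClosed G x W)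
    (th : ℝ) (s : V → Bool) [DecidableEq V] :
    isingWeight G th W s =
      (1 / 2) * ∏ v ∈ W.erase x, (if s v = s (par G x v) then (1 + th) / 2 else (1 - th) / 2) := by
  classical
  unfold isingWeight
  congr 1
  symm
  refine Finset.prod_bij (fun v _ => s(v, par G x v)) ?_ ?_ ?_ ?_
  · intro v hv
    rw [Finset.mem_erase] at hv
    rw [Finset.mem_filter, Finset.mk_mem_sym2_iff, mem_edgeSet]
    exact ⟨⟨hv.2, hW.par_mem v hv.2⟩, adj_par hT hv.1⟩
  · intro v hv w hw h
    rw [Finset.mem_erase] at hv hw
    rw [Sym2.eq_iff] at h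
    rcases h with ⟨h, _⟩ | ⟨h1, h2⟩
    · exact h
    · exact (not_par_par hT hv.1 hw.1 h2.symm h1).elim
  · intro e he
    induction e using Sym2.ind with
    | _ u v =>
      rw [Finset.mem_filter, Finset.mk_mem_sym2_iff, mem_edgeSet] at he
      rcases (adj_iff_par hT x).1 he.2 with ⟨h1, h2⟩ | ⟨h1, h2⟩
      · exact ⟨u, Finset.mem_erase.2 ⟨h1, he.1.1⟩, by rw [← h2]⟩
      · exact ⟨v, Finset.mem_erase.2 ⟨h1, he.1.2⟩, by rw [← h2, Sym2.eq_swap]⟩
  · intro v _
    simp only [Sym2.map_mk, Sym2.mk_isDiag_iff]

/-! ### Equivariance under automorphisms -/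

theorem dist_iso_le (hT : G.IsTree) (g : G ≃g G) (u v : V) : G.dist (g u) (g v) ≤ G.dist u v := by
  obtain ⟨p, hp⟩ := hT.connected.exists_walk_length_eq_dist u v
  rw [← hp]
  have h := dist_le (p.map g.toHom)
  rw [Walk.length_map] at h
  exact h

theorem dist_iso (hT : G.IsTree) (g : G ≃g G) (u v : V) : G.dist (g u) (g v) = G.dist u v := by
  apply le_antisymm (dist_iso_le hT g u v)
  have := dist_iso_le hT g.symm (g u) (g v)
  simpa using this

theorem par_iso (hT : G.IsTree) (g : G ≃g G) (x v : V) :
    par G (g x) (g v) = g (par G x v) := by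
  by_cases h : v = x
  · subst h; simp
  · apply par_eq_of hT
    · exact g.map_rel_iff.2 (adj_par hT h)
    · rw [dist_iso hT, dist_iso hT]; exact dist_par hT h

theorem mem_bl_iso [G.LocallyFinite] (hT : G.IsTree) (g : G ≃g G) (c v : V) (R : ℕ) :
    g v ∈ bl G (g c) R ↔ v ∈ bl G c R := by
  rw [mem_bl hT, mem_bl hT, dist_iso hT]

theorem bl_iso [G.LocallyFinite] (hT : G.IsTree) (g : G ≃g G) (c : V) (R : ℕ) :
    bl G (g c) R = (bl G c R).map g.toEquiv.toEmbedding := by
  ext w
  rw [Finset.mem_map]
  constructor
  · intro hw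
    refine ⟨g.symm w, ?_, by simp⟩
    rw [← mem_bl_iso hT g]
    simpa using hw
  · rintro ⟨v, hv, rfl⟩
    exact (mem_bl_iso hT g c v R).2 hv

/-- A connected locally finite graph is countable. -/
theorem countable_of_isTree [G.LocallyFinite] (hT : G.IsTree) : Countable V := by
  obtain ⟨x⟩ := hT.connected.nonempty
  have h : (Set.univ : Set V) = ⋃ R : ℕ, (bl G x R : Set V) := by
    ext v
    simp only [Set.mem_univ, Set.mem_iUnion, Finset.mem_coe, true_iff]
    exact ⟨G.dist x v, (mem_bl hT).2 le_rfl⟩
  rw [← Set.countable_univ_iff, h]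
  exact Set.countable_iUnion fun R => (bl G x R).countable_toSet

/-! ### `IsSub` windows, descendants -/

theorem IsSub.parClosed {W : Finset V} (hW : IsSub G W) {x : V} (hx : x ∈ W) :
    ParClosed G x W := ⟨hx, fun v hv => hW x hx v hv⟩

theorem isSub_of_connected (hT : G.IsTree) {W : Finset V}
    (hW : (G.induce (W : Set V)).Connected) : IsSub G W :=
  fun _ hx v hv => (parClosed_of_connected hT hW hx).par_mem v hv

theorem ParClosed.isSub (hT : G.IsTree) {x : V} {W : Finset V} (hW : ParClosed G x W) :
    IsSub G W := isSub_of_connected hT (hW.connected hT)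

theorem isSub_bl [G.LocallyFinite] (hT : G.IsTree) (c : V) (R : ℕ) : IsSub G (bl G c R) :=
  fun _ hx v hv => (bl_parClosed hT hx).par_mem v hv

theorem IsSub.connected (hT : G.IsTree) {W : Finset V} (hW : IsSub G W) (hne : W.Nonempty) :
    (G.induce (W : Set V)).Connected := by
  obtain ⟨x, hx⟩ := hne
  exact (hW.parClosed hx).connected hT

theorem mem_desc {x u v : V} {W : Finset V} :
    v ∈ desc G x u W ↔ v ∈ W ∧ G.dist x v = G.dist x u + G.dist u v := by
  simp [desc]

theorem desc_subset (x u : V) (W : Finset V) : desc G x u W ⊆ W := by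
  intro v hv; exact (mem_desc.1 hv).1

theorem self_mem_desc {x u : V} {W : Finset V} (hu : u ∈ W) : u ∈ desc G x u W := by
  rw [mem_desc]; simp [hu]

theorem desc_root (x : V) (W : Finset V) : desc G x x W = W := by
  ext v; rw [mem_desc]; simp

/-- For `v` a descendant of `u`, `v ≠ u`: parents w.r.t. `x` and `u` agree. -/
theorem par_of_dist (hT : G.IsTree) {x u v : V} (h : G.dist x v = G.dist x u + G.dist u v)
    (hvu : v ≠ u) : v ≠ x ∧ par G x v = par G u v ∧
      G.dist x (par G x v) = G.dist x u + G.dist u (par G x v) := by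
  have hvx : v ≠ x := by
    rintro rfl
    have h1 := hT.connected.pos_dist_of_ne hvu
    have h2 : G.dist v v = 0 := by simp
    rw [dist_comm (u := v) (v := u)] at h1
    omega
  have h1 := adj_par hT hvu
  have h2 := dist_par hT hvu
  have h3 := hT.connected.dist_triangle (u := x) (v := u) (w := par G u v)
  have h4 : G.dist x v = G.dist x (par G u v) + 1 := by
    rcases hT.dist_eq_dist_add_one_of_adj x h1 with h5 | h5 <;> omega
  have h5 : par G x v = par G u v := par_eq_of hT h1 h4
  refine ⟨hvx, h5, ?_⟩
  rw [h5]; omega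

/-- ancestors of a point of a parent-closed window are in the window -/
theorem anc_mem (hT : G.IsTree) {x : V} {W : Finset V} (hW : ParClosed G x W) {u : V} :
    ∀ (n : ℕ) {v : V}, G.dist u v = n → v ∈ W → G.dist x v = G.dist x u + G.dist u v → u ∈ W := by
  intro n
  induction n with
  | zero =>
    intro v hn hv _
    have : u = v := (hT.connected.dist_eq_zero_iff).1 hn
    subst this; exact hv
  | succ n ih =>
    intro v hn hv h
    have hvu : v ≠ u := by rintro rfl; simp at hn
    obtain ⟨h1, h2, h3⟩ := par_of_dist hT h hvu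
    have h4 := dist_par hT hvu
    refine ih (v := par G x v) ?_ (hW.par_mem v hv) h3
    rw [h2]; omega

theorem anc_mem' (hT : G.IsTree) {x : V} {W : Finset V} (hW : ParClosed G x W) {u v : V}
    (hv : v ∈ W) (h : G.dist x v = G.dist x u + G.dist u v) : u ∈ W :=
  anc_mem hT hW _ rfl hv h

theorem par_mem_desc (hT : G.IsTree) {x u v : V} {W : Finset V} (hW : ParClosed G x W)
    (hv : v ∈ desc G x u W) (hvu : v ≠ u) : par G x v ∈ desc G x u W := by
  rw [mem_desc] at hv ⊢
  obtain ⟨h1, h2, h3⟩ := par_of_dist hT hv.2 hvu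
  exact ⟨hW.par_mem v hv.1, h3⟩

theorem desc_parClosed (hT : G.IsTree) {x u : V} {W : Finset V} (hW : ParClosed G x W)
    (hu : u ∈ W) : ParClosed G u (desc G x u W) := by
  refine ⟨self_mem_desc hu, fun v hv => ?_⟩
  by_cases hvu : v = u
  · subst hvu; simpa using hv
  · have h := par_of_dist hT (mem_desc.1 hv).2 hvu
    rw [← h.2.1]
    exact par_mem_desc hT hW hv hvu

theorem desc_isSub (hT : G.IsTree) {x u : V} {W : Finset V} (hW : ParClosed G x W)
    (hu : u ∈ W) : IsSub G (desc G x u W) := (desc_parClosed hT hW hu).isSub hT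

/-- The descendant set only depends on the directed edge. -/
theorem desc_eq_desc_par (hT : G.IsTree) {x u : V} (hu : u ≠ x) (W : Finset V) :
    desc G x u W = desc G (par G x u) u W := by
  ext v
  rw [mem_desc, mem_desc]
  have h1 := dist_par hT hu
  have hadj := adj_par hT hu
  have hpu : G.dist (par G x u) u = 1 := dist_eq_one_iff_adj.2 hadj.symm
  constructor
  · rintro ⟨hv, h⟩
    refine ⟨hv, ?_⟩
    have h2 := hT.connected.dist_triangle (u := x) (v := par G x u) (w := v)
    have h3 := hT.connected.dist_triangle (u := par G x u) (v := u) (w := v)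
    omega
  · rintro ⟨hv, h⟩
    refine ⟨hv, ?_⟩
    have h2 : G.dist v (par G x u) = G.dist v u + 1 := by
      rw [dist_comm (u := v) (v := par G x u), dist_comm (u := v) (v := u)]; omega
    have h3 := dist_eq_of_away hT (c := v) (x := x) _ (v := u) (u := par G x u) rfl hu rfl h2
    rw [dist_comm (u := x) (v := v), dist_comm (u := u) (v := v)]
    omega

theorem desc_trans (hT : G.IsTree) {x u w v : V} (h1 : G.dist x w = G.dist x u + G.dist u w)
    (h2 : G.dist x v = G.dist x w + G.dist w v) : G.dist x v = G.dist x u + G.dist u v := by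
  have h3 := hT.connected.dist_triangle (u := x) (v := u) (w := v)
  have h4 := hT.connected.dist_triangle (u := u) (v := w) (w := v)
  omega

theorem desc_subset_desc (hT : G.IsTree) {x u w : V} {W : Finset V} (hw : w ∈ desc G x u W) :
    desc G x w W ⊆ desc G x u W := by
  intro v hv
  rw [mem_desc] at hw hv ⊢
  exact ⟨hv.1, desc_trans hT hw.2 hv.2⟩

/-- between: if `w` is a descendant of `u` and `v` of `w` (w.r.t. `x`), then `v` is a descendant
of `w` w.r.t. `u`. -/
theorem dist_between (hT : G.IsTree) {x u w v : V} (h1 : G.dist x w = G.dist x u + G.dist u w)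
    (h2 : G.dist x v = G.dist x w + G.dist w v) : G.dist u v = G.dist u w + G.dist w v := by
  have h3 := hT.connected.dist_triangle (u := x) (v := u) (w := v)
  have h4 := hT.connected.dist_triangle (u := u) (v := w) (w := v)
  omega

theorem mem_chl {x u w : V} {W : Finset V} :
    w ∈ chl G x u W ↔ w ∈ W ∧ w ≠ x ∧ par G x w = u := by
  simp [chl]

theorem chl_dist (hT : G.IsTree) {x u w : V} {W : Finset V} (h : w ∈ chl G x u W) :
    G.dist x w = G.dist x u + 1 ∧ G.dist u w = 1 := by
  rw [mem_chl] at h
  have h1 := dist_par hT h.2.1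
  have h2 := adj_par hT h.2.1
  rw [h.2.2] at h1 h2
  exact ⟨h1, dist_eq_one_iff_adj.2 h2.symm⟩

theorem chl_subset_desc (hT : G.IsTree) {x u w : V} {W : Finset V} (h : w ∈ chl G x u W) :
    w ∈ desc G x u W := by
  have h1 := chl_dist hT h
  rw [mem_desc]
  exact ⟨(mem_chl.1 h).1, by omega⟩

/-- the child of `u` towards a strict descendant `v` -/
theorem exists_child (hT : G.IsTree) {x u v : V} {W : Finset V} (hW : ParClosed G x W)
    (hv : v ∈ desc G x u W) (hvu : v ≠ u) : ∃ w ∈ chl G x u W, v ∈ desc G x w W := by
  rw [mem_desc] at hv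
  have huv : u ≠ v := Ne.symm hvu
  have h1 := adj_par hT huv
  have h2 := dist_par hT huv
  set w := par G v u with hw
  have h3 := hT.connected.dist_triangle (u := x) (v := w) (w := v)
  have h4 : G.dist x w = G.dist x u + 1 := by
    rcases hT.dist_eq_dist_add_one_of_adj x h1 with h5 | h5
    · rw [dist_comm (u := v) (v := u), dist_comm (u := v) (v := w)] at h2
      omega
    · exact h5
  rw [dist_comm (u := v) (v := u), dist_comm (u := v) (v := w)] at h2
  have h5 : G.dist x v = G.dist x w + G.dist w v := by omega
  have hwW : w ∈ W := anc_mem' hT hW hv.1 h5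
  refine ⟨w, ?_, ?_⟩
  · rw [mem_chl]
    refine ⟨hwW, ?_, par_eq_of hT h1.symm h4⟩
    rintro h
    rw [h] at h4
    simp at h4
  · rw [mem_desc]; exact ⟨hv.1, h5⟩

theorem child_unique (hT : G.IsTree) {x u v w w' : V} {W : Finset V}
    (hw : w ∈ chl G x u W) (hw' : w' ∈ chl G x u W)
    (hv : v ∈ desc G x w W) (hv' : v ∈ desc G x w' W) : w = w' := by
  have h1 := chl_dist hT hw
  have h1' := chl_dist hT hw'
  rw [mem_desc] at hv hv'
  have h2 := hT.connected.dist_triangle (u := x) (v := u) (w := v)
  have h3 := hT.connected.dist_triangle (u := u) (v := w) (w := v)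
  have h3' := hT.connected.dist_triangle (u := u) (v := w') (w := v)
  have e1 : G.dist v u = G.dist v w + 1 := by
    rw [dist_comm (u := v) (v := u), dist_comm (u := v) (v := w)]; omega
  have e2 : G.dist v u = G.dist v w' + 1 := by
    rw [dist_comm (u := v) (v := u), dist_comm (u := v) (v := w')]; omega
  exact closer_unique hT (dist_eq_one_iff_adj.1 h1.2) e1 (dist_eq_one_iff_adj.1 h1'.2) e2

theorem child_desc_disjoint (hT : G.IsTree) {x u w w' : V} {W : Finset V}
    (hw : w ∈ chl G x u W) (hw' : w' ∈ chl G x u W) (hne : w ≠ w') :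
    Disjoint (desc G x w W) (desc G x w' W) := by
  rw [Finset.disjoint_left]
  intro v hv hv'
  exact hne (child_unique hT hw hw' hv hv')

theorem notMem_desc_child (hT : G.IsTree) {x u w : V} {W : Finset V} (hw : w ∈ chl G x u W) :
    u ∉ desc G x w W := by
  intro h
  have h1 := chl_dist hT hw
  rw [mem_desc] at h
  omega

open scoped Classical in
/-- `desc u = {u} ∪ ⋃ desc (children)`. -/
theorem desc_eq_insert (hT : G.IsTree) {x u : V} {W : Finset V} (hW : ParClosed G x W)
    (hu : u ∈ W) :
    desc G x u W = insert u ((chl G x u W).biUnion fun w => desc G x w W) := by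
  ext v
  rw [Finset.mem_insert, Finset.mem_biUnion]
  constructor
  · intro hv
    by_cases hvu : v = u
    · exact Or.inl hvu
    · exact Or.inr (exists_child hT hW hv hvu)
  · rintro (rfl | ⟨w, hw, hv⟩)
    · exact self_mem_desc hu
    · exact desc_subset_desc hT (chl_subset_desc hT hw) hv

open scoped Classical in
theorem notMem_biUnion_child (hT : G.IsTree) {x u : V} {W : Finset V} :
    u ∉ (chl G x u W).biUnion fun w => desc G x w W := by
  rw [Finset.mem_biUnion]
  rintro ⟨w, hw, h⟩
  exact notMem_desc_child hT hw h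

open scoped Classical in
theorem pairwiseDisjoint_child (hT : G.IsTree) (x u : V) (W : Finset V) :
    ((chl G x u W : Finset V) : Set V).PairwiseDisjoint fun w => desc G x w W :=
  fun _ hw _ hw' hne => child_desc_disjoint hT hw hw' hne

open scoped Classical in
/-- products (and sums) over `desc u` split along the children -/
theorem prod_desc {M : Type*} [CommMonoid M] (hT : G.IsTree) {x u : V} {W : Finset V}
    (hW : ParClosed G x W) (hu : u ∈ W) (f : V → M) :
    ∏ v ∈ desc G x u W, f v = f u * ∏ w ∈ chl G x u W, ∏ v ∈ desc G x w W, f v := by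
  rw [desc_eq_insert hT hW hu, Finset.prod_insert (notMem_biUnion_child hT),
    Finset.prod_biUnion (pairwiseDisjoint_child hT x u W)]

open scoped Classical in
theorem sum_desc {M : Type*} [AddCommMonoid M] (hT : G.IsTree) {x u : V} {W : Finset V}
    (hW : ParClosed G x W) (hu : u ∈ W) (f : V → M) :
    ∑ v ∈ desc G x u W, f v = f u + ∑ w ∈ chl G x u W, ∑ v ∈ desc G x w W, f v := by
  rw [desc_eq_insert hT hW hu, Finset.sum_insert (notMem_biUnion_child hT),
    Finset.sum_biUnion (pairwiseDisjoint_child hT x u W)]

/-- children inside `W` and inside a descendant window, rooted at `x` or `u` -/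
theorem chl_desc (hT : G.IsTree) {x u w : V} {W : Finset V}
    (hw : w ∈ desc G x u W) : chl G u w (desc G x u W) = chl G x w W := by
  ext z
  rw [mem_chl, mem_chl]
  constructor
  · rintro ⟨hz, hzu, hp⟩
    have h := par_of_dist hT (mem_desc.1 hz).2 hzu
    exact ⟨(mem_desc.1 hz).1, h.1, h.2.1.trans hp⟩
  · rintro ⟨hz, hzx, hp⟩
    have hz' : z ∈ chl G x w W := mem_chl.2 ⟨hz, hzx, hp⟩
    have hzw := chl_subset_desc hT hz'
    have hzu : z ∈ desc G x u W := desc_subset_desc hT hw hzw
    have hne : z ≠ u := by
      rintro rfl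
      have h1 := (chl_dist hT hz').1
      have h2 := (mem_desc.1 hw).2
      omega
    have h := par_of_dist hT (mem_desc.1 hzu).2 hne
    exact ⟨hzu, hne, h.2.1.symm.trans hp⟩

/-- nested descendants: `desc u w (desc x u W) = desc x w W` for `w ∈ desc x u W`. -/
theorem desc_desc (hT : G.IsTree) {x u w : V} {W : Finset V} (hw : w ∈ desc G x u W) :
    desc G u w (desc G x u W) = desc G x w W := by
  ext v
  rw [mem_desc, mem_desc, mem_desc]
  rw [mem_desc] at hw
  constructor
  · rintro ⟨⟨hv, h1⟩, h2⟩
    exact ⟨hv, by omega⟩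
  · rintro ⟨hv, h1⟩
    have h2 := desc_trans hT hw.2 h1
    exact ⟨⟨hv, h2⟩, by omega⟩

theorem card_chl_le [G.LocallyFinite] (hT : G.IsTree) {d : ℕ} (hreg : G.IsRegularOfDegree d)
    {x u : V} (hu : u ≠ x) (W : Finset V) : (chl G x u W).card ≤ d - 1 := by
  rw [← card_ch_regular hT hreg hu]
  apply Finset.card_le_card
  intro w hw
  rw [mem_chl] at hw
  rw [mem_ch hT]
  exact hw.2

theorem card_chl_root_le [G.LocallyFinite] (hT : G.IsTree) {d : ℕ}
    (hreg : G.IsRegularOfDegree d) (x : V) (W : Finset V) : (chl G x x W).card ≤ d := by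
  rw [← card_ch_root_regular hreg x]
  apply Finset.card_le_card
  intro w hw
  rw [mem_chl] at hw
  rw [mem_ch hT]
  exact hw.2

theorem chl_eq_ch [G.LocallyFinite] (hT : G.IsTree) {x u : V} {W : Finset V}
    (h : ch G x u ⊆ W) : chl G x u W = ch G x u := by
  ext w
  rw [mem_chl, mem_ch hT]
  constructor
  · exact fun h => h.2
  · intro h'
    exact ⟨h ((mem_ch hT).2 h'), h'⟩

theorem chl_bl [G.LocallyFinite] (hT : G.IsTree) {c x u : V} {R : ℕ}
    (h : G.dist c u + 1 ≤ R) : chl G x u (bl G c R) = ch G x u :=
  chl_eq_ch hT (ch_subset_bl hT h)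

/-! ### Paths -/

theorem mem_pth {x u y z : V} {W : Finset V} :
    z ∈ pth G x u y W ↔ z ∈ W ∧ z ≠ u ∧ z ∈ desc G x u W ∧ y ∈ desc G x z W := by
  simp [pth]

theorem pth_self (hT : G.IsTree) (x u : V) (W : Finset V) : pth G x u u W = ∅ := by
  ext z
  rw [mem_pth]
  simp only [Finset.notMem_empty, iff_false]
  rintro ⟨_, h1, h2, h3⟩
  rw [mem_desc] at h2 h3
  apply h1
  have : G.dist u z = 0 := by omega
  exact ((hT.connected.dist_eq_zero_iff).1 this).symm

open scoped Classical in
/-- bottom decomposition of a path -/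
theorem pth_insert_bot (hT : G.IsTree) {x u y : V} {W : Finset V} (hW : ParClosed G x W)
    (hy : y ∈ desc G x u W) (hyu : y ≠ u) :
    pth G x u y W = insert y (pth G x u (par G x y) W) := by
  have hyW := (mem_desc.1 hy).1
  ext z
  rw [Finset.mem_insert, mem_pth, mem_pth]
  constructor
  · rintro ⟨h1, h2, h3, h4⟩
    by_cases hzy : z = y
    · exact Or.inl hzy
    · right
      refine ⟨h1, h2, h3, ?_⟩
      exact par_mem_desc hT hW h4 (Ne.symm hzy)
  · rintro (rfl | ⟨h1, h2, h3, h4⟩)
    · exact ⟨hyW, hyu, hy, self_mem_desc hyW⟩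
    · refine ⟨h1, h2, h3, ?_⟩
      have hyx : y ≠ x := (par_of_dist hT (mem_desc.1 hy).2 hyu).1
      have h5 := dist_par hT hyx
      rw [mem_desc] at h4 ⊢
      refine ⟨hyW, ?_⟩
      have h6 : G.dist (par G x y) y = 1 := dist_eq_one_iff_adj.2 (adj_par hT hyx).symm
      have h7 := hT.connected.dist_triangle (u := z) (v := par G x y) (w := y)
      have h8 := hT.connected.dist_triangle (u := x) (v := z) (w := y)
      omega

theorem notMem_pth_par (hT : G.IsTree) {x u y : V} {W : Finset V} (hyx : y ≠ x) :
    y ∉ pth G x u (par G x y) W := by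
  intro h
  rw [mem_pth] at h
  have h1 := (mem_desc.1 h.2.2.2).2
  have h2 := dist_par hT hyx
  omega

open scoped Classical in
/-- top decomposition of a path -/
theorem pth_insert_top (hT : G.IsTree) {x u w y : V} {W : Finset V}
    (hw : w ∈ chl G x u W) (hy : y ∈ desc G x w W) :
    pth G x u y W = insert w (pth G x w y W) := by
  have hwW := (mem_chl.1 hw).1
  have hwd := chl_subset_desc hT hw
  have hwu : w ≠ u := by
    rintro rfl
    have := (chl_dist hT hw).2
    simp at this
  ext z
  rw [Finset.mem_insert, mem_pth, mem_pth]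
  constructor
  · rintro ⟨h1, h2, h3, h4⟩
    by_cases hzw : z = w
    · exact Or.inl hzw
    · right
      refine ⟨h1, hzw, ?_, h4⟩
      -- z between u and y, z ≠ u, so z is a descendant of w
      rw [mem_desc] at h3 h4 hy ⊢
      refine ⟨h1, ?_⟩
      have d1 := (chl_dist hT hw)
      have e1 := dist_between hT h3.2 h4.2
      have hzpos : 0 < G.dist u z := hT.connected.pos_dist_of_ne (Ne.symm h2)
      -- the neighbour of u towards z equals w
      set w' := par G z u with hw'
      have huz : u ≠ z := Ne.symm h2
      have a1 := adj_par hT huz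
      have a2 := dist_par hT huz
      rw [← hw'] at a1 a2
      rw [dist_comm (u := z) (v := u), dist_comm (u := z) (v := w')] at a2
      have t1 := hT.connected.dist_triangle (u := w') (v := z) (w := y)
      have t2 := hT.connected.dist_triangle (u := u) (v := w') (w := y)
      have t3 : G.dist u w' = 1 := dist_eq_one_iff_adj.2 a1
      have f1 : G.dist y u = G.dist y w' + 1 := by
        rw [dist_comm (u := y) (v := u), dist_comm (u := y) (v := w')]; omega
      have f2 : G.dist y u = G.dist y w + 1 := by
        have := hT.connected.dist_triangle (u := x) (v := u) (w := y)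
        have := hT.connected.dist_triangle (u := u) (v := w) (w := y)
        rw [dist_comm (u := y) (v := u), dist_comm (u := y) (v := w)]; omega
      have : w' = w := closer_unique hT a1 f1 (dist_eq_one_iff_adj.1 d1.2) f2
      rw [this] at a2
      omega
  · rintro (rfl | ⟨h1, h2, h3, h4⟩)
    · exact ⟨hwW, hwu, hwd, hy⟩
    · refine ⟨h1, ?_, desc_subset_desc hT hwd h3, h4⟩
      rintro rfl
      exact notMem_desc_child hT hw h3

theorem notMem_pth_self (x w y : V) (W : Finset V) : w ∉ pth G x w y W := by
  intro h
  exact (mem_pth.1 h).2.1 rfl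

theorem card_pth (hT : G.IsTree) {x u : V} {W : Finset V} (hW : ParClosed G x W) :
    ∀ (n : ℕ) {y : V}, G.dist u y = n → y ∈ desc G x u W → (pth G x u y W).card = n := by
  classical
  intro n
  induction n with
  | zero =>
    intro y hn _
    have : u = y := (hT.connected.dist_eq_zero_iff).1 hn
    subst this
    rw [pth_self hT]; rfl
  | succ n ih =>
    intro y hn hy
    have hyu : y ≠ u := by rintro rfl; simp at hn
    have h := par_of_dist hT (mem_desc.1 hy).2 hyu
    rw [pth_insert_bot hT hW hy hyu]
    rw [Finset.card_insert_of_notMem (notMem_pth_par hT h.1)]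
    congr 1
    apply ih _ (par_mem_desc hT hW hy hyu)
    have := dist_par hT hyu
    rw [h.2.1]; omega

end Crest.Agent.H14
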