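import Mathlib
import Crest.Agent.H14.Defs

/-!
# Row 160: the recursion layer (helper17)

Quantile function `Qf`, velocity addition `opl`, positivity of the likelihood, the fixed point
equation of `Zrd`, bounds and measurability of the evidence fields.
-/

set_option autoImplicit false

open MeasureTheory Filter Topology

namespace Crest.Agent.H14

open scoped Classical

section Quantile

variable {κ u : ℝ}

theorem Qf_disc_pos (hκ : |κ| ≤ 1 / 2) (hu : u ∈ Set.Icc (0:ℝ) 1) :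
    0 < (1 - κ) ^ 2 + 4 * κ * u := by
  have h := abs_le.mp hκ
  rcases le_or_gt 0 κ with h0 | h0
  · have : 0 ≤ 4 * κ * u := by have := hu.1; positivity
    nlinarith
  · have : 4 * κ ≤ 4 * κ * u := by nlinarith [hu.2]
    nlinarith

theorem Qf_den_pos (κ u : ℝ) : 0 < 1 + Real.sqrt ((1 - κ) ^ 2 + 4 * κ * u) := by
  have := Real.sqrt_nonneg ((1 - κ) ^ 2 + 4 * κ * u)
  linarith

theorem Qf_le_one (hκ : |κ| ≤ 1 / 2) (hu : u ∈ Set.Icc (0:ℝ) 1) : Qf κ u ≤ 1 := by
  have h := abs_le.mp hκ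
  have hs := Real.sqrt_nonneg ((1 - κ) ^ 2 + 4 * κ * u)
  unfold Qf
  rw [div_le_one (Qf_den_pos κ u)]
  rcases le_or_gt (4 * u - 3 + κ) 0 with h1 | h1
  · linarith
  · have : 4 * u - 3 + κ ≤ Real.sqrt ((1 - κ) ^ 2 + 4 * κ * u) := by
      apply Real.le_sqrt_of_sq_le
      have h2 : 0 ≤ (1 - u) * (4 * u - 2 + κ) :=
        mul_nonneg (sub_nonneg.mpr hu.2) (by linarith)
      nlinarith
    linarith

theorem neg_one_le_Qf (hκ : |κ| ≤ 1 / 2) (hu : u ∈ Set.Icc (0:ℝ) 1) : -1 ≤ Qf κ u := by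
  have h := abs_le.mp hκ
  have hs := Real.sqrt_nonneg ((1 - κ) ^ 2 + 4 * κ * u)
  unfold Qf
  rw [le_div_iff₀ (Qf_den_pos κ u)]
  rcases le_or_gt (1 - κ - 4 * u) 0 with h1 | h1
  · linarith
  · have : 1 - κ - 4 * u ≤ Real.sqrt ((1 - κ) ^ 2 + 4 * κ * u) := by
      apply Real.le_sqrt_of_sq_le
      have h2 : 0 ≤ u * (2 - κ - 4 * u) := mul_nonneg hu.1 (by linarith)
      nlinarith
    linarith

theorem abs_Qf_le (hκ : |κ| ≤ 1 / 2) (hu : u ∈ Set.Icc (0:ℝ) 1) : |Qf κ u| ≤ 1 :=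
  abs_le.mpr ⟨neg_one_le_Qf hκ hu, Qf_le_one hκ hu⟩

theorem one_add_mul_Qf (hκ : |κ| ≤ 1 / 2) (hu : u ∈ Set.Icc (0:ℝ) 1) :
    1 + κ * Qf κ u = Real.sqrt ((1 - κ) ^ 2 + 4 * κ * u) := by
  have hd := (Qf_disc_pos hκ hu).le
  have hD := Qf_den_pos κ u
  have hs := Real.sq_sqrt hd
  unfold Qf
  set s := Real.sqrt ((1 - κ) ^ 2 + 4 * κ * u) with hsdef
  field_simp
  nlinarith [hs, sq_nonneg s]

/-- the defining equation of the quantile: `F_κ (Qf κ u) = u`, times 4 -/
theorem Qf_eqn (hκ : |κ| ≤ 1 / 2) (hu : u ∈ Set.Icc (0:ℝ) 1) :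
    κ * (Qf κ u) ^ 2 + 2 * Qf κ u + 2 - κ = 4 * u := by
  have h1 := one_add_mul_Qf hκ hu
  have hD := Qf_den_pos κ u
  have h2 : Qf κ u * (1 + Real.sqrt ((1 - κ) ^ 2 + 4 * κ * u)) = 4 * u - 2 + κ := by
    unfold Qf
    rw [div_mul_cancel₀ _ hD.ne']
  rw [← h1] at h2
  linarith

@[simp] theorem Qf_zero_left (u : ℝ) : Qf 0 u = 2 * u - 1 := by
  unfold Qf
  simp
  ring

theorem Qf_lip {κ' : ℝ} (hκ : |κ| ≤ 1 / 2) (hκ' : |κ'| ≤ 1 / 2) (hu : u ∈ Set.Icc (0:ℝ) 1) :
    |Qf κ u - Qf κ' u| ≤ |κ - κ'| := by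
  set z := Qf κ u with hz
  set z' := Qf κ' u with hz'
  have hzm := abs_le.mp (abs_Qf_le hκ hu)
  have hzm' := abs_le.mp (abs_Qf_le hκ' hu)
  have h1 := Qf_eqn hκ hu
  have h2 := Qf_eqn hκ' hu
  rw [← hz] at h1 hzm
  rw [← hz'] at h2 hzm'
  have h3 : (z - z') * (2 + κ' * (z + z')) = (κ - κ') * (1 - z ^ 2) := by linarith
  have h4 : 1 ≤ 2 + κ' * (z + z') := by
    have : |κ' * (z + z')| ≤ 1 / 2 * 2 := by
      rw [abs_mul]
      apply mul_le_mul hκ' _ (abs_nonneg _) (by norm_num)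
      rw [abs_le]; constructor <;> linarith
    have := abs_le.mp this
    linarith
  have h5 : |1 - z ^ 2| ≤ 1 := by
    rw [abs_le]
    constructor <;> nlinarith [sq_nonneg z]
  calc |z - z'| = |z - z'| * 1 := by ring
    _ ≤ |z - z'| * |2 + κ' * (z + z')| := by
        apply mul_le_mul_of_nonneg_left _ (abs_nonneg _)
        exact le_trans h4 (le_abs_self _)
    _ = |κ - κ'| * |1 - z ^ 2| := by rw [← abs_mul, h3, abs_mul]
    _ ≤ |κ - κ'| * 1 := mul_le_mul_of_nonneg_left h5 (abs_nonneg _)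
    _ = |κ - κ'| := by ring

/-- distribution function -/
noncomputable def Ff (κ v : ℝ) : ℝ := v + κ * (v ^ 2 - v)

theorem Qf_Ff {v : ℝ} (hκ : |κ| ≤ 1 / 2) (hv : v ∈ Set.Icc (0:ℝ) 1) :
    Qf κ (Ff κ v) = 2 * v - 1 := by
  have h := abs_le.mp hκ
  have e : (1 - κ) ^ 2 + 4 * κ * Ff κ v = (1 + κ * (2 * v - 1)) ^ 2 := by
    unfold Ff; ring
  have h1 : |κ * (2 * v - 1)| ≤ 1 / 2 * 1 := by
    rw [abs_mul]
    apply mul_le_mul hκ _ (abs_nonneg _) (by norm_num)
    rw [abs_le]; constructor <;> linarith [hv.1, hv.2]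
  have h2 := abs_le.mp h1
  unfold Qf
  rw [e, Real.sqrt_sq (by linarith)]
  rw [div_eq_iff (by linarith)]
  unfold Ff
  ring

theorem Ff_mem {v : ℝ} (hκ : |κ| ≤ 1 / 2) (hv : v ∈ Set.Icc (0:ℝ) 1) :
    Ff κ v ∈ Set.Icc (0:ℝ) 1 := by
  have h := abs_le.mp hκ
  have hv1 := hv.1
  have hv2 := hv.2
  unfold Ff
  have h3 : 0 ≤ v * (1 - v) := mul_nonneg hv1 (by linarith)
  constructor <;> nlinarith [mul_nonneg hv1 hv1, mul_nonneg (sub_nonneg.2 hv2) (sub_nonneg.2 hv2)]

theorem Ff_Qf (hκ : |κ| ≤ 1 / 2) (hu : u ∈ Set.Icc (0:ℝ) 1) :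
    Ff κ ((1 + Qf κ u) / 2) = u := by
  have := Qf_eqn hκ hu
  unfold Ff
  linarith

theorem Ff_image (hκ : |κ| ≤ 1 / 2) : Ff κ '' Set.Icc (0:ℝ) 1 = Set.Icc (0:ℝ) 1 := by
  ext x
  constructor
  · rintro ⟨y, hy, rfl⟩
    exact Ff_mem hκ hy
  · intro hx
    have h := abs_le.mp (abs_Qf_le hκ hx)
    exact ⟨(1 + Qf κ x) / 2, ⟨by linarith, by linarith⟩, Ff_Qf hκ hx⟩

theorem Ff_injOn (hκ : |κ| ≤ 1 / 2) : Set.InjOn (Ff κ) (Set.Icc (0:ℝ) 1) := by
  intro a ha b hb hab
  have h1 := Qf_Ff hκ ha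
  have h2 := Qf_Ff hκ hb
  rw [hab] at h1
  linarith

/-- change of variables: the law of `Qf κ u` is the tilt of the uniform law. -/
theorem setLIntegral_Qf (hκ : |κ| ≤ 1 / 2) (g : ℝ → ENNReal) :
    ∫⁻ u in Set.Icc (0:ℝ) 1, g (Qf κ u) =
      ∫⁻ v in Set.Icc (0:ℝ) 1, ENNReal.ofReal (1 + κ * (2 * v - 1)) * g (2 * v - 1) := by
  have h := lintegral_image_eq_lintegral_abs_deriv_mul (s := Set.Icc (0:ℝ) 1) measurableSet_Icc
    (f := Ff κ) (f' := fun z => 1 + κ * (2 * z - 1))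
    (fun x _ => by
      apply HasDerivAt.hasDerivWithinAt
      unfold Ff
      have h1 : HasDerivAt (fun z : ℝ => z ^ 2 - z) (2 * x - 1) x := by
        have h2 : HasDerivAt (fun z : ℝ => z ^ 2) (2 * x) x := by
          simpa using hasDerivAt_pow 2 x
        exact h2.sub (hasDerivAt_id' x)
      exact (hasDerivAt_id x).add (h1.const_mul _))
    (Ff_injOn hκ) (fun u => g (Qf κ u))
  rw [Ff_image hκ] at h
  rw [h]
  apply setLIntegral_congr_fun measurableSet_Icc
  intro z hz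
  simp only
  rw [Qf_Ff hκ hz]
  congr 2
  have h1 := hz.1
  have h2 := hz.2
  rw [abs_of_nonneg]
  have : |κ * (2 * z - 1)| ≤ 1/2 * 1 := by
    rw [abs_mul]
    apply mul_le_mul hκ _ (abs_nonneg _) (by norm_num)
    rw [abs_le]; constructor <;> linarith
  have := abs_le.mp this
  linarith

theorem lintegral_unitI (G : ℝ → ENNReal) :
    ∫⁻ u : unitInterval, G (u : ℝ) = ∫⁻ u in Set.Icc (0:ℝ) 1, G u :=
  lintegral_subtype_comap measurableSet_Icc G

theorem lintegral_Qf (hκ : |κ| ≤ 1 / 2) (g : ℝ → ENNReal) :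
    ∫⁻ u : unitInterval, g (Qf κ u) =
      ∫⁻ v : unitInterval, ENNReal.ofReal (1 + κ * (2 * (v:ℝ) - 1)) * g (2 * (v:ℝ) - 1) := by
  rw [lintegral_unitI (fun u => g (Qf κ u)), setLIntegral_Qf hκ,
    lintegral_unitI (fun v => ENNReal.ofReal (1 + κ * (2 * v - 1)) * g (2 * v - 1))]

theorem measurable_Qf : Measurable (fun q : ℝ × ℝ => Qf q.1 q.2) := by
  unfold Qf
  fun_prop

end Quantile

section Opl

theorem one_add_mul_opl {a b σ : ℝ} (hσ : σ ^ 2 = 1) (h : 1 + a * b ≠ 0) :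
    (1 + σ * a) * (1 + σ * b) = (1 + a * b) * (1 + σ * opl a b) := by
  unfold opl
  field_simp
  linear_combination (a * b) * hσ

theorem one_add_mul_pos {a b : ℝ} (ha : |a| < 1) (hb : |b| ≤ 1) : 0 < 1 + a * b := by
  have : |a * b| < 1 := by
    rw [abs_mul]
    calc |a| * |b| ≤ |a| * 1 := mul_le_mul_of_nonneg_left hb (abs_nonneg _)
      _ < 1 := by linarith
  have := abs_lt.mp this
  linarith

theorem abs_opl_lt {a b : ℝ} (ha : |a| < 1) (hb : |b| < 1) : |opl a b| < 1 := by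
  have h := one_add_mul_pos ha hb.le
  have ha' := abs_lt.mp ha
  have hb' := abs_lt.mp hb
  unfold opl
  rw [abs_div, abs_of_pos h, div_lt_one h, abs_lt]
  constructor
  · nlinarith [mul_pos (show (0:ℝ) < 1 + a by linarith) (show (0:ℝ) < 1 + b by linarith)]
  · nlinarith [mul_pos (show (0:ℝ) < 1 - a by linarith) (show (0:ℝ) < 1 - b by linarith)]

theorem abs_opl_le {a b ρ σ : ℝ} (ha : |a| ≤ ρ) (hb : |b| ≤ σ) (hρ : ρ < 1) (hσ : σ < 1) :
    |opl a b| ≤ opl ρ σ := by
  have hρ0 : 0 ≤ ρ := (abs_nonneg a).trans ha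
  have hσ0 : 0 ≤ σ := (abs_nonneg b).trans hb
  have ha' := abs_le.mp ha
  have hb' := abs_le.mp hb
  have h := one_add_mul_pos (lt_of_le_of_lt ha hρ) (hb.trans hσ.le)
  have h2 : 0 < 1 + ρ * σ := by positivity
  unfold opl
  rw [abs_div, abs_of_pos h, div_le_div_iff₀ h h2]
  have key : ∀ a b : ℝ, -ρ ≤ a → a ≤ ρ → -σ ≤ b → b ≤ σ →
      (a + b) * (1 + ρ * σ) ≤ (ρ + σ) * (1 + a * b) := by
    intro a b ha1 ha2 hb1 hb2
    have hρσ : (ρ + σ) * (1 + a * b) - (a + b) * (1 + ρ * σ)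
        = (ρ - a) * (1 - σ * b) + (σ - b) * (1 - ρ * a) := by ring
    have h3 : 0 ≤ 1 - σ * b := by nlinarith
    have h4 : 0 ≤ 1 - ρ * a := by nlinarith
    nlinarith [mul_nonneg (sub_nonneg.2 ha2) h3, mul_nonneg (sub_nonneg.2 hb2) h4]
  rcases abs_cases (a + b) with ⟨h5, _⟩ | ⟨h5, _⟩
  · rw [h5]
    exact key a b ha'.1 ha'.2 hb'.1 hb'.2
  · rw [h5]
    have := key (-a) (-b) (by linarith) (by linarith) (by linarith) (by linarith)
    nlinarith

theorem opl_lt_one {a b : ℝ} (ha : 0 ≤ a) (hb : 0 ≤ b) (ha1 : a < 1) (hb1 : b < 1) :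
    opl a b < 1 := by
  have := abs_opl_lt (a := a) (b := b) (by rwa [abs_of_nonneg ha]) (by rwa [abs_of_nonneg hb])
  exact lt_of_le_of_lt (le_abs_self _) this

theorem opl_nonneg {a b : ℝ} (ha : 0 ≤ a) (hb : 0 ≤ b) : 0 ≤ opl a b := by
  unfold opl; positivity

@[simp] theorem opl_zero (a : ℝ) : opl a 0 = a := by unfold opl; simp

@[simp] theorem zero_opl (a : ℝ) : opl 0 a = a := by unfold opl; simp

theorem opl_neg (a b : ℝ) : opl (-a) (-b) = -opl a b := by
  unfold opl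
  rw [neg_mul_neg, ← neg_add, neg_div]

theorem measurable_opl : Measurable (fun q : ℝ × ℝ => opl q.1 q.2) := by
  unfold opl
  fun_prop

end Opl

section Static

variable {E : Type*} {W : Finset E} {w : Finset E → ℝ} {r r' : E → ℝ}

theorem sp_sq (S : Finset E) (v : E) : sp S v ^ 2 = 1 := by
  unfold sp; split_ifs <;> norm_num

theorem abs_sp (S : Finset E) (v : E) : |sp S v| = 1 := by
  unfold sp; split_ifs <;> simp

theorem one_add_sp_nonneg {x : ℝ} (hx : |x| ≤ 1) (S : Finset E) (v : E) : 0 ≤ 1 + sp S v * x := by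
  have := abs_le.mp hx
  unfold sp; split_ifs <;> linarith

theorem one_add_sp_pos {x : ℝ} (hx : |x| < 1) (S : Finset E) (v : E) : 0 < 1 + sp S v * x := by
  have := abs_lt.mp hx
  unfold sp; split_ifs <;> linarith

theorem tl_nonneg (hr : ∀ v ∈ W, |r v| ≤ 1) (S : Finset E) : 0 ≤ tl W r S :=
  Finset.prod_nonneg fun v hv => one_add_sp_nonneg (hr v hv) S v

theorem tl_pos (hr : ∀ v ∈ W, |r v| < 1) (S : Finset E) : 0 < tl W r S :=
  Finset.prod_pos fun v hv => one_add_sp_pos (hr v hv) S v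

theorem tl_congr (h : ∀ v ∈ W, r v = r' v) (S : Finset E) : tl W r S = tl W r' S := by
  unfold tl
  exact Finset.prod_congr rfl fun v hv => by rw [h v hv]

theorem Lf_congr (h : ∀ v ∈ W, r v = r' v) : Lf W w r = Lf W w r' := by
  unfold Lf
  exact Finset.sum_congr rfl fun S _ => by rw [tl_congr h]

theorem Ef_congr (g : Finset E → ℝ) (h : ∀ v ∈ W, r v = r' v) : Ef W w g r = Ef W w g r' := by
  unfold Ef
  rw [Lf_congr h]
  congr 1
  exact Finset.sum_congr rfl fun S _ => by rw [tl_congr h]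

theorem Mf_congr (z : E) (h : ∀ v ∈ W, r v = r' v) : Mf W w z r = Mf W w z r' :=
  Ef_congr _ h

theorem Kf_congr (x y : E) (h : ∀ v ∈ W, r v = r' v) : Kf W w x y r = Kf W w x y r' := by
  unfold Kf
  rw [Ef_congr _ h, Mf_congr x h, Mf_congr y h]

theorem Lf_nonneg (hw : Pos W w) (hr : ∀ v ∈ W, |r v| ≤ 1) : 0 ≤ Lf W w r :=
  Finset.sum_nonneg fun S hS =>
    mul_nonneg (hw.nonneg S (Finset.mem_powerset.1 hS)) (tl_nonneg hr S)

theorem Lf_pos (hw : Pos W w) (hr : ∀ v ∈ W, |r v| < 1) : 0 < Lf W w r := by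
  have h0 : ∀ S ∈ W.powerset, 0 ≤ w S * tl W r S := fun S hS =>
    mul_nonneg (hw.nonneg S (Finset.mem_powerset.1 hS)) (tl_pos hr S).le
  have : ∃ S ∈ W.powerset, 0 < w S := by
    by_contra hcon
    push Not at hcon
    have := hw.total
    have h2 : ∑ S ∈ W.powerset, w S ≤ 0 := Finset.sum_nonpos hcon
    linarith
  obtain ⟨S, hS, hwS⟩ := this
  exact Finset.sum_pos' h0 ⟨S, hS, mul_pos hwS (tl_pos hr S)⟩

theorem Ef_abs_le (hw : Pos W w) (hr : ∀ v ∈ W, |r v| ≤ 1) {g : Finset E → ℝ} {C : ℝ}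
    (hC : 0 ≤ C) (hg : ∀ S, S ⊆ W → |g S| ≤ C) : |Ef W w g r| ≤ C := by
  unfold Ef
  have hL := Lf_nonneg hw hr
  rcases hL.eq_or_lt with h | h
  · rw [← h]; simpa using hC
  rw [abs_div, abs_of_pos h, div_le_iff₀ h]
  refine (Finset.abs_sum_le_sum_abs _ _).trans ?_
  unfold Lf
  rw [Finset.mul_sum]
  refine Finset.sum_le_sum fun S hS => ?_
  have h1 : 0 ≤ w S * tl W r S :=
    mul_nonneg (hw.nonneg S (Finset.mem_powerset.1 hS)) (tl_nonneg hr S)
  rw [abs_mul, abs_of_nonneg h1, mul_comm]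
  exact mul_le_mul_of_nonneg_right (hg S (Finset.mem_powerset.1 hS)) h1

theorem abs_Mf_le (hw : Pos W w) (z : E) (hr : ∀ v ∈ W, |r v| ≤ 1) : |Mf W w z r| ≤ 1 :=
  Ef_abs_le hw hr zero_le_one fun S _ => (abs_sp S z).le

theorem abs_Kf_le (hw : Pos W w) (x y : E) (hr : ∀ v ∈ W, |r v| ≤ 1) : |Kf W w x y r| ≤ 2 := by
  unfold Kf
  have h1 : |Ef W w (fun S => sp S x * sp S y) r| ≤ 1 :=
    Ef_abs_le hw hr zero_le_one fun S _ => by rw [abs_mul, abs_sp, abs_sp]; norm_num
  have h2 : |Mf W w x r * Mf W w y r| ≤ 1 := by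
    rw [abs_mul]
    exact mul_le_one₀ (abs_Mf_le hw x hr) (abs_nonneg _) (abs_Mf_le hw y hr)
  calc _ ≤ |Ef W w (fun S => sp S x * sp S y) r| + |Mf W w x r * Mf W w y r| := abs_sub _ _
    _ ≤ 2 := by linarith

theorem measurable_tl (W S : Finset E) : Measurable (fun r : E → ℝ => tl W r S) := by
  unfold tl
  apply Finset.measurable_prod
  intro v _
  exact measurable_const.add ((measurable_pi_apply v).const_mul _)

theorem measurable_Lf (W : Finset E) (w : Finset E → ℝ) : Measurable (Lf W w) := by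
  unfold Lf
  apply Finset.measurable_sum
  intro S _
  exact (measurable_tl W S).const_mul _

theorem measurable_Ef (W : Finset E) (w g : Finset E → ℝ) : Measurable (Ef W w g) := by
  unfold Ef
  apply Measurable.div
  · apply Finset.measurable_sum
    intro S _
    exact ((measurable_tl W S).const_mul _).mul_const _
  · exact measurable_Lf W w

theorem measurable_Mf (W : Finset E) (w : Finset E → ℝ) (z : E) : Measurable (Mf W w z) :=
  measurable_Ef W w _

theorem measurable_Kf (W : Finset E) (w : Finset E → ℝ) (x y : E) : Measurable (Kf W w x y) := by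
  unfold Kf
  exact (measurable_Ef W w _).sub ((measurable_Mf W w x).mul (measurable_Mf W w y))

end Static

section Fixed

variable {E : Type*} {W : Finset E} {w : Finset E → ℝ} {r t a : E → ℝ} {u : E → unitInterval}

theorem stt_congr {Z Z' : E → ℝ} {s : ℝ} (h : ∀ v ∈ W, t v < s → Z v = Z' v) :
    ∀ v ∈ W, stt r t Z s v = stt r t Z' s v := by
  intro v hv
  unfold stt
  split_ifs with h1
  · rw [h v hv h1]
  · rfl

theorem stepZ_congr {Z Z' : E → ℝ} {v : E} (h : ∀ v' ∈ W, t v' < t v → Z v' = Z' v') :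
    stepZ W w r t a u Z v = stepZ W w r t a u Z' v := by
  unfold stepZ
  rw [Mf_congr v (stt_congr h)]

theorem stepZ_iter_congr (n : ℕ) : ∀ (Z Z' : E → ℝ) (v : E), v ∈ W →
    (W.filter (fun v' => t v' < t v)).card < n →
    (stepZ W w r t a u)^[n] Z v = (stepZ W w r t a u)^[n] Z' v := by
  induction n with
  | zero => intro Z Z' v _ h; exact absurd h (Nat.not_lt_zero _)
  | succ n ih =>
    intro Z Z' v hv hcard
    rw [Function.iterate_succ_apply', Function.iterate_succ_apply']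
    apply stepZ_congr
    intro v' hv' hlt
    apply ih Z Z' v' hv'
    have hss : W.filter (fun x => t x < t v') ⊂ W.filter (fun x => t x < t v) := by
      rw [Finset.ssubset_iff_of_subset]
      · exact ⟨v', Finset.mem_filter.2 ⟨hv', hlt⟩, fun h => lt_irrefl _ (Finset.mem_filter.1 h).2⟩
      · intro x hx
        rw [Finset.mem_filter] at hx ⊢
        exact ⟨hx.1, hx.2.trans hlt⟩
    have := Finset.card_lt_card hss
    omega

theorem Zrd_of_notMem {v : E} (hv : v ∉ W) : Zrd W w r t a u v = 0 := by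
  unfold Zrd
  rcases W.card with _ | n
  · rfl
  · rw [Function.iterate_succ_apply']
    unfold stepZ
    rw [if_neg hv]

/-- `Zrd` is a fixed point of `stepZ`. -/
theorem Zrd_fixed : stepZ W w r t a u (Zrd W w r t a u) = Zrd W w r t a u := by
  funext v
  by_cases hv : v ∈ W
  · have h1 : (W.filter (fun v' => t v' < t v)).card < W.card := by
      apply Finset.card_lt_card
      rw [Finset.ssubset_iff_of_subset (Finset.filter_subset _ _)]
      exact ⟨v, hv, fun h => lt_irrefl _ (Finset.mem_filter.1 h).2⟩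
    unfold Zrd
    rw [← Function.iterate_succ_apply' (stepZ W w r t a u), Function.iterate_succ_apply]
    exact stepZ_iter_congr W.card _ _ v hv h1
  · rw [Zrd_of_notMem hv]
    unfold stepZ
    rw [if_neg hv]

theorem Zrd_eq {v : E} (hv : v ∈ W) : Zrd W w r t a u v =
    a v * Qf (a v * Mf W w v (stt r t (Zrd W w r t a u) (t v))) (u v) := by
  conv_lhs => rw [← Zrd_fixed]
  unfold stepZ
  rw [if_pos hv]

/-- uniqueness of the fixed point -/
theorem Zrd_unique {Z : E → ℝ} (hZ : stepZ W w r t a u Z = Z) : Z = Zrd W w r t a u := by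
  have h1 : ∀ n : ℕ, (stepZ W w r t a u)^[n] Z = Z := fun n => Function.iterate_fixed hZ n
  funext v
  by_cases hv : v ∈ W
  · have h2 : (W.filter (fun v' => t v' < t v)).card < W.card := by
      apply Finset.card_lt_card
      rw [Finset.ssubset_iff_of_subset (Finset.filter_subset _ _)]
      exact ⟨v, hv, fun h => lt_irrefl _ (Finset.mem_filter.1 h).2⟩
    rw [← h1 W.card]
    exact stepZ_iter_congr W.card _ _ v hv h2
  · rw [Zrd_of_notMem hv, ← hZ]
    unfold stepZ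
    rw [if_neg hv]

end Fixed

section Bounds

variable {E : Type*} {W : Finset E} {w : Finset E → ℝ} {r t a : E → ℝ} {u : E → unitInterval}

theorem abs_stt_le {ρ σ : ℝ} {Z : E → ℝ} {s : ℝ} (hr : ∀ v, |r v| ≤ ρ) (hZ : ∀ v, |Z v| ≤ σ)
    (hρ : ρ < 1) (hσ : σ < 1) (v : E) : |stt r t Z s v| ≤ opl ρ σ := by
  unfold stt
  split_ifs with h
  · exact abs_opl_le (hr v) (hZ v) hρ hσ
  · refine (hr v).trans ?_
    have hρ0 : 0 ≤ ρ := (abs_nonneg _).trans (hr v)
    have hσ0 : 0 ≤ σ := (abs_nonneg _).trans (hZ v)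
    have := abs_opl_le (a := ρ) (b := 0) (ρ := ρ) (σ := σ) (by rw [abs_of_nonneg hρ0])
      (by simpa using hσ0) hρ hσ
    rw [opl_zero, abs_of_nonneg hρ0] at this
    exact this

theorem abs_stt_lt_one {Z : E → ℝ} {s : ℝ} {v : E} (hr : |r v| < 1) (hZ : |Z v| < 1) :
    |stt r t Z s v| < 1 := by
  unfold stt
  split_ifs with h
  · exact abs_opl_lt hr hZ
  · exact hr

theorem abs_stepZ_le (hw : Pos W w) (hr : ∀ v ∈ W, |r v| < 1) (ha : ∀ v, 0 ≤ a v ∧ a v ≤ 1 / 2)
    {Z : E → ℝ} (hZ : ∀ v, |Z v| ≤ a v) (v : E) : |stepZ W w r t a u Z v| ≤ a v := by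
  unfold stepZ
  split_ifs with hv
  · have h1 : ∀ v' ∈ W, |stt r t Z (t v) v'| ≤ 1 := fun v' hv' =>
      (abs_stt_lt_one (hr v' hv') (lt_of_le_of_lt (hZ v') (by linarith [(ha v').2]))).le
    have h2 := abs_Mf_le hw v h1
    have h3 : |a v * Mf W w v (stt r t Z (t v))| ≤ 1 / 2 := by
      rw [abs_mul, abs_of_nonneg (ha v).1]
      calc a v * |Mf W w v (stt r t Z (t v))| ≤ a v * 1 :=
            mul_le_mul_of_nonneg_left h2 (ha v).1
        _ ≤ 1 / 2 := by linarith [(ha v).2]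
    have h4 := abs_Qf_le h3 (u v).2
    rw [abs_mul, abs_of_nonneg (ha v).1]
    calc _ ≤ a v * 1 := mul_le_mul_of_nonneg_left h4 (ha v).1
      _ = a v := mul_one _
  · rw [abs_zero]; exact (ha v).1

theorem abs_Zrd_le (hw : Pos W w) (hr : ∀ v ∈ W, |r v| < 1) (ha : ∀ v, 0 ≤ a v ∧ a v ≤ 1 / 2)
    (v : E) : |Zrd W w r t a u v| ≤ a v := by
  unfold Zrd
  have : ∀ n : ℕ, ∀ v, |(stepZ W w r t a u)^[n] (fun _ => 0) v| ≤ a v := by
    intro n
    induction n with
    | zero => intro v; simpa using (ha v).1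
    | succ n ih =>
      intro v
      rw [Function.iterate_succ_apply']
      exact abs_stepZ_le hw hr ha ih v
  exact this W.card v

/-- the argument of the quantile in `Zrd_eq` is small -/
theorem abs_kappa_le (hw : Pos W w) (hr : ∀ v ∈ W, |r v| < 1) (ha : ∀ v, 0 ≤ a v ∧ a v ≤ 1 / 2)
    (v : E) (s : ℝ) : |a v * Mf W w v (stt r t (Zrd W w r t a u) s)| ≤ a v := by
  have h1 : ∀ v' ∈ W, |stt r t (Zrd W w r t a u) s v'| ≤ 1 := fun v' hv' =>
    (abs_stt_lt_one (hr v' hv') (lt_of_le_of_lt (abs_Zrd_le hw hr ha v')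
      (by linarith [(ha v').2]))).le
  rw [abs_mul, abs_of_nonneg (ha v).1]
  calc _ ≤ a v * 1 := mul_le_mul_of_nonneg_left (abs_Mf_le hw v h1) (ha v).1
    _ = a v := mul_one _

theorem str_nonneg (k : ℕ) (s : ℝ) : 0 ≤ str k s := by
  unfold str a0
  split_ifs
  · have := Real.sqrt_nonneg s
    positivity
  · norm_num
  · exact le_rfl

theorem str_le (k : ℕ) (s : ℝ) : str k s ≤ a0 := by
  unfold str a0
  split_ifs with h1 h2
  · have : Real.sqrt s ≤ 1 := Real.sqrt_le_one.mpr h1.le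
    linarith
  · norm_num
  · norm_num

theorem str_bd (k : ℕ) (s : ℝ) : 0 ≤ str k s ∧ str k s ≤ 1 / 2 :=
  ⟨str_nonneg k s, (str_le k s).trans (by unfold a0; norm_num)⟩

theorem measurable_str (k : ℕ) : Measurable (str k) := by
  unfold str
  apply Measurable.ite measurableSet_Iio
  · by_cases hk : k = 0
    · simp only [hk, if_true]
      exact Real.continuous_sqrt.measurable.const_mul _
    · simp only [hk, if_false]
      exact measurable_const
  · exact measurable_const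

/-- bound of the evidence after `k` rounds -/
noncomputable def rho : ℕ → ℝ
  | 0 => 0
  | k + 1 => opl (rho k) a0

theorem rho_bd : ∀ k, 0 ≤ rho k ∧ rho k < 1
  | 0 => ⟨le_rfl, zero_lt_one⟩
  | k + 1 => by
    have h := rho_bd k
    have ha : (0:ℝ) ≤ a0 ∧ a0 < 1 := by unfold a0; norm_num
    exact ⟨opl_nonneg h.1 ha.1, opl_lt_one h.1 ha.1 h.2 ha.2⟩

theorem a0_lt_one : a0 < 1 := by unfold a0; norm_num

theorem abs_Rst_le (hw : Pos W w) : ∀ (k : ℕ) (ω : E → ℕ → unitInterval) (v : E),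
    |Rst W w k ω v| ≤ rho k
  | 0, ω, v => by simp [Rst, rho]
  | k + 1, ω, v => by
    have ih := abs_Rst_le hw k ω
    have hr : ∀ v ∈ W, |Rst W w k ω v| < 1 := fun v _ => lt_of_le_of_lt (ih v) (rho_bd k).2
    exact abs_stt_le ih (fun v => (abs_Zrd_le hw hr (fun v => str_bd k _) v).trans (str_le k _))
      (rho_bd k).2 a0_lt_one v

theorem abs_Rst_lt (hw : Pos W w) (k : ℕ) (ω : E → ℕ → unitInterval) (v : E) :
    |Rst W w k ω v| < 1 := lt_of_le_of_lt (abs_Rst_le hw k ω v) (rho_bd k).2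

theorem abs_Zst_le (hw : Pos W w) (k : ℕ) (ω : E → ℕ → unitInterval) (v : E) :
    |Zst W w k ω v| ≤ str k (tm k ω v) :=
  abs_Zrd_le hw (fun v _ => abs_Rst_lt hw k ω v) (fun _ => str_bd k _) v

theorem abs_Zst_le_a0 (hw : Pos W w) (k : ℕ) (ω : E → ℕ → unitInterval) (v : E) :
    |Zst W w k ω v| ≤ a0 := (abs_Zst_le hw k ω v).trans (str_le k _)

theorem abs_Xst_le (hw : Pos W w) (k : ℕ) (s : ℝ) (ω : E → ℕ → unitInterval) (v : E) :
    |Xst W w k s ω v| ≤ rho (k + 1) :=
  abs_stt_le (abs_Rst_le hw k ω) (abs_Zst_le_a0 hw k ω) (rho_bd k).2 a0_lt_one v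

theorem abs_Xst_lt (hw : Pos W w) (k : ℕ) (s : ℝ) (ω : E → ℕ → unitInterval) (v : E) :
    |Xst W w k s ω v| < 1 := lt_of_le_of_lt (abs_Xst_le hw k s ω v) (rho_bd _).2

theorem Zst_eq {v : E} (hv : v ∈ W) (k : ℕ) (ω : E → ℕ → unitInterval) :
    Zst W w k ω v = str k (tm k ω v) *
      Qf (str k (tm k ω v) * Mf W w v (Xst W w k (tm k ω v) ω)) (ns k ω v) := by
  unfold Zst Xst Zst
  exact Zrd_eq hv

theorem Zst_of_notMem {v : E} (hv : v ∉ W) (k : ℕ) (ω : E → ℕ → unitInterval) :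
    Zst W w k ω v = 0 := Zrd_of_notMem hv

theorem Rst_of_notMem {v : E} (hv : v ∉ W) : ∀ (k : ℕ) (ω : E → ℕ → unitInterval),
    Rst W w k ω v = 0
  | 0, _ => rfl
  | k + 1, ω => by
    have h1 := Rst_of_notMem hv k ω
    have h2 := Zst_of_notMem (w := w) hv k ω
    unfold Zst at h2
    simp only [Rst, stt]
    rw [h1, h2]
    simp

theorem Rst_succ (k : ℕ) (ω : E → ℕ → unitInterval) : Rst W w (k + 1) ω = Xst W w k 3 ω := rfl

theorem Xst_of_nonpos {k : ℕ} {s : ℝ} (hs : s ≤ 0) (ω : E → ℕ → unitInterval) :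
    Xst W w k s ω = Rst W w k ω := by
  funext v
  unfold Xst stt
  rw [if_neg]
  have : 0 ≤ tm k ω v := mul_nonneg zero_le_two (ω v (2 * k)).2.1
  linarith

/-- nothing happens after time `1` -/
theorem Xst_of_one_le (hw : Pos W w) {k : ℕ} {s : ℝ} (hs : 1 ≤ s) (ω : E → ℕ → unitInterval) :
    Xst W w k s ω = Xst W w k 1 ω := by
  funext v
  unfold Xst stt
  by_cases h1 : tm k ω v < 1
  · rw [if_pos h1, if_pos (lt_of_lt_of_le h1 hs)]
  · rw [if_neg h1]
    have h2 : Zst W w k ω v = 0 := by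
      have := abs_Zst_le hw k ω v
      have h3 : str k (tm k ω v) = 0 := by
        unfold str
        rw [if_neg h1]
      rw [h3] at this
      exact abs_eq_zero.1 (le_antisymm this (abs_nonneg _))
    rw [h2]
    simp

end Bounds

section Meas

variable {E : Type*} {W : Finset E} {w : Finset E → ℝ} {Ω : Type*} [MeasurableSpace Ω]

theorem measurable_stt' {r t Z : Ω → E → ℝ} {s : Ω → ℝ} (hr : Measurable r) (ht : Measurable t)
    (hZ : Measurable Z) (hs : Measurable s) :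
    Measurable (fun ω => stt (r ω) (t ω) (Z ω) (s ω)) := by
  rw [measurable_pi_iff]
  intro v
  unfold stt
  have h1 : Measurable fun ω => t ω v := (measurable_pi_apply v).comp ht
  have h2 : Measurable fun ω => r ω v := (measurable_pi_apply v).comp hr
  have h3 : Measurable fun ω => Z ω v := (measurable_pi_apply v).comp hZ
  exact Measurable.ite (measurableSet_lt h1 hs) (measurable_opl.comp (h2.prodMk h3)) h2

theorem measurable_stepZ' {r t a Z : Ω → E → ℝ} {u : Ω → E → unitInterval} (hr : Measurable r)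
    (ht : Measurable t) (ha : Measurable a) (hu : Measurable u) (hZ : Measurable Z) :
    Measurable (fun ω => stepZ W w (r ω) (t ω) (a ω) (u ω) (Z ω)) := by
  rw [measurable_pi_iff]
  intro v
  unfold stepZ
  by_cases hv : v ∈ W
  · simp only [hv, if_true]
    have h1 : Measurable fun ω => t ω v := (measurable_pi_apply v).comp ht
    have h2 : Measurable fun ω => a ω v := (measurable_pi_apply v).comp ha
    have h3 : Measurable fun ω => (u ω v : ℝ) :=
      measurable_subtype_coe.comp ((measurable_pi_apply v).comp hu)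
    exact h2.mul (measurable_Qf.comp ((h2.mul ((measurable_Mf W w v).comp
      (measurable_stt' hr ht hZ h1))).prodMk h3))
  · simp only [hv, if_false]
    exact measurable_const

theorem measurable_Zrd' {r t a : Ω → E → ℝ} {u : Ω → E → unitInterval} (hr : Measurable r)
    (ht : Measurable t) (ha : Measurable a) (hu : Measurable u) :
    Measurable (fun ω => Zrd W w (r ω) (t ω) (a ω) (u ω)) := by
  unfold Zrd
  have : ∀ n : ℕ, Measurable (fun ω => (stepZ W w (r ω) (t ω) (a ω) (u ω))^[n] (fun _ => 0)) := by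
    intro n
    induction n with
    | zero => exact measurable_const
    | succ n ih =>
      simp only [Function.iterate_succ_apply']
      exact measurable_stepZ' hr ht ha hu ih
  exact this W.card

theorem measurable_tm (k : ℕ) : Measurable (tm (E := E) k) := by
  rw [measurable_pi_iff]
  intro v
  unfold tm
  exact (measurable_subtype_coe.comp ((measurable_pi_apply (2 * k)).comp
    (measurable_pi_apply v))).const_mul 2

theorem measurable_ns (k : ℕ) : Measurable (ns (E := E) k) := by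
  rw [measurable_pi_iff]
  intro v
  unfold ns
  exact (measurable_pi_apply (2 * k + 1)).comp (measurable_pi_apply v)

theorem measurable_str_tm (k : ℕ) :
    Measurable (fun (ω : E → ℕ → unitInterval) (v : E) => str k (tm k ω v)) := by
  rw [measurable_pi_iff]
  intro v
  exact (measurable_str k).comp ((measurable_pi_apply v).comp (measurable_tm k))

theorem measurable_Rst : ∀ k : ℕ, Measurable (Rst (E := E) W w k)
  | 0 => measurable_const
  | k + 1 => measurable_stt' (measurable_Rst k) (measurable_tm k)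
      (measurable_Zrd' (measurable_Rst k) (measurable_tm k) (measurable_str_tm k)
        (measurable_ns k)) measurable_const

theorem measurable_Zst (k : ℕ) : Measurable (Zst (E := E) W w k) :=
  measurable_Zrd' (measurable_Rst k) (measurable_tm k) (measurable_str_tm k) (measurable_ns k)

theorem measurable_Xst (k : ℕ) (s : ℝ) : Measurable (Xst (E := E) W w k s) :=
  measurable_stt' (measurable_Rst k) (measurable_tm k) (measurable_Zst k) measurable_const

theorem measurable_Xst2 (k : ℕ) :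
    Measurable (fun q : ℝ × (E → ℕ → unitInterval) => Xst (E := E) W w k q.1 q.2) :=
  measurable_stt' ((measurable_Rst k).comp measurable_snd) ((measurable_tm k).comp measurable_snd)
    ((measurable_Zst k).comp measurable_snd) measurable_fst

end Meas

end Crest.Agent.H14
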