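import Mathlib
import Crest.Agent.H14.Defs
import Crest.Agent.H14.Rec

/-!
# Row 160: Bayes update formulas, dependence on the past
-/

set_option autoImplicit false

open MeasureTheory Filter Topology

namespace Crest.Agent.H14

open scoped Classical

theorem opl_comm (a b : ℝ) : opl a b = opl b a := by
  unfold opl
  rw [add_comm a b, mul_comm a b]


section QfBochner

theorem setIntegral_Qf {κ : ℝ} (hκ : |κ| ≤ 1 / 2) {F : Type*} [NormedAddCommGroup F]
    [NormedSpace ℝ F] (g : ℝ → F) :
    ∫ u in Set.Icc (0:ℝ) 1, g (Qf κ u) =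
      ∫ v in Set.Icc (0:ℝ) 1, (1 + κ * (2 * v - 1)) • g (2 * v - 1) := by
  have h := integral_image_eq_integral_abs_deriv_smul (s := Set.Icc (0:ℝ) 1) measurableSet_Icc
    (f := Ff κ) (f' := fun z => 1 + κ * (2 * z - 1))
    (fun x _ => by
      apply HasDerivAt.hasDerivWithinAt
      unfold Ff
      have h1 : HasDerivAt (fun z : ℝ => z ^ 2 - z) (2 * x - 1) x := by
        have h2 : HasDerivAt (fun z : ℝ => z ^ 2) (2 * x) x := by
          simpa using hasDerivAt_pow 2 x
        exact h2.sub (hasDerivAt_id' x)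
      exact (hasDerivAt_id x).add (h1.const_mul _))
    (Ff_injOn hκ) (fun u => g (Qf κ u))
  rw [Ff_image hκ] at h
  rw [h]
  apply setIntegral_congr_fun measurableSet_Icc
  intro z hz
  simp only
  rw [Qf_Ff hκ hz]
  congr 1
  have h1 := hz.1
  have h2 := hz.2
  rw [abs_of_nonneg]
  have : |κ * (2 * z - 1)| ≤ 1/2 * 1 := by
    rw [abs_mul]
    apply mul_le_mul hκ _ (abs_nonneg _) (by norm_num)
    rw [abs_le]; constructor <;> linarith
  have := abs_le.mp this
  linarith

theorem integral_unitI {F : Type*} [NormedAddCommGroup F] [NormedSpace ℝ F] (G : ℝ → F) :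
    ∫ u : unitInterval, G (u : ℝ) = ∫ u in Set.Icc (0:ℝ) 1, G u :=
  integral_subtype_comap measurableSet_Icc G

/-- change of variables for the quantile function, Bochner version (no measurability) -/
theorem integral_Qf {κ : ℝ} (hκ : |κ| ≤ 1 / 2) {F : Type*} [NormedAddCommGroup F]
    [NormedSpace ℝ F] (g : ℝ → F) :
    ∫ u : unitInterval, g (Qf κ u) =
      ∫ v : unitInterval, (1 + κ * (2 * (v:ℝ) - 1)) • g (2 * (v:ℝ) - 1) := by
  rw [integral_unitI (fun u => g (Qf κ u)), setIntegral_Qf hκ,
    integral_unitI (fun v => (1 + κ * (2 * v - 1)) • g (2 * v - 1))]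

end QfBochner

section Post

variable {E : Type*} {W : Finset E} {w : Finset E → ℝ}

@[simp] theorem tl_zero (S : Finset E) : tl W (fun _ => 0) S = 1 := by
  simp [tl]

theorem Lf_zero (hw : Pos W w) : Lf W w (fun _ => 0) = 1 := by
  simp [Lf, hw.total]

theorem Ef_mul_Lf (hw : Pos W w) {r : E → ℝ} (hr : ∀ v ∈ W, |r v| < 1) (g : Finset E → ℝ) :
    Ef W w g r * Lf W w r = ∑ S ∈ W.powerset, w S * tl W r S * g S := by
  unfold Ef
  rw [div_mul_cancel₀ _ (Lf_pos hw hr).ne']

theorem Ef_const (hw : Pos W w) {r : E → ℝ} (hr : ∀ v ∈ W, |r v| < 1) (c : ℝ) :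
    Ef W w (fun _ => c) r = c := by
  unfold Ef
  rw [← Finset.sum_mul]
  exact mul_div_cancel_left₀ c (Lf_pos hw hr).ne'

theorem Ef_add (g g' : Finset E → ℝ) (r : E → ℝ) :
    Ef W w (fun S => g S + g' S) r = Ef W w g r + Ef W w g' r := by
  unfold Ef
  simp_rw [mul_add, Finset.sum_add_distrib, add_div]

theorem Ef_const_mul (c : ℝ) (g : Finset E → ℝ) (r : E → ℝ) :
    Ef W w (fun S => c * g S) r = c * Ef W w g r := by
  unfold Ef
  rw [mul_div_assoc', Finset.mul_sum]
  congr 1
  exact Finset.sum_congr rfl fun S _ => by ring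

theorem Ef_mono (hw : Pos W w) {r : E → ℝ} (hr : ∀ v ∈ W, |r v| < 1) {g g' : Finset E → ℝ}
    (h : ∀ S, S ⊆ W → g S ≤ g' S) : Ef W w g r ≤ Ef W w g' r := by
  unfold Ef
  apply div_le_div_of_nonneg_right _ (Lf_pos hw hr).le
  exact Finset.sum_le_sum fun S hS => mul_le_mul_of_nonneg_left
    (h S (Finset.mem_powerset.1 hS))
    (mul_nonneg (hw.nonneg S (Finset.mem_powerset.1 hS)) (tl_pos hr S).le)

/-- Bayes update of the likelihood -/
theorem tl_update {r : E → ℝ} {y : E} (hy : y ∈ W) {s : ℝ} (h : 1 + r y * s ≠ 0)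
    (S : Finset E) :
    (1 + r y * s) * tl W (Function.update r y (opl (r y) s)) S = tl W r S * (1 + s * sp S y) := by
  unfold tl
  rw [← Finset.mul_prod_erase W _ hy, ← Finset.mul_prod_erase W _ hy]
  have h1 : ∏ v ∈ W.erase y, (1 + sp S v * Function.update r y (opl (r y) s) v) =
      ∏ v ∈ W.erase y, (1 + sp S v * r v) := by
    apply Finset.prod_congr rfl
    intro v hv
    rw [Function.update_of_ne (Finset.ne_of_mem_erase hv)]
  rw [h1, Function.update_self]
  have h2 := (one_add_mul_opl (a := r y) (b := s) (σ := sp S y) (sp_sq S y) h).symm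
  calc (1 + r y * s) * ((1 + sp S y * opl (r y) s) * ∏ v ∈ W.erase y, (1 + sp S v * r v))
      = ((1 + r y * s) * (1 + sp S y * opl (r y) s)) * ∏ v ∈ W.erase y, (1 + sp S v * r v) := by
        ring
    _ = _ := by rw [h2]; ring

theorem sum_update {r : E → ℝ} {y : E} (hy : y ∈ W) {s : ℝ} (h : 1 + r y * s ≠ 0)
    (g : Finset E → ℝ) :
    (1 + r y * s) * ∑ S ∈ W.powerset, w S * tl W (Function.update r y (opl (r y) s)) S * g S =
      ∑ S ∈ W.powerset, w S * tl W r S * g S +
        s * ∑ S ∈ W.powerset, w S * tl W r S * (sp S y * g S) := by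
  rw [Finset.mul_sum, Finset.mul_sum, ← Finset.sum_add_distrib]
  apply Finset.sum_congr rfl
  intro S _
  have h2 := tl_update (W := W) hy h S
  linear_combination (w S * g S) * h2

theorem Lf_update (hw : Pos W w) {r : E → ℝ} (hr : ∀ v ∈ W, |r v| < 1) {y : E} (hy : y ∈ W)
    {s : ℝ} (h : 1 + r y * s ≠ 0) :
    (1 + r y * s) * Lf W w (Function.update r y (opl (r y) s)) =
      Lf W w r * (1 + s * Mf W w y r) := by
  have h1 := sum_update (w := w) hy h (fun _ => 1)
  simp only [mul_one] at h1
  have h2 : Mf W w y r * Lf W w r = ∑ S ∈ W.powerset, w S * tl W r S * sp S y :=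
    Ef_mul_Lf hw hr _
  unfold Lf at *
  rw [h1, ← h2]
  ring

theorem Ef_update (hw : Pos W w) {r : E → ℝ} (hr : ∀ v ∈ W, |r v| < 1) {y : E} (hy : y ∈ W)
    {s : ℝ} (hs : |s| < 1) (g : Finset E → ℝ) :
    Ef W w g (Function.update r y (opl (r y) s)) =
      (Ef W w g r + s * Ef W w (fun S => sp S y * g S) r) / (1 + s * Mf W w y r) := by
  have h0 : 0 < 1 + r y * s := one_add_mul_pos (hr y hy) hs.le
  have h1 := Lf_update hw hr hy h0.ne'
  have h2 := sum_update (w := w) hy h0.ne' g
  have h3 : 0 < 1 + s * Mf W w y r := one_add_mul_pos hs (abs_Mf_le hw y (fun v hv => (hr v hv).le))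
  have hL := Lf_pos hw hr
  rw [← Ef_mul_Lf hw hr g, ← Ef_mul_Lf hw hr (fun S => sp S y * g S)] at h2
  have e : Ef W w g (Function.update r y (opl (r y) s)) =
      (∑ S ∈ W.powerset, w S * tl W (Function.update r y (opl (r y) s)) S * g S) /
        Lf W w (Function.update r y (opl (r y) s)) := rfl
  have hL' : Lf W w (Function.update r y (opl (r y) s)) ≠ 0 := by
    intro h
    rw [h, mul_zero] at h1
    exact (mul_pos hL h3).ne' h1.symm
  rw [e, div_eq_div_iff hL' h3.ne']
  have hL2 : (1 + r y * s) * Lf W w r ≠ 0 := (mul_pos h0 hL).ne'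
  apply mul_left_cancel₀ hL2
  calc (1 + r y * s) * Lf W w r *
        ((∑ S ∈ W.powerset, w S * tl W (Function.update r y (opl (r y) s)) S * g S) *
          (1 + s * Mf W w y r))
      = ((1 + r y * s) *
          ∑ S ∈ W.powerset, w S * tl W (Function.update r y (opl (r y) s)) S * g S) *
          (Lf W w r * (1 + s * Mf W w y r)) := by ring
    _ = (Ef W w g r * Lf W w r + s * (Ef W w (fun S => sp S y * g S) r * Lf W w r)) *
          ((1 + r y * s) * Lf W w (Function.update r y (opl (r y) s))) := by rw [h2, h1]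
    _ = _ := by ring

/-- update of the posterior mean by an observation at `y` -/
theorem Mf_update (hw : Pos W w) {r : E → ℝ} (hr : ∀ v ∈ W, |r v| < 1) {y : E} (hy : y ∈ W)
    {s : ℝ} (hs : |s| < 1) (z : E) :
    Mf W w z (Function.update r y (opl (r y) s)) =
      Mf W w z r + s * Kf W w z y r / (1 + s * Mf W w y r) := by
  have h3 : 0 < 1 + s * Mf W w y r := one_add_mul_pos hs (abs_Mf_le hw y (fun v hv => (hr v hv).le))
  have hE := Ef_update hw hr hy hs (fun S => sp S z)
  have e0 : Ef W w (fun S => sp S z) r = Mf W w z r := rfl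
  have e1 : Mf W w z (Function.update r y (opl (r y) s)) =
      Ef W w (fun S => sp S z) (Function.update r y (opl (r y) s)) := rfl
  have e : Kf W w z y r = Ef W w (fun S => sp S y * sp S z) r - Mf W w z r * Mf W w y r := by
    unfold Kf
    congr 2
    funext S
    ring
  rw [e1, hE, e0, e]
  have h4 := h3.ne'
  field_simp
  ring

/-- conditional covariance as a centered expectation -/
theorem Kf_self (hw : Pos W w) {r : E → ℝ} (hr : ∀ v ∈ W, |r v| < 1) (z : E) :
    Kf W w z z r = 1 - Mf W w z r ^ 2 := by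
  unfold Kf
  have : (fun S : Finset E => sp S z * sp S z) = fun _ => (1:ℝ) := by
    funext S
    rw [← sq, sp_sq]
  rw [this, Ef_const hw hr]
  ring

theorem Kf_comm (x y : E) (r : E → ℝ) : Kf W w x y r = Kf W w y x r := by
  unfold Kf
  have : (fun S : Finset E => sp S x * sp S y) = fun S => sp S y * sp S x := by
    funext S
    ring
  rw [this]
  ring

/-- the outcomes of one round only depend on the data of the vertices in the past: `Z v` is a
function of `r` on `W`, and of `t, a, u` at the vertices `x ∈ W` with `t x ≤ t v`. -/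
theorem Zrd_congr_past {r r' t t' a a' : E → ℝ} {u u' : E → unitInterval} {s : ℝ}
    (hr : ∀ x ∈ W, r x = r' x)
    (hdata : ∀ x ∈ W, (t x < s ∨ t' x < s) → t x = t' x ∧ a x = a' x ∧ u x = u' x) :
    ∀ v ∈ W, t v < s → Zrd W w r t a u v = Zrd W w r' t' a' u' v := by
  have key : ∀ n : ℕ, ∀ v ∈ W, t v < s → (W.filter (fun x => t x < t v)).card ≤ n →
      Zrd W w r t a u v = Zrd W w r' t' a' u' v := by
    intro n
    induction n with
    | zero =>
      intro v hvW hvs hv
      obtain ⟨h1, h2, h3⟩ := hdata v hvW (Or.inl hvs)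
      rw [Nat.le_zero, Finset.card_eq_zero] at hv
      rw [Zrd_eq hvW, Zrd_eq hvW, h2, h3]
      congr 2
      congr 1
      apply Mf_congr v
      intro x hx
      unfold stt
      have hxv : ¬ t x < t v := by
        intro hlt
        have : x ∈ W.filter (fun y => t y < t v) := Finset.mem_filter.2 ⟨hx, hlt⟩
        rw [hv] at this
        exact absurd this (Finset.notMem_empty _)
      have hxv' : ¬ t' x < t' v := by
        intro hlt
        have : t x = t' x := (hdata x hx (Or.inr (by rw [← h1] at hlt; exact hlt.trans hvs))).1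
        rw [← this, ← h1] at hlt
        exact hxv hlt
      rw [if_neg hxv, if_neg hxv', hr x hx]
    | succ n ih =>
      intro v hvW hvs hv
      obtain ⟨h1, h2, h3⟩ := hdata v hvW (Or.inl hvs)
      rw [Zrd_eq hvW, Zrd_eq hvW, h2, h3]
      congr 2
      congr 1
      apply Mf_congr v
      intro x hx
      unfold stt
      by_cases hlt : t x < t v
      · have htx : t x = t' x := (hdata x hx (Or.inl (hlt.trans hvs))).1
        have hlt' : t' x < t' v := by rw [← htx, ← h1]; exact hlt
        rw [if_pos hlt, if_pos hlt', hr x hx]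
        congr 1
        apply ih x hx (hlt.trans hvs)
        have hsub : W.filter (fun y => t y < t x) ⊂ W.filter (fun y => t y < t v) := by
          rw [Finset.ssubset_iff_subset_ne]
          constructor
          · intro y hy
            rw [Finset.mem_filter] at hy ⊢
            exact ⟨hy.1, hy.2.trans hlt⟩
          · intro heq
            have : x ∈ W.filter (fun y => t y < t v) := Finset.mem_filter.2 ⟨hx, hlt⟩
            rw [← heq, Finset.mem_filter] at this
            exact lt_irrefl _ this.2
        have h4 := Finset.card_lt_card hsub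
        omega
      · have hlt' : ¬ t' x < t' v := by
          intro hlt'
          have : t x = t' x :=
            (hdata x hx (Or.inr (by rw [← h1] at hlt'; exact hlt'.trans hvs))).1
          rw [← this, ← h1] at hlt'
          exact hlt hlt'
        rw [if_neg hlt, if_neg hlt', hr x hx]
  intro v hvW hvs
  exact key W.card v hvW hvs (Finset.card_filter_le _ _)

/-- the evidence field at time `s` on `W` depends only on the data of vertices with time `< s` -/
theorem stt_Zrd_congr {r r' t t' a a' : E → ℝ} {u u' : E → unitInterval} {s : ℝ}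
    (hr : ∀ x ∈ W, r x = r' x)
    (hdata : ∀ x ∈ W, (t x < s ∨ t' x < s) → t x = t' x ∧ a x = a' x ∧ u x = u' x) :
    ∀ v ∈ W, stt r t (Zrd W w r t a u) s v = stt r' t' (Zrd W w r' t' a' u') s v := by
  intro v hv
  unfold stt
  by_cases h : t v < s
  · have h1 := (hdata v hv (Or.inl h)).1
    rw [if_pos h, if_pos (by rw [← h1]; exact h), hr v hv, Zrd_congr_past hr hdata v hv h]
  · by_cases h' : t' v < s
    · have h1 := (hdata v hv (Or.inr h')).1
      rw [h1] at h
      exact absurd h' h
    · rw [if_neg h, if_neg h', hr v hv]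

end Post

end Crest.Agent.H14
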