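import Mathlib
import Crest.Agent.H14.Tree
import Crest.Agent.H14.Upd

/-!
# Row 160, P1 (helper12): subtrees, splitting an edge, belief propagation
-/

set_option autoImplicit false

open MeasureTheory Filter Topology

namespace Crest.Agent.H14

open scoped Classical

section P1

variable {V : Type*} {G : SimpleGraph V} {lam : ℝ} {b : ℕ}

theorem Tr.lam_lt (h : Tr G lam b) : lam < 1 := by
  have h1 := h.crit
  have h2 : (2:ℝ) ≤ b := by exact_mod_cast h.two
  have h3 := h.nonneg
  by_contra hcon
  push Not at hcon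
  nlinarith

theorem Tr.lam_sq_le (h : Tr G lam b) : lam ^ 2 ≤ 1 / 2 := by
  have h1 := h.crit
  have h2 : (2:ℝ) ≤ b := by exact_mod_cast h.two
  nlinarith [sq_nonneg lam]

theorem Tr.abs_lam (h : Tr G lam b) : |lam| < 1 := by
  rw [abs_of_nonneg h.nonneg]
  exact h.lam_lt

theorem root_notMem_desc (h : Tr G lam b) {x u : V} (hux : u ≠ x) (W : Finset V) :
    x ∉ desc G x u W := by
  intro hx
  rw [mem_desc] at hx
  have h1 := h.tree.connected.pos_dist_of_ne hux
  have h2 : G.dist x x = 0 := by simp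
  rw [SimpleGraph.dist_comm] at h1
  omega

theorem par_notMem_desc (h : Tr G lam b) {x u : V} (hux : u ≠ x) (W : Finset V) :
    par G x u ∉ desc G x u W := by
  intro hx
  rw [mem_desc] at hx
  have h1 := dist_par h.tree hux
  omega

theorem par_mem_sdiff (h : Tr G lam b) {W : Finset V} (hW : IsSub G W) {x u : V} (hx : x ∈ W)
    (hu : u ∈ W) (hux : u ≠ x) : par G x u ∈ W \ desc G x u W :=
  Finset.mem_sdiff.2 ⟨hW x hx u hu, par_notMem_desc h hux W⟩

theorem isSub_sdiff (h : Tr G lam b) {W : Finset V} (hW : IsSub G W) {x u : V} (hx : x ∈ W)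
    (hu : u ∈ W) (hux : u ≠ x) : IsSub G (W \ desc G x u W) := by
  have hT := h.tree
  intro x' hx' v hv
  rw [Finset.mem_sdiff] at hx' hv ⊢
  refine ⟨hW x' hx'.1 v hv.1, fun hp => ?_⟩
  by_cases hvx : v = x'
  · subst hvx
    rw [par_self] at hp
    exact hv.2 hp
  set p := par G x' v with hpdef
  have hadj : G.Adj v p := adj_par hT hvx
  have hdist : G.dist x' v = G.dist x' p + 1 := dist_par hT hvx
  -- the edge between `v ∉ D` and `p ∈ D`
  have hpu : p = u := by
    by_contra hne
    rcases (adj_iff_par hT x).1 hadj with ⟨h1, h2⟩ | ⟨h1, h2⟩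
    · -- par x v = p: then v is a descendant
      apply hv.2
      rw [mem_desc] at hp ⊢
      refine ⟨hv.1, ?_⟩
      have e1 := dist_par hT h1
      rw [← h2] at e1
      have e2 : G.dist p v = 1 := SimpleGraph.dist_eq_one_iff_adj.2 hadj.symm
      have e3 := hT.connected.dist_triangle (u := u) (v := p) (w := v)
      have e4 := hT.connected.dist_triangle (u := x) (v := u) (w := v)
      omega
    · -- par x p = v
      apply hv.2
      rw [h2]
      exact par_mem_desc hT (hW.parClosed hx) hp hne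
  have hvp : v = par G x u := by
    rw [hpu] at hadj
    rcases (adj_iff_par hT x).1 hadj with ⟨h1, h2⟩ | ⟨h1, h2⟩
    · exfalso
      apply hv.2
      have e1 := dist_par hT h1
      rw [← h2] at e1
      rw [mem_desc]
      refine ⟨hv.1, ?_⟩
      have e2 : G.dist u v = 1 := SimpleGraph.dist_eq_one_iff_adj.2 hadj.symm
      omega
    · exact h2
  apply hx'.2
  rw [desc_eq_desc_par hT hux, mem_desc]
  refine ⟨hx'.1, ?_⟩
  have e2 : G.dist (par G x u) u = 1 := SimpleGraph.dist_eq_one_iff_adj.2 (adj_par hT hux).symm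
  rw [SimpleGraph.dist_comm (u := par G x u) (v := x'), SimpleGraph.dist_comm (u := u) (v := x'),
    e2, ← hvp, hdist, hpu]
  ring

/-! ### The Ising weight -/

theorem mu_pos (h : Tr G lam b) (W S : Finset V) : 0 < mu G lam W S := by
  unfold mu Crest.ProbabilityR.TreeIsing.isingWeight
  apply mul_pos (by norm_num)
  apply Finset.prod_pos
  intro e _
  have h1 := h.lam_lt
  have h2 := h.nonneg
  split_ifs <;> linarith

theorem sp_mul_eq (S : Finset V) (v p : V) :
    (if decide (v ∈ S) = decide (p ∈ S) then (1 + lam) / 2 else (1 - lam) / 2) =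
      (1 + lam * sp S v * sp S p) / 2 := by
  unfold sp
  by_cases hv : v ∈ S <;> by_cases hp : p ∈ S <;> simp [hv, hp] <;> ring

/-- product formula -/
theorem mu_eq_prod (h : Tr G lam b) {x : V} {W : Finset V} (hW : ParClosed G x W)
    (S : Finset V) :
    mu G lam W S = (1 / 2) * ∏ v ∈ W.erase x, (1 + lam * sp S v * sp S (par G x v)) / 2 := by
  unfold mu
  rw [isingWeight_eq_prod h.tree hW]
  congr 1
  apply Finset.prod_congr rfl
  intro v _
  exact sp_mul_eq S v (par G x v)

theorem sp_inter {S D : Finset V} {v : V} (hv : v ∈ D) : sp (S ∩ D) v = sp S v := by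
  unfold sp
  simp [Finset.mem_inter, hv]

theorem sp_sdiff {S D : Finset V} {v : V} (hv : v ∉ D) : sp (S \ D) v = sp S v := by
  unfold sp
  simp [Finset.mem_sdiff, hv]

theorem mu_split (h : Tr G lam b) {W : Finset V} (hW : IsSub G W) {x u : V} (hx : x ∈ W)
    (hu : u ∈ W) (hux : u ≠ x) {S : Finset V} (hS : S ⊆ W) :
    mu G lam W S = mu G lam (desc G x u W) (S ∩ desc G x u W) *
      mu G lam (W \ desc G x u W) (S \ desc G x u W) * (1 + lam * sp S u * sp S (par G x u)) := by
  have hT := h.tree
  set D := desc G x u W with hD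
  have hDu : u ∈ D := self_mem_desc hu
  have hDW : D ⊆ W := desc_subset x u W
  have hxD : x ∉ D := root_notMem_desc h hux W
  have hxD' : x ∈ W \ D := Finset.mem_sdiff.2 ⟨hx, hxD⟩
  rw [mu_eq_prod h (hW.parClosed hx), mu_eq_prod h (desc_parClosed hT (hW.parClosed hx) hu),
    mu_eq_prod h ((isSub_sdiff h hW hx hu hux).parClosed hxD')]
  have e1 : W.erase x = D ∪ (W \ D).erase x := by
    ext v
    rw [Finset.mem_union, Finset.mem_erase, Finset.mem_erase, Finset.mem_sdiff]
    constructor
    · rintro ⟨h1, h2⟩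
      by_cases hv : v ∈ D
      · exact Or.inl hv
      · exact Or.inr ⟨h1, h2, hv⟩
    · rintro (hv | ⟨h1, h2, _⟩)
      · exact ⟨fun hvx => hxD (hvx ▸ hv), hDW hv⟩
      · exact ⟨h1, h2⟩
  have hdisj : Disjoint D ((W \ D).erase x) := by
    rw [Finset.disjoint_left]
    intro v hv hv'
    rw [Finset.mem_erase, Finset.mem_sdiff] at hv'
    exact hv'.2.2 hv
  rw [e1, Finset.prod_union hdisj, ← Finset.mul_prod_erase D _ hDu]
  have e2 : ∏ v ∈ D.erase u, (1 + lam * sp S v * sp S (par G x v)) / 2 =
      ∏ v ∈ D.erase u, (1 + lam * sp (S ∩ D) v * sp (S ∩ D) (par G u v)) / 2 := by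
    apply Finset.prod_congr rfl
    intro v hv
    rw [Finset.mem_erase] at hv
    have hp := par_of_dist hT (mem_desc.1 hv.2).2 hv.1
    have hpD : par G x v ∈ D := par_mem_desc hT (hW.parClosed hx) hv.2 hv.1
    rw [← hp.2.1, sp_inter hv.2, sp_inter hpD]
  have e3 : ∏ v ∈ (W \ D).erase x, (1 + lam * sp S v * sp S (par G x v)) / 2 =
      ∏ v ∈ (W \ D).erase x, (1 + lam * sp (S \ D) v * sp (S \ D) (par G x v)) / 2 := by
    apply Finset.prod_congr rfl
    intro v hv
    rw [Finset.mem_erase] at hv
    have hv2 := Finset.mem_sdiff.1 hv.2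
    have hpD := isSub_sdiff h hW hx hu hux x hxD' v hv.2
    have hpD2 := Finset.mem_sdiff.1 hpD
    rw [sp_sdiff hv2.2, sp_sdiff hpD2.2]
  rw [e2, e3]
  ring

/-! ### General split identity for posterior sums -/

theorem tl_union {D D' : Finset V} (hd : Disjoint D D') (r : V → ℝ) (S : Finset V) :
    tl (D ∪ D') r S = tl D r S * tl D' r S := by
  unfold tl
  rw [Finset.prod_union hd]

theorem tl_split {D W : Finset V} (hD : D ⊆ W) (r : V → ℝ) (S : Finset V) :
    tl W r S = tl D r (S ∩ D) * tl (W \ D) r (S \ D) := by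
  have h1 : tl W r S = tl D r S * tl (W \ D) r S := by
    conv_lhs => rw [← Finset.union_sdiff_of_subset hD]
    exact tl_union Finset.disjoint_sdiff r S
  rw [h1]
  congr 1
  · apply Finset.prod_congr rfl
    intro v hv
    rw [sp_inter hv]
  · apply Finset.prod_congr rfl
    intro v hv
    rw [sp_sdiff (Finset.mem_sdiff.1 hv).2]

theorem sum_powerset_split {M : Type*} [AddCommMonoid M] {D W : Finset V} (hD : D ⊆ W)
    (F : Finset V → Finset V → M) :
    ∑ S ∈ W.powerset, F (S ∩ D) (S \ D) =
      ∑ A ∈ D.powerset, ∑ B ∈ (W \ D).powerset, F A B := by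
  rw [← Finset.sum_product']
  refine Finset.sum_bij' (fun S _ => (S ∩ D, S \ D)) (fun p _ => p.1 ∪ p.2) ?_ ?_ ?_ ?_ ?_
  · intro S hS
    rw [Finset.mem_powerset] at hS
    rw [Finset.mem_product, Finset.mem_powerset, Finset.mem_powerset]
    exact ⟨Finset.inter_subset_right, Finset.sdiff_subset_sdiff hS le_rfl⟩
  · intro p hp
    rw [Finset.mem_product, Finset.mem_powerset, Finset.mem_powerset] at hp
    rw [Finset.mem_powerset]
    exact Finset.union_subset (hp.1.trans hD) (hp.2.trans Finset.sdiff_subset)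
  · intro S _
    ext v
    simp only [Finset.mem_union, Finset.mem_inter, Finset.mem_sdiff]
    tauto
  · rintro ⟨A, B⟩ hp
    rw [Finset.mem_product, Finset.mem_powerset, Finset.mem_powerset] at hp
    have hA : A ⊆ D := hp.1
    have hB : Disjoint B D := by
      rw [Finset.disjoint_left]
      intro v hv
      exact (Finset.mem_sdiff.1 (hp.2 hv)).2
    ext v
    · simp only [Finset.mem_inter, Finset.mem_union]
      constructor
      · rintro ⟨h1 | h1, h2⟩
        · exact h1
        · exact absurd h2 (Finset.disjoint_left.1 hB h1)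
      · intro h1
        exact ⟨Or.inl h1, hA h1⟩
    · simp only [Finset.mem_sdiff, Finset.mem_union]
      constructor
      · rintro ⟨h1 | h1, h2⟩
        · exact absurd (hA h1) h2
        · exact h1
      · intro h1
        exact ⟨Or.inr h1, Finset.disjoint_left.1 hB h1⟩
  · intro S _
    rfl

/-- the master identity -/
theorem sum_split (h : Tr G lam b) {W : Finset V} (hW : IsSub G W) {x u : V} (hx : x ∈ W)
    (hu : u ∈ W) (hux : u ≠ x) (r : V → ℝ) (g g' : Finset V → ℝ) :
    ∑ S ∈ W.powerset, mu G lam W S * tl W r S *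
        (g (S ∩ desc G x u W) * g' (S \ desc G x u W)) =
      (∑ A ∈ (desc G x u W).powerset, mu G lam (desc G x u W) A * tl (desc G x u W) r A * g A) *
      (∑ B ∈ (W \ desc G x u W).powerset,
        mu G lam (W \ desc G x u W) B * tl (W \ desc G x u W) r B * g' B) +
      lam * ((∑ A ∈ (desc G x u W).powerset,
        mu G lam (desc G x u W) A * tl (desc G x u W) r A * (sp A u * g A)) *
      (∑ B ∈ (W \ desc G x u W).powerset,
        mu G lam (W \ desc G x u W) B * tl (W \ desc G x u W) r B *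
          (sp B (par G x u) * g' B))) := by
  set D := desc G x u W with hD
  have hDW : D ⊆ W := desc_subset x u W
  have hDu : u ∈ D := self_mem_desc hu
  have hpD : par G x u ∉ D := par_notMem_desc h hux W
  have e1 : ∑ S ∈ W.powerset, mu G lam W S * tl W r S * (g (S ∩ D) * g' (S \ D)) =
      ∑ S ∈ W.powerset, (fun A B => mu G lam D A * tl D r A * (mu G lam (W \ D) B *
        tl (W \ D) r B) * (1 + lam * sp A u * sp B (par G x u)) * (g A * g' B))
          (S ∩ D) (S \ D) := by
    apply Finset.sum_congr rfl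
    intro S hS
    rw [Finset.mem_powerset] at hS
    simp only
    rw [mu_split h hW hx hu hux hS, tl_split hDW r S, ← hD, sp_inter hDu, sp_sdiff hpD]
    ring
  rw [e1, sum_powerset_split hDW (fun A B => mu G lam D A * tl D r A * (mu G lam (W \ D) B *
        tl (W \ D) r B) * (1 + lam * sp A u * sp B (par G x u)) * (g A * g' B))]
  rw [Finset.sum_mul_sum, Finset.sum_mul_sum, Finset.mul_sum, ← Finset.sum_add_distrib]
  apply Finset.sum_congr rfl
  intro A _
  rw [Finset.mul_sum, ← Finset.sum_add_distrib]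
  apply Finset.sum_congr rfl
  intro B _
  ring

/-! ### Leaf removal, consistency -/

theorem desc_leaf (h : Tr G lam b) {W : Finset V} {x u : V} (hu : u ∈ W)
    (hmax : ∀ v ∈ W, G.dist x v ≤ G.dist x u) : desc G x u W = {u} := by
  ext v
  rw [mem_desc, Finset.mem_singleton]
  constructor
  · rintro ⟨hv, h1⟩
    have h2 := hmax v hv
    have h3 : G.dist u v = 0 := by omega
    exact ((h.tree.connected.dist_eq_zero_iff).1 h3).symm
  · rintro rfl
    simp [hu]

theorem mu_singleton (u : V) (S : Finset V) : mu G lam {u} S = 1 / 2 := by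
  unfold mu Crest.ProbabilityR.TreeIsing.isingWeight
  have : ({u} : Finset V).sym2.filter (fun e => e ∈ G.edgeSet) = ∅ := by
    ext e
    simp only [Finset.mem_filter, Finset.notMem_empty, iff_false]
    rintro ⟨h1, h2⟩
    induction e using Sym2.ind with
    | _ a c =>
      rw [Finset.mk_mem_sym2_iff, Finset.mem_singleton, Finset.mem_singleton] at h1
      rw [SimpleGraph.mem_edgeSet] at h2
      rw [h1.1, h1.2] at h2
      exact G.loopless.irrefl u h2
  rw [mul_eq_left₀ (by norm_num)]
  apply Finset.prod_eq_one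
  intro e he
  exfalso
  have : e ∈ ({u} : Finset V).sym2.filter (fun e => e ∈ G.edgeSet) := by
    rw [Finset.mem_filter] at he ⊢
    exact he
  rw [‹({u} : Finset V).sym2.filter (fun e => e ∈ G.edgeSet) = ∅›] at this
  exact absurd this (Finset.notMem_empty _)

theorem mu_leaf (h : Tr G lam b) {W : Finset V} (hW : IsSub G W) {x u : V} (hx : x ∈ W)
    (hu : u ∈ W) (hux : u ≠ x) (hleaf : desc G x u W = {u}) {S : Finset V}
    (hS : S ⊆ W \ {u}) :
    mu G lam W S + mu G lam W (insert u S) = mu G lam (W \ {u}) S := by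
  have huS : u ∉ S := fun hc => by
    have := hS hc
    simp at this
  have hSW : S ⊆ W := hS.trans Finset.sdiff_subset
  have hSW' : insert u S ⊆ W := Finset.insert_subset hu hSW
  have hpne : par G x u ≠ u := par_ne_self h.tree hux
  rw [mu_split h hW hx hu hux hSW, mu_split h hW hx hu hux hSW', hleaf]
  have e1 : S \ {u} = S := by
    rw [Finset.sdiff_singleton_eq_erase, Finset.erase_eq_of_notMem huS]
  have e2 : insert u S \ {u} = S := by
    rw [Finset.sdiff_singleton_eq_erase, Finset.erase_insert huS]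
  have e3 : sp S u = -1 := by simp [sp, huS]
  have e4 : sp (insert u S) u = 1 := by simp [sp]
  have e5 : sp (insert u S) (par G x u) = sp S (par G x u) := by
    simp [sp, hpne]
  rw [e1, e2, e3, e4, e5, mu_singleton, mu_singleton]
  ring

/-- consistency of the free Ising states -/
theorem mu_consistent (h : Tr G lam b) {W W' : Finset V} (hW : IsSub G W) (hne : W.Nonempty)
    (hW' : IsSub G W') (hsub : W ⊆ W') {S : Finset V} (hS : S ⊆ W) :
    mu G lam W S = ∑ S' ∈ W'.powerset.filter (fun S' => S' ∩ W = S), mu G lam W' S' := by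
  have hT := h.tree
  obtain ⟨x, hx⟩ := hne
  have key : ∀ n : ℕ, ∀ W' : Finset V, IsSub G W' → W ⊆ W' → (W' \ W).card = n →
      mu G lam W S = ∑ S' ∈ W'.powerset.filter (fun S' => S' ∩ W = S), mu G lam W' S' := by
    intro n
    induction n with
    | zero =>
      intro W' hW' hsub hn
      rw [Finset.card_eq_zero, Finset.sdiff_eq_empty_iff_subset] at hn
      have hWW : W' = W := Finset.Subset.antisymm hn hsub
      subst hWW
      have : W'.powerset.filter (fun S' => S' ∩ W' = S) = {S} := by
        ext S'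
        rw [Finset.mem_filter, Finset.mem_powerset, Finset.mem_singleton]
        constructor
        · rintro ⟨h1, h2⟩
          rwa [Finset.inter_eq_left.2 h1] at h2
        · rintro rfl
          exact ⟨hS, Finset.inter_eq_left.2 hS⟩
      rw [this, Finset.sum_singleton]
    | succ n ih =>
      intro W' hW' hsub hn
      have hne' : (W' \ W).Nonempty := by
        rw [← Finset.card_pos, hn]
        exact Nat.succ_pos n
      obtain ⟨u, hu, hmax⟩ := Finset.exists_max_image (W' \ W) (fun v => G.dist x v) hne'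
      rw [Finset.mem_sdiff] at hu
      have hxW' : x ∈ W' := hsub hx
      have hux : u ≠ x := fun hc => hu.2 (hc ▸ hx)
      have hleaf : desc G x u W' = {u} := by
        ext v
        rw [mem_desc, Finset.mem_singleton]
        constructor
        · rintro ⟨hv, h1⟩
          by_cases hvW : v ∈ W
          · exfalso
            exact hu.2 (anc_mem' hT (hW.parClosed hx) hvW h1)
          · have h2 := hmax v (Finset.mem_sdiff.2 ⟨hv, hvW⟩)
            have h3 : G.dist u v = 0 := by omega
            exact ((hT.connected.dist_eq_zero_iff).1 h3).symm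
        · rintro rfl
          simp [hu.1]
      have hsub2 : W ⊆ W' \ {u} := by
        intro v hv
        rw [Finset.mem_sdiff, Finset.mem_singleton]
        exact ⟨hsub hv, fun hc => hu.2 (hc ▸ hv)⟩
      have hW2 : IsSub G (W' \ {u}) := by
        have := isSub_sdiff h hW' hxW' hu.1 hux
        rwa [hleaf] at this
      have hcard : ((W' \ {u}) \ W).card = n := by
        have e : (W' \ {u}) \ W = (W' \ W).erase u := by
          ext v
          simp only [Finset.mem_sdiff, Finset.mem_erase, Finset.mem_singleton]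
          tauto
        rw [e, Finset.card_erase_of_mem (Finset.mem_sdiff.2 hu), hn]
        rfl
      rw [ih (W' \ {u}) hW2 hsub2 hcard]
      have e1 : ∑ S' ∈ (W' \ {u}).powerset.filter (fun S' => S' ∩ W = S),
          mu G lam (W' \ {u}) S' =
          ∑ S' ∈ (W' \ {u}).powerset.filter (fun S' => S' ∩ W = S),
            (mu G lam W' S' + mu G lam W' (insert u S')) := by
        apply Finset.sum_congr rfl
        intro S' hS'
        rw [Finset.mem_filter, Finset.mem_powerset] at hS'
        exact (mu_leaf h hW' hxW' hu.1 hux hleaf hS'.1).symm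
      rw [e1, Finset.sum_add_distrib]
      have hins : W' = insert u (W' \ {u}) := by
        ext v
        simp only [Finset.mem_insert, Finset.mem_sdiff, Finset.mem_singleton]
        constructor
        · intro hv
          by_cases hvu : v = u
          · exact Or.inl hvu
          · exact Or.inr ⟨hv, hvu⟩
        · rintro (rfl | h1)
          · exact hu.1
          · exact h1.1
      have hunot : u ∉ W' \ {u} := by simp
      rw [Finset.sum_filter, Finset.sum_filter, Finset.sum_filter]
      have e2 : ∀ f : Finset V → ℝ, ∑ S' ∈ W'.powerset, f S' =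
          ∑ S' ∈ (W' \ {u}).powerset, f S' + ∑ S' ∈ (W' \ {u}).powerset, f (insert u S') := by
        intro f
        conv_lhs => rw [hins]
        exact Finset.sum_powerset_insert hunot f
      rw [e2]
      congr 1
      apply Finset.sum_congr rfl
      intro S' _
      have : insert u S' ∩ W = S' ∩ W := Finset.insert_inter_of_notMem hu.2
      rw [this]
  exact key _ W' hW' hsub rfl

theorem mu_total (h : Tr G lam b) {W : Finset V} (hW : IsSub G W) (hne : W.Nonempty) :
    Pos W (mu G lam W) := by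
  refine ⟨fun S _ => (mu_pos h W S).le, ?_⟩
  obtain ⟨x, hx⟩ := hne
  have hs : IsSub G ({x} : Finset V) := by
    intro a ha v hv
    rw [Finset.mem_singleton] at ha hv
    subst ha
    subst hv
    simp
  have hsub : ({x} : Finset V) ⊆ W := Finset.singleton_subset_iff.2 hx
  have h1 := mu_consistent h hs (Finset.singleton_nonempty x) hW hsub
    (S := ∅) (Finset.empty_subset _)
  have h2 := mu_consistent h hs (Finset.singleton_nonempty x) hW hsub
    (S := {x}) (Finset.Subset.refl _)
  rw [mu_singleton] at h1 h2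
  have h3 : ∑ S ∈ W.powerset, mu G lam W S =
      ∑ S' ∈ W.powerset.filter (fun S' => S' ∩ {x} = ∅), mu G lam W S' +
      ∑ S' ∈ W.powerset.filter (fun S' => S' ∩ {x} = {x}), mu G lam W S' := by
    rw [← Finset.sum_filter_add_sum_filter_not W.powerset (fun S' => S' ∩ {x} = ∅)]
    congr 1
    apply Finset.sum_congr _ fun _ _ => rfl
    apply Finset.filter_congr
    intro S' _
    by_cases hxS : x ∈ S'
    · simp [Finset.inter_singleton_of_mem hxS]
    · simp [Finset.inter_singleton_of_notMem hxS, Finset.singleton_ne_empty x,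
        (Finset.singleton_ne_empty x).symm]
  rw [h3, ← h1, ← h2]
  norm_num

/-! ### Posterior functionals of the windows -/

theorem mu_nonneg (h : Tr G lam b) (W S : Finset V) : 0 ≤ mu G lam W S := (mu_pos h W S).le

theorem LW_pos' (h : Tr G lam b) (W : Finset V) {r : V → ℝ}
    (hr : Adm W r) : 0 < LW G lam W r := by
  unfold LW Lf
  apply Finset.sum_pos
  · intro S _
    exact mul_pos (mu_pos h W S) (tl_pos hr S)
  · exact ⟨∅, Finset.empty_mem_powerset W⟩

theorem LW_pos (h : Tr G lam b) {W : Finset V} (_hne : W.Nonempty) {r : V → ℝ}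
    (hr : Adm W r) : 0 < LW G lam W r := LW_pos' h W hr

theorem LW_eq (W : Finset V) (r : V → ℝ) :
    LW G lam W r = ∑ S ∈ W.powerset, mu G lam W S * tl W r S * 1 := by
  unfold LW Lf
  simp

/-- unnormalised posterior sums -/
theorem MW_mul_LW (h : Tr G lam b) (W : Finset V) (z : V) {r : V → ℝ} (hr : Adm W r) :
    ∑ S ∈ W.powerset, mu G lam W S * tl W r S * sp S z = MW G lam W z r * LW G lam W r := by
  have hL := (LW_pos' h W hr).ne'
  have e : MW G lam W z r =
    (∑ S ∈ W.powerset, mu G lam W S * tl W r S * sp S z) / LW G lam W r := rfl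
  rw [e, div_mul_cancel₀ _ hL]

theorem adm_mono {W W' : Finset V} (hsub : W ⊆ W') {r : V → ℝ} (hr : Adm W' r) : Adm W r :=
  fun v hv => hr v (hsub hv)

theorem MW_abs_lt' (h : Tr G lam b) {W : Finset V} {z : V} (hz : z ∈ W)
    {r : V → ℝ} (hr : Adm W r) : |MW G lam W z r| < 1 := by
  have hL := LW_pos' h W hr
  have h1 := MW_mul_LW h W z hr
  have hL' := LW_eq (G := G) (lam := lam) W r
  have p1 : 0 < ∑ S ∈ W.powerset, mu G lam W S * tl W r S * (1 + sp S z) := by
    apply Finset.sum_pos'
    · intro S _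
      apply mul_nonneg (mul_nonneg (mu_nonneg h W S) (tl_pos hr S).le)
      unfold sp; split_ifs <;> norm_num
    · refine ⟨{z}, Finset.mem_powerset.2 (Finset.singleton_subset_iff.2 hz), ?_⟩
      apply mul_pos (mul_pos (mu_pos h W _) (tl_pos hr _))
      simp [sp]
  have p2 : 0 < ∑ S ∈ W.powerset, mu G lam W S * tl W r S * (1 - sp S z) := by
    apply Finset.sum_pos'
    · intro S _
      apply mul_nonneg (mul_nonneg (mu_nonneg h W S) (tl_pos hr S).le)
      unfold sp; split_ifs <;> norm_num
    · refine ⟨∅, Finset.empty_mem_powerset W, ?_⟩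
      apply mul_pos (mul_pos (mu_pos h W _) (tl_pos hr _))
      simp [sp]
  have e1 : ∑ S ∈ W.powerset, mu G lam W S * tl W r S * (1 + sp S z) =
      LW G lam W r * (1 + MW G lam W z r) := by
    have : ∀ S, mu G lam W S * tl W r S * (1 + sp S z) =
        mu G lam W S * tl W r S * 1 + mu G lam W S * tl W r S * sp S z := fun S => by ring
    simp_rw [this]
    rw [Finset.sum_add_distrib, ← hL', h1]
    ring
  have e2 : ∑ S ∈ W.powerset, mu G lam W S * tl W r S * (1 - sp S z) =
      LW G lam W r * (1 - MW G lam W z r) := by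
    have : ∀ S, mu G lam W S * tl W r S * (1 - sp S z) =
        mu G lam W S * tl W r S * 1 - mu G lam W S * tl W r S * sp S z := fun S => by ring
    simp_rw [this]
    rw [Finset.sum_sub_distrib, ← hL', h1]
    ring
  rw [e1] at p1
  rw [e2] at p2
  have q1 := (pos_iff_pos_of_mul_pos p1).1 hL
  have q2 := (pos_iff_pos_of_mul_pos p2).1 hL
  rw [abs_lt]
  constructor <;> linarith

theorem MW_abs_lt (h : Tr G lam b) {W : Finset V} {z : V} (hz : z ∈ W)
    {r : V → ℝ} (hr : Adm W r) : |MW G lam W z r| < 1 := MW_abs_lt' h hz hr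

theorem tau_abs_lt (h : Tr G lam b) {W : Finset V} {x u : V} (hu : u ∈ W)
    {r : V → ℝ} (hr : Adm W r) : |tau G lam W x u r| < 1 :=
  MW_abs_lt h (self_mem_desc hu) (adm_mono (desc_subset x u W) hr)

theorem MW_singleton (_h : Tr G lam b) {z : V} {r : V → ℝ} (_hr : |r z| < 1) :
    MW G lam {z} z r = r z := by
  have e : ({z} : Finset V).powerset = {∅, {z}} := by
    ext S
    rw [Finset.mem_powerset, Finset.subset_singleton_iff]
    simp
  have hne : (∅ : Finset V) ∉ ({{z}} : Finset (Finset V)) := by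
    rw [Finset.mem_singleton]
    exact (Finset.singleton_ne_empty z).symm
  unfold MW Mf Ef Lf
  rw [e, Finset.sum_insert hne, Finset.sum_singleton, Finset.sum_insert hne, Finset.sum_singleton]
  rw [mu_singleton, mu_singleton]
  have t1 : tl {z} r ∅ = 1 - r z := by simp [tl, sp]; ring
  have t2 : tl {z} r {z} = 1 + r z := by simp [tl, sp]
  have t3 : sp (∅ : Finset V) z = -1 := by simp [sp]
  have t4 : sp ({z} : Finset V) z = 1 := by simp [sp]
  beta_reduce
  rw [t1, t2, t3, t4]
  have : (1:ℝ) / 2 * (1 - r z) + 1 / 2 * (1 + r z) = 1 := by ring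
  rw [this]
  ring

/-! ### Global flip -/

theorem mu_compl (W S : Finset V) : mu G lam W (W \ S) = mu G lam W S := by
  unfold mu Crest.ProbabilityR.TreeIsing.isingWeight
  congr 1
  apply Finset.prod_congr rfl
  intro e he
  induction e using Sym2.ind with
  | _ u v =>
    rw [Finset.mem_filter, Finset.mk_mem_sym2_iff] at he
    have hu : u ∈ W := he.1.1
    have hv : v ∈ W := he.1.2
    simp only [Sym2.map_mk, Sym2.mk_isDiag_iff, Finset.mem_sdiff, hu, hv, true_and]
    by_cases h1 : u ∈ S <;> by_cases h2 : v ∈ S <;> simp [h1, h2]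

theorem sp_compl {W S : Finset V} {v : V} (hv : v ∈ W) : sp (W \ S) v = - sp S v := by
  unfold sp
  by_cases h : v ∈ S <;> simp [h, hv]

theorem tl_flip (W S : Finset V) (r : V → ℝ) : tl W (flip W r) (W \ S) = tl W r S := by
  unfold tl flip
  apply Finset.prod_congr rfl
  intro v hv
  rw [sp_compl hv, if_pos hv]
  ring

theorem sum_compl {M : Type*} [AddCommMonoid M] (W : Finset V) (F : Finset V → M) :
    ∑ S ∈ W.powerset, F S = ∑ S ∈ W.powerset, F (W \ S) := by
  refine Finset.sum_bij' (fun S _ => W \ S) (fun S _ => W \ S) ?_ ?_ ?_ ?_ ?_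
  · intro S _
    exact Finset.mem_powerset.2 Finset.sdiff_subset
  · intro S _
    exact Finset.mem_powerset.2 Finset.sdiff_subset
  · intro S hS
    exact Finset.sdiff_sdiff_eq_self (Finset.mem_powerset.1 hS)
  · intro S hS
    exact Finset.sdiff_sdiff_eq_self (Finset.mem_powerset.1 hS)
  · intro S hS
    rw [Finset.sdiff_sdiff_eq_self (Finset.mem_powerset.1 hS)]

theorem LW_flip (_h : Tr G lam b) {W : Finset V} (r : V → ℝ) :
    LW G lam W (flip W r) = LW G lam W r := by
  unfold LW Lf
  rw [sum_compl]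
  apply Finset.sum_congr rfl
  intro S _
  rw [mu_compl, tl_flip]

theorem MW_flip (h : Tr G lam b) {W : Finset V} {z : V} (hz : z ∈ W) (r : V → ℝ) :
    MW G lam W z (flip W r) = - MW G lam W z r := by
  have hL := LW_flip h (W := W) r
  unfold LW at hL
  unfold MW Mf Ef
  rw [hL, sum_compl, ← neg_div]
  congr 1
  rw [← Finset.sum_neg_distrib]
  apply Finset.sum_congr rfl
  intro S _
  beta_reduce
  rw [mu_compl, tl_flip, sp_compl hz]
  ring

/-! ### Splitting -/

theorem adm_desc {W : Finset V} {x u : V} {r : V → ℝ} (hr : Adm W r) :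
    Adm (desc G x u W) r := adm_mono (desc_subset x u W) hr

theorem adm_sdiff {W D : Finset V} {r : V → ℝ} (hr : Adm W r) :
    Adm (W \ D) r := adm_mono Finset.sdiff_subset hr

theorem LW_split (h : Tr G lam b) {W : Finset V} (hW : IsSub G W) {x u : V} (hx : x ∈ W)
    (hu : u ∈ W) (hux : u ≠ x) {r : V → ℝ} (hr : Adm W r) :
    LW G lam W r = LW G lam (desc G x u W) r * LW G lam (W \ desc G x u W) r *
      (1 + lam * tau G lam W x u r * MW G lam (W \ desc G x u W) (par G x u) r) := by
  have h1 := sum_split h hW hx hu hux r (fun _ => 1) (fun _ => 1)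
  simp only [mul_one] at h1
  have e0 : LW G lam W r = ∑ S ∈ W.powerset, mu G lam W S * tl W r S := rfl
  have e1 : LW G lam (desc G x u W) r =
    ∑ S ∈ (desc G x u W).powerset, mu G lam (desc G x u W) S * tl (desc G x u W) r S := rfl
  have e2 : LW G lam (W \ desc G x u W) r =
    ∑ S ∈ (W \ desc G x u W).powerset,
      mu G lam (W \ desc G x u W) S * tl (W \ desc G x u W) r S := rfl
  rw [MW_mul_LW h _ u (adm_desc hr), MW_mul_LW h _ (par G x u) (adm_sdiff hr),
    ← e0, ← e1, ← e2] at h1
  rw [h1]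
  unfold tau
  ring

/-- the normalising factor of an edge is positive -/
theorem edge_pos (h : Tr G lam b) {W : Finset V} (hW : IsSub G W) {x u : V} (hx : x ∈ W)
    (hu : u ∈ W) (hux : u ≠ x) {r : V → ℝ} (hr : Adm W r) :
    0 < 1 + lam * tau G lam W x u r * MW G lam (W \ desc G x u W) (par G x u) r := by
  have h1 := tau_abs_lt h (x := x) hu hr
  have h2 := MW_abs_lt h (par_mem_sdiff h hW hx hu hux) (adm_sdiff hr)
    (r := r)
  have h3 : |lam * tau G lam W x u r| < 1 := by
    rw [abs_mul]
    calc |lam| * |tau G lam W x u r| ≤ 1 * |tau G lam W x u r| :=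
          mul_le_mul_of_nonneg_right h.abs_lam.le (abs_nonneg _)
      _ < 1 := by rw [one_mul]; exact h1
  exact one_add_mul_pos h3 h2.le

/-- posterior of a product observable across the edge -/
theorem Ef_split (h : Tr G lam b) {W : Finset V} (hW : IsSub G W) {x u : V} (hx : x ∈ W)
    (hu : u ∈ W) (hux : u ≠ x) {r : V → ℝ} (hr : Adm W r) (g g' : Finset V → ℝ) :
    Ef W (mu G lam W) (fun S => g (S ∩ desc G x u W) * g' (S \ desc G x u W)) r =
      (Ef (desc G x u W) (mu G lam (desc G x u W)) g r *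
        Ef (W \ desc G x u W) (mu G lam (W \ desc G x u W)) g' r +
      lam * (Ef (desc G x u W) (mu G lam (desc G x u W)) (fun A => sp A u * g A) r *
        Ef (W \ desc G x u W) (mu G lam (W \ desc G x u W))
          (fun B => sp B (par G x u) * g' B) r)) /
      (1 + lam * tau G lam W x u r * MW G lam (W \ desc G x u W) (par G x u) r) := by
  have h1 := sum_split h hW hx hu hux r g g'
  have hL := LW_split h hW hx hu hux hr
  have hp := edge_pos h hW hx hu hux hr
  have hD := LW_pos' h (desc G x u W) (adm_desc (G := G) (x := x) (u := u) hr)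
  have hD' := LW_pos' h (W \ desc G x u W) (adm_sdiff (D := desc G x u W) hr)
  unfold Ef
  rw [h1]
  have e0 : Lf W (mu G lam W) r = LW G lam W r := rfl
  have e1 : Lf (desc G x u W) (mu G lam (desc G x u W)) r = LW G lam (desc G x u W) r := rfl
  have e2 : Lf (W \ desc G x u W) (mu G lam (W \ desc G x u W)) r =
    LW G lam (W \ desc G x u W) r := rfl
  rw [e0, e1, e2, hL]
  have hp' := hp.ne'
  have hDn := hD.ne'
  have hDn' := hD'.ne'
  field_simp

theorem tau_eq (W : Finset V) (x u : V) (r : V → ℝ) :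
    Ef (desc G x u W) (mu G lam (desc G x u W)) (fun A => sp A u) r = tau G lam W x u r := rfl

theorem MW_eq (W : Finset V) (z : V) (r : V → ℝ) :
    Ef W (mu G lam W) (fun A => sp A z) r = MW G lam W z r := rfl

theorem Ef_one (h : Tr G lam b) (W : Finset V) {r : V → ℝ} (hr : Adm W r) :
    Ef W (mu G lam W) (fun _ => 1) r = 1 := by
  unfold Ef
  simp only [mul_one]
  exact div_self (LW_pos' h W hr).ne'

/-- posterior mean at the parent -/
theorem MW_par (h : Tr G lam b) {W : Finset V} (hW : IsSub G W) {x u : V} (hx : x ∈ W)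
    (hu : u ∈ W) (hux : u ≠ x) {r : V → ℝ} (hr : Adm W r) :
    MW G lam W (par G x u) r =
      opl (MW G lam (W \ desc G x u W) (par G x u) r) (lam * tau G lam W x u r) := by
  have hpD := par_notMem_desc h hux W
  have h1 := Ef_split h hW hx hu hux hr (fun _ => 1) (fun B => sp B (par G x u))
  have e1 : (fun S : Finset V => (1:ℝ) * sp (S \ desc G x u W) (par G x u)) =
      fun S => sp S (par G x u) := by
    funext S
    rw [one_mul, sp_sdiff hpD]
  have e2 : (fun B : Finset V => sp B (par G x u) * sp B (par G x u)) = fun _ => (1:ℝ) := by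
    funext B
    rw [← sq, sp_sq]
  have e3 : (fun A : Finset V => sp A u * 1) = fun A => sp A u := by
    funext A
    rw [mul_one]
  rw [e1, e2, e3, Ef_one h _ (adm_desc hr), Ef_one h _ (adm_sdiff hr), tau_eq, MW_eq, MW_eq] at h1
  rw [h1]
  unfold opl
  congr 1 <;> ring

/-- posterior mean at the child -/
theorem MW_child (h : Tr G lam b) {W : Finset V} (hW : IsSub G W) {x u : V} (hx : x ∈ W)
    (hu : u ∈ W) (hux : u ≠ x) {r : V → ℝ} (hr : Adm W r) :
    MW G lam W u r =
      opl (tau G lam W x u r) (lam * MW G lam (W \ desc G x u W) (par G x u) r) := by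
  have hDu : u ∈ desc G x u W := self_mem_desc hu
  have h1 := Ef_split h hW hx hu hux hr (fun A => sp A u) (fun _ => 1)
  have e1 : (fun S : Finset V => sp (S ∩ desc G x u W) u * (1:ℝ)) =
      fun S => sp S u := by
    funext S
    rw [mul_one, sp_inter hDu]
  have e2 : (fun B : Finset V => sp B u * sp B u) = fun _ => (1:ℝ) := by
    funext B
    rw [← sq, sp_sq]
  have e3 : (fun A : Finset V => sp A (par G x u) * 1) = fun A => sp A (par G x u) := by
    funext A
    rw [mul_one]
  rw [e1, e2, e3, Ef_one h _ (adm_desc hr), Ef_one h _ (adm_sdiff hr), tau_eq, MW_eq, MW_eq] at h1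
  rw [h1]
  unfold opl
  congr 1 <;> ring

theorem one_sub_lam_sq_pos (h : Tr G lam b) {t : ℝ} (ht : |t| < 1) : 0 < 1 - lam ^ 2 * t ^ 2 := by
  have h1 := h.lam_sq_le
  have h2 := (abs_lt.1 ht)
  have h3 : t ^ 2 ≤ 1 := by nlinarith
  nlinarith [sq_nonneg lam, sq_nonneg t]

theorem MW_rel (h : Tr G lam b) {W : Finset V} (hW : IsSub G W) {x u : V} (hx : x ∈ W)
    (hu : u ∈ W) (hux : u ≠ x) {r : V → ℝ} (hr : Adm W r) :
    MW G lam W u r = ((1 - lam ^ 2) * tau G lam W x u r +
      lam * (1 - tau G lam W x u r ^ 2) * MW G lam W (par G x u) r) /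
      (1 - lam ^ 2 * tau G lam W x u r ^ 2) := by
  have hp := edge_pos h hW hx hu hux hr
  have ht := tau_abs_lt h (x := x) hu hr
  have h2 := one_sub_lam_sq_pos h ht
  rw [MW_child h hW hx hu hux hr, MW_par h hW hx hu hux hr]
  set t := tau G lam W x u r
  set m := MW G lam (W \ desc G x u W) (par G x u) r
  unfold opl
  obtain ⟨Z, hZ⟩ : ∃ Z, Z = 1 + lam * t * m := ⟨_, rfl⟩
  have hp1 : 1 + t * (lam * m) = Z := by rw [hZ]; ring
  have hp2 : 1 + m * (lam * t) = Z := by rw [hZ]; ring
  have hZ0 : Z ≠ 0 := by rw [hZ]; exact hp.ne'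
  rw [hp1, hp2, div_eq_div_iff hZ0 h2.ne']
  have e : ((1 - lam ^ 2) * t + lam * (1 - t ^ 2) * ((m + lam * t) / Z)) * Z =
      (1 - lam ^ 2) * t * Z + lam * (1 - t ^ 2) * (m + lam * t) := by
    field_simp
  rw [e, hZ]
  ring

theorem KW_self (h : Tr G lam b) {W : Finset V} (_hne : W.Nonempty) {x : V} {r : V → ℝ}
    (hr : Adm W r) :
    KW G lam W x x r = 1 - MW G lam W x r ^ 2 := by
  unfold KW Kf
  have : (fun S : Finset V => sp S x * sp S x) = fun _ => (1:ℝ) := by
    funext S
    rw [← sq, sp_sq]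
  rw [this, Ef_one h W hr]
  unfold MW
  ring

theorem KW_step (h : Tr G lam b) {W : Finset V} (hW : IsSub G W) {x u : V} (hx : x ∈ W)
    (hu : u ∈ W) (hux : u ≠ x) {r : V → ℝ} (hr : Adm W r) :
    KW G lam W x u r = lam * gam lam (tau G lam W x u r) * KW G lam W x (par G x u) r := by
  have hDu : u ∈ desc G x u W := self_mem_desc hu
  have hpD := par_notMem_desc h hux W
  have hxD := root_notMem_desc h hux W
  have hp := edge_pos h hW hx hu hux hr
  have ht := tau_abs_lt h (x := x) hu hr
  have h2 := one_sub_lam_sq_pos h ht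
  have sq1 : ∀ z : V, (fun B : Finset V => sp B z * sp B z) = fun _ => (1:ℝ) := by
    intro z
    funext B
    rw [← sq, sp_sq]
  -- the four posterior expectations
  have h1 := Ef_split h hW hx hu hux hr (fun A => sp A u) (fun B => sp B x)
  have h3 := Ef_split h hW hx hu hux hr (fun _ => 1) (fun B => sp B x * sp B (par G x u))
  have h4 := Ef_split h hW hx hu hux hr (fun _ => 1) (fun B => sp B x)
  have e1 : (fun S : Finset V => sp (S ∩ desc G x u W) u * sp (S \ desc G x u W) x) =
      fun S => sp S x * sp S u := by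
    funext S
    rw [sp_inter hDu, sp_sdiff hxD, mul_comm]
  have e2 : (fun S : Finset V => (1:ℝ) * (sp (S \ desc G x u W) x *
      sp (S \ desc G x u W) (par G x u))) = fun S => sp S x * sp S (par G x u) := by
    funext S
    rw [one_mul, sp_sdiff hpD, sp_sdiff hxD]
  have e3 : (fun S : Finset V => (1:ℝ) * sp (S \ desc G x u W) x) = fun S => sp S x := by
    funext S
    rw [one_mul, sp_sdiff hxD]
  have e4 : (fun A : Finset V => sp A u * 1) = fun A => sp A u := by
    funext A
    rw [mul_one]
  have e5 : (fun B : Finset V => sp B (par G x u) * (sp B x * sp B (par G x u))) =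
      fun B => sp B x := by
    funext B
    have := sp_sq B (par G x u)
    calc sp B (par G x u) * (sp B x * sp B (par G x u)) = sp B x * sp B (par G x u) ^ 2 := by ring
      _ = sp B x := by rw [this, mul_one]
  have e6 : (fun B : Finset V => sp B (par G x u) * sp B x) =
      fun B => sp B x * sp B (par G x u) := by
    funext B
    ring
  rw [e1, sq1 u, Ef_one h _ (adm_desc hr), tau_eq, MW_eq, e6] at h1
  rw [e2, Ef_one h _ (adm_desc hr), e4, tau_eq, e5, MW_eq] at h3
  rw [e3, Ef_one h _ (adm_desc hr), e4, tau_eq, MW_eq, MW_eq, e6] at h4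
  unfold KW Kf
  rw [h1, h3]
  have f1 : Mf W (mu G lam W) x r = MW G lam W x r := rfl
  have f2 : Mf W (mu G lam W) u r = MW G lam W u r := rfl
  have f3 : Mf W (mu G lam W) (par G x u) r = MW G lam W (par G x u) r := rfl
  rw [f1, f2, f3, h4, MW_child h hW hx hu hux hr, MW_par h hW hx hu hux hr]
  generalize Ef (W \ desc G x u W) (mu G lam (W \ desc G x u W))
    (fun B => sp B x * sp B (par G x u)) r = c at *
  generalize tau G lam W x u r = t at *
  generalize MW G lam (W \ desc G x u W) (par G x u) r = m at *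
  generalize MW G lam (W \ desc G x u W) x r = a at *
  unfold opl gam
  obtain ⟨Z, hZ⟩ : ∃ Z, Z = 1 + lam * t * m := ⟨_, rfl⟩
  have hp1 : 1 + t * (lam * m) = Z := by rw [hZ]; ring
  have hp2 : 1 + m * (lam * t) = Z := by rw [hZ]; ring
  have hZ0 : Z ≠ 0 := by rw [hZ]; exact hp.ne'
  rw [hp1, hp2, ← hZ]
  have h2' := h2.ne'
  have eL : (t * a + lam * (1 * c)) / Z - (1 * a + lam * (t * c)) / Z * ((t + lam * m) / Z) =
      lam * (1 - t ^ 2) * (c - a * m) / Z ^ 2 := by
    rw [div_mul_div_comm, ← sq, div_sub_div _ _ hZ0 (pow_ne_zero 2 hZ0),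
      div_eq_div_iff (mul_ne_zero hZ0 (pow_ne_zero 2 hZ0)) (pow_ne_zero 2 hZ0), hZ]
    ring
  have eR : (1 * c + lam * (t * a)) / Z - (1 * a + lam * (t * c)) / Z * ((m + lam * t) / Z) =
      (1 - lam ^ 2 * t ^ 2) * (c - a * m) / Z ^ 2 := by
    rw [div_mul_div_comm, ← sq, div_sub_div _ _ hZ0 (pow_ne_zero 2 hZ0),
      div_eq_div_iff (mul_ne_zero hZ0 (pow_ne_zero 2 hZ0)) (pow_ne_zero 2 hZ0), hZ]
    ring
  rw [eL, eR]
  have : lam * ((1 - t ^ 2) / (1 - lam ^ 2 * t ^ 2)) *
      ((1 - lam ^ 2 * t ^ 2) * (c - a * m) / Z ^ 2) =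
      (1 - lam ^ 2 * t ^ 2) / (1 - lam ^ 2 * t ^ 2) *
        (lam * (1 - t ^ 2) * (c - a * m) / Z ^ 2) := by ring
  rw [this, div_self h2', one_mul]

theorem PP_root (h : Tr G lam b) (W : Finset V) (x u : V) (r : V → ℝ) :
    PP G lam W x u u r = 1 := by
  unfold PP
  rw [pth_self h.tree]
  simp

/-- bottom recursion of the path product -/
theorem PP_bot (h : Tr G lam b) {W : Finset V} {x u y : V} (hW : ParClosed G x W)
    (hy : y ∈ desc G x u W) (hyu : y ≠ u) (r : V → ℝ) :
    PP G lam W x u y r = gam lam (tau G lam W x y r) * PP G lam W x u (par G x y) r := by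
  unfold PP
  rw [pth_insert_bot h.tree hW hy hyu, Finset.prod_insert]
  exact notMem_pth_par h.tree (par_of_dist h.tree (mem_desc.1 hy).2 hyu).1

/-- top recursion of the path product -/
theorem PP_top (h : Tr G lam b) {W : Finset V} {x u w y : V}
    (hw : w ∈ chl G x u W) (hy : y ∈ desc G x w W) (r : V → ℝ) :
    PP G lam W x u y r = gam lam (tau G lam W x w r) * PP G lam W x w y r := by
  unfold PP
  rw [pth_insert_top h.tree hw hy, Finset.prod_insert (notMem_pth_self x w y W)]

theorem KW_prod (h : Tr G lam b) {W : Finset V} (hW : IsSub G W) {x u : V} (hx : x ∈ W)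
    (hu : u ∈ W) {r : V → ℝ} (hr : Adm W r) :
    KW G lam W x u r = (1 - MW G lam W x r ^ 2) * lam ^ G.dist x u * PP G lam W x x u r := by
  have key : ∀ n : ℕ, ∀ u ∈ W, G.dist x u = n →
      KW G lam W x u r = (1 - MW G lam W x r ^ 2) * lam ^ G.dist x u * PP G lam W x x u r := by
    intro n
    induction n with
    | zero =>
      intro u _ hn
      have : x = u := (h.tree.connected.dist_eq_zero_iff).1 hn
      subst this
      rw [KW_self h ⟨x, hx⟩ hr, PP_root h]
      simp
    | succ n ih =>
      intro u hu hn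
      have hux : u ≠ x := by
        rintro rfl
        simp at hn
      have hd := dist_par h.tree hux
      have hd' : G.dist x (par G x u) = n := by omega
      rw [KW_step h hW hx hu hux hr, ih (par G x u) (hW x hx u hu) hd',
        PP_bot h (hW.parClosed hx) (by rw [desc_root]; exact hu) hux, hd, pow_succ]
      ring
  exact key _ u hu rfl

/-! ### The cavity magnetisation is a Lipschitz function of the two posterior means -/

theorem rel_mono {t t' m : ℝ} (h0 : 0 ≤ lam) (h1 : lam < 1) (ht : |t| < 1) (ht' : |t'| < 1)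
    (hm : |m| ≤ 1) :
    (1 - lam) / (1 + lam) * |t - t'| ≤
      |((1 - lam ^ 2) * t + lam * (1 - t ^ 2) * m) / (1 - lam ^ 2 * t ^ 2) -
        ((1 - lam ^ 2) * t' + lam * (1 - t' ^ 2) * m) / (1 - lam ^ 2 * t' ^ 2)| := by
  have a1 := abs_lt.1 ht
  have a2 := abs_lt.1 ht'
  have a3 := abs_le.1 hm
  have p1 : 0 < 1 + lam * t := by nlinarith
  have p2 : 0 < 1 - lam * t := by nlinarith
  have p3 : 0 < 1 + lam * t' := by nlinarith
  have p4 : 0 < 1 - lam * t' := by nlinarith
  have p5 : 0 < 1 + lam := by linarith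
  have d1 : 1 - lam ^ 2 * t ^ 2 = (1 + lam * t) * (1 - lam * t) := by ring
  have d2 : 1 - lam ^ 2 * t' ^ 2 = (1 + lam * t') * (1 - lam * t') := by ring
  have key : ((1 - lam ^ 2) * t + lam * (1 - t ^ 2) * m) / (1 - lam ^ 2 * t ^ 2) -
        ((1 - lam ^ 2) * t' + lam * (1 - t' ^ 2) * m) / (1 - lam ^ 2 * t' ^ 2) =
      (t - t') * ((1 - lam ^ 2) * ((1 + m) / 2 / ((1 + lam * t) * (1 + lam * t')) +
        (1 - m) / 2 / ((1 - lam * t) * (1 - lam * t')))) := by
    rw [d1, d2]
    have q1 := p1.ne'
    have q2 := p2.ne'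
    have q3 := p3.ne'
    have q4 := p4.ne'
    field_simp
    ring
  rw [key, abs_mul, mul_comm]
  apply mul_le_mul_of_nonneg_left _ (abs_nonneg _)
  have hl2 : 0 ≤ 1 - lam ^ 2 := by nlinarith
  have b1 : (1 + m) / 2 / (1 + lam) ^ 2 ≤ (1 + m) / 2 / ((1 + lam * t) * (1 + lam * t')) := by
    apply div_le_div_of_nonneg_left (by linarith) (mul_pos p1 p3)
    have c1 : 1 + lam * t ≤ 1 + lam := by nlinarith
    have c2 : 1 + lam * t' ≤ 1 + lam := by nlinarith
    calc (1 + lam * t) * (1 + lam * t') ≤ (1 + lam) * (1 + lam) :=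
          mul_le_mul c1 c2 p3.le p5.le
      _ = (1 + lam) ^ 2 := by ring
  have b2 : (1 - m) / 2 / (1 + lam) ^ 2 ≤ (1 - m) / 2 / ((1 - lam * t) * (1 - lam * t')) := by
    apply div_le_div_of_nonneg_left (by linarith) (mul_pos p2 p4)
    have c1 : 1 - lam * t ≤ 1 + lam := by nlinarith
    have c2 : 1 - lam * t' ≤ 1 + lam := by nlinarith
    calc (1 - lam * t) * (1 - lam * t') ≤ (1 + lam) * (1 + lam) :=
          mul_le_mul c1 c2 p4.le p5.le
      _ = (1 + lam) ^ 2 := by ring
  have b3 : (1 - lam) / (1 + lam) = (1 - lam ^ 2) * ((1 + m) / 2 / (1 + lam) ^ 2 +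
      (1 - m) / 2 / (1 + lam) ^ 2) := by
    have q5 := p5.ne'
    field_simp
    ring
  rw [b3, abs_of_nonneg]
  · exact mul_le_mul_of_nonneg_left (add_le_add b1 b2) hl2
  · apply mul_nonneg hl2
    apply add_nonneg
    · exact div_nonneg (by linarith) (mul_pos p1 p3).le
    · exact div_nonneg (by linarith) (mul_pos p2 p4).le

theorem rel_lip {t m m' : ℝ} (h0 : 0 ≤ lam) (h1 : lam < 1) (ht : |t| < 1) :
    |((1 - lam ^ 2) * t + lam * (1 - t ^ 2) * m) / (1 - lam ^ 2 * t ^ 2) -
        ((1 - lam ^ 2) * t + lam * (1 - t ^ 2) * m') / (1 - lam ^ 2 * t ^ 2)| ≤ |m - m'| := by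
  have a1 := abs_lt.1 ht
  have ht2 : t ^ 2 ≤ 1 := by nlinarith
  have hpos : 0 < 1 - lam ^ 2 * t ^ 2 := by
    have : lam ^ 2 < 1 := by nlinarith
    nlinarith [sq_nonneg t, sq_nonneg lam]
  rw [← sub_div]
  have e : (1 - lam ^ 2) * t + lam * (1 - t ^ 2) * m - ((1 - lam ^ 2) * t + lam * (1 - t ^ 2) * m')
      = (lam * (1 - t ^ 2)) * (m - m') := by ring
  rw [e, abs_div, abs_mul, abs_of_pos hpos, abs_of_nonneg (mul_nonneg h0 (by linarith)),
    div_le_iff₀ hpos, mul_comm]
  apply mul_le_mul_of_nonneg_left _ (abs_nonneg _)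
  nlinarith [sq_nonneg t, mul_nonneg h0 (sq_nonneg t), mul_nonneg h0 h0,
    mul_nonneg (mul_nonneg h0 (sub_nonneg.2 h1.le)) (sq_nonneg t)]

theorem tau_lip (h : Tr G lam b) {W W' : Finset V} (hW : IsSub G W) (hW' : IsSub G W') {x u : V}
    (hx : x ∈ W) (hx' : x ∈ W') (hu : u ∈ W) (hu' : u ∈ W') (hux : u ≠ x) {r r' : V → ℝ}
    (hr : Adm W r) (hr' : Adm W' r') :
    |tau G lam W x u r - tau G lam W' x u r'| ≤ (1 + lam) / (1 - lam) *
      (|MW G lam W u r - MW G lam W' u r'| +
        |MW G lam W (par G x u) r - MW G lam W' (par G x u) r'|) := by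
  have h0 := h.nonneg
  have h1 := h.lam_lt
  have ht := tau_abs_lt h (x := x) hu hr
  have ht' := tau_abs_lt h (x := x) hu' hr'
  have hm := MW_abs_lt h (hW x hx u hu) hr
  have e1 := MW_rel h hW hx hu hux hr
  have e2 := MW_rel h hW' hx' hu' hux hr'
  set t := tau G lam W x u r
  set t' := tau G lam W' x u r'
  set m := MW G lam W (par G x u) r
  set m' := MW G lam W' (par G x u) r'
  have k1 := rel_mono h0 h1 ht ht' hm.le (m := m)
  have k2 := rel_lip h0 h1 ht' (m := m) (m' := m')
  rw [← e1] at k1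
  rw [← e2] at k2
  set A := ((1 - lam ^ 2) * t' + lam * (1 - t' ^ 2) * m) / (1 - lam ^ 2 * t' ^ 2)
  have k3 : |MW G lam W u r - A| ≤ |MW G lam W u r - MW G lam W' u r'| + |m - m'| := by
    calc |MW G lam W u r - A| = |(MW G lam W u r - MW G lam W' u r') +
          (MW G lam W' u r' - A)| := by ring_nf
      _ ≤ |MW G lam W u r - MW G lam W' u r'| + |MW G lam W' u r' - A| := abs_add_le _ _
      _ ≤ _ := by
          rw [abs_sub_comm (MW G lam W' u r') A]
          linarith
  have p1 : 0 < 1 - lam := by linarith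
  have p2 : 0 < 1 + lam := by linarith
  have k4 := k1.trans k3
  rw [div_mul_eq_mul_div, div_le_iff₀ p2] at k4
  rw [div_mul_eq_mul_div, le_div_iff₀ p1]
  linarith

end P1

end Crest.Agent.H14
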