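import Mathlib
import Crest.Agent.H14.Upd

/-!
# Row 160: jump factor of one observation (Q1), interface forms of the recursion lemmas (Q2)
(helper17)
-/

set_option autoImplicit false

open MeasureTheory Filter Topology

namespace Crest.Agent.H14

open scoped Classical

section Jump

/-- jump factor -/
noncomputable def Jf (a m u : ℝ) : ℝ := a * Qf (a * m) u / (1 + a * Qf (a * m) u * m)

variable {a m m' u : ℝ}

theorem abs_am_le (ha : 0 ≤ a) (ha' : a ≤ 1 / 4) (hm : |m| ≤ 1) : |a * m| ≤ 1 / 2 := by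
  rw [abs_mul, abs_of_nonneg ha]
  calc a * |m| ≤ a * 1 := mul_le_mul_of_nonneg_left hm ha
    _ ≤ 1 / 2 := by linarith

theorem abs_aQ_le (ha : 0 ≤ a) (ha' : a ≤ 1 / 4) (hm : |m| ≤ 1) (hu : u ∈ Set.Icc (0:ℝ) 1) :
    |a * Qf (a * m) u| ≤ a := by
  rw [abs_mul, abs_of_nonneg ha]
  calc _ ≤ a * 1 := mul_le_mul_of_nonneg_left (abs_Qf_le (abs_am_le ha ha' hm) hu) ha
    _ = a := mul_one _

theorem Jf_den (ha : 0 ≤ a) (ha' : a ≤ 1 / 4) (hm : |m| ≤ 1) (hu : u ∈ Set.Icc (0:ℝ) 1) :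
    3 / 4 ≤ 1 + a * Qf (a * m) u * m := by
  have h : |a * Qf (a * m) u * m| ≤ 1 / 4 := by
    rw [abs_mul]
    calc _ ≤ a * 1 := mul_le_mul (abs_aQ_le ha ha' hm hu) hm (abs_nonneg _) ha
      _ ≤ 1 / 4 := by linarith
  have := abs_le.mp h
  linarith

theorem Jf_bound (ha : 0 ≤ a) (ha' : a ≤ 1 / 4) (hm : |m| ≤ 1)
    (hu : u ∈ Set.Icc (0:ℝ) 1) : |Jf a m u| ≤ 2 * a := by
  have h1 := Jf_den ha ha' hm hu
  have h2 := abs_aQ_le ha ha' hm hu
  unfold Jf
  rw [abs_div, abs_of_pos (by linarith : 0 < 1 + a * Qf (a * m) u * m), div_le_iff₀ (by linarith)]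
  nlinarith

theorem Jf_lip (ha : 0 ≤ a) (ha' : a ≤ 1 / 4) (hm : |m| ≤ 1) (hm' : |m'| ≤ 1)
    (hu : u ∈ Set.Icc (0:ℝ) 1) : |Jf a m u - Jf a m' u| ≤ 4 * a ^ 2 * |m - m'| := by
  have h1 := Jf_den ha ha' hm hu
  have h1' := Jf_den ha ha' hm' hu
  have h2 := abs_aQ_le ha ha' hm hu
  have h2' := abs_aQ_le ha ha' hm' hu
  have h3 := Qf_lip (abs_am_le ha ha' hm) (abs_am_le ha ha' hm') hu
  unfold Jf
  set z := a * Qf (a * m) u with hz
  set z' := a * Qf (a * m') u with hz'
  have h4 : |z - z'| ≤ a ^ 2 * |m - m'| := by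
    rw [hz, hz', ← mul_sub, abs_mul, abs_of_nonneg ha]
    calc a * |Qf (a * m) u - Qf (a * m') u| ≤ a * |a * m - a * m'| :=
          mul_le_mul_of_nonneg_left h3 ha
      _ = a ^ 2 * |m - m'| := by rw [← mul_sub, abs_mul, abs_of_nonneg ha]; ring
  have h5 : |z * z' * (m' - m)| ≤ a ^ 2 * |m - m'| := by
    rw [abs_mul, abs_mul, abs_sub_comm m' m]
    apply mul_le_mul_of_nonneg_right _ (abs_nonneg _)
    calc |z| * |z'| ≤ a * a := mul_le_mul h2 h2' (abs_nonneg _) ha
      _ = a ^ 2 := by ring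
  have h6 : z / (1 + z * m) - z' / (1 + z' * m') =
      ((z - z') + z * z' * (m' - m)) / ((1 + z * m) * (1 + z' * m')) := by
    have e1 : 1 + z * m ≠ 0 := by linarith
    have e2 : 1 + z' * m' ≠ 0 := by linarith
    rw [div_sub_div _ _ e1 e2]
    congr 1
    ring
  have h7 : 9 / 16 ≤ (1 + z * m) * (1 + z' * m') := by nlinarith
  rw [h6, abs_div, abs_of_pos (by linarith : 0 < (1 + z * m) * (1 + z' * m')),
    div_le_iff₀ (by linarith)]
  have h8 : |z - z' + z * z' * (m' - m)| ≤ 2 * (a ^ 2 * |m - m'|) :=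
    (abs_add_le _ _).trans (by linarith)
  have h9 : 0 ≤ a ^ 2 * |m - m'| := by positivity
  nlinarith

theorem measurable_Jf : Measurable (fun q : ℝ × ℝ × ℝ => Jf q.1 q.2.1 q.2.2) := by
  unfold Jf
  have h1 : Measurable (fun q : ℝ × ℝ × ℝ => q.1 * Qf (q.1 * q.2.1) q.2.2) :=
    measurable_fst.mul (measurable_Qf.comp
      ((measurable_fst.mul (measurable_fst.comp measurable_snd)).prodMk
        (measurable_snd.comp measurable_snd)))
  exact h1.div (measurable_const.add (h1.mul (measurable_fst.comp measurable_snd)))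

theorem integral_Jf (ha : 0 ≤ a) (ha' : a ≤ 1 / 4) (hm : |m| ≤ 1) :
    ∫ u : unitInterval, Jf a m u = 0 := by
  have h := integral_Qf (abs_am_le ha ha' hm) (fun q : ℝ => a * q / (1 + a * q * m))
  unfold Jf
  rw [h]
  have h1 : ∀ v : unitInterval, (1 + a * m * (2 * (v:ℝ) - 1)) •
      (a * (2 * (v:ℝ) - 1) / (1 + a * (2 * (v:ℝ) - 1) * m)) = a * (2 * (v:ℝ) - 1) := by
    intro v
    have hv1 := v.2.1
    have hv2 := v.2.2
    have hv : |2 * (v:ℝ) - 1| ≤ 1 := by rw [abs_le]; constructor <;> linarith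
    have h2 : |a * (2 * (v:ℝ) - 1) * m| ≤ 1 / 4 := by
      rw [abs_mul, abs_mul, abs_of_nonneg ha]
      calc a * |2 * (v:ℝ) - 1| * |m| ≤ a * 1 * 1 := by gcongr
        _ ≤ 1 / 4 := by linarith
    have h3 := abs_le.mp h2
    have h4 : 1 + a * (2 * (v:ℝ) - 1) * m ≠ 0 := by linarith
    rw [smul_eq_mul]
    have h5 : 1 + a * m * (2 * (v:ℝ) - 1) = 1 + a * (2 * (v:ℝ) - 1) * m := by ring
    rw [h5, mul_div_cancel₀ _ h4]
  simp only [h1]
  rw [integral_unitI (fun v : ℝ => a * (2 * v - 1))]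
  rw [integral_Icc_eq_integral_Ioc, ← intervalIntegral.integral_of_le zero_le_one]
  rw [intervalIntegral.integral_const_mul]
  have : ∫ x in (0:ℝ)..1, (2 * x - 1) = 0 := by
    have h2 : IntervalIntegrable (fun x : ℝ => 2 * x) volume 0 1 :=
      (continuous_const.mul continuous_id).intervalIntegrable 0 1
    have h3 : IntervalIntegrable (fun _ : ℝ => (1:ℝ)) volume 0 1 :=
      continuous_const.intervalIntegrable 0 1
    rw [intervalIntegral.integral_sub h2 h3, intervalIntegral.integral_const_mul, integral_id]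
    simp
  rw [this, mul_zero]

end Jump

section Round

variable {E : Type*}

theorem measurable_Zrd (W : Finset E) (w : Finset E → ℝ) :
    Measurable (fun q : (E → ℝ) × (E → ℝ) × (E → ℝ) × (E → unitInterval) =>
      Zrd W w q.1 q.2.1 q.2.2.1 q.2.2.2) :=
  measurable_Zrd' (W := W) (w := w) measurable_fst (measurable_fst.comp measurable_snd)
    (measurable_fst.comp (measurable_snd.comp measurable_snd))
    (measurable_snd.comp (measurable_snd.comp measurable_snd))

/-- nothing is observed after time `1` -/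
theorem Zst_of_one_le (W : Finset E) (w : Finset E → ℝ) (k : ℕ) (ω : E → ℕ → unitInterval) {v : E}
    (h : 1 ≤ tm k ω v) : Zst W w k ω v = 0 := by
  by_cases hv : v ∈ W
  · rw [Zst_eq hv]
    have : str k (tm k ω v) = 0 := by
      unfold str
      rw [if_neg (not_lt.2 h)]
    rw [this, zero_mul]
  · exact Zst_of_notMem hv k ω

/-- the round is over at time `1` -/
theorem Xst_one (W : Finset E) (w : Finset E → ℝ) (k : ℕ) (ω : E → ℕ → unitInterval) :
    Xst W w k 1 ω = Rst W w (k + 1) ω := by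
  rw [Rst_succ]
  funext v
  unfold Xst stt
  by_cases h1 : tm k ω v < 1
  · rw [if_pos h1, if_pos (lt_trans h1 (by norm_num))]
  · rw [if_neg h1, Zst_of_one_le W w k ω (not_lt.1 h1)]
    simp

theorem Xst_zero (W : Finset E) (w : Finset E → ℝ) (k : ℕ) (ω : E → ℕ → unitInterval) :
    Xst W w k 0 ω = Rst W w k ω := Xst_of_nonpos le_rfl ω

end Round

end Crest.Agent.H14
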