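import Mathlib
import Crest.Agent.H14.Tree

/-! # Row 160 (S0241): shared definitions, part 2 (pairs of windows, couplings) -/

set_option autoImplicit false

open MeasureTheory Filter Topology

namespace Crest.Agent.H14

open scoped Classical

section Tree

variable {V : Type*} (G : SimpleGraph V) (lam : ℝ)

/-- a pair of windows (two balls) -/
structure WP (V : Type*) where
  c1 : V
  R1 : ℕ
  c2 : V
  R2 : ℕ

variable [G.LocallyFinite]

/-- first / second window -/
noncomputable def W1 (w : WP V) : Finset V := bl G w.c1 w.R1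
noncomputable def W2 (w : WP V) : Finset V := bl G w.c2 w.R2

/-- `limsup F ≤ c` when both windows exhaust the tree around `x` (uniformly in the centres) -/
def LimLe (x : V) (F : WP V → ℝ) (c : ℝ) : Prop :=
  ∀ ε : ℝ, 0 < ε → ∃ n : ℕ, ∀ w : WP V, G.dist w.c1 x + n ≤ w.R1 → G.dist w.c2 x + n ≤ w.R2 →
    F w ≤ c + ε

/-- `κ` is the law of an evidence field in the window `W` with single vertex law `ν`. -/
def IsStat (ν : Measure ℝ) (W : Finset V) (κ : Measure (V → ℝ)) : Prop :=
  ∀ F : (V → ℝ) → ENNReal, Measurable F → DependsOn F (W : Set V) →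
    ∫⁻ r, F r ∂κ = ∫⁻ r, F r * ENNReal.ofReal (LW G lam W r) ∂(Nm V ν)

/-- couplings of static models, one for each pair of windows -/
structure Coup (ν : Measure ℝ) (κ : WP V → Measure ((V → ℝ) × (V → ℝ))) : Prop where
  prob : ∀ w, IsProbabilityMeasure (κ w)
  fst : ∀ w, IsStat G lam ν (W1 G w) ((κ w).map Prod.fst)
  snd : ∀ w, IsStat G lam ν (W2 G w) ((κ w).map Prod.snd)

/-- squared difference of the posterior means at `z` -/
noncomputable def Dq (κ : WP V → Measure ((V → ℝ) × (V → ℝ))) (z : V) (w : WP V) : ℝ :=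
  ∫ p, (MW G lam (W1 G w) z p.1 - MW G lam (W2 G w) z p.2) ^ 2 ∂(κ w)

/-- covariance, set to zero outside of the window -/
noncomputable def KK (W : Finset V) (x y : V) (r : V → ℝ) : ℝ := if y ∈ W then KW G lam W x y r else 0

/-- total bracket at `x` -/
noncomputable def Tq (κ : WP V → Measure ((V → ℝ) × (V → ℝ))) (x : V) (w : WP V) : ℝ :=
  ∑ y ∈ W1 G w ∪ W2 G w, ∫ p, (KK G lam (W1 G w) x y p.1 - KK G lam (W2 G w) x y p.2) ^ 2 ∂(κ w) +
  ∑ y ∈ W1 G w ∩ W2 G w, ∫ p, (MW G lam (W1 G w) y p.1 - MW G lam (W2 G w) y p.2) ^ 2 *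
    KK G lam (W2 G w) x y p.2 ^ 2 ∂(κ w)

end Tree

end Crest.Agent.H14
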