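import Mathlib
import Crest.Agent.H14.Defs
import Crest.Agent.H14.Rec
import Crest.Agent.H14.Upd
import Crest.Agent.H14.Channel

/-!
# Row 160 (S0241), Q4: evolution of the difference of two solutions (helper18)

Helper lemmas live in `Crest.Agent.H14.Ev`; the interface names (`KKf`, `Dg`, `Tg`, `Dg_mono`,
`Dg_evol`, `Tg_measurable`) in `Crest.Agent.H14`.
-/

set_option autoImplicit false

open MeasureTheory Filter Topology

namespace Crest.Agent.H14

open scoped Classical

section Defs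

variable {E : Type*}

/-- covariance set to zero off the window -/
noncomputable def KKf (W : Finset E) (w : Finset E → ℝ) (x y : E) (r : E → ℝ) : ℝ :=
  if y ∈ W then Kf W w x y r else 0

noncomputable def Dg (W W' : Finset E) (w w' : Finset E → ℝ) (x : E) (k : ℕ) (s : ℝ) : ℝ :=
  ∫ ω, (Mf W w x (Xst W w k s ω) - Mf W' w' x (Xst W' w' k s ω)) ^ 2 ∂(Pm E)

noncomputable def Tg (W W' : Finset E) (w w' : Finset E → ℝ) (x : E) (k : ℕ) (s : ℝ) : ℝ :=
  ∑ y ∈ W ∪ W', ∫ ω, (KKf W w x y (Xst W w k s ω) - KKf W' w' x y (Xst W' w' k s ω)) ^ 2 ∂(Pm E) +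
  ∑ y ∈ W ∩ W', ∫ ω, (Mf W w y (Xst W w k s ω) - Mf W' w' y (Xst W' w' k s ω)) ^ 2 *
    KKf W' w' x y (Xst W' w' k s ω) ^ 2 ∂(Pm E)

end Defs

namespace Ev

section Resample

/-- replacing one coordinate of a product measure by a measure preserving function of that
coordinate and of an independent source of randomness. -/
theorem mp_update_gen {ι : Type*} [DecidableEq ι] {X : ι → Type*} [∀ i, MeasurableSpace (X i)]
    (μ : ∀ i, Measure (X i)) [∀ i, IsProbabilityMeasure (μ i)] {Y : Type*} [MeasurableSpace Y]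
    (ρ : Measure Y) [IsProbabilityMeasure ρ] (y : ι) (f : X y × Y → X y)
    (hf : MeasurePreserving f ((μ y).prod ρ) (μ y)) :
    MeasurePreserving (fun q : (∀ i, X i) × Y => Function.update q.1 y (f (q.1 y, q.2)))
      ((Measure.infinitePi μ).prod ρ) (Measure.infinitePi μ) := by
  have hm : Measurable (fun q : (∀ i, X i) × Y => Function.update q.1 y (f (q.1 y, q.2))) := by
    rw [measurable_pi_iff]
    intro i
    by_cases hi : i = y
    · subst hi
      simp only [Function.update_self]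
      exact hf.measurable.comp (((measurable_pi_apply i).comp measurable_fst).prodMk measurable_snd)
    · simp only [Function.update_of_ne hi]
      exact (measurable_pi_apply i).comp measurable_fst
  refine ⟨hm, ?_⟩
  apply Measure.eq_infinitePi
  intro s t ht
  rw [Measure.map_apply hm (MeasurableSet.pi s.countable_toSet fun i _ => ht i)]
  rw [Measure.prod_apply_symm (hm (MeasurableSet.pi s.countable_toSet fun i _ => ht i))]
  by_cases hy : y ∈ s
  · have h1 : ∀ u : Y, (fun x : ∀ i, X i => (x, u)) ⁻¹'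
        ((fun q : (∀ i, X i) × Y => Function.update q.1 y (f (q.1 y, q.2))) ⁻¹'
          (Set.pi s t)) =
        Set.pi s (Function.update t y {a | f (a, u) ∈ t y}) := by
      intro u
      ext x
      simp only [Set.mem_preimage, Set.mem_pi, Finset.mem_coe]
      constructor
      · intro h i hi
        by_cases hiy : i = y
        · subst hiy
          have := h i hi
          simpa using this
        · have := h i hi
          rw [Function.update_of_ne hiy] at this
          rw [Function.update_of_ne hiy]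
          exact this
      · intro h i hi
        by_cases hiy : i = y
        · subst hiy
          have := h i hi
          simpa using this
        · have := h i hi
          rw [Function.update_of_ne hiy] at this
          rw [Function.update_of_ne hiy]
          exact this
    have h2 : ∀ u : Y, (Measure.infinitePi μ) ((fun x : ∀ i, X i => (x, u)) ⁻¹'
        ((fun q : (∀ i, X i) × Y => Function.update q.1 y (f (q.1 y, q.2))) ⁻¹'
          (Set.pi s t))) = μ y {a | f (a, u) ∈ t y} * ∏ i ∈ s.erase y, μ i (t i) := by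
      intro u
      rw [h1 u, Measure.infinitePi_pi]
      · rw [← Finset.mul_prod_erase s _ hy]
        congr 1
        · rw [Function.update_self]
        · apply Finset.prod_congr rfl
          intro i hi
          rw [Function.update_of_ne (Finset.ne_of_mem_erase hi)]
      · intro i _
        by_cases hiy : i = y
        · subst hiy
          rw [Function.update_self]
          exact (hf.measurable.comp measurable_prodMk_right) (ht i)
        · rw [Function.update_of_ne hiy]
          exact ht i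
    simp_rw [h2]
    rw [lintegral_mul_const' _ _ (by
      exact (ENNReal.prod_lt_top fun i _ => measure_lt_top _ _).ne)]
    have h3 : ∫⁻ u, μ y {a | f (a, u) ∈ t y} ∂ρ = μ y (t y) := by
      have := hf.measure_preimage (ht y).nullMeasurableSet
      rw [Measure.prod_apply_symm (hf.measurable (ht y))] at this
      exact this
    rw [h3, Finset.mul_prod_erase s (fun i => μ i (t i)) hy]
  · have h1 : ∀ u : Y, (fun x : ∀ i, X i => (x, u)) ⁻¹'
        ((fun q : (∀ i, X i) × Y => Function.update q.1 y (f (q.1 y, q.2))) ⁻¹'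
          (Set.pi s t)) = Set.pi s t := by
      intro u
      ext x
      simp only [Set.mem_preimage, Set.mem_pi, Finset.mem_coe]
      have : ∀ i ∈ s, Function.update x y (f (x y, u)) i = x i := fun i hi =>
        Function.update_of_ne (by rintro rfl; exact hy hi) _ _
      constructor
      · intro h i hi
        rw [← this i hi]; exact h i hi
      · intro h i hi
        rw [this i hi]; exact h i hi
    simp_rw [h1]
    rw [lintegral_const, measure_univ, mul_one, Measure.infinitePi_pi _ (fun i _ => ht i)]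

variable {E : Type*}

/-- replace the coordinate `j` of the label of `y` -/
noncomputable def upd (y : E) (j : ℕ) (ω : E → ℕ → unitInterval) (u : unitInterval) :
    E → ℕ → unitInterval :=
  Function.update ω y (Function.update (ω y) j u)

theorem mp_upd (y : E) (j : ℕ) :
    MeasurePreserving (fun q : (E → ℕ → unitInterval) × unitInterval => upd y j q.1 q.2)
      ((Pm E).prod volume) (Pm E) := by
  have h1 : MeasurePreserving (fun q : (ℕ → unitInterval) × unitInterval =>
      Function.update q.1 j q.2)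
      ((Measure.infinitePi (fun _ : ℕ => (volume : Measure unitInterval))).prod volume)
      (Measure.infinitePi (fun _ : ℕ => (volume : Measure unitInterval))) := by
    have := mp_update_gen (fun _ : ℕ => (volume : Measure unitInterval))
      (volume : Measure unitInterval) j (fun q => q.2) (measurePreserving_snd)
    exact this
  exact mp_update_gen (fun _ : E => Measure.infinitePi (fun _ : ℕ => (volume : Measure unitInterval)))
    (volume : Measure unitInterval) y (fun q => Function.update q.1 j q.2) h1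

end Resample
section Local

variable {E : Type*} {W W' : Finset E} {w w' : Finset E → ℝ}

theorem upd_apply_of_ne {y v : E} (h : v ≠ y) (j : ℕ) (ω : E → ℕ → unitInterval)
    (u : unitInterval) : upd y j ω u v = ω v := by
  unfold upd
  rw [Function.update_of_ne h]

theorem upd_apply_self (y : E) (j : ℕ) (ω : E → ℕ → unitInterval)
    (u : unitInterval) : upd y j ω u y = Function.update (ω y) j u := by
  unfold upd
  rw [Function.update_self]

theorem upd_of_ne (y v : E) {i j : ℕ} (h : i ≠ j) (ω : E → ℕ → unitInterval)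
    (u : unitInterval) : upd y j ω u v i = ω v i := by
  by_cases hv : v = y
  · subst hv
    rw [upd_apply_self, Function.update_of_ne h]
  · rw [upd_apply_of_ne hv]

theorem upd_self (y : E) (j : ℕ) (ω : E → ℕ → unitInterval)
    (u : unitInterval) : upd y j ω u y j = u := by
  rw [upd_apply_self, Function.update_self]

theorem upd_upd (y : E) (j : ℕ) (ω : E → ℕ → unitInterval)
    (u u' : unitInterval) : upd y j (upd y j ω u) u' = upd y j ω u' := by
  funext v i
  by_cases hv : v = y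
  · subst hv
    rw [upd_apply_self, upd_apply_self, upd_apply_self, Function.update_idem]
  · rw [upd_apply_of_ne hv, upd_apply_of_ne hv, upd_apply_of_ne hv]

theorem tm_upd_of_ne (k : ℕ) {y v : E} (h : v ≠ y) (j : ℕ) (ω : E → ℕ → unitInterval)
    (u : unitInterval) : tm k (upd y j ω u) v = tm k ω v := by
  unfold tm
  rw [upd_apply_of_ne h]

theorem tm_upd_ns (k : ℕ) (y : E) (ω : E → ℕ → unitInterval) (u : unitInterval) :
    tm k (upd y (2 * k + 1) ω u) = tm k ω := by
  funext v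
  unfold tm
  rw [upd_of_ne y v (by omega)]

theorem tm_upd_self (k : ℕ) (y : E) (ω : E → ℕ → unitInterval) (u : unitInterval) :
    tm k (upd y (2 * k) ω u) y = 2 * (u : ℝ) := by
  unfold tm
  rw [upd_self]

theorem ns_upd_tm (k : ℕ) (y : E) (ω : E → ℕ → unitInterval) (u : unitInterval) :
    ns k (upd y (2 * k) ω u) = ns k ω := by
  funext v
  unfold ns
  rw [upd_of_ne y v (by omega)]

theorem ns_upd_of_ne (k : ℕ) {y v : E} (h : v ≠ y) (j : ℕ) (ω : E → ℕ → unitInterval)
    (u : unitInterval) : ns k (upd y j ω u) v = ns k ω v := by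
  unfold ns
  rw [upd_apply_of_ne h]

theorem ns_upd_self (k : ℕ) (y : E) (ω : E → ℕ → unitInterval) (u : unitInterval) :
    ns k (upd y (2 * k + 1) ω u) y = u := by
  unfold ns
  rw [upd_self]

theorem Rst_upd : ∀ (k : ℕ) {j : ℕ} (_ : 2 * k ≤ j) (y : E) (ω : E → ℕ → unitInterval)
    (u : unitInterval), Rst W w k (upd y j ω u) = Rst W w k ω
  | 0, _, _, _, _, _ => rfl
  | k + 1, j, hj, y, ω, u => by
    have ih := Rst_upd k (j := j) (by omega) y ω u
    have h1 : tm k (upd y j ω u) = tm k ω := by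
      funext v
      unfold tm
      rw [upd_of_ne y v (by omega)]
    have h2 : ns k (upd y j ω u) = ns k ω := by
      funext v
      unfold ns
      rw [upd_of_ne y v (by omega)]
    simp only [Rst, ih, h1, h2]

/-- changing the label of a vertex not yet observed does not change the evidence -/
theorem Xst_upd (k : ℕ) {j : ℕ} (hj : 2 * k ≤ j) {s : ℝ} (y : E) (ω : E → ℕ → unitInterval)
    (u : unitInterval) (h1 : s ≤ tm k ω y) (h2 : s ≤ tm k (upd y j ω u) y) :
    ∀ v ∈ W, Xst W w k s (upd y j ω u) v = Xst W w k s ω v := by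
  unfold Xst Zst
  apply stt_Zrd_congr
  · intro x _
    rw [Rst_upd k hj]
  · intro x _ hx
    by_cases hxy : x = y
    · subst hxy
      rcases hx with hx | hx
      · exact absurd hx (not_lt.2 h2)
      · exact absurd hx (not_lt.2 h1)
    · rw [tm_upd_of_ne k hxy, ns_upd_of_ne k hxy]
      exact ⟨rfl, rfl, rfl⟩

theorem Xst_upd_ns (k : ℕ) {s : ℝ} (y : E) (ω : E → ℕ → unitInterval)
    (u : unitInterval) (h1 : s ≤ tm k ω y) :
    ∀ v ∈ W, Xst W w k s (upd y (2 * k + 1) ω u) v = Xst W w k s ω v :=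
  Xst_upd k (by omega) y ω u h1 (by rw [tm_upd_ns]; exact h1)

theorem Xst_upd_tm (k : ℕ) {s : ℝ} (y : E) (ω : E → ℕ → unitInterval)
    (θ : unitInterval) (h1 : s ≤ tm k ω y) (h2 : s ≤ 2 * (θ : ℝ)) :
    ∀ v ∈ W, Xst W w k s (upd y (2 * k) ω θ) v = Xst W w k s ω v :=
  Xst_upd k le_rfl y ω θ h1 (by rw [tm_upd_self]; exact h2)

end Local

section Tele

variable {E : Type*}

/-- telescoping along the order of the times -/
theorem tele_sum (t : E → ℝ) (f : Finset E → ℝ) (A C : Finset E)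
    (hA : ∀ a ∈ A, ∀ c ∈ C, t a < t c) (hinj : Set.InjOn t (C : Set E)) :
    f (A ∪ C) - f A = ∑ y ∈ C, (f (insert y (A ∪ C.filter (fun v => t v < t y))) -
      f (A ∪ C.filter (fun v => t v < t y))) := by
  induction C using Finset.induction_on_max_value t with
  | empty => simp
  | insert a C haC hmax ih =>
    have hlt : ∀ x ∈ C, t x < t a := by
      intro x hx
      refine lt_of_le_of_ne (hmax x hx) ?_
      intro h
      have := hinj (Finset.mem_coe.2 (Finset.mem_insert_of_mem hx))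
        (Finset.mem_coe.2 (Finset.mem_insert_self a C)) h
      subst this
      exact haC hx
    have ih' := ih (fun a' ha' c hc => hA a' ha' c (Finset.mem_insert_of_mem hc))
      (hinj.mono (by rw [Finset.coe_insert]; exact Set.subset_insert _ _))
    rw [Finset.sum_insert haC]
    have e1 : (insert a C).filter (fun v => t v < t a) = C := by
      ext v
      rw [Finset.mem_filter, Finset.mem_insert]
      constructor
      · rintro ⟨rfl | h, h'⟩
        · exact absurd h' (lt_irrefl _)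
        · exact h
      · intro h; exact ⟨Or.inr h, hlt v h⟩
    have e2 : ∀ y ∈ C, (insert a C).filter (fun v => t v < t y) = C.filter (fun v => t v < t y) := by
      intro y hy
      ext v
      rw [Finset.mem_filter, Finset.mem_filter, Finset.mem_insert]
      constructor
      · rintro ⟨rfl | h, h'⟩
        · exact absurd (h'.trans (hlt y hy)) (lt_irrefl _)
        · exact ⟨h, h'⟩
      · rintro ⟨h, h'⟩; exact ⟨Or.inr h, h'⟩
    rw [e1, Finset.sum_congr rfl (fun y hy => by rw [e2 y hy]), ← ih', Finset.union_insert]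
    ring

theorem tele_time (t : E → ℝ) (f : Finset E → ℝ) (S : Finset E) (hinj : Set.InjOn t (S : Set E))
    {s₁ s₂ : ℝ} (hs : s₁ ≤ s₂) :
    f (S.filter (fun v => t v < s₂)) - f (S.filter (fun v => t v < s₁)) =
      ∑ y ∈ S, if s₁ ≤ t y ∧ t y < s₂ then
        (f (insert y (S.filter (fun v => t v < t y))) - f (S.filter (fun v => t v < t y)))
        else 0 := by
  have h := tele_sum t f (S.filter (fun v => t v < s₁)) (S.filter (fun v => s₁ ≤ t v ∧ t v < s₂))
    (fun a ha c hc => lt_of_lt_of_le (Finset.mem_filter.1 ha).2 (Finset.mem_filter.1 hc).2.1)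
    (hinj.mono (by intro x hx; exact (Finset.mem_filter.1 (Finset.mem_coe.1 hx)).1))
  have e1 : S.filter (fun v => t v < s₁) ∪ S.filter (fun v => s₁ ≤ t v ∧ t v < s₂) =
      S.filter (fun v => t v < s₂) := by
    ext v
    simp only [Finset.mem_union, Finset.mem_filter]
    constructor
    · rintro (⟨h1, h2⟩ | ⟨h1, h2, h3⟩)
      · exact ⟨h1, lt_of_lt_of_le h2 hs⟩
      · exact ⟨h1, h3⟩
    · rintro ⟨h1, h2⟩
      rcases lt_or_ge (t v) s₁ with h3 | h3
      · exact Or.inl ⟨h1, h3⟩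
      · exact Or.inr ⟨h1, h3, h2⟩
  rw [e1] at h
  rw [h, Finset.sum_filter]
  apply Finset.sum_congr rfl
  intro y _
  split_ifs with hy
  · have e2 : S.filter (fun v => t v < s₁) ∪
        (S.filter (fun v => s₁ ≤ t v ∧ t v < s₂)).filter (fun v => t v < t y) =
        S.filter (fun v => t v < t y) := by
      ext v
      simp only [Finset.mem_union, Finset.mem_filter]
      constructor
      · rintro (⟨h1, h2⟩ | ⟨⟨h1, h2, h3⟩, h4⟩)
        · exact ⟨h1, lt_of_lt_of_le h2 hy.1⟩
        · exact ⟨h1, h4⟩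
      · rintro ⟨h1, h2⟩
        rcases lt_or_ge (t v) s₁ with h3 | h3
        · exact Or.inl ⟨h1, h3⟩
        · exact Or.inr ⟨⟨h1, h3, h2.trans hy.2⟩, h2⟩
    rw [e2]
  · rfl

end Tele

section Jump

variable {E : Type*} {W W' : Finset E} {w w' : Finset E → ℝ}

/-- state after absorbing the outcomes at the vertices in `A` -/
noncomputable def sta (r Z : E → ℝ) (A : Finset E) : E → ℝ :=
  fun v => if v ∈ A then opl (r v) (Z v) else r v

theorem sta_filter (r t Z : E → ℝ) (S : Finset E) (hS : W ⊆ S) (s : ℝ) :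
    ∀ v ∈ W, sta r Z (S.filter (fun v => t v < s)) v = stt r t Z s v := by
  intro v hv
  unfold sta stt
  by_cases h : t v < s
  · rw [if_pos (Finset.mem_filter.2 ⟨hS hv, h⟩), if_pos h]
  · rw [if_neg (show v ∉ S.filter (fun v => t v < s) from
      fun h' => h (Finset.mem_filter.1 h').2), if_neg h]

theorem sta_insert (r Z : E → ℝ) {A : Finset E} {y : E} (hy : y ∉ A) :
    sta r Z (insert y A) = Function.update (sta r Z A) y (opl (sta r Z A y) (Z y)) := by
  funext v
  by_cases hv : v = y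
  · subst hv
    rw [Function.update_self]
    unfold sta
    rw [if_pos (Finset.mem_insert_self _ _), if_neg hy]
  · rw [Function.update_of_ne hv]
    unfold sta
    by_cases h : v ∈ A
    · rw [if_pos (Finset.mem_insert_of_mem h), if_pos h]
    · rw [if_neg h, if_neg]
      rw [Finset.mem_insert]
      tauto

theorem abs_sta_lt {r Z : E → ℝ} (hr : ∀ v, |r v| < 1) (hZ : ∀ v, |Z v| < 1) (A : Finset E)
    (v : E) : |sta r Z A v| < 1 := by
  unfold sta
  split_ifs
  · exact abs_opl_lt (hr v) (hZ v)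
  · exact hr v

theorem Mf_jump (hw : Pos W w) (k : ℕ) (ω : E → ℕ → unitInterval) (x y : E) {S : Finset E}
    (hS : W ⊆ S) :
    Mf W w x (sta (Rst W w k ω) (Zst W w k ω)
      (insert y (S.filter (fun v => tm k ω v < tm k ω y)))) =
    Mf W w x (Xst W w k (tm k ω y) ω) + KKf W w x y (Xst W w k (tm k ω y) ω) *
      Jf (str k (tm k ω y)) (Mf W w y (Xst W w k (tm k ω y) ω)) (ns k ω y) := by
  have hyA : y ∉ S.filter (fun v => tm k ω v < tm k ω y) := by
    intro h
    exact lt_irrefl _ (Finset.mem_filter.1 h).2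
  have hst := sta_filter (W := W) (Rst W w k ω) (tm k ω) (Zst W w k ω) S hS (tm k ω y)
  have hst' : ∀ v ∈ W, sta (Rst W w k ω) (Zst W w k ω)
      (S.filter (fun v => tm k ω v < tm k ω y)) v = Xst W w k (tm k ω y) ω v := hst
  have hr1 := abs_Rst_lt hw k ω
  have hZ1 : ∀ v, |Zst W w k ω v| < 1 := fun v =>
    lt_of_le_of_lt (abs_Zst_le_a0 hw k ω v) a0_lt_one
  rw [sta_insert _ _ hyA]
  by_cases hy : y ∈ W
  · rw [Mf_update hw (fun v _ => abs_sta_lt hr1 hZ1 _ v) hy (hZ1 y) x]
    rw [Mf_congr x hst', Kf_congr x y hst', Mf_congr y hst']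
    unfold KKf
    rw [if_pos hy]
    have hz : Zst W w k ω y = str k (tm k ω y) *
        Qf (str k (tm k ω y) * Mf W w y (Xst W w k (tm k ω y) ω)) (ns k ω y) := Zst_eq hy k ω
    rw [hz]
    unfold Jf
    ring
  · have h1 : ∀ v ∈ W, Function.update (sta (Rst W w k ω) (Zst W w k ω)
        (S.filter (fun v => tm k ω v < tm k ω y))) y
        (opl (sta (Rst W w k ω) (Zst W w k ω) (S.filter (fun v => tm k ω v < tm k ω y)) y)
          (Zst W w k ω y)) v = Xst W w k (tm k ω y) ω v := by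
      intro v hv
      rw [Function.update_of_ne (by rintro rfl; exact hy hv)]
      exact hst' v hv
    rw [Mf_congr x h1]
    unfold KKf
    rw [if_neg hy]
    ring

/-- difference of the posterior means -/
noncomputable def Dv (W W' : Finset E) (w w' : Finset E → ℝ) (x : E) (k : ℕ) (s : ℝ)
    (ω : E → ℕ → unitInterval) : ℝ :=
  Mf W w x (Xst W w k s ω) - Mf W' w' x (Xst W' w' k s ω)

/-- jump of the posterior mean at `x` caused by the observation at `y` -/
noncomputable def jp (W : Finset E) (w : Finset E → ℝ) (x y : E) (k : ℕ)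
    (ω : E → ℕ → unitInterval) : ℝ :=
  KKf W w x y (Xst W w k (tm k ω y) ω) *
      Jf (str k (tm k ω y)) (Mf W w y (Xst W w k (tm k ω y) ω)) (ns k ω y)

theorem Dv_tele (hw : Pos W w) (hw' : Pos W' w') (x : E) (k : ℕ) {s₁ s₂ : ℝ} (hs : s₁ ≤ s₂)
    (ω : E → ℕ → unitInterval)
    (hinj : Set.InjOn (tm k ω) ((W ∪ W' : Finset E) : Set E)) :
    Dv W W' w w' x k s₂ ω ^ 2 - Dv W W' w w' x k s₁ ω ^ 2 =
      ∑ y ∈ W ∪ W', if s₁ ≤ tm k ω y ∧ tm k ω y < s₂ then
        (2 * (Dv W W' w w' x k (tm k ω y) ω * (jp W w x y k ω - jp W' w' x y k ω)) +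
          (jp W w x y k ω - jp W' w' x y k ω) ^ 2) else 0 := by
  have h := tele_time (tm k ω) (fun A =>
    (Mf W w x (sta (Rst W w k ω) (Zst W w k ω) A) -
      Mf W' w' x (sta (Rst W' w' k ω) (Zst W' w' k ω) A)) ^ 2) (W ∪ W') hinj hs
  have hs1 : ∀ s : ℝ, (Mf W w x (sta (Rst W w k ω) (Zst W w k ω)
      ((W ∪ W').filter (fun v => tm k ω v < s))) -
      Mf W' w' x (sta (Rst W' w' k ω) (Zst W' w' k ω)
      ((W ∪ W').filter (fun v => tm k ω v < s)))) = Dv W W' w w' x k s ω := by
    intro s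
    unfold Dv
    rw [Mf_congr x (sta_filter (W := W) (Rst W w k ω) (tm k ω) (Zst W w k ω) (W ∪ W')
      Finset.subset_union_left s),
      Mf_congr x (sta_filter (W := W') (Rst W' w' k ω) (tm k ω) (Zst W' w' k ω) (W ∪ W')
      Finset.subset_union_right s)]
    rfl
  simp only [hs1] at h
  rw [h]
  apply Finset.sum_congr rfl
  intro y _
  congr 1
  rw [Mf_jump hw k ω x y Finset.subset_union_left, Mf_jump hw' k ω x y Finset.subset_union_right]
  unfold Dv jp
  ring

end Jump

section Prob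

variable {E : Type*}

instance instProbPm : IsProbabilityMeasure (Pm E) := by unfold Pm; infer_instance

theorem measurable_updq (y : E) (j : ℕ) :
    Measurable (fun q : (E → ℕ → unitInterval) × unitInterval => upd y j q.1 q.2) :=
  (mp_upd y j).measurable

theorem integrable_Pm {F : (E → ℕ → unitInterval) → ℝ} (hF : Measurable F) (C : ℝ)
    (hC : ∀ ω, |F ω| ≤ C) : Integrable F (Pm E) :=
  Integrable.of_bound hF.aestronglyMeasurable C (Eventually.of_forall fun ω => by
    rw [Real.norm_eq_abs]; exact hC ω)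

theorem integral_upd (y : E) (j : ℕ) {F : (E → ℕ → unitInterval) → ℝ} (hF : Measurable F)
    (C : ℝ) (hC : ∀ ω, |F ω| ≤ C) :
    ∫ ω, F ω ∂(Pm E) = ∫ ω, (∫ u : unitInterval, F (upd y j ω u)) ∂(Pm E) := by
  have h1 : ∫ ω, F ω ∂(Pm E) = ∫ q : (E → ℕ → unitInterval) × unitInterval,
      F (upd y j q.1 q.2) ∂((Pm E).prod volume) := by
    conv_lhs => rw [← (mp_upd y j).map_eq]
    rw [integral_map (measurable_updq y j).aemeasurable hF.aestronglyMeasurable]
  rw [h1, integral_prod]
  exact Integrable.of_bound (hF.comp (measurable_updq y j)).aestronglyMeasurable C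
    (Eventually.of_forall fun q => by rw [Real.norm_eq_abs]; exact hC _)

theorem ae_tm_ne (k : ℕ) {v v' : E} (h : v ≠ v') :
    ∀ᵐ ω ∂(Pm E), tm k ω v ≠ tm k ω v' := by
  rw [ae_iff]
  simp only [ne_eq, not_not]
  have hm : MeasurableSet {ω : E → ℕ → unitInterval | tm k ω v = tm k ω v'} :=
    measurableSet_eq_fun ((measurable_pi_apply v).comp (measurable_tm k))
      ((measurable_pi_apply v').comp (measurable_tm k))
  rw [← (mp_upd v (2 * k)).measure_preimage hm.nullMeasurableSet,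
    Measure.prod_apply ((measurable_updq v (2 * k)) hm)]
  have h0 : ∀ ω : E → ℕ → unitInterval, (volume : Measure unitInterval)
      (Prod.mk ω ⁻¹' ((fun q : (E → ℕ → unitInterval) × unitInterval =>
        upd v (2 * k) q.1 q.2) ⁻¹' {ω | tm k ω v = tm k ω v'})) = 0 := by
    intro ω
    apply Set.Subsingleton.measure_zero
    intro a ha b hb
    simp only [Set.mem_preimage, Set.mem_ofPred_eq] at ha hb
    rw [tm_upd_self, tm_upd_of_ne k h.symm] at ha hb
    apply Subtype.ext
    linarith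
  simp_rw [h0]
  simp

theorem ae_inj (k : ℕ) (S : Finset E) :
    ∀ᵐ ω ∂(Pm E), Set.InjOn (tm k ω) (S : Set E) := by
  have h : ∀ᵐ ω ∂(Pm E), ∀ q ∈ ((S ×ˢ S : Finset (E × E)) : Set (E × E)),
      q.1 ≠ q.2 → tm k ω q.1 ≠ tm k ω q.2 := by
    rw [ae_ball_iff (Finset.countable_toSet _)]
    intro q _
    by_cases hq : q.1 = q.2
    · exact Eventually.of_forall fun ω h => absurd hq h
    · filter_upwards [ae_tm_ne k hq] with ω hω _
      exact hω
  filter_upwards [h] with ω hω
  intro a ha b hb hab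
  by_contra hne
  exact hω (a, b) (Finset.mem_coe.2 (Finset.mem_product.2 ⟨ha, hb⟩)) hne hab

/-- the jumps are centered given the past -/
theorem integral_jump_zero (k : ℕ) (y : E) {G a m : (E → ℕ → unitInterval) → ℝ}
    (hG : Measurable G) (ha : Measurable a) (hm : Measurable m) (C : ℝ) (hC : ∀ ω, |G ω| ≤ C)
    (ha0 : ∀ ω, 0 ≤ a ω ∧ a ω ≤ 1 / 4) (hm1 : ∀ ω, |m ω| ≤ 1)
    (hG' : ∀ ω u, G (upd y (2 * k + 1) ω u) = G ω)
    (ha' : ∀ ω u, a (upd y (2 * k + 1) ω u) = a ω)
    (hm' : ∀ ω u, m (upd y (2 * k + 1) ω u) = m ω) :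
    ∫ ω, G ω * Jf (a ω) (m ω) (ns k ω y) ∂(Pm E) = 0 := by
  have hu : Measurable fun ω : E → ℕ → unitInterval => ((ns k ω y : unitInterval) : ℝ) :=
    measurable_subtype_coe.comp ((measurable_pi_apply y).comp (measurable_ns k))
  have hF : Measurable fun ω : E → ℕ → unitInterval => G ω * Jf (a ω) (m ω) (ns k ω y) :=
    hG.mul (measurable_Jf.comp (ha.prodMk (hm.prodMk hu)))
  rw [integral_upd y (2 * k + 1) hF (C * (1 / 2))]
  · have : ∀ ω, ∫ u : unitInterval, G (upd y (2 * k + 1) ω u) *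
        Jf (a (upd y (2 * k + 1) ω u)) (m (upd y (2 * k + 1) ω u))
          (ns k (upd y (2 * k + 1) ω u) y) = 0 := by
      intro ω
      simp_rw [hG', ha', hm', ns_upd_self]
      rw [integral_const_mul, integral_Jf (ha0 ω).1 (ha0 ω).2 (hm1 ω), mul_zero]
    simp_rw [this]
    simp
  · intro ω
    rw [abs_mul]
    have h1 := Jf_bound (ha0 ω).1 (ha0 ω).2 (hm1 ω) (ns k ω y).2
    have h2 : |Jf (a ω) (m ω) (ns k ω y)| ≤ 1 / 2 := by linarith [(ha0 ω).2]
    exact mul_le_mul (hC ω) h2 (abs_nonneg _) ((abs_nonneg _).trans (hC ω))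

end Prob

section Main

variable {E : Type*} {W W' : Finset E} {w w' : Finset E → ℝ}

theorem measurable_Xtm (k : ℕ) (y : E) : Measurable (fun ω => Xst W w k (tm k ω y) ω) :=
  (measurable_Xst2 k).comp (((measurable_pi_apply y).comp (measurable_tm k)).prodMk measurable_id)

theorem abs_Mf_X (hw : Pos W w) (z : E) (k : ℕ) (s : ℝ) (ω : E → ℕ → unitInterval) :
    |Mf W w z (Xst W w k s ω)| ≤ 1 := abs_Mf_le hw z (fun v _ => (abs_Xst_lt hw k s ω v).le)

theorem abs_KKf_X (hw : Pos W w) (x y : E) (k : ℕ) (s : ℝ) (ω : E → ℕ → unitInterval) :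
    |KKf W w x y (Xst W w k s ω)| ≤ 2 := by
  unfold KKf
  split_ifs
  · exact abs_Kf_le hw x y (fun v _ => (abs_Xst_lt hw k s ω v).le)
  · simp

theorem measurable_KKf (x y : E) : Measurable (KKf W w x y) := by
  unfold KKf
  split_ifs
  · exact measurable_Kf W w x y
  · exact measurable_const

theorem str_bd4 (k : ℕ) (s : ℝ) : 0 ≤ str k s ∧ str k s ≤ 1 / 4 :=
  ⟨str_nonneg k s, (str_le k s).trans (by unfold a0; norm_num)⟩

theorem abs_Jf_X (hw : Pos W w) (z : E) (k : ℕ) (s t : ℝ) (ω : E → ℕ → unitInterval)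
    (u : unitInterval) : |Jf (str k s) (Mf W w z (Xst W w k t ω)) u| ≤ 2 * str k s :=
  Jf_bound (str_bd4 k s).1 (str_bd4 k s).2 (abs_Mf_X hw z k t ω) u.2

theorem abs_jp_le (hw : Pos W w) (x y : E) (k : ℕ) (ω : E → ℕ → unitInterval) :
    |jp W w x y k ω| ≤ 1 := by
  unfold jp
  rw [abs_mul]
  have h1 := abs_KKf_X hw x y k (tm k ω y) ω
  have h2 := abs_Jf_X hw y k (tm k ω y) (tm k ω y) ω (ns k ω y)
  have h3 : |Jf (str k (tm k ω y)) (Mf W w y (Xst W w k (tm k ω y) ω)) (ns k ω y)| ≤ 1 / 2 := by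
    linarith [(str_bd4 k (tm k ω y)).2]
  calc _ ≤ 2 * (1 / 2 : ℝ) := mul_le_mul h1 h3 (abs_nonneg _) (by norm_num)
    _ = 1 := by norm_num

theorem measurable_tmy (k : ℕ) (y : E) : Measurable fun ω : E → ℕ → unitInterval => tm k ω y :=
  (measurable_pi_apply y).comp (measurable_tm k)

theorem measurable_nsy (k : ℕ) (y : E) :
    Measurable fun ω : E → ℕ → unitInterval => ((ns k ω y : unitInterval) : ℝ) :=
  measurable_subtype_coe.comp ((measurable_pi_apply y).comp (measurable_ns k))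

theorem measurable_jp (x y : E) (k : ℕ) : Measurable (jp W w x y k) := by
  unfold jp
  exact ((measurable_KKf x y).comp (measurable_Xtm k y)).mul
    (measurable_Jf.comp (((measurable_str k).comp (measurable_tmy k y)).prodMk
      (((measurable_Mf W w y).comp (measurable_Xtm k y)).prodMk (measurable_nsy k y))))

theorem abs_Dv_le (hw : Pos W w) (hw' : Pos W' w') (x : E) (k : ℕ) (s : ℝ)
    (ω : E → ℕ → unitInterval) : |Dv W W' w w' x k s ω| ≤ 2 := by
  unfold Dv
  have h1 := abs_le.1 (abs_Mf_X hw x k s ω)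
  have h2 := abs_le.1 (abs_Mf_X hw' x k s ω)
  rw [abs_le]
  constructor <;> linarith [h1.1, h1.2, h2.1, h2.2]

theorem measurable_Dv (x : E) (k : ℕ) (s : ℝ) : Measurable (Dv W W' w w' x k s) := by
  unfold Dv
  exact ((measurable_Mf W w x).comp (measurable_Xst k s)).sub
    ((measurable_Mf W' w' x).comp (measurable_Xst k s))

theorem measurable_Dvt (x y : E) (k : ℕ) :
    Measurable (fun ω => Dv W W' w w' x k (tm k ω y) ω) := by
  unfold Dv
  exact ((measurable_Mf W w x).comp (measurable_Xtm k y)).sub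
    ((measurable_Mf W' w' x).comp (measurable_Xtm k y))

theorem Mf_inv (z y : E) (k : ℕ) (ω : E → ℕ → unitInterval) (u : unitInterval) :
    Mf W w z (Xst W w k (tm k (upd y (2 * k + 1) ω u) y) (upd y (2 * k + 1) ω u)) =
      Mf W w z (Xst W w k (tm k ω y) ω) := by
  rw [tm_upd_ns]
  exact Mf_congr z (Xst_upd_ns k y ω u le_rfl)

theorem KKf_congr {r r' : E → ℝ} (x y : E) (h : ∀ v ∈ W, r v = r' v) :
    KKf W w x y r = KKf W w x y r' := by
  unfold KKf
  rw [Kf_congr x y h]

theorem KKf_inv (x y : E) (k : ℕ) (ω : E → ℕ → unitInterval) (u : unitInterval) :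
    KKf W w x y (Xst W w k (tm k (upd y (2 * k + 1) ω u) y) (upd y (2 * k + 1) ω u)) =
      KKf W w x y (Xst W w k (tm k ω y) ω) := by
  rw [tm_upd_ns]
  exact KKf_congr x y (Xst_upd_ns k y ω u le_rfl)

theorem Dv_inv (x y : E) (k : ℕ) (ω : E → ℕ → unitInterval) (u : unitInterval) :
    Dv W W' w w' x k (tm k (upd y (2 * k + 1) ω u) y) (upd y (2 * k + 1) ω u) =
      Dv W W' w w' x k (tm k ω y) ω := by
  unfold Dv
  rw [Mf_inv, Mf_inv]

/-- martingale property of the jumps -/
theorem integral_mul_jp (hw : Pos W w) (x y : E) (k : ℕ) {H : (E → ℕ → unitInterval) → ℝ}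
    (hH : Measurable H) (C : ℝ) (hC : ∀ ω, |H ω| ≤ C)
    (hH' : ∀ ω u, H (upd y (2 * k + 1) ω u) = H ω) :
    ∫ ω, H ω * jp W w x y k ω ∂(Pm E) = 0 := by
  have h := integral_jump_zero k y
    (G := fun ω => H ω * KKf W w x y (Xst W w k (tm k ω y) ω))
    (a := fun ω => str k (tm k ω y)) (m := fun ω => Mf W w y (Xst W w k (tm k ω y) ω))
    (hH.mul ((measurable_KKf x y).comp (measurable_Xtm k y)))
    ((measurable_str k).comp (measurable_tmy k y))
    ((measurable_Mf W w y).comp (measurable_Xtm k y)) (C * 2)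
    (fun ω => by
      rw [abs_mul]
      exact mul_le_mul (hC ω) (abs_KKf_X hw x y k _ ω) (abs_nonneg _)
        ((abs_nonneg _).trans (hC ω)))
    (fun ω => str_bd4 k _) (fun ω => abs_Mf_X hw y k _ ω)
    (fun ω u => by rw [hH', KKf_inv])
    (fun ω u => by rw [tm_upd_ns])
    (fun ω u => by rw [Mf_inv])
  rw [← h]
  congr 1
  funext ω
  unfold jp
  ring

/-- exact evolution of the mean square difference -/
theorem Dg_diff (hw : Pos W w) (hw' : Pos W' w') (x : E) (k : ℕ) {s₁ s₂ : ℝ} (hs : s₁ ≤ s₂) :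
    Dg W W' w w' x k s₂ = Dg W W' w w' x k s₁ + ∑ y ∈ W ∪ W', ∫ ω,
      (if s₁ ≤ tm k ω y ∧ tm k ω y < s₂ then
        (jp W w x y k ω - jp W' w' x y k ω) ^ 2 else 0) ∂(Pm E) := by
  have hD : ∀ s : ℝ, Dg W W' w w' x k s = ∫ ω, Dv W W' w w' x k s ω ^ 2 ∂(Pm E) := fun s => rfl
  have hint : ∀ s : ℝ, Integrable (fun ω => Dv W W' w w' x k s ω ^ 2) (Pm E) := by
    intro s
    apply integrable_Pm ((measurable_Dv x k s).pow_const 2) 4
    intro ω
    have := abs_Dv_le hw hw' x k s ω
    rw [abs_pow]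
    nlinarith [abs_nonneg (Dv W W' w w' x k s ω)]
  have hset : ∀ y : E, MeasurableSet {ω : E → ℕ → unitInterval |
      s₁ ≤ tm k ω y ∧ tm k ω y < s₂} := fun y =>
    (measurableSet_le measurable_const (measurable_tmy k y)).inter
      (measurableSet_lt (measurable_tmy k y) measurable_const)
  -- the two parts
  have hm1 : ∀ y : E, Measurable fun ω => (if s₁ ≤ tm k ω y ∧ tm k ω y < s₂ then
      (2 * Dv W W' w w' x k (tm k ω y) ω) else 0) := fun y =>
    Measurable.ite (hset y) ((measurable_Dvt x y k).const_mul 2) measurable_const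
  have hb1 : ∀ (y : E) (ω : E → ℕ → unitInterval), |(if s₁ ≤ tm k ω y ∧ tm k ω y < s₂ then
      (2 * Dv W W' w w' x k (tm k ω y) ω) else 0)| ≤ 4 := by
    intro y ω
    split_ifs
    · rw [abs_mul, abs_two]
      linarith [abs_Dv_le hw hw' x k (tm k ω y) ω]
    · simp
  have hinv : ∀ (y : E) (ω : E → ℕ → unitInterval) (u : unitInterval),
      (if s₁ ≤ tm k (upd y (2 * k + 1) ω u) y ∧ tm k (upd y (2 * k + 1) ω u) y < s₂ then
      (2 * Dv W W' w w' x k (tm k (upd y (2 * k + 1) ω u) y) (upd y (2 * k + 1) ω u)) else 0) =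
      (if s₁ ≤ tm k ω y ∧ tm k ω y < s₂ then
      (2 * Dv W W' w w' x k (tm k ω y) ω) else 0) := by
    intro y ω u
    rw [Dv_inv, tm_upd_ns]
  have hz1 : ∀ y, ∫ ω, (if s₁ ≤ tm k ω y ∧ tm k ω y < s₂ then
      (2 * Dv W W' w w' x k (tm k ω y) ω) else 0) * jp W w x y k ω ∂(Pm E) = 0 := fun y =>
    integral_mul_jp hw x y k (hm1 y) 4 (hb1 y) (hinv y)
  have hz2 : ∀ y, ∫ ω, (if s₁ ≤ tm k ω y ∧ tm k ω y < s₂ then
      (2 * Dv W W' w w' x k (tm k ω y) ω) else 0) * jp W' w' x y k ω ∂(Pm E) = 0 := fun y =>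
    integral_mul_jp hw' x y k (hm1 y) 4 (hb1 y) (hinv y)
  have hi1 : ∀ y, Integrable (fun ω => (if s₁ ≤ tm k ω y ∧ tm k ω y < s₂ then
      (2 * Dv W W' w w' x k (tm k ω y) ω) else 0) * jp W w x y k ω) (Pm E) := by
    intro y
    refine integrable_Pm (F := fun ω => (if s₁ ≤ tm k ω y ∧ tm k ω y < s₂ then
      (2 * Dv W W' w w' x k (tm k ω y) ω) else 0) * jp W w x y k ω)
      ((hm1 y).mul (measurable_jp x y k)) (4 * 1) (fun ω => ?_)
    rw [abs_mul]
    exact mul_le_mul (hb1 y ω) (abs_jp_le hw x y k ω) (abs_nonneg _) (by norm_num)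
  have hi2 : ∀ y, Integrable (fun ω => (if s₁ ≤ tm k ω y ∧ tm k ω y < s₂ then
      (2 * Dv W W' w w' x k (tm k ω y) ω) else 0) * jp W' w' x y k ω) (Pm E) := by
    intro y
    refine integrable_Pm (F := fun ω => (if s₁ ≤ tm k ω y ∧ tm k ω y < s₂ then
      (2 * Dv W W' w w' x k (tm k ω y) ω) else 0) * jp W' w' x y k ω)
      ((hm1 y).mul (measurable_jp x y k)) (4 * 1) (fun ω => ?_)
    rw [abs_mul]
    exact mul_le_mul (hb1 y ω) (abs_jp_le hw' x y k ω) (abs_nonneg _) (by norm_num)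
  have hi3 : ∀ y, Integrable (fun ω => (if s₁ ≤ tm k ω y ∧ tm k ω y < s₂ then
      (jp W w x y k ω - jp W' w' x y k ω) ^ 2 else 0)) (Pm E) := by
    intro y
    refine integrable_Pm (F := fun ω => (if s₁ ≤ tm k ω y ∧ tm k ω y < s₂ then
      (jp W w x y k ω - jp W' w' x y k ω) ^ 2 else 0)) (Measurable.ite (hset y)
      (((measurable_jp x y k).sub (measurable_jp x y k)).pow_const 2) measurable_const) 4
      (fun ω => ?_)
    split_ifs
    · have h1 := abs_le.1 (abs_jp_le hw x y k ω)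
      have h2 := abs_le.1 (abs_jp_le hw' x y k ω)
      rw [abs_of_nonneg (sq_nonneg _)]
      nlinarith [h1.1, h1.2, h2.1, h2.2]
    · simp
  have hi12 : ∀ y, Integrable (fun ω => (if s₁ ≤ tm k ω y ∧ tm k ω y < s₂ then
      (2 * Dv W W' w w' x k (tm k ω y) ω) else 0) * jp W w x y k ω -
      (if s₁ ≤ tm k ω y ∧ tm k ω y < s₂ then
      (2 * Dv W W' w w' x k (tm k ω y) ω) else 0) * jp W' w' x y k ω) (Pm E) :=
    fun y => (hi1 y).sub (hi2 y)
  have hi123 : ∀ y, Integrable (fun ω => ((if s₁ ≤ tm k ω y ∧ tm k ω y < s₂ then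
      (2 * Dv W W' w w' x k (tm k ω y) ω) else 0) * jp W w x y k ω -
      (if s₁ ≤ tm k ω y ∧ tm k ω y < s₂ then
      (2 * Dv W W' w w' x k (tm k ω y) ω) else 0) * jp W' w' x y k ω) +
      (if s₁ ≤ tm k ω y ∧ tm k ω y < s₂ then
      (jp W w x y k ω - jp W' w' x y k ω) ^ 2 else 0)) (Pm E) :=
    fun y => (hi12 y).add (hi3 y)
  have hmain : ∫ ω, (Dv W W' w w' x k s₂ ω ^ 2 - Dv W W' w w' x k s₁ ω ^ 2) ∂(Pm E) =
      ∑ y ∈ W ∪ W', ∫ ω, (if s₁ ≤ tm k ω y ∧ tm k ω y < s₂ then
        (jp W w x y k ω - jp W' w' x y k ω) ^ 2 else 0) ∂(Pm E) := by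
    have hae : ∀ᵐ ω ∂(Pm E), Dv W W' w w' x k s₂ ω ^ 2 - Dv W W' w w' x k s₁ ω ^ 2 =
        ∑ y ∈ W ∪ W', (((if s₁ ≤ tm k ω y ∧ tm k ω y < s₂ then
      (2 * Dv W W' w w' x k (tm k ω y) ω) else 0) * jp W w x y k ω -
        (if s₁ ≤ tm k ω y ∧ tm k ω y < s₂ then
      (2 * Dv W W' w w' x k (tm k ω y) ω) else 0) * jp W' w' x y k ω) +
        (if s₁ ≤ tm k ω y ∧ tm k ω y < s₂ then
        (jp W w x y k ω - jp W' w' x y k ω) ^ 2 else 0)) := by
      filter_upwards [ae_inj k (W ∪ W')] with ω hω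
      rw [Dv_tele hw hw' x k hs ω hω]
      apply Finset.sum_congr rfl
      intro y _
      split_ifs
      · ring
      · ring
    rw [integral_congr_ae hae, integral_finsetSum _ (fun y _ => hi123 y)]
    apply Finset.sum_congr rfl
    intro y _
    rw [integral_add (hi12 y) (hi3 y), integral_sub (hi1 y) (hi2 y), hz1, hz2]
    ring
  rw [integral_sub (hint s₂) (hint s₁)] at hmain
  rw [hD, hD, ← hmain]
  ring

end Main

section Avg

variable {E : Type*}

theorem half_le_volume {s : ℝ} (hs : s ≤ 1) :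
    1 / 2 ≤ ∫ θ : unitInterval, (if s ≤ 2 * (θ : ℝ) then (1:ℝ) else 0) := by
  have hm : MeasurableSet {θ : unitInterval | s ≤ 2 * (θ : ℝ)} :=
    measurableSet_le measurable_const (measurable_subtype_coe.const_mul 2)
  have h1 : ∫ θ : unitInterval, (if s ≤ 2 * (θ : ℝ) then (1:ℝ) else 0) =
      (volume : Measure unitInterval).real {θ : unitInterval | s ≤ 2 * (θ : ℝ)} := by
    rw [← integral_indicator_one hm]
    congr 1
  rw [h1]
  have h2 : (volume : Measure unitInterval).real (Set.Ici (⟨1/2, by norm_num, by norm_num⟩ : unitInterval)) =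
      1 / 2 := by
    rw [Measure.real, unitInterval.volume_Ici, ENNReal.toReal_ofReal (by norm_num)]
    norm_num
  rw [← h2]
  refine measureReal_mono (fun θ hθ => ?_) (measure_ne_top _ _)
  have : (1/2 : ℝ) ≤ θ := hθ
  show s ≤ 2 * (θ : ℝ)
  linarith

theorem integral_two_mul {φ : ℝ → ℝ} {s₁ s₂ : ℝ} (h0 : 0 ≤ s₁)
    (h12 : s₁ ≤ s₂) (h2 : s₂ ≤ 2) :
    ∫ θ : unitInterval, (if s₁ ≤ 2 * (θ : ℝ) ∧ 2 * (θ : ℝ) < s₂ then φ (2 * θ) else 0) =
      1 / 2 * ∫ s in s₁..s₂, φ s := by
  rw [integral_unitI (fun u : ℝ => if s₁ ≤ 2 * u ∧ 2 * u < s₂ then φ (2 * u) else 0)]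
  rw [integral_Icc_eq_integral_Ioc, ← intervalIntegral.integral_of_le zero_le_one]
  rw [intervalIntegral.integral_comp_mul_left (fun v : ℝ => if s₁ ≤ v ∧ v < s₂ then φ v else 0)
    two_ne_zero]
  rw [smul_eq_mul]
  congr 1
  · norm_num
  · rw [mul_zero, mul_one, intervalIntegral.integral_of_le zero_le_two,
      intervalIntegral.integral_of_le h12, ← integral_Icc_eq_integral_Ioc,
      ← integral_Ico_eq_integral_Ioc, ← integral_indicator measurableSet_Icc,
      ← integral_indicator measurableSet_Ico]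
    congr 1
    funext v
    by_cases hv : s₁ ≤ v ∧ v < s₂
    · rw [Set.indicator_of_mem (show v ∈ Set.Icc (0:ℝ) 2 from ⟨h0.trans hv.1, hv.2.le.trans h2⟩),
        Set.indicator_of_mem (show v ∈ Set.Ico s₁ s₂ from hv)]
      exact if_pos hv
    · rw [Set.indicator_of_notMem (show v ∉ Set.Ico s₁ s₂ from hv)]
      by_cases h3 : v ∈ Set.Icc (0:ℝ) 2
      · rw [Set.indicator_of_mem h3]
        exact if_neg hv
      · rw [Set.indicator_of_notMem h3]

/-- averaging over the time of the vertex `y` -/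
theorem avg_time (k : ℕ) (y : E) {h : ℝ → (E → ℕ → unitInterval) → ℝ}
    (hh : Measurable (fun q : ℝ × (E → ℕ → unitInterval) => h q.1 q.2)) (C : ℝ)
    (hC : ∀ s ω, |h s ω| ≤ C) (h0 : ∀ s ω, 0 ≤ h s ω)
    (hinv : ∀ s ω (θ : unitInterval), s ≤ tm k ω y → s ≤ 2 * (θ : ℝ) →
      h s (upd y (2 * k) ω θ) = h s ω)
    {φ : ℝ → ℝ} (hφ : Measurable φ) (hφ0 : ∀ s, 0 ≤ φ s) (C' : ℝ) (hφC : ∀ s, φ s ≤ C')
    {s₁ s₂ : ℝ} (hs0 : 0 ≤ s₁) (h12 : s₁ ≤ s₂) (h2 : s₂ ≤ 1) :
    ∫ ω, (if s₁ ≤ tm k ω y ∧ tm k ω y < s₂ then φ (tm k ω y) * h (tm k ω y) ω else 0) ∂(Pm E) ≤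
      ∫ s in s₁..s₂, φ s * ∫ ω, h s ω ∂(Pm E) := by
  have hC'0 : 0 ≤ C' := (hφ0 0).trans (hφC 0)
  have hset : MeasurableSet {ω : E → ℕ → unitInterval |
      s₁ ≤ tm k ω y ∧ tm k ω y < s₂} :=
    (measurableSet_le measurable_const (measurable_tmy k y)).inter
      (measurableSet_lt (measurable_tmy k y) measurable_const)
  have hmF : Measurable (fun ω : E → ℕ → unitInterval =>
      (if s₁ ≤ tm k ω y ∧ tm k ω y < s₂ then φ (tm k ω y) * h (tm k ω y) ω else 0)) :=
    Measurable.ite hset ((hφ.comp (measurable_tmy k y)).mul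
      (hh.comp ((measurable_tmy k y).prodMk measurable_id))) measurable_const
  have hbF : ∀ ω : E → ℕ → unitInterval,
      |(if s₁ ≤ tm k ω y ∧ tm k ω y < s₂ then φ (tm k ω y) * h (tm k ω y) ω else 0)| ≤ C' * C := by
    intro ω
    have hC0 : 0 ≤ C := (abs_nonneg _).trans (hC 0 ω)
    split_ifs
    · rw [abs_mul, abs_of_nonneg (hφ0 _)]
      exact mul_le_mul (hφC _) (hC _ _) (abs_nonneg _) hC'0
    · rw [abs_zero]; positivity
  -- key estimate
  have key : ∀ θ : unitInterval, 2 * (θ : ℝ) ≤ 1 →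
      ∫ ω, h (2 * θ) (upd y (2 * k) ω θ) ∂(Pm E) ≤ 2 * ∫ ω, h (2 * θ) ω ∂(Pm E) := by
    intro θ hθ
    have hms : Measurable (h (2 * θ)) := hh.comp measurable_prodMk_left
    have e1 := integral_upd y (2 * k) hms C (hC _)
    have hcst : ∀ (ω : E → ℕ → unitInterval) (θ' : unitInterval), 2 * (θ:ℝ) ≤ 2 * (θ' : ℝ) →
        h (2 * θ) (upd y (2 * k) ω θ') = h (2 * θ) (upd y (2 * k) ω θ) := by
      intro ω θ' hθ'
      have := hinv (2 * θ) (upd y (2 * k) ω θ) θ' (by rw [tm_upd_self]) hθ'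
      rw [upd_upd] at this
      exact this
    have e2 : ∀ ω : E → ℕ → unitInterval, 1 / 2 * h (2 * θ) (upd y (2 * k) ω θ) ≤
        ∫ θ' : unitInterval, h (2 * θ) (upd y (2 * k) ω θ') := by
      intro ω
      have hmi : Measurable fun θ' : unitInterval => h (2 * θ) (upd y (2 * k) ω θ') :=
        hms.comp ((measurable_updq y (2 * k)).comp measurable_prodMk_left)
      calc 1 / 2 * h (2 * θ) (upd y (2 * k) ω θ)
          ≤ (∫ θ' : unitInterval, (if 2 * (θ : ℝ) ≤ 2 * (θ' : ℝ) then (1:ℝ) else 0)) *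
              h (2 * θ) (upd y (2 * k) ω θ) :=
            mul_le_mul_of_nonneg_right (half_le_volume hθ) (h0 _ _)
        _ = ∫ θ' : unitInterval, (if 2 * (θ : ℝ) ≤ 2 * (θ' : ℝ) then (1:ℝ) else 0) *
              h (2 * θ) (upd y (2 * k) ω θ) := by rw [integral_mul_const]
        _ ≤ ∫ θ' : unitInterval, h (2 * θ) (upd y (2 * k) ω θ') := by
            apply integral_mono_of_nonneg
            · refine Eventually.of_forall fun θ' => ?_
              simp only [Pi.zero_apply]
              apply mul_nonneg _ (h0 _ _)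
              split_ifs <;> norm_num
            · exact Integrable.of_bound hmi.aestronglyMeasurable C
                (Eventually.of_forall fun θ' => by rw [Real.norm_eq_abs]; exact hC _ _)
            · refine Eventually.of_forall fun θ' => ?_
              simp only
              split_ifs with hle
              · rw [one_mul, hcst ω θ' hle]
              · rw [zero_mul]; exact h0 _ _
    have e3 : ∫ ω, 1 / 2 * h (2 * θ) (upd y (2 * k) ω θ) ∂(Pm E) ≤
        ∫ ω, (∫ θ' : unitInterval, h (2 * θ) (upd y (2 * k) ω θ')) ∂(Pm E) := by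
      apply integral_mono_of_nonneg
      · exact Eventually.of_forall fun ω => mul_nonneg (by norm_num) (h0 _ _)
      · apply Integrable.of_bound (C := C)
        · have : Measurable (Function.uncurry fun (ω : E → ℕ → unitInterval)
              (θ' : unitInterval) => h (2 * θ) (upd y (2 * k) ω θ')) :=
            hms.comp (measurable_updq y (2 * k))
          exact (this.stronglyMeasurable.integral_prod_right (ν := volume)).aestronglyMeasurable
        · refine Eventually.of_forall fun ω => ?_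
          have := norm_integral_le_of_norm_le_const (μ := (volume : Measure unitInterval))
            (f := fun θ' => h (2 * θ) (upd y (2 * k) ω θ')) (C := C)
            (Eventually.of_forall fun θ' => by rw [Real.norm_eq_abs]; exact hC _ _)
          simpa using this
      · exact Eventually.of_forall e2
    rw [integral_const_mul, ← e1] at e3
    linarith
  rw [integral_upd y (2 * k) hmF (C' * C) hbF]
  have hswap := integral_integral_swap (μ := Pm E) (ν := (volume : Measure unitInterval))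
    (f := fun ω θ => (if s₁ ≤ tm k (upd y (2 * k) ω θ) y ∧ tm k (upd y (2 * k) ω θ) y < s₂ then
      φ (tm k (upd y (2 * k) ω θ) y) * h (tm k (upd y (2 * k) ω θ) y) (upd y (2 * k) ω θ) else 0))
    (Integrable.of_bound (hmF.comp (measurable_updq y (2 * k))).aestronglyMeasurable (C' * C)
      (Eventually.of_forall fun q => by
        rw [Real.norm_eq_abs]; exact hbF (upd y (2 * k) q.1 q.2)))
  rw [hswap]
  simp only [tm_upd_self]
  have hbar : Measurable fun s => ∫ ω, h s ω ∂(Pm E) := by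
    have : StronglyMeasurable (Function.uncurry h) := hh.stronglyMeasurable
    exact (this.integral_prod_right (ν := Pm E)).measurable
  have hbarC : ∀ s, |∫ ω, h s ω ∂(Pm E)| ≤ C := by
    intro s
    have := norm_integral_le_of_norm_le_const (μ := Pm E)
      (f := fun ω => h s ω) (C := C)
      (Eventually.of_forall fun θ' => by rw [Real.norm_eq_abs]; exact hC _ _)
    simpa using this
  have hbar0 : ∀ s, 0 ≤ ∫ ω, h s ω ∂(Pm E) := fun s => integral_nonneg (h0 s)
  have hstep : ∀ θ : unitInterval, ∫ ω, (if s₁ ≤ 2 * (θ : ℝ) ∧ 2 * (θ : ℝ) < s₂ then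
      φ (2 * θ) * h (2 * θ) (upd y (2 * k) ω θ) else 0) ∂(Pm E) ≤
      (if s₁ ≤ 2 * (θ : ℝ) ∧ 2 * (θ : ℝ) < s₂ then
        (2 * (φ (2 * θ) * ∫ ω, h (2 * θ) ω ∂(Pm E))) else 0) := by
    intro θ
    split_ifs with hθ
    · rw [integral_const_mul]
      have := mul_le_mul_of_nonneg_left (key θ (hθ.2.le.trans h2)) (hφ0 (2 * θ))
      linarith
    · simp
  have hsetθ : MeasurableSet {θ : unitInterval | s₁ ≤ 2 * (θ : ℝ) ∧ 2 * (θ : ℝ) < s₂} :=
    (measurableSet_le measurable_const (measurable_subtype_coe.const_mul 2)).inter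
      (measurableSet_lt (measurable_subtype_coe.const_mul 2) measurable_const)
  have hlast := integral_two_mul (φ := fun s => 2 * (φ s * ∫ ω, h s ω ∂(Pm E))) hs0 h12
    (h2.trans (by norm_num))
  have hfin : 1 / 2 * ∫ s in s₁..s₂, 2 * (φ s * ∫ ω, h s ω ∂(Pm E)) =
      ∫ s in s₁..s₂, φ s * ∫ ω, h s ω ∂(Pm E) := by
    rw [intervalIntegral.integral_const_mul]
    ring
  rw [← hfin, ← hlast]
  apply integral_mono_of_nonneg
  · refine Eventually.of_forall fun θ => ?_
    apply integral_nonneg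
    intro ω
    simp only [Pi.zero_apply]
    split_ifs
    · exact mul_nonneg (hφ0 _) (h0 _ _)
    · exact le_rfl
  · apply Integrable.of_bound (C := 2 * (C' * C))
    · have hm2 : Measurable fun θ : unitInterval => 2 * (θ : ℝ) :=
        measurable_subtype_coe.const_mul 2
      exact (Measurable.ite hsetθ (((hφ.comp hm2).mul (hbar.comp hm2)).const_mul 2)
        measurable_const).aestronglyMeasurable
    · refine Eventually.of_forall fun θ => ?_
      have hC0 : 0 ≤ C := (abs_nonneg _).trans (hbarC 0)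
      rw [Real.norm_eq_abs]
      split_ifs
      · rw [abs_mul, abs_two, abs_mul, abs_of_nonneg (hφ0 _)]
        exact mul_le_mul_of_nonneg_left (mul_le_mul (hφC _) (hbarC _) (abs_nonneg _) hC'0)
          (by norm_num)
      · rw [abs_zero]; positivity
  · exact Eventually.of_forall hstep

end Avg

section Final

variable {E : Type*} {W W' : Finset E} {w w' : Finset E → ℝ}

/-- bracket at `y` -/
noncomputable def hb (W W' : Finset E) (w w' : Finset E → ℝ) (x y : E) (k : ℕ) (s : ℝ)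
    (ω : E → ℕ → unitInterval) : ℝ :=
  (KKf W w x y (Xst W w k s ω) - KKf W' w' x y (Xst W' w' k s ω)) ^ 2 +
  (if y ∈ W ∩ W' then (Mf W w y (Xst W w k s ω) - Mf W' w' y (Xst W' w' k s ω)) ^ 2 *
    KKf W' w' x y (Xst W' w' k s ω) ^ 2 else 0)

theorem hb_nonneg (x y : E) (k : ℕ) (s : ℝ) (ω : E → ℕ → unitInterval) :
    0 ≤ hb W W' w w' x y k s ω := by
  unfold hb
  split_ifs <;> positivity

theorem hb_le (hw : Pos W w) (hw' : Pos W' w') (x y : E) (k : ℕ) (s : ℝ)
    (ω : E → ℕ → unitInterval) : |hb W W' w w' x y k s ω| ≤ 32 := by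
  rw [abs_of_nonneg (hb_nonneg x y k s ω)]
  unfold hb
  have h1 := abs_le.1 (abs_KKf_X hw x y k s ω)
  have h2 := abs_le.1 (abs_KKf_X hw' x y k s ω)
  have h3 := abs_le.1 (abs_Mf_X hw y k s ω)
  have h4 := abs_le.1 (abs_Mf_X hw' y k s ω)
  have h5 : (KKf W w x y (Xst W w k s ω) - KKf W' w' x y (Xst W' w' k s ω)) ^ 2 ≤ 16 := by
    nlinarith [h1.1, h1.2, h2.1, h2.2]
  have h6 : (Mf W w y (Xst W w k s ω) - Mf W' w' y (Xst W' w' k s ω)) ^ 2 ≤ 4 := by
    nlinarith [h3.1, h3.2, h4.1, h4.2]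
  have h7 : KKf W' w' x y (Xst W' w' k s ω) ^ 2 ≤ 4 := by nlinarith [h2.1, h2.2]
  split_ifs
  · have := mul_le_mul h6 h7 (sq_nonneg _) (by norm_num)
    linarith
  · linarith

theorem measurable_hb (x y : E) (k : ℕ) :
    Measurable (fun q : ℝ × (E → ℕ → unitInterval) => hb W W' w w' x y k q.1 q.2) := by
  unfold hb
  have hK : Measurable fun q : ℝ × (E → ℕ → unitInterval) => KKf W w x y (Xst W w k q.1 q.2) :=
    (measurable_KKf x y).comp (measurable_Xst2 k)
  have hK' : Measurable fun q : ℝ × (E → ℕ → unitInterval) =>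
      KKf W' w' x y (Xst W' w' k q.1 q.2) := (measurable_KKf x y).comp (measurable_Xst2 k)
  have hM : Measurable fun q : ℝ × (E → ℕ → unitInterval) => Mf W w y (Xst W w k q.1 q.2) :=
    (measurable_Mf W w y).comp (measurable_Xst2 k)
  have hM' : Measurable fun q : ℝ × (E → ℕ → unitInterval) =>
      Mf W' w' y (Xst W' w' k q.1 q.2) := (measurable_Mf W' w' y).comp (measurable_Xst2 k)
  apply ((hK.sub hK').pow_const 2).add
  by_cases h : y ∈ W ∩ W'
  · simp only [h, if_true]
    exact ((hM.sub hM').pow_const 2).mul (hK'.pow_const 2)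
  · simp only [h, if_false]
    exact measurable_const

theorem hb_inv (x y : E) (k : ℕ) (s : ℝ) (ω : E → ℕ → unitInterval) (θ : unitInterval)
    (h1 : s ≤ tm k ω y) (h2 : s ≤ 2 * (θ : ℝ)) :
    hb W W' w w' x y k s (upd y (2 * k) ω θ) = hb W W' w w' x y k s ω := by
  unfold hb
  rw [KKf_congr x y (Xst_upd_tm (W := W) (w := w) k y ω θ h1 h2),
    KKf_congr x y (Xst_upd_tm (W := W') (w := w') k y ω θ h1 h2),
    Mf_congr y (Xst_upd_tm (W := W) (w := w) k y ω θ h1 h2),
    Mf_congr y (Xst_upd_tm (W := W') (w := w') k y ω θ h1 h2)]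

theorem jump_bound (hw : Pos W w) (hw' : Pos W' w') (x y : E) (k : ℕ)
    (ω : E → ℕ → unitInterval) :
    (jp W w x y k ω - jp W' w' x y k ω) ^ 2 ≤
      8 * str k (tm k ω y) ^ 2 * hb W W' w w' x y k (tm k ω y) ω := by
  unfold jp hb
  set a := str k (tm k ω y) with ha
  set K := KKf W w x y (Xst W w k (tm k ω y) ω) with hK
  set K' := KKf W' w' x y (Xst W' w' k (tm k ω y) ω) with hK'
  have hJ : |Jf a (Mf W w y (Xst W w k (tm k ω y) ω)) (ns k ω y)| ≤ 2 * a :=
    abs_Jf_X hw y k (tm k ω y) (tm k ω y) ω (ns k ω y)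
  have hJ' : |Jf a (Mf W' w' y (Xst W' w' k (tm k ω y) ω)) (ns k ω y)| ≤ 2 * a :=
    abs_Jf_X hw' y k (tm k ω y) (tm k ω y) ω (ns k ω y)
  have hJJ : |Jf a (Mf W w y (Xst W w k (tm k ω y) ω)) (ns k ω y) -
      Jf a (Mf W' w' y (Xst W' w' k (tm k ω y) ω)) (ns k ω y)| ≤
      4 * a ^ 2 * |Mf W w y (Xst W w k (tm k ω y) ω) - Mf W' w' y (Xst W' w' k (tm k ω y) ω)| :=
    Jf_lip (str_bd4 k _).1 (str_bd4 k _).2 (abs_Mf_X hw y k _ ω) (abs_Mf_X hw' y k _ ω)
      (ns k ω y).2
  set J := Jf a (Mf W w y (Xst W w k (tm k ω y) ω)) (ns k ω y) with hJdef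
  set J' := Jf a (Mf W' w' y (Xst W' w' k (tm k ω y) ω)) (ns k ω y) with hJ'def
  set M := Mf W w y (Xst W w k (tm k ω y) ω)
  set M' := Mf W' w' y (Xst W' w' k (tm k ω y) ω)
  have ha0 : 0 ≤ a := (str_bd4 k _).1
  have ha4 : a ≤ 1 / 4 := (str_bd4 k _).2
  have hJ2 : J ^ 2 ≤ 4 * a ^ 2 := by
    have := abs_le.1 hJ
    nlinarith [this.1, this.2]
  have hJ2' : J' ^ 2 ≤ 4 * a ^ 2 := by
    have := abs_le.1 hJ'
    nlinarith [this.1, this.2]
  have hJJ2 : (J - J') ^ 2 ≤ a ^ 2 * (M - M') ^ 2 := by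
    have h1 : (J - J') ^ 2 ≤ (4 * a ^ 2 * |M - M'|) ^ 2 := by
      rw [← sq_abs (J - J')]
      exact pow_le_pow_left₀ (abs_nonneg _) hJJ 2
    have h2 : (4 * a ^ 2 * |M - M'|) ^ 2 = (16 * a ^ 2) * (a ^ 2 * (M - M') ^ 2) := by
      rw [mul_pow, sq_abs]; ring
    rw [h2] at h1
    have h3 : 16 * a ^ 2 ≤ 1 := by nlinarith
    have h4 : 0 ≤ a ^ 2 * (M - M') ^ 2 := by positivity
    nlinarith
  by_cases hy : y ∈ W ∩ W'
  · rw [if_pos hy]
    have e1 : K * J - K' * J' = (K - K') * J + K' * (J - J') := by ring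
    rw [e1]
    have e2 : ((K - K') * J + K' * (J - J')) ^ 2 ≤
        2 * ((K - K') ^ 2 * J ^ 2) + 2 * (K' ^ 2 * (J - J') ^ 2) := by
      nlinarith [sq_nonneg ((K - K') * J - K' * (J - J'))]
    have e3 : (K - K') ^ 2 * J ^ 2 ≤ (K - K') ^ 2 * (4 * a ^ 2) :=
      mul_le_mul_of_nonneg_left hJ2 (sq_nonneg _)
    have e4 : K' ^ 2 * (J - J') ^ 2 ≤ K' ^ 2 * (a ^ 2 * (M - M') ^ 2) :=
      mul_le_mul_of_nonneg_left hJJ2 (sq_nonneg _)
    have e5 : 0 ≤ K' ^ 2 * (a ^ 2 * (M - M') ^ 2) := by positivity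
    nlinarith
  · rw [if_neg hy]
    have hor : K = 0 ∨ K' = 0 := by
      rw [Finset.mem_inter, not_and_or] at hy
      rcases hy with hy | hy
      · left; rw [hK]; unfold KKf; rw [if_neg hy]
      · right; rw [hK']; unfold KKf; rw [if_neg hy]
    rcases hor with h | h
    · rw [h]
      have e3 : K' ^ 2 * J' ^ 2 ≤ K' ^ 2 * (4 * a ^ 2) :=
        mul_le_mul_of_nonneg_left hJ2' (sq_nonneg _)
      have e5 : 0 ≤ K' ^ 2 * a ^ 2 := by positivity
      nlinarith
    · rw [h]
      have e3 : K ^ 2 * J ^ 2 ≤ K ^ 2 * (4 * a ^ 2) :=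
        mul_le_mul_of_nonneg_left hJ2 (sq_nonneg _)
      have e5 : 0 ≤ K ^ 2 * a ^ 2 := by positivity
      nlinarith

theorem Tg_eq (hw : Pos W w) (hw' : Pos W' w') (x : E) (k : ℕ) (s : ℝ) :
    Tg W W' w w' x k s = ∑ y ∈ W ∪ W', ∫ ω, hb W W' w w' x y k s ω ∂(Pm E) := by
  have hK : ∀ y, Measurable fun ω => KKf W w x y (Xst W w k s ω) := fun y =>
    (measurable_KKf x y).comp (measurable_Xst k s)
  have hK' : ∀ y, Measurable fun ω => KKf W' w' x y (Xst W' w' k s ω) := fun y =>
    (measurable_KKf x y).comp (measurable_Xst k s)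
  have hM : ∀ y, Measurable fun ω => Mf W w y (Xst W w k s ω) := fun y =>
    (measurable_Mf W w y).comp (measurable_Xst k s)
  have hM' : ∀ y, Measurable fun ω => Mf W' w' y (Xst W' w' k s ω) := fun y =>
    (measurable_Mf W' w' y).comp (measurable_Xst k s)
  have i1 : ∀ y, Integrable (fun ω => (KKf W w x y (Xst W w k s ω) -
      KKf W' w' x y (Xst W' w' k s ω)) ^ 2) (Pm E) := by
    intro y
    refine integrable_Pm (((hK y).sub (hK' y)).pow_const 2) 16 (fun ω => ?_)
    have h1 := abs_le.1 (abs_KKf_X hw x y k s ω)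
    have h2 := abs_le.1 (abs_KKf_X hw' x y k s ω)
    rw [abs_of_nonneg (sq_nonneg _)]
    nlinarith [h1.1, h1.2, h2.1, h2.2]
  have i2 : ∀ y, Integrable (fun ω => (Mf W w y (Xst W w k s ω) -
      Mf W' w' y (Xst W' w' k s ω)) ^ 2 * KKf W' w' x y (Xst W' w' k s ω) ^ 2) (Pm E) := by
    intro y
    refine integrable_Pm (F := fun ω => (Mf W w y (Xst W w k s ω) -
      Mf W' w' y (Xst W' w' k s ω)) ^ 2 * KKf W' w' x y (Xst W' w' k s ω) ^ 2)
      ((((hM y).sub (hM' y)).pow_const 2).mul ((hK' y).pow_const 2)) 16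
      (fun ω => ?_)
    have h2 := abs_le.1 (abs_KKf_X hw' x y k s ω)
    have h3 := abs_le.1 (abs_Mf_X hw y k s ω)
    have h4 := abs_le.1 (abs_Mf_X hw' y k s ω)
    have h6 : (Mf W w y (Xst W w k s ω) - Mf W' w' y (Xst W' w' k s ω)) ^ 2 ≤ 4 := by
      nlinarith [h3.1, h3.2, h4.1, h4.2]
    have h7 : KKf W' w' x y (Xst W' w' k s ω) ^ 2 ≤ 4 := by nlinarith [h2.1, h2.2]
    rw [abs_of_nonneg (by positivity)]
    have := mul_le_mul h6 h7 (sq_nonneg _) (by norm_num)
    linarith
  have e1 : ∀ y, ∫ ω, hb W W' w w' x y k s ω ∂(Pm E) =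
      ∫ ω, (KKf W w x y (Xst W w k s ω) - KKf W' w' x y (Xst W' w' k s ω)) ^ 2 ∂(Pm E) +
      (if y ∈ W ∩ W' then ∫ ω, (Mf W w y (Xst W w k s ω) -
        Mf W' w' y (Xst W' w' k s ω)) ^ 2 * KKf W' w' x y (Xst W' w' k s ω) ^ 2 ∂(Pm E)
        else 0) := by
    intro y
    unfold hb
    by_cases hy : y ∈ W ∩ W'
    · simp only [if_pos hy]
      rw [integral_add (i1 y) (i2 y)]
    · simp only [if_neg hy, add_zero]
  rw [Finset.sum_congr rfl (fun y _ => e1 y), Finset.sum_add_distrib, Finset.sum_ite_mem]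
  unfold Tg
  congr 1
  apply Finset.sum_congr _ (fun _ _ => rfl)
  ext v
  simp only [Finset.mem_inter, Finset.mem_union]
  tauto

theorem str_sq_le (k : ℕ) (s : ℝ) : str k s ^ 2 ≤ 1 := by
  have := str_bd4 k s
  nlinarith [this.1, this.2]

theorem measurableSet_tm (k : ℕ) (y : E) (s₁ s₂ : ℝ) :
    MeasurableSet {ω : E → ℕ → unitInterval | s₁ ≤ tm k ω y ∧ tm k ω y < s₂} :=
  (measurableSet_le measurable_const (measurable_tmy k y)).inter
    (measurableSet_lt (measurable_tmy k y) measurable_const)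

/-- integrand of the upper bound -/
noncomputable def ub (W W' : Finset E) (w w' : Finset E → ℝ) (x y : E) (k : ℕ) (s₁ s₂ : ℝ)
    (ω : E → ℕ → unitInterval) : ℝ :=
  if s₁ ≤ tm k ω y ∧ tm k ω y < s₂ then
    str k (tm k ω y) ^ 2 * hb W W' w w' x y k (tm k ω y) ω else 0

theorem measurable_ub (x y : E) (k : ℕ) (s₁ s₂ : ℝ) :
    Measurable (ub W W' w w' x y k s₁ s₂) := by
  unfold ub
  apply Measurable.ite (measurableSet_tm k y s₁ s₂) _ measurable_const
  have h0 := (measurable_hb (W := W) (W' := W') (w := w) (w' := w') x y k).comp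
      ((measurable_tmy k y).prodMk measurable_id)
  have h1 : Measurable fun ω : E → ℕ → unitInterval => hb W W' w w' x y k (tm k ω y) ω := h0
  exact (((measurable_str k).comp (measurable_tmy k y)).pow_const 2).mul h1

theorem abs_ub_le (hw : Pos W w) (hw' : Pos W' w') (x y : E) (k : ℕ) (s₁ s₂ : ℝ)
    (ω : E → ℕ → unitInterval) : |ub W W' w w' x y k s₁ s₂ ω| ≤ 32 := by
  unfold ub
  split_ifs
  · rw [abs_mul, abs_of_nonneg (sq_nonneg (str k (tm k ω y)))]
    have := mul_le_mul (str_sq_le k (tm k ω y)) (hb_le hw hw' x y k (tm k ω y) ω)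
      (abs_nonneg _) zero_le_one
    linarith
  · simp

theorem jump_int_le (hw : Pos W w) (hw' : Pos W' w') (x y : E) (k : ℕ) {s₁ s₂ : ℝ}
    (hs0 : 0 ≤ s₁) (hs : s₁ ≤ s₂) (hs1 : s₂ ≤ 1) :
    ∫ ω, (if s₁ ≤ tm k ω y ∧ tm k ω y < s₂ then
        (jp W w x y k ω - jp W' w' x y k ω) ^ 2 else 0) ∂(Pm E) ≤
      8 * ∫ s in s₁..s₂, str k s ^ 2 * ∫ ω, hb W W' w w' x y k s ω ∂(Pm E) := by
  have h2 : ∫ ω, ub W W' w w' x y k s₁ s₂ ω ∂(Pm E) ≤
      ∫ s in s₁..s₂, str k s ^ 2 * ∫ ω, hb W W' w w' x y k s ω ∂(Pm E) :=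
    avg_time k y (h := fun s ω => hb W W' w w' x y k s ω) (measurable_hb x y k) 32
      (fun s ω => hb_le hw hw' x y k s ω) (fun s ω => hb_nonneg x y k s ω)
      (fun s ω θ => hb_inv x y k s ω θ) (φ := fun s => str k s ^ 2)
      ((measurable_str k).pow_const 2) (fun s => sq_nonneg _) 1 (str_sq_le k) hs0 hs hs1
  have h3 : ∫ ω, (if s₁ ≤ tm k ω y ∧ tm k ω y < s₂ then
      (jp W w x y k ω - jp W' w' x y k ω) ^ 2 else 0) ∂(Pm E) ≤
      ∫ ω, 8 * ub W W' w w' x y k s₁ s₂ ω ∂(Pm E) := by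
    apply integral_mono_of_nonneg
    · refine Eventually.of_forall fun ω => ?_
      simp only [Pi.zero_apply]
      split_ifs
      · exact sq_nonneg _
      · exact le_rfl
    · exact (integrable_Pm (measurable_ub x y k s₁ s₂) 32
        (abs_ub_le hw hw' x y k s₁ s₂)).const_mul 8
    · refine Eventually.of_forall fun ω => ?_
      simp only
      unfold ub
      split_ifs
      · have := jump_bound hw hw' x y k ω
        linarith
      · simp
  rw [integral_const_mul] at h3
  linarith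

theorem intervalIntegrable_hb (hw : Pos W w) (hw' : Pos W' w') (x y : E) (k : ℕ) (s₁ s₂ : ℝ) :
    IntervalIntegrable
      (fun s => str k s ^ 2 * ∫ ω, hb W W' w w' x y k s ω ∂(Pm E)) volume s₁ s₂ := by
  have hm : Measurable fun s => ∫ ω, hb W W' w w' x y k s ω ∂(Pm E) := by
    have : StronglyMeasurable (Function.uncurry fun (s : ℝ) (ω : E → ℕ → unitInterval) =>
      hb W W' w w' x y k s ω) := (measurable_hb x y k).stronglyMeasurable
    exact (this.integral_prod_right (ν := Pm E)).measurable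
  have hb' : ∀ s, |str k s ^ 2 * ∫ ω, hb W W' w w' x y k s ω ∂(Pm E)| ≤ 1 * 32 := by
    intro s
    rw [abs_mul, abs_of_nonneg (sq_nonneg (str k s))]
    have h5 : |∫ ω, hb W W' w w' x y k s ω ∂(Pm E)| ≤ 32 := by
      have := norm_integral_le_of_norm_le_const (μ := Pm E)
        (f := fun ω => hb W W' w w' x y k s ω) (C := 32)
        (Eventually.of_forall fun ω => by rw [Real.norm_eq_abs]; exact hb_le hw hw' x y k s ω)
      simpa using this
    exact mul_le_mul (str_sq_le k s) h5 (abs_nonneg _) zero_le_one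
  have hm2 : Measurable fun s => str k s ^ 2 * ∫ ω, hb W W' w w' x y k s ω ∂(Pm E) :=
    ((measurable_str k).pow_const 2).mul hm
  have hfin : IsFiniteMeasure (volume.restrict (Set.uIoc s₁ s₂)) :=
    ⟨by rw [Measure.restrict_apply_univ]; exact measure_Ioc_lt_top⟩
  rw [intervalIntegrable_iff]
  exact Integrable.of_bound hm2.aestronglyMeasurable (1 * 32)
    (Eventually.of_forall fun s => by rw [Real.norm_eq_abs]; exact hb' s)

end Final

end Ev

open Ev

section Interface

variable {E : Type*}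

theorem Dg_mono [Countable E] {W W' : Finset E} {w w' : Finset E → ℝ} (hw : Pos W w)
    (hw' : Pos W' w') {x : E} (_hx : x ∈ W) (_hx' : x ∈ W') (k : ℕ) {s₁ s₂ : ℝ} (hs : s₁ ≤ s₂) :
    Dg W W' w w' x k s₁ ≤ Dg W W' w w' x k s₂ := by
  rw [Dg_diff hw hw' x k hs]
  have : 0 ≤ ∑ y ∈ W ∪ W', ∫ ω,
      (if s₁ ≤ tm k ω y ∧ tm k ω y < s₂ then
        (jp W w x y k ω - jp W' w' x y k ω) ^ 2 else 0) ∂(Pm E) := by
    apply Finset.sum_nonneg
    intro y _
    apply integral_nonneg
    intro ω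
    simp only [Pi.zero_apply]
    split_ifs
    · exact sq_nonneg _
    · exact le_rfl
  linarith


theorem Tg_measurable [Countable E] (W W' : Finset E) (w w' : Finset E → ℝ) (x : E) (k : ℕ) :
    Measurable (fun s => Tg W W' w w' x k s) := by
  unfold Tg
  apply Measurable.add
  · apply Finset.measurable_sum
    intro y _
    have hK : Measurable fun q : ℝ × (E → ℕ → unitInterval) => KKf W w x y (Xst W w k q.1 q.2) :=
      (measurable_KKf x y).comp (measurable_Xst2 k)
    have hK' : Measurable fun q : ℝ × (E → ℕ → unitInterval) =>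
        KKf W' w' x y (Xst W' w' k q.1 q.2) := (measurable_KKf x y).comp (measurable_Xst2 k)
    have : StronglyMeasurable (Function.uncurry fun (s : ℝ) (ω : E → ℕ → unitInterval) =>
      (KKf W w x y (Xst W w k s ω) - KKf W' w' x y (Xst W' w' k s ω)) ^ 2) :=
      ((hK.sub hK').pow_const 2).stronglyMeasurable
    exact (this.integral_prod_right (ν := Pm E)).measurable
  · apply Finset.measurable_sum
    intro y _
    have hK' : Measurable fun q : ℝ × (E → ℕ → unitInterval) =>
        KKf W' w' x y (Xst W' w' k q.1 q.2) := (measurable_KKf x y).comp (measurable_Xst2 k)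
    have hM : Measurable fun q : ℝ × (E → ℕ → unitInterval) => Mf W w y (Xst W w k q.1 q.2) :=
      (measurable_Mf W w y).comp (measurable_Xst2 k)
    have hM' : Measurable fun q : ℝ × (E → ℕ → unitInterval) =>
        Mf W' w' y (Xst W' w' k q.1 q.2) := (measurable_Mf W' w' y).comp (measurable_Xst2 k)
    have : StronglyMeasurable (Function.uncurry fun (s : ℝ) (ω : E → ℕ → unitInterval) =>
      (Mf W w y (Xst W w k s ω) - Mf W' w' y (Xst W' w' k s ω)) ^ 2 *
        KKf W' w' x y (Xst W' w' k s ω) ^ 2) :=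
      (((hM.sub hM').pow_const 2).mul (hK'.pow_const 2)).stronglyMeasurable
    exact (this.integral_prod_right (ν := Pm E)).measurable

theorem Dg_evol [Countable E] {W W' : Finset E} {w w' : Finset E → ℝ} (hw : Pos W w)
    (hw' : Pos W' w') {x : E} (_hx : x ∈ W) (_hx' : x ∈ W') (k : ℕ) {s₁ s₂ : ℝ} (hs0 : 0 ≤ s₁)
    (hs : s₁ ≤ s₂) (hs1 : s₂ ≤ 1) :
    Dg W W' w w' x k s₂ ≤ Dg W W' w w' x k s₁ +
      32 * ∫ s in s₁..s₂, str k s ^ 2 * Tg W W' w w' x k s := by
  rw [Dg_diff hw hw' x k hs]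
  have h4 : ∑ y ∈ W ∪ W', ∫ ω, (if s₁ ≤ tm k ω y ∧ tm k ω y < s₂ then
        (jp W w x y k ω - jp W' w' x y k ω) ^ 2 else 0) ∂(Pm E) ≤
      ∑ y ∈ W ∪ W', 8 * ∫ s in s₁..s₂, str k s ^ 2 * ∫ ω, hb W W' w w' x y k s ω ∂(Pm E) :=
    Finset.sum_le_sum fun y _ => jump_int_le hw hw' x y k hs0 hs hs1
  rw [← Finset.mul_sum, ← intervalIntegral.integral_finsetSum
    (fun y _ => intervalIntegrable_hb hw hw' x y k s₁ s₂)] at h4
  have h6 : (fun s => ∑ y ∈ W ∪ W', str k s ^ 2 * ∫ ω, hb W W' w w' x y k s ω ∂(Pm E)) =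
      fun s => str k s ^ 2 * Tg W W' w w' x k s := by
    funext s
    rw [← Finset.mul_sum, Tg_eq hw hw' x k s]
  rw [h6] at h4
  have h7 : 0 ≤ ∫ s in s₁..s₂, str k s ^ 2 * Tg W W' w w' x k s := by
    apply intervalIntegral.integral_nonneg hs
    intro s _
    apply mul_nonneg (sq_nonneg _)
    rw [Tg_eq hw hw' x k s]
    exact Finset.sum_nonneg fun y _ => integral_nonneg fun ω => hb_nonneg x y k s ω
  linarith


end Interface

end Crest.Agent.H14
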