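import Mathlib
import Crest.Agent.H14.Rec

/-!
# Row 160: resampling lemmas for infinite product measures (helper17)
-/

set_option autoImplicit false

open MeasureTheory Filter Topology

namespace Crest.Agent.H14

open scoped Classical

section Generic

variable {ι : Type*} [DecidableEq ι] {X : ι → Type*} [∀ i, MeasurableSpace (X i)] (μ : ∀ i, Measure (X i))
  [∀ i, IsProbabilityMeasure (μ i)]

theorem measurable_upd (i : ι) :
    Measurable (fun q : (∀ j, X j) × X i => Function.update q.1 i q.2) := by
  rw [measurable_pi_iff]
  intro j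
  by_cases h : j = i
  · subst h
    simp only [Function.update_self]
    exact measurable_snd
  · simp only [Function.update_of_ne h]
    exact (measurable_pi_apply j).comp measurable_fst

/-- resampling one coordinate preserves the product measure -/
theorem mp_update (i : ι) : MeasurePreserving
    (fun q : (∀ j, X j) × X i => Function.update q.1 i q.2)
    ((Measure.infinitePi μ).prod (μ i)) (Measure.infinitePi μ) := by
  refine ⟨measurable_upd i, ?_⟩
  refine Measure.eq_infinitePi _ fun s t ht => ?_
  rw [Measure.map_apply (measurable_upd i) (.pi s.countable_toSet fun _ _ => ht _)]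
  have hpre : (fun q : (∀ j, X j) × X i => Function.update q.1 i q.2) ⁻¹' ((s : Set ι).pi t) =
      (((s.erase i : Finset ι) : Set ι).pi t) ×ˢ (if i ∈ s then t i else Set.univ) := by
    ext ⟨x, y⟩
    simp only [Set.mem_preimage, Set.mem_pi, Finset.mem_coe, Set.mem_prod, Finset.mem_erase]
    constructor
    · intro h
      refine ⟨fun j hj => ?_, ?_⟩
      · have := h j hj.2
        rwa [Function.update_of_ne hj.1] at this
      · split_ifs with hi
        · have := h i hi
          rwa [Function.update_self] at this
        · exact Set.mem_univ _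
    · rintro ⟨h1, h2⟩ j hj
      by_cases hji : j = i
      · subst hji
        rw [if_pos hj] at h2
        rwa [Function.update_self]
      · rw [Function.update_of_ne hji]
        exact h1 j ⟨hji, hj⟩
  rw [hpre, Measure.prod_prod, Measure.infinitePi_pi _ (fun j _ => ht j)]
  split_ifs with hi
  · rw [mul_comm, Finset.mul_prod_erase s (fun j => μ j (t j)) hi]
  · rw [measure_univ, mul_one, Finset.erase_eq_of_notMem hi]

theorem lintegral_upd (i : ι) {f : (∀ j, X j) → ENNReal} (hf : Measurable f) :
    ∫⁻ ω, f ω ∂(Measure.infinitePi μ) =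
      ∫⁻ ω, ∫⁻ x, f (Function.update ω i x) ∂(μ i) ∂(Measure.infinitePi μ) := by
  rw [← (mp_update μ i).lintegral_comp hf]
  exact lintegral_prod _ (hf.comp (measurable_upd i)).aemeasurable

end Generic

section Zip

variable {ι : Type*} [DecidableEq ι] {X Y : ι → Type*} [∀ i, MeasurableSpace (X i)]
  [∀ i, MeasurableSpace (Y i)] (μ : ∀ i, Measure (X i)) [∀ i, IsProbabilityMeasure (μ i)]
  (ν : ∀ i, Measure (Y i)) [∀ i, IsProbabilityMeasure (ν i)]

theorem measurable_zip :
    Measurable (fun q : (∀ i, X i) × (∀ i, Y i) => (fun i => (q.1 i, q.2 i) : ∀ i, X i × Y i)) := by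
  rw [measurable_pi_iff]
  intro i
  exact ((measurable_pi_apply i).comp measurable_fst).prodMk
    ((measurable_pi_apply i).comp measurable_snd)

theorem zip_aux {t : ∀ i, Set (X i × Y i)} (ht : ∀ i, MeasurableSet (t i)) (s : Finset ι) :
    ∫⁻ x, ∫⁻ y, ∏ i ∈ s, (t i).indicator (fun _ => (1:ENNReal)) (x i, y i)
      ∂(Measure.infinitePi ν) ∂(Measure.infinitePi μ) = ∏ i ∈ s, ((μ i).prod (ν i)) (t i) := by
  have hm1 : ∀ i, Measurable (fun q : (∀ j, X j) × (∀ j, Y j) =>
      (t i).indicator (fun _ => (1:ENNReal)) (q.1 i, q.2 i)) := fun i =>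
    (measurable_const.indicator (ht i)).comp (((measurable_pi_apply i).comp measurable_fst).prodMk
      ((measurable_pi_apply i).comp measurable_snd))
  have hm : ∀ s : Finset ι, Measurable (fun q : (∀ j, X j) × (∀ j, Y j) =>
      ∏ i ∈ s, (t i).indicator (fun _ => (1:ENNReal)) (q.1 i, q.2 i)) := fun s =>
    Finset.measurable_prod s fun i _ => hm1 i
  induction s using Finset.induction_on with
  | empty => simp
  | insert i s hi ih =>
    rw [Finset.prod_insert hi, ← ih]
    have h1 : Measurable (fun x : (∀ j, X j) => ∫⁻ y, ∏ j ∈ insert i s,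
        (t j).indicator (fun _ => (1:ENNReal)) (x j, y j) ∂(Measure.infinitePi ν)) :=
      Measurable.lintegral_prod_right' (hm (insert i s))
    rw [lintegral_upd μ i h1]
    have h2 : ∀ (x : ∀ j, X j) (a : X i), ∫⁻ y, ∏ j ∈ insert i s,
        (t j).indicator (fun _ => (1:ENNReal)) (Function.update x i a j, y j)
          ∂(Measure.infinitePi ν) =
        (∫⁻ b, (t i).indicator (fun _ => (1:ENNReal)) (a, b) ∂(ν i)) *
          ∫⁻ y, ∏ j ∈ s, (t j).indicator (fun _ => (1:ENNReal)) (x j, y j)
            ∂(Measure.infinitePi ν) := by
      intro x a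
      have h3 : Measurable (fun y : (∀ j, Y j) => ∏ j ∈ insert i s,
          (t j).indicator (fun _ => (1:ENNReal)) (Function.update x i a j, y j)) :=
        (hm (insert i s)).comp (measurable_const.prodMk measurable_id)
      rw [lintegral_upd ν i h3, ← lintegral_const_mul]
      · apply lintegral_congr
        intro y
        have h4 : ∀ b : Y i, ∏ j ∈ insert i s, (t j).indicator (fun _ => (1:ENNReal))
            (Function.update x i a j, Function.update y i b j) =
            (t i).indicator (fun _ => (1:ENNReal)) (a, b) *
              ∏ j ∈ s, (t j).indicator (fun _ => (1:ENNReal)) (x j, y j) := by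
          intro b
          rw [Finset.prod_insert hi, Function.update_self, Function.update_self]
          congr 1
          refine Finset.prod_congr rfl fun j hj => ?_
          have : j ≠ i := fun h => hi (h ▸ hj)
          rw [Function.update_of_ne this, Function.update_of_ne this]
        simp only [h4]
        rw [lintegral_mul_const]
        exact (measurable_const.indicator (ht i)).comp (measurable_const.prodMk measurable_id)
      · exact (hm s).comp (measurable_const.prodMk measurable_id)
    simp only [h2]
    have h5 : ∀ x : ∀ j, X j, ∫⁻ a, (∫⁻ b, (t i).indicator (fun _ => (1:ENNReal)) (a, b) ∂(ν i)) *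
          (∫⁻ y, ∏ j ∈ s, (t j).indicator (fun _ => (1:ENNReal)) (x j, y j)
            ∂(Measure.infinitePi ν)) ∂(μ i) =
        ((μ i).prod (ν i)) (t i) *
          ∫⁻ y, ∏ j ∈ s, (t j).indicator (fun _ => (1:ENNReal)) (x j, y j)
            ∂(Measure.infinitePi ν) := by
      intro x
      rw [lintegral_mul_const]
      · congr 1
        rw [← lintegral_prod _ (measurable_const.indicator (ht i)).aemeasurable,
          lintegral_indicator (ht i)]
        simp
      · exact Measurable.lintegral_prod_right' (measurable_const.indicator (ht i))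
    simp only [h5]
    rw [lintegral_const_mul]
    exact Measurable.lintegral_prod_right' (hm s)

/-- a product of product measures is a product measure -/
theorem mp_zip : MeasurePreserving
    (fun q : (∀ i, X i) × (∀ i, Y i) => (fun i => (q.1 i, q.2 i) : ∀ i, X i × Y i))
    ((Measure.infinitePi μ).prod (Measure.infinitePi ν))
    (Measure.infinitePi fun i => (μ i).prod (ν i)) := by
  refine ⟨measurable_zip, ?_⟩
  refine Measure.eq_infinitePi _ fun s t ht => ?_
  have hpi : MeasurableSet ((s : Set ι).pi t) := .pi s.countable_toSet fun _ _ => ht _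
  rw [Measure.map_apply measurable_zip hpi, ← zip_aux μ ν ht s,
    ← lintegral_indicator_one (measurable_zip hpi),
    lintegral_prod _ (measurable_one.indicator (measurable_zip hpi)).aemeasurable]
  apply lintegral_congr
  intro x
  apply lintegral_congr
  intro y
  by_cases h : ∀ i ∈ s, (x i, y i) ∈ t i
  · rw [Set.indicator_of_mem]
    · rw [Finset.prod_congr rfl fun i hi => Set.indicator_of_mem (h i hi) _]
      simp
    · exact fun i hi => h i hi
  · rw [Set.indicator_of_notMem]
    · push Not at h
      obtain ⟨i, hi, hit⟩ := h
      exact (Finset.prod_eq_zero hi (Set.indicator_of_notMem hit _)).symm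
    · intro h'
      exact h fun i hi => h' i hi

theorem lintegral_zip {f : (∀ i, X i × Y i) → ENNReal} (hf : Measurable f) :
    ∫⁻ b, f b ∂(Measure.infinitePi fun i => (μ i).prod (ν i)) =
      ∫⁻ x, ∫⁻ y, f (fun i => (x i, y i)) ∂(Measure.infinitePi ν) ∂(Measure.infinitePi μ) := by
  rw [← (mp_zip μ ν).lintegral_comp hf]
  exact lintegral_prod _ (hf.comp measurable_zip).aemeasurable

end Zip

section Labels

variable {E : Type*}

instance : IsProbabilityMeasure (Pm E) := by
  unfold Pm; infer_instance

/-- replace the label `j` of the vertex `v` by `x` -/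
noncomputable def upl (ω : E → ℕ → unitInterval) (v : E) (j : ℕ) (x : unitInterval) :
    E → ℕ → unitInterval := Function.update ω v (Function.update (ω v) j x)

@[simp] theorem upl_self (ω : E → ℕ → unitInterval) (v : E) (j : ℕ) (x : unitInterval) :
    upl ω v j x v j = x := by simp [upl]

theorem upl_of_ne (ω : E → ℕ → unitInterval) {v v' : E} {j j' : ℕ} (x : unitInterval)
    (h : ¬ (v' = v ∧ j' = j)) : upl ω v j x v' j' = ω v' j' := by
  unfold upl
  by_cases h1 : v' = v
  · subst h1
    rw [Function.update_self, Function.update_of_ne]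
    exact fun h2 => h ⟨rfl, h2⟩
  · rw [Function.update_of_ne h1]

theorem measurable_upl (v : E) (j : ℕ) :
    Measurable (fun q : (E → ℕ → unitInterval) × unitInterval => upl q.1 v j q.2) := by
  rw [measurable_pi_iff]
  intro v'
  rw [measurable_pi_iff]
  intro j'
  by_cases h : v' = v ∧ j' = j
  · obtain ⟨rfl, rfl⟩ := h
    simp only [upl_self]
    exact measurable_snd
  · have : (fun q : (E → ℕ → unitInterval) × unitInterval => upl q.1 v j q.2 v' j') =
        fun q => q.1 v' j' := by
      funext q
      exact upl_of_ne _ _ h
    rw [this]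
    exact (measurable_pi_apply j').comp ((measurable_pi_apply v').comp measurable_fst)

/-- resampling one label preserves `Pm` -/
theorem lintegral_upl (v : E) (j : ℕ) {f : (E → ℕ → unitInterval) → ENNReal} (hf : Measurable f) :
    ∫⁻ ω, f ω ∂(Pm E) = ∫⁻ ω, (∫⁻ x, f (upl ω v j x)) ∂(Pm E) := by
  unfold Pm
  set P1 : Measure (ℕ → unitInterval) :=
    Measure.infinitePi (fun _ : ℕ => (volume : Measure unitInterval)) with hP1
  have hmu : Measurable (fun q : (E → ℕ → unitInterval) × (ℕ → unitInterval) =>
      f (Function.update q.1 v q.2)) := hf.comp (measurable_upd (X := fun _ : E => ℕ → unitInterval) v)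
  have h1 : ∫⁻ ω, f ω ∂(Measure.infinitePi fun _ : E => P1) =
      ∫⁻ ω, ∫⁻ y, f (Function.update ω v y) ∂P1 ∂(Measure.infinitePi fun _ : E => P1) :=
    lintegral_upd (fun _ : E => P1) v hf
  have h2 : ∀ ω : E → ℕ → unitInterval, ∫⁻ y, f (Function.update ω v y) ∂P1 =
      ∫⁻ y, (∫⁻ x, f (Function.update ω v (Function.update y j x))) ∂P1 := by
    intro ω
    exact lintegral_upd (fun _ : ℕ => (volume : Measure unitInterval)) j
      (f := fun y => f (Function.update ω v y))
      (hmu.comp (measurable_const.prodMk measurable_id))
  have hg : Measurable (fun ω : E → ℕ → unitInterval => ∫⁻ x, f (upl ω v j x)) :=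
    Measurable.lintegral_prod_right' (f := fun q : (E → ℕ → unitInterval) × unitInterval =>
      f (upl q.1 v j q.2)) (hf.comp (measurable_upl v j))
  have h3 := lintegral_upd (fun _ : E => P1) v hg
  rw [h1, h3]
  apply lintegral_congr
  intro ω
  rw [h2 ω]
  apply lintegral_congr
  intro y
  apply lintegral_congr
  intro x
  congr 1
  unfold upl
  rw [Function.update_self]
  simp

/-- replace the whole column `j` of labels -/
def col (ω : E → ℕ → unitInterval) (j : ℕ) (η : E → unitInterval) : E → ℕ → unitInterval :=
  fun v i => if i = j then η v else ω v i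

theorem measurable_col (j : ℕ) :
    Measurable (fun q : (E → ℕ → unitInterval) × (E → unitInterval) => col q.1 j q.2) := by
  rw [measurable_pi_iff]
  intro v
  rw [measurable_pi_iff]
  intro i
  unfold col
  by_cases h : i = j
  · simp only [h, if_true]
    exact (measurable_pi_apply v).comp measurable_snd
  · simp only [h, if_false]
    exact (measurable_pi_apply i).comp ((measurable_pi_apply v).comp measurable_fst)

/-- the law of one column of labels -/
noncomputable def Pc (E : Type*) : Measure (E → unitInterval) :=
  Measure.infinitePi (fun _ : E => (volume : Measure unitInterval))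

instance : IsProbabilityMeasure (Pc E) := by
  unfold Pc; infer_instance

/-- resampling one label of a column -/
theorem lintegral_Pc (v : E) {f : (E → unitInterval) → ENNReal} (hf : Measurable f) :
    ∫⁻ η, f η ∂(Pc E) = ∫⁻ η, (∫⁻ x, f (Function.update η v x)) ∂(Pc E) :=
  lintegral_upd (fun _ : E => (volume : Measure unitInterval)) v hf

/-- resampling one column of labels preserves `Pm` -/
theorem mp_col (j : ℕ) : MeasurePreserving
    (fun q : (E → ℕ → unitInterval) × (E → unitInterval) => col q.1 j q.2)
    ((Pm E).prod (Pc E)) (Pm E) := by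
  refine ⟨measurable_col j, ?_⟩
  have hP : Pm E = (Measure.infinitePi fun _ : E × ℕ => (volume : Measure unitInterval)).map
      (MeasurableEquiv.curry E ℕ unitInterval) :=
    (Measure.infinitePi_map_curry (fun _ _ => (volume : Measure unitInterval))).symm
  set P2 : Measure (E × ℕ → unitInterval) :=
    Measure.infinitePi fun _ : E × ℕ => (volume : Measure unitInterval) with hP2
  have hmc : Measurable (fun q : (E × ℕ → unitInterval) × (E → unitInterval) =>
      (fun p : E × ℕ => if p.2 = j then q.2 p.1 else q.1 p)) := by
    rw [measurable_pi_iff]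
    intro p
    by_cases h : p.2 = j
    · simp only [h, if_true]
      exact (measurable_pi_apply p.1).comp measurable_snd
    · simp only [h, if_false]
      exact (measurable_pi_apply p).comp measurable_fst
  have hmap : (P2.prod (Pc E)).map (fun q : (E × ℕ → unitInterval) × (E → unitInterval) =>
      (fun p : E × ℕ => if p.2 = j then q.2 p.1 else q.1 p)) = P2 := by
    refine Measure.eq_infinitePi _ fun s t ht => ?_
    rw [Measure.map_apply hmc (.pi s.countable_toSet fun _ _ => ht _)]
    have hpre : (fun q : (E × ℕ → unitInterval) × (E → unitInterval) =>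
        (fun p : E × ℕ => if p.2 = j then q.2 p.1 else q.1 p)) ⁻¹' ((s : Set (E × ℕ)).pi t) =
        (((s.filter (fun p => p.2 ≠ j) : Finset (E × ℕ)) : Set (E × ℕ)).pi t) ×ˢ
        ((((s.filter (fun p => p.2 = j)).image Prod.fst : Finset E) : Set E).pi
          (fun v => t (v, j))) := by
      ext ⟨x, y⟩
      simp only [Set.mem_preimage, Set.mem_pi, Finset.mem_coe, Set.mem_prod, Finset.mem_filter,
        Finset.mem_image]
      constructor
      · intro h
        refine ⟨fun p hp => ?_, ?_⟩
        · have := h p hp.1
          rwa [if_neg hp.2] at this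
        · rintro v ⟨p, ⟨hp1, hp2⟩, rfl⟩
          have := h p hp1
          rw [if_pos hp2] at this
          have e : (p.1, j) = p := by rw [← hp2]
          rwa [e]
      · rintro ⟨h1, h2⟩ p hp
        by_cases hpj : p.2 = j
        · rw [if_pos hpj]
          have := h2 p.1 ⟨p, ⟨hp, hpj⟩, rfl⟩
          have e : (p.1, j) = p := by rw [← hpj]
          rwa [e] at this
        · rw [if_neg hpj]
          exact h1 p ⟨hp, hpj⟩
    rw [hpre, Measure.prod_prod, Measure.infinitePi_pi _ (fun p _ => ht p)]
    unfold Pc
    rw [Measure.infinitePi_pi _ (fun v _ => ht (v, j)), Finset.prod_image]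
    · have : ∀ p ∈ s.filter (fun p => p.2 = j), (volume : Measure unitInterval) (t (p.1, j)) =
          (volume : Measure unitInterval) (t p) := by
        intro p hp
        have e : (p.1, j) = p := by rw [← (Finset.mem_filter.1 hp).2]
        rw [e]
      rw [Finset.prod_congr rfl this, mul_comm, Finset.prod_filter_mul_prod_filter_not]
    · intro p hp q hq hpq
      have h1 := (Finset.mem_filter.1 hp).2
      have h2 := (Finset.mem_filter.1 hq).2
      exact Prod.ext hpq (h1.trans h2.symm)
  have hcur : Measurable (MeasurableEquiv.curry E ℕ unitInterval) :=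
    (MeasurableEquiv.curry E ℕ unitInterval).measurable
  have hprod : (Pm E).prod (Pc E) = (P2.prod (Pc E)).map
      (Prod.map (MeasurableEquiv.curry E ℕ unitInterval) id) := by
    rw [hP, ← Measure.map_prod_map _ _ hcur measurable_id, Measure.map_id]
  rw [hprod, Measure.map_map (measurable_col j) (hcur.prodMap measurable_id), hP]
  conv_rhs => rw [← hmap]
  rw [Measure.map_map hcur hmc]
  rfl

theorem lintegral_col (j : ℕ) {f : (E → ℕ → unitInterval) → ENNReal} (hf : Measurable f) :
    ∫⁻ ω, f ω ∂(Pm E) = ∫⁻ ω, ∫⁻ η, f (col ω j η) ∂(Pc E) ∂(Pm E) := by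
  rw [← (mp_col j).lintegral_comp hf]
  exact lintegral_prod _ (hf.comp (measurable_col j)).aemeasurable

end Labels

end Crest.Agent.H14
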