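import Mathlib
import Crest.Agent.H14.Resample
import Crest.Agent.H14.Upd

/-!
# Row 160: exactness of the dynamics (helper17)

The law of the evidence field of the sequential sampler is the static law.
-/

set_option autoImplicit false

open MeasureTheory Filter Topology

namespace Crest.Agent.H14

open scoped Classical

section Density

variable {E : Type*} {W : Finset E} {w : Finset E → ℝ} {r z : E → ℝ}

/-- combination of evidence fields -/
noncomputable def oplf (r z : E → ℝ) : E → ℝ := fun v => opl (r v) (z v)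

/-- product of the normalisations -/
noncomputable def Jpf (W : Finset E) (r z : E → ℝ) : ℝ := ∏ v ∈ W, (1 + r v * z v)

/-- density of the outcomes `z` given the past evidence `r` -/
noncomputable def Df (W : Finset E) (w : Finset E → ℝ) (r z : E → ℝ) : ℝ :=
  Lf W w (oplf r z) * Jpf W r z / Lf W w r

@[simp] theorem oplf_zero (r : E → ℝ) : oplf r (fun _ => 0) = r := by
  funext v; simp [oplf]

theorem Jpf_zero (W : Finset E) (r : E → ℝ) : Jpf W r (fun _ => 0) = 1 := by simp [Jpf]

theorem Jpf_pos (hr : ∀ v ∈ W, |r v| < 1) (hz : ∀ v ∈ W, |z v| < 1) : 0 < Jpf W r z :=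
  Finset.prod_pos fun v hv => one_add_mul_pos (hr v hv) (hz v hv).le

theorem tl_mul_tl (hr : ∀ v ∈ W, |r v| < 1) (hz : ∀ v ∈ W, |z v| < 1) (S : Finset E) :
    tl W r S * tl W z S = Jpf W r z * tl W (oplf r z) S := by
  unfold tl Jpf
  rw [← Finset.prod_mul_distrib, ← Finset.prod_mul_distrib]
  refine Finset.prod_congr rfl fun v hv => ?_
  exact one_add_mul_opl (sp_sq S v) (one_add_mul_pos (hr v hv) (hz v hv).le).ne'

theorem sum_tl_tl (hr : ∀ v ∈ W, |r v| < 1) (hz : ∀ v ∈ W, |z v| < 1) (g : Finset E → ℝ) :
    ∑ S ∈ W.powerset, w S * (tl W r S * tl W z S) * g S =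
      Jpf W r z * ∑ S ∈ W.powerset, w S * tl W (oplf r z) S * g S := by
  rw [Finset.mul_sum]
  refine Finset.sum_congr rfl fun S _ => ?_
  rw [tl_mul_tl hr hz]
  ring

theorem Lf_oplf (hr : ∀ v ∈ W, |r v| < 1) (hz : ∀ v ∈ W, |z v| < 1) :
    Lf W w (oplf r z) * Jpf W r z = ∑ S ∈ W.powerset, w S * (tl W r S * tl W z S) := by
  have := sum_tl_tl (w := w) hr hz (fun _ => 1)
  simp only [mul_one] at this
  rw [this, mul_comm]
  rfl

theorem tlz_update {y : E} (hy : y ∈ W) (hzy : z y = 0) (ζ : ℝ) (S : Finset E) :
    tl W (Function.update z y ζ) S = tl W z S * (1 + sp S y * ζ) := by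
  unfold tl
  rw [← Finset.mul_prod_erase W _ hy, ← Finset.mul_prod_erase W (fun v => 1 + sp S v * z v) hy]
  have : ∏ v ∈ W.erase y, (1 + sp S v * Function.update z y ζ v) =
      ∏ v ∈ W.erase y, (1 + sp S v * z v) := by
    refine Finset.prod_congr rfl fun v hv => ?_
    rw [Function.update_of_ne (Finset.ne_of_mem_erase hv)]
  rw [this, Function.update_self, hzy]
  ring

/-- adding one observation -/
theorem Lf_oplf_update (hw : Pos W w) (hr : ∀ v ∈ W, |r v| < 1) (hz : ∀ v ∈ W, |z v| < 1)
    {y : E} (hy : y ∈ W) (hzy : z y = 0) {ζ : ℝ} (hζ : |ζ| < 1) :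
    Lf W w (oplf r (Function.update z y ζ)) * Jpf W r (Function.update z y ζ) =
      Lf W w (oplf r z) * Jpf W r z * (1 + ζ * Mf W w y (oplf r z)) := by
  have hz' : ∀ v ∈ W, |Function.update z y ζ v| < 1 := by
    intro v hv
    by_cases h : v = y
    · subst h; rwa [Function.update_self]
    · rw [Function.update_of_ne h]; exact hz v hv
  rw [Lf_oplf hr hz']
  have h1 : ∀ S ∈ W.powerset, w S * (tl W r S * tl W (Function.update z y ζ) S) =
      w S * (tl W r S * tl W z S) + ζ * (w S * (tl W r S * tl W z S) * sp S y) := by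
    intro S _
    rw [tlz_update hy hzy]
    ring
  rw [Finset.sum_congr rfl h1, Finset.sum_add_distrib, ← Finset.mul_sum, sum_tl_tl hr hz,
    ← Lf_oplf hr hz]
  have hL : 0 < Lf W w (oplf r z) := Lf_pos hw fun v hv => abs_opl_lt (hr v hv) (hz v hv)
  have h2 : ∑ S ∈ W.powerset, w S * tl W (oplf r z) S * sp S y =
      Lf W w (oplf r z) * Mf W w y (oplf r z) := by
    unfold Mf Ef
    rw [mul_div_cancel₀ _ hL.ne']
  rw [h2]
  ring

theorem Df_update (hw : Pos W w) (hr : ∀ v ∈ W, |r v| < 1) (hz : ∀ v ∈ W, |z v| < 1)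
    {y : E} (hy : y ∈ W) (hzy : z y = 0) {ζ : ℝ} (hζ : |ζ| < 1) :
    Df W w r (Function.update z y ζ) = Df W w r z * (1 + ζ * Mf W w y (oplf r z)) := by
  unfold Df
  rw [Lf_oplf_update hw hr hz hy hzy hζ]
  ring

theorem Df_nonneg (hw : Pos W w) (hr : ∀ v ∈ W, |r v| < 1) (hz : ∀ v ∈ W, |z v| < 1) :
    0 ≤ Df W w r z := by
  unfold Df
  have h1 : 0 < Lf W w (oplf r z) := Lf_pos hw fun v hv => abs_opl_lt (hr v hv) (hz v hv)
  have h2 := Lf_pos hw hr
  have h3 := Jpf_pos hr hz
  positivity

theorem measurable_oplf : Measurable (fun q : (E → ℝ) × (E → ℝ) => oplf q.1 q.2) := by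
  rw [measurable_pi_iff]
  intro v
  have h1 : Measurable (fun q : (E → ℝ) × (E → ℝ) => q.1 v) :=
    (measurable_pi_apply v).comp measurable_fst
  have h2 : Measurable (fun q : (E → ℝ) × (E → ℝ) => q.2 v) :=
    (measurable_pi_apply v).comp measurable_snd
  exact measurable_opl.comp (h1.prodMk h2)

theorem measurable_Jpf : Measurable (fun q : (E → ℝ) × (E → ℝ) => Jpf W q.1 q.2) := by
  unfold Jpf
  apply Finset.measurable_prod
  intro v _
  exact measurable_const.add (((measurable_pi_apply v).comp measurable_fst).mul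
    ((measurable_pi_apply v).comp measurable_snd))

theorem measurable_Df : Measurable (fun q : (E → ℝ) × (E → ℝ) => Df W w q.1 q.2) := by
  unfold Df
  exact (((measurable_Lf W w).comp measurable_oplf).mul measurable_Jpf).div
    ((measurable_Lf W w).comp measurable_fst)

theorem measurable_oplf' (r : E → ℝ) : Measurable (fun z : E → ℝ => oplf r z) :=
  measurable_oplf.comp (f := fun z : E → ℝ => (r, z)) (measurable_const.prodMk measurable_id)

theorem measurable_Df' (r : E → ℝ) : Measurable (fun z : E → ℝ => Df W w r z) :=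
  measurable_Df.comp (f := fun z : E → ℝ => (r, z)) (measurable_const.prodMk measurable_id)

end Density

section Round

variable {E : Type*} {W : Finset E} {w : Finset E → ℝ} {r t a : E → ℝ}

/-- strengths restricted to `J` -/
noncomputable def rst (J : Finset E) (a : E → ℝ) : E → ℝ := fun v => if v ∈ J then a v else 0

/-- reference outcomes -/
noncomputable def zz (a : E → ℝ) (η : E → unitInterval) : E → ℝ :=
  fun v => a v * (2 * (η v : ℝ) - 1)

theorem rst_bd (J : Finset E) (ha : ∀ v, 0 ≤ a v ∧ a v ≤ 1 / 2) (v : E) :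
    0 ≤ rst J a v ∧ rst J a v ≤ 1 / 2 := by
  unfold rst
  split_ifs
  · exact ha v
  · norm_num

theorem abs_zz_le (ha : ∀ v, 0 ≤ a v) (η : E → unitInterval) (v : E) : |zz a η v| ≤ a v := by
  unfold zz
  rw [abs_mul, abs_of_nonneg (ha v)]
  have h1 := (η v).2.1
  have h2 := (η v).2.2
  have : |2 * (η v : ℝ) - 1| ≤ 1 := by rw [abs_le]; constructor <;> linarith
  calc _ ≤ a v * 1 := mul_le_mul_of_nonneg_left this (ha v)
    _ = a v := mul_one _

theorem Zrd_rst_of_notMem (hw : Pos W w) (hr : ∀ v ∈ W, |r v| < 1)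
    (ha : ∀ v, 0 ≤ a v ∧ a v ≤ 1 / 2) {J : Finset E} (u : E → unitInterval) {v : E} (hv : v ∉ J) :
    Zrd W w r t (rst J a) u v = 0 := by
  have h := abs_Zrd_le hw hr (t := t) (u := u) (rst_bd J ha) v
  have h2 : rst J a v = 0 := by unfold rst; rw [if_neg hv]
  rw [h2] at h
  exact abs_eq_zero.1 (le_antisymm h (abs_nonneg _))

/-- adding the last vertex in time order -/
theorem Zrd_insert (hw : Pos W w) (hr : ∀ v ∈ W, |r v| < 1)
    (ha : ∀ v, 0 ≤ a v ∧ a v ≤ 1 / 2) {J : Finset E} {y : E} (hy : y ∈ W) (hyJ : y ∉ J)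
    (hJt : ∀ v ∈ J, t v < t y) (u : E → unitInterval) :
    Zrd W w r t (rst (insert y J) a) u = Function.update (Zrd W w r t (rst J a) u) y
      (a y * Qf (a y * Mf W w y (oplf r (Zrd W w r t (rst J a) u))) (u y)) := by
  symm
  apply Zrd_unique
  set Z' := Zrd W w r t (rst J a) u with hZ'
  set c := a y * Qf (a y * Mf W w y (oplf r Z')) (u y) with hc
  have hoff : ∀ v, v ∉ J → Z' v = 0 := fun v hv => Zrd_rst_of_notMem hw hr ha u hv
  funext v
  by_cases hvW : v ∈ W
  swap
  · have hvy : v ≠ y := fun h => hvW (h ▸ hy)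
    rw [Function.update_of_ne hvy]
    unfold stepZ
    rw [if_neg hvW, hZ', Zrd_of_notMem hvW]
  by_cases hvy : v = y
  · subst hvy
    rw [Function.update_self]
    unfold stepZ
    rw [if_pos hvW]
    have e1 : rst (insert v J) a v = a v := by unfold rst; rw [if_pos (Finset.mem_insert_self _ _)]
    have e2 : stt r t (Function.update Z' v c) (t v) = oplf r Z' := by
      funext v'
      unfold stt oplf
      by_cases h1 : t v' < t v
      · rw [if_pos h1, Function.update_of_ne]
        rintro rfl
        exact lt_irrefl _ h1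
      · rw [if_neg h1, hoff v' (fun h => h1 (hJt v' h)), opl_zero]
    rw [e1, e2]
  · rw [Function.update_of_ne hvy]
    by_cases hvJ : v ∈ J
    · have e1 : rst (insert y J) a v = rst J a v := by
        unfold rst; rw [if_pos (Finset.mem_insert_of_mem hvJ), if_pos hvJ]
      have e2 : Mf W w v (stt r t (Function.update Z' y c) (t v)) = Mf W w v (stt r t Z' (t v)) := by
        apply Mf_congr
        intro v' _
        unfold stt
        by_cases h1 : t v' < t v
        · rw [if_pos h1, if_pos h1, Function.update_of_ne]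
          rintro rfl
          exact lt_asymm h1 (hJt v hvJ)
        · rw [if_neg h1, if_neg h1]
      unfold stepZ
      rw [if_pos hvW, e1, e2, hZ', ← Zrd_eq hvW]
    · have e1 : rst (insert y J) a v = 0 := by
        unfold rst; rw [if_neg]
        rw [Finset.mem_insert, not_or]; exact ⟨hvy, hvJ⟩
      unfold stepZ
      rw [if_pos hvW, e1, zero_mul, hoff v hvJ]

theorem Zrd_update_u (hw : Pos W w) (hr : ∀ v ∈ W, |r v| < 1)
    (ha : ∀ v, 0 ≤ a v ∧ a v ≤ 1 / 2) {J : Finset E} {y : E} (hyJ : y ∉ J)
    (u : E → unitInterval) (x : unitInterval) :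
    Zrd W w r t (rst J a) (Function.update u y x) = Zrd W w r t (rst J a) u := by
  symm
  apply Zrd_unique
  funext v
  by_cases hvW : v ∈ W
  swap
  · unfold stepZ
    rw [if_neg hvW, Zrd_of_notMem hvW]
  by_cases hvy : v = y
  · subst hvy
    unfold stepZ
    rw [if_pos hvW, Zrd_rst_of_notMem hw hr ha u hyJ]
    have e1 : rst J a v = 0 := by unfold rst; rw [if_neg hyJ]
    rw [e1, zero_mul]
  · unfold stepZ
    rw [if_pos hvW, Function.update_of_ne hvy, ← Zrd_eq hvW]

theorem zz_insert {J : Finset E} {y : E} (hyJ : y ∉ J) (η : E → unitInterval) (x : unitInterval) :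
    zz (rst (insert y J) a) (Function.update η y x) =
      Function.update (zz (rst J a) η) y (a y * (2 * (x : ℝ) - 1)) := by
  funext v
  by_cases hvy : v = y
  · subst hvy
    rw [Function.update_self]
    unfold zz rst
    rw [if_pos (Finset.mem_insert_self _ _), Function.update_self]
  · rw [Function.update_of_ne hvy]
    unfold zz rst
    rw [Function.update_of_ne hvy]
    by_cases hvJ : v ∈ J
    · rw [if_pos hvJ, if_pos (Finset.mem_insert_of_mem hvJ)]
    · rw [if_neg hvJ, if_neg]
      rw [Finset.mem_insert, not_or]; exact ⟨hvy, hvJ⟩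

theorem measurable_Zrd_u : Measurable (fun u : E → unitInterval => Zrd W w r t a u) :=
  measurable_Zrd' (W := W) (w := w) measurable_const measurable_const measurable_const measurable_id

theorem measurable_zz : Measurable (fun η : E → unitInterval => zz a η) := by
  rw [measurable_pi_iff]
  intro v
  unfold zz
  exact ((((measurable_subtype_coe).comp (measurable_pi_apply v)).const_mul 2).sub_const 1).const_mul _

/-- one round, fixed times: exactness on the vertices of `J` -/
theorem round_aux (hw : Pos W w) (hr : ∀ v ∈ W, |r v| < 1) (ha : ∀ v, 0 ≤ a v ∧ a v ≤ 1 / 2)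
    (J : Finset E) : J ⊆ W → Set.InjOn t J → ∀ G : (E → ℝ) → ENNReal, Measurable G →
    ∫⁻ u, G (Zrd W w r t (rst J a) u) ∂(Pc E) =
      ∫⁻ η, ENNReal.ofReal (Df W w r (zz (rst J a) η)) * G (zz (rst J a) η) ∂(Pc E) := by
  induction J using Finset.induction_on_max_value t with
  | empty =>
    intro _ _ G _
    have e1 : ∀ u : E → unitInterval, Zrd W w r t (rst ∅ a) u = fun _ => 0 := by
      intro u; funext v
      exact Zrd_rst_of_notMem hw hr ha u (Finset.notMem_empty v)
    have e2 : ∀ u : E → unitInterval, zz (rst ∅ a) u = fun _ => 0 := by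
      intro u; funext v
      simp [zz, rst]
    have e3 : Df W w r (fun _ => 0) = 1 := by
      unfold Df
      rw [oplf_zero, Jpf_zero, mul_one, div_self (Lf_pos hw hr).ne']
    simp only [e1, e2, e3, ENNReal.ofReal_one, one_mul]
  | insert y J hyJ hmax ih =>
    intro hJW hinj G hG
    have hyW : y ∈ W := hJW (Finset.mem_insert_self _ _)
    have hJW' : J ⊆ W := fun v hv => hJW (Finset.mem_insert_of_mem hv)
    have hlt : ∀ v ∈ J, t v < t y := by
      intro v hv
      refine lt_of_le_of_ne (hmax v hv) fun h => ?_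
      have := hinj (Finset.mem_coe.2 (Finset.mem_insert_of_mem hv))
        (Finset.mem_coe.2 (Finset.mem_insert_self _ _)) h
      exact hyJ (this ▸ hv)
    have hinj' : Set.InjOn t J := hinj.mono fun v hv =>
      Finset.mem_coe.2 (Finset.mem_insert_of_mem (Finset.mem_coe.1 hv))
    -- the averaged function
    set G1 : (E → ℝ) → ENNReal := fun z => ∫⁻ x : unitInterval,
      ENNReal.ofReal (1 + a y * Mf W w y (oplf r z) * (2 * (x:ℝ) - 1)) *
        G (Function.update z y (a y * (2 * (x:ℝ) - 1))) with hG1
    have hor : Measurable (fun z : E → ℝ => oplf r z) :=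
      measurable_oplf.comp (measurable_const.prodMk measurable_id)
    have hx2 : Measurable (fun q : (E → ℝ) × unitInterval => (2 * (q.2:ℝ) - 1)) :=
      ((measurable_subtype_coe.comp measurable_snd).const_mul 2).sub_const 1
    have hup : Measurable (fun q : (E → ℝ) × unitInterval =>
        Function.update q.1 y (a y * (2 * (q.2:ℝ) - 1))) :=
      (measurable_upd (X := fun _ : E => ℝ) y).comp (measurable_fst.prodMk (hx2.const_mul _))
    have hG1m : Measurable G1 := by
      apply Measurable.lintegral_prod_right' (f := fun q : (E → ℝ) × unitInterval =>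
        ENNReal.ofReal (1 + a y * Mf W w y (oplf r q.1) * (2 * (q.2:ℝ) - 1)) *
        G (Function.update q.1 y (a y * (2 * (q.2:ℝ) - 1))))
      apply Measurable.mul
      · apply ENNReal.measurable_ofReal.comp
        exact measurable_const.add (((((measurable_Mf W w y).comp hor).comp
          measurable_fst).const_mul _).mul hx2)
      · exact hG.comp hup
    have step1 : ∫⁻ u, G (Zrd W w r t (rst (insert y J) a) u) ∂(Pc E) =
        ∫⁻ u, G1 (Zrd W w r t (rst J a) u) ∂(Pc E) := by
      rw [lintegral_Pc y (f := fun u => G (Zrd W w r t (rst (insert y J) a) u))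
        (hG.comp measurable_Zrd_u)]
      apply lintegral_congr
      intro u
      simp only [Zrd_insert hw hr ha hyW hyJ hlt, Zrd_update_u hw hr ha hyJ, Function.update_self]
      have hk : |a y * Mf W w y (oplf r (Zrd W w r t (rst J a) u))| ≤ 1 / 2 := by
        have h1 : ∀ v ∈ W, |oplf r (Zrd W w r t (rst J a) u) v| ≤ 1 := fun v hv =>
          (abs_opl_lt (hr v hv) (lt_of_le_of_lt (abs_Zrd_le hw hr (rst_bd J ha) v)
            (by linarith [(rst_bd J ha v).2]))).le
        rw [abs_mul, abs_of_nonneg (ha y).1]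
        calc _ ≤ a y * 1 := mul_le_mul_of_nonneg_left (abs_Mf_le hw y h1) (ha y).1
          _ ≤ 1 / 2 := by linarith [(ha y).2]
      rw [lintegral_Qf hk (fun q => G (Function.update (Zrd W w r t (rst J a) u) y (a y * q)))]
    rw [step1, ih hJW' hinj' G1 hG1m]
    have hF : Measurable (fun η : E → unitInterval =>
        ENNReal.ofReal (Df W w r (zz (rst (insert y J) a) η)) * G (zz (rst (insert y J) a) η)) := by
      have hzm : Measurable (fun η : E → unitInterval => zz (rst (insert y J) a) η) :=
        measurable_zz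
      exact (ENNReal.measurable_ofReal.comp ((measurable_Df' r).comp hzm)).mul (hG.comp hzm)
    rw [lintegral_Pc y hF]
    apply lintegral_congr
    intro η
    have hz : ∀ v ∈ W, |zz (rst J a) η v| < 1 := fun v _ =>
      lt_of_le_of_lt (abs_zz_le (fun v => (rst_bd J ha v).1) η v)
        (by linarith [(rst_bd J ha v).2])
    have hzy : zz (rst J a) η y = 0 := by
      unfold zz rst; rw [if_neg hyJ, zero_mul]
    have hmeas : Measurable (fun x : unitInterval =>
        ENNReal.ofReal (1 + a y * Mf W w y (oplf r (zz (rst J a) η)) * (2 * (x:ℝ) - 1)) *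
        G (Function.update (zz (rst J a) η) y (a y * (2 * (x:ℝ) - 1)))) := by
      apply Measurable.mul
      · apply ENNReal.measurable_ofReal.comp
        exact measurable_const.add ((((measurable_subtype_coe).const_mul 2).sub_const 1).const_mul _)
      · exact (hG.comp hup).comp (measurable_const.prodMk measurable_id)
    have e1 : G1 (zz (rst J a) η) = ∫⁻ x : unitInterval,
        ENNReal.ofReal (1 + a y * Mf W w y (oplf r (zz (rst J a) η)) * (2 * (x:ℝ) - 1)) *
        G (Function.update (zz (rst J a) η) y (a y * (2 * (x:ℝ) - 1))) := rfl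
    rw [e1, ← lintegral_const_mul _ hmeas]
    apply lintegral_congr
    intro x
    rw [zz_insert hyJ]
    have hx : |a y * (2 * (x:ℝ) - 1)| < 1 := by
      have h1 := x.2.1
      have h2 := x.2.2
      have : |2 * (x : ℝ) - 1| ≤ 1 := by rw [abs_le]; constructor <;> linarith
      rw [abs_mul, abs_of_nonneg (ha y).1]
      calc _ ≤ a y * 1 := mul_le_mul_of_nonneg_left this (ha y).1
        _ < 1 := by linarith [(ha y).2]
    rw [Df_update hw hr hz hyW hzy hx, ← mul_assoc,
      ← ENNReal.ofReal_mul (Df_nonneg hw hr hz)]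
    congr 3
    ring

/-- the evidence at time `s`: only the vertices with time `< s` have strength -/
theorem stt_Zrd_eq (s : ℝ) (u : E → unitInterval) :
    stt r t (Zrd W w r t a u) s =
      oplf r (Zrd W w r t (rst (W.filter (fun v => t v < s)) a) u) := by
  have key : Zrd W w r t (rst (W.filter (fun v => t v < s)) a) u =
      fun v => if v ∈ W.filter (fun v => t v < s) then Zrd W w r t a u v else 0 := by
    symm
    apply Zrd_unique
    funext v
    by_cases hvW : v ∈ W
    swap
    · unfold stepZ
      rw [if_neg hvW, if_neg (fun h => hvW (Finset.mem_filter.1 h).1)]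
    by_cases hvs : t v < s
    · have hm : v ∈ W.filter (fun v => t v < s) := Finset.mem_filter.2 ⟨hvW, hvs⟩
      rw [if_pos hm, Zrd_eq hvW]
      unfold stepZ rst
      rw [if_pos hvW, if_pos hm]
      congr 3
      apply Mf_congr
      intro v' hv'
      unfold stt
      by_cases h1 : t v' < t v
      · have hm' : v' ∈ W.filter (fun v => t v < s) := Finset.mem_filter.2 ⟨hv', h1.trans hvs⟩
        rw [if_pos h1, if_pos h1]
        beta_reduce
        rw [if_pos hm']
      · rw [if_neg h1, if_neg h1]
    · have hm : v ∉ W.filter (fun v => t v < s) := fun h => hvs (Finset.mem_filter.1 h).2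
      rw [if_neg hm]
      unfold stepZ rst
      rw [if_pos hvW, if_neg hm, zero_mul]
  rw [key]
  funext v
  unfold stt oplf
  beta_reduce
  by_cases hvs : t v < s
  · rw [if_pos hvs]
    by_cases hvW : v ∈ W
    · have hm : v ∈ W.filter (fun v => t v < s) := Finset.mem_filter.2 ⟨hvW, hvs⟩
      rw [if_pos hm]
    · have hm : v ∉ W.filter (fun v => t v < s) := fun h => hvW (Finset.mem_filter.1 h).1
      rw [if_neg hm, Zrd_of_notMem hvW]
  · have hm : v ∉ W.filter (fun v => t v < s) := fun h => hvs (Finset.mem_filter.1 h).2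
    rw [if_neg hvs, if_neg hm, opl_zero]

/-- one round, fixed times: exactness at time `s` -/
theorem round_exact (hw : Pos W w) (hr : ∀ v ∈ W, |r v| < 1) (ha : ∀ v, 0 ≤ a v ∧ a v ≤ 1 / 2)
    (ht : Set.InjOn t W) (s : ℝ) {F : (E → ℝ) → ENNReal} (hF : Measurable F) :
    ∫⁻ u, F (stt r t (Zrd W w r t a u) s) ∂(Pc E) =
      ∫⁻ η, ENNReal.ofReal (Df W w r (zz (rst (W.filter (fun v => t v < s)) a) η)) *
        F (oplf r (zz (rst (W.filter (fun v => t v < s)) a) η)) ∂(Pc E) := by
  simp only [stt_Zrd_eq s]
  exact round_aux hw hr ha (W.filter (fun v => t v < s)) (Finset.filter_subset _ _)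
    (ht.mono (Finset.coe_subset.2 (Finset.filter_subset _ _))) (fun z => F (oplf r z))
    (hF.comp (measurable_oplf' r))

end Round

section Laws

theorem measurable_sS (k : ℕ) (s : ℝ) :
    Measurable (fun q : unitInterval × unitInterval => sS k s q.1 q.2) := by
  unfold sS
  have h1 : Measurable (fun q : unitInterval × unitInterval => 2 * (q.1 : ℝ)) :=
    (measurable_subtype_coe.comp measurable_fst).const_mul 2
  have h2 : Measurable (fun q : unitInterval × unitInterval => 2 * (q.2 : ℝ) - 1) :=
    ((measurable_subtype_coe.comp measurable_snd).const_mul 2).sub_const 1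
  exact Measurable.ite (measurableSet_lt h1 measurable_const) (((measurable_str k).comp h1).mul h2)
    measurable_const

theorem abs_sS_le (k : ℕ) (s : ℝ) (θ u : unitInterval) : |sS k s θ u| ≤ a0 := by
  unfold sS
  split_ifs
  · have h1 := u.2.1
    have h2 := u.2.2
    have : |2 * (u : ℝ) - 1| ≤ 1 := by rw [abs_le]; constructor <;> linarith
    rw [abs_mul, abs_of_nonneg (str_nonneg k _)]
    calc _ ≤ str k (2 * θ) * 1 := mul_le_mul_of_nonneg_left this (str_nonneg k _)
      _ ≤ a0 := by rw [mul_one]; exact str_le k _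
  · rw [abs_zero]; unfold a0; norm_num

/-- base space of one vertex -/
noncomputable def bet (ν : Measure ℝ) : Measure (ℝ × (unitInterval × unitInterval)) :=
  ν.prod ((volume : Measure unitInterval).prod (volume : Measure unitInterval))

instance (ν : Measure ℝ) [IsProbabilityMeasure ν] : IsProbabilityMeasure (bet ν) := by
  unfold bet; infer_instance

/-- density of one vertex -/
noncomputable def fd (k : ℕ) (s : ℝ) (b : ℝ × (unitInterval × unitInterval)) : ENNReal :=
  ENNReal.ofReal (1 + b.1 * sS k s b.2.1 b.2.2)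

/-- new evidence of one vertex -/
noncomputable def fg (k : ℕ) (s : ℝ) (b : ℝ × (unitInterval × unitInterval)) : ℝ :=
  opl b.1 (sS k s b.2.1 b.2.2)

theorem measurable_fd (k : ℕ) (s : ℝ) : Measurable (fd k s) := by
  unfold fd
  apply ENNReal.measurable_ofReal.comp
  exact measurable_const.add (measurable_fst.mul ((measurable_sS k s).comp measurable_snd))

theorem measurable_fg (k : ℕ) (s : ℝ) : Measurable (fg k s) := by
  unfold fg
  exact measurable_opl.comp (measurable_fst.prodMk ((measurable_sS k s).comp measurable_snd))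

theorem nuStep_eq (ν : Measure ℝ) (k : ℕ) (s : ℝ) :
    nuStep ν k s = ((bet ν).withDensity (fd k s)).map (fg k s) := rfl

theorem lintegral_nuStep (ν : Measure ℝ) (k : ℕ) (s : ℝ) {H : ℝ → ENNReal} (hH : Measurable H) :
    ∫⁻ x, H x ∂(nuStep ν k s) = ∫⁻ b, fd k s b * H (fg k s b) ∂(bet ν) := by
  rw [nuStep_eq, lintegral_map hH (measurable_fg k s)]
  exact lintegral_withDensity_eq_lintegral_mul _ (measurable_fd k s)
    (hH.comp (measurable_fg k s))

theorem lintegral_one_add {κ : ℝ} (hκ : |κ| ≤ 1 / 2) :
    ∫⁻ u : unitInterval, ENNReal.ofReal (1 + κ * (2 * (u:ℝ) - 1)) = 1 := by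
  have h := lintegral_Qf hκ (fun _ => (1 : ENNReal))
  simp only [mul_one] at h
  rw [← h]
  simp

theorem isProb_nuStep (ν : Measure ℝ) [IsProbabilityMeasure ν] (hν : ∀ᵐ x ∂ν, |x| ≤ 1) (k : ℕ)
    (s : ℝ) : IsProbabilityMeasure (nuStep ν k s) := by
  constructor
  rw [← lintegral_one, lintegral_nuStep ν k s measurable_const]
  simp only [mul_one]
  unfold bet
  rw [lintegral_prod _ (measurable_fd k s).aemeasurable]
  have : ∀ᵐ x ∂ν, ∫⁻ q : unitInterval × unitInterval, fd k s (x, q)
      ∂((volume : Measure unitInterval).prod (volume : Measure unitInterval)) = 1 := by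
    filter_upwards [hν] with x hx
    have hmx : Measurable (fun q : unitInterval × unitInterval => fd k s (x, q)) :=
      (measurable_fd k s).comp (measurable_const.prodMk measurable_id)
    rw [lintegral_prod _ hmx.aemeasurable]
    have h1 : ∀ θ : unitInterval, ∫⁻ u : unitInterval, fd k s (x, (θ, u)) = 1 := by
      intro θ
      unfold fd sS
      simp only
      by_cases h : 2 * (θ : ℝ) < s
      · simp only [h, if_true]
        have hk : |x * str k (2 * θ)| ≤ 1 / 2 := by
          rw [abs_mul, abs_of_nonneg (str_nonneg k _)]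
          calc |x| * str k (2 * θ) ≤ 1 * str k (2 * θ) :=
                mul_le_mul_of_nonneg_right hx (str_nonneg k _)
            _ ≤ 1 / 2 := by rw [one_mul]; exact (str_bd k _).2
        rw [← lintegral_one_add hk]
        apply lintegral_congr
        intro u
        congr 1
        ring
      · simp only [h, if_false, mul_zero, add_zero, ENNReal.ofReal_one]
        simp
    simp only [h1]
    simp
  rw [lintegral_congr_ae this]
  simp

theorem ae_nuStep {ν : Measure ℝ} {ρ : ℝ} (hν : ∀ᵐ x ∂ν, |x| ≤ ρ) (hρ : ρ < 1) (k : ℕ) (s : ℝ) :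
    ∀ᵐ x ∂(nuStep ν k s), |x| ≤ opl ρ a0 := by
  have hset : MeasurableSet {x : ℝ | |x| ≤ opl ρ a0} := measurableSet_le measurable_norm measurable_const
  rw [nuStep_eq, ae_map_iff (measurable_fg k s).aemeasurable hset]
  apply (withDensity_absolutelyContinuous (bet ν) (fd k s)).ae_le
  have h1 : ∀ᵐ b ∂(bet ν), |b.1| ≤ ρ := by
    unfold bet
    exact Measure.quasiMeasurePreserving_fst.ae hν
  filter_upwards [h1] with b hb
  exact abs_opl_le hb (abs_sS_le k s _ _) hρ a0_lt_one

theorem nuR_props : ∀ k : ℕ, IsProbabilityMeasure (nuR k) ∧ ∀ᵐ x ∂(nuR k), |x| ≤ rho k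
  | 0 => by
    refine ⟨by unfold nuR; infer_instance, ?_⟩
    unfold nuR rho
    have hm : MeasurableSet {x : ℝ | |x| ≤ 0} := measurableSet_le measurable_norm measurable_const
    rw [ae_dirac_iff hm]
    simp
  | k + 1 => by
    have ih := nuR_props k
    have := ih.1
    refine ⟨?_, ?_⟩
    · show IsProbabilityMeasure (nuStep (nuR k) k 3)
      exact isProb_nuStep _ (ih.2.mono fun x hx => hx.trans (rho_bd k).2.le) k 3
    · show ∀ᵐ x ∂(nuStep (nuR k) k 3), |x| ≤ opl (rho k) a0
      exact ae_nuStep ih.2 (rho_bd k).2 k 3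

instance (k : ℕ) : IsProbabilityMeasure (nuR k) := (nuR_props k).1

theorem ae_nuR (k : ℕ) : ∀ᵐ x ∂(nuR k), |x| ≤ rho k := (nuR_props k).2

instance (k : ℕ) (s : ℝ) : IsProbabilityMeasure (nuS k s) :=
  isProb_nuStep _ ((ae_nuR k).mono fun _ hx => hx.trans (rho_bd k).2.le) k s

theorem ae_nuS (k : ℕ) (s : ℝ) : ∀ᵐ x ∂(nuS k s), |x| ≤ rho (k + 1) :=
  ae_nuStep (ae_nuR k) (rho_bd k).2 k s

end Laws

section Image

variable {E : Type*} (ν : Measure ℝ) [IsProbabilityMeasure ν] (k : ℕ) (s : ℝ)

/-- vertexwise image: the product of the single vertex updates -/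
theorem image_aux (hν : ∀ᵐ x ∂ν, |x| ≤ 1) (J : Finset E) :
    ∀ H : (E → ℝ) → ENNReal, Measurable H →
    ∫⁻ b : E → ℝ × (unitInterval × unitInterval), (∏ v ∈ J, fd k s (b v)) *
        H (fun v => if v ∈ J then fg k s (b v) else 0) ∂(Measure.infinitePi fun _ : E => bet ν) =
      ∫⁻ x, H (fun v => if v ∈ J then x v else 0) ∂(Nm E (nuStep ν k s)) := by
  have := isProb_nuStep ν hν k s
  have hJ1 : ∀ J : Finset E, Measurable (fun b : E → ℝ × (unitInterval × unitInterval) =>
      (fun v => if v ∈ J then fg k s (b v) else 0 : E → ℝ)) := by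
    intro J
    rw [measurable_pi_iff]
    intro v
    by_cases hv : v ∈ J
    · simp only [hv, if_true]
      exact (measurable_fg k s).comp (measurable_pi_apply v)
    · simp only [hv, if_false]
      exact measurable_const
  have hJ2 : ∀ J : Finset E, Measurable (fun x : E → ℝ =>
      (fun v => if v ∈ J then x v else 0 : E → ℝ)) := by
    intro J
    rw [measurable_pi_iff]
    intro v
    by_cases hv : v ∈ J
    · simp only [hv, if_true]
      exact measurable_pi_apply v
    · simp only [hv, if_false]
      exact measurable_const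
  have hJ3 : ∀ J : Finset E, Measurable (fun b : E → ℝ × (unitInterval × unitInterval) =>
      ∏ v ∈ J, fd k s (b v)) := fun J =>
    Finset.measurable_prod J fun v _ => (measurable_fd k s).comp (measurable_pi_apply v)
  induction J using Finset.induction_on with
  | empty =>
    intro H hH
    have : IsProbabilityMeasure (Nm E (nuStep ν k s)) := by unfold Nm; infer_instance
    simp
  | insert y J hy ih =>
    intro H hH
    have hupd : Measurable (fun q : (E → ℝ) × ℝ => H (Function.update q.1 y q.2)) :=
      hH.comp (measurable_upd (X := fun _ : E => ℝ) y)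
    have hm1 : Measurable (fun b : E → ℝ × (unitInterval × unitInterval) =>
        (∏ v ∈ insert y J, fd k s (b v)) *
        H (fun v => if v ∈ insert y J then fg k s (b v) else 0)) :=
      (hJ3 (insert y J)).mul (hH.comp (hJ1 (insert y J)))
    have hm2 : Measurable (fun x : E → ℝ => H (fun v => if v ∈ insert y J then x v else 0)) :=
      hH.comp (hJ2 (insert y J))
    have hH1 : Measurable (fun z : E → ℝ => ∫⁻ x', H (Function.update z y x') ∂(nuStep ν k s)) :=
      Measurable.lintegral_prod_right' hupd
    rw [lintegral_upd (fun _ : E => bet ν) y hm1]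
    have e1 : ∀ (b : E → ℝ × (unitInterval × unitInterval)) (b' : ℝ × (unitInterval × unitInterval)),
        (∏ v ∈ insert y J, fd k s (Function.update b y b' v)) *
        H (fun v => if v ∈ insert y J then fg k s (Function.update b y b' v) else 0) =
        (∏ v ∈ J, fd k s (b v)) * (fd k s b' *
          H (Function.update (fun v => if v ∈ J then fg k s (b v) else 0) y (fg k s b'))) := by
      intro b b'
      have e2 : ∏ v ∈ insert y J, fd k s (Function.update b y b' v) =
          fd k s b' * ∏ v ∈ J, fd k s (b v) := by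
        rw [Finset.prod_insert hy, Function.update_self]
        congr 1
        refine Finset.prod_congr rfl fun v hv => ?_
        have hvy : v ≠ y := by
          rintro rfl
          exact hy hv
        rw [Function.update_of_ne hvy]
      have e3 : (fun v => if v ∈ insert y J then fg k s (Function.update b y b' v) else 0) =
          Function.update (fun v => if v ∈ J then fg k s (b v) else 0) y (fg k s b') := by
        funext v
        by_cases hvy : v = y
        · subst hvy
          rw [Function.update_self, Function.update_self, if_pos (Finset.mem_insert_self _ _)]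
        · rw [Function.update_of_ne hvy, Function.update_of_ne hvy]
          simp [Finset.mem_insert, hvy]
      rw [e2, e3]
      ring
    simp only [e1]
    have e4 : ∀ b : E → ℝ × (unitInterval × unitInterval),
        ∫⁻ b', (∏ v ∈ J, fd k s (b v)) * (fd k s b' *
          H (Function.update (fun v => if v ∈ J then fg k s (b v) else 0) y (fg k s b'))) ∂(bet ν) =
        (∏ v ∈ J, fd k s (b v)) *
          ∫⁻ x', H (Function.update (fun v => if v ∈ J then fg k s (b v) else 0) y x')
            ∂(nuStep ν k s) := by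
      intro b
      have hm3 : Measurable (fun x' : ℝ =>
          H (Function.update (fun v => if v ∈ J then fg k s (b v) else 0) y x')) :=
        hupd.comp (measurable_const.prodMk measurable_id)
      rw [lintegral_nuStep ν k s hm3, lintegral_const_mul]
      exact (measurable_fd k s).mul (hm3.comp (measurable_fg k s))
    simp only [e4]
    rw [ih (fun z => ∫⁻ x', H (Function.update z y x') ∂(nuStep ν k s)) hH1]
    unfold Nm
    rw [lintegral_upd (fun _ : E => nuStep ν k s) y hm2]
    apply lintegral_congr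
    intro x
    apply lintegral_congr
    intro x'
    congr 1
    funext v
    by_cases hvy : v = y
    · subst hvy
      rw [Function.update_self, Function.update_self, if_pos (Finset.mem_insert_self _ _)]
    · rw [Function.update_of_ne hvy, Function.update_of_ne hvy]
      simp [Finset.mem_insert, hvy]

end Image

section Main

variable {E : Type*} {W : Finset E} {w : Finset E → ℝ}

theorem Rst_col : ∀ (k : ℕ) {j : ℕ}, 2 * k ≤ j → ∀ (ω : E → ℕ → unitInterval)
    (η : E → unitInterval), Rst W w k (col ω j η) = Rst W w k ω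
  | 0, _, _, _, _ => rfl
  | k + 1, j, hj, ω, η => by
    have ih := Rst_col k (j := j) (by omega) ω η
    have h1 : tm k (col ω j η) = tm k ω := by
      funext v
      unfold tm col
      rw [if_neg (by omega)]
    have h2 : ns k (col ω j η) = ns k ω := by
      funext v
      unfold ns col
      rw [if_neg (by omega)]
    simp only [Rst]
    rw [ih, h1, h2]

theorem ae_injOn (k : ℕ) (W : Finset E) : ∀ᵐ ω ∂(Pm E), Set.InjOn (tm k ω) (W : Set E) := by
  have h1 : ∀ v ∈ W, ∀ v' ∈ W, v ≠ v' → ∀ᵐ ω ∂(Pm E), tm k ω v ≠ tm k ω v' := by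
    intro v _ v' _ hne
    have hmv : Measurable (fun ω : E → ℕ → unitInterval => ω v (2 * k)) :=
      (measurable_pi_apply (2 * k)).comp (measurable_pi_apply v)
    have hmv' : Measurable (fun ω : E → ℕ → unitInterval => ω v' (2 * k)) :=
      (measurable_pi_apply (2 * k)).comp (measurable_pi_apply v')
    have hset : MeasurableSet {ω : E → ℕ → unitInterval | ω v (2 * k) = ω v' (2 * k)} :=
      measurableSet_eq_fun hmv hmv'
    have hz : (Pm E) {ω : E → ℕ → unitInterval | ω v (2 * k) = ω v' (2 * k)} = 0 := by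
      rw [← lintegral_indicator_one hset, lintegral_upl v (2 * k) (measurable_one.indicator hset)]
      have : ∀ ω : E → ℕ → unitInterval, ∫⁻ x, {ω : E → ℕ → unitInterval |
          ω v (2 * k) = ω v' (2 * k)}.indicator (1 : (E → ℕ → unitInterval) → ENNReal)
            (upl ω v (2 * k) x) = 0 := by
        intro ω
        have h2 : ∀ x : unitInterval, {ω : E → ℕ → unitInterval |
          ω v (2 * k) = ω v' (2 * k)}.indicator (1 : (E → ℕ → unitInterval) → ENNReal)
            (upl ω v (2 * k) x) = ({ω v' (2 * k)} : Set unitInterval).indicator 1 x := by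
          intro x
          simp only [Set.indicator, Set.mem_ofPred_eq, upl_self, Set.mem_singleton_iff]
          rw [upl_of_ne ω x (fun h => hne h.1.symm)]
          rfl
        simp only [h2]
        rw [lintegral_indicator_one (measurableSet_singleton _)]
        simp
      simp only [this]
      simp
    rw [ae_iff]
    refine measure_mono_null (fun ω hω => ?_) hz
    simp only [ne_eq, not_not, Set.mem_ofPred_eq] at hω ⊢
    unfold tm at hω
    have : (ω v (2 * k) : ℝ) = ω v' (2 * k) := by linarith
    exact Subtype.ext this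
  have h2 : ∀ᵐ ω ∂(Pm E), ∀ v ∈ W, ∀ v' ∈ W, v ≠ v' → tm k ω v ≠ tm k ω v' := by
    rw [Finset.eventually_all]
    intro v hv
    rw [Finset.eventually_all]
    intro v' hv'
    by_cases hne : v = v'
    · exact Eventually.of_forall fun ω h => absurd hne h
    · filter_upwards [h1 v hv v' hv' hne] with ω hω _ using hω
  filter_upwards [h2] with ω hω
  intro v hv v' hv' h
  by_contra hne
  exact hω v hv v' hv' hne h

/-- reference outcomes of one round -/
noncomputable def zf (W : Finset E) (k : ℕ) (s : ℝ) (θ η : E → unitInterval) : E → ℝ :=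
  fun v => if v ∈ W then sS k s (θ v) (η v) else 0

theorem measurable_zf (W : Finset E) (k : ℕ) (s : ℝ) :
    Measurable (fun q : (E → unitInterval) × (E → unitInterval) => zf W k s q.1 q.2) := by
  rw [measurable_pi_iff]
  intro v
  unfold zf
  by_cases hv : v ∈ W
  · simp only [hv, if_true]
    have h1 : Measurable (fun q : (E → unitInterval) × (E → unitInterval) => q.1 v) :=
      (measurable_pi_apply v).comp measurable_fst
    have h2 : Measurable (fun q : (E → unitInterval) × (E → unitInterval) => q.2 v) :=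
      (measurable_pi_apply v).comp measurable_snd
    exact (measurable_sS k s).comp (h1.prodMk h2)
  · simp only [hv, if_false]
    exact measurable_const

theorem abs_zf_lt (W : Finset E) (k : ℕ) (s : ℝ) (θ η : E → unitInterval) (v : E) :
    |zf W k s θ η v| < 1 := by
  unfold zf
  split_ifs
  · exact lt_of_le_of_lt (abs_sS_le k s _ _) a0_lt_one
  · simp

/-- conditional expectation of a functional of the next state -/
noncomputable def Psi (W : Finset E) (w : Finset E → ℝ) (k : ℕ) (s : ℝ) (F : (E → ℝ) → ENNReal)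
    (r : E → ℝ) (θ : E → unitInterval) : ENNReal :=
  ∫⁻ η, ENNReal.ofReal (Df W w r (zf W k s θ η)) * F (oplf r (zf W k s θ η)) ∂(Pc E)

theorem measurable_Psi (k : ℕ) (s : ℝ) {F : (E → ℝ) → ENNReal} (hF : Measurable F) :
    Measurable (fun q : (E → ℝ) × (E → unitInterval) => Psi W w k s F q.1 q.2) := by
  unfold Psi
  apply Measurable.lintegral_prod_right' (f := fun q :
    ((E → ℝ) × (E → unitInterval)) × (E → unitInterval) =>
      ENNReal.ofReal (Df W w q.1.1 (zf W k s q.1.2 q.2)) *
      F (oplf q.1.1 (zf W k s q.1.2 q.2)))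
  have h1 : Measurable (fun q : ((E → ℝ) × (E → unitInterval)) ×
      (E → unitInterval) => q.1.1) := measurable_fst.comp measurable_fst
  have h2 : Measurable (fun q : ((E → ℝ) × (E → unitInterval)) ×
      (E → unitInterval) => zf W k s q.1.2 q.2) :=
    (measurable_zf W k s).comp ((measurable_snd.comp measurable_fst).prodMk measurable_snd)
  exact (ENNReal.measurable_ofReal.comp (measurable_Df.comp (h1.prodMk h2))).mul
    (hF.comp (measurable_oplf.comp (h1.prodMk h2)))

theorem measurable_Psi_comp {Ω : Type*} [MeasurableSpace Ω] (W : Finset E) (w : Finset E → ℝ)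
    (k : ℕ) (s : ℝ) {F : (E → ℝ) → ENNReal} (hF : Measurable F) {f : Ω → E → ℝ}
    {g : Ω → E → unitInterval} (hf : Measurable f) (hg : Measurable g) :
    Measurable (fun ω => Psi W w k s F (f ω) (g ω)) :=
  (measurable_Psi (W := W) (w := w) k s hF).comp (f := fun ω => (f ω, g ω)) (hf.prodMk hg)

/-- label column -/
def lab (j : ℕ) (ω : E → ℕ → unitInterval) : E → unitInterval := fun v => ω v j

theorem measurable_lab (j : ℕ) : Measurable (lab (E := E) j) := by
  rw [measurable_pi_iff]
  intro v
  exact (measurable_pi_apply j).comp (measurable_pi_apply v)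

theorem round_Pm (hw : Pos W w) (k : ℕ) (s : ℝ) {F : (E → ℝ) → ENNReal} (hF : Measurable F)
    {ω : E → ℕ → unitInterval} (hω : Set.InjOn (tm k ω) (W : Set E)) :
    ∫⁻ η, F (Xst W w k s (col ω (2 * k + 1) η)) ∂(Pc E) =
      Psi W w k s F (Rst W w k ω) (lab (2 * k) ω) := by
  have e1 : ∀ η, Xst W w k s (col ω (2 * k + 1) η) =
      stt (Rst W w k ω) (tm k ω) (Zrd W w (Rst W w k ω) (tm k ω)
        (fun v => str k (tm k ω v)) η) s := by
    intro η
    have h1 : tm k (col ω (2 * k + 1) η) = tm k ω := by
      funext v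
      unfold tm col
      rw [if_neg (by omega)]
    have h2 : ns k (col ω (2 * k + 1) η) = η := by
      funext v
      unfold ns col
      rw [if_pos rfl]
    unfold Xst Zst
    rw [Rst_col k (by omega), h1, h2]
  simp only [e1]
  rw [round_exact hw (fun v _ => abs_Rst_lt hw k ω v) (fun v => str_bd k _) hω s hF]
  unfold Psi
  apply lintegral_congr
  intro η
  have e2 : zz (rst (W.filter (fun v => tm k ω v < s)) (fun v => str k (tm k ω v))) η =
      zf W k s (lab (2 * k) ω) η := by
    funext v
    unfold zz rst zf sS lab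
    have e3 : tm k ω v = 2 * (ω v (2 * k) : ℝ) := rfl
    by_cases hv : v ∈ W
    · by_cases hs : tm k ω v < s
      · have hm : v ∈ W.filter (fun v => tm k ω v < s) := Finset.mem_filter.2 ⟨hv, hs⟩
        rw [if_pos hm, if_pos hv, if_pos (by rwa [← e3]), ← e3]
      · have hm : v ∉ W.filter (fun v => tm k ω v < s) := fun h => hs (Finset.mem_filter.1 h).2
        rw [if_neg hm, if_pos hv, if_neg (by rwa [← e3]), zero_mul]
    · have hm : v ∉ W.filter (fun v => tm k ω v < s) := fun h => hv (Finset.mem_filter.1 h).1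
      rw [if_neg hm, if_neg hv, zero_mul]
  rw [e2]

/-- one-round formula on `Pm` -/
theorem law_step (hw : Pos W w) (k : ℕ) (s : ℝ) {F : (E → ℝ) → ENNReal} (hF : Measurable F) :
    ∫⁻ ω, F (Xst W w k s ω) ∂(Pm E) =
      ∫⁻ ω, (∫⁻ θ, Psi W w k s F (Rst W w k ω) θ ∂(Pc E)) ∂(Pm E) := by
  rw [lintegral_col (2 * k + 1) (f := fun ω => F (Xst W w k s ω)) (hF.comp (measurable_Xst k s))]
  have step1 : ∫⁻ ω, (∫⁻ η, F (Xst W w k s (col ω (2 * k + 1) η)) ∂(Pc E)) ∂(Pm E) =
      ∫⁻ ω, Psi W w k s F (Rst W w k ω) (lab (2 * k) ω) ∂(Pm E) := by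
    apply lintegral_congr_ae
    filter_upwards [ae_injOn k W] with ω hω
    exact round_Pm hw k s hF hω
  rw [step1]
  have hm : Measurable (fun ω : E → ℕ → unitInterval =>
      Psi W w k s F (Rst W w k ω) (lab (2 * k) ω)) :=
    measurable_Psi_comp W w k s hF (measurable_Rst k) (measurable_lab (2 * k))
  rw [lintegral_col (2 * k) hm]
  apply lintegral_congr
  intro ω
  apply lintegral_congr
  intro θ
  have e4 : lab (2 * k) (col ω (2 * k) θ) = θ := by
    funext v
    unfold lab col
    rw [if_pos rfl]
  rw [e4, Rst_col k le_rfl]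

theorem cut_eq {F : (E → ℝ) → ENNReal} (hd : DependsOn F (W : Set E)) (x : E → ℝ) :
    F (fun v => if v ∈ W then x v else 0) = F x := by
  apply hd
  intro v hv
  have : v ∈ W := Finset.mem_coe.1 hv
  simp [this]

/-- integrand on the base space -/
noncomputable def Gam (W : Finset E) (w : Finset E → ℝ) (k : ℕ) (s : ℝ) (F : (E → ℝ) → ENNReal)
    (b : E → ℝ × (unitInterval × unitInterval)) : ENNReal :=
  (∏ v ∈ W, fd k s (b v)) *
    (F (fun v => if v ∈ W then fg k s (b v) else 0) *
      ENNReal.ofReal (Lf W w (fun v => if v ∈ W then fg k s (b v) else 0)))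

theorem measurable_Gam (k : ℕ) (s : ℝ) {F : (E → ℝ) → ENNReal} (hF : Measurable F) :
    Measurable (Gam W w k s F) := by
  unfold Gam
  have h1 : Measurable (fun b : E → ℝ × (unitInterval × unitInterval) =>
      (fun v => if v ∈ W then fg k s (b v) else 0 : E → ℝ)) := by
    rw [measurable_pi_iff]
    intro v
    by_cases hv : v ∈ W
    · simp only [hv, if_true]
      exact (measurable_fg k s).comp (measurable_pi_apply v)
    · simp only [hv, if_false]
      exact measurable_const
  have h2 : Measurable (fun b : E → ℝ × (unitInterval × unitInterval) =>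
      ∏ v ∈ W, fd k s (b v)) :=
    Finset.measurable_prod W fun v _ => (measurable_fd k s).comp (measurable_pi_apply v)
  exact h2.mul ((hF.comp h1).mul (ENNReal.measurable_ofReal.comp ((measurable_Lf W w).comp h1)))

theorem Gam_eq (hw : Pos W w) (k : ℕ) (s : ℝ) {F : (E → ℝ) → ENNReal}
    (hd : DependsOn F (W : Set E)) {r : E → ℝ} (hr : ∀ v ∈ W, |r v| < 1)
    (θ η : E → unitInterval) :
    ENNReal.ofReal (Lf W w r) * (ENNReal.ofReal (Df W w r (zf W k s θ η)) *
      F (oplf r (zf W k s θ η))) = Gam W w k s F (fun v => (r v, (θ v, η v))) := by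
  have hL := Lf_pos hw hr
  have hz : ∀ v ∈ W, |zf W k s θ η v| < 1 := fun v _ => abs_zf_lt W k s θ η v
  have e2 : Lf W w r * Df W w r (zf W k s θ η) =
      Jpf W r (zf W k s θ η) * Lf W w (oplf r (zf W k s θ η)) := by
    unfold Df
    field_simp
  have e3 : ENNReal.ofReal (Jpf W r (zf W k s θ η)) = ∏ v ∈ W, fd k s (r v, (θ v, η v)) := by
    unfold Jpf
    rw [ENNReal.ofReal_prod_of_nonneg]
    · refine Finset.prod_congr rfl fun v hv => ?_
      unfold fd zf
      rw [if_pos hv]
    · intro v hv
      exact (one_add_mul_pos (hr v hv) (hz v hv).le).le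
  have e5 : ∀ v ∈ (W : Set E), (fun v => if v ∈ W then fg k s (r v, (θ v, η v)) else 0) v =
      oplf r (zf W k s θ η) v := by
    intro v hv
    have hv' : v ∈ W := Finset.mem_coe.1 hv
    unfold fg oplf zf
    simp only [hv', if_true]
  have e6 : F (fun v => if v ∈ W then fg k s (r v, (θ v, η v)) else 0) =
      F (oplf r (zf W k s θ η)) := hd e5
  have e7 : Lf W w (fun v => if v ∈ W then fg k s (r v, (θ v, η v)) else 0) =
      Lf W w (oplf r (zf W k s θ η)) := Lf_congr e5
  unfold Gam
  rw [e6, e7, ← e3, ← mul_assoc, ← ENNReal.ofReal_mul hL.le, e2,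
    ENNReal.ofReal_mul (Jpf_pos hr hz).le]
  ring

theorem ae_Nm_lt (k : ℕ) (W : Finset E) : ∀ᵐ r ∂(Nm E (nuR k)), ∀ v ∈ W, |r v| < 1 := by
  rw [Finset.eventually_all]
  intro v _
  have h1 : MeasurePreserving (Function.eval v) (Nm E (nuR k)) (nuR k) :=
    measurePreserving_eval_infinitePi (fun _ : E => nuR k) v
  have h2 := h1.quasiMeasurePreserving.ae (ae_nuR k)
  filter_upwards [h2] with r hr
  exact lt_of_le_of_lt hr (rho_bd k).2

theorem base_eq (hw : Pos W w) (k : ℕ) (s : ℝ) {F : (E → ℝ) → ENNReal} (hF : Measurable F)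
    (hd : DependsOn F (W : Set E)) :
    ∫⁻ r, (∫⁻ θ, Psi W w k s F r θ ∂(Pc E)) * ENNReal.ofReal (Lf W w r) ∂(Nm E (nuR k)) =
      ∫⁻ r, (∫⁻ θ, (∫⁻ η, Gam W w k s F (fun v => (r v, (θ v, η v))) ∂(Pc E)) ∂(Pc E))
        ∂(Nm E (nuR k)) := by
  apply lintegral_congr_ae
  filter_upwards [ae_Nm_lt k W] with r hr
  have m1 : ∀ θ : E → unitInterval, Measurable (fun η : E → unitInterval =>
      ENNReal.ofReal (Df W w r (zf W k s θ η)) * F (oplf r (zf W k s θ η))) := by
    intro θ
    have h2 : Measurable (fun η : E → unitInterval => zf W k s θ η) :=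
      (measurable_zf W k s).comp (f := fun η : E → unitInterval => (θ, η))
        (measurable_const.prodMk measurable_id)
    exact (ENNReal.measurable_ofReal.comp ((measurable_Df' r).comp h2)).mul
      (hF.comp ((measurable_oplf' r).comp h2))
  have m2 : Measurable (fun θ : E → unitInterval => Psi W w k s F r θ) :=
    measurable_Psi_comp W w k s hF (measurable_const (a := r)) measurable_id
  rw [mul_comm, ← lintegral_const_mul _ m2]
  apply lintegral_congr
  intro θ
  unfold Psi
  rw [← lintegral_const_mul _ (m1 θ)]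
  apply lintegral_congr
  intro η
  exact Gam_eq hw k s hd hr θ η

theorem zip_bet (k : ℕ) {Γ : (E → ℝ × (unitInterval × unitInterval)) → ENNReal}
    (hΓ : Measurable Γ) :
    ∫⁻ r, (∫⁻ θ, (∫⁻ η, Γ (fun v => (r v, (θ v, η v))) ∂(Pc E)) ∂(Pc E)) ∂(Nm E (nuR k)) =
      ∫⁻ b, Γ b ∂(Measure.infinitePi fun _ : E => bet (nuR k)) := by
  have h := lintegral_zip (fun _ : E => nuR k) (fun _ : E =>
    (volume : Measure unitInterval).prod (volume : Measure unitInterval)) hΓ
  unfold bet Nm
  rw [h]
  apply lintegral_congr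
  intro r
  have hm : Measurable (fun q : E → unitInterval × unitInterval => Γ (fun v => (r v, q v))) := by
    apply hΓ.comp
    rw [measurable_pi_iff]
    intro v
    exact measurable_const.prodMk (measurable_pi_apply v)
  exact (lintegral_zip (fun _ : E => (volume : Measure unitInterval))
    (fun _ : E => (volume : Measure unitInterval)) hm).symm

theorem measurable_cut (W : Finset E) : Measurable (fun x : E → ℝ =>
    (fun v => if v ∈ W then x v else 0 : E → ℝ)) := by
  rw [measurable_pi_iff]
  intro v
  by_cases hv : v ∈ W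
  · simp only [hv, if_true]
    exact measurable_pi_apply v
  · simp only [hv, if_false]
    exact measurable_const

theorem Psi_dep (k : ℕ) (s : ℝ) {F : (E → ℝ) → ENNReal}
    (hd : DependsOn F (W : Set E)) :
    DependsOn (fun r => ∫⁻ θ, Psi W w k s F r θ ∂(Pc E)) (W : Set E) := by
  intro r r' h
  have hopl : ∀ z : E → ℝ, ∀ v ∈ (W : Set E), oplf r z v = oplf r' z v := by
    intro z v hv
    unfold oplf
    rw [h v hv]
  apply lintegral_congr
  intro θ
  unfold Psi
  apply lintegral_congr
  intro η
  have e1 : F (oplf r (zf W k s θ η)) = F (oplf r' (zf W k s θ η)) := hd (hopl _)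
  have e2 : Df W w r (zf W k s θ η) = Df W w r' (zf W k s θ η) := by
    unfold Df Jpf
    rw [Lf_congr (hopl _), Lf_congr (r := r) (r' := r') h]
    congr 2
    exact Finset.prod_congr rfl fun v hv => by rw [h v hv]
  rw [e1, e2]

theorem law_of_Rst (hw : Pos W w) (k : ℕ) (s : ℝ)
    (hR : ∀ F : (E → ℝ) → ENNReal, Measurable F → DependsOn F (W : Set E) →
      ∫⁻ ω, F (Rst W w k ω) ∂(Pm E) =
        ∫⁻ r, F r * ENNReal.ofReal (Lf W w r) ∂(Nm E (nuR k)))
    (F : (E → ℝ) → ENNReal) (hF : Measurable F) (hd : DependsOn F (W : Set E)) :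
    ∫⁻ ω, F (Xst W w k s ω) ∂(Pm E) =
      ∫⁻ r, F r * ENNReal.ofReal (Lf W w r) ∂(Nm E (nuS k s)) := by
  have hHm : Measurable (fun r => ∫⁻ θ, Psi W w k s F r θ ∂(Pc E)) :=
    Measurable.lintegral_prod_right' (measurable_Psi (W := W) (w := w) k s hF)
  rw [law_step hw k s hF, hR _ hHm (Psi_dep k s hd), base_eq hw k s hF hd,
    zip_bet k (measurable_Gam k s hF)]
  have hsupp : ∀ᵐ x ∂(nuR k), |x| ≤ 1 := (ae_nuR k).mono fun x hx => hx.trans (rho_bd k).2.le
  have hKm : Measurable (fun x : E → ℝ => F x * ENNReal.ofReal (Lf W w x)) :=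
    hF.mul (ENNReal.measurable_ofReal.comp (measurable_Lf W w))
  have h := image_aux (nuR k) k s hsupp W _ hKm
  refine h.trans ?_
  unfold nuS
  apply lintegral_congr
  intro x
  have e1 : F (fun v => if v ∈ W then x v else 0) = F x := cut_eq hd x
  have e2 : Lf W w (fun v => if v ∈ W then x v else 0) = Lf W w x :=
    Lf_congr fun v hv => by simp [hv]
  rw [e1, e2]

/-- **exactness**: the law of the evidence field is the static law. -/
theorem law_Xst [Countable E] {W : Finset E} {w : Finset E → ℝ} (hw : Pos W w) (k : ℕ) (s : ℝ)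
    (F : (E → ℝ) → ENNReal) (hF : Measurable F) (hd : DependsOn F (W : Set E)) :
    ∫⁻ ω, F (Xst W w k s ω) ∂(Pm E) =
      ∫⁻ r, F r * ENNReal.ofReal (Lf W w r) ∂(Nm E (nuS k s)) := by
  have hR : ∀ k : ℕ, ∀ F : (E → ℝ) → ENNReal, Measurable F → DependsOn F (W : Set E) →
      ∫⁻ ω, F (Rst W w k ω) ∂(Pm E) =
        ∫⁻ r, F r * ENNReal.ofReal (Lf W w r) ∂(Nm E (nuR k)) := by
    intro k
    induction k with
    | zero =>
      intro F hF _
      have e1 : Nm E (nuR 0) = Measure.dirac (fun _ => (0:ℝ)) := by
        unfold Nm nuR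
        exact Measure.infinitePi_dirac (fun _ : E => (0:ℝ))
      have hm : Measurable (fun r : E → ℝ => F r * ENNReal.ofReal (Lf W w r)) :=
        hF.mul (ENNReal.measurable_ofReal.comp (measurable_Lf W w))
      rw [e1, lintegral_dirac' _ hm, Lf_zero hw]
      simp [Rst]
    | succ k ih =>
      intro F hF hd
      exact law_of_Rst hw k 3 ih F hF hd
  exact law_of_Rst hw k s (hR k) F hF hd

end Main

end Crest.Agent.H14
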