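import Mathlib
import Crest.Agent.H14.Defs
import Crest.Agent.H14.Rec

/-! Row 160 (Q5): properties of the single vertex laws `nuR`, `nuS`. -/

set_option autoImplicit false

open MeasureTheory Filter Topology

namespace Crest.Agent.H14

section Channel

theorem measurable_sSN (k : ℕ) (s : ℝ) :
    Measurable (fun q : unitInterval × unitInterval => sS k s q.1 q.2) := by
  unfold sS
  have h1 : Measurable (fun q : unitInterval × unitInterval => 2 * (q.1 : ℝ)) :=
    (measurable_subtype_coe.comp measurable_fst).const_mul 2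
  have h2 : Measurable (fun q : unitInterval × unitInterval => 2 * (q.2 : ℝ) - 1) :=
    ((measurable_subtype_coe.comp measurable_snd).const_mul 2).sub_const 1
  exact Measurable.ite (measurableSet_lt h1 measurable_const)
    (((measurable_str k).comp h1).mul h2) measurable_const

theorem abs_two_sub_le (u : unitInterval) : |2 * (u : ℝ) - 1| ≤ 1 := by
  have h1 := u.2.1
  have h2 := u.2.2
  rw [abs_le]; constructor <;> linarith

theorem abs_sS_le_str (k : ℕ) (s : ℝ) (θ u : unitInterval) :
    |sS k s θ u| ≤ str k (2 * θ) := by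
  unfold sS
  split_ifs
  · rw [abs_mul, abs_of_nonneg (str_nonneg k _)]
    exact mul_le_of_le_one_right (str_nonneg k _) (abs_two_sub_le u)
  · simpa using str_nonneg k _

theorem abs_sS_leN (k : ℕ) (s : ℝ) (θ u : unitInterval) : |sS k s θ u| ≤ 1 / 4 := by
  have h := (abs_sS_le_str k s θ u).trans (str_le k _)
  unfold a0 at h
  exact h

theorem sS_symm (k : ℕ) (s : ℝ) (θ u : unitInterval) :
    sS k s θ (unitInterval.symm u) = - sS k s θ u := by
  unfold sS
  split_ifs
  · rw [unitInterval.coe_symm_eq]; ring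
  · simp

theorem integral_symmI (G : unitInterval → ℝ) :
    ∫ u : unitInterval, G (unitInterval.symm u) = ∫ u : unitInterval, G u :=
  (unitInterval.measurePreserving_symm).integral_comp
    (unitInterval.symmMeasurableEquiv.measurableEmbedding) G

theorem lintegral_symmI (G : unitInterval → ENNReal) :
    ∫⁻ u : unitInterval, G (unitInterval.symm u) = ∫⁻ u : unitInterval, G u :=
  (unitInterval.measurePreserving_symm).lintegral_comp_emb
    (unitInterval.symmMeasurableEquiv.measurableEmbedding) G

theorem integral_sS (k : ℕ) (s : ℝ) (θ : unitInterval) : ∫ u : unitInterval, sS k s θ u = 0 := by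
  have h := integral_symmI (fun u => sS k s θ u)
  simp only [sS_symm, integral_neg] at h
  linarith

theorem integrable_sS (k : ℕ) (s : ℝ) (θ : unitInterval) :
    Integrable (fun u : unitInterval => sS k s θ u) := by
  apply Integrable.of_bound (C := 1/4)
  · exact ((measurable_sSN k s).comp (measurable_prodMk_left (x := θ))).aestronglyMeasurable
  · exact Eventually.of_forall fun u => by rw [Real.norm_eq_abs]; exact abs_sS_leN k s θ u

end Channel

section Step

variable {ν : Measure ℝ} {ρ : ℝ}

theorem measurable_oplS (k : ℕ) (s : ℝ) :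
    Measurable (fun q : ℝ × unitInterval × unitInterval => opl q.1 (sS k s q.2.1 q.2.2)) := by
  have h1 : Measurable (fun q : ℝ × unitInterval × unitInterval => sS k s q.2.1 q.2.2) :=
    (measurable_sSN k s).comp measurable_snd
  exact measurable_opl.comp (measurable_fst.prodMk h1)

theorem measurable_densS (k : ℕ) (s : ℝ) :
    Measurable (fun q : ℝ × unitInterval × unitInterval => 1 + q.1 * sS k s q.2.1 q.2.2) := by
  have h1 : Measurable (fun q : ℝ × unitInterval × unitInterval => sS k s q.2.1 q.2.2) :=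
    (measurable_sSN k s).comp measurable_snd
  exact (measurable_fst.mul h1).const_add 1

theorem lintegral_nuStepN (ν : Measure ℝ) (k : ℕ) (s : ℝ) {F : ℝ → ENNReal} (hF : Measurable F) :
    ∫⁻ x, F x ∂(nuStep ν k s) =
      ∫⁻ q : ℝ × unitInterval × unitInterval,
        ENNReal.ofReal (1 + q.1 * sS k s q.2.1 q.2.2) * F (opl q.1 (sS k s q.2.1 q.2.2))
        ∂(ν.prod ((volume : Measure unitInterval).prod (volume : Measure unitInterval))) := by
  unfold nuStep
  rw [lintegral_map hF (measurable_oplS k s)]
  exact lintegral_withDensity_eq_lintegral_mul _ (measurable_densS k s).ennreal_ofReal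
      (hF.comp (measurable_oplS k s))

theorem densS_pos (k : ℕ) (s : ℝ) {r : ℝ} (hr : |r| ≤ 1) (θ u : unitInterval) :
    3 / 4 ≤ 1 + r * sS k s θ u := by
  have h1 : |r * sS k s θ u| ≤ 1 * (1 / 4) := by
    rw [abs_mul]
    exact mul_le_mul hr (abs_sS_leN k s θ u) (abs_nonneg _) zero_le_one
  have := (abs_le.1 h1).1
  linarith

theorem ae_fst {ν : Measure ℝ} [IsProbabilityMeasure ν] {P : ℝ → Prop} (h : ∀ᵐ x ∂ν, P x) :
    ∀ᵐ q : ℝ × unitInterval × unitInterval
      ∂(ν.prod ((volume : Measure unitInterval).prod (volume : Measure unitInterval))), P q.1 :=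
  Measure.quasiMeasurePreserving_fst.ae h

theorem integral_nuStep (hν : Null ν ρ) (k : ℕ) (s : ℝ) {F : ℝ → ℝ} (hF : Measurable F) :
    ∫ x, F x ∂(nuStep ν k s) =
      ∫ q : ℝ × unitInterval × unitInterval,
        (1 + q.1 * sS k s q.2.1 q.2.2) * F (opl q.1 (sS k s q.2.1 q.2.2))
        ∂(ν.prod ((volume : Measure unitInterval).prod (volume : Measure unitInterval))) := by
  have := hν.prob
  unfold nuStep
  rw [integral_map (measurable_oplS k s).aemeasurable hF.aestronglyMeasurable,
    integral_withDensity_eq_integral_toReal_smul (measurable_densS k s).ennreal_ofReal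
      (Eventually.of_forall fun _ => ENNReal.ofReal_lt_top)]
  apply integral_congr_ae
  filter_upwards [ae_fst hν.supp] with q hq
  rw [ENNReal.toReal_ofReal, smul_eq_mul]
  have := densS_pos k s (hq.trans hν.lt.le) q.2.1 q.2.2
  linarith

theorem null_step (hν : Null ν ρ) (k : ℕ) (s : ℝ) :
    Null (nuStep ν k s) (opl (max ρ 0) (1 / 4)) := by
  have := hν.prob
  have hρ0 : 0 ≤ max ρ 0 := le_max_right _ _
  have hρ1 : max ρ 0 < 1 := max_lt hν.lt zero_lt_one
  refine ⟨?_, ?_, ?_, ?_⟩
  · constructor
    have h := lintegral_nuStepN ν k s (F := fun _ => 1) measurable_const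
    rw [lintegral_const, one_mul] at h
    rw [h, lintegral_prod _ (by
      exact ((measurable_densS k s).ennreal_ofReal.mul_const 1).aemeasurable)]
    have h2 : ∀ᵐ r ∂ν, ∫⁻ y : unitInterval × unitInterval, ENNReal.ofReal (1 + r * sS k s y.1 y.2) * 1
        ∂((volume : Measure unitInterval).prod (volume : Measure unitInterval)) = 1 := by
      filter_upwards [hν.supp] with r hr
      have hm : Measurable (fun y : unitInterval × unitInterval =>
          ENNReal.ofReal (1 + r * sS k s y.1 y.2) * 1) :=
        ((((measurable_sSN k s).const_mul r).const_add 1).ennreal_ofReal).mul_const 1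
      rw [lintegral_prod _ hm.aemeasurable]
      have h3 : ∀ θ : unitInterval, ∫⁻ u : unitInterval, ENNReal.ofReal (1 + r * sS k s θ u) * 1 = 1 := by
        intro θ
        simp only [mul_one]
        rw [← ofReal_integral_eq_lintegral_ofReal]
        · rw [integral_add (integrable_const _) ((integrable_sS k s θ).const_mul r),
            integral_const_mul, integral_sS]
          simp
        · exact (integrable_const _).add ((integrable_sS k s θ).const_mul r)
        · exact Eventually.of_forall fun u => by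
            have := densS_pos k s (hr.trans hν.lt.le) θ u
            show (0:ℝ) ≤ _
            linarith
      simp only [h3]
      simp
    rw [lintegral_congr_ae h2]
    simp
  · -- symmetry
    apply Measure.ext_of_lintegral
    intro F hF
    rw [lintegral_map hF measurable_neg,
      lintegral_nuStepN ν k s (F := fun x => F (-x)) (hF.comp measurable_neg),
      lintegral_nuStepN ν k s hF]
    have hm : Measurable (fun q : ℝ × unitInterval × unitInterval =>
        ENNReal.ofReal (1 + q.1 * sS k s q.2.1 q.2.2) * F (opl q.1 (sS k s q.2.1 q.2.2))) :=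
      (measurable_densS k s).ennreal_ofReal.mul (hF.comp (measurable_oplS k s))
    have hm' : Measurable (fun q : ℝ × unitInterval × unitInterval =>
        ENNReal.ofReal (1 + q.1 * sS k s q.2.1 q.2.2) * F (-(opl q.1 (sS k s q.2.1 q.2.2)))) :=
      (measurable_densS k s).ennreal_ofReal.mul (hF.comp ((measurable_oplS k s).neg))
    rw [lintegral_prod _ hm.aemeasurable, lintegral_prod _ hm'.aemeasurable]
    conv_rhs => rw [← hν.symm]
    rw [lintegral_map (Measurable.lintegral_prod_right' hm) measurable_neg]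
    apply lintegral_congr
    intro r
    have hmr : Measurable (fun y : unitInterval × unitInterval =>
        ENNReal.ofReal (1 + r * sS k s y.1 y.2) * F (-(opl r (sS k s y.1 y.2)))) :=
      hm'.comp (measurable_prodMk_left (x := r))
    have hmr' : Measurable (fun y : unitInterval × unitInterval =>
        ENNReal.ofReal (1 + -r * sS k s y.1 y.2) * F ((opl (-r) (sS k s y.1 y.2)))) :=
      hm.comp (measurable_prodMk_left (x := -r))
    rw [lintegral_prod _ hmr.aemeasurable, lintegral_prod _ hmr'.aemeasurable]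
    apply lintegral_congr
    intro θ
    rw [← lintegral_symmI (fun u => ENNReal.ofReal (1 + -r * sS k s θ u) * F (opl (-r) (sS k s θ u)))]
    apply lintegral_congr
    intro u
    simp only [sS_symm]
    rw [neg_mul_neg, opl_neg]
  · exact opl_lt_one hρ0 (by norm_num) hρ1 (by norm_num)
  · unfold nuStep
    rw [ae_map_iff (measurable_oplS k s).aemeasurable
      (measurableSet_le (f := fun x : ℝ => |x|) (by fun_prop) measurable_const)]
    apply (withDensity_absolutelyContinuous _ _).ae_le
    filter_upwards [ae_fst hν.supp] with q hq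
    exact abs_opl_le (hq.trans (le_max_left _ _)) (abs_sS_leN k s _ _) hρ1 (by norm_num)

end Step

section Laws

theorem null_dirac : Null (Measure.dirac (0:ℝ)) 0 := by
  refine ⟨inferInstance, ?_, zero_lt_one, ?_⟩
  · rw [Measure.map_dirac' measurable_neg]; simp
  · rw [ae_dirac_iff (measurableSet_le (f := fun x : ℝ => |x|) (by fun_prop) measurable_const)]
    simp

theorem null_nuR : ∀ k : ℕ, ∃ ρ, Null (nuR k) ρ
  | 0 => ⟨0, null_dirac⟩
  | k + 1 => by
    obtain ⟨ρ, h⟩ := null_nuR k
    exact ⟨_, null_step h k 3⟩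

theorem null_nuS (k : ℕ) (s : ℝ) : ∃ ρ, Null (nuS k s) ρ := by
  obtain ⟨ρ, h⟩ := null_nuR k
  exact ⟨_, null_step h k s⟩

theorem null_nuS_zero (s : ℝ) : Null (nuS 0 s) (1 / 4) := by
  have h := null_step null_dirac 0 s
  rw [max_self, zero_opl] at h
  exact h

/-- expectation of a function of the outcome -/
noncomputable def eS (k : ℕ) (s : ℝ) (φ : ℝ → ℝ) : ℝ :=
  ∫ y : unitInterval × unitInterval, φ (sS k s y.1 y.2)
    ∂((volume : Measure unitInterval).prod (volume : Measure unitInterval))

theorem integral_nuS_zero (s : ℝ) {F : ℝ → ℝ} (hF : Measurable F) :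
    ∫ x, F x ∂(nuS 0 s) = eS 0 s F := by
  unfold nuS
  show ∫ x, F x ∂(nuStep (Measure.dirac 0) 0 s) = _
  rw [integral_nuStep null_dirac 0 s hF]
  have hm : Measurable (fun q : ℝ × unitInterval × unitInterval =>
      (1 + q.1 * sS 0 s q.2.1 q.2.2) * F (opl q.1 (sS 0 s q.2.1 q.2.2))) :=
    (measurable_densS 0 s).mul (hF.comp (measurable_oplS 0 s))
  rw [Measure.dirac_prod, integral_map measurable_prodMk_left.aemeasurable
    hm.aestronglyMeasurable]
  unfold eS
  simp

theorem eS_sq_inner (k : ℕ) (s : ℝ) (θ : unitInterval) :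
    ∫ u : unitInterval, sS k s θ u ^ 2 =
      (if 2 * (θ : ℝ) < s then str k (2 * θ) ^ 2 else 0) / 3 := by
  unfold sS
  split_ifs
  · simp only [mul_pow]
    rw [integral_const_mul]
    have : ∫ u : unitInterval, (2 * (u : ℝ) - 1) ^ 2 = 1 / 3 := by
      have h0 : ∫ u : unitInterval, (2 * (u : ℝ) - 1) ^ 2 = ∫ u in Set.Icc (0:ℝ) 1, (2 * u - 1) ^ 2 :=
        integral_subtype_comap measurableSet_Icc (fun u : ℝ => (2 * u - 1) ^ 2)
      rw [h0]
      rw [integral_Icc_eq_integral_Ioc, ← intervalIntegral.integral_of_le zero_le_one]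
      have h2 : ∀ u : ℝ, (2 * u - 1) ^ 2 = 4 * u ^ 2 - 4 * u + 1 := by intro u; ring
      simp only [h2]
      rw [intervalIntegral.integral_add, intervalIntegral.integral_sub,
        intervalIntegral.integral_const_mul, intervalIntegral.integral_const_mul,
        integral_pow, integral_id]
      · norm_num
      all_goals
        apply Continuous.intervalIntegrable
        fun_prop
    rw [this]; ring
  · simp

theorem integrable_eS (k : ℕ) (s : ℝ) {φ : ℝ → ℝ} (hφ : Measurable φ) {C : ℝ}
    (hb : ∀ x, |x| ≤ 1 / 4 → |φ x| ≤ C) :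
    Integrable (fun y : unitInterval × unitInterval => φ (sS k s y.1 y.2))
      ((volume : Measure unitInterval).prod (volume : Measure unitInterval)) := by
  apply Integrable.of_bound (C := C)
  · exact (hφ.comp (measurable_sSN k s)).aestronglyMeasurable
  · exact Eventually.of_forall fun y => by
      rw [Real.norm_eq_abs]; exact hb _ (abs_sS_leN k s _ _)

theorem eS_sq (k : ℕ) (s : ℝ) : eS k s (fun x => x ^ 2) =
    (∫ θ in (0:ℝ)..1, (if 2 * θ < s then str k (2 * θ) ^ 2 else 0)) / 3 := by
  unfold eS
  rw [integral_prod _ (integrable_eS k s (φ := fun x => x ^ 2) (by fun_prop) (C := 1) (by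
    intro x hx
    rw [abs_pow]
    exact pow_le_one₀ (abs_nonneg _) (hx.trans (by norm_num))))]
  simp only [eS_sq_inner]
  rw [integral_div]
  congr 1
  have h0 : ∫ θ : unitInterval, (if 2 * (θ : ℝ) < s then str k (2 * θ) ^ 2 else 0) =
      ∫ θ in Set.Icc (0:ℝ) 1, (if 2 * θ < s then str k (2 * θ) ^ 2 else 0) :=
    integral_subtype_comap measurableSet_Icc
      (fun θ : ℝ => if 2 * θ < s then str k (2 * θ) ^ 2 else 0)
  rw [h0]
  rw [integral_Icc_eq_integral_Ioc, ← intervalIntegral.integral_of_le zero_le_one]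

theorem intervalIntegrable_strsq (k : ℕ) (s a b : ℝ) :
    IntervalIntegrable (fun θ : ℝ => if 2 * θ < s then str k (2 * θ) ^ 2 else 0) volume a b := by
  apply (intervalIntegrable_const (c := (1:ℝ))).mono_fun'
  · apply Measurable.aestronglyMeasurable
    apply Measurable.ite (measurableSet_lt (measurable_id.const_mul 2) measurable_const)
      _ measurable_const
    exact ((measurable_str k).comp (measurable_id.const_mul 2)).pow_const 2
  · apply Eventually.of_forall
    intro θ
    show ‖_‖ ≤ (1:ℝ)
    rw [Real.norm_eq_abs]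
    split_ifs
    · rw [abs_pow, abs_of_nonneg (str_nonneg k _)]
      exact pow_le_one₀ (str_nonneg k _) ((str_le k _).trans (by unfold a0; norm_num))
    · simp

theorem eS_sq_zero {s : ℝ} (hs : 0 ≤ s) (hs1 : s ≤ 1) :
    eS 0 s (fun x => x ^ 2) = s ^ 2 / 192 := by
  rw [eS_sq]
  have h1 : ∫ θ in (0:ℝ)..1, (if 2 * θ < s then str 0 (2 * θ) ^ 2 else 0) = s ^ 2 / 64 := by
    rw [← intervalIntegral.integral_add_adjacent_intervals (b := s / 2)
      (intervalIntegrable_strsq 0 s _ _) (intervalIntegrable_strsq 0 s _ _)]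
    have e1 : ∫ θ in (0:ℝ)..(s/2), (if 2 * θ < s then str 0 (2 * θ) ^ 2 else 0) =
        ∫ θ in (0:ℝ)..(s/2), θ / 8 := by
      apply intervalIntegral.integral_congr_ae
      have : ∀ᵐ θ : ℝ, θ ≠ s / 2 := by
        simp [ae_iff]
      filter_upwards [this] with θ hθ hmem
      rw [Set.uIoc_of_le (by linarith)] at hmem
      have h2 : θ < s / 2 := lt_of_le_of_ne hmem.2 hθ
      rw [if_pos (by linarith)]
      unfold str
      rw [if_pos (by linarith), if_pos rfl, mul_pow, Real.sq_sqrt (by linarith [hmem.1])]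
      unfold a0
      ring
    have e2 : ∫ θ in (s/2)..1, (if 2 * θ < s then str 0 (2 * θ) ^ 2 else 0) = 0 := by
      rw [intervalIntegral.integral_congr (g := fun _ => 0)]
      · simp
      · intro θ hθ
        rw [Set.uIcc_of_le (by linarith)] at hθ
        simp only
        rw [if_neg (by linarith [hθ.1])]
    rw [e1, e2, intervalIntegral.integral_div, integral_id]
    ring
  rw [h1]; ring

theorem eS_sq_zero_three : eS 0 3 (fun x => x ^ 2) = 1 / 192 := by
  have h := eS_sq_zero (s := 1) zero_le_one le_rfl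
  rw [eS_sq] at h ⊢
  rw [← (show (1:ℝ) ^ 2 / 192 = 1 / 192 by norm_num), ← h]
  congr 1
  apply intervalIntegral.integral_congr
  intro θ hθ
  rw [Set.uIcc_of_le zero_le_one] at hθ
  simp only
  by_cases h1 : 2 * θ < 1
  · rw [if_pos h1, if_pos (by linarith)]
  · rw [if_neg h1, if_pos (by linarith [hθ.2])]
    unfold str
    rw [if_neg h1]; norm_num

theorem eS_sq_pos_three {k : ℕ} (hk : 1 ≤ k) : eS k 3 (fun x => x ^ 2) = 1 / 96 := by
  rw [eS_sq]
  have h1 : ∫ θ in (0:ℝ)..1, (if 2 * θ < 3 then str k (2 * θ) ^ 2 else 0) = 1 / 32 := by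
    rw [← intervalIntegral.integral_add_adjacent_intervals (b := 1 / 2)
      (intervalIntegrable_strsq k 3 _ _) (intervalIntegrable_strsq k 3 _ _)]
    have e1 : ∫ θ in (0:ℝ)..(1/2), (if 2 * θ < 3 then str k (2 * θ) ^ 2 else 0) =
        ∫ θ in (0:ℝ)..(1/2), (1 / 16 : ℝ) := by
      apply intervalIntegral.integral_congr_ae
      have : ∀ᵐ θ : ℝ, θ ≠ 1 / 2 := by
        simp [ae_iff]
      filter_upwards [this] with θ hθ hmem
      rw [Set.uIoc_of_le (by norm_num)] at hmem
      have h2 : θ < 1 / 2 := lt_of_le_of_ne hmem.2 hθ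
      rw [if_pos (by linarith)]
      unfold str
      rw [if_pos (by linarith), if_neg (by omega)]
      unfold a0
      norm_num
    have e2 : ∫ θ in (1/2:ℝ)..1, (if 2 * θ < 3 then str k (2 * θ) ^ 2 else 0) = 0 := by
      rw [intervalIntegral.integral_congr (g := fun _ => 0)]
      · simp
      · intro θ hθ
        rw [Set.uIcc_of_le (by norm_num)] at hθ
        simp only
        unfold str
        rw [if_neg (show ¬ (2 * θ < 1) by linarith [hθ.1])]
        simp
    rw [e1, e2, intervalIntegral.integral_const]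
    norm_num
  rw [h1]; norm_num

theorem mom_nuS_zero {s : ℝ} (hs : 0 < s) (hs1 : s ≤ 1) : Mom (nuS 0 s) s := by
  have h2 : ∫ x, x ^ 2 ∂(nuS 0 s) = s ^ 2 / 192 := by
    rw [integral_nuS_zero s (F := fun x => x ^ 2) (by fun_prop), ← eS_sq_zero hs.le hs1]
  refine ⟨hs, hs1, ?_, ?_, ?_⟩
  · rw [h2]; unfold c1; linarith
  · rw [h2]; have := sq_nonneg s; linarith
  · intro p hp
    rw [integral_nuS_zero s (F := fun x => x ^ (2 * p)) (measurable_id.pow_const (2 * p))]
    unfold eS
    have hb : ∀ y : unitInterval × unitInterval, sS 0 s y.1 y.2 ^ (2 * p) ≤ s ^ p := by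
      intro y
      rw [pow_mul]
      apply pow_le_pow_left₀ (sq_nonneg _)
      unfold sS
      split_ifs with h
      · have h3 : str 0 (2 * (y.1 : ℝ)) ^ 2 ≤ s := by
          unfold str
          rw [if_pos (by linarith), if_pos rfl, mul_pow, Real.sq_sqrt (by
            have := y.1.2.1; linarith)]
          unfold a0
          have := y.1.2.1
          nlinarith
        rw [mul_pow]
        have h4 : (2 * (y.2 : ℝ) - 1) ^ 2 ≤ 1 := by
          have := abs_two_sub_le y.2
          rw [← sq_abs]
          exact pow_le_one₀ (abs_nonneg _) this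
        calc str 0 (2 * (y.1 : ℝ)) ^ 2 * (2 * (y.2 : ℝ) - 1) ^ 2
            ≤ str 0 (2 * (y.1 : ℝ)) ^ 2 * 1 := mul_le_mul_of_nonneg_left h4 (sq_nonneg _)
          _ ≤ s := by linarith
      · simp [hs.le]
    calc ∫ y : unitInterval × unitInterval, sS 0 s y.1 y.2 ^ (2 * p)
          ∂((volume : Measure unitInterval).prod (volume : Measure unitInterval))
        ≤ ∫ y : unitInterval × unitInterval, s ^ p
          ∂((volume : Measure unitInterval).prod (volume : Measure unitInterval)) := by
          apply integral_mono _ (integrable_const _) hb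
          exact integrable_eS 0 s (φ := fun x => x ^ (2 * p)) (measurable_id.pow_const (2 * p))
            (C := 1) (by
            intro x hx
            rw [abs_pow]
            exact pow_le_one₀ (abs_nonneg _) (hx.trans (by norm_num)))
      _ = s ^ p := by simp

/-- a further observation does not decrease the second moment -/
theorem sq_step {ν : Measure ℝ} {ρ : ℝ} (hν : Null ν ρ) (k : ℕ) (s : ℝ) :
    ∫ x, x ^ 2 ∂ν ≤ ∫ x, x ^ 2 ∂(nuStep ν k s) := by
  have := hν.prob
  rw [integral_nuStep hν k s (F := fun x => x ^ 2) (measurable_id.pow_const 2)]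
  have hi1 : Integrable (fun q : ℝ × unitInterval × unitInterval =>
      q.1 ^ 2 + (2 * q.1 - q.1 ^ 3) * sS k s q.2.1 q.2.2)
      (ν.prod ((volume : Measure unitInterval).prod (volume : Measure unitInterval))) := by
    apply Integrable.of_bound (C := 4)
    · apply Measurable.aestronglyMeasurable
      have h1 : Measurable (fun q : ℝ × unitInterval × unitInterval => sS k s q.2.1 q.2.2) :=
        (measurable_sSN k s).comp measurable_snd
      exact (measurable_fst.pow_const 2).add
        (((measurable_fst.const_mul 2).sub (measurable_fst.pow_const 3)).mul h1)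
    · filter_upwards [ae_fst hν.supp] with q hq
      rw [Real.norm_eq_abs]
      have hq1 : |q.1| ≤ 1 := hq.trans hν.lt.le
      have h1 := abs_sS_leN k s q.2.1 q.2.2
      have h2 : |q.1 ^ 2| ≤ 1 := by rw [abs_pow]; exact pow_le_one₀ (abs_nonneg _) hq1
      have h3 : |q.1 ^ 3| ≤ 1 := by rw [abs_pow]; exact pow_le_one₀ (abs_nonneg _) hq1
      calc |q.1 ^ 2 + (2 * q.1 - q.1 ^ 3) * sS k s q.2.1 q.2.2|
          ≤ |q.1 ^ 2| + |2 * q.1 - q.1 ^ 3| * |sS k s q.2.1 q.2.2| := by
            rw [← abs_mul]; exact abs_add_le _ _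
        _ ≤ 1 + 3 * 1 := by
            apply add_le_add h2
            apply mul_le_mul _ (h1.trans (by norm_num)) (abs_nonneg _) (by norm_num)
            calc |2 * q.1 - q.1 ^ 3| ≤ |2 * q.1| + |q.1 ^ 3| := abs_sub _ _
              _ ≤ 2 + 1 := by
                apply add_le_add _ h3
                rw [abs_mul, abs_two]; linarith
              _ = 3 := by norm_num
        _ = 4 := by norm_num
  have hkey : ∫ q : ℝ × unitInterval × unitInterval,
      (q.1 ^ 2 + (2 * q.1 - q.1 ^ 3) * sS k s q.2.1 q.2.2)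
      ∂(ν.prod ((volume : Measure unitInterval).prod (volume : Measure unitInterval))) =
      ∫ x, x ^ 2 ∂ν := by
    rw [integral_prod _ hi1]
    apply integral_congr_ae
    have hi2 := hi1.prod_right_ae
    filter_upwards [hi2] with r hr
    rw [integral_prod _ hr]
    have : ∀ θ : unitInterval, ∫ u : unitInterval, (r ^ 2 + (2 * r - r ^ 3) * sS k s θ u) = r ^ 2 := by
      intro θ
      rw [integral_add (integrable_const _) ((integrable_sS k s θ).const_mul _),
        integral_const_mul, integral_sS]
      simp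
    simp only [this]
    simp
  rw [← hkey]
  apply integral_mono_ae hi1
  · apply Integrable.of_bound (C := 2)
    · exact ((measurable_densS k s).mul ((measurable_oplS k s).pow_const 2)).aestronglyMeasurable
    · filter_upwards [ae_fst hν.supp] with q hq
      rw [Real.norm_eq_abs, abs_mul]
      have hq1 : |q.1| < 1 := lt_of_le_of_lt hq hν.lt
      have h1 := abs_sS_leN k s q.2.1 q.2.2
      have h2 : |opl q.1 (sS k s q.2.1 q.2.2) ^ 2| ≤ 1 := by
        rw [abs_pow]
        exact pow_le_one₀ (abs_nonneg _) (abs_opl_lt hq1 (lt_of_le_of_lt h1 (by norm_num))).le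
      have h3 : |1 + q.1 * sS k s q.2.1 q.2.2| ≤ 2 := by
        calc |1 + q.1 * sS k s q.2.1 q.2.2| ≤ |(1:ℝ)| + |q.1| * |sS k s q.2.1 q.2.2| := by
              rw [← abs_mul]; exact abs_add_le _ _
          _ ≤ 1 + 1 * 1 := by
              rw [abs_one]
              apply add_le_add le_rfl
              exact mul_le_mul hq1.le (h1.trans (by norm_num)) (abs_nonneg _) zero_le_one
          _ = 2 := by norm_num
      calc |1 + q.1 * sS k s q.2.1 q.2.2| * |opl q.1 (sS k s q.2.1 q.2.2) ^ 2| ≤ 2 * 1 :=
            mul_le_mul h3 h2 (abs_nonneg _) (by norm_num)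
        _ = 2 := by norm_num
  · filter_upwards [ae_fst hν.supp] with q hq
    have hd := densS_pos k s (hq.trans hν.lt.le) q.2.1 q.2.2
    have hd0 : 0 < 1 + q.1 * sS k s q.2.1 q.2.2 := by linarith
    unfold opl
    rw [div_pow, ← mul_div_assoc, sq (1 + q.1 * sS k s q.2.1 q.2.2),
      mul_div_mul_left _ _ hd0.ne', le_div_iff₀ hd0]
    nlinarith [sq_nonneg (sS k s q.2.1 q.2.2 * (1 - q.1 ^ 2))]

theorem sq_nuR {k : ℕ} (hk : 1 ≤ k) : c1 ≤ ∫ x, x ^ 2 ∂(nuR k) := by
  induction k, hk using Nat.le_induction with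
  | base =>
    have h : ∫ x, x ^ 2 ∂(nuR 1) = 1 / 192 := by
      have := integral_nuS_zero 3 (F := fun x => x ^ 2) (measurable_id.pow_const 2)
      rw [eS_sq_zero_three] at this
      exact this
    rw [h]; unfold c1; norm_num
  | succ k hk ih =>
    obtain ⟨ρ, h⟩ := null_nuR k
    exact ih.trans (sq_step h k 3)

theorem mom_nuS (k : ℕ) (hk : 1 ≤ k) (s : ℝ) : Mom (nuS k s) 1 := by
  obtain ⟨ρ, hR⟩ := null_nuR k
  obtain ⟨ρ', hS⟩ := null_nuS k s
  have := hS.prob
  have hle : ∀ p : ℕ, 1 ≤ p → ∫ x, x ^ (2 * p) ∂(nuS k s) ≤ 1 := by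
    intro p _
    calc ∫ x, x ^ (2 * p) ∂(nuS k s) ≤ ∫ x, (1:ℝ) ∂(nuS k s) := by
          apply integral_mono_ae
          · apply Integrable.of_bound (C := 1)
              (show Measurable (fun x : ℝ => x ^ (2 * p)) by fun_prop).aestronglyMeasurable
            filter_upwards [hS.supp] with x hx
            rw [Real.norm_eq_abs, abs_pow]
            exact pow_le_one₀ (abs_nonneg _) (hx.trans hS.lt.le)
          · exact integrable_const _
          · filter_upwards [hS.supp] with x hx
            rw [pow_mul, ← sq_abs]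
            exact pow_le_one₀ (sq_nonneg _) (pow_le_one₀ (abs_nonneg _) (hx.trans hS.lt.le))
      _ = 1 := by simp
  refine ⟨one_pos, le_rfl, ?_, ?_, ?_⟩
  · have h1 := sq_nuR hk
    have h2 := sq_step hR k s
    have h3 : nuStep (nuR k) k s = nuS k s := rfl
    rw [h3] at h2
    linarith
  · have := hle 1 le_rfl
    simpa using this
  · intro p hp
    rw [one_pow]
    exact hle p hp

theorem sqrt_step {ν : Measure ℝ} {ρ : ℝ} (hν : Null ν ρ) (k : ℕ) (s : ℝ) :
    ∫ x, Real.sqrt (1 - x ^ 2) ∂(nuStep ν k s) =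
      (∫ x, Real.sqrt (1 - x ^ 2) ∂ν) * eS k s (fun x => Real.sqrt (1 - x ^ 2)) := by
  have := hν.prob
  have hm : Measurable (fun x : ℝ => Real.sqrt (1 - x ^ 2)) :=
    Real.continuous_sqrt.measurable.comp ((measurable_id.pow_const 2).const_sub 1)
  rw [integral_nuStep hν k s hm]
  unfold eS
  rw [← integral_prod_mul (fun x : ℝ => Real.sqrt (1 - x ^ 2))
    (fun y : unitInterval × unitInterval => Real.sqrt (1 - sS k s y.1 y.2 ^ 2))]
  apply integral_congr_ae
  filter_upwards [ae_fst hν.supp] with q hq
  have hd := densS_pos k s (hq.trans hν.lt.le) q.2.1 q.2.2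
  have hd0 : 0 < 1 + q.1 * sS k s q.2.1 q.2.2 := by linarith
  have h1 := abs_sS_leN k s q.2.1 q.2.2
  have hz : 0 ≤ 1 - sS k s q.2.1 q.2.2 ^ 2 := by
    have : sS k s q.2.1 q.2.2 ^ 2 ≤ 1 := by
      rw [← sq_abs]; exact pow_le_one₀ (abs_nonneg _) (h1.trans (by norm_num))
    linarith
  have hr : 0 ≤ 1 - q.1 ^ 2 := by
    have : q.1 ^ 2 ≤ 1 := by
      rw [← sq_abs]; exact pow_le_one₀ (abs_nonneg _) (hq.trans hν.lt.le)
    linarith
  rw [← Real.sqrt_mul hr]
  conv_lhs => rw [← Real.sqrt_sq hd0.le]
  rw [← Real.sqrt_mul (sq_nonneg _)]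
  congr 1
  unfold opl
  rw [div_pow]
  field_simp
  ring

theorem eS_sqrt_lt {k : ℕ} (hk : 1 ≤ k) : eS k 3 (fun x => Real.sqrt (1 - x ^ 2)) ≤ 191 / 192 := by
  have h1 : eS k 3 (fun x => Real.sqrt (1 - x ^ 2)) ≤ eS k 3 (fun x => 1 - x ^ 2 / 2) := by
    unfold eS
    apply integral_mono
    · exact integrable_eS k 3 (φ := fun x => Real.sqrt (1 - x ^ 2))
        (Real.continuous_sqrt.measurable.comp ((measurable_id.pow_const 2).const_sub 1)) (C := 1)
        (by
          intro x _
          rw [abs_of_nonneg (Real.sqrt_nonneg _)]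
          exact Real.sqrt_le_one.mpr (by have := sq_nonneg x; linarith))
    · exact integrable_eS k 3 (φ := fun x => 1 - x ^ 2 / 2)
        (((measurable_id.pow_const 2).div_const 2).const_sub 1) (C := 2)
        (by
          intro x hx
          have h3 : x ^ 2 ≤ 1 := by
            rw [← sq_abs]; exact pow_le_one₀ (abs_nonneg _) (hx.trans (by norm_num))
          have h4 := sq_nonneg x
          rw [abs_le]; constructor <;> linarith)
    · intro y
      simp only
      apply Real.sqrt_le_iff.2
      have h1 := abs_sS_leN k 3 y.1 y.2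
      have h3 : sS k 3 y.1 y.2 ^ 2 ≤ 1 := by
        rw [← sq_abs]; exact pow_le_one₀ (abs_nonneg _) (h1.trans (by norm_num))
      constructor
      · linarith
      · nlinarith [sq_nonneg (sS k 3 y.1 y.2 ^ 2)]
  have h2 : eS k 3 (fun x => 1 - x ^ 2 / 2) = 1 - (1 / 96) / 2 := by
    have h3 := eS_sq_pos_three hk
    unfold eS at h3 ⊢
    rw [integral_sub (integrable_const _), integral_div, h3]
    · simp
    · exact (integrable_eS k 3 (φ := fun x => x ^ 2) (measurable_id.pow_const 2) (C := 1) (by
        intro x hx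
        rw [abs_pow]
        exact pow_le_one₀ (abs_nonneg _) (hx.trans (by norm_num)))).div_const 2
  rw [h2] at h1
  linarith

/-- deficit of the single vertex evidence after `k` rounds -/
noncomputable def eps (k : ℕ) : ℝ := ∫ x, Real.sqrt (1 - x ^ 2) ∂(nuR k)

theorem eps_nonneg (k : ℕ) : 0 ≤ eps k := integral_nonneg fun _ => Real.sqrt_nonneg _

theorem eps_le (n : ℕ) : eps (n + 1) ≤ (191 / 192) ^ n * eps 1 := by
  have hstep : ∀ k, 1 ≤ k → eps (k + 1) ≤ (191 / 192) * eps k := by
    intro k hk
    obtain ⟨ρ, h⟩ := null_nuR k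
    have h1 := sqrt_step h k 3
    show ∫ x, Real.sqrt (1 - x ^ 2) ∂(nuStep (nuR k) k 3) ≤ _
    rw [h1, mul_comm]
    exact mul_le_mul_of_nonneg_right (eS_sqrt_lt hk) (eps_nonneg k)
  induction n with
  | zero => simp
  | succ n ih =>
    calc eps (n + 1 + 1) ≤ (191 / 192) * eps (n + 1) := hstep (n + 1) (by omega)
      _ ≤ (191 / 192) * ((191 / 192) ^ n * eps 1) := mul_le_mul_of_nonneg_left ih (by norm_num)
      _ = _ := by rw [pow_succ]; ring

theorem summable_eps : Summable eps := by
  rw [← summable_nat_add_iff 1]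
  apply Summable.of_nonneg_of_le (fun n => eps_nonneg (n + 1)) eps_le
  exact (summable_geometric_of_lt_one (by norm_num) (by norm_num)).mul_right _

theorem tendsto_eps : Tendsto eps atTop (𝓝 0) := summable_eps.tendsto_atTop_zero

theorem tendsto_nuR :
    Tendsto (fun k => ∫ x, Real.sqrt (1 - x ^ 2) ∂(nuR k)) atTop (𝓝 0) := tendsto_eps

end Laws

end Crest.Agent.H14
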