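import Mathlib

/-! Row 160 (helper5): the closing (Osgood) lemmas.

`osg x = (1+x)(1+log(1+x))`.  If `q` is nondecreasing on `(0,1]`, flat to infinite order at `0`, and
`q T₂ ≤ q T₁ + C (log(T₂/T₁) + (T₂-T₁) osg(log(1/ℓ))) q T₂` for all `T₁ ≤ T₂`, `q T₁ ≤ ℓ ≤ q T₂`,
then `q 1 = 0` (`osgood_flat`).  Without the logarithmic term flatness is replaced by `q 0 = 0`
(`osgood_zero`). -/

set_option autoImplicit false

open Finset Filter Topology

namespace Crest.Agent.H14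

/-- Osgood modulus in the variable `x = log (1/q)` -/
noncomputable def osg (x : ℝ) : ℝ := (1 + x) * (1 + Real.log (1 + x))

theorem osg_nonneg {x : ℝ} (hx : 0 ≤ x) : 0 ≤ osg x := by
  unfold osg
  have := Real.log_nonneg (show (1:ℝ) ≤ 1 + x by linarith)
  positivity

theorem osg_mono {x y : ℝ} (hx : 0 ≤ x) (h : x ≤ y) : osg x ≤ osg y := by
  unfold osg
  have h1 := Real.log_nonneg (show (1:ℝ) ≤ 1 + x by linarith)
  have h2 := Real.log_le_log (show (0:ℝ) < 1 + x by linarith) (show 1 + x ≤ 1 + y by linarith)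
  apply mul_le_mul (by linarith) (by linarith) (by linarith) (by linarith)

/-- abstract counting lemma: an antitone sequence in `[0,1]` cannot have dyadic increments bounded
below by `c / (i+1)`. -/
theorem no_slow_decay (T : ℕ → ℝ) (h0 : ∀ j, 0 ≤ T j) (i0 : ℕ) (c : ℝ) (hc : 0 < c)
    (h : ∀ i, i0 ≤ i → c / ((i : ℝ) + 1) ≤ T (2 ^ i) - T (2 ^ (i + 1))) : False := by
  have hsum : ∀ n, ∑ i ∈ range n, c / (((i0 + i : ℕ) : ℝ) + 1) ≤ T (2 ^ i0) - T (2 ^ (i0 + n)) := by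
    intro n
    induction n with
    | zero => simp
    | succ n ih =>
      rw [Finset.sum_range_succ]
      have := h (i0 + n) (by omega)
      have e : i0 + (n + 1) = i0 + n + 1 := by ring
      rw [e]
      linarith
  have hdiv : Tendsto (fun n => ∑ i ∈ range n, c / (((i0 + i : ℕ) : ℝ) + 1)) atTop atTop := by
    have h1 := Real.tendsto_sum_range_one_div_nat_succ_atTop
    have h2 : ∀ n, ∑ i ∈ range n, c / (((i0 + i : ℕ) : ℝ) + 1) =
        c * (∑ i ∈ range (i0 + n), (1 / ((i : ℝ) + 1)) - ∑ i ∈ range i0, (1 / ((i : ℝ) + 1))) := by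
      intro n
      rw [Finset.sum_range_add]
      rw [add_sub_cancel_left, Finset.mul_sum]
      apply Finset.sum_congr rfl
      intro i _
      rw [mul_one_div]
    simp_rw [h2]
    apply Tendsto.const_mul_atTop hc
    apply tendsto_atTop_add_const_right
    have h3 : Tendsto (fun n : ℕ => i0 + n) atTop atTop := by
      simpa [add_comm] using tendsto_add_atTop_nat i0
    exact h1.comp h3
  obtain ⟨n, hn⟩ := (hdiv.eventually (eventually_gt_atTop (T (2 ^ i0)))).exists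
  have := hsum n
  have := h0 (2 ^ (i0 + n))
  linarith

/-- bound for the Osgood modulus at dyadic points -/
theorem osg_dyadic (i : ℕ) : osg ((2 : ℝ) ^ (i + 1)) ≤ 6 * 2 ^ (i + 1) * ((i : ℝ) + 1) := by
  unfold osg
  have h1 : (1 : ℝ) ≤ 2 ^ (i + 1) := one_le_pow₀ (by norm_num)
  have h2 : Real.log (1 + 2 ^ (i + 1)) ≤ (i : ℝ) + 2 := by
    have h3 : (1 : ℝ) + 2 ^ (i + 1) ≤ 2 ^ (i + 2) := by
      rw [pow_succ (2:ℝ) (i+1)]; linarith
    calc Real.log (1 + 2 ^ (i + 1)) ≤ Real.log (2 ^ (i + 2)) :=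
          Real.log_le_log (by positivity) h3
      _ = (i + 2 : ℕ) * Real.log 2 := by rw [Real.log_pow]
      _ ≤ (i + 2 : ℕ) * 1 := by
          apply mul_le_mul_of_nonneg_left _ (by positivity)
          have := Real.log_two_lt_d9
          linarith
      _ = (i : ℝ) + 2 := by push_cast; ring
  have h3 : 0 ≤ Real.log (1 + 2 ^ (i + 1)) := Real.log_nonneg (by linarith)
  calc (1 + (2:ℝ) ^ (i + 1)) * (1 + Real.log (1 + 2 ^ (i + 1)))
      ≤ (2 * 2 ^ (i + 1)) * ((i : ℝ) + 3) := by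
        apply mul_le_mul (by linarith) (by linarith) (by linarith) (by positivity)
    _ ≤ (2 * 2 ^ (i + 1)) * (3 * ((i : ℝ) + 1)) := by
        apply mul_le_mul_of_nonneg_left _ (by positivity)
        have : (0:ℝ) ≤ i := Nat.cast_nonneg i
        linarith
    _ = 6 * 2 ^ (i + 1) * ((i : ℝ) + 1) := by ring

section levels

variable (q : ℝ → ℝ)

/-- the first time at which `q ≥ e^{-j}` -/
noncomputable def lev (j : ℕ) : ℝ := sInf {T : ℝ | 0 < T ∧ T ≤ 1 ∧ Real.exp (-(j : ℝ)) ≤ q T}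

variable {q} {j0 : ℕ} (hj0 : Real.exp (-(j0 : ℝ)) ≤ q 1)

include hj0 in
theorem lev_mem_one {j : ℕ} (hj : j0 ≤ j) :
    (1 : ℝ) ∈ {T : ℝ | 0 < T ∧ T ≤ 1 ∧ Real.exp (-(j : ℝ)) ≤ q T} := by
  refine ⟨one_pos, le_refl _, le_trans ?_ hj0⟩
  apply Real.exp_le_exp.mpr
  have : (j0 : ℝ) ≤ j := by exact_mod_cast hj
  linarith

theorem lev_bdd (j : ℕ) : BddBelow {T : ℝ | 0 < T ∧ T ≤ 1 ∧ Real.exp (-(j : ℝ)) ≤ q T} :=
  ⟨0, fun _ h => h.1.le⟩

theorem lev_nonneg (j : ℕ) : 0 ≤ lev q j := by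
  apply Real.sInf_nonneg
  intro T hT
  exact hT.1.le

include hj0 in
theorem lev_le_one {j : ℕ} (hj : j0 ≤ j) : lev q j ≤ 1 :=
  csInf_le (lev_bdd j) (lev_mem_one hj0 hj)

include hj0 in
theorem lev_anti {i j : ℕ} (hi : j0 ≤ i) (h : i ≤ j) : lev q j ≤ lev q i := by
  apply csInf_le_csInf (lev_bdd j) ⟨1, lev_mem_one hj0 hi⟩
  intro T hT
  refine ⟨hT.1, hT.2.1, le_trans ?_ hT.2.2⟩
  apply Real.exp_le_exp.mpr
  have : (i : ℝ) ≤ j := by exact_mod_cast h
  linarith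

/-- one level step, `F T₁ T₂ ℓ` is the rate bound -/
theorem lev_step {j : ℕ} (hj0 : Real.exp (-(j0 : ℝ)) ≤ q 1) (hj : j0 ≤ j)
    (hpos : 0 < lev q (j + 1)) (F : ℝ → ℝ → ℝ)
    (hF : ContinuousAt (fun p : ℝ × ℝ => F p.1 p.2) (lev q (j + 1), lev q j))
    (hD : ∀ T₁ T₂, 0 < T₁ → T₁ ≤ T₂ → T₂ ≤ 1 → q T₁ ≤ Real.exp (-((j + 1 : ℕ) : ℝ)) →
      Real.exp (-((j + 1 : ℕ) : ℝ)) ≤ q T₂ → q T₂ ≤ q T₁ + F T₁ T₂ * q T₂) :
    1 / 2 ≤ F (lev q (j + 1)) (lev q j) := by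
  by_contra hcon
  push Not at hcon
  have hanti := lev_anti hj0 hj (Nat.le_succ j)
  -- a neighbourhood where `F < 1/2`
  have hev := hF.eventually (gt_mem_nhds hcon)
  rw [nhds_prod_eq] at hev
  obtain ⟨U, hU, V, hV, hUV⟩ := Filter.eventually_prod_iff.mp hev
  obtain ⟨ε, hε, hεU⟩ := Metric.eventually_nhds_iff.mp hU
  obtain ⟨δ, hδ, hδV⟩ := Metric.eventually_nhds_iff.mp hV
  -- choose T₁
  obtain ⟨T₁, hT₁a, hT₁b, hT₁c⟩ : ∃ T₁, 0 < T₁ ∧ T₁ < lev q (j + 1) ∧ dist T₁ (lev q (j+1)) < ε := by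
    refine ⟨max (lev q (j+1) / 2) (lev q (j+1) - ε / 2), ?_, ?_, ?_⟩
    · apply lt_max_of_lt_left; linarith
    · apply max_lt <;> linarith
    · rw [Real.dist_eq, abs_sub_lt_iff]
      constructor
      · have : max (lev q (j+1) / 2) (lev q (j+1) - ε / 2) < lev q (j + 1) := by
          apply max_lt <;> linarith
        linarith
      · have := le_max_right (lev q (j+1) / 2) (lev q (j+1) - ε / 2)
        linarith
  obtain ⟨T₂, hT₂m, hT₂lt⟩ := exists_lt_of_csInf_lt ⟨1, lev_mem_one hj0 hj⟩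
    (show lev q j < lev q j + δ by linarith)
  have hT₂ge : lev q j ≤ T₂ := csInf_le (lev_bdd j) hT₂m
  have hle1 := lev_le_one hj0 (j := j) hj
  have hq₁ : q T₁ < Real.exp (-((j + 1 : ℕ) : ℝ)) := by
    by_contra hc
    push Not at hc
    have : lev q (j + 1) ≤ T₁ := csInf_le (lev_bdd (j + 1)) ⟨hT₁a, by linarith, hc⟩
    linarith
  have hq₂ : Real.exp (-((j + 1 : ℕ) : ℝ)) ≤ q T₂ := by
    refine le_trans ?_ hT₂m.2.2
    apply Real.exp_le_exp.mpr
    push_cast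
    linarith
  have hd := hD T₁ T₂ hT₁a (by linarith) hT₂m.2.1 hq₁.le hq₂
  have hFlt : F T₁ T₂ < 1 / 2 := by
    apply hUV (hεU hT₁c)
    apply hδV
    rw [Real.dist_eq, abs_sub_lt_iff]
    constructor <;> linarith
  have hq₂' : Real.exp (-(j : ℝ)) ≤ q T₂ := hT₂m.2.2
  have hpos2 : 0 < q T₂ := lt_of_lt_of_le (Real.exp_pos _) hq₂'
  have e1 : Real.exp (-((j + 1 : ℕ) : ℝ)) = Real.exp (-(j : ℝ)) * Real.exp (-1) := by
    rw [← Real.exp_add]; congr 1; push_cast; ring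
  have e2 : Real.exp (-1) < 1 / 2 := by
    have := Real.exp_neg_one_lt_d9
    linarith
  have e3 : Real.exp (-((j + 1 : ℕ) : ℝ)) ≤ q T₂ * (1 / 2) := by
    rw [e1]
    apply mul_le_mul hq₂' e2.le (Real.exp_pos _).le hpos2.le
  nlinarith

end levels

/-- **Closing lemma, stage 0.** -/
theorem osgood_flat (q : ℝ → ℝ) (C : ℝ) (hC : 0 < C)
    (hflat : ∀ k : ℕ, ∃ Ck : ℝ, ∀ T, 0 < T → T ≤ 1 → q T ≤ Ck * T ^ k)
    (hD : ∀ T₁ T₂ ℓ, 0 < T₁ → T₁ ≤ T₂ → T₂ ≤ 1 → 0 < ℓ → ℓ ≤ 1 → q T₁ ≤ ℓ → ℓ ≤ q T₂ →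
      q T₂ ≤ q T₁ + C * (Real.log (T₂ / T₁) + (T₂ - T₁) * osg (Real.log (1 / ℓ))) * q T₂) :
    q 1 ≤ 0 := by
  by_contra hcon
  push Not at hcon
  -- a level below q 1
  obtain ⟨j0, hj0⟩ : ∃ j0 : ℕ, Real.exp (-(j0 : ℝ)) ≤ q 1 := by
    obtain ⟨n, hn⟩ := exists_nat_gt (-Real.log (q 1))
    refine ⟨n, ?_⟩
    rw [← Real.le_log_iff_exp_le hcon]
    linarith
  -- lower bounds for the levels
  have hlow : ∀ k : ℕ, 0 < k → ∃ D : ℝ, 0 < D ∧ ∀ j, j0 ≤ j →
      Real.exp (-(j : ℝ)) ≤ D * (lev q j) ^ k := by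
    intro k hk
    obtain ⟨Ck, hCk⟩ := hflat k
    refine ⟨max Ck 1, lt_max_of_lt_right one_pos, fun j hj => ?_⟩
    have hne : Set.Nonempty {T : ℝ | 0 < T ∧ T ≤ 1 ∧ Real.exp (-(j : ℝ)) ≤ q T} :=
      ⟨1, lev_mem_one hj0 hj⟩
    have hcl : ∀ T ∈ {T : ℝ | 0 < T ∧ T ≤ 1 ∧ Real.exp (-(j : ℝ)) ≤ q T},
        Real.exp (-(j : ℝ)) ≤ max Ck 1 * T ^ k := by
      intro T hT
      refine hT.2.2.trans ((hCk T hT.1 hT.2.1).trans ?_)
      exact mul_le_mul_of_nonneg_right (le_max_left _ _) (pow_nonneg hT.1.le _)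
    -- pass to the infimum by continuity
    obtain ⟨u, -, hu2, hu3⟩ := exists_seq_tendsto_sInf hne (lev_bdd j)
    have hlim : Tendsto (fun n => max Ck 1 * (u n) ^ k) atTop (𝓝 (max Ck 1 * (lev q j) ^ k)) :=
      (hu2.pow k).const_mul _
    exact ge_of_tendsto' hlim (fun n => hcl _ (hu3 n))
  have hpos : ∀ j, j0 ≤ j → 0 < lev q j := by
    intro j hj
    obtain ⟨D, hD0, hD1⟩ := hlow 1 one_pos
    have h := hD1 j hj
    rw [pow_one] at h
    by_contra hc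
    push Not at hc
    have : D * lev q j ≤ 0 := mul_nonpos_of_nonneg_of_nonpos hD0.le hc
    have := Real.exp_pos (-(j : ℝ))
    linarith
  -- the step inequality
  have hstep : ∀ j, j0 ≤ j → 1 / 2 ≤ C * (Real.log (lev q j / lev q (j + 1)) +
      (lev q j - lev q (j + 1)) * osg ((j + 1 : ℕ) : ℝ)) := by
    intro j hj
    have hp1 := hpos (j + 1) (by omega)
    have hp0 := hpos j hj
    refine lev_step (q := q) hj0 hj hp1
      (fun T₁ T₂ => C * (Real.log (T₂ / T₁) + (T₂ - T₁) * osg ((j + 1 : ℕ) : ℝ))) ?_ ?_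
    · apply ContinuousAt.mul continuousAt_const
      apply ContinuousAt.add
      · apply ContinuousAt.log
        · exact ContinuousAt.div continuousAt_snd continuousAt_fst hp1.ne'
        · exact (div_pos hp0 hp1).ne'
      · exact (continuousAt_snd.sub continuousAt_fst).mul continuousAt_const
    · intro T₁ T₂ h1 h2 h3 h4 h5
      have := hD T₁ T₂ (Real.exp (-((j + 1 : ℕ) : ℝ))) h1 h2 h3 (Real.exp_pos _)
        (by rw [Real.exp_le_one_iff]; have : (0:ℝ) ≤ ((j+1:ℕ):ℝ) := Nat.cast_nonneg _; linarith) h4 h5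
      rwa [one_div, ← Real.exp_neg, neg_neg, Real.log_exp] at this
  -- summed step inequality
  have hsum : ∀ J n : ℕ, j0 ≤ J → (n : ℝ) / 2 ≤ C * (Real.log (lev q J / lev q (J + n)) +
      (lev q J - lev q (J + n)) * osg ((J + n : ℕ) : ℝ)) := by
    intro J n hJ
    induction n with
    | zero =>
      simp only [Nat.cast_zero, zero_div, add_zero, sub_self, zero_mul]
      rw [div_self (hpos J hJ).ne', Real.log_one, mul_zero]
    | succ n ih =>
      have h1 := hstep (J + n) (by omega)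
      have p0 := hpos J hJ
      have p1 := hpos (J + n) (by omega)
      have p2 := hpos (J + n + 1) (by omega)
      have e1 : Real.log (lev q J / lev q (J + (n + 1))) =
          Real.log (lev q J / lev q (J + n)) + Real.log (lev q (J + n) / lev q (J + n + 1)) := by
        rw [← Real.log_mul (div_pos p0 p1).ne' (div_pos p1 p2).ne']
        congr 1
        rw [show J + (n + 1) = J + n + 1 by ring]
        field_simp
      have m1 : osg ((J + n : ℕ) : ℝ) ≤ osg ((J + n + 1 : ℕ) : ℝ) :=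
        osg_mono (Nat.cast_nonneg _) (by push_cast; linarith)
      have a1 : 0 ≤ lev q J - lev q (J + n) := sub_nonneg.mpr (lev_anti hj0 hJ (by omega))
      have m2 : (lev q J - lev q (J + n)) * osg ((J + n : ℕ) : ℝ) ≤
          (lev q J - lev q (J + n)) * osg ((J + n + 1 : ℕ) : ℝ) :=
        mul_le_mul_of_nonneg_left m1 a1
      rw [e1, show J + (n + 1) = J + n + 1 by ring]
      push_cast
      have m3 := mul_le_mul_of_nonneg_left m2 hC.le
      push_cast at m3 h1 ih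
      nlinarith
  -- dyadic blocks
  obtain ⟨k, hk⟩ := exists_nat_gt (8 * C)
  have hk0 : 0 < k := by
    by_contra hc
    have : k = 0 := by omega
    subst this
    simp at hk
    linarith
  obtain ⟨D, hD0, hD1⟩ := hlow k hk0
  have hkR : (0:ℝ) < k := by exact_mod_cast hk0
  -- log(1/T_j) ≤ (j + log D)/k
  have hlog : ∀ j, j0 ≤ j → -Real.log (lev q j) ≤ ((j : ℝ) + |Real.log D|) / k := by
    intro j hj
    have h := hD1 j hj
    have p := hpos j hj
    have h1 := Real.log_le_log (Real.exp_pos _) h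
    rw [Real.log_exp, Real.log_mul hD0.ne' (pow_pos p k).ne', Real.log_pow] at h1
    rw [le_div_iff₀ hkR]
    have := le_abs_self (Real.log D)
    linarith
  obtain ⟨i1, hi1⟩ := exists_nat_gt (|Real.log D| + (j0 : ℝ))
  have hpow : ∀ i : ℕ, i1 ≤ i → |Real.log D| ≤ 2 ^ i ∧ j0 ≤ 2 ^ i := by
    intro i hi
    have h1 : (i : ℝ) < 2 ^ i := by exact_mod_cast Nat.lt_two_pow_self
    have h2 : (i1 : ℝ) ≤ i := by exact_mod_cast hi
    have h3 : (0:ℝ) ≤ j0 := Nat.cast_nonneg _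
    have h4 := abs_nonneg (Real.log D)
    constructor
    · linarith
    · have : (j0 : ℝ) ≤ 2 ^ i := by linarith
      exact_mod_cast this
  apply no_slow_decay (fun j => lev q j) (fun j => lev_nonneg j) i1 (1 / (96 * C)) (by positivity)
  intro i hi
  obtain ⟨hDi, hj0i⟩ := hpow i hi
  have hs := hsum (2 ^ i) (2 ^ i) hj0i
  have e2 : 2 ^ i + 2 ^ i = 2 ^ (i + 1) := by rw [pow_succ]; ring
  rw [e2] at hs
  have p0 := hpos (2 ^ i) hj0i
  have hj0i1 : j0 ≤ 2 ^ (i + 1) := hj0i.trans (Nat.pow_le_pow_right (by norm_num) (by omega))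
  have p1 := hpos (2 ^ (i + 1)) hj0i1
  have hl1 : Real.log (lev q (2 ^ i) / lev q (2 ^ (i + 1))) ≤ 3 * 2 ^ i / k := by
    rw [Real.log_div p0.ne' p1.ne']
    have h1 : Real.log (lev q (2 ^ i)) ≤ 0 :=
      Real.log_nonpos p0.le (lev_le_one hj0 hj0i)
    have h2 := hlog (2 ^ (i + 1)) hj0i1
    have h3 : (((2 ^ (i + 1) : ℕ) : ℝ) + |Real.log D|) / k ≤ 3 * 2 ^ i / k := by
      apply div_le_div_of_nonneg_right _ hkR.le
      push_cast
      rw [pow_succ]
      linarith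
    linarith
  have hl2 : C * (3 * 2 ^ i / k) ≤ (3 / 8) * 2 ^ i := by
    have h2i : (0:ℝ) < 2 ^ i := by positivity
    rw [mul_div_assoc', div_le_iff₀ hkR]
    nlinarith
  have a1 : 0 ≤ lev q (2 ^ i) - lev q (2 ^ (i + 1)) :=
    sub_nonneg.mpr (lev_anti hj0 hj0i (Nat.pow_le_pow_right (by norm_num) (by omega)))
  have ho := osg_dyadic i
  have hs2 : (2:ℝ) ^ i / 2 ≤ (3 / 8) * 2 ^ i + C * ((lev q (2 ^ i) - lev q (2 ^ (i + 1))) *
      (6 * 2 ^ (i + 1) * ((i : ℝ) + 1))) := by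
    have h1 : C * Real.log (lev q (2 ^ i) / lev q (2 ^ (i + 1))) ≤ (3 / 8) * 2 ^ i :=
      (mul_le_mul_of_nonneg_left hl1 hC.le).trans hl2
    have h2 : C * ((lev q (2 ^ i) - lev q (2 ^ (i + 1))) * osg (((2 ^ (i + 1) : ℕ)) : ℝ)) ≤
        C * ((lev q (2 ^ i) - lev q (2 ^ (i + 1))) * (6 * 2 ^ (i + 1) * ((i : ℝ) + 1))) := by
      apply mul_le_mul_of_nonneg_left _ hC.le
      apply mul_le_mul_of_nonneg_left _ a1
      push_cast
      exact ho
    push_cast at hs h2 ⊢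
    linarith
  have h2i : (0:ℝ) < 2 ^ i := by positivity
  have hi0 : (0:ℝ) < (i : ℝ) + 1 := by positivity
  rw [div_le_iff₀ hi0, div_le_iff₀ (by positivity)]
  have e3 : (2:ℝ) ^ (i + 1) = 2 * 2 ^ i := by rw [pow_succ]; ring
  have h3 : (2:ℝ) ^ i * 1 ≤ 2 ^ i * ((lev q (2 ^ i) - lev q (2 ^ (i + 1))) * ((i : ℝ) + 1) * (96 * C)) := by
    rw [e3] at hs2
    have e4 : C * ((lev q (2 ^ i) - lev q (2 ^ (i + 1))) * (6 * (2 * 2 ^ i) * ((i : ℝ) + 1))) =
        (1 / 8) * (2 ^ i * ((lev q (2 ^ i) - lev q (2 ^ (i + 1))) * ((i : ℝ) + 1) * (96 * C))) := by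
      ring
    rw [e4] at hs2
    linarith
  exact le_of_mul_le_mul_left h3 h2i

/-- abstract counting lemma used at later stages -/
theorem no_slow_decay' (T : ℕ → ℝ) (h0 : ∀ j, 0 ≤ T j) (j0 : ℕ) (c : ℝ) (hc : 0 < c)
    (h : ∀ j, j0 ≤ j → c / osg ((j + 1 : ℕ) : ℝ) ≤ T j - T (j + 1)) : False := by
  have hosg : ∀ n : ℕ, 0 < osg (n : ℝ) := by
    intro n
    unfold osg
    have hn : (0:ℝ) ≤ n := Nat.cast_nonneg _
    have := Real.log_nonneg (show (1:ℝ) ≤ 1 + n by linarith)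
    positivity
  have hanti : ∀ i j, j0 ≤ i → i ≤ j → T j ≤ T i := by
    intro i j hi hij
    induction j, hij using Nat.le_induction with
    | base => exact le_refl _
    | succ k hk ih =>
      have := h k (by omega)
      have h2 := div_pos hc (hosg (k + 1))
      linarith
  have hsum : ∀ J n : ℕ, j0 ≤ J → (n : ℝ) * (c / osg ((J + n : ℕ) : ℝ)) ≤ T J - T (J + n) := by
    intro J n hJ
    induction n with
    | zero => simp
    | succ n ih =>
      have h1 := h (J + n) (by omega)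
      have m1 : osg ((J + n : ℕ) : ℝ) ≤ osg ((J + n + 1 : ℕ) : ℝ) :=
        osg_mono (Nat.cast_nonneg _) (by push_cast; linarith)
      have m2 : c / osg ((J + n + 1 : ℕ) : ℝ) ≤ c / osg ((J + n : ℕ) : ℝ) :=
        div_le_div_of_nonneg_left hc.le (hosg _) m1
      have m3 := mul_le_mul_of_nonneg_left m2 (Nat.cast_nonneg (α := ℝ) n)
      rw [show J + (n + 1) = J + n + 1 by ring]
      push_cast at ih h1 m3 ⊢
      nlinarith
  have hj0 : ∀ i : ℕ, j0 ≤ i → j0 ≤ 2 ^ i := fun i hi => hi.trans (Nat.lt_two_pow_self).le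
  apply no_slow_decay T h0 j0 (c / 12) (by positivity)
  intro i hi
  have hs := hsum (2 ^ i) (2 ^ i) (hj0 i hi)
  have e2 : 2 ^ i + 2 ^ i = 2 ^ (i + 1) := by rw [pow_succ]; ring
  rw [e2] at hs
  refine le_trans ?_ hs
  have ho := osg_dyadic i
  have hp := hosg (2 ^ (i + 1))
  have hi0 : (0:ℝ) < (i : ℝ) + 1 := by positivity
  push_cast at hp ⊢
  rw [mul_div_assoc', div_div, div_le_div_iff₀ (by positivity) hp]
  have e3 : (2:ℝ) ^ (i + 1) = 2 * 2 ^ i := by rw [pow_succ]; ring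
  have h5 : c * osg (2 ^ (i + 1)) ≤ c * (6 * 2 ^ (i + 1) * ((i : ℝ) + 1)) :=
    mul_le_mul_of_nonneg_left ho hc.le
  calc c * osg (2 ^ (i + 1)) ≤ c * (6 * 2 ^ (i + 1) * ((i : ℝ) + 1)) := h5
    _ = 2 ^ i * c * (12 * ((i : ℝ) + 1)) := by rw [e3]; ring

/-- **Closing lemma, later stages.** -/
theorem osgood_zero (q : ℝ → ℝ) (C : ℝ) (hC : 0 < C)
    (hD : ∀ T₁ T₂ ℓ, 0 ≤ T₁ → T₁ ≤ T₂ → T₂ ≤ 1 → 0 < ℓ → ℓ ≤ 1 → q T₁ ≤ ℓ → ℓ ≤ q T₂ →
      q T₂ ≤ q T₁ + C * ((T₂ - T₁) * osg (Real.log (1 / ℓ))) * q T₂)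
    (h0 : q 0 ≤ 0) : q 1 ≤ 0 := by
  by_contra hcon
  push Not at hcon
  obtain ⟨j0, hj0⟩ : ∃ j0 : ℕ, Real.exp (-(j0 : ℝ)) ≤ q 1 := by
    obtain ⟨n, hn⟩ := exists_nat_gt (-Real.log (q 1))
    refine ⟨n, ?_⟩
    rw [← Real.le_log_iff_exp_le hcon]
    linarith
  have hosg : ∀ n : ℕ, 0 < osg (n : ℝ) := by
    intro n
    unfold osg
    have hn : (0:ℝ) ≤ n := Nat.cast_nonneg _
    have := Real.log_nonneg (show (1:ℝ) ≤ 1 + n by linarith)
    positivity
  have hexp1 : ∀ j : ℕ, Real.exp (-(j : ℝ)) ≤ 1 := by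
    intro j
    rw [Real.exp_le_one_iff]
    have : (0:ℝ) ≤ (j : ℝ) := Nat.cast_nonneg _
    linarith
  have hlg : ∀ j : ℕ, Real.log (1 / Real.exp (-(j : ℝ))) = j := by
    intro j
    rw [one_div, ← Real.exp_neg, neg_neg, Real.log_exp]
  have hpos : ∀ j, j0 ≤ j → 0 < lev q j := by
    intro j hj
    have hlb : 1 / (C * osg (j : ℝ)) ≤ lev q j := by
      apply le_csInf ⟨1, lev_mem_one hj0 hj⟩
      intro T hT
      have h := hD 0 T (Real.exp (-(j : ℝ))) (le_refl _) hT.1.le hT.2.1 (Real.exp_pos _)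
        (hexp1 j) (h0.trans (Real.exp_pos _).le) hT.2.2
      rw [hlg] at h
      have hp : 0 < q T := lt_of_lt_of_le (Real.exp_pos _) hT.2.2
      rw [div_le_iff₀ (mul_pos hC (hosg j))]
      have h2 : q T * 1 ≤ q T * (T * (C * osg (j : ℝ))) := by
        nlinarith
      exact le_of_mul_le_mul_left h2 hp
    exact lt_of_lt_of_le (div_pos one_pos (mul_pos hC (hosg j))) hlb
  apply no_slow_decay' (fun j => lev q j) (fun j => lev_nonneg j) j0 (1 / (2 * C)) (by positivity)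
  intro j hj
  have hp1 := hpos (j + 1) (by omega)
  have hstep := lev_step (q := q) hj0 hj hp1
      (fun T₁ T₂ => C * ((T₂ - T₁) * osg ((j + 1 : ℕ) : ℝ)))
      (by
        apply ContinuousAt.mul continuousAt_const
        exact (continuousAt_snd.sub continuousAt_fst).mul continuousAt_const)
      (by
        intro T₁ T₂ h1 h2 h3 h4 h5
        have := hD T₁ T₂ (Real.exp (-((j + 1 : ℕ) : ℝ))) h1.le h2 h3 (Real.exp_pos _)
          (hexp1 _) h4 h5
        rwa [hlg] at this)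
  rw [div_le_iff₀ (hosg (j + 1)), div_le_iff₀ (by positivity)]
  nlinarith

end Crest.Agent.H14
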