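import Mathlib
import Crest.Agent.H14.Osgood

/-! Row 160, R0 (helper5): two real-variable lemmas. -/

set_option autoImplicit false

open Finset Filter Topology

namespace Crest.Agent.H14

/-- the exponent `X = 1 + log (1/ℓ)` -/
theorem exp_neg_X {ℓ : ℝ} (hℓ : 0 < ℓ) : Real.exp (-(1 + Real.log (1 / ℓ))) ≤ ℓ := by
  have : -(1 + Real.log (1 / ℓ)) = Real.log ℓ - 1 := by
    rw [one_div, Real.log_inv]; ring
  rw [this]
  calc Real.exp (Real.log ℓ - 1) ≤ Real.exp (Real.log ℓ) := Real.exp_le_exp.2 (by linarith)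
    _ = ℓ := Real.exp_log hℓ

theorem osg_one_add {x : ℝ} (hx : 0 ≤ x) : osg (1 + x) ≤ 4 * osg x := by
  unfold osg
  have h0 : 0 ≤ Real.log (1 + x) := Real.log_nonneg (by linarith)
  have h1 : Real.log (1 + (1 + x)) ≤ 1 + Real.log (1 + x) := by
    have h2 : Real.log (1 + (1 + x)) ≤ Real.log (2 * (1 + x)) :=
      Real.log_le_log (by linarith) (by linarith)
    rw [Real.log_mul (by norm_num) (by linarith)] at h2
    have := Real.log_two_lt_d9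
    linarith
  have h3 : 0 ≤ Real.log (1 + (1 + x)) := Real.log_nonneg (by linarith)
  nlinarith [mul_nonneg hx h0, mul_nonneg hx h3]

theorem scalar_stay (q : ℝ → ℝ) (h0 : ∀ s, 0 ≤ q s) (h4 : ∀ s, q s ≤ 4)
    (hmono : ∀ s₁ s₂, 0 ≤ s₁ → s₁ ≤ s₂ → s₂ ≤ 1 → q s₁ ≤ q s₂) (hstart : q 0 = 0)
    (hB : ∃ C : ℝ, 0 < C ∧ ∀ s₁ s₂ X, 0 ≤ s₁ → s₁ ≤ s₂ → s₂ ≤ 1 → 1 ≤ X →
      q s₂ ≤ q s₁ + C * (s₂ - s₁) * ((1 + X) * (1 + Real.log (1 + X)) *
        (q s₂ + Real.exp (-X)))) :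
    q 1 = 0 := by
  obtain ⟨C, hC, hB⟩ := hB
  apply le_antisymm _ (h0 1)
  apply osgood_zero q (8 * C) (by positivity) _ hstart.le
  intro T₁ T₂ ℓ h1 h12 h2 hℓ hℓ1 hq1 hq2
  have hx : 0 ≤ Real.log (1 / ℓ) := Real.log_nonneg (by rw [le_div_iff₀ hℓ]; linarith)
  have h3 := hB T₁ T₂ (1 + Real.log (1 / ℓ)) h1 h12 h2 (by linarith)
  have h5 := exp_neg_X hℓ
  have h6 := osg_one_add hx
  have h7 := osg_nonneg hx
  have h8 : 0 ≤ osg (1 + Real.log (1 / ℓ)) := osg_nonneg (by linarith)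
  have e : (1 + (1 + Real.log (1 / ℓ))) * (1 + Real.log (1 + (1 + Real.log (1 / ℓ)))) =
    osg (1 + Real.log (1 / ℓ)) := rfl
  rw [e] at h3
  have h9 : 0 ≤ C * (T₂ - T₁) := mul_nonneg hC.le (by linarith)
  have h10 : osg (1 + Real.log (1 / ℓ)) * (q T₂ + Real.exp (-(1 + Real.log (1 / ℓ)))) ≤
      (4 * osg (Real.log (1 / ℓ))) * (2 * q T₂) := by
    apply mul_le_mul h6 (by linarith) (add_nonneg (h0 _) (Real.exp_pos _).le) (by positivity)
  have h11 := mul_le_mul_of_nonneg_left h10 h9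
  calc q T₂ ≤ _ := h3
    _ ≤ q T₁ + C * (T₂ - T₁) * (4 * osg (Real.log (1 / ℓ)) * (2 * q T₂)) := by linarith
    _ = _ := by ring

/-! ### flatness at zero -/

/-- `(1 + log(2/s))^3 ≤ K s^(-1/4)` in the form used below -/
theorem log_cube_le : ∃ K : ℝ, 0 < K ∧ ∀ s : ℝ, 0 < s → s ≤ 1 →
    (1 + Real.log (2 / s)) ^ 3 ≤ K * s ^ (-(1 / 4) : ℝ) := by
  refine ⟨(1 + 12 * 2) ^ 3, by norm_num, fun s hs hs1 => ?_⟩
  have h1 : Real.log (2 / s) ≤ 12 * 2 * s ^ (-(1 / 12) : ℝ) := by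
    have h2 := Real.log_le_rpow_div (x := 2 / s) (by positivity) (ε := 1 / 12) (by norm_num)
    have h3 : (2 / s) ^ (1 / 12 : ℝ) ≤ 2 * s ^ (-(1 / 12) : ℝ) := by
      rw [Real.div_rpow (by norm_num) hs.le, Real.rpow_neg hs.le, div_eq_mul_inv]
      apply mul_le_mul_of_nonneg_right _ (by positivity)
      calc (2 : ℝ) ^ (1 / 12 : ℝ) ≤ 2 ^ (1 : ℝ) :=
            Real.rpow_le_rpow_of_exponent_le (by norm_num) (by norm_num)
        _ = 2 := by norm_num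
    calc Real.log (2 / s) ≤ (2 / s) ^ (1 / 12 : ℝ) / (1 / 12) := h2
      _ = 12 * (2 / s) ^ (1 / 12 : ℝ) := by ring
      _ ≤ 12 * (2 * s ^ (-(1 / 12) : ℝ)) := by linarith
      _ = _ := by ring
  have h4 : (1 : ℝ) ≤ s ^ (-(1 / 12) : ℝ) :=
    Real.one_le_rpow_of_pos_of_le_one_of_nonpos hs hs1 (by norm_num)
  have h5 : 0 ≤ Real.log (2 / s) := Real.log_nonneg (by rw [le_div_iff₀ hs]; linarith)
  have h6 : 1 + Real.log (2 / s) ≤ (1 + 12 * 2) * s ^ (-(1 / 12) : ℝ) := by linarith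
  calc (1 + Real.log (2 / s)) ^ 3 ≤ ((1 + 12 * 2) * s ^ (-(1 / 12) : ℝ)) ^ 3 :=
        pow_le_pow_left₀ (by linarith) h6 3
    _ = (1 + 12 * 2) ^ 3 * (s ^ (-(1 / 12) : ℝ)) ^ 3 := by rw [mul_pow]
    _ = (1 + 12 * 2) ^ 3 * s ^ (-(1 / 4) : ℝ) := by
        rw [← Real.rpow_natCast (s ^ (-(1 / 12) : ℝ)) 3, ← Real.rpow_mul hs.le]
        norm_num

/-- dyadic summation -/
theorem dyadic_sum (q : ℝ → ℝ) (h0 : ∀ s, 0 ≤ q s) (C₀ : ℝ)
    (htriv : ∀ s, 0 < s → s ≤ 1 → q s ≤ C₀ * s) (a K : ℝ) (ha : 1 / 4 ≤ a) (hK : 0 ≤ K)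
    (hd : ∀ s, 0 < s → s ≤ 1 → q s ≤ q (s / 2) + K * s ^ a) :
    ∃ K' : ℝ, 0 ≤ K' ∧ ∀ s, 0 < s → s ≤ 1 → q s ≤ K' * s ^ a := by
  -- ratio of the geometric series
  set ρ : ℝ := (1 / 2 : ℝ) ^ a with hρ
  have hρ0 : 0 < ρ := by positivity
  have hρ1 : ρ < 1 := Real.rpow_lt_one (by norm_num) (by norm_num) (by linarith)
  refine ⟨K / (1 - ρ), div_nonneg hK (by linarith), fun s hs hs1 => ?_⟩
  have key : ∀ n : ℕ, q s ≤ q (s / 2 ^ n) + K * s ^ a * ∑ i ∈ range n, ρ ^ i := by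
    intro n
    induction n with
    | zero => simp
    | succ n ih =>
      have hp : (0 : ℝ) < 2 ^ n := by positivity
      have hp1 : (1 : ℝ) ≤ 2 ^ n := one_le_pow₀ (by norm_num)
      have h1 := hd (s / 2 ^ n) (by positivity) (by
        rw [div_le_one hp]; linarith)
      have h2 : s / 2 ^ n / 2 = s / 2 ^ (n + 1) := by rw [div_div, pow_succ]
      have h3 : (s / 2 ^ n) ^ a = s ^ a * ρ ^ n := by
        rw [Real.div_rpow hs.le hp.le, hρ, div_eq_mul_inv]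
        congr 1
        rw [← Real.inv_rpow hp.le, ← Real.rpow_mul_natCast (by norm_num), mul_comm a,
          Real.rpow_mul (by norm_num), Real.rpow_natCast]
        congr 1
        rw [one_div, inv_pow]
      rw [h2, h3] at h1
      rw [Finset.sum_range_succ]
      linarith [h1, ih]
  have hgeo : ∀ n : ℕ, ∑ i ∈ range n, ρ ^ i ≤ 1 / (1 - ρ) := by
    intro n
    rw [geom_sum_eq hρ1.ne, ← neg_div_neg_eq, neg_sub, neg_sub]
    apply div_le_div_of_nonneg_right _ (by linarith)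
    have : 0 ≤ ρ ^ n := by positivity
    linarith
  have hlim : Tendsto (fun n : ℕ => q (s / 2 ^ n)) atTop (𝓝 0) := by
    have h1 : Tendsto (fun n : ℕ => |C₀| * (s * (1 / 2) ^ n)) atTop (𝓝 0) := by
      have := ((tendsto_pow_atTop_nhds_zero_of_lt_one (r := (1 / 2 : ℝ)) (by norm_num)
        (by norm_num)).const_mul s).const_mul |C₀|
      simpa using this
    apply squeeze_zero (fun n => h0 _) _ h1
    intro n
    have hp : (0 : ℝ) < 2 ^ n := by positivity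
    have hp1 : (1 : ℝ) ≤ 2 ^ n := one_le_pow₀ (by norm_num)
    have h2 := htriv (s / 2 ^ n) (by positivity) (by rw [div_le_one hp]; linarith)
    calc q (s / 2 ^ n) ≤ C₀ * (s / 2 ^ n) := h2
      _ ≤ |C₀| * (s / 2 ^ n) := mul_le_mul_of_nonneg_right (le_abs_self _) (by positivity)
      _ = _ := by rw [one_div, inv_pow, div_eq_mul_inv]
  have h5 : ∀ n : ℕ, q s ≤ q (s / 2 ^ n) + K / (1 - ρ) * s ^ a := by
    intro n
    have hsa : 0 ≤ K * s ^ a := by positivity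
    calc q s ≤ _ := key n
      _ ≤ q (s / 2 ^ n) + K * s ^ a * (1 / (1 - ρ)) := by
          have := mul_le_mul_of_nonneg_left (hgeo n) hsa
          linarith
      _ = _ := by ring
  have h6 : Tendsto (fun n : ℕ => q (s / 2 ^ n) + K / (1 - ρ) * s ^ a) atTop
      (𝓝 (0 + K / (1 - ρ) * s ^ a)) := hlim.add tendsto_const_nhds
  rw [zero_add] at h6
  exact ge_of_tendsto' h6 h5

theorem flat_step (q : ℝ → ℝ) (h0 : ∀ s, 0 ≤ q s) (C₀ : ℝ)
    (htriv : ∀ s, 0 < s → s ≤ 1 → q s ≤ C₀ * s)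
    (hA : ∀ p A : ℕ, 2 ≤ p → ∃ C : ℝ, 0 < C ∧ ∀ s₁ s₂, 0 < s₁ → s₁ ≤ s₂ → s₂ ≤ 1 →
      q s₂ ≤ q s₁ + C * (s₂ - s₁) * s₂ * (1 / s₁ * (1 + Real.log (1 / s₁)) ^ 3 *
        (q s₂ ^ (1 - 1 / (p : ℝ)) + s₂ ^ A))) (n : ℕ) :
    ∃ K : ℝ, 0 ≤ K ∧ ∀ s, 0 < s → s ≤ 1 → q s ≤ K * s ^ (1 + (n : ℝ) / 2) := by
  induction n with
  | zero =>
    refine ⟨|C₀|, abs_nonneg _, fun s hs hs1 => ?_⟩
    have e : (1 + ((0 : ℕ) : ℝ) / 2) = 1 := by norm_num
    rw [e, Real.rpow_one]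
    exact (htriv s hs hs1).trans (mul_le_mul_of_nonneg_right (le_abs_self _) hs.le)
  | succ n ih =>
    obtain ⟨Kn, hKn, hq⟩ := ih
    obtain ⟨C, hC, hA⟩ := hA (4 + 2 * n) (n + 1) (by omega)
    obtain ⟨K, hK, hlog⟩ := log_cube_le
    set a : ℝ := 1 + (n : ℝ) / 2 with ha
    have hn : (0 : ℝ) ≤ n := Nat.cast_nonneg n
    set θ : ℝ := 1 - 1 / ((4 + 2 * n : ℕ) : ℝ) with hθ
    have hθ0 : 0 ≤ θ := by
      rw [hθ]
      push_cast
      have : 1 / (4 + 2 * (n:ℝ)) ≤ 1 := by rw [div_le_one (by positivity)]; linarith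
      linarith
    have haθ : a * θ = a - 1 / 4 := by
      rw [hθ, ha]
      push_cast
      field_simp
      ring
    have hdy : ∀ s, 0 < s → s ≤ 1 → q s ≤ q (s / 2) + (C * K * (Kn ^ θ + 1)) * s ^ (a + 1 / 2) := by
      intro s hs hs1
      have h1 := hA (s / 2) s (by positivity) (by linarith) hs1
      have e1 : 1 / (s / 2) = 2 / s := by field_simp
      rw [e1] at h1
      have h2 := hlog s hs hs1
      have h3 : q s ^ θ ≤ Kn ^ θ * s ^ (a - 1 / 4) := by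
        calc q s ^ θ ≤ (Kn * s ^ a) ^ θ := Real.rpow_le_rpow (h0 s) (hq s hs hs1) hθ0
          _ = Kn ^ θ * s ^ (a - 1 / 4) := by
            rw [Real.mul_rpow hKn (by positivity), ← Real.rpow_mul hs.le, haθ]
      have h4 : s ^ (n + 1) ≤ s ^ (a - 1 / 4) := by
        rw [← Real.rpow_natCast s (n + 1)]
        apply Real.rpow_le_rpow_of_exponent_ge hs hs1
        rw [ha]; push_cast; linarith
      have h5 : q s ^ θ + s ^ (n + 1) ≤ (Kn ^ θ + 1) * s ^ (a - 1 / 4) := by linarith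
      have h6 : 0 ≤ q s ^ θ + s ^ (n + 1) := by
        have := Real.rpow_nonneg (h0 s) θ
        positivity
      have h7 : 0 ≤ (1 + Real.log (2 / s)) ^ 3 := by
        have : 0 ≤ Real.log (2 / s) := Real.log_nonneg (by rw [le_div_iff₀ hs]; linarith)
        positivity
      have h8 : (1 + Real.log (2 / s)) ^ 3 * (q s ^ θ + s ^ (n + 1)) ≤
          (K * s ^ (-(1 / 4) : ℝ)) * ((Kn ^ θ + 1) * s ^ (a - 1 / 4)) :=
        mul_le_mul h2 h5 h6 (by positivity)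
      have e2 : C * (s - s / 2) * s * (2 / s * (1 + Real.log (2 / s)) ^ 3 *
          (q s ^ θ + s ^ (n + 1))) =
          C * s * ((1 + Real.log (2 / s)) ^ 3 * (q s ^ θ + s ^ (n + 1))) := by
        field_simp
        ring
      rw [e2] at h1
      have h9 : C * s * ((1 + Real.log (2 / s)) ^ 3 * (q s ^ θ + s ^ (n + 1))) ≤
          C * s * ((K * s ^ (-(1 / 4) : ℝ)) * ((Kn ^ θ + 1) * s ^ (a - 1 / 4))) :=
        mul_le_mul_of_nonneg_left h8 (by positivity)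
      have e3 : s * s ^ (-(1 / 4) : ℝ) * s ^ (a - 1 / 4) = s ^ (a + 1 / 2) := by
        nth_rewrite 1 [← Real.rpow_one s]
        rw [← Real.rpow_add hs, ← Real.rpow_add hs]
        congr 1; ring
      calc q s ≤ _ := h1
        _ ≤ q (s / 2) + C * s * ((K * s ^ (-(1 / 4) : ℝ)) * ((Kn ^ θ + 1) * s ^ (a - 1 / 4))) := by
          linarith
        _ = q (s / 2) + (C * K * (Kn ^ θ + 1)) * (s * s ^ (-(1 / 4) : ℝ) * s ^ (a - 1 / 4)) := by
          ring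
        _ = _ := by rw [e3]
    have hKθ : 0 ≤ Kn ^ θ := Real.rpow_nonneg hKn _
    obtain ⟨K', hK', h⟩ := dyadic_sum q h0 C₀ htriv (a + 1 / 2) (C * K * (Kn ^ θ + 1))
      (by rw [ha]; linarith) (by positivity) hdy
    refine ⟨K', hK', fun s hs hs1 => ?_⟩
    have e4 : 1 + ((n + 1 : ℕ) : ℝ) / 2 = a + 1 / 2 := by rw [ha]; push_cast; ring
    rw [e4]
    exact h s hs hs1

/-- chaining of the local estimate -/
theorem chain_step (q : ℝ → ℝ) (h0 : ∀ s, 0 ≤ q s) (C X B : ℝ) (hC : 0 < C) (hX : 1 ≤ X)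
    (hB : ∀ s₁ s₂, 0 < s₁ → s₁ ≤ s₂ → s₂ ≤ 1 →
      q s₂ ≤ q s₁ + C * (s₂ - s₁) * s₂ * ((1 / s₁ + X) * (1 / s₁ + Real.log (1 + X)) *
        (q s₂ + Real.exp (-X)))) (k : ℕ) :
    ∀ s₁ s₂, 0 < s₁ → s₁ ≤ s₂ → s₂ ≤ 1 → s₂ ≤ 2 ^ k * s₁ →
      (∀ s, s₁ ≤ s → s ≤ s₂ → q s + Real.exp (-X) ≤ B) →
      q s₂ ≤ q s₁ + C * (4 * Real.log (s₂ / s₁) + 4 * (s₂ - s₁) * osg X) * B := by
  have hlX : 0 ≤ Real.log (1 + X) := Real.log_nonneg (by linarith)
  have hXos : X * Real.log (1 + X) + 2 * X + 2 * Real.log (1 + X) ≤ 4 * osg X := by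
    unfold osg
    nlinarith [mul_nonneg (by linarith : (0:ℝ) ≤ X) hlX]
  have base : ∀ s₁ s₂, 0 < s₁ → s₁ ≤ s₂ → s₂ ≤ 1 → s₂ ≤ 2 * s₁ →
      q s₂ + Real.exp (-X) ≤ B →
      q s₂ ≤ q s₁ + C * (4 * Real.log (s₂ / s₁) + 4 * (s₂ - s₁) * osg X) * B := by
    intro s₁ s₂ h1 h12 h2 h22 hBB
    have h3 := hB s₁ s₂ h1 h12 h2
    have hpos2 : 0 < s₂ := lt_of_lt_of_le h1 h12
    have hlog : (s₂ - s₁) / s₂ ≤ Real.log (s₂ / s₁) := by
      have := Real.one_sub_inv_le_log_of_pos (x := s₂ / s₁) (by positivity)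
      rw [inv_div] at this
      have e : (s₂ - s₁) / s₂ = 1 - s₁ / s₂ := by field_simp
      rw [e]; exact this
    -- the rate
    have hr : (s₂ - s₁) * s₂ * ((1 / s₁ + X) * (1 / s₁ + Real.log (1 + X))) ≤
        4 * Real.log (s₂ / s₁) + 4 * (s₂ - s₁) * osg X := by
      have hd : 0 ≤ s₂ - s₁ := by linarith
      have e1 : (s₂ - s₁) * s₂ * ((1 / s₁ + X) * (1 / s₁ + Real.log (1 + X))) =
          (s₂ - s₁) / s₂ * (s₂ / s₁) ^ 2 + (s₂ - s₁) * ((s₂ / s₁) * (X + Real.log (1 + X))) +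
            (s₂ - s₁) * s₂ * (X * Real.log (1 + X)) := by
        field_simp
        ring
      have hr1 : s₂ / s₁ ≤ 2 := by rw [div_le_iff₀ h1]; exact h22
      have hr0 : 0 ≤ s₂ / s₁ := by positivity
      have hr2 : (s₂ / s₁) ^ 2 ≤ 4 := by nlinarith
      have t1 : (s₂ - s₁) / s₂ * (s₂ / s₁) ^ 2 ≤ Real.log (s₂ / s₁) * 4 := by
        apply mul_le_mul hlog hr2 (by positivity)
        exact le_trans (by positivity) hlog
      have t2 : (s₂ - s₁) * ((s₂ / s₁) * (X + Real.log (1 + X))) ≤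
          (s₂ - s₁) * (2 * (X + Real.log (1 + X))) :=
        mul_le_mul_of_nonneg_left (mul_le_mul_of_nonneg_right hr1 (by linarith)) hd
      have t3 : (s₂ - s₁) * s₂ * (X * Real.log (1 + X)) ≤ (s₂ - s₁) * 1 * (X * Real.log (1 + X)) := by
        apply mul_le_mul_of_nonneg_right _ (mul_nonneg (by linarith) hlX)
        exact mul_le_mul_of_nonneg_left h2 hd
      have t4 := mul_le_mul_of_nonneg_left hXos hd
      rw [e1]
      nlinarith
    have hq0 : 0 ≤ q s₂ + Real.exp (-X) := add_nonneg (h0 _) (Real.exp_pos _).le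
    have hr0 : 0 ≤ (s₂ - s₁) * s₂ * ((1 / s₁ + X) * (1 / s₁ + Real.log (1 + X))) := by
      have hd : 0 ≤ s₂ - s₁ := by linarith
      positivity
    calc q s₂ ≤ _ := h3
      _ = q s₁ + C * ((s₂ - s₁) * s₂ * ((1 / s₁ + X) * (1 / s₁ + Real.log (1 + X)))) *
          (q s₂ + Real.exp (-X)) := by ring
      _ ≤ q s₁ + C * (4 * Real.log (s₂ / s₁) + 4 * (s₂ - s₁) * osg X) * B := by
          have := mul_le_mul (mul_le_mul_of_nonneg_left hr hC.le) hBB hq0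
            (mul_nonneg hC.le (hr0.trans hr))
          linarith
  induction k with
  | zero =>
    intro s₁ s₂ h1 h12 h2 h22 hBB
    simp only [pow_zero, one_mul] at h22
    exact base s₁ s₂ h1 h12 h2 (by linarith) (hBB s₂ h12 le_rfl)
  | succ k ih =>
    intro s₁ s₂ h1 h12 h2 h22 hBB
    by_cases hc : s₂ ≤ 2 * s₁
    · exact base s₁ s₂ h1 h12 h2 hc (hBB s₂ h12 le_rfl)
    · push Not at hc
      have e1 : s₂ / 2 ≤ 2 ^ k * s₁ := by
        rw [pow_succ] at h22; linarith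
      have i1 := ih s₁ (s₂ / 2) h1 (by linarith) (by linarith) e1
        (fun s hs hs' => hBB s hs (by linarith))
      have i2 := base (s₂ / 2) s₂ (by linarith) (by linarith) h2 (by linarith) (hBB s₂ h12 le_rfl)
      have hlog : Real.log (s₂ / 2 / s₁) + Real.log (s₂ / (s₂ / 2)) = Real.log (s₂ / s₁) := by
        have hp2 : 0 < s₂ := by linarith
        rw [← Real.log_mul (by positivity) (by positivity)]
        congr 1
        field_simp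
      calc q s₂ ≤ _ := i2
        _ ≤ _ := add_le_add_left i1 _
        _ = q s₁ + C * (4 * (Real.log (s₂ / 2 / s₁) + Real.log (s₂ / (s₂ / 2))) +
            4 * (s₂ - s₁) * osg X) * B := by ring
        _ = _ := by rw [hlog]

theorem scalar_zero (q : ℝ → ℝ) (h0 : ∀ s, 0 ≤ q s) (_h4 : ∀ s, q s ≤ 4)
    (hmono : ∀ s₁ s₂, 0 < s₁ → s₁ ≤ s₂ → s₂ ≤ 1 → q s₁ ≤ q s₂)
    (C₀ : ℝ) (htriv : ∀ s, 0 < s → s ≤ 1 → q s ≤ C₀ * s)
    (hA : ∀ p A : ℕ, 2 ≤ p → ∃ C : ℝ, 0 < C ∧ ∀ s₁ s₂, 0 < s₁ → s₁ ≤ s₂ → s₂ ≤ 1 →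
      q s₂ ≤ q s₁ + C * (s₂ - s₁) * s₂ * (1 / s₁ * (1 + Real.log (1 / s₁)) ^ 3 *
        (q s₂ ^ (1 - 1 / (p : ℝ)) + s₂ ^ A)))
    (hB : ∃ C : ℝ, 0 < C ∧ ∀ s₁ s₂ X, 0 < s₁ → s₁ ≤ s₂ → s₂ ≤ 1 → 1 ≤ X →
      q s₂ ≤ q s₁ + C * (s₂ - s₁) * s₂ * ((1 / s₁ + X) * (1 / s₁ + Real.log (1 + X)) *
        (q s₂ + Real.exp (-X)))) :
    q 1 = 0 := by
  obtain ⟨C, hC, hB⟩ := hB
  apply le_antisymm _ (h0 1)
  apply osgood_flat q (32 * C) (by positivity)
  · intro k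
    obtain ⟨K, hK, h⟩ := flat_step q h0 C₀ htriv hA (2 * k)
    refine ⟨K, fun T hT hT1 => (h T hT hT1).trans ?_⟩
    apply mul_le_mul_of_nonneg_left _ hK
    rw [← Real.rpow_natCast T k]
    apply Real.rpow_le_rpow_of_exponent_ge hT hT1
    push_cast
    linarith
  · intro T₁ T₂ ℓ h1 h12 h2 hℓ hℓ1 hq1 hq2
    have hx : 0 ≤ Real.log (1 / ℓ) := Real.log_nonneg (by rw [le_div_iff₀ hℓ]; linarith)
    obtain ⟨k, hk⟩ : ∃ k : ℕ, T₂ ≤ 2 ^ k * T₁ := by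
      obtain ⟨k, hk⟩ := pow_unbounded_of_one_lt (T₂ / T₁) (one_lt_two)
      exact ⟨k, by rw [div_lt_iff₀ h1] at hk; exact hk.le⟩
    have h5 := exp_neg_X hℓ
    have h6 := chain_step q h0 C (1 + Real.log (1 / ℓ)) (2 * q T₂) hC (by linarith)
      (fun s₁ s₂ a b c => hB s₁ s₂ _ a b c (by linarith)) k T₁ T₂ h1 h12 h2 hk (by
        intro s hs hs'
        have := hmono s T₂ (by linarith) hs' h2
        linarith)
    have h7 := osg_one_add hx
    have h8 := osg_nonneg hx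
    have hlog : 0 ≤ Real.log (T₂ / T₁) := Real.log_nonneg (by rw [le_div_iff₀ h1]; linarith)
    have h9 : C * (4 * Real.log (T₂ / T₁) + 4 * (T₂ - T₁) * osg (1 + Real.log (1 / ℓ))) *
        (2 * q T₂) ≤ C * (4 * Real.log (T₂ / T₁) + 4 * (T₂ - T₁) * (4 * osg (Real.log (1 / ℓ)))) *
        (2 * q T₂) := by
      apply mul_le_mul_of_nonneg_right _ (by have := h0 T₂; linarith)
      apply mul_le_mul_of_nonneg_left _ hC.le
      have := mul_le_mul_of_nonneg_left h7 (by linarith : (0:ℝ) ≤ 4 * (T₂ - T₁))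
      linarith
    have h10 : C * (4 * Real.log (T₂ / T₁) + 4 * (T₂ - T₁) * (4 * osg (Real.log (1 / ℓ)))) *
        (2 * q T₂) ≤ 32 * C * (Real.log (T₂ / T₁) + (T₂ - T₁) * osg (Real.log (1 / ℓ))) * q T₂ := by
      have : 0 ≤ C * Real.log (T₂ / T₁) * q T₂ := by have := h0 T₂; positivity
      nlinarith
    linarith

end Crest.Agent.H14
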