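import Mathlib
import Crest.Agent.H14.Defs

/-! Row 160 (A) (helper5): binary combination of independent symmetric evidences.

* `pair_le`: pointwise convex-order inequality
  `(1+st) φ(opl s t) + (1-st) φ(opl s (-t)) ≤ φ(s+t) + φ(s-t)` for `φ` even and convex;
* `int_opl_le`: `∫ (1+st) φ(opl s t) dν(t) ≤ ∫ φ(s+t) dν(t)` for symmetric `ν`;
* `int_cosh_le`: `∫ (1+st) cosh(u opl s t) dν(t) ≤ cosh(u s) ∫ cosh(u t) dν(t)`;
* `int_sq_le`, `le_int_sq`: second moments `s² + v - 2 s² v ≤ ∫ (1+st) (opl s t)² dν ≤ s² + v - s² v`.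
-/

set_option autoImplicit false

open MeasureTheory Filter Topology

namespace Crest.Agent.H14

/-- three-point inequality for convex functions -/
theorem three_point {φ : ℝ → ℝ} (hφ : ConvexOn ℝ Set.univ φ) {m A M : ℝ} (h1 : m ≤ A)
    (h2 : A ≤ M) : (M - m) * φ A ≤ (A - m) * φ M + (M - A) * φ m := by
  rcases eq_or_lt_of_le (h1.trans h2) with h | h
  · have hA : A = m := le_antisymm (h2.trans h.ge) h1
    subst hA
    rw [← h]
    simp
  · have hpos : 0 < M - m := by linarith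
    have w1 : 0 ≤ (A - m) / (M - m) := div_nonneg (by linarith) hpos.le
    have w2 : 0 ≤ (M - A) / (M - m) := div_nonneg (by linarith) hpos.le
    have w3 : (A - m) / (M - m) + (M - A) / (M - m) = 1 := by
      rw [← add_div, div_eq_one_iff_eq hpos.ne']; ring
    have hc := hφ.2 (Set.mem_univ M) (Set.mem_univ m) w1 w2 w3
    have e : ((A - m) / (M - m)) • M + ((M - A) / (M - m)) • m = A := by
      simp only [smul_eq_mul]
      rw [div_mul_eq_mul_div, div_mul_eq_mul_div, ← add_div, div_eq_iff hpos.ne']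
      ring
    rw [e] at hc
    simp only [smul_eq_mul] at hc
    rw [div_mul_eq_mul_div, div_mul_eq_mul_div, ← add_div, le_div_iff₀ hpos] at hc
    linarith

theorem pair_core {φ : ℝ → ℝ} (hφ : ConvexOn ℝ Set.univ φ) {a b : ℝ} (hb : 0 ≤ b) (hab : b ≤ a)
    (ha : a ≤ 1) (h : a * b < 1) :
    (1 + a * b) * φ ((a + b) / (1 + a * b)) + (1 - a * b) * φ ((a - b) / (1 - a * b)) ≤
      φ (a + b) + φ (a - b) := by
  have ha0 : 0 ≤ a := hb.trans hab
  have hab0 : 0 ≤ a * b := mul_nonneg ha0 hb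
  have hp : 0 < 1 + a * b := by linarith
  have hq : 0 < 1 - a * b := by linarith
  have ha2 : a ^ 2 ≤ 1 := pow_le_one₀ ha0 ha
  rcases eq_or_lt_of_le hb with hb0 | hb0
  · subst hb0
    simp
  · set A := (a + b) / (1 + a * b) with hA
    set B := (a - b) / (1 - a * b) with hB
    have hA1 : A ≤ a + b := by
      rw [hA, div_le_iff₀ hp]; nlinarith
    have hA2 : a - b ≤ A := by
      rw [hA, le_div_iff₀ hp]; nlinarith
    have hB1 : a - b ≤ B := by
      rw [hB, le_div_iff₀ hq]; nlinarith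
    have hB2 : B ≤ a + b := by
      rw [hB, div_le_iff₀ hq]; nlinarith
    have tA := three_point hφ hA2 hA1
    have tB := three_point hφ hB1 hB2
    have eA : (1 + a * b) * A = a + b := by rw [hA]; field_simp
    have eB : (1 - a * b) * B = a - b := by
      rw [hB, mul_div_assoc', mul_comm, mul_div_assoc, div_self hq.ne', mul_one]
    have s1 : (1 + a * b) * ((a + b - (a - b)) * φ A) ≤
        (1 + a * b) * ((A - (a - b)) * φ (a + b) + (a + b - A) * φ (a - b)) :=
      mul_le_mul_of_nonneg_left tA hp.le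
    have s2 : (1 - a * b) * ((a + b - (a - b)) * φ B) ≤
        (1 - a * b) * ((B - (a - b)) * φ (a + b) + (a + b - B) * φ (a - b)) :=
      mul_le_mul_of_nonneg_left tB hq.le
    have s3 : (1 + a * b) * ((A - (a - b)) * φ (a + b) + (a + b - A) * φ (a - b)) +
        (1 - a * b) * ((B - (a - b)) * φ (a + b) + (a + b - B) * φ (a - b)) =
        (2 * b) * (φ (a + b) + φ (a - b)) := by
      have : (1 + a * b) * ((A - (a - b)) * φ (a + b) + (a + b - A) * φ (a - b)) +
        (1 - a * b) * ((B - (a - b)) * φ (a + b) + (a + b - B) * φ (a - b)) =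
        ((1 + a * b) * A + (1 - a * b) * B - 2 * (a - b)) * φ (a + b) +
        (2 * (a + b) - ((1 + a * b) * A + (1 - a * b) * B)) * φ (a - b) := by ring
      rw [this, eA, eB]
      ring
    have s4 : (2 * b) * ((1 + a * b) * φ A + (1 - a * b) * φ B) ≤
        (2 * b) * (φ (a + b) + φ (a - b)) := by
      have : (2 * b) * ((1 + a * b) * φ A + (1 - a * b) * φ B) =
        (1 + a * b) * ((a + b - (a - b)) * φ A) + (1 - a * b) * ((a + b - (a - b)) * φ B) := by ring
      rw [this, ← s3]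
      linarith
    exact le_of_mul_le_mul_left s4 (by linarith)

/-- The pair of values, symmetric form for `s,t ≥ 0`. -/
theorem pair_nonneg {φ : ℝ → ℝ} (hφ : ConvexOn ℝ Set.univ φ) (hev : ∀ x, φ (-x) = φ x) {s t : ℝ}
    (hs0 : 0 ≤ s) (ht0 : 0 ≤ t) (hs : s ≤ 1) (ht : t ≤ 1) (h : s * t < 1) :
    (1 + s * t) * φ ((s + t) / (1 + s * t)) + (1 - s * t) * φ ((s - t) / (1 - s * t)) ≤
      φ (s + t) + φ (s - t) := by
  rcases le_total t s with hts | hst
  · exact pair_core hφ ht0 hts hs h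
  · have := pair_core hφ hs0 hst ht (by rwa [mul_comm] at h)
    rw [mul_comm t s, add_comm t s] at this
    have e1 : φ (t - s) = φ (s - t) := by rw [← hev (s - t)]; congr 1; ring
    have e2 : φ ((t - s) / (1 - s * t)) = φ ((s - t) / (1 - s * t)) := by
      rw [← hev ((s - t) / (1 - s * t))]; congr 1; rw [← neg_div]; congr 1; ring
    rw [e1, e2] at this
    exact this

/-- **Convex order inequality for the binary combination.** -/
theorem pair_le {φ : ℝ → ℝ} (hφ : ConvexOn ℝ Set.univ φ) (hev : ∀ x, φ (-x) = φ x) {s t : ℝ}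
    (hs : |s| ≤ 1) (ht : |t| ≤ 1) (h : |s * t| < 1) :
    (1 + s * t) * φ (opl s t) + (1 - s * t) * φ (opl s (-t)) ≤ φ (s + t) + φ (s - t) := by
  have e0 : opl s (-t) = (s - t) / (1 - s * t) := by
    unfold opl
    rw [show s + -t = s - t by ring, show 1 + s * -t = 1 - s * t by ring]
  rw [e0]
  unfold opl
  have hs' := abs_le.mp hs
  have ht' := abs_le.mp ht
  have h' := abs_lt.mp h
  rcases le_total 0 s with hs0 | hs0 <;> rcases le_total 0 t with ht0 | ht0
  · exact pair_nonneg hφ hev hs0 ht0 hs'.2 ht'.2 h'.2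
  · have := pair_nonneg hφ hev hs0 (t := -t) (by linarith) hs'.2 (by linarith) (by nlinarith)
    have e1 : s + -t = s - t := by ring
    have e2 : s - -t = s + t := by ring
    have e3 : 1 + s * -t = 1 - s * t := by ring
    have e4 : 1 - s * -t = 1 + s * t := by ring
    rw [e1, e2, e3, e4] at this
    linarith
  · have := pair_nonneg hφ hev (s := -s) (by linarith) ht0 (by linarith) ht'.2 (by nlinarith)
    have e1 : -s + t = -(s - t) := by ring
    have e2 : -s - t = -(s + t) := by ring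
    have e3 : 1 + -s * t = 1 - s * t := by ring
    have e4 : 1 - -s * t = 1 + s * t := by ring
    rw [e1, e2, e3, e4, neg_div, neg_div, hev, hev, hev, hev] at this
    linarith
  · have := pair_nonneg hφ hev (s := -s) (t := -t) (by linarith) (by linarith) (by linarith)
      (by linarith) (by nlinarith)
    have e1 : -s + -t = -(s + t) := by ring
    have e2 : -s - -t = -(s - t) := by ring
    have e3 : -s * -t = s * t := by ring
    rw [e1, e2, e3, neg_div, neg_div, hev, hev, hev, hev] at this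
    exact this

/-- symmetrisation of an integral -/
theorem int_symm {ν : Measure ℝ} (hsym : ν.map (fun x => -x) = ν) {f : ℝ → ℝ}
    (hf : Integrable f ν) : ∫ t, f t ∂ν = ∫ t, (f t + f (-t)) / 2 ∂ν := by
  have hmp : MeasurePreserving (fun x : ℝ => -x) ν ν := ⟨measurable_neg, hsym⟩
  have hf' : Integrable (fun t => f (-t)) ν := hmp.integrable_comp_of_integrable hf
  have h1 : ∫ t, f (-t) ∂ν = ∫ t, f t ∂ν := by
    have := (hmp.integral_comp' (f := MeasurableEquiv.neg ℝ) f)
    simpa using this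
  rw [integral_div, integral_add hf hf', h1]
  ring

theorem int_opl_le {ν : Measure ℝ} (hsym : ν.map (fun x => -x) = ν) {φ : ℝ → ℝ}
    (hφ : ConvexOn ℝ Set.univ φ) (hev : ∀ x, φ (-x) = φ x) {s ρ : ℝ} (hs : |s| ≤ 1)
    (hρ : |s| * ρ < 1) (hsupp : ∀ᵐ t ∂ν, |t| ≤ ρ) (hρ1 : ρ ≤ 1)
    (h1 : Integrable (fun t => (1 + s * t) * φ (opl s t)) ν)
    (h2 : Integrable (fun t => φ (s + t)) ν) :
    ∫ t, (1 + s * t) * φ (opl s t) ∂ν ≤ ∫ t, φ (s + t) ∂ν := by
  rw [int_symm hsym h1, int_symm hsym h2]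
  have hmp : MeasurePreserving (fun x : ℝ => -x) ν ν := ⟨measurable_neg, hsym⟩
  apply integral_mono_ae
  · exact ((h1.add (hmp.integrable_comp_of_integrable h1)).div_const 2)
  · exact ((h2.add (hmp.integrable_comp_of_integrable h2)).div_const 2)
  · filter_upwards [hsupp] with t ht
    have hst : |s * t| < 1 := by
      rw [abs_mul]
      exact lt_of_le_of_lt (mul_le_mul_of_nonneg_left ht (abs_nonneg s)) hρ
    have := pair_le hφ hev hs (ht.trans hρ1) hst
    have e1 : 1 + s * -t = 1 - s * t := by ring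
    have e2 : s + -t = s - t := by ring
    simp only [e1, e2]
    linarith

theorem abs_cosh' (x : ℝ) : |Real.cosh x| = Real.cosh x := abs_of_pos (Real.cosh_pos x)

/-- a bounded a.e. measurable function is integrable for a finite measure -/
theorem integrable_bdd {α : Type*} [MeasurableSpace α] {ν : Measure α} [IsFiniteMeasure ν]
    {f : α → ℝ} (hf : AEStronglyMeasurable f ν) {C : ℝ} (hC : ∀ᵐ t ∂ν, |f t| ≤ C) :
    Integrable f ν :=
  Integrable.of_bound hf C (by simpa [Real.norm_eq_abs] using hC)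

theorem measurable_opl_right (s : ℝ) : Measurable (opl s) := by
  unfold opl
  fun_prop

theorem convexOn_cosh (u : ℝ) : ConvexOn ℝ Set.univ (fun x => Real.cosh (u * x)) := by
  have key : ∀ v : ℝ, ∀ x y a b : ℝ, 0 ≤ a → 0 ≤ b → a + b = 1 →
      Real.exp (v * (a * x + b * y)) ≤ a * Real.exp (v * x) + b * Real.exp (v * y) := by
    intro v x y a b ha hb hab
    have := convexOn_exp.2 (Set.mem_univ (v * x)) (Set.mem_univ (v * y)) ha hb hab
    simp only [smul_eq_mul] at this
    rw [show v * (a * x + b * y) = a * (v * x) + b * (v * y) by ring]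
    exact this
  refine ⟨convex_univ, ?_⟩
  intro x _ y _ a b ha hb hab
  simp only [smul_eq_mul, Real.cosh_eq]
  have h1 := key u x y a b ha hb hab
  have h2 := key (-u) x y a b ha hb hab
  simp only [neg_mul] at h2
  linarith

theorem opl_abs_le_one {s t : ℝ} (hs : |s| ≤ 1) (ht : |t| ≤ 1) : |opl s t| ≤ 1 := by
  unfold opl
  have hs' := abs_le.mp hs
  have ht' := abs_le.mp ht
  have h1 : -1 ≤ s * t := by
    rcases le_total 0 s with h | h <;> nlinarith
  rcases eq_or_lt_of_le (show 0 ≤ 1 + s * t by linarith) with h | h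
  · rw [← h]; simp
  · rw [abs_div, abs_of_pos h, div_le_one h, abs_le]
    constructor <;> nlinarith

/-- **MGF of the binary combination.** -/
theorem int_cosh_le {ν : Measure ℝ} [IsFiniteMeasure ν] (hsym : ν.map (fun x => -x) = ν)
    {s ρ : ℝ} (hs : |s| ≤ 1) (hρ : |s| * ρ < 1) (hsupp : ∀ᵐ t ∂ν, |t| ≤ ρ) (hρ1 : ρ ≤ 1) (u : ℝ) :
    ∫ t, (1 + s * t) * Real.cosh (u * opl s t) ∂ν ≤
      Real.cosh (u * s) * ∫ t, Real.cosh (u * t) ∂ν := by
  have hsupp1 : ∀ᵐ t ∂ν, |t| ≤ 1 := by
    filter_upwards [hsupp] with t ht using ht.trans hρ1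
  have hmp : MeasurePreserving (fun x : ℝ => -x) ν ν := ⟨measurable_neg, hsym⟩
  have i1 : Integrable (fun t => (1 + s * t) * Real.cosh (u * opl s t)) ν := by
    apply integrable_bdd (C := 2 * Real.cosh u)
    · have := measurable_opl_right s
      apply Measurable.aestronglyMeasurable
      fun_prop
    · filter_upwards [hsupp1] with t ht
      have h1 : |1 + s * t| ≤ 2 := by
        have hst : |s * t| ≤ 1 := by
          rw [abs_mul]; exact mul_le_one₀ hs (abs_nonneg _) ht
        have := abs_add_le 1 (s * t)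
        rw [abs_one] at this
        linarith
      have h2 : Real.cosh (u * opl s t) ≤ Real.cosh u := by
        rw [Real.cosh_le_cosh, abs_mul]
        have := opl_abs_le_one hs ht
        nlinarith [abs_nonneg u]
      rw [abs_mul, abs_cosh']
      exact mul_le_mul h1 h2 (Real.cosh_pos _).le (by norm_num)
  have i2 : Integrable (fun t => Real.cosh (u * (s + t))) ν := by
    apply integrable_bdd (C := Real.cosh (2 * u))
    · apply Measurable.aestronglyMeasurable
      fun_prop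
    · filter_upwards [hsupp1] with t ht
      rw [abs_cosh', Real.cosh_le_cosh, abs_mul, abs_mul]
      have h1 : |s + t| ≤ 2 := by
        have := abs_add_le s t
        linarith
      rw [abs_of_pos (show (0:ℝ) < 2 by norm_num)]
      nlinarith [abs_nonneg u]
  have i3 : Integrable (fun t => Real.cosh (u * t)) ν := by
    apply integrable_bdd (C := Real.cosh u)
    · apply Measurable.aestronglyMeasurable
      fun_prop
    · filter_upwards [hsupp1] with t ht
      rw [abs_cosh', Real.cosh_le_cosh, abs_mul]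
      nlinarith [abs_nonneg u]
  have i4 : Integrable (fun t => Real.sinh (u * t)) ν := by
    apply integrable_bdd (C := Real.cosh u)
    · apply Measurable.aestronglyMeasurable
      fun_prop
    · filter_upwards [hsupp1] with t ht
      have h1 : |Real.sinh (u * t)| ≤ Real.cosh (u * t) := by
        rw [Real.abs_sinh]
        rw [← Real.cosh_abs (u * t)]
        exact (Real.sinh_lt_cosh _).le
      have h2 : Real.cosh (u * t) ≤ Real.cosh u := by
        rw [Real.cosh_le_cosh, abs_mul]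
        nlinarith [abs_nonneg u]
      exact h1.trans h2
  have main := int_opl_le hsym (convexOn_cosh u)
    (fun x => by rw [mul_neg, Real.cosh_neg]) hs hρ hsupp hρ1 i1 i2
  refine main.trans (le_of_eq ?_)
  have e1 : ∀ t, Real.cosh (u * (s + t)) =
      Real.cosh (u * s) * Real.cosh (u * t) + Real.sinh (u * s) * Real.sinh (u * t) := by
    intro t
    rw [mul_add, Real.cosh_add]
  simp_rw [e1]
  rw [integral_add (i3.const_mul _) (i4.const_mul _), integral_const_mul, integral_const_mul]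
  have e2 : ∫ t, Real.sinh (u * t) ∂ν = 0 := by
    rw [int_symm hsym i4]
    simp [Real.sinh_neg]
  rw [e2]
  ring

/-- the second moment, pointwise averaged identity -/
theorem sq_pair_bounds {s t : ℝ} (hs : |s| ≤ 1) (ht : |t| ≤ 1) (h : |s * t| < 1) :
    2 * (s ^ 2 + t ^ 2 - 2 * (s ^ 2 * t ^ 2)) ≤
      (1 + s * t) * (opl s t) ^ 2 + (1 - s * t) * (opl s (-t)) ^ 2 ∧
    (1 + s * t) * (opl s t) ^ 2 + (1 - s * t) * (opl s (-t)) ^ 2 ≤
      2 * (s ^ 2 + t ^ 2 - s ^ 2 * t ^ 2) := by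
  have e0 : opl s (-t) = (s - t) / (1 - s * t) := by
    unfold opl
    rw [show s + -t = s - t by ring, show 1 + s * -t = 1 - s * t by ring]
  rw [e0]
  unfold opl
  have h' := abs_lt.mp h
  have hp : 0 < 1 + s * t := by linarith
  have hq : 0 < 1 - s * t := by linarith
  have hs2 : s ^ 2 ≤ 1 := by rw [← sq_abs]; exact pow_le_one₀ (abs_nonneg s) hs
  have ht2 : t ^ 2 ≤ 1 := by rw [← sq_abs]; exact pow_le_one₀ (abs_nonneg t) ht
  have e1 : (1 + s * t) * ((s + t) / (1 + s * t)) ^ 2 = (s + t) ^ 2 / (1 + s * t) := by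
    field_simp
  have e2 : (1 - s * t) * ((s - t) / (1 - s * t)) ^ 2 = (s - t) ^ 2 / (1 - s * t) := by
    rw [div_pow, sq (1 - s * t), mul_div_assoc', mul_div_mul_left _ _ hq.ne']
  have e3 : (s + t) ^ 2 / (1 + s * t) + (s - t) ^ 2 / (1 - s * t) =
      2 * (s ^ 2 + t ^ 2 - 2 * (s ^ 2 * t ^ 2)) / ((1 + s * t) * (1 - s * t)) := by
    rw [div_add_div _ _ hp.ne' hq.ne']
    congr 1
    ring
  rw [e1, e2, e3]
  have hpq : 0 < (1 + s * t) * (1 - s * t) := mul_pos hp hq
  have hz : (1 + s * t) * (1 - s * t) = 1 - s ^ 2 * t ^ 2 := by ring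
  have hz0 : 0 ≤ s ^ 2 * t ^ 2 := by positivity
  have hz1 : 0 < 1 - s ^ 2 * t ^ 2 := by rw [← hz]; exact hpq
  have hr : s ^ 2 + t ^ 2 ≤ 1 + s ^ 2 * t ^ 2 := by nlinarith [mul_nonneg (sub_nonneg.mpr hs2) (sub_nonneg.mpr ht2)]
  have hr2 : 2 * (s ^ 2 * t ^ 2) ≤ s ^ 2 + t ^ 2 := by nlinarith [sq_nonneg s, sq_nonneg t]
  rw [hz]
  constructor
  · rw [le_div_iff₀ hz1]
    nlinarith
  · rw [div_le_iff₀ hz1]
    nlinarith

/-- exact form of the averaged second moment -/
theorem sq_pair_eq {s t : ℝ} (h : |s * t| < 1) :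
    (1 + s * t) * (opl s t) ^ 2 + (1 - s * t) * (opl s (-t)) ^ 2 =
      2 * (s ^ 2 + t ^ 2 * (1 - s ^ 2) ^ 2 / (1 - s ^ 2 * t ^ 2)) := by
  have e0 : opl s (-t) = (s - t) / (1 - s * t) := by
    unfold opl
    rw [show s + -t = s - t by ring, show 1 + s * -t = 1 - s * t by ring]
  rw [e0]
  unfold opl
  have h' := abs_lt.mp h
  have hp : 0 < 1 + s * t := by linarith
  have hq : 0 < 1 - s * t := by linarith
  have e1 : (1 + s * t) * ((s + t) / (1 + s * t)) ^ 2 = (s + t) ^ 2 / (1 + s * t) := by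
    field_simp
  have e2 : (1 - s * t) * ((s - t) / (1 - s * t)) ^ 2 = (s - t) ^ 2 / (1 - s * t) := by
    rw [div_pow, sq (1 - s * t), mul_div_assoc', mul_div_mul_left _ _ hq.ne']
  have hz : 1 - s ^ 2 * t ^ 2 = (1 + s * t) * (1 - s * t) := by ring
  rw [e1, e2, hz, div_add_div _ _ hp.ne' hq.ne', div_eq_iff (mul_pos hp hq).ne']
  have e3 : 2 * (s ^ 2 + t ^ 2 * (1 - s ^ 2) ^ 2 / ((1 + s * t) * (1 - s * t))) *
      ((1 + s * t) * (1 - s * t)) =
      2 * s ^ 2 * ((1 + s * t) * (1 - s * t)) + 2 * (t ^ 2 * (1 - s ^ 2) ^ 2 /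
        ((1 + s * t) * (1 - s * t)) * ((1 + s * t) * (1 - s * t))) := by ring
  rw [e3, div_mul_cancel₀ _ (mul_pos hp hq).ne']
  ring

theorem le_int_sq {ν : Measure ℝ} [IsProbabilityMeasure ν] (hsym : ν.map (fun x => -x) = ν)
    {s ρ : ℝ} (hs : |s| ≤ 1) (hρ : |s| * ρ < 1) (hsupp : ∀ᵐ t ∂ν, |t| ≤ ρ) (hρ1 : ρ ≤ 1) :
    s ^ 2 + ∫ t, t ^ 2 ∂ν - 2 * (s ^ 2 * ∫ t, t ^ 2 ∂ν) ≤
        ∫ t, (1 + s * t) * (opl s t) ^ 2 ∂ν ∧
    ∫ t, (1 + s * t) * (opl s t) ^ 2 ∂ν ≤
      s ^ 2 + ∫ t, t ^ 2 ∂ν - s ^ 2 * ∫ t, t ^ 2 ∂ν := by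
  have hsupp1 : ∀ᵐ t ∂ν, |t| ≤ 1 := by
    filter_upwards [hsupp] with t ht using ht.trans hρ1
  have hmp : MeasurePreserving (fun x : ℝ => -x) ν ν := ⟨measurable_neg, hsym⟩
  have i1 : Integrable (fun t => (1 + s * t) * (opl s t) ^ 2) ν := by
    apply integrable_bdd (C := 2)
    · have := measurable_opl_right s
      apply Measurable.aestronglyMeasurable
      fun_prop
    · filter_upwards [hsupp1] with t ht
      have hst : |s * t| ≤ 1 := by
        rw [abs_mul]; exact mul_le_one₀ hs (abs_nonneg _) ht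
      have h1 : |1 + s * t| ≤ 2 := by
        have := abs_add_le 1 (s * t)
        rw [abs_one] at this
        linarith
      have h2 : |opl s t ^ 2| ≤ 1 := by
        rw [abs_pow]
        exact pow_le_one₀ (abs_nonneg _) (opl_abs_le_one hs ht)
      rw [abs_mul]
      calc |1 + s * t| * |opl s t ^ 2| ≤ 2 * 1 := mul_le_mul h1 h2 (abs_nonneg _) (by norm_num)
        _ = 2 := by norm_num
  have i2 : Integrable (fun t : ℝ => t ^ 2) ν := by
    apply integrable_bdd (C := 1)
    · apply Measurable.aestronglyMeasurable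
      fun_prop
    · filter_upwards [hsupp1] with t ht
      rw [abs_pow]
      exact pow_le_one₀ (abs_nonneg _) ht
  have ic : ∀ c : ℝ, Integrable (fun _ : ℝ => c) ν := fun c => integrable_const c
  have i1' : Integrable (fun t => ((1 + s * t) * (opl s t) ^ 2 +
      (1 + s * (-t)) * (opl s (-t)) ^ 2) / 2) ν :=
    (i1.add (hmp.integrable_comp_of_integrable i1)).div_const 2
  rw [int_symm hsym i1]
  constructor
  · have e : s ^ 2 + ∫ t, t ^ 2 ∂ν - 2 * (s ^ 2 * ∫ t, t ^ 2 ∂ν) =
        ∫ t, (s ^ 2 + t ^ 2 - 2 * (s ^ 2 * t ^ 2)) ∂ν := by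
      have a1 : ∫ t, (s ^ 2 + t ^ 2 - 2 * (s ^ 2 * t ^ 2)) ∂ν =
          ∫ t, (s ^ 2 + t ^ 2) ∂ν - ∫ t, (2 * (s ^ 2 * t ^ 2)) ∂ν :=
        integral_sub ((ic _).add i2) ((i2.const_mul _).const_mul _)
      have a2 : ∫ t : ℝ, (s ^ 2 + t ^ 2) ∂ν = ∫ _ : ℝ, s ^ 2 ∂ν + ∫ t, t ^ 2 ∂ν :=
        integral_add (ic _) i2
      rw [a1, a2, integral_const_mul, integral_const_mul]
      simp
    rw [e]
    apply integral_mono_ae
    · exact ((ic _).add i2).sub ((i2.const_mul _).const_mul _)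
    · exact i1'
    · filter_upwards [hsupp, hsupp1] with t ht ht1
      have hst : |s * t| < 1 := by
        rw [abs_mul]
        exact lt_of_le_of_lt (mul_le_mul_of_nonneg_left ht (abs_nonneg s)) hρ
      have := (sq_pair_bounds hs ht1 hst).1
      have e1 : 1 + s * -t = 1 - s * t := by ring
      simp only [e1]
      linarith
  · have e : s ^ 2 + ∫ t, t ^ 2 ∂ν - s ^ 2 * ∫ t, t ^ 2 ∂ν =
        ∫ t, (s ^ 2 + t ^ 2 - s ^ 2 * t ^ 2) ∂ν := by
      have a1 : ∫ t, (s ^ 2 + t ^ 2 - s ^ 2 * t ^ 2) ∂ν =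
          ∫ t, (s ^ 2 + t ^ 2) ∂ν - ∫ t, (s ^ 2 * t ^ 2) ∂ν :=
        integral_sub ((ic _).add i2) (i2.const_mul _)
      have a2 : ∫ t : ℝ, (s ^ 2 + t ^ 2) ∂ν = ∫ _ : ℝ, s ^ 2 ∂ν + ∫ t, t ^ 2 ∂ν :=
        integral_add (ic _) i2
      rw [a1, a2, integral_const_mul]
      simp
    rw [e]
    apply integral_mono_ae
    · exact i1'
    · exact ((ic _).add i2).sub (i2.const_mul _)
    · filter_upwards [hsupp, hsupp1] with t ht ht1
      have hst : |s * t| < 1 := by
        rw [abs_mul]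
        exact lt_of_le_of_lt (mul_le_mul_of_nonneg_left ht (abs_nonneg s)) hρ
      have := (sq_pair_bounds hs ht1 hst).2
      have e1 : 1 + s * -t = 1 - s * t := by ring
      simp only [e1]
      linarith

end Crest.Agent.H14
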