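import Mathlib
import Crest.Agent.H14.Defs

/-! Row 160, piece (C) (helper18): deterministic telescoping inequality for products of damping
factors `gam l t = (1 - t^2) / (1 - l^2 t^2)`. -/

set_option autoImplicit false

open Finset

namespace Crest.Agent.H14

section gam

variable {l t t' : ℝ}

theorem gam_den_pos (_hl0 : 0 ≤ l) (_hl1 : l < 1) (ht : |t| ≤ 1) : 1 - l ^ 2 ≤ 1 - l ^ 2 * t ^ 2 := by
  have h1 : t ^ 2 ≤ 1 := by
    rw [← sq_abs]; nlinarith [abs_nonneg t]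
  nlinarith [sq_nonneg l]

theorem one_sub_sq_pos (hl0 : 0 ≤ l) (hl1 : l < 1) : 0 < 1 - l ^ 2 := by nlinarith

theorem gam_nonneg (hl0 : 0 ≤ l) (hl1 : l < 1) (ht : |t| ≤ 1) : 0 ≤ gam l t := by
  unfold gam
  have h0 := one_sub_sq_pos hl0 hl1
  have h1 := gam_den_pos hl0 hl1 ht
  have h2 : t ^ 2 ≤ 1 := by
    rw [← sq_abs]; nlinarith [abs_nonneg t]
  apply div_nonneg <;> linarith

/-- `1 - gam l t = (1 - l^2) t^2 / (1 - l^2 t^2)`. -/
theorem one_sub_gam (hl0 : 0 ≤ l) (hl1 : l < 1) (ht : |t| ≤ 1) :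
    1 - gam l t = (1 - l ^ 2) * t ^ 2 / (1 - l ^ 2 * t ^ 2) := by
  have h0 := one_sub_sq_pos hl0 hl1
  have h1 := gam_den_pos hl0 hl1 ht
  have h2 : (1 - l ^ 2 * t ^ 2) ≠ 0 := by linarith
  unfold gam
  rw [eq_div_iff h2, sub_mul, div_mul_cancel₀ _ h2]
  ring

theorem gam_le_one (hl0 : 0 ≤ l) (hl1 : l < 1) (ht : |t| ≤ 1) : gam l t ≤ 1 := by
  have h0 := one_sub_sq_pos hl0 hl1
  have h1 := gam_den_pos hl0 hl1 ht
  have h2 : 0 ≤ 1 - gam l t := by
    rw [one_sub_gam hl0 hl1 ht]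
    apply div_nonneg <;> nlinarith [sq_nonneg t]
  linarith

/-- `(1 - l^2) t^2 ≤ 1 - gam l t`. -/
theorem le_one_sub_gam (hl0 : 0 ≤ l) (hl1 : l < 1) (ht : |t| ≤ 1) :
    (1 - l ^ 2) * t ^ 2 ≤ 1 - gam l t := by
  have h0 := one_sub_sq_pos hl0 hl1
  have h1 := gam_den_pos hl0 hl1 ht
  rw [one_sub_gam hl0 hl1 ht, le_div_iff₀ (by linarith)]
  have h3 : 0 ≤ (1 - l ^ 2) * t ^ 2 := mul_nonneg h0.le (sq_nonneg t)
  have h4 : 0 ≤ l ^ 2 * t ^ 2 := mul_nonneg (sq_nonneg l) (sq_nonneg t)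
  nlinarith

/-- `|gam l t - gam l t'| ≤ (|t| + |t'|) |t - t'| / (1 - l^2)`. -/
theorem abs_gam_sub_le (hl0 : 0 ≤ l) (hl1 : l < 1) (ht : |t| ≤ 1) (ht' : |t'| ≤ 1) :
    |gam l t - gam l t'| ≤ (|t| + |t'|) * |t - t'| / (1 - l ^ 2) := by
  have h0 := one_sub_sq_pos hl0 hl1
  have h1 := gam_den_pos hl0 hl1 ht
  have h1' := gam_den_pos hl0 hl1 ht'
  have hd : (1 - l ^ 2 * t ^ 2) ≠ 0 := by linarith
  have hd' : (1 - l ^ 2 * t' ^ 2) ≠ 0 := by linarith
  have key : gam l t - gam l t' =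
      -((1 - l ^ 2) * ((t + t') * (t - t'))) / ((1 - l ^ 2 * t ^ 2) * (1 - l ^ 2 * t' ^ 2)) := by
    unfold gam
    rw [div_sub_div _ _ hd hd']
    congr 1
    ring
  rw [key, abs_div, abs_neg, abs_mul, abs_of_pos h0, abs_mul (t + t')]
  have hD : (1 - l ^ 2) * (1 - l ^ 2) ≤ |(1 - l ^ 2 * t ^ 2) * (1 - l ^ 2 * t' ^ 2)| := by
    rw [abs_of_pos (mul_pos (by linarith) (by linarith))]
    exact mul_le_mul h1 h1' h0.le (by linarith)
  have hN : 0 ≤ (1 - l ^ 2) * (|t + t'| * |t - t'|) := by positivity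
  calc (1 - l ^ 2) * (|t + t'| * |t - t'|) / |(1 - l ^ 2 * t ^ 2) * (1 - l ^ 2 * t' ^ 2)|
      ≤ (1 - l ^ 2) * (|t + t'| * |t - t'|) / ((1 - l ^ 2) * (1 - l ^ 2)) :=
        div_le_div_of_nonneg_left hN (by positivity) hD
    _ = |t + t'| * |t - t'| / (1 - l ^ 2) := by
        field_simp
    _ ≤ (|t| + |t'|) * |t - t'| / (1 - l ^ 2) := by
        gcongr
        exact abs_add_le t t'

end gam

section telescope

/-- Telescoping of a difference of products. -/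
theorem prod_sub_prod (a b : ℕ → ℝ) (n : ℕ) :
    (∏ i ∈ range n, a i) - ∏ i ∈ range n, b i =
      ∑ c ∈ range n, (∏ i ∈ range c, a i) * (a c - b c) * ∏ i ∈ Ico (c + 1) n, b i := by
  induction n with
  | zero => simp
  | succ n ih =>
    rw [prod_range_succ, prod_range_succ, sum_range_succ]
    have h1 : ∀ c ∈ range n, (∏ i ∈ range c, a i) * (a c - b c) * ∏ i ∈ Ico (c + 1) (n + 1), b i =
        ((∏ i ∈ range c, a i) * (a c - b c) * ∏ i ∈ Ico (c + 1) n, b i) * b n := by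
      intro c hc
      have hc' : c + 1 ≤ n := mem_range.mp hc
      rw [prod_Ico_succ_top hc']
      ring
    rw [sum_congr rfl h1, ← sum_mul, ← ih]
    simp
    ring

/-- prefix telescoping: `∑_c P_c (1 - a_c) = 1 - P_n`. -/
theorem sum_prefix (a : ℕ → ℝ) (n : ℕ) :
    ∑ c ∈ range n, (∏ i ∈ range c, a i) * (1 - a c) = 1 - ∏ i ∈ range n, a i := by
  induction n with
  | zero => simp
  | succ n ih =>
    rw [sum_range_succ, ih, prod_range_succ]
    ring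

/-- suffix telescoping. -/
theorem sum_suffix (a : ℕ → ℝ) (n : ℕ) :
    ∑ c ∈ range n, (1 - a c) * ∏ i ∈ Ico (c + 1) n, a i = 1 - ∏ i ∈ range n, a i := by
  have h := prod_sub_prod (fun _ => 1) a n
  simp only [prod_const_one, one_mul] at h
  rw [← h]

end telescope

/-- **(C)** deterministic telescoping inequality, prefix of `t`, suffix of `t'`. -/
theorem telescope_sq (l : ℝ) (hl0 : 0 ≤ l) (hl1 : l < 1) (n : ℕ) (t t' : ℕ → ℝ)
    (ht : ∀ i, |t i| ≤ 1) (ht' : ∀ i, |t' i| ≤ 1) (w w' : ℝ) (hw : |w| ≤ 1) :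
    (w * (∏ i ∈ range n, gam l (t i)) - w' * ∏ i ∈ range n, gam l (t' i)) ^ 2 ≤
      2 * (w - w') ^ 2 * (∏ i ∈ range n, gam l (t' i)) +
      8 / (1 - l ^ 2) ^ 3 * (|w| * ∑ c ∈ range n, (∏ i ∈ range c, gam l (t i)) *
        (∏ i ∈ Ico (c + 1) n, gam l (t' i)) * (t c - t' c) ^ 2) := by
  have h0 := one_sub_sq_pos hl0 hl1
  set P : ℕ → ℝ := fun c => ∏ i ∈ range c, gam l (t i) with hP
  set Q : ℕ → ℝ := fun c => ∏ i ∈ Ico (c + 1) n, gam l (t' i) with hQ
  set Qf : ℝ := ∏ i ∈ range n, gam l (t' i) with hQf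
  have hP0 : ∀ c, 0 ≤ P c := fun c => prod_nonneg fun i _ => gam_nonneg hl0 hl1 (ht i)
  have hP1 : ∀ c, P c ≤ 1 := fun c =>
    prod_le_one (fun i _ => gam_nonneg hl0 hl1 (ht i)) (fun i _ => gam_le_one hl0 hl1 (ht i))
  have hQ0 : ∀ c, 0 ≤ Q c := fun c => prod_nonneg fun i _ => gam_nonneg hl0 hl1 (ht' i)
  have hQ1 : ∀ c, Q c ≤ 1 := fun c =>
    prod_le_one (fun i _ => gam_nonneg hl0 hl1 (ht' i)) (fun i _ => gam_le_one hl0 hl1 (ht' i))
  have hQf0 : 0 ≤ Qf := prod_nonneg fun i _ => gam_nonneg hl0 hl1 (ht' i)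
  have hQf1 : Qf ≤ 1 :=
    prod_le_one (fun i _ => gam_nonneg hl0 hl1 (ht' i)) (fun i _ => gam_le_one hl0 hl1 (ht' i))
  have htel := prod_sub_prod (fun i => gam l (t i)) (fun i => gam l (t' i)) n
  -- the difference
  have hsplit : w * (∏ i ∈ range n, gam l (t i)) - w' * Qf =
      (w - w') * Qf + w * ∑ c ∈ range n, P c * (gam l (t c) - gam l (t' c)) * Q c := by
    have : (∏ i ∈ range n, gam l (t i)) = Qf +
        ∑ c ∈ range n, P c * (gam l (t c) - gam l (t' c)) * Q c := by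
      rw [← htel]; ring
    rw [this]; ring
  -- bound of the sum
  set D : ℝ := ∑ c ∈ range n, P c * Q c * (t c - t' c) ^ 2 with hD
  have hD0 : 0 ≤ D := sum_nonneg fun c _ =>
    mul_nonneg (mul_nonneg (hP0 c) (hQ0 c)) (sq_nonneg _)
  have hsum1 : (1 - l ^ 2) * ∑ c ∈ range n, P c * (t c) ^ 2 ≤ 1 := by
    have h := sum_prefix (fun i => gam l (t i)) n
    calc (1 - l ^ 2) * ∑ c ∈ range n, P c * (t c) ^ 2
        = ∑ c ∈ range n, P c * ((1 - l ^ 2) * (t c) ^ 2) := by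
          rw [mul_sum]; exact sum_congr rfl fun c _ => by ring
      _ ≤ ∑ c ∈ range n, P c * (1 - gam l (t c)) :=
          sum_le_sum fun c _ => mul_le_mul_of_nonneg_left (le_one_sub_gam hl0 hl1 (ht c)) (hP0 c)
      _ = 1 - P n := h
      _ ≤ 1 := by linarith [hP0 n]
  have hsum2 : (1 - l ^ 2) * ∑ c ∈ range n, Q c * (t' c) ^ 2 ≤ 1 := by
    have h := sum_suffix (fun i => gam l (t' i)) n
    calc (1 - l ^ 2) * ∑ c ∈ range n, Q c * (t' c) ^ 2
        = ∑ c ∈ range n, ((1 - l ^ 2) * (t' c) ^ 2) * Q c := by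
          rw [mul_sum]; exact sum_congr rfl fun c _ => by ring
      _ ≤ ∑ c ∈ range n, (1 - gam l (t' c)) * Q c :=
          sum_le_sum fun c _ => mul_le_mul_of_nonneg_right (le_one_sub_gam hl0 hl1 (ht' c)) (hQ0 c)
      _ = 1 - Qf := h
      _ ≤ 1 := by linarith
  have hE : ∑ c ∈ range n, P c * Q c * (|t c| + |t' c|) ^ 2 ≤ 4 / (1 - l ^ 2) := by
    have h1 : ∀ c ∈ range n, P c * Q c * (|t c| + |t' c|) ^ 2 ≤
        2 * (P c * (t c) ^ 2) + 2 * (Q c * (t' c) ^ 2) := by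
      intro c _
      have e1 : (|t c| + |t' c|) ^ 2 ≤ 2 * (t c) ^ 2 + 2 * (t' c) ^ 2 := by
        have := sq_nonneg (|t c| - |t' c|)
        have a1 := sq_abs (t c)
        have a2 := sq_abs (t' c)
        nlinarith
      have e2 : P c * Q c ≤ P c := by
        have := mul_le_mul_of_nonneg_left (hQ1 c) (hP0 c); simpa using this
      have e3 : P c * Q c ≤ Q c := by
        have := mul_le_mul_of_nonneg_right (hP1 c) (hQ0 c); simpa using this
      calc P c * Q c * (|t c| + |t' c|) ^ 2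
          ≤ P c * Q c * (2 * (t c) ^ 2 + 2 * (t' c) ^ 2) :=
            mul_le_mul_of_nonneg_left e1 (mul_nonneg (hP0 c) (hQ0 c))
        _ = 2 * ((P c * Q c) * (t c) ^ 2) + 2 * ((P c * Q c) * (t' c) ^ 2) := by ring
        _ ≤ 2 * (P c * (t c) ^ 2) + 2 * (Q c * (t' c) ^ 2) := by
            have := mul_le_mul_of_nonneg_right e2 (sq_nonneg (t c))
            have := mul_le_mul_of_nonneg_right e3 (sq_nonneg (t' c))
            linarith
    calc ∑ c ∈ range n, P c * Q c * (|t c| + |t' c|) ^ 2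
        ≤ ∑ c ∈ range n, (2 * (P c * (t c) ^ 2) + 2 * (Q c * (t' c) ^ 2)) := sum_le_sum h1
      _ = 2 * (∑ c ∈ range n, P c * (t c) ^ 2) + 2 * ∑ c ∈ range n, Q c * (t' c) ^ 2 := by
          rw [sum_add_distrib, mul_sum, mul_sum]
      _ ≤ 4 / (1 - l ^ 2) := by
          rw [le_div_iff₀ h0]
          nlinarith
  have hS : (∑ c ∈ range n, P c * (gam l (t c) - gam l (t' c)) * Q c) ^ 2 ≤
      4 / (1 - l ^ 2) ^ 3 * D := by
    have h1 : |∑ c ∈ range n, P c * (gam l (t c) - gam l (t' c)) * Q c| ≤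
        (1 / (1 - l ^ 2)) * ∑ c ∈ range n, P c * Q c * ((|t c| + |t' c|) * |t c - t' c|) := by
      refine (abs_sum_le_sum_abs _ _).trans ?_
      rw [mul_sum]
      refine sum_le_sum fun c _ => ?_
      rw [abs_mul, abs_mul, abs_of_nonneg (hP0 c), abs_of_nonneg (hQ0 c)]
      have h2 := abs_gam_sub_le hl0 hl1 (ht c) (ht' c)
      calc P c * |gam l (t c) - gam l (t' c)| * Q c
          = (P c * Q c) * |gam l (t c) - gam l (t' c)| := by ring
        _ ≤ (P c * Q c) * ((|t c| + |t' c|) * |t c - t' c| / (1 - l ^ 2)) :=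
            mul_le_mul_of_nonneg_left h2 (mul_nonneg (hP0 c) (hQ0 c))
        _ = _ := by ring
    have h3 : (∑ c ∈ range n, P c * Q c * ((|t c| + |t' c|) * |t c - t' c|)) ^ 2 ≤
        (∑ c ∈ range n, P c * Q c * (|t c| + |t' c|) ^ 2) * D := by
      have hcs := sum_mul_sq_le_sq_mul_sq (range n)
        (fun c => Real.sqrt (P c * Q c) * (|t c| + |t' c|))
        (fun c => Real.sqrt (P c * Q c) * |t c - t' c|)
      have hs : ∀ c, Real.sqrt (P c * Q c) ^ 2 = P c * Q c := fun c =>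
        Real.sq_sqrt (mul_nonneg (hP0 c) (hQ0 c))
      have e1 : ∀ c ∈ range n, (Real.sqrt (P c * Q c) * (|t c| + |t' c|)) *
          (Real.sqrt (P c * Q c) * |t c - t' c|) =
          P c * Q c * ((|t c| + |t' c|) * |t c - t' c|) := by
        intro c _
        calc (Real.sqrt (P c * Q c) * (|t c| + |t' c|)) * (Real.sqrt (P c * Q c) * |t c - t' c|)
            = Real.sqrt (P c * Q c) ^ 2 * ((|t c| + |t' c|) * |t c - t' c|) := by ring
          _ = _ := by rw [hs c]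
      have e2 : ∀ c ∈ range n, (Real.sqrt (P c * Q c) * (|t c| + |t' c|)) ^ 2 =
          P c * Q c * (|t c| + |t' c|) ^ 2 := by
        intro c _
        rw [mul_pow, hs c]
      have e3 : ∀ c ∈ range n, (Real.sqrt (P c * Q c) * |t c - t' c|) ^ 2 =
          P c * Q c * (t c - t' c) ^ 2 := by
        intro c _
        rw [mul_pow, hs c, sq_abs]
      rw [sum_congr rfl e1, sum_congr rfl e2, sum_congr rfl e3] at hcs
      exact hcs
    have h4 : (∑ c ∈ range n, P c * (gam l (t c) - gam l (t' c)) * Q c) ^ 2 ≤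
        ((1 / (1 - l ^ 2)) * ∑ c ∈ range n, P c * Q c * ((|t c| + |t' c|) * |t c - t' c|)) ^ 2 := by
      rw [← sq_abs]
      exact pow_le_pow_left₀ (abs_nonneg _) h1 2
    calc (∑ c ∈ range n, P c * (gam l (t c) - gam l (t' c)) * Q c) ^ 2
        ≤ ((1 / (1 - l ^ 2)) *
            ∑ c ∈ range n, P c * Q c * ((|t c| + |t' c|) * |t c - t' c|)) ^ 2 := h4
      _ = (1 / (1 - l ^ 2)) ^ 2 *
            (∑ c ∈ range n, P c * Q c * ((|t c| + |t' c|) * |t c - t' c|)) ^ 2 := by ring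
      _ ≤ (1 / (1 - l ^ 2)) ^ 2 * ((4 / (1 - l ^ 2)) * D) := by
          apply mul_le_mul_of_nonneg_left _ (sq_nonneg _)
          exact h3.trans (mul_le_mul_of_nonneg_right hE hD0)
      _ = 4 / (1 - l ^ 2) ^ 3 * D := by
          field_simp
  rw [hsplit]
  have hfin : ((w - w') * Qf + w * ∑ c ∈ range n, P c * (gam l (t c) - gam l (t' c)) * Q c) ^ 2 ≤
      2 * ((w - w') * Qf) ^ 2 +
        2 * (w * ∑ c ∈ range n, P c * (gam l (t c) - gam l (t' c)) * Q c) ^ 2 := by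
    nlinarith [sq_nonneg ((w - w') * Qf -
      w * ∑ c ∈ range n, P c * (gam l (t c) - gam l (t' c)) * Q c)]
  refine hfin.trans ?_
  have hA : 2 * ((w - w') * Qf) ^ 2 ≤ 2 * (w - w') ^ 2 * Qf := by
    have : Qf ^ 2 ≤ Qf := by nlinarith
    have h5 : (w - w') ^ 2 * Qf ^ 2 ≤ (w - w') ^ 2 * Qf :=
      mul_le_mul_of_nonneg_left this (sq_nonneg _)
    calc 2 * ((w - w') * Qf) ^ 2 = 2 * ((w - w') ^ 2 * Qf ^ 2) := by ring
      _ ≤ 2 * ((w - w') ^ 2 * Qf) := by linarith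
      _ = _ := by ring
  have hB : 2 * (w * ∑ c ∈ range n, P c * (gam l (t c) - gam l (t' c)) * Q c) ^ 2 ≤
      8 / (1 - l ^ 2) ^ 3 * (|w| * D) := by
    have hw2 : w ^ 2 ≤ |w| := by
      rw [← sq_abs]; nlinarith [abs_nonneg w]
    have h6 : 0 ≤ 4 / (1 - l ^ 2) ^ 3 * D := mul_nonneg (by positivity) hD0
    calc 2 * (w * ∑ c ∈ range n, P c * (gam l (t c) - gam l (t' c)) * Q c) ^ 2
        = 2 * (w ^ 2 * (∑ c ∈ range n, P c * (gam l (t c) - gam l (t' c)) * Q c) ^ 2) := by ring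
      _ ≤ 2 * (w ^ 2 * (4 / (1 - l ^ 2) ^ 3 * D)) := by
          have := mul_le_mul_of_nonneg_left hS (sq_nonneg w)
          linarith
      _ ≤ 2 * (|w| * (4 / (1 - l ^ 2) ^ 3 * D)) := by
          have := mul_le_mul_of_nonneg_right hw2 h6
          linarith
      _ = 8 / (1 - l ^ 2) ^ 3 * (|w| * D) := by ring
  linarith

end Crest.Agent.H14
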