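import Mathlib
import Crest.Agent.H14.BP
import Crest.Agent.H14.Telescope

/-!
# Row 160 (helper12): closure lemmas for test functions and even functions
-/

set_option autoImplicit false

open MeasureTheory Filter Topology

namespace Crest.Agent.H14

open scoped Classical

/-! ### `Tst` -/

section TstGeneral

variable {V : Type*} {W W' : Finset V} {F H : (V → ℝ) → ℝ}

theorem Tst.const (W : Finset V) (c : ℝ) : Tst W (fun _ => c) :=
  ⟨measurable_const, fun _ _ _ => rfl, ⟨|c|, fun _ _ => le_rfl⟩⟩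

theorem Tst.mono (hF : Tst W F) (hsub : W ⊆ W') : Tst W' F := by
  refine ⟨hF.meas, fun r r' hr => hF.dep fun v hv => hr v (hsub hv), ?_⟩
  obtain ⟨C, hC⟩ := hF.bdd
  exact ⟨C, fun r hr => hC r fun v hv => hr v (hsub hv)⟩

theorem Tst.add (hF : Tst W F) (hH : Tst W H) : Tst W (fun r => F r + H r) := by
  refine ⟨hF.meas.add hH.meas, fun r r' hr => ?_, ?_⟩
  · simp only [hF.dep hr, hH.dep hr]
  · obtain ⟨C, hC⟩ := hF.bdd
    obtain ⟨D, hD⟩ := hH.bdd
    exact ⟨C + D, fun r hr => (abs_add_le _ _).trans (add_le_add (hC r hr) (hD r hr))⟩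

theorem Tst.neg (hF : Tst W F) : Tst W (fun r => -F r) := by
  refine ⟨hF.meas.neg, fun r r' hr => ?_, ?_⟩
  · simp only [hF.dep hr]
  · obtain ⟨C, hC⟩ := hF.bdd
    exact ⟨C, fun r hr => by rw [abs_neg]; exact hC r hr⟩

theorem Tst.sub (hF : Tst W F) (hH : Tst W H) : Tst W (fun r => F r - H r) := by
  have := hF.add hH.neg
  simpa only [sub_eq_add_neg] using this

theorem Tst.mul (hF : Tst W F) (hH : Tst W H) : Tst W (fun r => F r * H r) := by
  refine ⟨hF.meas.mul hH.meas, fun r r' hr => ?_, ?_⟩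
  · simp only [hF.dep hr, hH.dep hr]
  · obtain ⟨C, hC⟩ := hF.bdd
    obtain ⟨D, hD⟩ := hH.bdd
    refine ⟨C * D, fun r hr => ?_⟩
    rw [abs_mul]
    exact mul_le_mul (hC r hr) (hD r hr) (abs_nonneg _) ((abs_nonneg _).trans (hC r hr))

theorem Tst.const_mul (c : ℝ) (hF : Tst W F) : Tst W (fun r => c * F r) :=
  (Tst.const W c).mul hF

theorem Tst.pow (hF : Tst W F) (n : ℕ) : Tst W (fun r => F r ^ n) := by
  induction n with
  | zero => simpa using Tst.const W 1
  | succ n ih => simpa only [pow_succ] using ih.mul hF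

theorem Tst.abs (hF : Tst W F) : Tst W (fun r => |F r|) := by
  refine ⟨hF.meas.abs, fun r r' hr => ?_, ?_⟩
  · simp only [hF.dep hr]
  · obtain ⟨C, hC⟩ := hF.bdd
    exact ⟨C, fun r hr => by rw [abs_abs]; exact hC r hr⟩

theorem Tst.sum {ι : Type*} (s : Finset ι) {F : ι → (V → ℝ) → ℝ} (h : ∀ i ∈ s, Tst W (F i)) :
    Tst W (fun r => ∑ i ∈ s, F i r) := by
  induction s using Finset.induction_on with
  | empty => simpa using Tst.const W 0
  | insert a s ha ih =>
    simp only [Finset.sum_insert ha]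
    exact (h a (Finset.mem_insert_self a s)).add
      (ih fun i hi => h i (Finset.mem_insert_of_mem hi))

theorem Tst.prod {ι : Type*} (s : Finset ι) {F : ι → (V → ℝ) → ℝ} (h : ∀ i ∈ s, Tst W (F i)) :
    Tst W (fun r => ∏ i ∈ s, F i r) := by
  induction s using Finset.induction_on with
  | empty => simpa using Tst.const W 1
  | insert a s ha ih =>
    simp only [Finset.prod_insert ha]
    exact (h a (Finset.mem_insert_self a s)).mul
      (ih fun i hi => h i (Finset.mem_insert_of_mem hi))

/-- composition with a measurable function which is bounded on bounded sets -/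
theorem Tst.comp' (hF : Tst W F) {φ : ℝ → ℝ} (hφ : Measurable φ)
    (hb : ∀ C : ℝ, ∃ D : ℝ, ∀ t, |t| ≤ C → |φ t| ≤ D) : Tst W (fun r => φ (F r)) := by
  refine ⟨hφ.comp hF.meas, fun r r' hr => ?_, ?_⟩
  · simp only [hF.dep hr]
  · obtain ⟨C, hC⟩ := hF.bdd
    obtain ⟨D, hD⟩ := hb C
    exact ⟨D, fun r hr => hD _ (hC r hr)⟩

/-- composition with a continuous function -/
theorem Tst.comp (hF : Tst W F) {φ : ℝ → ℝ} (hφ : Continuous φ) : Tst W (fun r => φ (F r)) := by
  apply hF.comp' hφ.measurable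
  intro C
  obtain ⟨D, hD⟩ := (isCompact_Icc (a := -C) (b := C)).exists_bound_of_continuousOn
    hφ.continuousOn
  exact ⟨D, fun t ht => hD t (abs_le.1 ht)⟩

theorem Tst.exp (hF : Tst W F) : Tst W (fun r => Real.exp (F r)) := hF.comp Real.continuous_exp

/-- composition with a measurable function bounded on `(-1,1)` -/
theorem Tst.comp_lt {φ : ℝ → ℝ} (hF : Tst W F) (hF1 : ∀ r, Adm W r → |F r| < 1)
    (hφ : Measurable φ) (hb : ∃ D : ℝ, ∀ t, |t| < 1 → |φ t| ≤ D) : Tst W (fun r => φ (F r)) := by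
  refine ⟨hφ.comp hF.meas, fun r r' hr => ?_, ?_⟩
  · simp only [hF.dep hr]
  · obtain ⟨D, hD⟩ := hb
    exact ⟨D, fun r hr => hD _ (hF1 r hr)⟩

theorem Tst.ite_mem (hF : Tst W F) {s : Set ℝ} (hs : MeasurableSet s) :
    Tst W (fun r => if F r ∈ s then (1:ℝ) else 0) := by
  apply hF.comp' (φ := fun t => if t ∈ s then (1:ℝ) else 0)
  · exact Measurable.ite hs measurable_const measurable_const
  · intro C
    refine ⟨1, fun t _ => ?_⟩
    beta_reduce
    split_ifs <;> simp

end TstGeneral

/-! ### `EvenOn` -/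

section EvenGeneral

variable {V : Type*} {D D' W : Finset V} {F H : (V → ℝ) → ℝ}

theorem flip_apply_mem {r : V → ℝ} {v : V} (hv : v ∈ D) : flip D r v = -r v := by
  unfold flip
  rw [if_pos hv]

theorem flip_apply_notMem {r : V → ℝ} {v : V} (hv : v ∉ D) : flip D r v = r v := by
  unfold flip
  rw [if_neg hv]

theorem flip_flip (r : V → ℝ) : flip D (flip D r) = r := by
  funext v
  by_cases hv : v ∈ D
  · rw [flip_apply_mem hv, flip_apply_mem hv, neg_neg]
  · rw [flip_apply_notMem hv, flip_apply_notMem hv]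

theorem measurable_flip : Measurable (flip D : (V → ℝ) → (V → ℝ)) := by
  apply measurable_pi_lambda
  intro v
  by_cases hv : v ∈ D
  · simp only [flip_apply_mem hv]
    exact (measurable_pi_apply v).neg
  · simp only [flip_apply_notMem hv]
    exact measurable_pi_apply v

theorem Adm_flip {r : V → ℝ} : Adm W (flip D r) ↔ Adm W r := by
  have key : ∀ r : V → ℝ, Adm W r → Adm W (flip D r) := by
    intro r hr v hv
    by_cases h : v ∈ D
    · rw [flip_apply_mem h, abs_neg]
      exact hr v hv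
    · rw [flip_apply_notMem h]
      exact hr v hv
  constructor
  · intro h
    have := key _ h
    rwa [flip_flip] at this
  · exact key r

theorem EvenOn.const (D : Finset V) (c : ℝ) : EvenOn D (fun _ => c) := fun _ => rfl

/-- evenness for the flip of a bigger set -/
theorem EvenOn.mono (hF : EvenOn D F) (hd : DependsOn F (D : Set V)) (hsub : D ⊆ D') :
    EvenOn D' F := by
  intro r
  rw [← hF r]
  apply hd
  intro v hv
  rw [flip_apply_mem (Finset.mem_coe.1 hv), flip_apply_mem (hsub (Finset.mem_coe.1 hv))]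

theorem EvenOn.add (hF : EvenOn D F) (hH : EvenOn D H) : EvenOn D (fun r => F r + H r) :=
  fun r => by simp only [hF r, hH r]

theorem EvenOn.mul (hF : EvenOn D F) (hH : EvenOn D H) : EvenOn D (fun r => F r * H r) :=
  fun r => by simp only [hF r, hH r]

theorem EvenOn.const_mul (c : ℝ) (hF : EvenOn D F) : EvenOn D (fun r => c * F r) :=
  fun r => by simp only [hF r]

theorem EvenOn.pow (hF : EvenOn D F) (n : ℕ) : EvenOn D (fun r => F r ^ n) :=
  fun r => by simp only [hF r]

theorem EvenOn.comp (hF : EvenOn D F) (φ : ℝ → ℝ) : EvenOn D (fun r => φ (F r)) :=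
  fun r => by simp only [hF r]

theorem EvenOn.sum {ι : Type*} (s : Finset ι) {F : ι → (V → ℝ) → ℝ} (h : ∀ i ∈ s, EvenOn D (F i)) :
    EvenOn D (fun r => ∑ i ∈ s, F i r) :=
  fun r => Finset.sum_congr rfl fun i hi => h i hi r

theorem EvenOn.prod {ι : Type*} (s : Finset ι) {F : ι → (V → ℝ) → ℝ}
    (h : ∀ i ∈ s, EvenOn D (F i)) :
    EvenOn D (fun r => ∏ i ∈ s, F i r) :=
  fun r => Finset.prod_congr rfl fun i hi => h i hi r

/-- even functions of an odd function -/
theorem EvenOn.comp_odd (hF : ∀ r, F (flip D r) = - F r) {φ : ℝ → ℝ} (hφ : ∀ t, φ (-t) = φ t) :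
    EvenOn D (fun r => φ (F r)) :=
  fun r => by simp only [hF r, hφ]

end EvenGeneral

/-! ### Concrete observables -/

section Conc

variable {V : Type*} {G : SimpleGraph V} {lam : ℝ} {b : ℕ} {W : Finset V} {x u y z : V}

theorem measurable_LW (W : Finset V) : Measurable (LW G lam W) := measurable_Lf _ _

theorem measurable_MW (W : Finset V) (z : V) : Measurable (MW G lam W z) := measurable_Mf _ _ _

theorem measurable_KW (W : Finset V) (x y : V) : Measurable (KW G lam W x y) :=
  measurable_Kf _ _ _ _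

theorem dep_LW (W : Finset V) : DependsOn (LW G lam W) (W : Set V) :=
  fun _ _ hr => Lf_congr fun v hv => hr v hv

theorem dep_MW (W : Finset V) (z : V) : DependsOn (MW G lam W z) (W : Set V) :=
  fun _ _ hr => Mf_congr z fun v hv => hr v hv

theorem dep_KW (W : Finset V) (x y : V) : DependsOn (KW G lam W x y) (W : Set V) :=
  fun _ _ hr => Kf_congr x y fun v hv => hr v hv

theorem measurable_gam (l : ℝ) : Measurable (gam l) := by
  unfold gam
  fun_prop

theorem gam_neg (l t : ℝ) : gam l (-t) = gam l t := by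
  unfold gam
  rw [neg_sq]

theorem gam_abs_le_one (h : Tr G lam b) {t : ℝ} (ht : |t| < 1) : |gam lam t| ≤ 1 := by
  rw [abs_of_nonneg (gam_nonneg h.nonneg h.lam_lt ht.le)]
  exact gam_le_one h.nonneg h.lam_lt ht.le

theorem Tst_MW (h : Tr G lam b) (hz : z ∈ W) : Tst W (MW G lam W z) :=
  ⟨measurable_MW W z, dep_MW W z, ⟨1, fun _ hr => (MW_abs_lt h hz hr).le⟩⟩

theorem Tst_LW (_h : Tr G lam b) : Tst W (LW G lam W) := by
  refine ⟨measurable_LW W, dep_LW W, ⟨∑ S ∈ W.powerset, |mu G lam W S| * 2 ^ W.card, ?_⟩⟩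
  intro r hr
  unfold LW Lf
  refine (Finset.abs_sum_le_sum_abs _ _).trans (Finset.sum_le_sum fun S _ => ?_)
  rw [abs_mul]
  apply mul_le_mul_of_nonneg_left _ (abs_nonneg _)
  unfold tl
  rw [Finset.abs_prod, ← Finset.prod_const]
  apply Finset.prod_le_prod (fun _ _ => abs_nonneg _)
  intro v hv
  have h1 := abs_lt.1 (hr v hv)
  unfold sp
  rw [abs_le]
  split_ifs <;> constructor <;> linarith

theorem measurable_tau (W : Finset V) (x z : V) : Measurable (tau G lam W x z) :=
  measurable_MW _ _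

theorem dep_tau (W : Finset V) (x z : V) :
    DependsOn (tau G lam W x z) ((desc G x z W : Finset V) : Set V) := dep_MW _ _

/-- cavity magnetisation as a test function on its own subtree -/
theorem Tst_tau (h : Tr G lam b) (hz : z ∈ W) : Tst (desc G x z W) (tau G lam W x z) :=
  Tst_MW h (self_mem_desc hz)

theorem Tst_tau' (h : Tr G lam b) (hz : z ∈ W) : Tst W (tau G lam W x z) :=
  (Tst_tau h hz).mono (desc_subset x z W)

theorem Tst_gam_tau (h : Tr G lam b) (hz : z ∈ W) :
    Tst (desc G x z W) (fun r => gam lam (tau G lam W x z r)) :=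
  (Tst_tau h hz).comp_lt (fun _ hr => MW_abs_lt h (self_mem_desc hz) hr) (measurable_gam lam)
    ⟨1, fun _ ht => gam_abs_le_one h ht⟩

/-- flipping the subtree changes the sign of the cavity magnetisation -/
theorem tau_flip (h : Tr G lam b) (hz : z ∈ W) (r : V → ℝ) :
    tau G lam W x z (flip (desc G x z W) r) = - tau G lam W x z r :=
  MW_flip h (self_mem_desc hz) r

theorem tau_flip' (h : Tr G lam b) {D : Finset V} (hz : z ∈ W) (hD : desc G x z W ⊆ D)
    (r : V → ℝ) :
    tau G lam W x z (flip D r) = - tau G lam W x z r := by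
  rw [← tau_flip h hz r]
  apply dep_tau W x z
  intro v hv
  rw [flip_apply_mem (hD (Finset.mem_coe.1 hv)), flip_apply_mem (Finset.mem_coe.1 hv)]

/-- even functions of the cavity magnetisation -/
theorem even_tau (h : Tr G lam b) (hz : z ∈ W) {φ : ℝ → ℝ} (hφ : ∀ t, φ (-t) = φ t) :
    EvenOn (desc G x z W) (fun r => φ (tau G lam W x z r)) :=
  EvenOn.comp_odd (tau_flip h hz) hφ

theorem even_gam_tau (h : Tr G lam b) (hz : z ∈ W) :
    EvenOn (desc G x z W) (fun r => gam lam (tau G lam W x z r)) :=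
  even_tau h hz (gam_neg lam)

theorem pth_mem {w : V} (hw : w ∈ pth G x u y W) : w ∈ W ∧ w ∈ desc G x u W :=
  ⟨(mem_pth.1 hw).1, (mem_pth.1 hw).2.2.1⟩

theorem Tst_PP (h : Tr G lam b) (W : Finset V) (x u y : V) :
    Tst (desc G x u W) (PP G lam W x u y) := by
  unfold PP
  apply Tst.prod
  intro w hw
  have hw' := pth_mem hw
  exact (Tst_gam_tau h hw'.1).mono (desc_subset_desc h.tree hw'.2)

theorem even_PP (h : Tr G lam b) (W : Finset V) (x u y : V) :
    EvenOn (desc G x u W) (PP G lam W x u y) := by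
  unfold PP
  apply EvenOn.prod
  intro w hw
  have hw' := pth_mem hw
  exact (even_gam_tau h hw'.1).mono (Tst_gam_tau h hw'.1).dep (desc_subset_desc h.tree hw'.2)

theorem PP_nonneg (h : Tr G lam b) {r : V → ℝ} (hr : Adm W r) (x u y : V) :
    0 ≤ PP G lam W x u y r := by
  unfold PP
  apply Finset.prod_nonneg
  intro w hw
  exact gam_nonneg h.nonneg h.lam_lt (tau_abs_lt h (pth_mem hw).1 hr).le

theorem PP_le_one (h : Tr G lam b) {r : V → ℝ} (hr : Adm W r) (x u y : V) :
    PP G lam W x u y r ≤ 1 := by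
  unfold PP
  apply Finset.prod_le_one
  · intro w hw
    exact gam_nonneg h.nonneg h.lam_lt (tau_abs_lt h (pth_mem hw).1 hr).le
  · intro w hw
    exact gam_le_one h.nonneg h.lam_lt (tau_abs_lt h (pth_mem hw).1 hr).le

theorem Tst_Sh (h : Tr G lam b) (W : Finset V) (x u : V) :
    Tst (desc G x u W) (Sh G lam W x u) := by
  unfold Sh
  apply Tst.sum
  intro y _
  exact (Tst_PP h W x u y).const_mul _

theorem even_Sh (h : Tr G lam b) (W : Finset V) (x u : V) :
    EvenOn (desc G x u W) (Sh G lam W x u) := by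
  unfold Sh
  apply EvenOn.sum
  intro y _
  exact (even_PP h W x u y).const_mul _

theorem Sh_nonneg (h : Tr G lam b) {r : V → ℝ} (hr : Adm W r) (x u : V) :
    0 ≤ Sh G lam W x u r := by
  unfold Sh
  apply Finset.sum_nonneg
  intro y _
  exact mul_nonneg (pow_nonneg h.nonneg _) (PP_nonneg h hr x u y)

/-- recursion for the weighted subtree size -/
theorem Sh_rec (h : Tr G lam b) (hW : ParClosed G x W) (hu : u ∈ W) (r : V → ℝ) :
    Sh G lam W x u r = 1 + lam ^ 2 *
      ∑ w ∈ chl G x u W, gam lam (tau G lam W x w r) * Sh G lam W x w r := by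
  unfold Sh
  rw [sum_desc h.tree hW hu]
  congr 1
  · rw [PP_root h]
    simp
  · rw [Finset.mul_sum]
    apply Finset.sum_congr rfl
    intro w hw
    rw [Finset.mul_sum, Finset.mul_sum]
    apply Finset.sum_congr rfl
    intro y hy
    have h1 := chl_dist h.tree hw
    have h2 : G.dist u y = 1 + G.dist w y := by
      have hwu := (mem_desc.1 (chl_subset_desc h.tree hw)).2
      have := dist_between h.tree hwu (mem_desc.1 hy).2
      omega
    rw [PP_top h hw hy, h2]
    ring

end Conc

end Crest.Agent.H14
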