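import Mathlib
import Crest.Agent.H14.Defs2
import Crest.Agent.H14.BP
import Crest.Agent.H14.Rec
import Crest.Agent.H14.TstL
import Crest.Agent.H14.ConvexOrder

/-! Row 160, P2 (helper5): the static law. -/

set_option autoImplicit false

open MeasureTheory Filter Topology ProbabilityTheory

namespace Crest.Agent.H14

open scoped Classical

/-! ### generic facts about the product measure -/

section gen

variable {E : Type*} {ν : Measure ℝ} {ρ : ℝ}

/-- extension by zero -/
noncomputable def ext0 (A : Finset E) (p : A → ℝ) : E → ℝ := fun v => if h : v ∈ A then p ⟨v, h⟩ else 0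

theorem measurable_ext0 (A : Finset E) : Measurable (ext0 A) := by
  rw [measurable_pi_iff]
  intro v
  unfold ext0
  by_cases h : v ∈ A
  · simp only [h, dif_pos]
    exact measurable_pi_apply _
  · simp only [h, dif_neg, not_false_eq_true]
    exact measurable_const

theorem ext0_restrict {α : Type*} {A : Finset E} {f : (E → ℝ) → α} (hf : DependsOn f (A : Set E))
    (r : E → ℝ) : f (ext0 A (fun i => r i)) = f r := by
  apply hf
  intro i hi
  unfold ext0
  rw [dif_pos (by simpa using hi)]

theorem indep_blocks [IsProbabilityMeasure ν] {A B : Finset E} (hAB : Disjoint A B)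
    {α β : Type*} [MeasurableSpace α] [MeasurableSpace β] {f : (E → ℝ) → α} {g : (E → ℝ) → β}
    (hf : Measurable f) (hg : Measurable g) (hfA : DependsOn f (A : Set E))
    (hgB : DependsOn g (B : Set E)) : IndepFun f g (Nm E ν) := by
  have h0 : iIndepFun (fun (i : E) (r : E → ℝ) => r i) (Nm E ν) :=
    iIndepFun_infinitePi (X := fun _ x => x) (fun _ => measurable_id)
  have h1 := h0.indepFun_finset A B hAB (fun i => measurable_pi_apply i)
  have h2 := h1.comp (φ := fun p => f (ext0 A p)) (ψ := fun p => g (ext0 B p))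
    (hf.comp (measurable_ext0 A)) (hg.comp (measurable_ext0 B))
  have e1 : (fun p => f (ext0 A p)) ∘ (fun (r : E → ℝ) (i : A) => r i) = f := by
    funext r; exact ext0_restrict hfA r
  have e2 : (fun p => g (ext0 B p)) ∘ (fun (r : E → ℝ) (i : B) => r i) = g := by
    funext r; exact ext0_restrict hgB r
  rwa [e1, e2] at h2

theorem integral_blocks [IsProbabilityMeasure ν] {A B : Finset E} (hAB : Disjoint A B)
    {f g : (E → ℝ) → ℝ} (hf : Measurable f) (hg : Measurable g) (hfA : DependsOn f (A : Set E))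
    (hgB : DependsOn g (B : Set E)) :
    ∫ r, f r * g r ∂(Nm E ν) = (∫ r, f r ∂(Nm E ν)) * ∫ r, g r ∂(Nm E ν) :=
  (indep_blocks hAB hf hg hfA hgB).integral_fun_mul_eq_mul_integral hf.aestronglyMeasurable
    hg.aestronglyMeasurable

instance [IsProbabilityMeasure ν] : IsProbabilityMeasure (Nm E ν) := by
  unfold Nm; infer_instance

theorem map_eval_Nm [IsProbabilityMeasure ν] (v : E) : (Nm E ν).map (fun r => r v) = ν := by
  unfold Nm
  exact Measure.infinitePi_map_eval (fun _ : E => ν) v

theorem ae_coord [IsProbabilityMeasure ν] (v : E) {p : ℝ → Prop} (hp : MeasurableSet {x | p x})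
    (h : ∀ᵐ x ∂ν, p x) : ∀ᵐ r ∂(Nm E ν), p (r v) := by
  have h1 : ∀ᵐ x ∂((Nm E ν).map (fun r => r v)), p x := by rw [map_eval_Nm]; exact h
  exact (ae_map_iff (measurable_pi_apply v).aemeasurable hp).mp h1

theorem integral_coord [IsProbabilityMeasure ν] (v : E) (f : ℝ → ℝ) (hf : Measurable f) :
    ∫ r, f (r v) ∂(Nm E ν) = ∫ x, f x ∂ν := by
  conv_rhs => rw [← map_eval_Nm (E := E) (ν := ν) v]
  rw [integral_map (measurable_pi_apply v).aemeasurable hf.aestronglyMeasurable]

theorem ae_bd (hν : Null ν ρ) (W : Finset E) : ∀ᵐ r ∂(Nm E ν), ∀ v ∈ W, |r v| ≤ ρ := by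
  have := hν.prob
  rw [Filter.eventually_all_finset]
  intro v _
  exact ae_coord v (measurableSet_le (by fun_prop) (by fun_prop)) hν.supp

theorem ae_adm' (hν : Null ν ρ) (W : Finset E) : ∀ᵐ r ∂(Nm E ν), ∀ v ∈ W, |r v| < 1 := by
  filter_upwards [ae_bd hν W] with r hr v hv
  exact lt_of_le_of_lt (hr v hv) hν.lt

theorem flip_preserving (hν : Null ν ρ) (D : Finset E) :
    MeasurePreserving (flip D) (Nm E ν) (Nm E ν) := by
  have := hν.prob
  refine ⟨measurable_flip, ?_⟩
  have h1 := Measure.infinitePi_map_pi (μ := fun _ : E => ν)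
    (f := fun v x => if v ∈ D then -x else x) (fun v => by
      by_cases h : v ∈ D
      · simp only [h, if_true]; exact measurable_neg
      · simp only [h, if_false]; exact measurable_id)
  unfold Nm
  have e : (flip D : (E → ℝ) → E → ℝ) = fun r v => if v ∈ D then -r v else r v := rfl
  rw [e, h1]
  congr 1
  funext v
  by_cases h : v ∈ D
  · simp only [h, if_true]; exact hν.symm
  · simp only [h, if_false]; exact Measure.map_id

theorem integral_flip (hν : Null ν ρ) (D : Finset E) (f : (E → ℝ) → ℝ) (hf : Measurable f) :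
    ∫ r, f (flip D r) ∂(Nm E ν) = ∫ r, f r ∂(Nm E ν) := by
  have h := flip_preserving hν D
  conv_rhs => rw [← h.map_eq]
  rw [integral_map h.measurable.aemeasurable hf.aestronglyMeasurable]

theorem mean_zero (hν : Null ν ρ) : ∫ x, x ∂ν = 0 := by
  have := hν.prob
  have hi : Integrable (fun x : ℝ => x) ν := by
    apply integrable_bdd measurable_id.aestronglyMeasurable (C := ρ)
    exact hν.supp
  rw [int_symm hν.symm hi]
  simp

/-! ### likelihood products -/

theorem dep_tl (W S : Finset E) : DependsOn (fun r : E → ℝ => tl W r S) (W : Set E) := by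
  intro r r' h
  exact tl_congr (fun v hv => h v (by simpa using hv)) S

theorem tl_bd {W : Finset E} {r : E → ℝ} (hr : ∀ v ∈ W, |r v| < 1) (S : Finset E) :
    |tl W r S| ≤ 2 ^ W.card := by
  unfold tl
  rw [Finset.abs_prod]
  calc ∏ v ∈ W, |1 + sp S v * r v| ≤ ∏ _v ∈ W, (2:ℝ) := by
        apply Finset.prod_le_prod (fun v _ => abs_nonneg _)
        intro v hv
        have h1 : |sp S v * r v| < 1 := by
          rw [abs_mul, abs_sp, one_mul]; exact hr v hv
        have := abs_add_le 1 (sp S v * r v)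
        rw [abs_one] at this
        linarith
    _ = 2 ^ W.card := by simp

theorem integrable_tl (hν : Null ν ρ) (W S : Finset E) :
    Integrable (fun r => tl W r S) (Nm E ν) := by
  have := hν.prob
  apply integrable_bdd (measurable_tl W S).aestronglyMeasurable (C := 2 ^ W.card)
  filter_upwards [ae_adm' hν W] with r hr using tl_bd hr S

theorem integral_tl (hν : Null ν ρ) (W S : Finset E) : ∫ r, tl W r S ∂(Nm E ν) = 1 := by
  have := hν.prob
  induction W using Finset.induction_on with
  | empty => simp [tl]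
  | insert v W hv ih =>
    have e : ∀ r : E → ℝ, tl (insert v W) r S = (1 + sp S v * r v) * tl W r S := by
      intro r; unfold tl; rw [Finset.prod_insert hv]
    simp_rw [e]
    rw [integral_blocks (A := {v}) (B := W) (by simpa using hv) (by fun_prop) (measurable_tl W S)
      (by intro r r' h
          have := h v (by simp)
          simp only [this]) (dep_tl W S), ih, mul_one]
    rw [integral_coord v (fun x => 1 + sp S v * x) (by fun_prop)]
    have hi : Integrable (fun x : ℝ => x) ν := by
      apply integrable_bdd measurable_id.aestronglyMeasurable (C := ρ)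
      exact hν.supp
    rw [integral_add (integrable_const _) (hi.const_mul _), integral_const_mul, mean_zero hν]
    simp

end gen

/-! ### test functions -/

section tst

variable {V : Type*} {G : SimpleGraph V} {lam : ℝ} {b : ℕ} {ν : Measure ℝ} {ρ : ℝ}
  {W W' D : Finset V} {F H : (V → ℝ) → ℝ}

theorem ae_adm [Countable V] (hν : Null ν ρ) (W : Finset V) : ∀ᵐ r ∂(Nm V ν), Adm W r :=
  ae_adm' hν W

theorem Tst.of_tl (W S : Finset V) : Tst W (fun r => tl W r S) :=
  ⟨measurable_tl W S, dep_tl W S, ⟨2 ^ W.card, fun _ hr => tl_bd hr S⟩⟩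

theorem Tst.of_LW (G : SimpleGraph V) (lam : ℝ) (W : Finset V) : Tst W (LW G lam W) := by
  have : Tst W (fun r => ∑ S ∈ W.powerset, mu G lam W S * tl W r S) :=
    Tst.sum _ fun S _ => (Tst.of_tl W S).const_mul _
  exact this

theorem Tst.of_MW (h : Tr G lam b) {z : V} (hz : z ∈ W) : Tst W (MW G lam W z) :=
  ⟨measurable_MW W z, dep_MW W z, ⟨1, fun _ hr => (MW_abs_lt h hz hr).le⟩⟩

theorem Tst.of_KW (h : Tr G lam b) (hW : IsSub G W) (hne : W.Nonempty) (x y : V) :
    Tst W (KW G lam W x y) :=
  ⟨measurable_KW W x y, dep_KW W x y,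
    ⟨2, fun _ hr => abs_Kf_le (mu_total h hW hne) x y (fun v hv => (hr v hv).le)⟩⟩

theorem Tst.of_tau (h : Tr G lam b) {x u : V} (hu : u ∈ W) :
    Tst (desc G x u W) (tau G lam W x u) := Tst.of_MW h (self_mem_desc hu)

/-- composition of a bounded measurable function with the posterior mean -/
theorem Tst.comp_MW {z : V} (h : Tr G lam b) (hz : z ∈ W) {φ : ℝ → ℝ} (hφ : Measurable φ)
    (hb : ∃ C : ℝ, ∀ t, |t| < 1 → |φ t| ≤ C) : Tst W (fun r => φ (MW G lam W z r)) := by
  refine ⟨hφ.comp (measurable_MW W z), fun r r' hr => ?_, ?_⟩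
  · have := dep_MW (G := G) (lam := lam) W z hr
    simp only [this]
  · obtain ⟨C, hC⟩ := hb
    exact ⟨C, fun r hr => hC _ (MW_abs_lt h hz hr)⟩

theorem Tst.integrable' (hν : Null ν ρ) (hF : Tst W F) : Integrable F (Nm V ν) := by
  have := hν.prob
  obtain ⟨C, hC⟩ := hF.bdd
  apply integrable_bdd hF.meas.aestronglyMeasurable (C := C)
  filter_upwards [ae_adm' hν W] with r hr using hC r hr

theorem Tst.integrable [Countable V] (_h : Tr G lam b) (hν : Null ν ρ) {W : Finset V}
    {F : (V → ℝ) → ℝ} (hF : Tst W F) : Integrable (fun r => F r * LW G lam W r) (Nm V ν) :=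
  (hF.mul (Tst.of_LW G lam W)).integrable' hν

theorem integral_tst_blocks (hν : Null ν ρ) {A B : Finset V} (hAB : Disjoint A B)
    (hF : Tst A F) (hH : Tst B H) :
    ∫ r, F r * H r ∂(Nm V ν) = (∫ r, F r ∂(Nm V ν)) * ∫ r, H r ∂(Nm V ν) := by
  have := hν.prob
  exact integral_blocks hAB hF.meas hH.meas hF.dep hH.dep

/-- general consistency -/
theorem EI_gen (h : Tr G lam b) (hν : Null ν ρ) (hW : IsSub G W)
    (hne : W.Nonempty) (hW' : IsSub G W') (hsub : W ⊆ W') (hF : Tst W F) (g : Finset V → ℝ) :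
    ∫ r, F r * (∑ S ∈ W'.powerset, mu G lam W' S * tl W' r S * g (S ∩ W)) ∂(Nm V ν) =
      ∫ r, F r * (∑ S ∈ W.powerset, mu G lam W S * tl W r S * g S) ∂(Nm V ν) := by
  have hpr := hν.prob
  have h1 : ∀ S, ∫ r, F r * tl W' r S ∂(Nm V ν) = ∫ r, F r * tl W r (S ∩ W) ∂(Nm V ν) := by
    intro S
    have e : ∀ r : V → ℝ, F r * tl W' r S = (F r * tl W r (S ∩ W)) * tl (W' \ W) r (S \ W) := by
      intro r
      rw [tl_split hsub r S]
      ring
    simp_rw [e]
    rw [integral_tst_blocks hν Finset.disjoint_sdiff (hF.mul (Tst.of_tl W _)) (Tst.of_tl _ _),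
      integral_tl hν, mul_one]
  have h2 : ∀ (A : Finset V) (S : Finset V), A = W ∨ A = W' →
      Integrable (fun r => F r * tl A r S) (Nm V ν) := by
    intro A S hA
    rcases hA with rfl | rfl
    · exact (hF.mul (Tst.of_tl _ _)).integrable' hν
    · exact ((hF.mono hsub).mul (Tst.of_tl _ _)).integrable' hν
  have h3 : ∫ r, F r * (∑ S ∈ W'.powerset, mu G lam W' S * tl W' r S * g (S ∩ W)) ∂(Nm V ν) =
      ∑ S ∈ W'.powerset, mu G lam W' S * g (S ∩ W) * ∫ r, F r * tl W r (S ∩ W) ∂(Nm V ν) := by
    have e : ∀ r : V → ℝ, F r * (∑ S ∈ W'.powerset, mu G lam W' S * tl W' r S * g (S ∩ W)) =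
        ∑ S ∈ W'.powerset, (mu G lam W' S * g (S ∩ W)) * (F r * tl W' r S) := by
      intro r
      rw [Finset.mul_sum]
      exact Finset.sum_congr rfl fun S _ => by ring
    simp_rw [e]
    rw [integral_finsetSum _ (fun S _ => (h2 W' S (Or.inr rfl)).const_mul _)]
    apply Finset.sum_congr rfl
    intro S _
    rw [integral_const_mul, h1]
  have h4 : ∫ r, F r * (∑ S ∈ W.powerset, mu G lam W S * tl W r S * g S) ∂(Nm V ν) =
      ∑ S ∈ W.powerset, mu G lam W S * g S * ∫ r, F r * tl W r S ∂(Nm V ν) := by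
    have e : ∀ r : V → ℝ, F r * (∑ S ∈ W.powerset, mu G lam W S * tl W r S * g S) =
        ∑ S ∈ W.powerset, (mu G lam W S * g S) * (F r * tl W r S) := by
      intro r
      rw [Finset.mul_sum]
      exact Finset.sum_congr rfl fun S _ => by ring
    simp_rw [e]
    rw [integral_finsetSum _ (fun S _ => (h2 W S (Or.inl rfl)).const_mul _)]
    apply Finset.sum_congr rfl
    intro S _
    rw [integral_const_mul]
  rw [h3, h4]
  rw [← Finset.sum_fiberwise_of_maps_to (s := W'.powerset) (t := W.powerset)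
    (g := fun S => S ∩ W) (fun S _ => by simp)]
  apply Finset.sum_congr rfl
  intro S hS
  rw [mu_consistent h hW hne hW' hsub (Finset.mem_powerset.1 hS), Finset.sum_mul, Finset.sum_mul]
  apply Finset.sum_congr rfl
  intro S' hS'
  rw [(Finset.mem_filter.1 hS').2]

theorem EI_congr_ae (hν : Null ν ρ) {F F' : (V → ℝ) → ℝ} (hFF : ∀ r, Adm W r → F r = F' r) :
    EI G lam ν W F = EI G lam ν W F' := by
  unfold EI
  apply integral_congr_ae
  filter_upwards [ae_adm' hν W] with r hr
  rw [hFF r hr]

/-- marginal: observables living in a smaller subtree -/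
theorem EI_marg [Countable V] (h : Tr G lam b) (hν : Null ν ρ) {W W' : Finset V} (hW : IsSub G W)
    (hne : W.Nonempty) (hW' : IsSub G W') (hsub : W ⊆ W') {F : (V → ℝ) → ℝ} (hF : Tst W F) :
    EI G lam ν W' F = EI G lam ν W F := by
  have := EI_gen h hν hW hne hW' hsub hF (fun _ => 1)
  simp only [mul_one] at this
  exact this

theorem EI_one [Countable V] (h : Tr G lam b) (hν : Null ν ρ) {W : Finset V} (hW : IsSub G W)
    (hne : W.Nonempty) : EI G lam ν W (fun _ => 1) = 1 := by
  have hpr := hν.prob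
  unfold EI
  simp only [one_mul]
  have e : ∀ r : V → ℝ, LW G lam W r = ∑ S ∈ W.powerset, mu G lam W S * tl W r S := fun _ => rfl
  simp_rw [e]
  rw [integral_finsetSum _ (fun S _ => (integrable_tl hν W S).const_mul _)]
  simp_rw [integral_const_mul, integral_tl hν, mul_one]
  exact (mu_total h hW hne).total

/-- martingale property of the posterior mean when the window grows -/
theorem EI_mart [Countable V] (h : Tr G lam b) (hν : Null ν ρ) {W W' : Finset V} (hW : IsSub G W)
    (hne : W.Nonempty) (hW' : IsSub G W') (hsub : W ⊆ W') {z : V} (hz : z ∈ W)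
    {F : (V → ℝ) → ℝ} (hF : Tst W F) :
    EI G lam ν W' (fun r => MW G lam W' z r * F r) =
      EI G lam ν W (fun r => MW G lam W z r * F r) := by
  have h1 := EI_gen h hν hW hne hW' hsub hF (fun S => sp S z)
  unfold EI
  have e1 : ∫ r, MW G lam W' z r * F r * LW G lam W' r ∂(Nm V ν) =
      ∫ r, F r * (∑ S ∈ W'.powerset, mu G lam W' S * tl W' r S * sp (S ∩ W) z) ∂(Nm V ν) := by
    apply integral_congr_ae
    filter_upwards [ae_adm' hν W'] with r hr
    have := MW_mul_LW h W' z hr
    have e : ∀ S ∈ W'.powerset, mu G lam W' S * tl W' r S * sp (S ∩ W) z =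
        mu G lam W' S * tl W' r S * sp S z := by
      intro S _
      rw [sp_inter hz]
    rw [Finset.sum_congr rfl e, this]
    ring
  have e2 : ∫ r, MW G lam W z r * F r * LW G lam W r ∂(Nm V ν) =
      ∫ r, F r * (∑ S ∈ W.powerset, mu G lam W S * tl W r S * sp S z) ∂(Nm V ν) := by
    apply integral_congr_ae
    filter_upwards [ae_adm' hν W] with r hr
    have := MW_mul_LW h W z hr
    rw [this]
    ring
  rw [e1, e2, h1]

/-- odd observables integrate to zero -/
theorem integral_odd (hν : Null ν ρ) (D : Finset V) {f : (V → ℝ) → ℝ} (hf : Measurable f)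
    (hodd : ∀ r, f (flip D r) = - f r) : ∫ r, f r ∂(Nm V ν) = 0 := by
  have h1 := integral_flip hν D f hf
  simp_rw [hodd] at h1
  rw [integral_neg] at h1
  linarith

/-- even observables of the subtree below `u` are independent of everything else -/
theorem EI_indep [Countable V] (h : Tr G lam b) (hν : Null ν ρ) {W : Finset V} (hW : IsSub G W)
    {x u : V} (hx : x ∈ W) (hu : u ∈ W) (hux : u ≠ x) {F H : (V → ℝ) → ℝ}
    (hF : Tst (desc G x u W) F) (hFe : EvenOn (desc G x u W) F) (hH : Tst (W \ desc G x u W) H) :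
    EI G lam ν W (fun r => F r * H r) =
      EI G lam ν (desc G x u W) F * EI G lam ν (W \ desc G x u W) H := by
  set D := desc G x u W with hD
  have hDW : D ⊆ W := desc_subset x u W
  have hpar := par_mem_sdiff h hW hx hu hux
  have hFL : Tst D (fun r => F r * LW G lam D r) := hF.mul (Tst.of_LW G lam D)
  have hτ : Tst D (tau G lam W x u) := Tst.of_tau h hu
  have hHL : Tst (W \ D) (fun r => H r * LW G lam (W \ D) r) := hH.mul (Tst.of_LW G lam (W \ D))
  have hM : Tst (W \ D) (MW G lam (W \ D) (par G x u)) := Tst.of_MW h hpar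
  unfold EI
  have e1 : ∫ r, F r * H r * LW G lam W r ∂(Nm V ν) =
      ∫ r, ((F r * LW G lam D r) * (H r * LW G lam (W \ D) r) +
        (lam * (F r * LW G lam D r * tau G lam W x u r)) *
          (H r * LW G lam (W \ D) r * MW G lam (W \ D) (par G x u) r)) ∂(Nm V ν) := by
    apply integral_congr_ae
    filter_upwards [ae_adm' hν W] with r hr
    rw [LW_split h hW hx hu hux hr]
    ring
  rw [e1]
  have i1 : Integrable (fun r => (F r * LW G lam D r) * (H r * LW G lam (W \ D) r)) (Nm V ν) :=
    ((hFL.mono hDW).mul (hHL.mono Finset.sdiff_subset)).integrable' hν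
  have hA : Tst D (fun r => lam * (F r * LW G lam D r * tau G lam W x u r)) :=
    (hFL.mul hτ).const_mul _
  have hB : Tst (W \ D) (fun r => H r * LW G lam (W \ D) r * MW G lam (W \ D) (par G x u) r) :=
    hHL.mul hM
  have i2 : Integrable (fun r => (lam * (F r * LW G lam D r * tau G lam W x u r)) *
          (H r * LW G lam (W \ D) r * MW G lam (W \ D) (par G x u) r)) (Nm V ν) :=
    ((hA.mono hDW).mul (hB.mono Finset.sdiff_subset)).integrable' hν
  rw [integral_add i1 i2, integral_tst_blocks hν Finset.disjoint_sdiff hFL hHL,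
    integral_tst_blocks hν Finset.disjoint_sdiff hA hB]
  have hzero : ∫ r, lam * (F r * LW G lam D r * tau G lam W x u r) ∂(Nm V ν) = 0 := by
    apply integral_odd hν D hA.meas
    intro r
    have t1 : tau G lam W x u (flip D r) = - tau G lam W x u r :=
      MW_flip h (W := D) (self_mem_desc hu) r
    rw [hFe r, LW_flip h (W := D) r, t1]
    ring
  rw [hzero, zero_mul, add_zero]

/-! ### the law of the posterior mean -/

/-- law of the evidence field in the static model of the window `W` -/
noncomputable def PW (G : SimpleGraph V) (lam : ℝ) (ν : Measure ℝ) (W : Finset V) :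
    Measure (V → ℝ) :=
  (Nm V ν).withDensity (fun r => ENNReal.ofReal (LW G lam W r))

/-- law of the posterior mean at `u` in the window `W` -/
noncomputable def lawM (G : SimpleGraph V) (lam : ℝ) (ν : Measure ℝ) (W : Finset V) (u : V) :
    Measure ℝ :=
  ((Nm V ν).withDensity (fun r => ENNReal.ofReal (LW G lam W r))).map (MW G lam W u)

theorem PW_prob [Countable V] (h : Tr G lam b) (hν : Null ν ρ) {W : Finset V} (hW : IsSub G W)
    (hne : W.Nonempty) : IsProbabilityMeasure (PW G lam ν W) := by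
  refine ⟨?_⟩
  unfold PW
  rw [withDensity_apply _ MeasurableSet.univ, Measure.restrict_univ,
    ← ofReal_integral_eq_lintegral_ofReal]
  · have := EI_one h hν hW hne
    unfold EI at this
    simp only [one_mul] at this
    rw [this, ENNReal.ofReal_one]
  · exact (Tst.of_LW G lam W).integrable' hν
  · filter_upwards [ae_adm' hν W] with r hr
    exact (LW_pos' h W hr).le

theorem PW_ae (hν : Null ν ρ) (W : Finset V) {p : (V → ℝ) → Prop}
    (hp : ∀ᵐ r ∂(Nm V ν), p r) : ∀ᵐ r ∂(PW G lam ν W), p r :=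
  (withDensity_absolutelyContinuous _ _).ae_le hp

theorem integral_PW (h : Tr G lam b) (hν : Null ν ρ) (W : Finset V) (F : (V → ℝ) → ℝ) :
    ∫ r, F r ∂(PW G lam ν W) = EI G lam ν W F := by
  unfold PW EI
  rw [integral_withDensity_eq_integral_toReal_smul (measurable_LW W).ennreal_ofReal
    (Filter.Eventually.of_forall fun r => ENNReal.ofReal_lt_top)]
  apply integral_congr_ae
  filter_upwards [ae_adm' hν W] with r hr
  rw [ENNReal.toReal_ofReal (LW_pos' h W hr).le, smul_eq_mul, mul_comm]

theorem PW_flip (h : Tr G lam b) (hν : Null ν ρ) (W : Finset V) :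
    (PW G lam ν W).map (flip W) = PW G lam ν W := by
  have hf := flip_preserving hν (E := V) W
  ext s hs
  rw [Measure.map_apply hf.measurable hs]
  unfold PW
  rw [withDensity_apply _ (hf.measurable hs), withDensity_apply _ hs,
    ← hf.setLIntegral_comp_preimage hs (measurable_LW W).ennreal_ofReal]
  simp_rw [LW_flip h]

theorem lawM_spec [Countable V] (h : Tr G lam b) (hν : Null ν ρ) {W : Finset V} (hW : IsSub G W)
    {u : V} (hu : u ∈ W) : IsProbabilityMeasure (lawM G lam ν W u) ∧
      (lawM G lam ν W u).map (fun x => -x) = lawM G lam ν W u ∧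
      (∀ᵐ x ∂(lawM G lam ν W u), |x| < 1) := by
  have hp := PW_prob h hν hW ⟨u, hu⟩
  have hm := measurable_MW (G := G) (lam := lam) W u
  have e0 : lawM G lam ν W u = (PW G lam ν W).map (MW G lam W u) := rfl
  refine ⟨?_, ?_, ?_⟩
  · rw [e0]
    exact Measure.isProbabilityMeasure_map hm.aemeasurable
  · rw [e0, Measure.map_map measurable_neg hm]
    have e1 : (fun x : ℝ => -x) ∘ (MW G lam W u) = (MW G lam W u) ∘ (flip W) := by
      funext r
      simp only [Function.comp]
      rw [MW_flip h hu]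
    rw [e1, ← Measure.map_map hm measurable_flip, PW_flip h hν]
  · rw [e0, ae_map_iff hm.aemeasurable (measurableSet_lt (by fun_prop) (by fun_prop))]
    apply PW_ae hν
    filter_upwards [ae_adm' hν W] with r hr
    exact MW_abs_lt h hu hr

theorem EI_lawM [Countable V] (h : Tr G lam b) (hν : Null ν ρ) {W : Finset V} (_hW : IsSub G W)
    {u : V} (_hu : u ∈ W) (φ : ℝ → ℝ) (hφ : Measurable φ) :
    EI G lam ν W (fun r => φ (MW G lam W u r)) = ∫ t, φ t ∂(lawM G lam ν W u) := by
  have e0 : lawM G lam ν W u = (PW G lam ν W).map (MW G lam W u) := rfl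
  rw [e0, integral_map (measurable_MW W u).aemeasurable hφ.aestronglyMeasurable,
    integral_PW h hν]

/-- Fubini for two blocks -/
theorem integral2_blocks (hν : Null ν ρ) {A B : Finset V} (hAB : Disjoint A B)
    {α β : Type*} [MeasurableSpace α] [MeasurableSpace β] {f : (V → ℝ) → α} {g : (V → ℝ) → β}
    (hf : Measurable f) (hg : Measurable g) (hfA : DependsOn f (A : Set V))
    (hgB : DependsOn g (B : Set V)) {Φ : α → β → ℝ} (hΦ : Measurable (fun q : α × β => Φ q.1 q.2))
    (hI : Integrable (fun r => Φ (f r) (g r)) (Nm V ν)) :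
    ∫ r, Φ (f r) (g r) ∂(Nm V ν) = ∫ r, ∫ r', Φ (f r) (g r') ∂(Nm V ν) ∂(Nm V ν) := by
  have hpr := hν.prob
  have hind := indep_blocks (ν := ν) hAB hf hg hfA hgB
  have hmap := hind.map_prod_eq_prod_map_map hf.aemeasurable hg.aemeasurable
  have hfg : Measurable (fun r => (f r, g r)) := hf.prodMk hg
  have h1 : ∫ r, Φ (f r) (g r) ∂(Nm V ν) =
      ∫ q, Φ q.1 q.2 ∂((Nm V ν).map (fun r => (f r, g r))) :=
    (integral_map hfg.aemeasurable hΦ.aestronglyMeasurable).symm
  have hI2 : Integrable (fun q : α × β => Φ q.1 q.2) (((Nm V ν).map f).prod ((Nm V ν).map g)) := by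
    rw [← hmap]
    exact (integrable_map_measure hΦ.aestronglyMeasurable hfg.aemeasurable).2 hI
  rw [h1, hmap, integral_prod _ hI2, integral_map hf.aemeasurable]
  · congr 1
    funext r
    rw [integral_map hg.aemeasurable]
    exact (hΦ.comp (measurable_const.prodMk measurable_id)).aestronglyMeasurable
  · exact (hΦ.stronglyMeasurable.integral_prod_right).aestronglyMeasurable

/-- binary combination along an edge -/
theorem EI_comb [Countable V] (h : Tr G lam b) (hν : Null ν ρ) {W : Finset V} (hW : IsSub G W)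
    {x u : V} (hx : x ∈ W) (hu : u ∈ W) (hux : u ≠ x) (φ : ℝ → ℝ) (hφ : Measurable φ)
    (hb : ∃ C : ℝ, ∀ t, |t| < 1 → |φ t| ≤ C) :
    EI G lam ν W (fun r => φ (MW G lam W (par G x u) r)) =
      ∫ t₁, ∫ t₂, φ (opl t₁ (lam * t₂)) * (1 + t₁ * (lam * t₂))
        ∂(lawM G lam ν (desc G x u W) u) ∂(lawM G lam ν (W \ desc G x u W) (par G x u)) := by
  have hpr := hν.prob
  set D := desc G x u W with hD
  set q := par G x u with hq
  have hDW : D ⊆ W := desc_subset x u W
  have hpar : q ∈ W \ D := par_mem_sdiff h hW hx hu hux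
  have huD : u ∈ D := self_mem_desc hu
  have hqW : q ∈ W := hW x hx u hu
  -- the two blocks
  let f : (V → ℝ) → ℝ × ℝ := fun r => (MW G lam (W \ D) q r, LW G lam (W \ D) r)
  let g : (V → ℝ) → ℝ × ℝ := fun r => (MW G lam D u r, LW G lam D r)
  let Φ : ℝ × ℝ → ℝ × ℝ → ℝ := fun a c =>
    (φ (opl a.1 (lam * c.1)) * (1 + a.1 * (lam * c.1))) * (a.2 * c.2)
  have hf : Measurable f := (measurable_MW _ _).prodMk (measurable_LW _)
  have hg : Measurable g := (measurable_MW _ _).prodMk (measurable_LW _)
  have hfd : DependsOn f ((W \ D : Finset V) : Set V) := by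
    intro r r' hr
    have e1 := dep_MW (G := G) (lam := lam) (W \ D) q hr
    have e2 := dep_LW (G := G) (lam := lam) (W \ D) hr
    show (_, _) = (_, _)
    rw [e1, e2]
  have hgd : DependsOn g (D : Set V) := by
    intro r r' hr
    have e1 := dep_MW (G := G) (lam := lam) D u hr
    have e2 := dep_LW (G := G) (lam := lam) D hr
    show (_, _) = (_, _)
    rw [e1, e2]
  have hψ : Measurable (fun c : ℝ × ℝ => φ (opl c.1 (lam * c.2)) * (1 + c.1 * (lam * c.2))) := by
    have h1 : Measurable (fun c : ℝ × ℝ => (c.1, lam * c.2)) := by fun_prop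
    exact (hφ.comp (measurable_opl.comp h1)).mul (by fun_prop)
  have hΦ : Measurable (fun c : (ℝ × ℝ) × (ℝ × ℝ) => Φ c.1 c.2) := by
    have h1 : Measurable (fun c : (ℝ × ℝ) × (ℝ × ℝ) => (c.1.1, c.2.1)) := by fun_prop
    exact (hψ.comp h1).mul (by fun_prop)
  have eae : ∀ᵐ r ∂(Nm V ν), φ (MW G lam W q r) * LW G lam W r = Φ (f r) (g r) := by
    filter_upwards [ae_adm' hν W] with r hr
    rw [LW_split h hW hx hu hux hr, MW_par h hW hx hu hux hr]
    show φ (opl _ (lam * tau G lam W x u r)) * (_ * _ * (1 + lam * tau G lam W x u r * _)) =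
      (φ (opl _ (lam * tau G lam W x u r)) * (1 + _ * (lam * tau G lam W x u r))) * (_ * _)
    ring
  have hIF : Integrable (fun r => φ (MW G lam W q r) * LW G lam W r) (Nm V ν) :=
    Tst.integrable h hν (Tst.comp_MW h hqW hφ hb)
  have hI : Integrable (fun r => Φ (f r) (g r)) (Nm V ν) := hIF.congr eae
  have e0 : EI G lam ν W (fun r => φ (MW G lam W q r)) =
      ∫ r, Φ (f r) (g r) ∂(Nm V ν) := integral_congr_ae eae
  rw [e0, integral2_blocks hν Finset.sdiff_disjoint hf hg hfd hgd hΦ hI]
  -- the inner integral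
  have hDsub : IsSub G D := desc_isSub h.tree (hW.parClosed hx) hu
  have hcsub : IsSub G (W \ D) := isSub_sdiff h hW hx hu hux
  have e1 : ∀ r : V → ℝ, ∫ r', Φ (f r) (g r') ∂(Nm V ν) =
      (∫ t₂, φ (opl (MW G lam (W \ D) q r) (lam * t₂)) * (1 + MW G lam (W \ D) q r * (lam * t₂))
        ∂(lawM G lam ν D u)) * LW G lam (W \ D) r := by
    intro r
    rw [← EI_lawM h hν hDsub huD (fun t₂ => φ (opl (MW G lam (W \ D) q r) (lam * t₂)) *
      (1 + MW G lam (W \ D) q r * (lam * t₂)))
      (hψ.comp (measurable_const.prodMk measurable_id))]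
    unfold EI
    rw [← integral_mul_const]
    congr 1
    funext r'
    show (φ (opl _ (lam * MW G lam D u r')) * (1 + _ * (lam * MW G lam D u r'))) * (_ * _) = _
    ring
  simp_rw [e1]
  have hm : Measurable (fun t₁ : ℝ => ∫ t₂, φ (opl t₁ (lam * t₂)) * (1 + t₁ * (lam * t₂))
        ∂(lawM G lam ν D u)) := by
    have := (lawM_spec h hν hDsub huD).1
    exact (hψ.stronglyMeasurable.integral_prod_right).measurable
  exact EI_lawM h hν hcsub hpar (fun t₁ : ℝ => ∫ t₂, φ (opl t₁ (lam * t₂)) * (1 + t₁ * (lam * t₂))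
        ∂(lawM G lam ν D u)) hm

/-! ### static laws -/

theorem IsStat.adm [Countable V] (_h : Tr G lam b) (hν : Null ν ρ) {W : Finset V}
    (_hW : IsSub G W) (_hne : W.Nonempty) {κ : Measure (V → ℝ)} (hκ : IsStat G lam ν W κ) :
    ∀ᵐ r ∂κ, Adm W r := by
  have hms : MeasurableSet {r : V → ℝ | Adm W r} := by
    have : {r : V → ℝ | Adm W r} = ⋂ v ∈ W, {r | |r v| < 1} := by
      ext r; simp [Adm]
    rw [this]
    exact Finset.measurableSet_biInter _ fun v _ =>
      measurableSet_lt (by fun_prop) measurable_const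
  have hdep : ∀ r r' : V → ℝ, (∀ v ∈ (W : Set V), r v = r' v) → (Adm W r ↔ Adm W r') := by
    intro r r' hr
    unfold Adm
    exact forall₂_congr fun v hv => by rw [hr v (by simpa using hv)]
  rw [ae_iff]
  have h1 := hκ (Set.indicator {r : V → ℝ | ¬ Adm W r} (fun _ => 1))
    (measurable_const.indicator hms.compl) (by
      intro r r' hr
      have := hdep r r' hr
      simp only [Set.indicator_apply, Set.mem_ofPred_eq, this])
  have h2 : ∫⁻ r, Set.indicator {r : V → ℝ | ¬ Adm W r} (fun _ => (1 : ENNReal)) r ∂κ =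
      κ {r : V → ℝ | ¬ Adm W r} := by
    have hms' : MeasurableSet {r : V → ℝ | ¬ Adm W r} := hms.compl
    rw [lintegral_indicator hms', setLIntegral_one]
  rw [← h2, h1]
  have h3 : ∀ᵐ r ∂(Nm V ν), Set.indicator {r : V → ℝ | ¬ Adm W r} (fun _ => (1 : ENNReal)) r *
      ENNReal.ofReal (LW G lam W r) = 0 := by
    filter_upwards [ae_adm' hν W] with r hr
    have : r ∉ {r : V → ℝ | ¬ Adm W r} := fun hn => hn hr
    rw [Set.indicator_of_notMem this, zero_mul]
  rw [lintegral_congr_ae h3, lintegral_zero]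

theorem IsStat.integral [Countable V] (h : Tr G lam b) (hν : Null ν ρ) {W : Finset V}
    (_hW : IsSub G W) (_hne : W.Nonempty) {κ : Measure (V → ℝ)} (hκ : IsStat G lam ν W κ)
    {F : (V → ℝ) → ℝ} (hF : Tst W F) : Integrable F κ ∧ ∫ r, F r ∂κ = EI G lam ν W F := by
  have hI : Integrable (fun r => F r * LW G lam W r) (Nm V ν) := Tst.integrable h hν hF
  have hdF : ∀ {α : Type} (φ : ℝ → α), DependsOn (fun r => φ (F r)) (W : Set V) := by
    intro α φ r r' hr
    simp only [hF.dep hr]
  have hint : Integrable F κ := by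
    refine ⟨hF.meas.aestronglyMeasurable, ?_⟩
    rw [hasFiniteIntegral_iff_enorm]
    rw [hκ (fun r => ‖F r‖ₑ) hF.meas.enorm (hdF fun t => ‖t‖ₑ)]
    have e : ∫⁻ r, ‖F r‖ₑ * ENNReal.ofReal (LW G lam W r) ∂(Nm V ν) =
        ∫⁻ r, ‖F r * LW G lam W r‖ₑ ∂(Nm V ν) := by
      apply lintegral_congr_ae
      filter_upwards [ae_adm' hν W] with r hr
      rw [enorm_mul, Real.enorm_of_nonneg (LW_pos' h W hr).le]
    rw [e]
    exact hI.hasFiniteIntegral
  refine ⟨hint, ?_⟩
  unfold EI
  rw [integral_eq_lintegral_pos_part_sub_lintegral_neg_part hint,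
    integral_eq_lintegral_pos_part_sub_lintegral_neg_part hI,
    hκ (fun r => ENNReal.ofReal (F r)) hF.meas.ennreal_ofReal (hdF fun t => ENNReal.ofReal t),
    hκ (fun r => ENNReal.ofReal (-F r)) hF.meas.neg.ennreal_ofReal
      (hdF fun t => ENNReal.ofReal (-t))]
  congr 2
  · apply lintegral_congr_ae
    filter_upwards [ae_adm' hν W] with r hr
    rw [ENNReal.ofReal_mul' (LW_pos' h W hr).le]
  · apply lintegral_congr_ae
    filter_upwards [ae_adm' hν W] with r hr
    rw [← ENNReal.ofReal_mul' (LW_pos' h W hr).le, neg_mul]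

end tst

end Crest.Agent.H14
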