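import Mathlib
import Crest.Agent.H14.Static
import Crest.Agent.H14.TstL

/-!
# Row 160 (helper12): linearity/monotonicity of `EI`, independence of the children of a vertex,
counting of spheres
-/

set_option autoImplicit false

open MeasureTheory Filter Topology

namespace Crest.Agent.H14

open scoped Classical

/-! ### Counting -/

section Count

variable {V : Type*} {G : SimpleGraph V} [G.LocallyFinite] {lam : ℝ} {b : ℕ} {W : Finset V}

theorem card_sphere (h : Tr G lam b) (hW : IsSub G W) {u : V} (hu : u ∈ W) (n : ℕ) :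
    (W.filter (fun y => G.dist u y = n + 1)).card ≤ (b + 1) * b ^ n := by
  have hT := h.tree
  have hsub : ∀ n, W.filter (fun y => G.dist u y = n + 1) ⊆
      (W.filter (fun y => G.dist u y = n)).biUnion (fun w => chl G u w W) := by
    intro n y hy
    rw [Finset.mem_filter] at hy
    have hyu : y ≠ u := by
      rintro rfl
      simp at hy
    have h1 := dist_par hT hyu
    rw [Finset.mem_biUnion]
    refine ⟨par G u y, Finset.mem_filter.2 ⟨hW u hu y hy.1, by omega⟩, ?_⟩
    rw [mem_chl]
    exact ⟨hy.1, hyu, rfl⟩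
  induction n with
  | zero =>
    refine (Finset.card_le_card (hsub 0)).trans ?_
    have h0 : W.filter (fun y => G.dist u y = 0) = {u} := by
      ext y
      rw [Finset.mem_filter, Finset.mem_singleton]
      constructor
      · rintro ⟨_, h1⟩
        exact ((hT.connected.dist_eq_zero_iff).1 h1).symm
      · rintro rfl
        exact ⟨hu, by simp⟩
    rw [h0, Finset.singleton_biUnion]
    simpa using card_chl_root_le hT h.reg u W
  | succ n ih =>
    refine (Finset.card_le_card (hsub (n + 1))).trans (Finset.card_biUnion_le.trans ?_)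
    calc ∑ w ∈ W.filter (fun y => G.dist u y = n + 1), (chl G u w W).card
        ≤ ∑ _w ∈ W.filter (fun y => G.dist u y = n + 1), b := by
          apply Finset.sum_le_sum
          intro w hw
          rw [Finset.mem_filter] at hw
          have hwu : w ≠ u := by
            rintro rfl
            simp at hw
          exact card_chl_le hT h.reg hwu W
      _ = (W.filter (fun y => G.dist u y = n + 1)).card * b := by simp
      _ ≤ ((b + 1) * b ^ n) * b := Nat.mul_le_mul_right b ih
      _ = (b + 1) * b ^ (n + 1) := by ring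

theorem card_sphere' (h : Tr G lam b) (hW : IsSub G W) {u : V} (hu : u ∈ W) (n : ℕ) :
    (W.filter (fun y => G.dist u y = n)).card ≤ 2 * b ^ n := by
  have hb := h.two
  cases n with
  | zero =>
    have h0 : W.filter (fun y => G.dist u y = 0) ⊆ {u} := by
      intro y hy
      rw [Finset.mem_filter] at hy
      rw [Finset.mem_singleton]
      exact ((h.tree.connected.dist_eq_zero_iff).1 hy.2).symm
    refine (Finset.card_le_card h0).trans ?_
    simp
  | succ n =>
    refine (card_sphere h hW hu n).trans ?_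
    rw [pow_succ]
    have : (b + 1) * b ^ n ≤ (2 * b) * b ^ n := Nat.mul_le_mul_right _ (by omega)
    calc (b + 1) * b ^ n ≤ (2 * b) * b ^ n := this
      _ = 2 * (b ^ n * b) := by ring

/-- grouping by the distance -/
theorem sum_by_dist (h : Tr G lam b) (hW : IsSub G W) {u : V} (hu : u ∈ W) {T : Finset V}
    (hT : T ⊆ W) (f : ℕ → ℝ) (hf : ∀ n, 0 ≤ f n) :
    ∃ M : ℕ, ∑ y ∈ T, f (G.dist u y) ≤ ∑ n ∈ Finset.range M, 2 * (b:ℝ) ^ n * f n := by
  refine ⟨T.sup (fun y => G.dist u y) + 1, ?_⟩
  have hmaps : ∀ y ∈ T, G.dist u y ∈ Finset.range (T.sup (fun y => G.dist u y) + 1) := by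
    intro y hy
    rw [Finset.mem_range, Nat.lt_succ_iff]
    exact Finset.le_sup (f := fun y => G.dist u y) hy
  rw [← Finset.sum_fiberwise_of_maps_to hmaps]
  apply Finset.sum_le_sum
  intro n _
  have e : ∑ y ∈ T with G.dist u y = n, f (G.dist u y) =
      ((T.filter (fun y => G.dist u y = n)).card : ℝ) * f n := by
    rw [← nsmul_eq_mul, ← Finset.sum_const]
    apply Finset.sum_congr rfl
    intro y hy
    rw [(Finset.mem_filter.1 hy).2]
  rw [e]
  apply mul_le_mul_of_nonneg_right _ (hf n)
  have h1 : (T.filter (fun y => G.dist u y = n)).card ≤ 2 * b ^ n :=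
    (Finset.card_le_card (Finset.filter_subset_filter _ hT)).trans (card_sphere' h hW hu n)
  exact_mod_cast h1

/-- geometric sum with a delay -/
theorem sum_delay {c s : ℝ} (hc : 0 < c) (hc1 : c < 1) (hs : 0 < s) (hs1 : s ≤ 1) (N M : ℕ) :
    ∑ n ∈ Finset.range M, (1 - c * s) ^ (n - N) ≤ N + 1 / (c * s) := by
  have hcs : 0 < c * s := mul_pos hc hs
  have hcs1 : c * s < 1 := by nlinarith
  have h0 : 0 ≤ 1 - c * s := by linarith
  have h1 : 1 - c * s < 1 := by linarith
  have h2 : ∀ M : ℕ, ∑ n ∈ Finset.range M, (1 - c * s) ^ n ≤ 1 / (c * s) := by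
    intro M
    have h3 := (summable_geometric_of_lt_one h0 h1).sum_le_tsum (Finset.range M)
      (fun n _ => pow_nonneg h0 n)
    rw [tsum_geometric_of_lt_one h0 h1] at h3
    rw [one_div]
    have : (1 - (1 - c * s)) = c * s := by ring
    rwa [this] at h3
  have h3 : ∑ n ∈ Finset.range M, (1 - c * s) ^ (n - N) ≤
      ∑ n ∈ Finset.range (N + M), (1 - c * s) ^ (n - N) := by
    apply Finset.sum_le_sum_of_subset_of_nonneg
    · intro n hn
      rw [Finset.mem_range] at hn ⊢
      omega
    · intro n _ _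
      exact pow_nonneg h0 _
  refine h3.trans ?_
  rw [Finset.sum_range_add]
  apply add_le_add
  · have : ∀ n ∈ Finset.range N, (1 - c * s) ^ (n - N) = 1 := by
      intro n hn
      rw [Finset.mem_range] at hn
      have : n - N = 0 := by omega
      rw [this, pow_zero]
    rw [Finset.sum_congr rfl this]
    simp
  · have : ∀ n ∈ Finset.range M, (1 - c * s) ^ (N + n - N) = (1 - c * s) ^ n := by
      intro n _
      congr 1
      omega
    rw [Finset.sum_congr rfl this]
    exact h2 M

end Count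

section EIgeneral
variable {V : Type*} {G : SimpleGraph V} [Countable V] {lam : ℝ} {b : ℕ}

theorem EI_sum (h : Tr G lam b) {ν : Measure ℝ} {ρ : ℝ} (hν : Null ν ρ) {W : Finset V}
    {ι : Type*} (s : Finset ι) (F : ι → (V → ℝ) → ℝ) (hF : ∀ i ∈ s, Tst W (F i)) :
    EI G lam ν W (fun r => ∑ i ∈ s, F i r) = ∑ i ∈ s, EI G lam ν W (F i) := by
  unfold EI
  simp_rw [Finset.sum_mul]
  exact integral_finsetSum s fun i hi => (hF i hi).integrable h hν

theorem EI_const_mul (ν : Measure ℝ) (W : Finset V) (c : ℝ) (F : (V → ℝ) → ℝ) :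
    EI G lam ν W (fun r => c * F r) = c * EI G lam ν W F := by
  unfold EI
  rw [← integral_const_mul]
  congr 1
  funext r
  ring

theorem EI_mono (h : Tr G lam b) {ν : Measure ℝ} {ρ : ℝ} (hν : Null ν ρ) {W : Finset V}
    {F H : (V → ℝ) → ℝ} (hF : Tst W F) (hH : Tst W H) (hle : ∀ r, Adm W r → F r ≤ H r) :
    EI G lam ν W F ≤ EI G lam ν W H := by
  unfold EI
  apply integral_mono_ae (hF.integrable h hν) (hH.integrable h hν)
  filter_upwards [ae_adm hν W] with r hr
  exact mul_le_mul_of_nonneg_right (hle r hr) (LW_pos' h W hr).le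

theorem EI_congr (h : Tr G lam b) {ν : Measure ℝ} {ρ : ℝ} (hν : Null ν ρ) {W : Finset V}
    {F H : (V → ℝ) → ℝ} (hle : ∀ r, Adm W r → F r = H r) :
    EI G lam ν W F = EI G lam ν W H := by
  unfold EI
  apply integral_congr_ae
  filter_upwards [ae_adm hν W] with r hr
  rw [hle r hr]


theorem EI_add (h : Tr G lam b) {ν : Measure ℝ} {ρ : ℝ} (hν : Null ν ρ) {W : Finset V}
    {F H : (V → ℝ) → ℝ} (hF : Tst W F) (hH : Tst W H) :
    EI G lam ν W (fun r => F r + H r) = EI G lam ν W F + EI G lam ν W H := by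
  unfold EI
  rw [← integral_add (hF.integrable h hν) (hH.integrable h hν)]
  congr 1
  funext r
  ring

theorem EI_sub (h : Tr G lam b) {ν : Measure ℝ} {ρ : ℝ} (hν : Null ν ρ) {W : Finset V}
    {F H : (V → ℝ) → ℝ} (hF : Tst W F) (hH : Tst W H) :
    EI G lam ν W (fun r => F r - H r) = EI G lam ν W F - EI G lam ν W H := by
  unfold EI
  rw [← integral_sub (hF.integrable h hν) (hH.integrable h hν)]
  congr 1
  funext r
  ring

theorem EI_nonneg (h : Tr G lam b) {ν : Measure ℝ} {ρ : ℝ} (hν : Null ν ρ) {W : Finset V}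
    {F : (V → ℝ) → ℝ} (hF : ∀ r, Adm W r → 0 ≤ F r) : 0 ≤ EI G lam ν W F := by
  unfold EI
  apply integral_nonneg_of_ae
  filter_upwards [ae_adm hν W] with r hr
  exact mul_nonneg (hF r hr) (LW_pos' h W hr).le

end EIgeneral

section Indep
variable {V : Type*} {G : SimpleGraph V} [Countable V] {lam : ℝ} {b : ℕ}

/-! ### Independence of the children -/

theorem prod_indep (h : Tr G lam b) {ν : Measure ℝ} {ρ : ℝ} (hν : Null ν ρ) {W : Finset V}
    (hW : IsSub G W) {x v : V} (hx : x ∈ W) {C : Finset V} (hC : C ⊆ chl G x v W)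
    (F : V → (V → ℝ) → ℝ) (hF : ∀ w ∈ C, Tst (desc G x w W) (F w))
    (hFe : ∀ w ∈ C, EvenOn (desc G x w W) (F w)) :
    EI G lam ν W (fun r => ∏ w ∈ C, F w r) = ∏ w ∈ C, EI G lam ν W (F w) := by
  induction C using Finset.induction_on with
  | empty =>
    simp only [Finset.prod_empty]
    exact EI_one h hν hW ⟨x, hx⟩
  | insert w0 C hw0 ih =>
    have hC' : C ⊆ chl G x v W := (Finset.subset_insert _ _).trans hC
    have hw0C := hC (Finset.mem_insert_self w0 C)
    have hw0' := mem_chl.1 hw0C
    have hxD : x ∈ W \ desc G x w0 W :=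
      Finset.mem_sdiff.2 ⟨hx, root_notMem_desc h hw0'.2.1 W⟩
    have hsubD : IsSub G (desc G x w0 W) := desc_isSub h.tree (hW.parClosed hx) hw0'.1
    have hsubS : IsSub G (W \ desc G x w0 W) := isSub_sdiff h hW hx hw0'.1 hw0'.2.1
    have hH : Tst (W \ desc G x w0 W) (fun r => ∏ w ∈ C, F w r) := by
      apply Tst.prod
      intro w hw
      refine (hF w (Finset.mem_insert_of_mem hw)).mono ?_
      intro z hz
      rw [Finset.mem_sdiff]
      refine ⟨desc_subset x w W hz, fun hz' => ?_⟩
      have hne : w ≠ w0 := fun hc => hw0 (hc ▸ hw)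
      exact hne (child_unique h.tree (hC' hw) hw0C hz hz')
    have hF0 := hF w0 (Finset.mem_insert_self w0 C)
    have h1 := EI_indep h hν hW hx hw0'.1 hw0'.2.1 hF0 (hFe w0 (Finset.mem_insert_self w0 C)) hH
    have h2 := EI_marg h hν hsubD ⟨w0, self_mem_desc hw0'.1⟩ hW (desc_subset x w0 W) hF0
    have h3 := EI_marg h hν hsubS ⟨x, hxD⟩ hW Finset.sdiff_subset hH
    simp only [Finset.prod_insert hw0]
    rw [h1, ← h2, ← h3, ih hC' (fun w hw => hF w (Finset.mem_insert_of_mem hw))
      (fun w hw => hFe w (Finset.mem_insert_of_mem hw))]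

theorem indep_children (h : Tr G lam b) {ν : Measure ℝ} {ρ : ℝ} (hν : Null ν ρ) {W : Finset V}
    (hW : IsSub G W) {x v : V} (hx : x ∈ W) {C : Finset V} (hC : C ⊆ chl G x v W)
    (F : V → (V → ℝ) → ℝ) (hF : ∀ w ∈ C, Tst (desc G x w W) (F w))
    (hFe : ∀ w ∈ C, EvenOn (desc G x w W) (F w)) :
    ProbabilityTheory.iIndepFun (fun j : C => F j) (PW G lam ν W) := by
  have hprob := PW_prob h hν hW ⟨x, hx⟩
  rw [ProbabilityTheory.iIndepFun_iff_measure_inter_preimage_eq_mul]
  intro S sets hsets
  -- indicator functions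
  set f : V → (V → ℝ) → ℝ := fun w r =>
    if hw : w ∈ C then (if F w r ∈ sets ⟨w, hw⟩ then (1:ℝ) else 0) else 1 with hf
  set T : Finset V := S.map ⟨Subtype.val, Subtype.val_injective⟩ with hT
  have hTC : T ⊆ C := by
    intro w hw
    rw [hT, Finset.mem_map] at hw
    obtain ⟨j, _, rfl⟩ := hw
    exact j.2
  have hmem : ∀ w (hw : w ∈ T), (⟨w, hTC hw⟩ : C) ∈ S := by
    intro w hw
    have hw' := hw
    rw [hT, Finset.mem_map] at hw'
    obtain ⟨j, hj, hjw⟩ := hw'
    have : (⟨w, hTC hw⟩ : C) = j := Subtype.ext hjw.symm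
    rw [this]
    exact hj
  have hfT : ∀ w ∈ T, Tst (desc G x w W) (f w) := by
    intro w hw
    have hwC := hTC hw
    have e : f w = fun r => if F w r ∈ sets ⟨w, hwC⟩ then (1:ℝ) else 0 := by
      funext r
      simp only [hf, dif_pos hwC]
    rw [e]
    exact (hF w hwC).ite_mem (hsets _ (hmem w hw))
  have hfE : ∀ w ∈ T, EvenOn (desc G x w W) (f w) := by
    intro w hw
    have hwC := hTC hw
    have e : f w = fun r => (fun t => if t ∈ sets ⟨w, hwC⟩ then (1:ℝ) else 0) (F w r) := by
      funext r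
      simp only [hf, dif_pos hwC]
    rw [e]
    exact (hFe w hwC).comp (fun t => if t ∈ sets ⟨w, hwC⟩ then (1:ℝ) else 0)
  have key := prod_indep h hν hW hx (hTC.trans hC) f hfT hfE
  rw [← integral_PW h hν] at key
  simp_rw [← integral_PW h hν] at key
  -- identify both sides with measures
  have hmeas : ∀ j ∈ S, MeasurableSet (F j.1 ⁻¹' sets j) := fun j hj =>
    (hF j.1 j.2).meas (hsets j hj)
  have e1 : ∀ j ∈ S, ∫ r, f j.1 r ∂(PW G lam ν W) = (PW G lam ν W).real (F j.1 ⁻¹' sets j) := by
    intro j hj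
    rw [← integral_indicator_one (hmeas j hj)]
    congr 1
    funext r
    simp only [hf, dif_pos j.2, Set.indicator, Set.mem_preimage, Pi.one_apply]
  have e2 : ∫ r, ∏ w ∈ T, f w r ∂(PW G lam ν W) =
      (PW G lam ν W).real (⋂ j ∈ S, F j.1 ⁻¹' sets j) := by
    have hm : MeasurableSet (⋂ j ∈ S, F j.1 ⁻¹' sets j) :=
      Finset.measurableSet_biInter S hmeas
    rw [← integral_indicator_one hm]
    congr 1
    funext r
    rw [hT, Finset.prod_map]
    simp only [Function.Embedding.coeFn_mk, Set.indicator, Set.mem_iInter, Set.mem_preimage,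
      Pi.one_apply]
    by_cases hall : ∀ j ∈ S, F j.1 r ∈ sets j
    · rw [if_pos hall]
      apply Finset.prod_eq_one
      intro j hj
      simp only [hf, dif_pos j.2]
      rw [if_pos (hall j hj)]
    · rw [if_neg hall]
      push Not at hall
      obtain ⟨j, hj, hjn⟩ := hall
      apply Finset.prod_eq_zero hj
      simp only [hf, dif_pos j.2]
      rw [if_neg hjn]
  rw [e2, hT, Finset.prod_map] at key
  simp only [Function.Embedding.coeFn_mk] at key
  rw [Finset.prod_congr rfl e1] at key
  rw [← ENNReal.toReal_eq_toReal_iff' (measure_ne_top _ _)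
    (ENNReal.prod_ne_top fun j _ => measure_ne_top _ _), ENNReal.toReal_prod]
  exact key

end Indep

end Crest.Agent.H14
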