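import Mathlib
import Crest.Agent.H14.BP

/-!
# Row 160: uniform bound of the posterior mean when `|r| ≤ 1/4`
-/

set_option autoImplicit false

open MeasureTheory Filter Topology

namespace Crest.Agent.H14.P6

open Crest.Agent.H14

open scoped Classical

variable {V : Type*} {G : SimpleGraph V} {lam : ℝ} {b : ℕ}

/-- toggle `z` -/
noncomputable def tog (z : V) (S : Finset V) : Finset V := if z ∈ S then S.erase z else insert z S

theorem sp_tog (z v : V) (S : Finset V) :
    sp (tog z S) v = if v = z then - sp S z else sp S v := by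
  unfold sp tog
  by_cases hz : z ∈ S
  · rw [if_pos hz]
    by_cases hv : v = z
    · subst hv; simp [hz]
    · simp [hv]
  · rw [if_neg hz]
    by_cases hv : v = z
    · subst hv; simp [hz]
    · simp [hv]

theorem tog_tog (z : V) (S : Finset V) : tog z (tog z S) = S := by
  unfold tog
  by_cases hz : z ∈ S
  · rw [if_pos hz, if_neg (Finset.notMem_erase z S), Finset.insert_erase hz]
  · rw [if_neg hz, if_pos (Finset.mem_insert_self z S), Finset.erase_insert hz]

theorem tog_subset {z : V} {W : Finset V} (hz : z ∈ W) {S : Finset V} (hS : S ⊆ W) :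
    tog z S ⊆ W := by
  unfold tog
  split_ifs with h
  · exact (Finset.erase_subset _ _).trans hS
  · exact Finset.insert_subset hz hS

theorem sum_tog {z : V} {W : Finset V} (hz : z ∈ W) (F : Finset V → ℝ) :
    ∑ S ∈ W.powerset, F S = ∑ S ∈ W.powerset, F (tog z S) := by
  refine Finset.sum_bij' (fun S _ => tog z S) (fun S _ => tog z S) ?_ ?_ ?_ ?_ ?_
  · intro S hS
    exact Finset.mem_powerset.2 (tog_subset hz (Finset.mem_powerset.1 hS))
  · intro S hS
    exact Finset.mem_powerset.2 (tog_subset hz (Finset.mem_powerset.1 hS))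
  · intro S _; exact tog_tog z S
  · intro S _; exact tog_tog z S
  · intro S _; rw [tog_tog]

theorem sp_cases (S : Finset V) (v : V) : sp S v = 1 ∨ sp S v = -1 := by
  unfold sp
  split_ifs
  · left; rfl
  · right; rfl

/-- ratio of the prior weights -/
theorem mu_tog [G.LocallyFinite] (h : Tr G lam b) {W : Finset V} (hW : IsSub G W) {z : V}
    (hz : z ∈ W) (S : Finset V) :
    ((1 - lam) / (1 + lam)) ^ (b + 1) * mu G lam W S ≤ mu G lam W (tog z S) := by
  have hT := h.tree
  have hl0 := h.nonneg
  have hl1 := h.lam_lt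
  have hP : ParClosed G z W := hW.parClosed hz
  set a := (1 - lam) / (1 + lam) with ha
  have ha0 : 0 ≤ a := div_nonneg (by linarith) (by linarith)
  have ha1 : a ≤ 1 := by
    rw [ha, div_le_one (by linarith)]; linarith
  have hal : a * (1 + lam) = 1 - lam := by
    rw [ha, div_mul_cancel₀]; linarith
  rw [mu_eq_prod h hP, mu_eq_prod h hP]
  -- factorwise
  have hfac : ∀ v ∈ W.erase z, (if par G z v = z then a else 1) *
      ((1 + lam * sp S v * sp S (par G z v)) / 2) ≤
      (1 + lam * sp (tog z S) v * sp (tog z S) (par G z v)) / 2 := by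
    intro v hv
    have hvz : v ≠ z := (Finset.mem_erase.1 hv).1
    rw [sp_tog, sp_tog, if_neg hvz]
    by_cases hp : par G z v = z
    · rw [if_pos hp, if_pos hp, hp]
      rcases sp_cases S v with h1 | h1 <;> rcases sp_cases S z with h2 | h2 <;>
        rw [h1, h2] <;> nlinarith
    · rw [if_neg hp, if_neg hp]
      linarith
  have hpos : ∀ v ∈ W.erase z, 0 ≤ (if par G z v = z then a else 1) *
      ((1 + lam * sp S v * sp S (par G z v)) / 2) := by
    intro v _
    apply mul_nonneg
    · split_ifs
      · exact ha0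
      · exact zero_le_one
    · rcases sp_cases S v with h1 | h1 <;> rcases sp_cases S (par G z v) with h2 | h2 <;>
        rw [h1, h2] <;> linarith
  have hprod := Finset.prod_le_prod hpos hfac
  rw [Finset.prod_mul_distrib] at hprod
  -- number of affected factors
  have hcard : a ^ (b + 1) ≤ ∏ v ∈ W.erase z, (if par G z v = z then a else 1) := by
    rw [Finset.prod_ite, Finset.prod_const_one, mul_one, Finset.prod_const]
    apply pow_le_pow_of_le_one ha0 ha1
    have h1 : (W.erase z).filter (fun v => par G z v = z) = chl G z z W := by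
      ext v
      rw [Finset.mem_filter, Finset.mem_erase, mem_chl]
      tauto
    rw [h1]
    exact card_chl_root_le hT h.reg z W
  have hprod0 : 0 ≤ ∏ v ∈ W.erase z, ((1 + lam * sp S v * sp S (par G z v)) / 2) := by
    apply Finset.prod_nonneg
    intro v _
    rcases sp_cases S v with h1 | h1 <;> rcases sp_cases S (par G z v) with h2 | h2 <;>
      rw [h1, h2] <;> linarith
  have h3 := mul_le_mul_of_nonneg_right hcard hprod0
  linarith

theorem tl_tog {W : Finset V} {z : V} (hz : z ∈ W) {r : V → ℝ} (hr : ∀ v ∈ W, |r v| ≤ 1 / 4)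
    (S : Finset V) : 3 / 5 * tl W r S ≤ tl W r (tog z S) := by
  unfold tl
  rw [← Finset.mul_prod_erase W _ hz, ← Finset.mul_prod_erase W _ hz]
  have e : ∏ v ∈ W.erase z, (1 + sp (tog z S) v * r v) = ∏ v ∈ W.erase z, (1 + sp S v * r v) := by
    apply Finset.prod_congr rfl
    intro v hv
    rw [sp_tog, if_neg (Finset.mem_erase.1 hv).1]
  rw [e, sp_tog, if_pos rfl]
  have h0 : 0 ≤ ∏ v ∈ W.erase z, (1 + sp S v * r v) := by
    apply Finset.prod_nonneg
    intro v hv
    have h1 := abs_le.1 (hr v (Finset.mem_of_mem_erase hv))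
    rcases sp_cases S v with h2 | h2 <;> rw [h2] <;> linarith [h1.1, h1.2]
  have h1 := abs_le.1 (hr z hz)
  rw [← mul_assoc]
  apply mul_le_mul_of_nonneg_right _ h0
  rcases sp_cases S z with h2 | h2 <;> rw [h2] <;> linarith [h1.1, h1.2]

theorem tl_nonneg {W : Finset V} {r : V → ℝ} (hr : ∀ v ∈ W, |r v| ≤ 1 / 4)
    (S : Finset V) : 0 ≤ tl W r S := by
  unfold tl
  apply Finset.prod_nonneg
  intro v hv
  have h1 := abs_le.1 (hr v hv)
  rcases sp_cases S v with h2 | h2 <;> rw [h2] <;> linarith [h1.1, h1.2]

/-- the lower bound of the ratio of the two conditional probabilities -/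
noncomputable def epc (lam : ℝ) (b : ℕ) : ℝ := 3 / 5 * ((1 - lam) / (1 + lam)) ^ (b + 1)

theorem epc_pos (h : Tr G lam b) : 0 < epc lam b := by
  have hl0 := h.nonneg
  have hl1 := h.lam_lt
  unfold epc
  have : 0 < (1 - lam) / (1 + lam) := div_pos (by linarith) (by linarith)
  positivity

theorem MW_bd [G.LocallyFinite] (h : Tr G lam b) {W : Finset V} (hW : IsSub G W) {z : V}
    (hz : z ∈ W) {r : V → ℝ} (hr : ∀ v ∈ W, |r v| ≤ 1 / 4) :
    |MW G lam W z r| ≤ (1 - epc lam b) / (1 + epc lam b) := by
  set ε := epc lam b with hε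
  have hε0 : 0 < ε := epc_pos h
  have hadm : Adm W r := fun v hv => (hr v hv).trans_lt (by norm_num)
  have hL := LW_pos' h W hadm
  have hM := MW_mul_LW h W z hadm
  have hL' := LW_eq (G := G) (lam := lam) W r
  simp only [mul_one] at hL'
  have hrat : ∀ S : Finset V, ε * (mu G lam W S * tl W r S) ≤
      mu G lam W (tog z S) * tl W r (tog z S) := by
    intro S
    have h1 := mu_tog h hW hz S
    have h2 := tl_tog hz hr S
    have h3 := mu_nonneg h W S
    have h4 := tl_nonneg hr S
    have h5 : 0 ≤ ((1 - lam) / (1 + lam)) ^ (b + 1) := by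
      apply pow_nonneg
      exact div_nonneg (by linarith [h.lam_lt]) (by linarith [h.nonneg])
    calc ε * (mu G lam W S * tl W r S) =
        (((1 - lam) / (1 + lam)) ^ (b + 1) * mu G lam W S) * (3 / 5 * tl W r S) := by
          rw [hε]; unfold epc; ring
      _ ≤ _ := mul_le_mul h1 h2 (by positivity) (mu_nonneg h W _)
  have hp : ε * ∑ S ∈ W.powerset, mu G lam W S * tl W r S * (1 - sp S z) ≤
      ∑ S ∈ W.powerset, mu G lam W S * tl W r S * (1 + sp S z) := by
    rw [sum_tog hz (fun S => mu G lam W S * tl W r S * (1 + sp S z)), Finset.mul_sum]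
    apply Finset.sum_le_sum
    intro S _
    rw [sp_tog, if_pos rfl]
    have h1 : 0 ≤ 1 - sp S z := by
      rcases sp_cases S z with h2 | h2 <;> rw [h2] <;> norm_num
    have h2 := mul_le_mul_of_nonneg_right (hrat S) h1
    linarith
  have hm : ε * ∑ S ∈ W.powerset, mu G lam W S * tl W r S * (1 + sp S z) ≤
      ∑ S ∈ W.powerset, mu G lam W S * tl W r S * (1 - sp S z) := by
    rw [sum_tog hz (fun S => mu G lam W S * tl W r S * (1 - sp S z)), Finset.mul_sum]
    apply Finset.sum_le_sum
    intro S _
    rw [sp_tog, if_pos rfl]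
    have h1 : 0 ≤ 1 + sp S z := by
      rcases sp_cases S z with h2 | h2 <;> rw [h2] <;> norm_num
    have h2 := mul_le_mul_of_nonneg_right (hrat S) h1
    linarith
  have e1 : ∑ S ∈ W.powerset, mu G lam W S * tl W r S * (1 + sp S z) =
      LW G lam W r * (1 + MW G lam W z r) := by
    rw [mul_add, mul_one, mul_comm (LW G lam W r) (MW G lam W z r), ← hM, hL',
      ← Finset.sum_add_distrib]
    apply Finset.sum_congr rfl
    intro S _; ring
  have e2 : ∑ S ∈ W.powerset, mu G lam W S * tl W r S * (1 - sp S z) =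
      LW G lam W r * (1 - MW G lam W z r) := by
    rw [mul_sub, mul_one, mul_comm (LW G lam W r) (MW G lam W z r), ← hM, hL',
      ← Finset.sum_sub_distrib]
    apply Finset.sum_congr rfl
    intro S _; ring
  rw [e1, e2] at hp hm
  set m := MW G lam W z r with hmdef
  have hp' : ε * (1 - m) ≤ 1 + m := by
    have : LW G lam W r * (ε * (1 - m)) ≤ LW G lam W r * (1 + m) := by linarith
    exact le_of_mul_le_mul_left this hL
  have hm' : ε * (1 + m) ≤ 1 - m := by
    have : LW G lam W r * (ε * (1 + m)) ≤ LW G lam W r * (1 - m) := by linarith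
    exact le_of_mul_le_mul_left this hL
  rw [abs_le, neg_le_iff_add_nonneg, le_div_iff₀ (by linarith)]
  constructor
  · have : m + (1 - ε) / (1 + ε) = ((1 + m) - ε * (1 - m)) / (1 + ε) := by
      field_simp
      ring
    rw [this]
    apply div_nonneg (by linarith) (by linarith)
  · linarith

theorem bd_lt_one (h : Tr G lam b) : (1 - epc lam b) / (1 + epc lam b) < 1 := by
  have := epc_pos h
  rw [div_lt_one (by linarith)]
  linarith

end Crest.Agent.H14.P6
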