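import Mathlib
import Crest.Agent.H14.Static
import Crest.Agent.H14.ConvexOrder

/-! Row 160, P3 (helper5): upper moment bounds for posterior means. -/

set_option autoImplicit false

open MeasureTheory Filter Topology

namespace Crest.Agent.H14

open scoped Classical

section basics

variable {V : Type*} {G : SimpleGraph V} {lam : ℝ} {b : ℕ}

theorem Tr.b_pos (h : Tr G lam b) : (2 : ℝ) ≤ b := by exact_mod_cast h.two

theorem Tr.lam_lt_one (h : Tr G lam b) : lam < 1 := by
  have h1 := h.lam_sq_le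
  have h2 := h.nonneg
  nlinarith

end basics

section peel

variable {V : Type*} {G : SimpleGraph V} [Countable V] {lam : ℝ} {b : ℕ} {ν : Measure ℝ} {ρ : ℝ}

omit [Countable V] in
theorem child_par {u c : V} {W : Finset V} (hc : c ∈ chl G u u W) : par G u c = u :=
  (mem_chl.1 hc).2.2

/-- peel one child, at the level of laws -/
theorem law_comb (h : Tr G lam b) (hν : Null ν ρ) {W : Finset V} (hW : IsSub G W) {u c : V}
    (hu : u ∈ W) (hc : c ∈ chl G u u W) (φ : ℝ → ℝ) (hφ : Measurable φ)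
    (hb : ∃ C : ℝ, ∀ t, |t| < 1 → |φ t| ≤ C) :
    ∫ t, φ t ∂(lawM G lam ν W u) =
      ∫ t₁, ∫ t₂, φ (opl t₁ (lam * t₂)) * (1 + t₁ * (lam * t₂))
        ∂(lawM G lam ν (desc G u c W) c) ∂(lawM G lam ν (W \ desc G u c W) u) := by
  have hc' := mem_chl.1 hc
  rw [← EI_lawM h hν hW hu φ hφ]
  have h1 := EI_comb h hν hW hu hc'.1 hc'.2.1 φ hφ hb
  rw [hc'.2.2] at h1
  exact h1

/-- the law of `lam * M` at the root of a child subtree -/
noncomputable def lawC (G : SimpleGraph V) (lam : ℝ) (ν : Measure ℝ) (D : Finset V) (c : V) :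
    Measure ℝ := (lawM G lam ν D c).map (fun t => lam * t)

theorem lawC_spec (h : Tr G lam b) (hν : Null ν ρ) {D : Finset V} (hD : IsSub G D) {c : V}
    (hc : c ∈ D) : IsProbabilityMeasure (lawC G lam ν D c) ∧
      (lawC G lam ν D c).map (fun x => -x) = lawC G lam ν D c ∧
      (∀ᵐ x ∂(lawC G lam ν D c), |x| ≤ lam) := by
  obtain ⟨hp, hs, ha⟩ := lawM_spec h hν hD hc
  have hm : Measurable (fun t : ℝ => lam * t) := by fun_prop
  refine ⟨Measure.isProbabilityMeasure_map hm.aemeasurable, ?_, ?_⟩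
  · unfold lawC
    rw [Measure.map_map measurable_neg hm]
    have : (fun x : ℝ => -x) ∘ (fun t : ℝ => lam * t) = (fun t : ℝ => lam * t) ∘ (fun x : ℝ => -x) := by
      funext t; simp
    rw [this, ← Measure.map_map hm measurable_neg, hs]
  · unfold lawC
    rw [ae_map_iff hm.aemeasurable (measurableSet_le (by fun_prop) (by fun_prop))]
    filter_upwards [ha] with t ht
    rw [abs_mul, abs_of_nonneg h.nonneg]
    have := h.nonneg
    nlinarith [abs_nonneg t]

omit [Countable V] in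
theorem integral_lawC (D : Finset V) (c : V) (f : ℝ → ℝ) (hf : Measurable f) :
    ∫ t, f t ∂(lawC G lam ν D c) = ∫ t, f (lam * t) ∂(lawM G lam ν D c) := by
  unfold lawC
  rw [integral_map (by fun_prop) hf.aestronglyMeasurable]

/-- integrability of bounded functions of the posterior mean -/
theorem integrable_lawM (h : Tr G lam b) (hν : Null ν ρ) {W : Finset V} (hW : IsSub G W) {u : V}
    (hu : u ∈ W) {φ : ℝ → ℝ} (hφ : Measurable φ) {C : ℝ} (hC : ∀ t, |t| < 1 → |φ t| ≤ C) :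
    Integrable φ (lawM G lam ν W u) := by
  obtain ⟨hp, -, ha⟩ := lawM_spec h hν hW hu
  apply integrable_bdd hφ.aestronglyMeasurable (C := C)
  filter_upwards [ha] with t ht using hC t ht

theorem cosh_le_of_abs_lt {θ t : ℝ} (ht : |t| < 1) : Real.cosh (θ * t) ≤ Real.cosh θ := by
  rw [Real.cosh_le_cosh, abs_mul]
  nlinarith [abs_nonneg θ, abs_nonneg t]

omit [Countable V] in
theorem sub_props (h : Tr G lam b) {W : Finset V} (hW : IsSub G W) {u c : V}
    (hu : u ∈ W) (hc : c ∈ chl G u u W) :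
    IsSub G (desc G u c W) ∧ c ∈ desc G u c W ∧ IsSub G (W \ desc G u c W) ∧
      u ∈ W \ desc G u c W := by
  have hc' := mem_chl.1 hc
  refine ⟨desc_isSub h.tree (hW.parClosed hu) hc'.1, self_mem_desc hc'.1,
    isSub_sdiff h hW hu hc'.1 hc'.2.1, ?_⟩
  rw [Finset.mem_sdiff]
  exact ⟨hu, notMem_desc_child h.tree hc⟩

/-- MGF: peel one child -/
theorem cosh_peel (h : Tr G lam b) (hν : Null ν ρ) {W : Finset V} (hW : IsSub G W) {u c : V}
    (hu : u ∈ W) (hc : c ∈ chl G u u W) (θ : ℝ) :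
    ∫ t, Real.cosh (θ * t) ∂(lawM G lam ν W u) ≤
      (∫ t, Real.cosh (θ * t) ∂(lawM G lam ν (W \ desc G u c W) u)) *
        ∫ t, Real.cosh ((θ * lam) * t) ∂(lawM G lam ν (desc G u c W) c) := by
  obtain ⟨hD, hcD, hW', huW'⟩ := sub_props h hW hu hc
  have hl0 := h.nonneg
  have hl1 := h.lam_lt_one
  rw [law_comb h hν hW hu hc (fun t => Real.cosh (θ * t)) (by fun_prop)
    ⟨Real.cosh θ, fun t ht => by rw [abs_cosh']; exact cosh_le_of_abs_lt ht⟩]
  obtain ⟨hp1, -, ha1⟩ := lawM_spec h hν hW' huW'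
  obtain ⟨hp2, hs2, ha2⟩ := lawC_spec h hν hD hcD
  have hint : Integrable (fun t => Real.cosh (θ * t)) (lawM G lam ν (W \ desc G u c W) u) :=
    integrable_lawM h hν hW' huW' (by fun_prop)
      (C := Real.cosh θ) (fun t ht => by rw [abs_cosh']; exact cosh_le_of_abs_lt ht)
  rw [← integral_mul_const]
  apply integral_mono_of_nonneg
  · obtain ⟨_, _, ha3⟩ := lawM_spec h hν hD hcD
    filter_upwards [ha1] with t₁ ht₁
    apply integral_nonneg_of_ae
    filter_upwards [ha3] with t₂ ht₂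
    have : |t₁ * (lam * t₂)| < 1 := by
      rw [abs_mul, abs_mul, abs_of_nonneg hl0]
      have h1 : lam * |t₂| ≤ lam := by nlinarith [abs_nonneg t₂]
      have h2 : 0 ≤ lam * |t₂| := by positivity
      nlinarith [abs_nonneg t₁, abs_nonneg t₂]
    have := (abs_lt.mp this).1
    apply mul_nonneg (Real.cosh_pos _).le
    linarith
  · exact hint.mul_const _
  · filter_upwards [ha1] with t₁ ht₁
    have key := int_cosh_le hs2 (s := t₁) (ρ := lam) ht₁.le
      (by nlinarith [abs_nonneg t₁]) ha2 hl1.le θ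
    rw [integral_lawC _ _ _ (by
      have := measurable_opl_right t₁
      fun_prop), integral_lawC _ _ _ (by fun_prop)] at key
    have e1 : ∀ t, θ * (lam * t) = θ * lam * t := fun t => by ring
    simp only [e1] at key
    refine le_trans (le_of_eq ?_) key
    apply integral_congr_ae
    filter_upwards with t
    ring

/-- second moment: peel one child -/
theorem sq_peel (h : Tr G lam b) (hν : Null ν ρ) {W : Finset V} (hW : IsSub G W) {u c : V}
    (hu : u ∈ W) (hc : c ∈ chl G u u W) :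
    (1 - ∫ t, t ^ 2 ∂(lawM G lam ν (W \ desc G u c W) u)) *
        (1 - lam ^ 2 * ∫ t, t ^ 2 ∂(lawM G lam ν (desc G u c W) c)) ≤
      1 - ∫ t, t ^ 2 ∂(lawM G lam ν W u) := by
  obtain ⟨hD, hcD, hW', huW'⟩ := sub_props h hW hu hc
  have hl0 := h.nonneg
  have hl1 := h.lam_lt_one
  rw [law_comb h hν hW hu hc (fun t => t ^ 2) (by fun_prop)
    ⟨1, fun t ht => by rw [abs_pow]; exact pow_le_one₀ (abs_nonneg _) ht.le⟩]
  obtain ⟨hp1, -, ha1⟩ := lawM_spec h hν hW' huW'
  obtain ⟨hp2, hs2, ha2⟩ := lawC_spec h hν hD hcD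
  set v' := ∫ t, t ^ 2 ∂(lawM G lam ν (W \ desc G u c W) u) with hv'
  set vc := ∫ t, t ^ 2 ∂(lawC G lam ν (desc G u c W) c) with hvc
  have hvc' : vc = lam ^ 2 * ∫ t, t ^ 2 ∂(lawM G lam ν (desc G u c W) c) := by
    rw [hvc, integral_lawC _ _ _ (by fun_prop), ← integral_const_mul]
    congr 1
    funext t
    ring
  rw [← hvc']
  have hint : Integrable (fun t : ℝ => t ^ 2) (lawM G lam ν (W \ desc G u c W) u) :=
    integrable_lawM h hν hW' huW' (by fun_prop)
      (C := 1) (fun t ht => by rw [abs_pow]; exact pow_le_one₀ (abs_nonneg _) ht.le)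
  have main : ∫ t₁, ∫ t₂, (opl t₁ (lam * t₂)) ^ 2 * (1 + t₁ * (lam * t₂))
        ∂(lawM G lam ν (desc G u c W) c) ∂(lawM G lam ν (W \ desc G u c W) u) ≤
      ∫ t₁, (t₁ ^ 2 + vc - t₁ ^ 2 * vc) ∂(lawM G lam ν (W \ desc G u c W) u) := by
    apply integral_mono_of_nonneg
    · obtain ⟨_, _, ha3⟩ := lawM_spec h hν hD hcD
      filter_upwards [ha1] with t₁ ht₁
      apply integral_nonneg_of_ae
      filter_upwards [ha3] with t₂ ht₂
      have : |t₁ * (lam * t₂)| < 1 := by
        rw [abs_mul, abs_mul, abs_of_nonneg hl0]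
        have h1 : lam * |t₂| ≤ lam := by nlinarith [abs_nonneg t₂]
        have h2 : 0 ≤ lam * |t₂| := by positivity
        nlinarith [abs_nonneg t₁, abs_nonneg t₂]
      have := (abs_lt.mp this).1
      apply mul_nonneg (sq_nonneg _)
      linarith
    · exact (hint.add (integrable_const _)).sub (hint.mul_const _)
    · filter_upwards [ha1] with t₁ ht₁
      have key := (le_int_sq hs2 (s := t₁) (ρ := lam) ht₁.le
        (by nlinarith [abs_nonneg t₁]) ha2 hl1.le).2
      rw [integral_lawC _ _ _ (by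
        have := measurable_opl_right t₁
        fun_prop), ← hvc] at key
      refine le_trans (le_of_eq ?_) key
      apply integral_congr_ae
      filter_upwards with t
      ring
  have e : ∫ t₁, (t₁ ^ 2 + vc - t₁ ^ 2 * vc) ∂(lawM G lam ν (W \ desc G u c W) u) =
      v' + vc - v' * vc := by
    have a1 : ∫ t₁, (t₁ ^ 2 + vc - t₁ ^ 2 * vc) ∂(lawM G lam ν (W \ desc G u c W) u) =
        ∫ t₁, (t₁ ^ 2 + vc) ∂(lawM G lam ν (W \ desc G u c W) u) -
        ∫ t₁, (t₁ ^ 2 * vc) ∂(lawM G lam ν (W \ desc G u c W) u) :=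
      integral_sub (hint.add (integrable_const _)) (hint.mul_const _)
    have a2 : ∫ t₁ : ℝ, (t₁ ^ 2 + vc) ∂(lawM G lam ν (W \ desc G u c W) u) =
        ∫ t₁ : ℝ, t₁ ^ 2 ∂(lawM G lam ν (W \ desc G u c W) u) +
        ∫ _ : ℝ, vc ∂(lawM G lam ν (W \ desc G u c W) u) :=
      integral_add hint (integrable_const _)
    rw [a1, a2, integral_mul_const]
    simp [hv']
  rw [e] at main
  nlinarith

end peel

section iterate

variable {V : Type*} {G : SimpleGraph V} [Countable V] {lam : ℝ} {b : ℕ} {ν : Measure ℝ} {ρ : ℝ}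

omit [Countable V] in
/-- children of the root after removing one child subtree -/
theorem chl_sdiff (h : Tr G lam b) {W : Finset V} {u c : V} (hc : c ∈ chl G u u W) :
    chl G u u (W \ desc G u c W) = (chl G u u W).erase c := by
  ext w
  rw [mem_chl, Finset.mem_sdiff, Finset.mem_erase, mem_chl]
  constructor
  · rintro ⟨⟨h1, h2⟩, h3, h4⟩
    refine ⟨?_, h1, h3, h4⟩
    rintro rfl
    exact h2 (self_mem_desc h1)
  · rintro ⟨h0, h1, h3, h4⟩
    refine ⟨⟨h1, fun h5 => h0 ?_⟩, h3, h4⟩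
    exact child_unique h.tree (mem_chl.2 ⟨h1, h3, h4⟩) hc (self_mem_desc h1) h5

omit [Countable V] in
theorem desc_sdiff (h : Tr G lam b) {W : Finset V} {u c w : V} (hc : c ∈ chl G u u W)
    (hw : w ∈ (chl G u u W).erase c) :
    desc G u w (W \ desc G u c W) = desc G u w W := by
  rw [Finset.mem_erase] at hw
  ext z
  constructor
  · intro hz
    have h1 := mem_desc.1 hz
    exact mem_desc.2 ⟨(Finset.mem_sdiff.1 h1.1).1, h1.2⟩
  · intro hz
    have h1 := mem_desc.1 hz
    refine mem_desc.2 ⟨Finset.mem_sdiff.2 ⟨h1.1, fun h5 => hw.1 ?_⟩, h1.2⟩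
    exact child_unique h.tree hw.2 hc hz h5

omit [Countable V] in
theorem root_only (h : Tr G lam b) {W : Finset V} (hW : IsSub G W) {u : V} (hu : u ∈ W)
    (hc : chl G u u W = ∅) : W = {u} := by
  have h1 := desc_eq_insert h.tree (hW.parClosed hu) hu
  rw [desc_root, hc, Finset.biUnion_empty] at h1
  simpa using h1

omit [Countable V] in
theorem LW_single (h : Tr G lam b) (u : V) (r : V → ℝ) : LW G lam {u} r = 1 := by
  have hsub : IsSub G ({u} : Finset V) := by
    intro x hx v hv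
    rw [Finset.mem_singleton] at hx hv
    subst hx; subst hv
    simp
  have hmu : ∀ S, mu G lam {u} S = 1 / 2 := by
    intro S
    unfold mu
    rw [isingWeight_eq_prod h.tree (hsub.parClosed (Finset.mem_singleton_self u))]
    simp
  have hne : (∅ : Finset V) ≠ {u} := (Finset.singleton_ne_empty u).symm
  have hp : ({u} : Finset V).powerset = {∅, {u}} := by
    ext S
    rw [Finset.mem_powerset, Finset.subset_singleton_iff]
    simp
  unfold LW Lf
  rw [hp, Finset.sum_pair hne, hmu, hmu]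
  unfold tl sp
  simp
  ring

/-- the law in a one point window -/
theorem law_single (h : Tr G lam b) (hν : Null ν ρ) (u : V) (φ : ℝ → ℝ) (hφ : Measurable φ) :
    ∫ t, φ t ∂(lawM G lam ν {u} u) = ∫ t, φ t ∂ν := by
  have hsub : IsSub G ({u} : Finset V) := by
    intro x hx v hv
    rw [Finset.mem_singleton] at hx hv
    subst hx; subst hv
    simp
  have := hν.prob
  rw [← EI_lawM h hν hsub (Finset.mem_singleton_self u) φ hφ]
  unfold EI
  have h1 : ∀ᵐ r ∂(Nm V ν), φ (MW G lam {u} u r) * LW G lam {u} r = φ (r u) := by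
    filter_upwards [ae_adm hν ({u} : Finset V)] with r hr
    rw [LW_single h, mul_one, MW_singleton h (hr u (Finset.mem_singleton_self u))]
  rw [integral_congr_ae h1]
  have h2 := Measure.infinitePi_map_eval (fun _ : V => ν) u
  have h3 : ∫ t, φ t ∂ν = ∫ t, φ t ∂((Nm V ν).map (fun r => r u)) := by
    unfold Nm
    rw [h2]
  rw [h3, integral_map (measurable_pi_apply u).aemeasurable hφ.aestronglyMeasurable]

/-- MGF at the root, all children peeled -/
theorem cosh_iter (h : Tr G lam b) (hν : Null ν ρ) (θ A : ℝ) :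
    ∀ (n : ℕ) (W : Finset V), IsSub G W → ∀ u ∈ W, (chl G u u W).card = n →
      (∀ c ∈ chl G u u W,
        ∫ t, Real.cosh ((θ * lam) * t) ∂(lawM G lam ν (desc G u c W) c) ≤ Real.exp A) →
      ∫ t, Real.cosh (θ * t) ∂(lawM G lam ν W u) ≤
        (∫ t, Real.cosh (θ * t) ∂ν) * Real.exp (n * A) := by
  intro n
  induction n with
  | zero =>
    intro W hW u hu hn _
    have hW' := root_only h hW hu (Finset.card_eq_zero.mp hn)
    subst hW'
    rw [law_single h hν u _ (by fun_prop)]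
    simp
  | succ n ih =>
    intro W hW u hu hn hA
    obtain ⟨c, hc⟩ : (chl G u u W).Nonempty := by
      rw [← Finset.card_pos]; omega
    obtain ⟨hD, hcD, hW', huW'⟩ := sub_props h hW hu hc
    have hcard : (chl G u u (W \ desc G u c W)).card = n := by
      rw [chl_sdiff h hc, Finset.card_erase_of_mem hc]; omega
    have hrec := ih (W \ desc G u c W) hW' u huW' hcard (by
      intro w hw
      rw [chl_sdiff h hc] at hw
      rw [desc_sdiff h hc hw]
      exact hA w (Finset.mem_of_mem_erase hw))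
    refine (cosh_peel h hν hW hu hc θ).trans ?_
    have h1 := hA c hc
    have h0 : 0 ≤ ∫ t, Real.cosh ((θ * lam) * t) ∂(lawM G lam ν (desc G u c W) c) :=
      integral_nonneg (fun _ => (Real.cosh_pos _).le)
    have h2 : 0 ≤ (∫ t, Real.cosh (θ * t) ∂ν) * Real.exp (n * A) :=
      mul_nonneg (integral_nonneg (fun _ => (Real.cosh_pos _).le)) (Real.exp_pos _).le
    calc _ ≤ ((∫ t, Real.cosh (θ * t) ∂ν) * Real.exp (n * A)) * Real.exp A :=
          mul_le_mul hrec h1 h0 h2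
      _ = _ := by
          rw [mul_assoc, ← Real.exp_add]
          congr 2
          push_cast
          ring

theorem sq_law_le_one (h : Tr G lam b) (hν : Null ν ρ) {W : Finset V} (hW : IsSub G W) {u : V}
    (hu : u ∈ W) : ∫ t, t ^ 2 ∂(lawM G lam ν W u) ≤ 1 := by
  obtain ⟨hp, -, ha⟩ := lawM_spec h hν hW hu
  have : ∫ t, t ^ 2 ∂(lawM G lam ν W u) ≤ ∫ _, (1:ℝ) ∂(lawM G lam ν W u) := by
    apply integral_mono_ae
    · exact integrable_lawM h hν hW hu (by fun_prop) (C := 1)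
        (fun t ht => by rw [abs_pow]; exact pow_le_one₀ (abs_nonneg _) ht.le)
    · exact integrable_const _
    · filter_upwards [ha] with t ht
      rw [← sq_abs]
      exact pow_le_one₀ (abs_nonneg _) ht.le
  simpa using this

/-- second moment at the root, all children peeled -/
theorem sq_iter (h : Tr G lam b) (hν : Null ν ρ) (B : ℝ) (hB1 : lam ^ 2 * B ≤ 1) :
    ∀ (n : ℕ) (W : Finset V), IsSub G W → ∀ u ∈ W, (chl G u u W).card = n →
      (∀ c ∈ chl G u u W, ∫ t, t ^ 2 ∂(lawM G lam ν (desc G u c W) c) ≤ B) →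
      (1 - ∫ t, t ^ 2 ∂ν) * (1 - lam ^ 2 * B) ^ n ≤ 1 - ∫ t, t ^ 2 ∂(lawM G lam ν W u) := by
  intro n
  induction n with
  | zero =>
    intro W hW u hu hn _
    have hW' := root_only h hW hu (Finset.card_eq_zero.mp hn)
    subst hW'
    rw [law_single h hν u _ (by fun_prop)]
    simp
  | succ n ih =>
    intro W hW u hu hn hA
    obtain ⟨c, hc⟩ : (chl G u u W).Nonempty := by
      rw [← Finset.card_pos]; omega
    obtain ⟨hD, hcD, hW', huW'⟩ := sub_props h hW hu hc
    have hcard : (chl G u u (W \ desc G u c W)).card = n := by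
      rw [chl_sdiff h hc, Finset.card_erase_of_mem hc]; omega
    have hrec := ih (W \ desc G u c W) hW' u huW' hcard (by
      intro w hw
      rw [chl_sdiff h hc] at hw
      rw [desc_sdiff h hc hw]
      exact hA w (Finset.mem_of_mem_erase hw))
    refine le_trans ?_ (sq_peel h hν hW hu hc)
    have h1 := hA c hc
    have h2 : 0 ≤ 1 - ∫ t, t ^ 2 ∂(lawM G lam ν (W \ desc G u c W) u) :=
      sub_nonneg.mpr (sq_law_le_one h hν hW' huW')
    have h3 : 1 - lam ^ 2 * B ≤ 1 - lam ^ 2 * ∫ t, t ^ 2 ∂(lawM G lam ν (desc G u c W) c) := by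
      have := mul_le_mul_of_nonneg_left h1 (sq_nonneg lam)
      linarith
    calc (1 - ∫ t, t ^ 2 ∂ν) * (1 - lam ^ 2 * B) ^ (n + 1) =
        ((1 - ∫ t, t ^ 2 ∂ν) * (1 - lam ^ 2 * B) ^ n) * (1 - lam ^ 2 * B) := by ring
      _ ≤ (1 - ∫ t, t ^ 2 ∂(lawM G lam ν (W \ desc G u c W) u)) * (1 - lam ^ 2 * B) :=
          mul_le_mul_of_nonneg_right hrec (by linarith)
      _ ≤ _ := mul_le_mul_of_nonneg_left h3 h2

end iterate

section main

variable {V : Type*} {G : SimpleGraph V} [G.LocallyFinite] [Countable V] {lam : ℝ} {b : ℕ}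
  {ν : Measure ℝ} {ρ : ℝ}

omit [Countable V] in
/-- number of children of a boundary root -/
theorem card_chl_bdry (h : Tr G lam b) {W : Finset V} {u z : V} (hz : G.Adj u z) (hzW : z ∉ W) :
    (chl G u u W).card ≤ b := by
  have hreg : G.IsRegularOfDegree (b + 1) := h.reg
  have h1 : chl G u u W ⊆ (ch G u u).erase z := by
    intro w hw
    rw [mem_chl] at hw
    rw [Finset.mem_erase, mem_ch h.tree]
    refine ⟨?_, hw.2.1, hw.2.2⟩
    rintro rfl
    exact hzW hw.1
  have h2 : z ∈ ch G u u := by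
    rw [mem_ch']
    refine ⟨?_, hz⟩
    rw [par_self]
    exact hz.ne'
  have h3 := Finset.card_le_card h1
  rw [Finset.card_erase_of_mem h2, card_ch_root_regular hreg] at h3
  omega

omit [G.LocallyFinite] [Countable V] in
/-- the root of a child subtree is a boundary root -/
theorem bdry_child (h : Tr G lam b) {W : Finset V} {u c : V} (hc : c ∈ chl G u u W) :
    G.Adj c u ∧ u ∉ desc G u c W := by
  refine ⟨?_, notMem_desc_child h.tree hc⟩
  have := adj_par h.tree (mem_chl.1 hc).2.1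
  rwa [(mem_chl.1 hc).2.2] at this

theorem pow_bern (b : ℕ) (hb : 2 ≤ b) {x : ℝ} (hx : x ≤ 1) :
    (1 - x / 2) ^ 2 ≤ (1 - x / b) ^ b := by
  have hbR : (2:ℝ) ≤ b := by exact_mod_cast hb
  have hb0 : (0:ℝ) < b := by linarith
  have h0 : 0 ≤ 1 - x / b := by
    have : x / b ≤ 1 := by rw [div_le_one hb0]; linarith
    linarith
  have h1 : 1 - x / 2 ≤ (1 - x / b) ^ ((b : ℝ) / 2) := by
    have := one_add_mul_self_le_rpow_one_add (s := -(x / b)) (p := (b : ℝ) / 2)
      (by have : x / b ≤ 1 := by rw [div_le_one hb0]; linarith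
          linarith) (by linarith)
    have e : 1 + (b : ℝ) / 2 * -(x / b) = 1 - x / 2 := by field_simp; ring
    rw [e] at this
    rw [sub_eq_add_neg 1 (x / b)]
    exact this
  have h2 : (1 - x / 2) ^ 2 ≤ ((1 - x / b) ^ ((b : ℝ) / 2)) ^ 2 :=
    pow_le_pow_left₀ (by linarith) h1 2
  have h3 : ((1 - x / b) ^ ((b : ℝ) / 2)) ^ 2 = (1 - x / b) ^ b := by
    rw [← Real.rpow_natCast ((1 - x / b) ^ ((b : ℝ) / 2)) 2, ← Real.rpow_mul h0,
      ← Real.rpow_natCast (1 - x / b) b]
    congr 1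
    push_cast
    ring
  rwa [h3] at h2

/-- **second moment at boundary roots** -/
theorem sq_bdry (h : Tr G lam b) (hν : Null ν ρ) {s : ℝ} (hs : Mom ν s) :
    ∀ (n : ℕ) (W : Finset V), W.card ≤ n → IsSub G W → ∀ u ∈ W, (∃ z, G.Adj u z ∧ z ∉ W) →
      ∫ t, t ^ 2 ∂(lawM G lam ν W u) ≤ 2 * s := by
  have hs0 := hs.pos
  intro n
  induction n with
  | zero =>
    intro W hn _ u hu _
    rw [Nat.le_zero, Finset.card_eq_zero] at hn
    subst hn
    simp at hu
  | succ n ih =>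
    intro W hn hW u hu hz
    rcases le_total (2 * s) 1 with h2s | h2s
    · obtain ⟨z, hz1, hz2⟩ := hz
      have hcb := card_chl_bdry h hz1 hz2
      have hbR := h.b_pos
      have hb0 : (0:ℝ) < b := by linarith
      have hlb : lam ^ 2 ≤ 1 / b := by
        rw [le_div_iff₀ hb0]; exact h.crit
      have hlB : lam ^ 2 * (2 * s) ≤ (2 * s) / b := by
        calc lam ^ 2 * (2 * s) ≤ (1 / b) * (2 * s) := mul_le_mul_of_nonneg_right hlb (by linarith)
          _ = (2 * s) / b := by ring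
      have hB1 : (2 * s) / b ≤ 1 := by rw [div_le_one hb0]; linarith
      have hiter := sq_iter h hν (2 * s) (hlB.trans hB1) _ W hW u hu rfl (by
        intro c hc
        obtain ⟨hD, hcD, -, -⟩ := sub_props h hW hu hc
        apply ih (desc G u c W) _ hD c hcD ⟨u, bdry_child h hc⟩
        have h1 : desc G u c W ⊂ W := by
          rw [Finset.ssubset_iff_of_subset (desc_subset _ _ _)]
          exact ⟨u, hu, notMem_desc_child h.tree hc⟩
        have := Finset.card_lt_card h1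
        omega)
      have ht := hs.upper
      have hpw : (1 - lam ^ 2 * (2 * s)) ^ b ≤ (1 - lam ^ 2 * (2 * s)) ^ (chl G u u W).card :=
        pow_le_pow_of_le_one (by linarith) (by
          have : 0 ≤ lam ^ 2 * (2 * s) := by positivity
          linarith) hcb
      have hpw2 : (1 - (2 * s) / b) ^ b ≤ (1 - lam ^ 2 * (2 * s)) ^ b :=
        pow_le_pow_left₀ (by linarith) (by linarith) _
      have hpw3 := pow_bern b h.two (x := 2 * s) h2s
      have hpw4 : (1 - s) ^ 2 ≤ (1 - lam ^ 2 * (2 * s)) ^ (chl G u u W).card := by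
        have e : 1 - 2 * s / 2 = 1 - s := by ring
        rw [e] at hpw3
        linarith
      have ht1 : 0 ≤ 1 - ∫ t, t ^ 2 ∂ν := by
        nlinarith [hs.le_one]
      have h5 : (1 - ∫ t, t ^ 2 ∂ν) * (1 - s) ^ 2 ≤ 1 - ∫ t, t ^ 2 ∂(lawM G lam ν W u) :=
        (mul_le_mul_of_nonneg_left hpw4 ht1).trans hiter
      have h6 : (1 - s ^ 2) * (1 - s) ^ 2 ≤ (1 - ∫ t, t ^ 2 ∂ν) * (1 - s) ^ 2 :=
        mul_le_mul_of_nonneg_right (by linarith) (sq_nonneg _)
      have h7 : 1 - 2 * s ≤ (1 - s ^ 2) * (1 - s) ^ 2 := by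
        nlinarith [mul_nonneg (sq_nonneg s) hs0.le, sq_nonneg s, hs.le_one, mul_nonneg (mul_nonneg (sq_nonneg s) hs0.le) (by linarith : 0 ≤ 2 - s)]
      linarith
    · exact (sq_law_le_one h hν hW hu).trans h2s

theorem cosh_one_le : Real.cosh 1 ≤ 31 / 20 := by
  rw [Real.cosh_eq]
  have h1 := Real.exp_one_lt_d9
  have h2 := Real.exp_neg_one_lt_d9
  linarith

/-- MGF of the single vertex evidence -/
theorem cosh_nu (hν : Null ν ρ) {s : ℝ} (hs : Mom ν s) {θ : ℝ} (hθ : θ ^ 2 * s ≤ 1) :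
    ∫ x, Real.cosh (θ * x) ∂ν ≤ Real.exp (θ ^ 2 * s ^ 2 / 2 + θ ^ 4 * s ^ 2 / 20) := by
  have hp := hν.prob
  have hs0 := hs.pos
  have hsupp : ∀ᵐ x ∂ν, |x| ≤ 1 := by
    filter_upwards [hν.supp] with x hx using hx.trans hν.lt.le
  have hint : ∀ p : ℕ, Integrable (fun x : ℝ => x ^ (2 * p)) ν := by
    intro p
    apply integrable_bdd (C := 1)
    · exact (measurable_id.pow_const _).aestronglyMeasurable
    · filter_upwards [hsupp] with x hx
      rw [abs_pow]
      exact pow_le_one₀ (abs_nonneg _) hx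
  have hmom1 : ∀ p : ℕ, ∫ x, x ^ (2 * p) ∂ν ≤ 1 := by
    intro p
    have : ∫ x, x ^ (2 * p) ∂ν ≤ ∫ _, (1:ℝ) ∂ν := by
      apply integral_mono_ae (hint p) (integrable_const _)
      filter_upwards [hsupp] with x hx
      rw [pow_mul, ← sq_abs]
      exact pow_le_one₀ (by positivity) (pow_le_one₀ (abs_nonneg _) hx)
    simpa using this
  set F : ℕ → ℝ → ℝ := fun p x => (θ * x) ^ (2 * p) / ((2 * p).factorial : ℝ) with hF
  have hFi : ∀ p, Integrable (F p) ν := by
    intro p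
    have : F p = fun x => (θ ^ (2 * p) / ((2 * p).factorial : ℝ)) * x ^ (2 * p) := by
      funext x
      simp only [hF, mul_pow]
      ring
    rw [this]
    exact (hint p).const_mul _
  have hFI : ∀ p, ∫ x, F p x ∂ν = (θ ^ (2 * p) / ((2 * p).factorial : ℝ)) * ∫ x, x ^ (2 * p) ∂ν := by
    intro p
    rw [← integral_const_mul]
    congr 1
    funext x
    simp only [hF, mul_pow]
    ring
  have hFnorm : ∀ p, ∫ x, ‖F p x‖ ∂ν = ∫ x, F p x ∂ν := by
    intro p
    congr 1
    funext x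
    rw [Real.norm_eq_abs, abs_of_nonneg]
    simp only [hF]
    rw [pow_mul]
    positivity
  have hcθ : ∀ p : ℕ, 0 ≤ θ ^ (2 * p) / ((2 * p).factorial : ℝ) := by
    intro p
    rw [pow_mul]
    positivity
  have hsum : Summable fun p => ∫ x, ‖F p x‖ ∂ν := by
    apply Summable.of_nonneg_of_le (fun p => integral_nonneg (fun x => norm_nonneg _)) (fun p => ?_)
      (Real.hasSum_cosh θ).summable
    rw [hFnorm, hFI]
    calc _ ≤ θ ^ (2 * p) / ((2 * p).factorial : ℝ) * 1 :=
          mul_le_mul_of_nonneg_left (hmom1 p) (hcθ p)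
      _ = _ := mul_one _
  have hS := hasSum_integral_of_summable_integral_norm hFi hsum
  have htsum : ∀ x, ∑' p, F p x = Real.cosh (θ * x) := fun x => (Real.hasSum_cosh (θ * x)).tsum_eq
  simp only [htsum] at hS
  -- comparison series
  set g : ℕ → ℝ := fun p => (θ ^ 2 * s) ^ 2 * ((1:ℝ) ^ (2 * p) / ((2 * p).factorial : ℝ)) +
    (if p = 0 then 1 - (θ ^ 2 * s) ^ 2 else 0) +
    (if p = 1 then θ ^ 2 * s ^ 2 / 2 - (θ ^ 2 * s) ^ 2 / 2 else 0) with hg
  have hgS : HasSum g ((θ ^ 2 * s) ^ 2 * Real.cosh 1 + (1 - (θ ^ 2 * s) ^ 2) +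
      (θ ^ 2 * s ^ 2 / 2 - (θ ^ 2 * s) ^ 2 / 2)) :=
    (((Real.hasSum_cosh 1).mul_left _).add (hasSum_ite_eq 0 _)).add (hasSum_ite_eq 1 _)
  have hle : ∀ p, ∫ x, F p x ∂ν ≤ g p := by
    intro p
    rw [hFI]
    match p with
    | 0 => simp [hg]
    | 1 =>
      have := hs.upper
      simp only [hg, mul_one, one_pow, one_ne_zero, if_false, if_true]
      norm_num
      nlinarith [sq_nonneg θ]
    | (p + 2) =>
      have h1 : p + 2 ≠ 0 := by omega
      have h2 : p + 2 ≠ 1 := by omega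
      simp only [hg, if_neg h1, if_neg h2, add_zero, one_pow]
      have h3 := hs.mom (p + 2) (by omega)
      have h4 : θ ^ (2 * (p + 2)) * ∫ x, x ^ (2 * (p + 2)) ∂ν ≤ (θ ^ 2 * s) ^ 2 := by
        calc θ ^ (2 * (p + 2)) * ∫ x, x ^ (2 * (p + 2)) ∂ν ≤ θ ^ (2 * (p + 2)) * s ^ (p + 2) := by
              apply mul_le_mul_of_nonneg_left h3
              rw [pow_mul]; positivity
          _ = (θ ^ 2 * s) ^ p * (θ ^ 2 * s) ^ 2 := by
              rw [← pow_add, mul_pow, ← pow_mul]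
          _ ≤ 1 * (θ ^ 2 * s) ^ 2 := by
              apply mul_le_mul_of_nonneg_right _ (by positivity)
              exact pow_le_one₀ (by positivity) hθ
          _ = _ := one_mul _
      have h5 : (0:ℝ) < ((2 * (p + 2)).factorial : ℝ) := by positivity
      rw [div_mul_eq_mul_div, mul_one_div]
      exact div_le_div_of_nonneg_right h4 h5.le
  have hfin := hasSum_le hle hS hgS
  have hc1 := cosh_one_le
  have h6 : (θ ^ 2 * s) ^ 2 = θ ^ 4 * s ^ 2 := by ring
  have h7 : (0:ℝ) ≤ (θ ^ 2 * s) ^ 2 := by positivity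
  calc _ ≤ _ := hfin
    _ ≤ 1 + (θ ^ 2 * s ^ 2 / 2 + θ ^ 4 * s ^ 2 / 20) := by
        rw [← h6]
        nlinarith
    _ ≤ _ := by
        have := Real.add_one_le_exp (θ ^ 2 * s ^ 2 / 2 + θ ^ 4 * s ^ 2 / 20)
        linarith

/-- `cosh x ≤ 1 + x²` for `|x| ≤ 1`. -/
theorem cosh_le_quad {x : ℝ} (hx : x ^ 2 ≤ 1) : Real.cosh x ≤ 1 + x ^ 2 := by
  have h1 := Real.cosh_le_exp_half_sq x
  have h2 : Real.exp (x ^ 2 / 2) ≤ 1 + x ^ 2 / 2 + (x ^ 2 / 2) ^ 2 := by
    have := Real.abs_exp_sub_one_sub_id_le (x := x ^ 2 / 2) (by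
      rw [abs_of_nonneg (by positivity)]; linarith)
    have := (abs_le.mp this).2
    linarith
  nlinarith [sq_nonneg x]

/-- **MGF at boundary roots** -/
theorem cosh_bdry (h : Tr G lam b) (hν : Null ν ρ) {s : ℝ} (hs : Mom ν s) :
    ∀ (k : ℕ) (θ : ℝ), θ ^ 2 ≤ 2 ^ k → θ ^ 2 * s ≤ 1 →
      ∀ (W : Finset V), IsSub G W → ∀ u ∈ W, (∃ z, G.Adj u z ∧ z ∉ W) →
      ∫ t, Real.cosh (θ * t) ∂(lawM G lam ν W u) ≤
        Real.exp ((2 * s + k * s ^ 2) * θ ^ 2 + s ^ 2 * θ ^ 4) := by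
  have hs0 := hs.pos
  have hl0 := h.nonneg
  have hbR := h.b_pos
  have hb0 : (0:ℝ) < b := by linarith
  intro k
  induction k with
  | zero =>
    intro θ hθ _ W hW u hu hz
    have hv := sq_bdry h hν hs _ W le_rfl hW u hu hz
    obtain ⟨hp, -, ha⟩ := lawM_spec h hν hW hu
    have hi2 : Integrable (fun t : ℝ => t ^ 2) (lawM G lam ν W u) :=
      integrable_lawM h hν hW hu (by fun_prop) (C := 1)
        (fun t ht => by rw [abs_pow]; exact pow_le_one₀ (abs_nonneg _) ht.le)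
    have h1 : ∫ t, Real.cosh (θ * t) ∂(lawM G lam ν W u) ≤
        ∫ t, (1 + θ ^ 2 * t ^ 2) ∂(lawM G lam ν W u) := by
      apply integral_mono_ae
      · exact integrable_lawM h hν hW hu (by fun_prop)
          (C := Real.cosh θ) (fun t ht => by rw [abs_cosh']; exact cosh_le_of_abs_lt ht)
      · exact (integrable_const _).add (hi2.const_mul _)
      · filter_upwards [ha] with t ht
        have ht2 : t ^ 2 ≤ 1 := by
          rw [← sq_abs]; exact pow_le_one₀ (abs_nonneg _) ht.le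
        have h2 : (θ * t) ^ 2 ≤ 1 := by
          rw [mul_pow]
          rw [pow_zero] at hθ
          nlinarith [sq_nonneg θ, sq_nonneg t]
        have := cosh_le_quad h2
        rw [mul_pow] at this
        exact this
    have h2 : ∫ t, (1 + θ ^ 2 * t ^ 2) ∂(lawM G lam ν W u) =
        1 + θ ^ 2 * ∫ t, t ^ 2 ∂(lawM G lam ν W u) := by
      rw [integral_add (integrable_const _) (hi2.const_mul _), integral_const_mul]
      simp
    rw [h2] at h1
    have h3 := Real.add_one_le_exp (θ ^ 2 * (2 * s))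
    have h4 : θ ^ 2 * ∫ t, t ^ 2 ∂(lawM G lam ν W u) ≤ θ ^ 2 * (2 * s) :=
      mul_le_mul_of_nonneg_left hv (sq_nonneg _)
    calc _ ≤ _ := h1
      _ ≤ Real.exp (θ ^ 2 * (2 * s)) := by linarith
      _ ≤ _ := by
        apply Real.exp_le_exp.mpr
        have : 0 ≤ s ^ 2 * θ ^ 4 := by positivity
        simp
        nlinarith
  | succ k ih =>
    intro θ hθ hθs W hW u hu hz
    obtain ⟨z, hz1, hz2⟩ := hz
    have hcb := card_chl_bdry h hz1 hz2
    have hlam := h.lam_sq_le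
    have hlam0 := sq_nonneg lam
    set A := (2 * s + k * s ^ 2) * (θ * lam) ^ 2 + s ^ 2 * (θ * lam) ^ 4 with hA
    have hA0 : 0 ≤ A := by positivity
    have hiter := cosh_iter h hν θ A _ W hW u hu rfl (by
      intro c hc
      obtain ⟨hD, hcD, -, -⟩ := sub_props h hW hu hc
      apply ih (θ * lam) _ _ (desc G u c W) hD c hcD ⟨u, bdry_child h hc⟩
      · rw [mul_pow]
        have hθ' : θ ^ 2 ≤ 2 ^ k * 2 := by rw [← pow_succ]; exact hθ
        nlinarith [sq_nonneg θ, pow_pos (show (0:ℝ) < 2 by norm_num) k]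
      · rw [mul_pow]
        nlinarith [sq_nonneg θ, mul_nonneg (sq_nonneg θ) hs0.le])
    have hnu := cosh_nu hν hs hθs
    have h1 : Real.exp ((chl G u u W).card * A) ≤ Real.exp (b * A) := by
      apply Real.exp_le_exp.mpr
      apply mul_le_mul_of_nonneg_right _ hA0
      exact_mod_cast hcb
    have hcrit := h.crit
    have h2 : (b : ℝ) * A ≤ (2 * s + k * s ^ 2) * θ ^ 2 + s ^ 2 * θ ^ 4 / 2 := by
      have e1 : (b : ℝ) * A = (2 * s + k * s ^ 2) * θ ^ 2 * (lam ^ 2 * b) +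
          s ^ 2 * θ ^ 4 * (lam ^ 2 * (lam ^ 2 * b)) := by rw [hA]; ring
      rw [e1]
      have e2 : (2 * s + k * s ^ 2) * θ ^ 2 * (lam ^ 2 * b) ≤ (2 * s + k * s ^ 2) * θ ^ 2 * 1 :=
        mul_le_mul_of_nonneg_left hcrit (by positivity)
      have e3 : lam ^ 2 * (lam ^ 2 * b) ≤ 1 / 2 := by nlinarith
      have e4 : s ^ 2 * θ ^ 4 * (lam ^ 2 * (lam ^ 2 * b)) ≤ s ^ 2 * θ ^ 4 * (1 / 2) :=
        mul_le_mul_of_nonneg_left e3 (by positivity)
      linarith
    calc _ ≤ _ := hiter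
      _ ≤ Real.exp (θ ^ 2 * s ^ 2 / 2 + θ ^ 4 * s ^ 2 / 20) * Real.exp (b * A) :=
          mul_le_mul hnu h1 (Real.exp_pos _).le (Real.exp_pos _).le
      _ = Real.exp (θ ^ 2 * s ^ 2 / 2 + θ ^ 4 * s ^ 2 / 20 + b * A) := by rw [← Real.exp_add]
      _ ≤ _ := by
        apply Real.exp_le_exp.mpr
        push_cast
        have : 0 ≤ s ^ 2 * θ ^ 4 := by positivity
        have : 0 ≤ s ^ 2 * θ ^ 2 := by positivity
        nlinarith

/-- **MGF at any root**, at `θ² = 1/s` -/
theorem cosh_root (h : Tr G lam b) (hν : Null ν ρ) {s : ℝ} (hs : Mom ν s) {W : Finset V}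
    (hW : IsSub G W) {u : V} (hu : u ∈ W) {θ : ℝ} (hθ : θ ^ 2 * s = 1) :
    ∫ t, Real.cosh (θ * t) ∂(lawM G lam ν W u) ≤ Real.exp 8 := by
  have hs0 := hs.pos
  have hs1 := hs.le_one
  have hl0 := h.nonneg
  have hbR := h.b_pos
  have hb0 : (0:ℝ) < b := by linarith
  have hlam := h.lam_sq_le
  have hlam0 := sq_nonneg lam
  have hcrit := h.crit
  have hreg : G.IsRegularOfDegree (b + 1) := h.reg
  have hcb : (chl G u u W).card ≤ b + 1 := card_chl_root_le h.tree hreg u W
  set k := ⌈1 / s⌉₊ with hk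
  have hk1 : 1 / s ≤ k := Nat.le_ceil _
  have hk2 : (k : ℝ) < 1 / s + 1 := Nat.ceil_lt_add_one (by positivity)
  have hθ2 : θ ^ 2 = 1 / s := by rw [eq_div_iff hs0.ne']; exact hθ
  have hk3 : θ ^ 2 ≤ 2 ^ k := by
    have : (k : ℝ) < 2 ^ k := by exact_mod_cast Nat.lt_two_pow_self
    rw [hθ2]; linarith
  have hks : k * s ≤ 2 := by
    have : (k : ℝ) * s < (1 / s + 1) * s := mul_lt_mul_of_pos_right hk2 hs0
    have e : (1 / s + 1) * s = 1 + s := by field_simp
    linarith
  set A := (2 * s + k * s ^ 2) * (θ * lam) ^ 2 + s ^ 2 * (θ * lam) ^ 4 with hA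
  have hA0 : 0 ≤ A := by positivity
  have hiter := cosh_iter h hν θ A _ W hW u hu rfl (by
    intro c hc
    obtain ⟨hD, hcD, -, -⟩ := sub_props h hW hu hc
    apply cosh_bdry h hν hs k (θ * lam) _ _ (desc G u c W) hD c hcD ⟨u, bdry_child h hc⟩
    · rw [mul_pow]
      nlinarith [sq_nonneg θ, pow_pos (show (0:ℝ) < 2 by norm_num) k]
    · rw [mul_pow]
      nlinarith [sq_nonneg θ, mul_nonneg (sq_nonneg θ) hs0.le])
  have hnu := cosh_nu hν hs hθ.le
  have h1 : Real.exp ((chl G u u W).card * A) ≤ Real.exp ((b + 1) * A) := by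
    apply Real.exp_le_exp.mpr
    apply mul_le_mul_of_nonneg_right _ hA0
    exact_mod_cast hcb
  have h2 : ((b : ℝ) + 1) * A ≤ 7 := by
    have e0 : A = lam ^ 2 * ((2 + k * s) * (θ ^ 2 * s)) + (lam ^ 2) ^ 2 * (θ ^ 2 * s) ^ 2 := by
      rw [hA]; ring
    rw [e0, hθ]
    have e1 : (b + 1 : ℝ) * lam ^ 2 ≤ 3 / 2 := by nlinarith
    have e2 : (b + 1 : ℝ) * (lam ^ 2) ^ 2 ≤ 3 / 4 := by nlinarith
    have e3 : 0 ≤ (k:ℝ) * s := by positivity
    nlinarith
  have h3 : θ ^ 2 * s ^ 2 / 2 + θ ^ 4 * s ^ 2 / 20 ≤ 1 := by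
    have e1 : θ ^ 2 * s ^ 2 = s := by
      calc θ ^ 2 * s ^ 2 = (θ ^ 2 * s) * s := by ring
        _ = s := by rw [hθ, one_mul]
    have e2 : θ ^ 4 * s ^ 2 = 1 := by
      calc θ ^ 4 * s ^ 2 = (θ ^ 2 * s) ^ 2 := by ring
        _ = 1 := by rw [hθ, one_pow]
    rw [e1, e2]; linarith
  calc _ ≤ _ := hiter
    _ ≤ Real.exp (θ ^ 2 * s ^ 2 / 2 + θ ^ 4 * s ^ 2 / 20) * Real.exp ((b + 1) * A) :=
        mul_le_mul hnu h1 (Real.exp_pos _).le (Real.exp_pos _).le
    _ = Real.exp (θ ^ 2 * s ^ 2 / 2 + θ ^ 4 * s ^ 2 / 20 + (b + 1) * A) := by rw [← Real.exp_add]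
    _ ≤ _ := by
      apply Real.exp_le_exp.mpr
      linarith

/-- moments of the posterior mean -/
theorem mom_MW (h : Tr G lam b) (p : ℕ) (_hp : 1 ≤ p) : ∃ C : ℝ, 0 < C ∧
    ∀ (ν : Measure ℝ) (ρ s : ℝ), Null ν ρ → Mom ν s → ∀ W : Finset V, IsSub G W → ∀ u ∈ W,
      EI G lam ν W (fun r => MW G lam W u r ^ (2 * p)) ≤ C * s ^ p := by
  refine ⟨Real.exp 8 * ((2 * p).factorial : ℝ), by positivity, ?_⟩
  intro ν ρ s hν hs W hW u hu
  have hs0 := hs.pos
  have hE := EI_lawM h hν hW hu (fun t => t ^ (2 * p)) (by fun_prop)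
  rw [hE]
  set θ := Real.sqrt (1 / s) with hθ
  have hθ2 : θ ^ 2 * s = 1 := by
    rw [hθ, Real.sq_sqrt (by positivity)]
    field_simp
  have hfac : (0:ℝ) < ((2 * p).factorial : ℝ) := by positivity
  obtain ⟨hpr, -, ha⟩ := lawM_spec h hν hW hu
  have h1 : ∫ t, t ^ (2 * p) ∂(lawM G lam ν W u) ≤
      ∫ t, (((2 * p).factorial : ℝ) * s ^ p) * Real.cosh (θ * t) ∂(lawM G lam ν W u) := by
    apply integral_mono_ae
    · exact integrable_lawM h hν hW hu (by fun_prop) (C := 1)
        (fun t ht => by rw [abs_pow]; exact pow_le_one₀ (abs_nonneg _) ht.le)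
    · exact (integrable_lawM h hν hW hu (φ := fun t => Real.cosh (θ * t)) (by fun_prop)
        (C := Real.cosh θ) (fun t ht => by rw [abs_cosh']; exact cosh_le_of_abs_lt ht)).const_mul _
    · filter_upwards with t
      have hc := (Real.hasSum_cosh (θ * t))
      have h2 : (θ * t) ^ (2 * p) / ((2 * p).factorial : ℝ) ≤ Real.cosh (θ * t) :=
        le_hasSum hc p (fun i _ => by rw [pow_mul]; positivity)
      have h3 : t ^ (2 * p) = s ^ p * (θ * t) ^ (2 * p) := by
        calc t ^ (2 * p) = (θ ^ 2 * s) ^ p * t ^ (2 * p) := by rw [hθ2, one_pow, one_mul]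
          _ = s ^ p * (θ * t) ^ (2 * p) := by
            rw [mul_pow, mul_pow, ← pow_mul]; ring
      rw [h3]
      rw [div_le_iff₀ hfac] at h2
      have h4 := mul_le_mul_of_nonneg_left h2 (pow_pos hs0 p).le
      calc _ ≤ _ := h4
        _ = _ := by ring
  rw [integral_const_mul] at h1
  have h5 := cosh_root h hν hs hW hu hθ2
  calc _ ≤ _ := h1
    _ ≤ (((2 * p).factorial : ℝ) * s ^ p) * Real.exp 8 :=
        mul_le_mul_of_nonneg_left h5 (by positivity)
    _ = _ := by ring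

end main

end Crest.Agent.H14
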