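import Mathlib
import Crest.Agent.H14.BP
import Crest.Agent.H14.ConvexOrder
import Crest.Agent.H14.Telescope
import Crest.Agent.H14.Static
import Crest.Agent.H14.Moments

/-!
# Row 160, P4 (helper7): lower bound for the side information and damping along paths
-/

set_option autoImplicit false

open MeasureTheory Filter Topology

namespace Crest.Agent.H14

open scoped Classical

/-! ### real inequalities -/

namespace Dmp

theorem exp_neg_le {y : ℝ} (hy : 0 ≤ y) : Real.exp (-y) ≤ 1 - min 1 y / 2 := by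
  have h1 : 1 + y ≤ Real.exp y := by linarith [Real.add_one_le_exp y]
  have h2 : Real.exp (-y) ≤ 1 / (1 + y) := by
    rw [Real.exp_neg, ← one_div]
    exact one_div_le_one_div_of_le (by linarith) h1
  rcases le_total y 1 with h | h
  · rw [min_eq_right h]
    apply h2.trans
    rw [div_le_iff₀ (by linarith)]
    nlinarith
  · rw [min_eq_left h]
    apply h2.trans
    rw [div_le_iff₀ (by linarith)]
    linarith

theorem pow_le_min {z : ℝ} (hz : 0 ≤ z) (hz1 : z ≤ 1) (p : ℕ) :
    (1 - z) ^ p ≤ 1 - min 1 (p * z) / 2 := by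
  have h1 : (1 - z) ^ p ≤ Real.exp (-(p * z)) := by
    have h2 : 1 - z ≤ Real.exp (-z) := by linarith [Real.add_one_le_exp (-z)]
    calc (1 - z) ^ p ≤ (Real.exp (-z)) ^ p := pow_le_pow_left₀ (by linarith) h2 p
      _ = Real.exp (-(p * z)) := by
          rw [← Real.exp_nat_mul]
          congr 1
          ring
  exact h1.trans (exp_neg_le (by positivity))

theorem min_ge (y : ℝ) : y - y ^ 2 / 4 ≤ min 1 y := by
  apply le_min
  · nlinarith [sq_nonneg (y / 2 - 1)]
  · nlinarith [sq_nonneg y]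

theorem abs_le_abs_opl {X ζ : ℝ} (hX : |X| < 1) (h : 0 ≤ X * ζ) :
    |X| ≤ |opl X ζ| := by
  have hpos : 0 < 1 + X * ζ := by linarith
  unfold opl
  rw [abs_div, abs_of_pos hpos, le_div_iff₀ hpos]
  have h1 : |X + ζ| = |X| + |ζ| := by
    rw [abs_add_eq_add_abs_iff]
    rcases le_total 0 X with h2 | h2
    · rcases eq_or_lt_of_le h2 with h3 | h3
      · subst h3
        rcases le_total 0 ζ with h4 | h4
        · exact Or.inl ⟨le_rfl, h4⟩
        · exact Or.inr ⟨le_rfl, h4⟩
      · left
        exact ⟨h2, nonneg_of_mul_nonneg_right h h3⟩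
    · rcases eq_or_lt_of_le h2 with h3 | h3
      · subst h3
        rcases le_total 0 ζ with h4 | h4
        · exact Or.inl ⟨le_rfl, h4⟩
        · exact Or.inr ⟨le_rfl, h4⟩
      · right
        refine ⟨h2, ?_⟩
        by_contra hc
        push Not at hc
        have := mul_neg_of_neg_of_pos h3 hc
        linarith
  rw [h1]
  have h2 : X * ζ = |X| * |ζ| := by rw [← abs_mul, abs_of_nonneg h]
  rw [h2]
  have h3 := abs_nonneg X
  have h4 := abs_nonneg ζ
  nlinarith [mul_nonneg h3 h4, mul_nonneg h3 (mul_nonneg h3 h4)]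

/-- one of the two signs is damped -/
theorem flip_ineq {φ : ℝ → ℝ} (hφ1 : ∀ t, |t| < 1 → φ t ≤ 1) (hφe : ∀ t, φ (-t) = φ t)
    (hφa : ∀ s t, |s| ≤ |t| → |t| < 1 → φ t ≤ φ s) {X ζ : ℝ} (hX : |X| < 1) (hζ : |ζ| < 1) :
    φ (opl X ζ) * (1 + X * ζ) + φ (opl (-X) ζ) * (1 - X * ζ) ≤ 1 + φ X := by
  have key : ∀ X : ℝ, |X| < 1 → 0 ≤ X * ζ →
      φ (opl X ζ) * (1 + X * ζ) + φ (opl (-X) ζ) * (1 - X * ζ) ≤ 1 + φ X := by
    intro X hX h
    have hX' : |-X| < 1 := by rwa [abs_neg]
    have h1 : φ (opl X ζ) ≤ φ X := hφa _ _ (abs_le_abs_opl hX h) (abs_opl_lt hX hζ)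
    have h2 : φ (opl (-X) ζ) ≤ 1 := hφ1 _ (abs_opl_lt hX' hζ)
    have h3 : 0 < 1 - X * ζ := by
      have := one_add_mul_pos hX' hζ.le
      linarith
    have h4 : φ X ≤ 1 := hφ1 _ hX
    have h5 : φ (opl X ζ) * (1 + X * ζ) ≤ φ X * (1 + X * ζ) :=
      mul_le_mul_of_nonneg_right h1 (by linarith)
    have h6 : φ (opl (-X) ζ) * (1 - X * ζ) ≤ 1 * (1 - X * ζ) :=
      mul_le_mul_of_nonneg_right h2 h3.le
    nlinarith [mul_nonneg h (sub_nonneg.mpr h4)]
  rcases le_total 0 (X * ζ) with h | h
  · exact key X hX h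
  · have h1 := key (-X) (by rwa [abs_neg]) (by linarith)
    rw [neg_neg, hφe X] at h1
    linarith

theorem measurable_flip {V : Type*} (D : Finset V) : Measurable (flip D : (V → ℝ) → V → ℝ) := by
  rw [measurable_pi_iff]
  intro v
  unfold flip
  split_ifs <;> fun_prop

theorem mp_flip {V : Type*} {ν : Measure ℝ} {ρ : ℝ} (hν : Null ν ρ) (D : Finset V) :
    MeasurePreserving (flip D) (Nm V ν) (Nm V ν) := by
  have := hν.prob
  refine ⟨measurable_flip D, ?_⟩
  have h1 := Measure.infinitePi_map_pi (μ := fun _ : V => ν)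
    (f := fun v x => if v ∈ D then -x else x) (by intro v; split_ifs <;> fun_prop)
  have h2 : (fun (v : V) => ν.map (fun x => if v ∈ D then -x else x)) = fun _ => ν := by
    funext v
    split_ifs with h
    · exact hν.symm
    · exact Measure.map_id
  unfold Nm
  rw [h2] at h1
  exact h1

theorem flip_flip {V : Type*} (D : Finset V) (r : V → ℝ) : flip D (flip D r) = r := by
  funext v
  unfold flip
  split_ifs <;> simp

theorem adm_flip {V : Type*} {D W : Finset V} {r : V → ℝ} (hr : Adm W r) : Adm W (flip D r) := by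
  intro v hv
  unfold flip
  split_ifs
  · rw [abs_neg]; exact hr v hv
  · exact hr v hv

/-- comparison of integrals after averaging over the flip -/
theorem integral_le_of_flip {V : Type*} {ν : Measure ℝ} {ρ : ℝ} (hν : Null ν ρ) (D : Finset V)
    {f g : (V → ℝ) → ℝ} (hf : Integrable f (Nm V ν)) (hg : Integrable g (Nm V ν))
    (h : ∀ᵐ r ∂(Nm V ν), f r + f (flip D r) ≤ g r + g (flip D r)) :
    ∫ r, f r ∂(Nm V ν) ≤ ∫ r, g r ∂(Nm V ν) := by
  have hmp := mp_flip (V := V) hν D
  have hf' : Integrable (fun r => f (flip D r)) (Nm V ν) := hmp.integrable_comp_of_integrable hf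
  have hg' : Integrable (fun r => g (flip D r)) (Nm V ν) := hmp.integrable_comp_of_integrable hg
  have e : ∀ {F : (V → ℝ) → ℝ}, Integrable F (Nm V ν) →
      ∫ r, F (flip D r) ∂(Nm V ν) = ∫ r, F r ∂(Nm V ν) := by
    intro F hF
    have h1 := integral_map hmp.measurable.aemeasurable (μ := Nm V ν) (f := F)
      (by rw [hmp.map_eq]; exact hF.aestronglyMeasurable)
    rw [hmp.map_eq] at h1
    exact h1.symm
  have h1 : ∫ r, (f r + f (flip D r)) ∂(Nm V ν) ≤ ∫ r, (g r + g (flip D r)) ∂(Nm V ν) :=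
    integral_mono_ae (hf.add hf') (hg.add hg') h
  rw [integral_add hf hf', integral_add hg hg', e hf, e hg] at h1
  linarith

variable {V : Type*} {G : SimpleGraph V} {lam : ℝ} {b : ℕ} {ν : Measure ℝ} {ρ : ℝ}

theorem Tst.mul {W : Finset V} {F H : (V → ℝ) → ℝ} (hF : Tst W F) (hH : Tst W H) :
    Tst W (fun r => F r * H r) := by
  obtain ⟨C, hC⟩ := hF.bdd
  obtain ⟨D, hD⟩ := hH.bdd
  refine ⟨hF.meas.mul hH.meas, fun r r' h => ?_, C * D, fun r hr => ?_⟩
  · rw [hF.dep h, hH.dep h]
  · rw [abs_mul]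
    exact mul_le_mul (hC r hr) (hD r hr) (abs_nonneg _) ((abs_nonneg _).trans (hC r hr))

theorem Tst.mono {W W' : Finset V} (hsub : W ⊆ W') {F : (V → ℝ) → ℝ} (hF : Tst W F) : Tst W' F := by
  obtain ⟨C, hC⟩ := hF.bdd
  refine ⟨hF.meas, fun r r' h => hF.dep (fun i hi => h i (hsub hi)), C,
    fun r hr => hC r (adm_mono hsub hr)⟩

/-- bounded function of the posterior mean -/
theorem tst_comp (h : Tr G lam b) {W : Finset V} {z : V} (hz : z ∈ W) {φ : ℝ → ℝ}
    (hφ : Measurable φ) {C : ℝ} (hC : ∀ t, |t| < 1 → |φ t| ≤ C) :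
    Tst W (fun r => φ (MW G lam W z r)) := by
  refine ⟨hφ.comp (measurable_MW W z), fun r r' hr => ?_, C, fun r hr => ?_⟩
  · rw [dep_MW W z hr]
  · exact hC _ (MW_abs_lt h hz hr)

theorem flip_of_notMem {D : Finset V} {r : V → ℝ} {v : V} (hv : v ∉ D) : flip D r v = r v := by
  unfold flip
  rw [if_neg hv]

theorem flip_congr {D W : Finset V} (hd : Disjoint D W) {F : (V → ℝ) → ℝ}
    (hF : DependsOn F (W : Set V)) (r : V → ℝ) : F (flip D r) = F r := by
  apply hF
  intro v hv
  exact flip_of_notMem (fun h => (Finset.disjoint_left.mp hd h) hv)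

/-- damping of the top vertex, exact averaging -/
theorem damp_avg [Countable V] (h : Tr G lam b) (hν : Null ν ρ) {W : Finset V} (hW : IsSub G W)
    {z y : V} (hz : z ∈ W) (hy : y ∈ W) (hne : y ≠ z) (hpar : par G z y = z) {φ : ℝ → ℝ}
    (hφm : Measurable φ) (hφ0 : ∀ t, |t| < 1 → 0 ≤ φ t)
    (hφ1 : ∀ t, |t| < 1 → φ t ≤ 1) (hφe : ∀ t, φ (-t) = φ t)
    (hφa : ∀ s t, |s| ≤ |t| → |t| < 1 → φ t ≤ φ s) {H : (V → ℝ) → ℝ}
    (hH : Tst (desc G z y W) H) (hHe : EvenOn (desc G z y W) H) (hH0 : ∀ r, 0 ≤ H r) :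
    EI G lam ν W (fun r => φ (MW G lam W z r) * H r) ≤
      EI G lam ν (desc G z y W) H * EI G lam ν (W \ desc G z y W)
        (fun r => (1 + φ (MW G lam (W \ desc G z y W) z r)) / 2) := by
  set D := desc G z y W with hD
  have hDW : D ⊆ W := desc_subset z y W
  have hzD : z ∈ W \ D := by
    have := par_mem_sdiff h hW hz hy hne
    rwa [hpar] at this
  have hφC : ∀ t, |t| < 1 → |φ t| ≤ 1 := fun t ht => by
    rw [abs_of_nonneg (hφ0 t ht)]; exact hφ1 t ht
  have hX : Tst (W \ D) (fun r => (1 + φ (MW G lam (W \ D) z r)) / 2) := by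
    apply tst_comp h hzD (φ := fun t => (1 + φ t) / 2) (by fun_prop) (C := 1)
    intro t ht
    have h1 := hφ0 t ht
    have h2 := hφ1 t ht
    rw [abs_le]
    constructor <;> linarith
  have hind := EI_indep h hν hW hz hy hne hH hHe hX
  rw [← hind]
  have hHW : Tst W H := Tst.mono hDW hH
  have hXW : Tst W (fun r => (1 + φ (MW G lam (W \ D) z r)) / 2) := Tst.mono Finset.sdiff_subset hX
  have hφW : Tst W (fun r => φ (MW G lam W z r)) := tst_comp h hz hφm hφC
  have i1 := Tst.integrable h hν (Tst.mul hφW hHW)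
  have i2 := Tst.integrable h hν (Tst.mul hHW hXW)
  unfold EI
  refine integral_le_of_flip hν (W \ D) i1 i2 ?_
  filter_upwards [ae_adm hν W] with r hr
  have hr' : Adm W (flip (W \ D) r) := adm_flip hr
  have hdis : Disjoint (W \ D) D := Finset.sdiff_disjoint
  -- values at the flipped field
  have e1 : LW G lam D (flip (W \ D) r) = LW G lam D r := flip_congr hdis (dep_LW D) r
  have e2 : LW G lam (W \ D) (flip (W \ D) r) = LW G lam (W \ D) r := LW_flip h r
  have e3 : tau G lam W z y (flip (W \ D) r) = tau G lam W z y r := by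
    unfold tau
    exact flip_congr hdis (dep_MW D y) r
  have e4 : MW G lam (W \ D) z (flip (W \ D) r) = -MW G lam (W \ D) z r := MW_flip h hzD r
  have e5 : H (flip (W \ D) r) = H r := flip_congr hdis hH.dep r
  have s1 := LW_split h hW hz hy hne hr
  have s2 := LW_split h hW hz hy hne hr'
  have m1 := MW_par h hW hz hy hne hr
  have m2 := MW_par h hW hz hy hne hr'
  rw [hpar, ← hD] at s1 s2 m1 m2
  rw [e1, e2, e3, e4] at s2
  rw [e3, e4] at m2
  rw [s1, s2, m1, m2, e4, e5, hφe]
  set X := MW G lam (W \ D) z r with hXdef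
  set τ := tau G lam W z y r with hτdef
  have hXlt : |X| < 1 := MW_abs_lt h hzD (adm_sdiff hr)
  have hτlt : |τ| < 1 := tau_abs_lt h hy hr
  have hζlt : |lam * τ| < 1 := by
    rw [abs_mul]
    have h1 := h.abs_lam
    calc |lam| * |τ| ≤ |lam| * 1 := mul_le_mul_of_nonneg_left hτlt.le (abs_nonneg _)
      _ < 1 := by rw [mul_one]; exact h1
  have hL1 : 0 < LW G lam D r := LW_pos' h D (adm_mono hDW hr)
  have hL2 : 0 < LW G lam (W \ D) r := LW_pos' h (W \ D) (adm_sdiff hr)
  have key := flip_ineq hφ1 hφe hφa hXlt hζlt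
  have hH0r := hH0 r
  have hfac : 0 ≤ H r * (LW G lam D r * LW G lam (W \ D) r) :=
    mul_nonneg hH0r (mul_pos hL1 hL2).le
  have := mul_le_mul_of_nonneg_left key hfac
  nlinarith [this]

theorem EI_lin [Countable V] (h : Tr G lam b) (hν : Null ν ρ) {W : Finset V}
    {F₁ F₂ F₃ : (V → ℝ) → ℝ} (h1 : Tst W F₁) (h2 : Tst W F₂) (h3 : Tst W F₃) (a c : ℝ) :
    EI G lam ν W (fun r => F₁ r + a * F₂ r + c * F₃ r) =
      EI G lam ν W F₁ + a * EI G lam ν W F₂ + c * EI G lam ν W F₃ := by
  have i1 := Tst.integrable h hν h1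
  have i2 := Tst.integrable h hν h2
  have i3 := Tst.integrable h hν h3
  unfold EI
  have e : ∀ r, (F₁ r + a * F₂ r + c * F₃ r) * LW G lam W r =
      F₁ r * LW G lam W r + a * (F₂ r * LW G lam W r) + c * (F₃ r * LW G lam W r) := by
    intro r; ring
  simp_rw [e]
  have i2' : Integrable (fun r => a * (F₂ r * LW G lam W r)) (Nm V ν) := i2.const_mul a
  have i3' : Integrable (fun r => c * (F₃ r * LW G lam W r)) (Nm V ν) := i3.const_mul c
  have i12 : Integrable (fun r => F₁ r * LW G lam W r + a * (F₂ r * LW G lam W r)) (Nm V ν) :=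
    i1.add i2'
  rw [integral_add i12 i3', integral_add i1 i2', integral_const_mul, integral_const_mul]

/-- second moment: lower bound when an edge is added -/
theorem comb_lower [Countable V] (h : Tr G lam b) (hν : Null ν ρ) {W : Finset V} (hW : IsSub G W)
    {z y : V} (hz : z ∈ W) (hy : y ∈ W) (hne : y ≠ z) (hpar : par G z y = z) :
    EI G lam ν (W \ desc G z y W) (fun r => MW G lam (W \ desc G z y W) z r ^ 2) +
      lam ^ 2 * EI G lam ν (desc G z y W) (fun r => MW G lam (desc G z y W) y r ^ 2) -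
      2 * (EI G lam ν (W \ desc G z y W) (fun r => MW G lam (W \ desc G z y W) z r ^ 2) *
      (lam ^ 2 * EI G lam ν (desc G z y W) (fun r => MW G lam (desc G z y W) y r ^ 2))) ≤
      EI G lam ν W (fun r => MW G lam W z r ^ 2) := by
  set D := desc G z y W with hD
  have hDW : D ⊆ W := desc_subset z y W
  have hzD : z ∈ W \ D := by
    have := par_mem_sdiff h hW hz hy hne
    rwa [hpar] at this
  have hyD : y ∈ D := self_mem_desc hy
  have hsq : ∀ t : ℝ, |t| < 1 → |t ^ 2| ≤ 1 := by
    intro t ht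
    rw [abs_of_nonneg (sq_nonneg t), ← sq_abs]
    nlinarith [abs_nonneg t]
  have hX : Tst (W \ D) (fun r => MW G lam (W \ D) z r ^ 2) :=
    tst_comp h hzD (φ := fun t => t ^ 2) (by fun_prop) hsq
  have hT : Tst D (fun r => MW G lam D y r ^ 2) :=
    tst_comp h hyD (φ := fun t => t ^ 2) (by fun_prop) hsq
  have hTe : EvenOn D (fun r => MW G lam D y r ^ 2) := by
    intro r
    simp only
    rw [MW_flip h hyD r]
    ring
  have hXW : Tst W (fun r => MW G lam (W \ D) z r ^ 2) := Tst.mono Finset.sdiff_subset hX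
  have hTW : Tst W (fun r => MW G lam D y r ^ 2) := Tst.mono hDW hT
  have hMW : Tst W (fun r => MW G lam W z r ^ 2) :=
    tst_comp h hz (φ := fun t => t ^ 2) (by fun_prop) hsq
  have hsub1 : IsSub G (W \ D) := isSub_sdiff h hW hz hy hne
  have hsub2 : IsSub G D := desc_isSub h.tree (hW.parClosed hz) hy
  have m1 := EI_marg h hν hsub1 ⟨z, hzD⟩ hW Finset.sdiff_subset hX
  have m2 := EI_marg h hν hsub2 ⟨y, hyD⟩ hW hDW hT
  have m3 := EI_indep h hν hW hz hy hne hT hTe hX
  have hlin := EI_lin h hν hXW hTW (Tst.mul hTW hXW) (lam ^ 2) (-2 * lam ^ 2)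
  rw [m1, m2, m3] at hlin
  have hle : EI G lam ν W (fun r => MW G lam (W \ D) z r ^ 2 + lam ^ 2 * MW G lam D y r ^ 2 +
      -2 * lam ^ 2 * (MW G lam D y r ^ 2 * MW G lam (W \ D) z r ^ 2)) ≤
      EI G lam ν W (fun r => MW G lam W z r ^ 2) := by
    have hcomb : Tst W (fun r => MW G lam (W \ D) z r ^ 2 + lam ^ 2 * MW G lam D y r ^ 2 +
      -2 * lam ^ 2 * (MW G lam D y r ^ 2 * MW G lam (W \ D) z r ^ 2)) := by
      have hP := Tst.mul hTW hXW
      refine ⟨?_, ?_, 1 + lam ^ 2 * 1 + 2 * lam ^ 2 * (1 * 1), ?_⟩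
      · exact (hXW.meas.add (hTW.meas.const_mul _)).add (hP.meas.const_mul _)
      · intro r r' hr
        have a1 := hXW.dep hr
        have a2 := hTW.dep hr
        simp only at a1 a2 ⊢
        rw [a1, a2]
      · intro r hr
        have a1 := MW_abs_lt h hzD (adm_sdiff (D := D) hr)
        have a2 := MW_abs_lt h hyD (adm_mono hDW hr)
        have b1 := hsq _ a1
        have b2 := hsq _ a2
        have c1 : |MW G lam D y r ^ 2 * MW G lam (W \ D) z r ^ 2| ≤ 1 * 1 := by
          rw [abs_mul]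
          exact mul_le_mul b2 b1 (abs_nonneg _) zero_le_one
        have hl : 0 ≤ lam ^ 2 := sq_nonneg _
        calc |MW G lam (W \ D) z r ^ 2 + lam ^ 2 * MW G lam D y r ^ 2 +
              -2 * lam ^ 2 * (MW G lam D y r ^ 2 * MW G lam (W \ D) z r ^ 2)|
            ≤ |MW G lam (W \ D) z r ^ 2| + |lam ^ 2 * MW G lam D y r ^ 2| +
              |-2 * lam ^ 2 * (MW G lam D y r ^ 2 * MW G lam (W \ D) z r ^ 2)| :=
              abs_add_three _ _ _
          _ ≤ 1 + lam ^ 2 * 1 + 2 * lam ^ 2 * (1 * 1) := by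
              rw [abs_mul (lam ^ 2), abs_mul (-2 * lam ^ 2), abs_of_nonneg hl, abs_mul (-2 : ℝ),
                abs_of_nonneg hl, abs_neg, abs_of_pos (by norm_num : (0:ℝ) < 2)]
              have d1 := mul_le_mul_of_nonneg_left b2 hl
              have d2 := mul_le_mul_of_nonneg_left c1 (by positivity : 0 ≤ 2 * lam ^ 2)
              linarith
    have i1 := Tst.integrable h hν hcomb
    have i2 := Tst.integrable h hν hMW
    unfold EI
    refine integral_le_of_flip hν (W \ D) i1 i2 ?_
    filter_upwards [ae_adm hν W] with r hr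
    have hr' : Adm W (flip (W \ D) r) := adm_flip hr
    have hdis : Disjoint (W \ D) D := Finset.sdiff_disjoint
    have e1 : LW G lam D (flip (W \ D) r) = LW G lam D r := flip_congr hdis (dep_LW D) r
    have e2 : LW G lam (W \ D) (flip (W \ D) r) = LW G lam (W \ D) r := LW_flip h r
    have e3' : MW G lam D y (flip (W \ D) r) = MW G lam D y r := flip_congr hdis (dep_MW D y) r
    have e3 : tau G lam W z y (flip (W \ D) r) = tau G lam W z y r := e3'
    have e4 : MW G lam (W \ D) z (flip (W \ D) r) = -MW G lam (W \ D) z r := MW_flip h hzD r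
    have s1 := LW_split h hW hz hy hne hr
    have s2 := LW_split h hW hz hy hne hr'
    have m1 := MW_par h hW hz hy hne hr
    have m2 := MW_par h hW hz hy hne hr'
    rw [hpar, ← hD] at s1 s2 m1 m2
    rw [e1, e2, e3, e4] at s2
    rw [e3, e4] at m2
    rw [s1, s2, m1, m2, e4, e3']
    have hτe : MW G lam D y r = tau G lam W z y r := rfl
    rw [hτe]
    set X := MW G lam (W \ D) z r with hXdef
    set τ := tau G lam W z y r with hτdef
    have hXlt : |X| < 1 := MW_abs_lt h hzD (adm_sdiff hr)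
    have hτlt : |τ| < 1 := tau_abs_lt h hy hr
    have hζlt : |lam * τ| < 1 := by
      rw [abs_mul]
      have h1 := h.abs_lam
      calc |lam| * |τ| ≤ |lam| * 1 := mul_le_mul_of_nonneg_left hτlt.le (abs_nonneg _)
        _ < 1 := by rw [mul_one]; exact h1
    have hXζ : |lam * τ * X| < 1 := by
      rw [abs_mul]
      calc |lam * τ| * |X| ≤ |lam * τ| * 1 := mul_le_mul_of_nonneg_left hXlt.le (abs_nonneg _)
        _ < 1 := by rw [mul_one]; exact hζlt
    have hL1 : 0 < LW G lam D r := LW_pos' h D (adm_mono hDW hr)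
    have hL2 : 0 < LW G lam (W \ D) r := LW_pos' h (W \ D) (adm_sdiff hr)
    have key := (sq_pair_bounds hζlt.le hXlt.le hXζ).1
    have c1 : opl X (lam * τ) = opl (lam * τ) X := opl_comm _ _
    have c2 : opl (-X) (lam * τ) = opl (lam * τ) (-X) := opl_comm _ _
    rw [c1, c2]
    have hfac : 0 ≤ LW G lam D r * LW G lam (W \ D) r := (mul_pos hL1 hL2).le
    have := mul_le_mul_of_nonneg_left key hfac
    nlinarith [this]
  linarith

/-! ### removing a child -/

theorem chl_sdiff (hT : G.IsTree) {z y : V} {W : Finset V} (hy : y ∈ chl G z z W) :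
    chl G z z (W \ desc G z y W) = (chl G z z W).erase y := by
  ext w
  rw [mem_chl, Finset.mem_erase, mem_chl, Finset.mem_sdiff]
  constructor
  · rintro ⟨⟨h1, h2⟩, h3, h4⟩
    refine ⟨?_, h1, h3, h4⟩
    rintro rfl
    exact h2 (self_mem_desc h1)
  · rintro ⟨h1, h2, h3, h4⟩
    refine ⟨⟨h2, fun hc => h1 ?_⟩, h3, h4⟩
    have hw : w ∈ chl G z z W := mem_chl.2 ⟨h2, h3, h4⟩
    exact (child_unique hT hy hw hc (self_mem_desc h2)).symm

theorem desc_sdiff_child (hT : G.IsTree) {z y y' : V} {W : Finset V} (hy : y ∈ chl G z z W)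
    (hy' : y' ∈ chl G z z W) (hne : y' ≠ y) :
    desc G z y' (W \ desc G z y W) = desc G z y' W := by
  ext v
  rw [mem_desc, mem_desc, Finset.mem_sdiff]
  constructor
  · rintro ⟨⟨h1, _⟩, h2⟩
    exact ⟨h1, h2⟩
  · rintro ⟨h1, h2⟩
    refine ⟨⟨h1, fun hc => hne ?_⟩, h2⟩
    exact child_unique hT hy' hy (mem_desc.2 ⟨h1, h2⟩) hc

theorem LW_singleton (z : V) (r : V → ℝ) : LW G lam {z} r = 1 := by
  rw [LW_eq]
  have e : ({z} : Finset V).powerset = {∅, {z}} := by
    ext S
    simp [Finset.subset_singleton_iff]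
  rw [e, Finset.sum_pair (by simp : (∅ : Finset V) ≠ {z})]
  rw [mu_singleton, mu_singleton]
  unfold tl sp
  simp
  ring

theorem v2_singleton [Countable V] (h : Tr G lam b) (hν : Null ν ρ) (z : V) :
    EI G lam ν {z} (fun r => MW G lam {z} z r ^ 2) = ∫ x, x ^ 2 ∂ν := by
  have := hν.prob
  unfold EI
  have h1 : ∫ r, MW G lam {z} z r ^ 2 * LW G lam {z} r ∂(Nm V ν) = ∫ r, (r z) ^ 2 ∂(Nm V ν) := by
    apply integral_congr_ae
    filter_upwards [ae_adm hν ({z} : Finset V)] with r hr
    rw [LW_singleton, MW_singleton h (hr z (by simp)), mul_one]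
  rw [h1]
  have h2 := (Measure.infinitePi_map_eval (fun _ : V => ν) z)
  have h3 := integral_map (μ := Measure.infinitePi (fun _ : V => ν))
    (measurable_pi_apply z).aemeasurable (f := fun x : ℝ => x ^ 2)
    (by rw [h2]; exact (by fun_prop : Measurable fun x : ℝ => x ^ 2).aestronglyMeasurable)
  rw [h2] at h3
  exact h3.symm

theorem sq_le_one_of_abs_lt {t : ℝ} (ht : |t| < 1) : t ^ 2 ≤ 1 := by
  rw [← sq_abs]
  nlinarith [abs_nonneg t]

theorem EI_nonneg [Countable V] (h : Tr G lam b) (hν : Null ν ρ) {W : Finset V}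
    {F : (V → ℝ) → ℝ} (hF : ∀ r, Adm W r → 0 ≤ F r) : 0 ≤ EI G lam ν W F := by
  unfold EI
  apply integral_nonneg_of_ae
  filter_upwards [ae_adm hν W] with r hr
  exact mul_nonneg (hF r hr) (LW_pos' h W hr).le

theorem EI_mono [Countable V] (h : Tr G lam b) (hν : Null ν ρ) {W : Finset V}
    {F F' : (V → ℝ) → ℝ} (hF : Tst W F) (hF' : Tst W F') (hle : ∀ r, Adm W r → F r ≤ F' r) :
    EI G lam ν W F ≤ EI G lam ν W F' := by
  unfold EI
  apply integral_mono_ae (Tst.integrable h hν hF) (Tst.integrable h hν hF')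
  filter_upwards [ae_adm hν W] with r hr
  exact mul_le_mul_of_nonneg_right (hle r hr) (LW_pos' h W hr).le

theorem tst_const (W : Finset V) (c : ℝ) : Tst W (fun _ : V → ℝ => c) :=
  ⟨measurable_const, fun _ _ _ => rfl, |c|, fun _ _ => le_rfl⟩

theorem tst_sq (h : Tr G lam b) {W : Finset V} {z : V} (hz : z ∈ W) :
    Tst W (fun r => MW G lam W z r ^ 2) := by
  apply tst_comp h hz (φ := fun t => t ^ 2) (by fun_prop) (C := 1)
  intro t ht
  rw [abs_of_nonneg (sq_nonneg t)]
  exact sq_le_one_of_abs_lt ht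

theorem v2_le_one [Countable V] (h : Tr G lam b) (hν : Null ν ρ) {W : Finset V} (hW : IsSub G W)
    {z : V} (hz : z ∈ W) : EI G lam ν W (fun r => MW G lam W z r ^ 2) ≤ 1 := by
  have h1 := EI_mono h hν (tst_sq h hz) (tst_const W 1)
    (fun r hr => sq_le_one_of_abs_lt (MW_abs_lt h hz hr))
  rwa [EI_one h hν hW ⟨z, hz⟩] at h1

theorem v2_nonneg [Countable V] (h : Tr G lam b) (hν : Null ν ρ) (W : Finset V)
    (z : V) : 0 ≤ EI G lam ν W (fun r => MW G lam W z r ^ 2) :=
  EI_nonneg h hν (fun _ _ => sq_nonneg _)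

/-- lower bound for the second moment in terms of the children -/
theorem star_lower [Countable V] (h : Tr G lam b) (hν : Null ν ρ) {t0 L : ℝ}
    (ht0' : t0 ≤ 1 / 2) (hvar : t0 ≤ ∫ x, x ^ 2 ∂ν) {z : V} :
    ∀ (n : ℕ) (W : Finset V), IsSub G W → z ∈ W → (chl G z z W).card = n →
      ∀ C : Finset V, C ⊆ chl G z z W →
      (∀ y ∈ C, L ≤ EI G lam ν (desc G z y W) (fun r => MW G lam (desc G z y W) y r ^ 2)) →
      1 / 2 - (1 / 2 - t0) * (1 - 2 * (lam ^ 2 * L)) ^ C.card ≤
        EI G lam ν W (fun r => MW G lam W z r ^ 2) := by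
  intro n
  induction n with
  | zero =>
    intro W hW hz hn C hC _
    have h1 : chl G z z W = ∅ := Finset.card_eq_zero.mp hn
    have hWz : W = {z} := by
      have h2 := desc_eq_insert h.tree (hW.parClosed hz) hz
      rw [desc_root, h1] at h2
      simpa using h2
    have hC0 : C = ∅ := by
      rw [h1] at hC
      exact Finset.subset_empty.mp hC
    subst hWz
    rw [v2_singleton h hν, hC0]
    simp
    linarith
  | succ n ih =>
    intro W hW hz hn C hC hLC
    -- choose the child to remove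
    obtain ⟨y, hy, hyC⟩ : ∃ y ∈ chl G z z W, C.Nonempty → y ∈ C := by
      by_cases hCe : C.Nonempty
      · obtain ⟨y, hy⟩ := hCe
        exact ⟨y, hC hy, fun _ => hy⟩
      · have : (chl G z z W).Nonempty := by
          rw [← Finset.card_pos, hn]; omega
        obtain ⟨y, hy⟩ := this
        exact ⟨y, hy, fun h => absurd h hCe⟩
    have hyW := (mem_chl.1 hy).1
    have hyz := (mem_chl.1 hy).2.1
    have hpar := (mem_chl.1 hy).2.2
    set D := desc G z y W with hD
    have hsub1 : IsSub G (W \ D) := isSub_sdiff h hW hz hyW hyz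
    have hzD : z ∈ W \ D := by
      have := par_mem_sdiff h hW hz hyW hyz
      rwa [hpar] at this
    have hsub2 : IsSub G D := desc_isSub h.tree (hW.parClosed hz) hyW
    have hchl : chl G z z (W \ D) = (chl G z z W).erase y := chl_sdiff h.tree hy
    have hcard : (chl G z z (W \ D)).card = n := by
      rw [hchl, Finset.card_erase_of_mem hy, hn]
      rfl
    have hCsub : C.erase y ⊆ chl G z z (W \ D) := by
      rw [hchl]
      exact Finset.erase_subset_erase y hC
    have hIH := ih (W \ D) hsub1 hzD hcard (C.erase y) hCsub (by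
      intro y' hy'
      have h1 := Finset.mem_erase.mp hy'
      rw [desc_sdiff_child h.tree hy (hC h1.2) h1.1]
      exact hLC y' h1.2)
    have hcomb := comb_lower h hν hW hz hyW hyz hpar
    rw [← hD] at hcomb
    set V' := EI G lam ν (W \ D) (fun r => MW G lam (W \ D) z r ^ 2) with hV'
    set v := EI G lam ν D (fun r => MW G lam D y r ^ 2) with hv
    have hv0 : 0 ≤ v := v2_nonneg h hν D y
    have hv1 : v ≤ 1 := v2_le_one h hν hsub2 (self_mem_desc hyW)
    have hlam : lam ^ 2 ≤ 1 / 2 := h.lam_sq_le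
    have hlam0 : 0 ≤ lam ^ 2 := sq_nonneg _
    have ha : lam ^ 2 * v ≤ 1 / 2 := by nlinarith
    have ha0 : 0 ≤ lam ^ 2 * v := mul_nonneg hlam0 hv0
    refine le_trans ?_ hcomb
    by_cases hCe : C.Nonempty
    · have hyC' := hyC hCe
      have hLv : L ≤ v := hLC y hyC'
      have hcardC : C.card = (C.erase y).card + 1 := by
        rw [Finset.card_erase_of_mem hyC']
        have := Finset.card_pos.mpr hCe
        omega
      rw [hcardC, pow_succ]
      set P := (1 - 2 * (lam ^ 2 * L)) ^ (C.erase y).card with hP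
      have hLa : lam ^ 2 * L ≤ lam ^ 2 * v := mul_le_mul_of_nonneg_left hLv hlam0
      have hP0 : 0 ≤ P := pow_nonneg (by linarith) _
      -- m = 1/2 - (1/2 - t0) P
      have hm : 1 / 2 - (1 / 2 - t0) * P ≤ V' := hIH
      have hmh : 0 ≤ (1 / 2 - t0) * P := mul_nonneg (by linarith) hP0
      nlinarith [mul_nonneg (sub_nonneg.mpr hm) (by linarith : 0 ≤ 1 - 2 * (lam ^ 2 * v)),
        mul_nonneg hmh (sub_nonneg.mpr hLa)]
    · have hC0 : C = ∅ := Finset.not_nonempty_iff_eq_empty.mp hCe
      subst hC0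
      simp only [Finset.erase_empty, Finset.card_empty, pow_zero, mul_one] at hIH ⊢
      have h1 : t0 ≤ V' := by linarith
      nlinarith [mul_nonneg (sub_nonneg.mpr h1) (by linarith : 0 ≤ 1 - 2 * (lam ^ 2 * v)),
        mul_nonneg ha0 (by linarith : 0 ≤ 1 / 2 - t0)]

theorem one_sub_pow_le {x : ℝ} (hx : 0 ≤ x) (hx1 : x ≤ 1) (n : ℕ) :
    (1 - x) ^ n ≤ 1 - n * x + (n * x) ^ 2 / 2 := by
  induction n with
  | zero => simp
  | succ n ih =>
    rw [pow_succ]
    have h1 : (1 - x) ^ n * (1 - x) ≤ (1 - n * x + (n * x) ^ 2 / 2) * (1 - x) :=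
      mul_le_mul_of_nonneg_right ih (by linarith)
    refine h1.trans ?_
    push_cast
    have hn : (0:ℝ) ≤ n := Nat.cast_nonneg n
    nlinarith [mul_nonneg (mul_nonneg (mul_nonneg hn hn) hx) (mul_nonneg hx hx), sq_nonneg x,
      mul_nonneg hn (sq_nonneg x)]

variable [G.LocallyFinite]

theorem card_ch_ge (h : Tr G lam b) (x u : V) : b ≤ (ch G x u).card := by
  by_cases hu : u = x
  · subst hu
    rw [card_ch_root_regular h.reg]
    omega
  · rw [card_ch_regular h.tree h.reg hu]
    omega

/-- critical case: the second moment of the cavity magnetisation of a deep subtree is at least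
`√t₀ / 4` -/
theorem depth_lower [Countable V] (h : Tr G lam b) (hcrit : (b:ℝ) * lam ^ 2 = 1) (hν : Null ν ρ)
    {t0 : ℝ} (ht0 : 0 ≤ t0) (ht0' : t0 ≤ 1 / 100) (hvar : t0 ≤ ∫ x, x ^ 2 ∂ν) (c0 : V) (R : ℕ) :
    ∀ (k : ℕ) (x w : V), x ∈ bl G c0 R → w ∈ bl G c0 R → G.dist c0 w + k ≤ R →
      min (k * t0 / 2) (Real.sqrt t0 / 4) ≤
        EI G lam ν (desc G x w (bl G c0 R)) (fun r => MW G lam (desc G x w (bl G c0 R)) w r ^ 2) := by
  intro k
  induction k with
  | zero =>
    intro x w _ _ _
    refine le_trans (min_le_left _ _) ?_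
    simp only [Nat.cast_zero, zero_mul, zero_div]
    exact v2_nonneg h hν _ _
  | succ k ih =>
    intro x w hx hw hR
    set B := bl G c0 R with hB
    have hBsub : IsSub G B := isSub_bl h.tree c0 R
    set W := desc G x w B with hW
    have hWsub : IsSub G W := desc_isSub h.tree (hBsub.parClosed hx) hw
    have hwW : w ∈ W := self_mem_desc hw
    have hchl : chl G w w W = ch G x w := by
      rw [hW, chl_desc h.tree (self_mem_desc hw), hB, chl_bl h.tree (by omega)]
    have hchl' : chl G x w B = ch G x w := by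
      rw [hB, chl_bl h.tree (by omega)]
    obtain ⟨C, hC, hCcard⟩ := Finset.exists_subset_card_eq (card_ch_ge h x w)
    set L := min (k * t0 / 2) (Real.sqrt t0 / 4) with hL
    have hs0 : 0 ≤ Real.sqrt t0 := Real.sqrt_nonneg _
    have hss : Real.sqrt t0 * Real.sqrt t0 = t0 := Real.mul_self_sqrt ht0
    have hs1 : Real.sqrt t0 ≤ 1 / 10 := by
      rw [show (1:ℝ) / 10 = Real.sqrt (1 / 100) by
        rw [show (1:ℝ) / 100 = (1 / 10) ^ 2 by norm_num, Real.sqrt_sq (by norm_num)]]
      exact Real.sqrt_le_sqrt ht0'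
    have hL0 : 0 ≤ L := le_min (by positivity) (by positivity)
    have hL1 : L ≤ Real.sqrt t0 / 4 := min_le_right _ _
    have hstar := star_lower h hν (t0 := t0) (L := L) (by linarith) hvar
      (z := w) (chl G w w W).card W hWsub hwW rfl C (by rw [hchl]; exact hC) (by
        intro y hy
        have hy1 : y ∈ ch G x w := hC hy
        have hy2 : y ∈ chl G x w B := by rw [hchl']; exact hy1
        have hyB : y ∈ B := (mem_chl.1 hy2).1
        have hyW : y ∈ desc G x w B := chl_subset_desc h.tree hy2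
        have e1 : desc G w y W = desc G x y B := desc_desc h.tree hyW
        rw [e1]
        have hd : G.dist c0 y ≤ G.dist c0 w + 1 := by
          have h1 := dist_le_dist_par h.tree c0 x y
          rw [(mem_chl.1 hy2).2.2] at h1
          exact h1
        exact ih x y hx hyB (by omega))
    refine le_trans ?_ hstar
    rw [hCcard]
    have hx1 : 2 * (lam ^ 2 * L) ≤ 1 := by
      have := h.lam_sq_le
      nlinarith
    have hx0 : 0 ≤ 2 * (lam ^ 2 * L) := by positivity
    have hpow := one_sub_pow_le hx0 hx1 b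
    have e2 : (b:ℝ) * (2 * (lam ^ 2 * L)) = 2 * L := by
      calc (b:ℝ) * (2 * (lam ^ 2 * L)) = 2 * ((b:ℝ) * lam ^ 2) * L := by ring
        _ = 2 * L := by rw [hcrit]; ring
    rw [e2] at hpow
    have h1 : L + t0 / 2 ≤ 1 / 2 - (1 / 2 - t0) * (1 - 2 * (lam ^ 2 * L)) ^ b := by
      have h2 : (1 / 2 - t0) * (1 - 2 * (lam ^ 2 * L)) ^ b ≤
          (1 / 2 - t0) * (1 - 2 * L + (2 * L) ^ 2 / 2) :=
        mul_le_mul_of_nonneg_left hpow (by linarith)
      have h3 : L ^ 2 ≤ t0 / 16 := by nlinarith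
      have h4 : t0 * L ≤ t0 / 40 := by nlinarith
      nlinarith
    refine le_trans ?_ h1
    rw [hL]
    push_cast
    rcases le_total (k * t0 / 2) (Real.sqrt t0 / 4) with h5 | h5
    · rw [min_eq_left h5]
      refine le_trans (min_le_left _ _) ?_
      linarith
    · rw [min_eq_right h5]
      refine le_trans (min_le_right _ _) ?_
      linarith

/-! ### one damping step -/

theorem gam_neg (lam t : ℝ) : gam lam (-t) = gam lam t := by
  unfold gam
  rw [neg_sq]

omit [G.LocallyFinite] in
theorem gam_anti (h : Tr G lam b) {s t : ℝ} (hst : |s| ≤ |t|) (ht : |t| < 1) :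
    gam lam t ≤ gam lam s := by
  have hs2 : s ^ 2 ≤ t ^ 2 := sq_le_sq.mpr hst
  have ht2 : t ^ 2 ≤ 1 := sq_le_one_of_abs_lt ht
  have hl := h.lam_sq_le
  have hl0 : 0 ≤ lam ^ 2 := sq_nonneg _
  have hs0 : 0 ≤ s ^ 2 := sq_nonneg _
  have d1 : 0 < 1 - lam ^ 2 * t ^ 2 := by nlinarith
  have d2 : 0 < 1 - lam ^ 2 * s ^ 2 := by nlinarith
  unfold gam
  rw [div_le_div_iff₀ d1 d2]
  nlinarith

omit [G.LocallyFinite] in
theorem gpow_nonneg (h : Tr G lam b) (p : ℕ) {t : ℝ} (ht : |t| < 1) : 0 ≤ gam lam t ^ p :=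
  pow_nonneg (gam_nonneg h.nonneg h.lam_lt ht.le) p

omit [G.LocallyFinite] in
theorem gpow_le_one (h : Tr G lam b) (p : ℕ) {t : ℝ} (ht : |t| < 1) : gam lam t ^ p ≤ 1 :=
  pow_le_one₀ (gam_nonneg h.nonneg h.lam_lt ht.le) (gam_le_one h.nonneg h.lam_lt ht.le)

theorem measurable_gam (lam : ℝ) : Measurable (gam lam) := by
  unfold gam
  fun_prop

omit [G.LocallyFinite] in
/-- averaged damping factor of a field with second moment `≥ cv s` and fourth moment `≤ C4 s²` -/
theorem gam_factor [Countable V] (h : Tr G lam b) (hν : Null ν ρ) {W : Finset V} (hW : IsSub G W)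
    {w : V} (hw : w ∈ W) {cv C4 s : ℝ} (hcv : 0 < cv) (hC4 : 0 < C4) (hs : 0 < s)
    (hv : cv * s ≤ EI G lam ν W (fun r => MW G lam W w r ^ 2))
    (hM4 : EI G lam ν W (fun r => MW G lam W w r ^ 4) ≤ C4 * s ^ 2) (p : ℕ) :
    EI G lam ν W (fun r => (1 + gam lam (MW G lam W w r) ^ p) / 2) ≤
      1 - cv / 8 * min (1 / 2) (2 * cv / C4) * min 1 (p * s) := by
  have hl := h.lam_sq_le
  have hl0 : 0 ≤ lam ^ 2 := sq_nonneg _
  set κ : ℝ := 1 - lam ^ 2 with hκ
  have hκ1 : 1 / 2 ≤ κ := by linarith
  have hκ2 : κ ≤ 1 := by linarith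
  set α : ℝ := min (p * κ) (2 * cv / (C4 * s)) with hα
  have hα0 : 0 ≤ α := le_min (by positivity) (by positivity)
  have hα1 : α ≤ p * κ := min_le_left _ _
  have hα2 : α * (C4 * s) ≤ 2 * cv := by
    have := min_le_right (p * κ) (2 * cv / (C4 * s))
    rw [← hα] at this
    rwa [le_div_iff₀ (by positivity)] at this
  have t1 := tst_const (V := V) W 1
  have t2 := tst_sq h hw
  have t4 : Tst W (fun r => MW G lam W w r ^ 4) := by
    apply tst_comp h hw (φ := fun t => t ^ 4) (by fun_prop) (C := 1)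
    intro t ht
    have h1 := sq_le_one_of_abs_lt ht
    have h2 : 0 ≤ t ^ 2 := sq_nonneg t
    rw [abs_of_nonneg (by positivity)]
    nlinarith
  have hlin := EI_lin h hν t1 t2 t4 (-(α / 4)) (α ^ 2 / 16)
  rw [EI_one h hν hW ⟨w, hw⟩] at hlin
  have hle : EI G lam ν W (fun r => (1 + gam lam (MW G lam W w r) ^ p) / 2) ≤
      EI G lam ν W (fun r => 1 + -(α / 4) * MW G lam W w r ^ 2 +
        α ^ 2 / 16 * MW G lam W w r ^ 4) := by
    apply EI_mono h hν
    · apply tst_comp h hw (φ := fun t => (1 + gam lam t ^ p) / 2) (C := 1)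
      · have := measurable_gam lam
        fun_prop
      · intro t ht
        have h1 := gpow_nonneg h p ht
        have h2 := gpow_le_one h p ht
        rw [abs_le]
        constructor <;> linarith
    · apply tst_comp h hw (φ := fun t => 1 + -(α / 4) * t ^ 2 + α ^ 2 / 16 * t ^ 4)
        (C := 1 + α / 4 + α ^ 2 / 16) (by fun_prop)
      intro t ht
      have h1 := sq_le_one_of_abs_lt ht
      have h2 : 0 ≤ t ^ 2 := sq_nonneg t
      have h3 : t ^ 4 ≤ 1 := by nlinarith
      have h4 : 0 ≤ t ^ 4 := by positivity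
      rw [abs_le]
      constructor <;> nlinarith [mul_nonneg hα0 h2, mul_nonneg (sq_nonneg α) h4, sq_nonneg α,
        mul_nonneg hα0 (sub_nonneg.mpr h1), mul_nonneg (sq_nonneg α) (sub_nonneg.mpr h3)]
    · intro r hr
      have hX := MW_abs_lt h hw hr
      set X := MW G lam W w r
      have h1 := le_one_sub_gam h.nonneg h.lam_lt hX.le
      rw [← hκ] at h1
      have h2 := gam_nonneg h.nonneg h.lam_lt hX.le
      have h3 : gam lam X ^ p ≤ (1 - κ * X ^ 2) ^ p :=
        pow_le_pow_left₀ h2 (by linarith) p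
      have hX2 := sq_le_one_of_abs_lt hX
      have hX0 : 0 ≤ X ^ 2 := sq_nonneg X
      have hz0 : 0 ≤ κ * X ^ 2 := by positivity
      have hz1 : κ * X ^ 2 ≤ 1 := by nlinarith
      have h4 := pow_le_min hz0 hz1 p
      have h5 : min 1 (α * X ^ 2) ≤ min 1 (p * (κ * X ^ 2)) := by
        apply min_le_min le_rfl
        calc α * X ^ 2 ≤ p * κ * X ^ 2 := mul_le_mul_of_nonneg_right hα1 hX0
          _ = p * (κ * X ^ 2) := by ring
      have h6 := min_ge (α * X ^ 2)
      nlinarith
  refine hle.trans ?_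
  rw [hlin]
  set v := EI G lam ν W (fun r => MW G lam W w r ^ 2)
  set M4 := EI G lam ν W (fun r => MW G lam W w r ^ 4)
  have h1 : α / 4 * (cv * s) ≤ α / 4 * v := mul_le_mul_of_nonneg_left hv (by positivity)
  have h2 : α ^ 2 / 16 * M4 ≤ α ^ 2 / 16 * (C4 * s ^ 2) :=
    mul_le_mul_of_nonneg_left hM4 (by positivity)
  have h3 : α ^ 2 / 16 * (C4 * s ^ 2) ≤ α * s / 16 * (2 * cv) := by
    have : α ^ 2 / 16 * (C4 * s ^ 2) = α * s / 16 * (α * (C4 * s)) := by ring
    rw [this]
    exact mul_le_mul_of_nonneg_left hα2 (by positivity)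
  have h4 : min (1 / 2) (2 * cv / C4) * min 1 (p * s) ≤ α * s := by
    rw [hα, min_mul_of_nonneg _ _ hs.le]
    have hm0 : (0:ℝ) ≤ min (1 / 2) (2 * cv / C4) := le_min (by norm_num) (by positivity)
    have hm1 : (0:ℝ) ≤ min 1 (p * s) := le_min (by norm_num) (by positivity)
    apply le_min
    · calc min (1 / 2) (2 * cv / C4) * min 1 (p * s) ≤ 1 / 2 * (p * s) :=
            mul_le_mul (min_le_left _ _) (min_le_right _ _) hm1 (by norm_num)
        _ ≤ p * κ * s := by
            have : 0 ≤ (p:ℝ) * s := by positivity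
            nlinarith
    · have e : 2 * cv / (C4 * s) * s = 2 * cv / C4 := by field_simp
      rw [e]
      calc min (1 / 2) (2 * cv / C4) * min 1 (p * s) ≤ 2 * cv / C4 * 1 :=
            mul_le_mul (min_le_right _ _) (min_le_left _ _) hm1 (by positivity)
        _ = 2 * cv / C4 := mul_one _
  have h5 : cv / 8 * (min (1 / 2) (2 * cv / C4) * min 1 (p * s)) ≤ cv / 8 * (α * s) :=
    mul_le_mul_of_nonneg_left h4 (by positivity)
  nlinarith

omit [G.LocallyFinite] in
theorem tau_flip (h : Tr G lam b) {B : Finset V} {x z : V} (hz : z ∈ B) {D : Finset V}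
    (hD : desc G x z B ⊆ D) (r : V → ℝ) : tau G lam B x z (flip D r) = -tau G lam B x z r := by
  unfold tau
  rw [← MW_flip h (self_mem_desc hz) r]
  apply dep_MW
  intro v hv
  have hv' : v ∈ desc G x z B := hv
  unfold flip
  rw [if_pos (hD hv'), if_pos hv']

omit [G.LocallyFinite] in
theorem tst_tau (h : Tr G lam b) {B : Finset V} {x z : V} (hz : z ∈ B) {D : Finset V}
    (hD : desc G x z B ⊆ D) (p : ℕ) : Tst D (fun r => gam lam (tau G lam B x z r) ^ p) := by
  apply Tst.mono hD
  exact tst_comp h (self_mem_desc hz) (φ := fun t => gam lam t ^ p)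
    (by have := measurable_gam lam; fun_prop) (C := 1)
    (fun t ht => by
      rw [abs_of_nonneg (gpow_nonneg h p ht)]
      exact gpow_le_one h p ht)

omit [G.LocallyFinite] in
/-- test function and evenness of path products -/
theorem tst_PP (h : Tr G lam b) {B : Finset V} {x w y : V} {D : Finset V}
    (hD : ∀ z ∈ pth G x w y B, desc G x z B ⊆ D) (p : ℕ) :
    Tst D (fun r => PP G lam B x w y r ^ p) ∧ EvenOn D (fun r => PP G lam B x w y r ^ p) := by
  have key : ∀ P : Finset V, P ⊆ pth G x w y B →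
      Tst D (fun r => (∏ z ∈ P, gam lam (tau G lam B x z r)) ^ p) ∧
      EvenOn D (fun r => (∏ z ∈ P, gam lam (tau G lam B x z r)) ^ p) := by
    intro P
    induction P using Finset.induction_on with
    | empty =>
      intro _
      refine ⟨?_, fun r => by simp⟩
      simpa using tst_const D 1
    | insert z P hz ih =>
      intro hP
      obtain ⟨h1, h2⟩ := ih (fun i hi => hP (Finset.mem_insert_of_mem hi))
      have hzp := hP (Finset.mem_insert_self z P)
      have hzB : z ∈ B := (mem_pth.1 hzp).1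
      have e : ∀ r, (∏ z' ∈ insert z P, gam lam (tau G lam B x z' r)) ^ p =
          gam lam (tau G lam B x z r) ^ p * (∏ z' ∈ P, gam lam (tau G lam B x z' r)) ^ p := by
        intro r
        rw [Finset.prod_insert hz, mul_pow]
      simp_rw [e]
      refine ⟨Tst.mul (tst_tau h hzB (hD z hzp) p) h1, fun r => ?_⟩
      have h3 := h2 r
      simp only at h3 ⊢
      rw [h3, tau_flip h hzB (hD z hzp), gam_neg]
  exact key _ (Finset.Subset.refl _)

omit [G.LocallyFinite] in
theorem PP_nonneg (h : Tr G lam b) {B : Finset V} {x w y : V} {r : V → ℝ} (hr : Adm B r) :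
    0 ≤ PP G lam B x w y r :=
  Finset.prod_nonneg fun _ hz =>
    gam_nonneg h.nonneg h.lam_lt (tau_abs_lt h (mem_pth.1 hz).1 hr).le

omit [G.LocallyFinite] in
theorem PP_le_one (h : Tr G lam b) {B : Finset V} {x w y : V} {r : V → ℝ} (hr : Adm B r) :
    PP G lam B x w y r ≤ 1 :=
  Finset.prod_le_one (fun _ hz =>
    gam_nonneg h.nonneg h.lam_lt (tau_abs_lt h (mem_pth.1 hz).1 hr).le) (fun _ hz =>
    gam_le_one h.nonneg h.lam_lt (tau_abs_lt h (mem_pth.1 hz).1 hr).le)

/-- lower bound for the side field at a vertex `w` whose next vertex is `y1` -/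
theorem side_lower [Countable V] (h : Tr G lam b) (hcrit : (b:ℝ) * lam ^ 2 = 1) (hν : Null ν ρ)
    {t0 : ℝ} (ht0 : 0 ≤ t0) (ht0' : t0 ≤ 1 / 100) (hvar : t0 ≤ ∫ x, x ^ 2 ∂ν) (c0 : V) (R k : ℕ)
    (hk : Real.sqrt t0 / 4 ≤ k * t0 / 2) {x w y1 : V} (hx : x ∈ bl G c0 R) (hw : w ∈ bl G c0 R)
    (hR : G.dist c0 w + 1 + k ≤ R) (hy1 : y1 ∈ chl G x w (bl G c0 R)) :
    lam ^ 2 * Real.sqrt t0 / 8 ≤
      EI G lam ν (desc G x w (bl G c0 R) \ desc G w y1 (desc G x w (bl G c0 R)))
        (fun r => MW G lam (desc G x w (bl G c0 R) \ desc G w y1 (desc G x w (bl G c0 R))) w r ^ 2)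
        := by
  set B := bl G c0 R with hB
  have hBsub : IsSub G B := isSub_bl h.tree c0 R
  set W := desc G x w B with hW
  have hWsub : IsSub G W := desc_isSub h.tree (hBsub.parClosed hx) hw
  have hwW : w ∈ W := self_mem_desc hw
  have hchl : chl G w w W = chl G x w B := chl_desc h.tree (self_mem_desc hw)
  have hchl' : chl G x w B = ch G x w := by rw [hB, chl_bl h.tree (by omega)]
  have hy1' : y1 ∈ chl G w w W := by rw [hchl]; exact hy1
  have hy1W : y1 ∈ W := (mem_chl.1 hy1').1
  have hy1w : y1 ≠ w := (mem_chl.1 hy1').2.1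
  have hpar : par G w y1 = w := (mem_chl.1 hy1').2.2
  set D := desc G w y1 W with hD
  -- a second child
  have hcard : 1 < (ch G x w).card := lt_of_lt_of_le (by have := h.two; omega) (card_ch_ge h x w)
  obtain ⟨y2, hy2, hne⟩ : ∃ y2 ∈ ch G x w, y2 ≠ y1 := by
    by_contra hcon
    push Not at hcon
    have : (ch G x w).card ≤ 1 := Finset.card_le_one.mpr
      (fun a ha c hc => (hcon a ha).trans (hcon c hc).symm)
    omega
  have hy2B : y2 ∈ chl G x w B := by rw [hchl']; exact hy2
  have hy2W : y2 ∈ chl G w w W := by rw [hchl]; exact hy2B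
  have hsub1 : IsSub G (W \ D) := isSub_sdiff h hWsub hwW hy1W hy1w
  have hwD : w ∈ W \ D := by
    have := par_mem_sdiff h hWsub hwW hy1W hy1w
    rwa [hpar] at this
  have hs0 : 0 ≤ Real.sqrt t0 := Real.sqrt_nonneg _
  have hstar := star_lower h hν (t0 := t0) (L := Real.sqrt t0 / 4) (by linarith) hvar
    (z := w) (chl G w w (W \ D)).card (W \ D) hsub1 hwD rfl {y2} (by
      rw [chl_sdiff h.tree hy1', Finset.singleton_subset_iff, Finset.mem_erase]
      exact ⟨hne, hy2W⟩) (by
      intro y hy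
      rw [Finset.mem_singleton] at hy
      subst hy
      rw [desc_sdiff_child h.tree hy1' hy2W hne]
      have e1 : desc G w y W = desc G x y B := desc_desc h.tree (chl_subset_desc h.tree hy2B)
      rw [e1]
      have hd : G.dist c0 y ≤ G.dist c0 w + 1 := by
        have h1 := dist_le_dist_par h.tree c0 x y
        rw [(mem_chl.1 hy2B).2.2] at h1
        exact h1
      have h2 := depth_lower h hcrit hν ht0 ht0' hvar c0 R k x y hx (mem_chl.1 hy2B).1 (by omega)
      rw [min_eq_right hk] at h2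
      exact h2)
  refine le_trans ?_ hstar
  rw [Finset.card_singleton, pow_one]
  have hl := sq_nonneg lam
  have : 0 ≤ lam ^ 2 * Real.sqrt t0 := mul_nonneg hl hs0
  nlinarith

/-- damping along a path, given the damping of single good vertices -/
theorem path_damp [Countable V] (h : Tr G lam b) (hν : Null ν ρ) {θ : ℝ} (hθ0 : 0 ≤ θ)
    (k0 : ℕ) (c0 : V) (R : ℕ) (p : ℕ)
    (hstep : ∀ x w y1 : V, x ∈ bl G c0 R → w ∈ bl G c0 R → y1 ∈ chl G x w (bl G c0 R) →
      G.dist c0 w + 1 + k0 ≤ R →
      EI G lam ν (desc G x w (bl G c0 R) \ desc G w y1 (desc G x w (bl G c0 R)))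
        (fun r => (1 + gam lam (MW G lam
          (desc G x w (bl G c0 R) \ desc G w y1 (desc G x w (bl G c0 R))) w r) ^ p) / 2) ≤ θ) :
    ∀ (n : ℕ) (x u y : V), x ∈ bl G c0 R → u ∈ bl G c0 R → y ∈ desc G x u (bl G c0 R) →
      G.dist u y = n → ∀ F : (V → ℝ) → ℝ, Tst (desc G x y (bl G c0 R)) F →
      EvenOn (desc G x y (bl G c0 R)) F → (∀ r, 0 ≤ F r) →
      EI G lam ν (bl G c0 R) (fun r => PP G lam (bl G c0 R) x u y r ^ p * F r) ≤
      (∏ z ∈ (pth G x u y (bl G c0 R)).erase y, if G.dist c0 z + 1 + k0 ≤ R then θ else 1) *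
        EI G lam ν (desc G x y (bl G c0 R)) F := by
  set B := bl G c0 R with hB
  have hBsub : IsSub G B := isSub_bl h.tree c0 R
  intro n
  induction n with
  | zero =>
    intro x u y hx hu hy hn F hF hFe hF0
    have huy : u = y := (h.tree.connected.dist_eq_zero_iff).1 hn
    subst huy
    have e1 : (fun r => PP G lam B x u u r ^ p * F r) = F := by
      funext r
      rw [PP_root h, one_pow, one_mul]
    rw [e1, pth_self h.tree]
    simp only [Finset.erase_empty, Finset.prod_empty, one_mul]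
    exact (EI_marg h hν (desc_isSub h.tree (hBsub.parClosed hx) hu) ⟨u, self_mem_desc hu⟩
      hBsub (desc_subset x u B) hF).le
  | succ n ih =>
    intro x u y hx hu hy hn F hF hFe hF0
    have hyu : y ≠ u := by
      rintro rfl
      simp at hn
    have hyB : y ∈ B := (mem_desc.1 hy).1
    obtain ⟨w, hw, hyw⟩ := exists_child h.tree (hBsub.parClosed hx) hy hyu
    have hwB : w ∈ B := (mem_chl.1 hw).1
    have hFB : Tst B F := Tst.mono (desc_subset x y B) hF
    by_cases hwy : w = y
    · -- the last vertex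
      subst hwy
      have e1 : (pth G x u w B).erase w = ∅ := by
        rw [pth_insert_top h.tree hw hyw, pth_self h.tree]
        simp
      rw [e1, Finset.prod_empty, one_mul]
      have h1 := EI_marg h hν (desc_isSub h.tree (hBsub.parClosed hx) hwB)
        ⟨w, self_mem_desc hwB⟩ hBsub (desc_subset x w B) hF
      rw [← h1]
      apply EI_mono h hν _ hFB
      · intro r hr
        have h2 := PP_le_one h (x := x) (w := u) (y := w) hr
        have h3 := PP_nonneg h (x := x) (w := u) (y := w) hr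
        have h4 := pow_le_one₀ h3 h2 (n := p)
        have h5 := hF0 r
        nlinarith
      · exact Tst.mul (tst_PP h (fun z _ => desc_subset x z B) p).1 hFB
    · have hyw' : y ≠ w := fun hc => hwy hc.symm
      obtain ⟨y1, hy1, hyy1⟩ := exists_child h.tree (hBsub.parClosed hx) hyw hyw'
      have hy1B : y1 ∈ B := (mem_chl.1 hy1).1
      set W := desc G x w B with hW
      have hWsub : IsSub G W := desc_isSub h.tree (hBsub.parClosed hx) hwB
      have hwW : w ∈ W := self_mem_desc hwB
      have hchl : chl G w w W = chl G x w B := chl_desc h.tree (self_mem_desc hwB)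
      have hy1' : y1 ∈ chl G w w W := by rw [hchl]; exact hy1
      have hy1W : y1 ∈ W := (mem_chl.1 hy1').1
      have hy1w : y1 ≠ w := (mem_chl.1 hy1').2.1
      have hpar : par G w y1 = w := (mem_chl.1 hy1').2.2
      have hDD : desc G w y1 W = desc G x y1 B := desc_desc h.tree hy1W
      -- the observable below `y1`
      set H : (V → ℝ) → ℝ := fun r => PP G lam B x w y r ^ p * F r with hH
      have hpthD : ∀ z ∈ pth G x w y B, desc G x z B ⊆ desc G w y1 W := by
        intro z hz
        rw [hDD]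
        rw [pth_insert_top h.tree hy1 hyy1, Finset.mem_insert] at hz
        rcases hz with rfl | hz
        · exact Finset.Subset.refl _
        · exact desc_subset_desc h.tree (mem_pth.1 hz).2.2.1
      obtain ⟨hPt, hPe⟩ := tst_PP h (lam := lam) hpthD p
      have hyD : desc G x y B ⊆ desc G w y1 W := by
        rw [hDD]
        exact desc_subset_desc h.tree hyy1
      have hFD : Tst (desc G w y1 W) F := Tst.mono hyD hF
      have hFDe : EvenOn (desc G w y1 W) F := by
        intro r
        rw [← hFe r]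
        apply hF.dep
        intro v hv
        have hv' : v ∈ desc G x y B := hv
        unfold flip
        rw [if_pos (hyD hv'), if_pos hv']
      have hHt : Tst (desc G w y1 W) H := Tst.mul hPt hFD
      have hHe : EvenOn (desc G w y1 W) H := by
        intro r
        have h1 := hPe r
        have h2 := hFDe r
        simp only at h1
        simp only [hH]
        rw [h1, h2]
      -- nonnegativity everywhere is only available for admissible fields
      set H' : (V → ℝ) → ℝ := fun r => |PP G lam B x w y r| ^ p * F r with hH'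
      have hPt' : Tst (desc G w y1 W) (fun r => |PP G lam B x w y r| ^ p) := by
        refine ⟨?_, ?_, 1, ?_⟩
        · have h1 := (tst_PP h (lam := lam) hpthD 1).1.meas
          simp only [pow_one] at h1
          exact (measurable_norm.comp h1).pow_const p
        · intro r r' hr
          have h1 := (tst_PP h (lam := lam) hpthD 1).1.dep hr
          simp only [pow_one] at h1
          simp only
          rw [h1]
        · intro r hr
          have hb : |PP G lam B x w y r| ≤ 1 := by
            unfold PP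
            rw [Finset.abs_prod]
            apply Finset.prod_le_one (fun _ _ => abs_nonneg _)
            intro z hz
            have hzB : z ∈ B := (mem_pth.1 hz).1
            have ht : |tau G lam B x z r| < 1 :=
              MW_abs_lt h (self_mem_desc hzB) (adm_mono (hpthD z hz) hr)
            rw [abs_of_nonneg (gam_nonneg h.nonneg h.lam_lt ht.le)]
            exact gam_le_one h.nonneg h.lam_lt ht.le
          rw [abs_of_nonneg (pow_nonneg (abs_nonneg _) _)]
          exact pow_le_one₀ (abs_nonneg _) hb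
      have hHt' : Tst (desc G w y1 W) H' := Tst.mul hPt' hFD
      have hHe' : EvenOn (desc G w y1 W) H' := by
        intro r
        have h1 := (tst_PP h (lam := lam) hpthD 1).2 r
        simp only [pow_one] at h1
        have h2 := hFDe r
        simp only [hH']
        rw [h1, h2]
      have hH'0 : ∀ r, 0 ≤ H' r := fun r => mul_nonneg (pow_nonneg (abs_nonneg _) _) (hF0 r)
      have hHH' : ∀ r, Adm (desc G w y1 W) r → H' r = H r := by
        intro r hr
        simp only [hH', hH]
        congr 2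
        apply abs_of_nonneg
        apply Finset.prod_nonneg
        intro z hz
        have hzB : z ∈ B := (mem_pth.1 hz).1
        have ht : |tau G lam B x z r| < 1 :=
          MW_abs_lt h (self_mem_desc hzB) (adm_mono (hpthD z hz) hr)
        exact gam_nonneg h.nonneg h.lam_lt ht.le
      have hDW : desc G w y1 W ⊆ W := desc_subset _ _ _
      have hWB : W ⊆ B := desc_subset _ _ _
      have hEIcongr : ∀ (W' : Finset V) (f g : (V → ℝ) → ℝ), (∀ r, Adm W' r → f r = g r) →
          EI G lam ν W' f = EI G lam ν W' g := by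
        intro W' f g hfg
        unfold EI
        apply integral_congr_ae
        filter_upwards [ae_adm hν W'] with r hr
        rw [hfg r hr]
      -- step 1: restrict to `W`
      have hfull : Tst W (fun r => gam lam (tau G lam B x w r) ^ p * H' r) :=
        Tst.mul (tst_tau h hwB (Finset.Subset.refl _) p) (Tst.mono hDW hHt')
      have s1 : EI G lam ν B (fun r => PP G lam B x u y r ^ p * F r) =
          EI G lam ν B (fun r => gam lam (tau G lam B x w r) ^ p * H' r) := by
        apply hEIcongr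
        intro r hr
        rw [hHH' r (adm_mono (hDW.trans hWB) hr)]
        simp only [hH]
        rw [PP_top h hw hyw, mul_pow]
        ring
      have s2 := EI_marg h hν hWsub ⟨w, hwW⟩ hBsub hWB hfull
      -- step 2: damping
      have s3 := damp_avg h hν hWsub hwW hy1W hy1w hpar (φ := fun t => gam lam t ^ p)
        (by have := measurable_gam lam; fun_prop) (fun t ht => gpow_nonneg h p ht)
        (fun t ht => gpow_le_one h p ht) (fun t => by rw [gam_neg])
        (fun s t hst ht => by
          have hs : |s| < 1 := lt_of_le_of_lt hst ht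
          exact pow_le_pow_left₀ (gam_nonneg h.nonneg h.lam_lt ht.le) (gam_anti h hst ht) p)
        hHt' hHe' hH'0
      -- step 3: factor
      have s4 : EI G lam ν (W \ desc G w y1 W)
          (fun r => (1 + gam lam (MW G lam (W \ desc G w y1 W) w r) ^ p) / 2) ≤
          if G.dist c0 w + 1 + k0 ≤ R then θ else 1 := by
        split_ifs with hg
        · exact hstep x w y1 hx hwB hy1 hg
        · have hsub1 : IsSub G (W \ desc G w y1 W) := isSub_sdiff h hWsub hwW hy1W hy1w
          have hwD : w ∈ W \ desc G w y1 W := by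
            have := par_mem_sdiff h hWsub hwW hy1W hy1w
            rwa [hpar] at this
          have h1 : EI G lam ν (W \ desc G w y1 W)
              (fun r => (1 + gam lam (MW G lam (W \ desc G w y1 W) w r) ^ p) / 2) ≤
              EI G lam ν (W \ desc G w y1 W) (fun _ => 1) := by
            apply EI_mono h hν _ (tst_const _ 1)
            · intro r hr
              have := gpow_le_one h p (MW_abs_lt h hwD hr)
              linarith
            · apply tst_comp h hwD (φ := fun t => (1 + gam lam t ^ p) / 2) (C := 1)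
              · have := measurable_gam lam
                fun_prop
              · intro t ht
                have h1 := gpow_nonneg h p ht
                have h2 := gpow_le_one h p ht
                rw [abs_le]
                constructor <;> linarith
          rwa [EI_one h hν hsub1 ⟨w, hwD⟩] at h1
      -- step 4: induction hypothesis
      have hdist : G.dist w y = n := by
        have h1 := (chl_dist h.tree hw).1
        have h2 := (mem_desc.1 hyw).2
        have h3 := (mem_desc.1 hy).2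
        omega
      have s5 := ih x w y hx hwB hyw hdist F hF hFe hF0
      have s6 : EI G lam ν (desc G w y1 W) H' = EI G lam ν B (fun r => PP G lam B x w y r ^ p * F r)
          := by
        rw [hEIcongr _ _ _ hHH']
        have hsubD : IsSub G (desc G w y1 W) := desc_isSub h.tree (hWsub.parClosed hwW) hy1W
        exact (EI_marg h hν hsubD ⟨y1, self_mem_desc hy1W⟩ hBsub (hDW.trans hWB) hHt).symm
      have s7 : (∏ z ∈ (pth G x u y B).erase y, if G.dist c0 z + 1 + k0 ≤ R then θ else 1) =
          (if G.dist c0 w + 1 + k0 ≤ R then θ else 1) *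
          ∏ z ∈ (pth G x w y B).erase y, if G.dist c0 z + 1 + k0 ≤ R then θ else 1 := by
        rw [pth_insert_top h.tree hw hyw, Finset.erase_insert_of_ne hwy, Finset.prod_insert]
        intro hc
        exact notMem_pth_self x w y B (Finset.mem_of_mem_erase hc)
      rw [s7, s1, s2]
      have hθw : 0 ≤ (if G.dist c0 w + 1 + k0 ≤ R then θ else 1 : ℝ) := by
        split_ifs
        · exact hθ0
        · norm_num
      have hEH : 0 ≤ EI G lam ν (desc G w y1 W) H' := EI_nonneg h hν (fun r _ => hH'0 r)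
      calc EI G lam ν W (fun r => gam lam (tau G lam B x w r) ^ p * H' r)
          ≤ EI G lam ν (desc G w y1 W) H' * EI G lam ν (W \ desc G w y1 W)
            (fun r => (1 + gam lam (MW G lam (W \ desc G w y1 W) w r) ^ p) / 2) := s3
        _ ≤ EI G lam ν (desc G w y1 W) H' * (if G.dist c0 w + 1 + k0 ≤ R then θ else 1) :=
            mul_le_mul_of_nonneg_left s4 hEH
        _ ≤ ((∏ z ∈ (pth G x w y B).erase y, if G.dist c0 z + 1 + k0 ≤ R then θ else 1) *
            EI G lam ν (desc G x y B) F) * (if G.dist c0 w + 1 + k0 ≤ R then θ else 1) := by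
            apply mul_le_mul_of_nonneg_right _ hθw
            rw [s6]
            exact s5
        _ = _ := by ring

/-! ### counting the bad vertices of a path -/

omit [G.LocallyFinite] in
theorem anc_unique (hT : G.IsTree) {x z z' : V} : ∀ (k : ℕ) (y : V), G.dist z y = k →
    G.dist z' y = k → G.dist x y = G.dist x z + G.dist z y →
    G.dist x y = G.dist x z' + G.dist z' y → z = z' := by
  intro k
  induction k with
  | zero =>
    intro y h1 h2 _ _
    have e1 : z = y := (hT.connected.dist_eq_zero_iff).1 h1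
    have e2 : z' = y := (hT.connected.dist_eq_zero_iff).1 h2
    rw [e1, e2]
  | succ k ih =>
    intro y h1 h2 h3 h4
    have hyz : y ≠ z := by rintro rfl; simp at h1
    have hyz' : y ≠ z' := by rintro rfl; simp at h2
    obtain ⟨a1, a2, a3⟩ := par_of_dist hT h3 hyz
    obtain ⟨b1, b2, b3⟩ := par_of_dist hT h4 hyz'
    have c1 := dist_par hT hyz
    have c2 := dist_par hT hyz'
    refine ih (par G x y) ?_ ?_ a3 b3
    · rw [a2]; omega
    · rw [b2]; omega

theorem bad_dist (h : Tr G lam b) {c0 : V} {R k0 : ℕ} {x u y z : V}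
    (hu : u ∈ bl G c0 R) (hy : y ∈ desc G x u (bl G c0 R))
    (hz : z ∈ pth G x u y (bl G c0 R)) (hbad : ¬ G.dist c0 z + 1 + k0 ≤ R) :
    G.dist u z ≤ k0 ∨ G.dist z y ≤ k0 := by
  have hT := h.tree
  obtain ⟨hzB, hzu, hzd, hyz⟩ := mem_pth.1 hz
  have e1 := (mem_desc.1 hzd).2
  have e2 := (mem_desc.1 hyz).2
  have e3 := (mem_desc.1 hy).2
  obtain ⟨hzx, hpar, hpd⟩ := par_of_dist hT e1 hzu
  have hd := dist_par hT hzx
  have hadj := adj_par hT hzx
  have hdu := dist_par hT hzu
  rw [← hpar] at hdu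
  have huR : G.dist c0 u ≤ R := (mem_bl hT).1 hu
  have hyR : G.dist c0 y ≤ R := (mem_bl hT).1 (mem_desc.1 hy).1
  rcases hT.dist_eq_dist_add_one_of_adj c0 hadj with hc | hc
  · -- the step into `z` leads away from `c0`
    right
    by_cases hzy : z = y
    · subst hzy; simp
    · have t1 := hT.connected.dist_triangle (u := x) (v := par G x z) (w := y)
      have t2 := hT.connected.dist_triangle (u := par G x z) (v := z) (w := y)
      have t3 : G.dist (par G x z) z = 1 := SimpleGraph.dist_eq_one_iff_adj.2 hadj.symm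
      have f1 : G.dist y (par G x z) = G.dist y z + 1 := by
        rw [SimpleGraph.dist_comm (u := y) (v := par G x z), SimpleGraph.dist_comm (u := y) (v := z)]
        omega
      have f2 : par G y (par G x z) = z := par_eq_of hT hadj.symm f1
      have f3 : par G x z ≠ y := by
        intro hcon
        rw [hcon] at f1
        simp at f1
      have f4 := dist_eq_of_away hT (c := c0) (x := y) _ (v := par G x z) (u := z) rfl f3 f2 hc
      rw [SimpleGraph.dist_comm (u := y) (v := z)] at f4
      omega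
  · -- the step into `z` leads towards `c0`
    left
    have f4 := dist_eq_of_away hT (c := c0) (x := u) _ (v := z) (u := par G x z) rfl hzu hpar.symm hc
    omega

theorem card_bad (h : Tr G lam b) {c0 : V} {R k0 : ℕ} {x u y : V}
    (hu : u ∈ bl G c0 R) (hy : y ∈ desc G x u (bl G c0 R)) :
    ((pth G x u y (bl G c0 R)).filter (fun z => ¬ G.dist c0 z + 1 + k0 ≤ R)).card ≤ 2 * k0 + 1 := by
  have hT := h.tree
  set P := pth G x u y (bl G c0 R) with hP
  set n := G.dist u y with hn
  have h1 : (P.filter (fun z => ¬ G.dist c0 z + 1 + k0 ≤ R)).card ≤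
      (Finset.range (k0 + 1) ∪ Finset.Ico (n - k0) n).card := by
    apply Finset.card_le_card_of_injOn (fun z => G.dist z y)
    · intro z hz
      have hz' := Finset.mem_filter.mp (Finset.mem_coe.mp hz)
      have hzm := mem_pth.1 hz'.1
      have e1 := (mem_desc.1 hzm.2.2.1).2
      have e2 := (mem_desc.1 hzm.2.2.2).2
      have e3 := (mem_desc.1 hy).2
      have e4 := dist_between hT e1 e2
      have hpos := hT.connected.pos_dist_of_ne (Ne.symm hzm.2.1)
      simp only [Finset.coe_union, Set.mem_union, Finset.mem_coe, Finset.mem_range,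
        Finset.mem_Ico]
      rcases bad_dist h hu hy hz'.1 hz'.2 with hb | hb
      · right
        omega
      · left
        omega
    · intro z hz z' hz' heq
      have a := mem_pth.1 (Finset.mem_filter.mp (Finset.mem_coe.mp hz)).1
      have a' := mem_pth.1 (Finset.mem_filter.mp (Finset.mem_coe.mp hz')).1
      exact anc_unique hT _ y rfl heq.symm (mem_desc.1 a.2.2.2).2 (mem_desc.1 a'.2.2.2).2
  refine h1.trans ((Finset.card_union_le _ _).trans ?_)
  rw [Finset.card_range, Nat.card_Ico]
  omega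

theorem prod_le (h : Tr G lam b) {c0 : V} {R k0 : ℕ} {x u y : V} (hx : x ∈ bl G c0 R)
    (hu : u ∈ bl G c0 R) (hy : y ∈ desc G x u (bl G c0 R)) {θ : ℝ} (hθ0 : 0 ≤ θ) (hθ1 : θ ≤ 1)
    {K : ℕ} (hK : 2 * k0 + 2 ≤ K) :
    ∏ z ∈ (pth G x u y (bl G c0 R)).erase y, (if G.dist c0 z + 1 + k0 ≤ R then θ else 1) ≤
      θ ^ (G.dist u y - K) := by
  rw [Finset.prod_ite, Finset.prod_const, Finset.prod_const_one, mul_one]
  apply pow_le_pow_of_le_one hθ0 hθ1
  set P := pth G x u y (bl G c0 R) with hP
  have hB : IsSub G (bl G c0 R) := isSub_bl h.tree c0 R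
  have hcard : P.card = G.dist u y := card_pth h.tree (hB.parClosed hx) _ rfl hy
  have h1 : (P.erase y).card ≥ G.dist u y - 1 := by
    rw [← hcard]
    exact Finset.pred_card_le_card_erase
  have h2 := Finset.card_filter_add_card_filter_not (s := P.erase y)
    (fun z => G.dist c0 z + 1 + k0 ≤ R)
  have h3 : ((P.erase y).filter (fun z => ¬ G.dist c0 z + 1 + k0 ≤ R)).card ≤ 2 * k0 + 1 := by
    refine le_trans (Finset.card_le_card ?_) (card_bad h hu hy (k0 := k0))
    exact Finset.filter_subset_filter _ (Finset.erase_subset _ _)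
  omega

end Dmp

section P4

variable {V : Type*} {G : SimpleGraph V} [G.LocallyFinite] [Countable V] {lam : ℝ} {b : ℕ}

omit [G.LocallyFinite] in
theorem damp_trivial (h : Tr G lam b) {ν : Measure ℝ} {ρ : ℝ} (hν : Null ν ρ) {W : Finset V}
    (hW : IsSub G W) {x u y : V} (hx : x ∈ W) (_hu : u ∈ W) (hy : y ∈ desc G x u W) (p : ℕ)
    {F : (V → ℝ) → ℝ} (hF : Tst (desc G x y W) F) (hF0 : ∀ r, 0 ≤ F r) :
    EI G lam ν W (fun r => PP G lam W x u y r ^ p * F r) ≤ EI G lam ν (desc G x y W) F := by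
  have hyW : y ∈ W := (mem_desc.1 hy).1
  have hFB : Tst W F := Dmp.Tst.mono (desc_subset x y W) hF
  have h1 := EI_marg h hν (desc_isSub h.tree (hW.parClosed hx) hyW)
    ⟨y, self_mem_desc hyW⟩ hW (desc_subset x y W) hF
  rw [← h1]
  apply Dmp.EI_mono h hν _ hFB
  · intro r hr
    have h2 := Dmp.PP_le_one h (x := x) (w := u) (y := y) hr
    have h3 := Dmp.PP_nonneg h (x := x) (w := u) (y := y) hr
    have h4 := pow_le_one₀ h3 h2 (n := p)
    have h5 := hF0 r
    nlinarith
  · exact Dmp.Tst.mul (Dmp.tst_PP h (fun z _ => desc_subset x z W) p).1 hFB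

theorem damp_path (h : Tr G lam b) : ∃ c C : ℝ, 0 < c ∧ c < 1 ∧ 0 < C ∧
    ∀ (ν : Measure ℝ) (ρ s : ℝ), Null ν ρ → Mom ν s → ∀ (c0 : V) (R : ℕ) (x u y : V),
      x ∈ bl G c0 R → u ∈ bl G c0 R → y ∈ desc G x u (bl G c0 R) → ∀ p : ℕ, 1 ≤ p →
      ∀ F : (V → ℝ) → ℝ, Tst (desc G x y (bl G c0 R)) F → EvenOn (desc G x y (bl G c0 R)) F →
      (∀ r, 0 ≤ F r) →
      (b * lam ^ 2) ^ G.dist u y *
        EI G lam ν (bl G c0 R) (fun r => PP G lam (bl G c0 R) x u y r ^ p * F r) ≤
      (1 - c * min 1 (p * s)) ^ (G.dist u y - ⌈C / s⌉₊) *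
        EI G lam ν (desc G x y (bl G c0 R)) F := by
  have hb2 : (2:ℝ) ≤ b := by exact_mod_cast h.two
  have hblam : (b:ℝ) * lam ^ 2 ≤ 1 := by
    have := h.crit
    linarith
  have hblam0 : 0 ≤ (b:ℝ) * lam ^ 2 := by positivity
  by_cases hcrit : (b:ℝ) * lam ^ 2 = 1
  · -- critical case
    obtain ⟨C4, hC4, hmom⟩ := mom_MW h 2 (by norm_num)
    have hlam : 0 < lam ^ 2 := by
      by_contra hcon
      have h1 : lam ^ 2 = 0 := le_antisymm (not_lt.mp hcon) (sq_nonneg _)
      rw [h1] at hcrit
      norm_num at hcrit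
    set σ : ℝ := Real.sqrt c1 with hσ
    have hc1 : (0:ℝ) < c1 := by unfold c1; norm_num
    have hσ0 : 0 < σ := Real.sqrt_pos.mpr hc1
    have hσ1 : σ ≤ 1 := by
      rw [hσ, show (1:ℝ) = Real.sqrt 1 by simp]
      apply Real.sqrt_le_sqrt
      unfold c1
      norm_num
    set cv : ℝ := lam ^ 2 * σ / 8 with hcv
    have hcv0 : 0 < cv := by positivity
    set c : ℝ := cv / 8 * min (1 / 2) (2 * cv / C4) with hc
    have hmin0 : 0 < min (1 / 2) (2 * cv / C4) := lt_min (by norm_num) (by positivity)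
    have hc0 : 0 < c := by positivity
    have hcv1 : cv ≤ 1 := by
      have := h.lam_sq_le
      rw [hcv]
      nlinarith
    have hc1' : c < 1 := by
      have h1 : min (1 / 2) (2 * cv / C4) ≤ 1 / 2 := min_le_left _ _
      rw [hc]
      nlinarith
    refine ⟨c, 1 / σ + 4, hc0, hc1', by positivity, ?_⟩
    intro ν ρ s hν hs c0 R x u y hx hu hy p _ F hF hFe hF0
    rw [hcrit, one_pow, one_mul]
    set t0 : ℝ := c1 * s ^ 2 with ht0
    have hspos := hs.pos
    have hs1 := hs.le_one
    have ht0pos : 0 ≤ t0 := by positivity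
    have ht0' : t0 ≤ 1 / 100 := by
      rw [ht0]
      have : c1 = 1 / 192 := rfl
      rw [this]
      nlinarith
    have hsqrt : Real.sqrt t0 = σ * s := by
      rw [ht0, Real.sqrt_mul hc1.le, Real.sqrt_sq hspos.le]
    set k0 : ℕ := ⌈1 / (2 * (σ * s))⌉₊ with hk0
    have hk0' : 1 / (2 * (σ * s)) ≤ k0 := Nat.le_ceil _
    have hk0'' : (k0:ℝ) < 1 / (2 * (σ * s)) + 1 := Nat.ceil_lt_add_one (by positivity)
    have hk : Real.sqrt t0 / 4 ≤ k0 * t0 / 2 := by
      have h1 : t0 = (σ * s) * (σ * s) := by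
        rw [← hsqrt, Real.mul_self_sqrt ht0pos]
      have h2 : 1 ≤ k0 * (2 * (σ * s)) := by
        rwa [div_le_iff₀ (by positivity)] at hk0'
      rw [hsqrt, h1]
      have h3 : 0 < σ * s := by positivity
      nlinarith [mul_le_mul_of_nonneg_left h2 h3.le]
    set θ : ℝ := 1 - c * min 1 (p * s) with hθ
    have hm0 : (0:ℝ) ≤ min 1 (p * s) := le_min (by norm_num) (by positivity)
    have hm1 : min 1 ((p:ℝ) * s) ≤ 1 := min_le_left _ _
    have hθ0 : 0 ≤ θ := by
      rw [hθ]
      nlinarith
    have hθ1 : θ ≤ 1 := by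
      rw [hθ]
      have := mul_nonneg hc0.le hm0
      linarith
    have hB : IsSub G (bl G c0 R) := isSub_bl h.tree c0 R
    have hpd := Dmp.path_damp h hν hθ0 k0 c0 R p (by
      intro x w y1 hx hw hy1 hR
      have hside := Dmp.side_lower h hcrit hν ht0pos ht0' hs.lower c0 R k0 hk hx hw hR hy1
      have hWsub : IsSub G (desc G x w (bl G c0 R)) := desc_isSub h.tree (hB.parClosed hx) hw
      have hwW : w ∈ desc G x w (bl G c0 R) := self_mem_desc hw
      have hchl : chl G w w (desc G x w (bl G c0 R)) = chl G x w (bl G c0 R) :=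
        chl_desc h.tree (self_mem_desc hw)
      have hy1' : y1 ∈ chl G w w (desc G x w (bl G c0 R)) := by rw [hchl]; exact hy1
      have hy1W := (mem_chl.1 hy1').1
      have hy1w : y1 ≠ w := (mem_chl.1 hy1').2.1
      have hpar : par G w y1 = w := (mem_chl.1 hy1').2.2
      have hsub1 := isSub_sdiff h hWsub hwW hy1W hy1w
      have hwD := par_mem_sdiff h hWsub hwW hy1W hy1w
      rw [hpar] at hwD
      have hm4 := hmom ν ρ s hν hs _ hsub1 w hwD
      norm_num at hm4
      apply Dmp.gam_factor h hν hsub1 hwD hcv0 hC4 hspos _ hm4 p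
      rw [hsqrt] at hside
      refine le_trans (le_of_eq ?_) hside
      rw [hcv]
      ring) _ x u y hx hu hy rfl F hF hFe hF0
    refine hpd.trans ?_
    have hEF : 0 ≤ EI G lam ν (desc G x y (bl G c0 R)) F :=
      Dmp.EI_nonneg h hν (fun r _ => hF0 r)
    apply mul_le_mul_of_nonneg_right _ hEF
    apply Dmp.prod_le h hx hu hy hθ0 hθ1
    have hceil : (1 / σ + 4) / s ≤ (⌈(1 / σ + 4) / s⌉₊ : ℝ) := Nat.le_ceil _
    have h5 : ((2 * k0 + 2 : ℕ) : ℝ) ≤ (⌈(1 / σ + 4) / s⌉₊ : ℝ) := by
      refine le_trans ?_ hceil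
      push_cast
      have h6 : 2 * (1 / (2 * (σ * s))) = 1 / (σ * s) := by field_simp
      have h7 : (1 / σ + 4) / s = 1 / (σ * s) + 4 / s := by field_simp
      have h8 : 4 ≤ 4 / s := by
        rw [le_div_iff₀ hspos]
        linarith
      rw [h7]
      linarith
    exact_mod_cast h5
  · -- noncritical case
    have hlt : (b:ℝ) * lam ^ 2 < 1 := lt_of_le_of_ne hblam hcrit
    set c : ℝ := min (1 - (b:ℝ) * lam ^ 2) (1 / 2) with hc
    have hc0 : 0 < c := lt_min (by linarith) (by norm_num)
    have hc1 : c < 1 := lt_of_le_of_lt (min_le_right _ _) (by norm_num)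
    refine ⟨c, 1, hc0, hc1, one_pos, ?_⟩
    intro ν ρ s hν hs c0 R x u y hx hu hy p _ F hF hFe hF0
    have hB : IsSub G (bl G c0 R) := isSub_bl h.tree c0 R
    have ht := damp_trivial h hν hB hx hu hy p hF hF0
    have hEF : 0 ≤ EI G lam ν (desc G x y (bl G c0 R)) F :=
      Dmp.EI_nonneg h hν (fun r _ => hF0 r)
    have hspos := hs.pos
    have hm0 : (0:ℝ) ≤ min 1 (p * s) := le_min (by norm_num) (by positivity)
    have hm1 : min 1 ((p:ℝ) * s) ≤ 1 := min_le_left _ _
    have hθ : (b:ℝ) * lam ^ 2 ≤ 1 - c * min 1 (p * s) := by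
      have h1 : c ≤ 1 - (b:ℝ) * lam ^ 2 := min_le_left _ _
      nlinarith
    have hθ1 : 1 - c * min 1 (p * s) ≤ 1 := by
      have := mul_nonneg hc0.le hm0
      linarith
    calc ((b:ℝ) * lam ^ 2) ^ G.dist u y *
          EI G lam ν (bl G c0 R) (fun r => PP G lam (bl G c0 R) x u y r ^ p * F r)
        ≤ ((b:ℝ) * lam ^ 2) ^ G.dist u y * EI G lam ν (desc G x y (bl G c0 R)) F :=
          mul_le_mul_of_nonneg_left ht (pow_nonneg hblam0 _)
      _ ≤ (1 - c * min 1 (p * s)) ^ (G.dist u y - ⌈1 / s⌉₊) *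
          EI G lam ν (desc G x y (bl G c0 R)) F := by
          apply mul_le_mul_of_nonneg_right _ hEF
          calc ((b:ℝ) * lam ^ 2) ^ G.dist u y ≤ (1 - c * min 1 (p * s)) ^ G.dist u y :=
                pow_le_pow_left₀ hblam0 hθ _
            _ ≤ (1 - c * min 1 (p * s)) ^ (G.dist u y - ⌈1 / s⌉₊) :=
                pow_le_pow_of_le_one (hblam0.trans hθ) hθ1 (Nat.sub_le _ _)

end P4

end Crest.Agent.H14
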