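import Mathlib
import Crest.Agent.H14.BP
import Crest.Agent.H14.Static

/-!
# Row 160: the static measure, test functions (tools for P6, P7)
-/

set_option autoImplicit false

open MeasureTheory Filter Topology

namespace Crest.Agent.H14.P6

open Crest.Agent.H14

open scoped Classical

section Tst

variable {V : Type*} {W W' : Finset V} {F F' : (V → ℝ) → ℝ}

theorem adm_mono {r : V → ℝ} (hs : W ⊆ W') (hr : Adm W' r) : Adm W r := fun v hv => hr v (hs hv)

theorem tst_mono (hF : Tst W F) (hs : W ⊆ W') : Tst W' F := by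
  obtain ⟨C, hC⟩ := hF.bdd
  refine ⟨hF.meas, ?_, C, fun r hr => hC r (adm_mono hs hr)⟩
  intro r r' hrr
  apply hF.dep
  intro v hv
  exact hrr v (hs hv)

theorem tst_const (c : ℝ) : Tst W (fun _ : V → ℝ => c) :=
  ⟨measurable_const, fun _ _ _ => rfl, |c|, fun _ _ => le_rfl⟩

theorem tst_add (hF : Tst W F) (hF' : Tst W F') : Tst W (fun r => F r + F' r) := by
  obtain ⟨C, hC⟩ := hF.bdd
  obtain ⟨C', hC'⟩ := hF'.bdd
  refine ⟨hF.meas.add hF'.meas, ?_, C + C', fun r hr =>
    (abs_add_le _ _).trans (add_le_add (hC r hr) (hC' r hr))⟩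
  intro r r' hrr
  simp only
  rw [hF.dep hrr, hF'.dep hrr]

theorem tst_neg (hF : Tst W F) : Tst W (fun r => - F r) := by
  obtain ⟨C, hC⟩ := hF.bdd
  refine ⟨hF.meas.neg, ?_, C, fun r hr => by rw [abs_neg]; exact hC r hr⟩
  intro r r' hrr
  simp only
  rw [hF.dep hrr]

theorem tst_sub (hF : Tst W F) (hF' : Tst W F') : Tst W (fun r => F r - F' r) := by
  have := tst_add hF (tst_neg hF')
  simpa [sub_eq_add_neg] using this

theorem tst_mul (hF : Tst W F) (hF' : Tst W F') : Tst W (fun r => F r * F' r) := by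
  obtain ⟨C, hC⟩ := hF.bdd
  obtain ⟨C', hC'⟩ := hF'.bdd
  refine ⟨hF.meas.mul hF'.meas, ?_, C * C', fun r hr => ?_⟩
  · intro r r' hrr
    simp only
    rw [hF.dep hrr, hF'.dep hrr]
  · rw [abs_mul]
    exact mul_le_mul (hC r hr) (hC' r hr) (abs_nonneg _) ((abs_nonneg _).trans (hC r hr))

theorem tst_pow (hF : Tst W F) (n : ℕ) : Tst W (fun r => F r ^ n) := by
  induction n with
  | zero => simpa using tst_const (W := W) 1
  | succ n ih =>
    have := tst_mul ih hF
    simpa [pow_succ] using this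

theorem tst_sum {ι : Type*} (s : Finset ι) {F : ι → (V → ℝ) → ℝ} (hF : ∀ i ∈ s, Tst W (F i)) :
    Tst W (fun r => ∑ i ∈ s, F i r) := by
  induction s using Finset.induction_on with
  | empty => simpa using tst_const (W := W) 0
  | insert a s ha ih =>
    simp only [Finset.sum_insert ha]
    exact tst_add (hF a (Finset.mem_insert_self a s))
      (ih fun i hi => hF i (Finset.mem_insert_of_mem hi))

theorem tst_prod {ι : Type*} (s : Finset ι) {F : ι → (V → ℝ) → ℝ} (hF : ∀ i ∈ s, Tst W (F i)) :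
    Tst W (fun r => ∏ i ∈ s, F i r) := by
  induction s using Finset.induction_on with
  | empty => simpa using tst_const (W := W) 1
  | insert a s ha ih =>
    simp only [Finset.prod_insert ha]
    exact tst_mul (hF a (Finset.mem_insert_self a s))
      (ih fun i hi => hF i (Finset.mem_insert_of_mem hi))

/-- composition -/
theorem tst_comp {f : ℝ → ℝ} (hf : Measurable f) (hb : ∃ C, ∀ t, |t| < 1 → |f t| ≤ C)
    (hF : Tst W F) (h1 : ∀ r, Adm W r → |F r| < 1) : Tst W (fun r => f (F r)) := by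
  obtain ⟨C, hC⟩ := hb
  refine ⟨hf.comp hF.meas, ?_, C, fun r hr => hC _ (h1 r hr)⟩
  intro r r' hrr
  simp only
  rw [hF.dep hrr]

end Tst

section Stm

variable {V : Type*} (G : SimpleGraph V) (lam : ℝ)

/-- the static measure of the window `W` -/
noncomputable def stm (ν : Measure ℝ) (W : Finset V) : Measure (V → ℝ) :=
  (Nm V ν).withDensity (fun r => ENNReal.ofReal (LW G lam W r))

variable {G lam} {b : ℕ} {ν : Measure ℝ} {ρ : ℝ}

theorem isStat_stm (W : Finset V) : IsStat G lam ν W (stm G lam ν W) := by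
  intro F hF _
  unfold stm
  rw [lintegral_withDensity_eq_lintegral_mul₀]
  · apply lintegral_congr
    intro r
    rw [Pi.mul_apply, mul_comm]
  · exact (measurable_LW W).ennreal_ofReal.aemeasurable
  · exact hF.aemeasurable

variable [Countable V]

theorem tst_MW (h : Tr G lam b) {W : Finset V} {z : V} (hz : z ∈ W) :
    Tst W (MW G lam W z) :=
  ⟨measurable_MW W z, dep_MW W z, 1, fun _ hr => (MW_abs_lt h hz hr).le⟩

theorem tst_fMW (h : Tr G lam b) {W : Finset V} {z : V} (hz : z ∈ W) {f : ℝ → ℝ}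
    (hf : Measurable f) (hb : ∃ C, ∀ t, |t| < 1 → |f t| ≤ C) :
    Tst W (fun r => f (MW G lam W z r)) :=
  tst_comp hf hb (tst_MW h hz) fun _ hr => MW_abs_lt h hz hr

theorem tst_tau (h : Tr G lam b) {W : Finset V} {x u : V} (hu : u ∈ W) :
    Tst (desc G x u W) (tau G lam W x u) := tst_MW h (self_mem_desc hu)

theorem tst_ftau (h : Tr G lam b) {W : Finset V} {x u : V} (hu : u ∈ W) {f : ℝ → ℝ}
    (hf : Measurable f) (hb : ∃ C, ∀ t, |t| < 1 → |f t| ≤ C) :
    Tst (desc G x u W) (fun r => f (tau G lam W x u r)) := tst_fMW h (self_mem_desc hu) hf hb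

theorem tst_ftau' (h : Tr G lam b) {W : Finset V} {x u : V} (hu : u ∈ W) {f : ℝ → ℝ}
    (hf : Measurable f) (hb : ∃ C, ∀ t, |t| < 1 → |f t| ≤ C) :
    Tst W (fun r => f (tau G lam W x u r)) :=
  tst_mono (tst_ftau h hu hf hb) (desc_subset x u W)

theorem tau_flip (h : Tr G lam b) {W : Finset V} {x u : V} (hu : u ∈ W) (r : V → ℝ) :
    tau G lam W x u (flip (desc G x u W) r) = - tau G lam W x u r :=
  MW_flip h (self_mem_desc hu) r

theorem even_ftau (h : Tr G lam b) {W : Finset V} {x u : V} (hu : u ∈ W) {f : ℝ → ℝ}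
    (hf : ∀ t, f (-t) = f t) :
    EvenOn (desc G x u W) (fun r => f (tau G lam W x u r)) := by
  intro r
  simp only
  rw [tau_flip h hu, hf]

variable {W : Finset V} {κ : Measure (V → ℝ)}

theorem stat_int (h : Tr G lam b) (hν : Null ν ρ) (hW : IsSub G W) (hne : W.Nonempty)
    (hκ : IsStat G lam ν W κ) {F : (V → ℝ) → ℝ} (hF : Tst W F) : ∫ r, F r ∂κ = EI G lam ν W F :=
  (IsStat.integral h hν hW hne hκ hF).2

theorem stat_integrable (h : Tr G lam b) (hν : Null ν ρ) (hW : IsSub G W) (hne : W.Nonempty)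
    (hκ : IsStat G lam ν W κ) {F : (V → ℝ) → ℝ} (hF : Tst W F) : Integrable F κ :=
  (IsStat.integral h hν hW hne hκ hF).1

theorem stat_prob (h : Tr G lam b) (hν : Null ν ρ) (hW : IsSub G W) (hne : W.Nonempty)
    (hκ : IsStat G lam ν W κ) : IsProbabilityMeasure κ := by
  have h1 := stat_int h hν hW hne hκ (tst_const 1)
  rw [EI_one h hν hW hne] at h1
  constructor
  have h2 : (κ Set.univ).toReal = 1 := by
    simpa [Measure.real] using h1
  have h3 := (ENNReal.toReal_eq_one_iff _).1 h2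
  exact h3

theorem stm_prob (h : Tr G lam b) (hν : Null ν ρ) (hW : IsSub G W) (hne : W.Nonempty) :
    IsProbabilityMeasure (stm G lam ν W) := stat_prob h hν hW hne (isStat_stm W)

theorem EI_eq (h : Tr G lam b) (hν : Null ν ρ) (hW : IsSub G W) (hne : W.Nonempty)
    {F : (V → ℝ) → ℝ} (hF : Tst W F) : EI G lam ν W F = ∫ r, F r ∂(stm G lam ν W) :=
  (stat_int h hν hW hne (isStat_stm W) hF).symm

theorem stm_integrable (h : Tr G lam b) (hν : Null ν ρ) (hW : IsSub G W) (hne : W.Nonempty)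
    {F : (V → ℝ) → ℝ} (hF : Tst W F) : Integrable F (stm G lam ν W) :=
  stat_integrable h hν hW hne (isStat_stm W) hF

theorem stm_adm (h : Tr G lam b) (hν : Null ν ρ) (hW : IsSub G W) (hne : W.Nonempty) :
    ∀ᵐ r ∂(stm G lam ν W), Adm W r := IsStat.adm h hν hW hne (isStat_stm W)

/-- monotonicity of `EI` on admissible fields -/
theorem EI_mono (h : Tr G lam b) (hν : Null ν ρ) (hW : IsSub G W) (hne : W.Nonempty)
    {F F' : (V → ℝ) → ℝ} (hF : Tst W F) (hF' : Tst W F') (hle : ∀ r, Adm W r → F r ≤ F' r) :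
    EI G lam ν W F ≤ EI G lam ν W F' := by
  rw [EI_eq h hν hW hne hF, EI_eq h hν hW hne hF']
  apply integral_mono_ae (stm_integrable h hν hW hne hF) (stm_integrable h hν hW hne hF')
  filter_upwards [stm_adm h hν hW hne] with r hr using hle r hr

theorem EI_const_mul (c : ℝ) (F : (V → ℝ) → ℝ) :
    EI G lam ν W (fun r => c * F r) = c * EI G lam ν W F := by
  unfold EI
  rw [← integral_const_mul]
  congr 1
  funext r
  ring

theorem EI_add (h : Tr G lam b) (hν : Null ν ρ)
    {F F' : (V → ℝ) → ℝ} (hF : Tst W F) (hF' : Tst W F') :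
    EI G lam ν W (fun r => F r + F' r) = EI G lam ν W F + EI G lam ν W F' := by
  unfold EI
  rw [← integral_add (Tst.integrable h hν hF) (Tst.integrable h hν hF')]
  congr 1
  funext r
  ring

theorem EI_sub (h : Tr G lam b) (hν : Null ν ρ)
    {F F' : (V → ℝ) → ℝ} (hF : Tst W F) (hF' : Tst W F') :
    EI G lam ν W (fun r => F r - F' r) = EI G lam ν W F - EI G lam ν W F' := by
  unfold EI
  rw [← integral_sub (Tst.integrable h hν hF) (Tst.integrable h hν hF')]
  congr 1
  funext r
  ring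

theorem EI_nonneg (h : Tr G lam b) (hν : Null ν ρ) (hW : IsSub G W) (hne : W.Nonempty)
    {F : (V → ℝ) → ℝ} (hF : Tst W F) (h0 : ∀ r, Adm W r → 0 ≤ F r) : 0 ≤ EI G lam ν W F := by
  rw [EI_eq h hν hW hne hF]
  apply integral_nonneg_of_ae
  filter_upwards [stm_adm h hν hW hne] with r hr using h0 r hr

theorem EI_const (h : Tr G lam b) (hν : Null ν ρ) (hW : IsSub G W) (hne : W.Nonempty) (c : ℝ) :
    EI G lam ν W (fun _ => c) = c := by
  have h1 := EI_const_mul (G := G) (lam := lam) (ν := ν) (W := W) c (fun _ => 1)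
  rw [EI_one h hν hW hne] at h1
  simpa using h1

theorem EI_le_const (h : Tr G lam b) (hν : Null ν ρ) (hW : IsSub G W) (hne : W.Nonempty)
    {F : (V → ℝ) → ℝ} (hF : Tst W F) {c : ℝ} (h0 : ∀ r, Adm W r → F r ≤ c) :
    EI G lam ν W F ≤ c := by
  calc EI G lam ν W F ≤ EI G lam ν W (fun _ => c) := EI_mono h hν hW hne hF (tst_const c) h0
    _ = c := EI_const h hν hW hne c

/-- `|EI F| ≤ EI |F|`-type bound -/
theorem abs_EI_le (h : Tr G lam b) (hν : Null ν ρ) (hW : IsSub G W) (hne : W.Nonempty)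
    {F F' : (V → ℝ) → ℝ} (hF : Tst W F) (hF' : Tst W F') (hle : ∀ r, Adm W r → |F r| ≤ F' r) :
    |EI G lam ν W F| ≤ EI G lam ν W F' := by
  rw [abs_le]
  constructor
  · have h1 := EI_mono h hν hW hne (tst_neg hF) hF' (fun r hr => (neg_le_abs _).trans (hle r hr))
    have h2 := EI_const_mul (G := G) (lam := lam) (ν := ν) (W := W) (-1) F
    have h3 : (fun r => -1 * F r) = fun r => - F r := by funext r; ring
    rw [h3] at h2
    linarith
  · exact EI_mono h hν hW hne hF hF' (fun r hr => (le_abs_self _).trans (hle r hr))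

end Stm

end Crest.Agent.H14.P6
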