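import Mathlib
import Crest.Agent.H14.BP
import Crest.Agent.H14.Stm
import Crest.Agent.H14.Moments
import Crest.Agent.H14.Damp

/-!
# Row 160, P6: tails, convergence of even means, trivial bound
-/

set_option autoImplicit false

open MeasureTheory Filter Topology

namespace Crest.Agent.H14

open scoped Classical

namespace P6

section Levels

variable {V : Type*} {G : SimpleGraph V} {lam : ℝ} {b : ℕ}

/-- descendants of `u` at distance `n` from `u` -/
noncomputable def lev (G : SimpleGraph V) (x u : V) (W : Finset V) (n : ℕ) : Finset V :=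
  (desc G x u W).filter (fun y => G.dist u y = n)

theorem mem_lev {x u y : V} {W : Finset V} {n : ℕ} :
    y ∈ lev G x u W n ↔ y ∈ desc G x u W ∧ G.dist u y = n := by
  simp [lev]

theorem mem_lev_root {x y : V} {W : Finset V} {n : ℕ} :
    y ∈ lev G x x W n ↔ y ∈ W ∧ G.dist x y = n := by
  rw [mem_lev, desc_root]

theorem lev_zero (hT : G.IsTree) {x u : V} {W : Finset V} (hu : u ∈ W) :
    lev G x u W 0 = {u} := by
  ext y
  rw [mem_lev, Finset.mem_singleton]
  constructor
  · rintro ⟨_, h⟩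
    exact (hT.connected.dist_eq_zero_iff.1 h).symm
  · rintro rfl
    exact ⟨self_mem_desc hu, by simp⟩

/-- top recursion -/
theorem lev_succ (hT : G.IsTree) {x u : V} {W : Finset V} (hW : ParClosed G x W) (n : ℕ) :
    lev G x u W (n + 1) = (chl G x u W).biUnion (fun w => lev G x w W n) := by
  ext y
  rw [mem_lev, Finset.mem_biUnion]
  constructor
  · rintro ⟨hy, hd⟩
    have hyu : y ≠ u := by
      rintro rfl
      simp at hd
    obtain ⟨w, hw, hyw⟩ := exists_child hT hW hy hyu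
    refine ⟨w, hw, mem_lev.2 ⟨hyw, ?_⟩⟩
    have h1 := chl_dist hT hw
    have h2 := (mem_desc.1 hyw).2
    have h3 := (mem_desc.1 hy).2
    omega
  · rintro ⟨w, hw, hy⟩
    rw [mem_lev] at hy
    have h1 := chl_dist hT hw
    have h2 := desc_subset_desc hT (chl_subset_desc hT hw) hy.1
    refine ⟨h2, ?_⟩
    have h3 := (mem_desc.1 hy.1).2
    have h4 := (mem_desc.1 h2).2
    omega

theorem lev_disjoint (hT : G.IsTree) {x u w w' : V} {W : Finset V} (n : ℕ)
    (hw : w ∈ chl G x u W) (hw' : w' ∈ chl G x u W) (hne : w ≠ w') :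
    Disjoint (lev G x w W n) (lev G x w' W n) :=
  (child_desc_disjoint hT hw hw' hne).mono (Finset.filter_subset _ _) (Finset.filter_subset _ _)

variable [G.LocallyFinite]

theorem card_lev (h : Tr G lam b) {x : V} {W : Finset V} (hW : ParClosed G x W) (n : ℕ) :
    ∀ u : V, u ∈ W → u ≠ x → (lev G x u W n).card ≤ b ^ n := by
  have hT := h.tree
  induction n with
  | zero =>
    intro u hu _
    rw [lev_zero hT hu]
    simp
  | succ n ih =>
    intro u hu hux
    rw [lev_succ hT hW]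
    refine Finset.card_biUnion_le.trans ?_
    calc ∑ w ∈ chl G x u W, (lev G x w W n).card ≤ ∑ w ∈ chl G x u W, b ^ n :=
          Finset.sum_le_sum fun w hw => ih w (mem_chl.1 hw).1 (mem_chl.1 hw).2.1
      _ = (chl G x u W).card * b ^ n := by rw [Finset.sum_const, smul_eq_mul]
      _ ≤ b * b ^ n := by
          apply Nat.mul_le_mul_right
          have := card_chl_le hT h.reg hux W
          simpa using this
      _ = b ^ (n + 1) := by ring

theorem card_lev_root (h : Tr G lam b) {x : V} {W : Finset V} (hW : ParClosed G x W) (n : ℕ) :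
    (lev G x x W n).card ≤ 2 * b ^ n := by
  have hT := h.tree
  cases n with
  | zero =>
    rw [lev_zero hT hW.root]
    simp
  | succ n =>
    rw [lev_succ hT hW]
    refine Finset.card_biUnion_le.trans ?_
    calc ∑ w ∈ chl G x x W, (lev G x w W n).card ≤ ∑ w ∈ chl G x x W, b ^ n :=
          Finset.sum_le_sum fun w hw => card_lev h hW n w (mem_chl.1 hw).1 (mem_chl.1 hw).2.1
      _ = (chl G x x W).card * b ^ n := by rw [Finset.sum_const, smul_eq_mul]
      _ ≤ (b + 1) * b ^ n := by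
          apply Nat.mul_le_mul_right
          exact card_chl_root_le hT h.reg x W
      _ ≤ (2 * b) * b ^ n := by
          apply Nat.mul_le_mul_right
          have := h.two
          omega
      _ = 2 * b ^ (n + 1) := by ring

end Levels

theorem geom_tail {ρ : ℝ} (h0 : 0 ≤ ρ) (h1 : ρ < 1) (N k : ℕ) (T : ℕ) :
    ∑ n ∈ Finset.Ioc N T, ρ ^ (n - k) ≤ ρ ^ (N - k) * (k + 1 / (1 - ρ)) := by
  have h1' : 0 < 1 - ρ := by linarith
  have key : ∀ j : ℕ, ∑ n ∈ Finset.Ioc N (N + j), ρ ^ (n - k) ≤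
      ρ ^ (N - k) * ((min (N + j) k : ℕ) + 1 / (1 - ρ)) - ρ / (1 - ρ) * ρ ^ (N + j - k) := by
    intro j
    induction j with
    | zero =>
      simp only [add_zero, Finset.Ioc_self, Finset.sum_empty]
      have : ρ ^ (N - k) * ((min N k : ℕ) + 1 / (1 - ρ)) - ρ / (1 - ρ) * ρ ^ (N - k) =
          ρ ^ (N - k) * ((min N k : ℕ) + 1) := by
        field_simp
        ring
      rw [this]
      positivity
    | succ j ih =>
      rw [← add_assoc, ← Finset.insert_Ioc_right_eq_Ioc_add_one (by omega),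
        Finset.sum_insert (by simp)]
      rcases Nat.lt_or_ge (N + j) k with hlt | hge
      · have e1 : N + j + 1 - k = 0 := by omega
        have e2 : N + j - k = 0 := by omega
        have e3 : N - k = 0 := by omega
        have e4 : min (N + j + 1) k = N + j + 1 := by omega
        have e5 : min (N + j) k = N + j := by omega
        rw [e5, e2, e3] at ih
        rw [e1, e3, e4]
        push_cast at ih ⊢
        simp only [pow_zero, one_mul, mul_one] at ih ⊢
        linarith
      · have e1 : N + j + 1 - k = (N + j - k) + 1 := by omega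
        have e4 : min (N + j + 1) k = k := by omega
        have e5 : min (N + j) k = k := by omega
        rw [e5] at ih
        rw [e1, e4, pow_succ]
        have e6 : ρ / (1 - ρ) * ρ ^ (N + j - k) - ρ ^ (N + j - k) * ρ =
            ρ / (1 - ρ) * (ρ ^ (N + j - k) * ρ) := by
          field_simp
          ring
        linarith
  rcases Nat.lt_or_ge T N with hT | hT
  · rw [Finset.Ioc_eq_empty (by omega), Finset.sum_empty]
    positivity
  · obtain ⟨j, rfl⟩ := Nat.exists_eq_add_of_le hT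
    refine (key j).trans ?_
    have h2 : 0 ≤ ρ / (1 - ρ) * ρ ^ (N + j - k) := by positivity
    have h3 : ((min (N + j) k : ℕ) : ℝ) ≤ k := by exact_mod_cast min_le_right _ _
    have h4 : 0 ≤ ρ ^ (N - k) := by positivity
    nlinarith [mul_le_mul_of_nonneg_left h3 h4]

end P6

section P6
variable {V : Type*} {G : SimpleGraph V} [G.LocallyFinite] [Countable V] {lam : ℝ} {b : ℕ}

omit [G.LocallyFinite] [Countable V] in
theorem gam_mem (h : Tr G lam b) {t : ℝ} (ht : |t| < 1) : 0 ≤ gam lam t ∧ gam lam t ≤ 1 := by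
  have h2 := h.lam_sq_le
  have h3 : t ^ 2 < 1 := by
    rw [sq_lt_one_iff_abs_lt_one]; exact ht
  have h1 : 0 < 1 - lam ^ 2 * t ^ 2 := by nlinarith [sq_nonneg lam, sq_nonneg t]
  unfold gam
  constructor
  · apply div_nonneg (by linarith) h1.le
  · rw [div_le_one h1]
    nlinarith [sq_nonneg t]

omit [G.LocallyFinite] [Countable V] in
theorem PP_mem (h : Tr G lam b) {W : Finset V} (x u y : V) {r : V → ℝ} (hr : Adm W r) :
    0 ≤ PP G lam W x u y r ∧ PP G lam W x u y r ≤ 1 := by
  have h1 : ∀ z ∈ pth G x u y W, 0 ≤ gam lam (tau G lam W x z r) ∧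
      gam lam (tau G lam W x z r) ≤ 1 := fun z hz =>
    gam_mem h (tau_abs_lt h (mem_pth.1 hz).1 hr)
  exact ⟨Finset.prod_nonneg fun z hz => (h1 z hz).1,
    Finset.prod_le_one (fun z hz => (h1 z hz).1) fun z hz => (h1 z hz).2⟩

theorem P6.measurable_gam (lam : ℝ) : Measurable (gam lam) := by
  unfold gam
  fun_prop

omit [G.LocallyFinite] [Countable V] in
theorem P6.bdd_gam (h : Tr G lam b) : ∃ C, ∀ t : ℝ, |t| < 1 → |gam lam t| ≤ C :=
  ⟨1, fun t ht => by
    rw [abs_of_nonneg (gam_mem h ht).1]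
    exact (gam_mem h ht).2⟩

omit [G.LocallyFinite] in
theorem P6.tst_PP (h : Tr G lam b) {W : Finset V} (x u y : V) :
    Tst W (PP G lam W x u y) := by
  unfold PP
  apply P6.tst_prod
  intro z hz
  exact P6.tst_ftau' h (mem_pth.1 hz).1 (P6.measurable_gam lam) (P6.bdd_gam h)

omit [G.LocallyFinite] [Countable V] in
theorem P6.KW_sq_le (h : Tr G lam b) {W : Finset V} (hW : IsSub G W) {x y : V} (hx : x ∈ W)
    (hy : y ∈ W) {r : V → ℝ} (hr : Adm W r) :
    KW G lam W x y r ^ 2 ≤ (lam ^ G.dist x y) ^ 2 * PP G lam W x x y r := by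
  rw [KW_prod h hW hx hy hr]
  have h1 := PP_mem h x x y hr
  have h2 := MW_abs_lt h hx hr
  have h3 : MW G lam W x r ^ 2 < 1 := by
    rw [sq_lt_one_iff_abs_lt_one]; exact h2
  have h4 : 0 ≤ 1 - MW G lam W x r ^ 2 := by linarith
  have h5 : 1 - MW G lam W x r ^ 2 ≤ 1 := by nlinarith [sq_nonneg (MW G lam W x r)]
  have h6 : (1 - MW G lam W x r ^ 2) ^ 2 ≤ 1 := pow_le_one₀ h4 h5
  have h7 : PP G lam W x x y r ^ 2 ≤ PP G lam W x x y r := by nlinarith
  have h8 : 0 ≤ (lam ^ G.dist x y) ^ 2 := sq_nonneg _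
  calc ((1 - MW G lam W x r ^ 2) * lam ^ G.dist x y * PP G lam W x x y r) ^ 2
      = (1 - MW G lam W x r ^ 2) ^ 2 * ((lam ^ G.dist x y) ^ 2 * PP G lam W x x y r ^ 2) := by ring
    _ ≤ 1 * ((lam ^ G.dist x y) ^ 2 * PP G lam W x x y r) := by
        apply mul_le_mul h6 (mul_le_mul_of_nonneg_left h7 h8) (by positivity) zero_le_one
    _ = _ := one_mul _

omit [G.LocallyFinite] [Countable V] in
theorem P6.tst_KW (h : Tr G lam b) {W : Finset V} (hW : IsSub G W) {x y : V} (hx : x ∈ W)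
    (hy : y ∈ W) : Tst W (KW G lam W x y) := by
  refine ⟨measurable_KW W x y, dep_KW W x y, 1, fun r hr => ?_⟩
  rw [KW_prod h hW hx hy hr]
  have h1 := PP_mem h x x y hr
  have h2 := MW_abs_lt h hx hr
  have h3 : MW G lam W x r ^ 2 < 1 := by
    rw [sq_lt_one_iff_abs_lt_one]; exact h2
  have h4 : 0 ≤ 1 - MW G lam W x r ^ 2 := by linarith
  have h5 : 1 - MW G lam W x r ^ 2 ≤ 1 := by nlinarith [sq_nonneg (MW G lam W x r)]
  have h6 : lam ^ G.dist x y ≤ 1 := pow_le_one₀ h.nonneg h.lam_lt.le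
  have h7 : 0 ≤ lam ^ G.dist x y := pow_nonneg h.nonneg _
  rw [abs_of_nonneg (mul_nonneg (mul_nonneg h4 h7) h1.1)]
  calc (1 - MW G lam W x r ^ 2) * lam ^ G.dist x y * PP G lam W x x y r ≤ 1 * 1 * 1 := by
        gcongr
        · exact h1.1
        · exact h1.2
    _ = 1 := by norm_num

theorem tail_KW (h : Tr G lam b) : ∃ c C : ℝ, 0 < c ∧ c < 1 ∧ 0 < C ∧
    ∀ (ν : Measure ℝ) (ρ s : ℝ), Null ν ρ → Mom ν s → ∀ (c0 : V) (R : ℕ) (x : V),
      x ∈ bl G c0 R → ∀ N : ℕ,
      ∑ y ∈ (bl G c0 R).filter (fun y => N < G.dist x y),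
        EI G lam ν (bl G c0 R) (fun r => KW G lam (bl G c0 R) x y r ^ 2) ≤
      C / s * (1 - c * s) ^ (N - ⌈C / s⌉₊) := by
  obtain ⟨c, C, hc, hc1, hC, hd⟩ := damp_path h
  refine ⟨c, 2 * (C + 1 + 1 / c), hc, hc1, by positivity, ?_⟩
  intro ν ρ s hν hs c0 R x hx N
  have hT := h.tree
  set W := bl G c0 R with hWdef
  have hW : IsSub G W := isSub_bl hT c0 R
  have hne : W.Nonempty := ⟨x, hx⟩
  have hP : ParClosed G x W := hW.parClosed hx
  have hs0 := hs.pos
  have hs1 := hs.le_one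
  have hb0 : (0:ℝ) < b := by
    have := h.two
    positivity
  set k := ⌈C / s⌉₊ with hk
  have hρ0 : 0 ≤ 1 - c * s := by nlinarith
  have hρ1 : 1 - c * s < 1 := by nlinarith [mul_pos hc hs0]
  -- one vertex
  have hone : ∀ y ∈ W, EI G lam ν W (fun r => KW G lam W x y r ^ 2) ≤
      (1 / (b:ℝ) ^ G.dist x y) * (1 - c * s) ^ (G.dist x y - k) := by
    intro y hy
    have h1 : EI G lam ν W (fun r => KW G lam W x y r ^ 2) ≤
        EI G lam ν W (fun r => (lam ^ G.dist x y) ^ 2 * PP G lam W x x y r) := by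
      apply P6.EI_mono h hν hW hne (P6.tst_pow (P6.tst_KW h hW hx hy) 2)
        (P6.tst_mul (P6.tst_const _) (P6.tst_PP h x x y))
      intro r hr
      exact P6.KW_sq_le h hW hx hy hr
    rw [P6.EI_const_mul] at h1
    have h2 := hd ν ρ s hν hs c0 R x x y hx hx (by rw [desc_root]; exact hy) 1 le_rfl
      (fun _ => 1) (P6.tst_const 1) (fun _ => rfl) (fun _ => zero_le_one)
    have hdesc : IsSub G (desc G x y W) := desc_isSub hT hP hy
    rw [EI_one h hν hdesc ⟨y, self_mem_desc hy⟩] at h2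
    simp only [pow_one, mul_one, Nat.cast_one, one_mul] at h2
    rw [min_eq_right hs1] at h2
    have h3 : (b:ℝ) ^ G.dist x y * ((lam ^ G.dist x y) ^ 2 *
        EI G lam ν W (PP G lam W x x y)) ≤ (1 - c * s) ^ (G.dist x y - k) := by
      calc (b:ℝ) ^ G.dist x y * ((lam ^ G.dist x y) ^ 2 * EI G lam ν W (PP G lam W x x y))
          = (b * lam ^ 2) ^ G.dist x y * EI G lam ν W (PP G lam W x x y) := by
            rw [mul_pow, ← pow_mul, ← pow_mul, mul_comm 2 (G.dist x y)]
            ring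
        _ ≤ _ := h2
    have hbp : (0:ℝ) < (b:ℝ) ^ G.dist x y := by positivity
    refine h1.trans ?_
    rw [div_mul_eq_mul_div, one_mul, le_div_iff₀ hbp, mul_comm]
    exact h3
  -- group by distance
  set T := W.sup (fun y => G.dist x y) with hTdef
  have hmaps : ∀ y ∈ W.filter (fun y => N < G.dist x y), G.dist x y ∈ Finset.Ioc N T := by
    intro y hy
    rw [Finset.mem_filter] at hy
    rw [Finset.mem_Ioc]
    exact ⟨hy.2, Finset.le_sup (f := fun y => G.dist x y) hy.1⟩
  have hsum : ∑ y ∈ W.filter (fun y => N < G.dist x y),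
      EI G lam ν W (fun r => KW G lam W x y r ^ 2) ≤
      ∑ n ∈ Finset.Ioc N T, 2 * (1 - c * s) ^ (n - k) := by
    calc ∑ y ∈ W.filter (fun y => N < G.dist x y), EI G lam ν W (fun r => KW G lam W x y r ^ 2)
        ≤ ∑ y ∈ W.filter (fun y => N < G.dist x y),
            (1 / (b:ℝ) ^ G.dist x y) * (1 - c * s) ^ (G.dist x y - k) :=
          Finset.sum_le_sum fun y hy => hone y (Finset.mem_filter.1 hy).1
      _ = ∑ n ∈ Finset.Ioc N T, ∑ y ∈ (W.filter (fun y => N < G.dist x y)).filter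
            (fun y => G.dist x y = n),
            (1 / (b:ℝ) ^ G.dist x y) * (1 - c * s) ^ (G.dist x y - k) :=
          (Finset.sum_fiberwise_of_maps_to hmaps _).symm
      _ ≤ ∑ n ∈ Finset.Ioc N T, 2 * (1 - c * s) ^ (n - k) := by
          apply Finset.sum_le_sum
          intro n _
          have hbn : (0:ℝ) < (b:ℝ) ^ n := by positivity
          have hρn : 0 ≤ (1 - c * s) ^ (n - k) := pow_nonneg hρ0 _
          calc ∑ y ∈ (W.filter (fun y => N < G.dist x y)).filter (fun y => G.dist x y = n),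
                (1 / (b:ℝ) ^ G.dist x y) * (1 - c * s) ^ (G.dist x y - k)
              = ∑ y ∈ (W.filter (fun y => N < G.dist x y)).filter (fun y => G.dist x y = n),
                (1 / (b:ℝ) ^ n) * (1 - c * s) ^ (n - k) := by
                apply Finset.sum_congr rfl
                intro y hy
                rw [(Finset.mem_filter.1 hy).2]
            _ = (((W.filter (fun y => N < G.dist x y)).filter
                (fun y => G.dist x y = n)).card : ℝ) *
                ((1 / (b:ℝ) ^ n) * (1 - c * s) ^ (n - k)) := by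
                rw [Finset.sum_const, nsmul_eq_mul]
            _ ≤ (2 * (b:ℝ) ^ n) * ((1 / (b:ℝ) ^ n) * (1 - c * s) ^ (n - k)) := by
                apply mul_le_mul_of_nonneg_right _ (by positivity)
                have h1 : ((W.filter (fun y => N < G.dist x y)).filter
                    (fun y => G.dist x y = n)).card ≤ (P6.lev G x x W n).card := by
                  apply Finset.card_le_card
                  intro y hy
                  rw [Finset.mem_filter, Finset.mem_filter] at hy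
                  exact P6.mem_lev_root.2 ⟨hy.1.1, hy.2⟩
                have h2 := h1.trans (P6.card_lev_root h hP n)
                exact_mod_cast h2
            _ = 2 * (1 - c * s) ^ (n - k) := by
                field_simp
  rw [← Finset.mul_sum] at hsum
  have hgeom := P6.geom_tail hρ0 hρ1 N k T
  have e1 : 1 - (1 - c * s) = c * s := by ring
  rw [e1] at hgeom
  have hkle : (k:ℝ) ≤ C / s + 1 := (Nat.ceil_lt_add_one (by positivity)).le
  have hk' : k ≤ ⌈2 * (C + 1 + 1 / c) / s⌉₊ := by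
    apply Nat.ceil_le_ceil
    apply div_le_div_of_nonneg_right _ hs0.le
    have : 0 < 1 / c := by positivity
    linarith
  have hpow : (1 - c * s) ^ (N - k) ≤ (1 - c * s) ^ (N - ⌈2 * (C + 1 + 1 / c) / s⌉₊) :=
    pow_le_pow_of_le_one hρ0 hρ1.le (by omega)
  have hfac : 2 * ((k:ℝ) + 1 / (c * s)) ≤ 2 * (C + 1 + 1 / c) / s := by
    have h1 : (1:ℝ) ≤ 1 / s := by
      rw [le_div_iff₀ hs0]; linarith
    have h2 : 2 * (C + 1 + 1 / c) / s = 2 * (C / s + 1 / s + 1 / (c * s)) := by
      field_simp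
    rw [h2]
    linarith
  calc ∑ y ∈ W.filter (fun y => N < G.dist x y), EI G lam ν W (fun r => KW G lam W x y r ^ 2)
      ≤ 2 * ∑ n ∈ Finset.Ioc N T, (1 - c * s) ^ (n - k) := hsum
    _ ≤ 2 * ((1 - c * s) ^ (N - k) * (k + 1 / (c * s))) := by linarith
    _ = (2 * ((k:ℝ) + 1 / (c * s))) * (1 - c * s) ^ (N - k) := by ring
    _ ≤ (2 * (C + 1 + 1 / c) / s) * (1 - c * s) ^ (N - ⌈2 * (C + 1 + 1 / c) / s⌉₊) := by
        apply mul_le_mul hfac hpow (pow_nonneg hρ0 _)
        positivity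

/-- second moment of the cavity magnetisation -/
noncomputable def P6.am (G : SimpleGraph V) (lam : ℝ) (ν : Measure ℝ) (x u : V) (W : Finset V) :
    ℝ := EI G lam ν W (fun r => tau G lam W x u r ^ 2)

omit [G.LocallyFinite] in
/-- comparison of the two cavity magnetisations of nested windows -/
theorem P6.am_diff (h : Tr G lam b) {ν : Measure ℝ} {ρ : ℝ} (hν : Null ν ρ) {W W' : Finset V}
    (hW : IsSub G W) (hW' : IsSub G W') (hsub : W ⊆ W') {x u : V} (hx : x ∈ W) (hu : u ∈ W) :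
    EI G lam ν W' (fun r => (tau G lam W' x u r - tau G lam W x u r) ^ 2) =
      P6.am G lam ν x u W' - P6.am G lam ν x u W := by
  have hT := h.tree
  set D := desc G x u W with hD
  set D' := desc G x u W' with hD'
  have hDsub : D ⊆ D' := by
    intro v hv
    rw [hD, mem_desc] at hv
    rw [hD', mem_desc]
    exact ⟨hsub hv.1, hv.2⟩
  have hDs : IsSub G D := desc_isSub hT (hW.parClosed hx) hu
  have hDs' : IsSub G D' := desc_isSub hT (hW'.parClosed (hsub hx)) (hsub hu)
  have huD : u ∈ D := self_mem_desc hu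
  have huD' : u ∈ D' := self_mem_desc (hsub hu)
  have ht : Tst D (tau G lam W x u) := P6.tst_tau h hu
  have ht' : Tst D' (tau G lam W' x u) := P6.tst_tau h (hsub hu)
  have htD' : Tst D' (tau G lam W x u) := P6.tst_mono ht hDsub
  -- everything lives in `D'`
  have e1 : EI G lam ν W' (fun r => (tau G lam W' x u r - tau G lam W x u r) ^ 2) =
      EI G lam ν D' (fun r => (tau G lam W' x u r - tau G lam W x u r) ^ 2) :=
    EI_marg h hν hDs' ⟨u, huD'⟩ hW' (desc_subset x u W') (P6.tst_pow (P6.tst_sub ht' htD') 2)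
  have e2 : P6.am G lam ν x u W' = EI G lam ν D' (fun r => tau G lam W' x u r ^ 2) :=
    EI_marg h hν hDs' ⟨u, huD'⟩ hW' (desc_subset x u W') (P6.tst_pow ht' 2)
  have e3 : P6.am G lam ν x u W = EI G lam ν D (fun r => tau G lam W x u r ^ 2) :=
    EI_marg h hν hDs ⟨u, huD⟩ hW (desc_subset x u W) (P6.tst_pow ht 2)
  have e4 : EI G lam ν D' (fun r => tau G lam W x u r ^ 2) =
      EI G lam ν D (fun r => tau G lam W x u r ^ 2) :=
    EI_marg h hν hDs ⟨u, huD⟩ hDs' hDsub (P6.tst_pow ht 2)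
  have e5 : EI G lam ν D' (fun r => tau G lam W' x u r * tau G lam W x u r) =
      EI G lam ν D (fun r => tau G lam W x u r * tau G lam W x u r) :=
    EI_mart h hν hDs ⟨u, huD⟩ hDs' hDsub huD ht
  have e6 : (fun r => (tau G lam W' x u r - tau G lam W x u r) ^ 2) =
      fun r => (tau G lam W' x u r ^ 2 + tau G lam W x u r ^ 2) -
        2 * (tau G lam W' x u r * tau G lam W x u r) := by
    funext r; ring
  rw [e1, e2, e3, e6, P6.EI_sub h hν (P6.tst_add (P6.tst_pow ht' 2) (P6.tst_pow htD' 2))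
    (P6.tst_mul (P6.tst_const 2) (P6.tst_mul ht' htD')),
    P6.EI_add h hν (P6.tst_pow ht' 2) (P6.tst_pow htD' 2), P6.EI_const_mul, e5, e4]
  have e7 : (fun r => tau G lam W x u r * tau G lam W x u r) =
      fun r => tau G lam W x u r ^ 2 := by
    funext r; ring
  rw [e7]
  ring

omit [G.LocallyFinite] in
theorem P6.am_mono (h : Tr G lam b) {ν : Measure ℝ} {ρ : ℝ} (hν : Null ν ρ) {W W' : Finset V}
    (hW : IsSub G W) (hW' : IsSub G W') (hsub : W ⊆ W') {x u : V} (hx : x ∈ W) (hu : u ∈ W) :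
    P6.am G lam ν x u W ≤ P6.am G lam ν x u W' := by
  have h1 := P6.am_diff h hν hW hW' hsub hx hu
  have h2 : 0 ≤ EI G lam ν W' (fun r => (tau G lam W' x u r - tau G lam W x u r) ^ 2) := by
    apply P6.EI_nonneg h hν hW' ⟨x, hsub hx⟩
    · exact P6.tst_pow (P6.tst_sub (P6.tst_mono (P6.tst_tau h (hsub hu)) (desc_subset x u W'))
        (P6.tst_mono (P6.tst_mono (P6.tst_tau h hu) (desc_subset x u W)) hsub)) 2
    · intro r _; positivity
  linarith

omit [G.LocallyFinite] in
theorem P6.am_le_one (h : Tr G lam b) {ν : Measure ℝ} {ρ : ℝ} (hν : Null ν ρ) {W : Finset V}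
    (hW : IsSub G W) {x u : V} (hx : x ∈ W) (hu : u ∈ W) :
    P6.am G lam ν x u W ≤ 1 := by
  apply P6.EI_le_const h hν hW ⟨x, hx⟩
  · exact P6.tst_mono (P6.tst_pow (P6.tst_tau h hu) 2) (desc_subset x u W)
  · intro r hr
    have := tau_abs_lt h (x := x) hu hr
    have h3 : tau G lam W x u r ^ 2 < 1 := by
      rw [sq_lt_one_iff_abs_lt_one]; exact this
    exact h3.le

theorem mean_conv (h : Tr G lam b) {ν : Measure ℝ} {ρ : ℝ} (hν : Null ν ρ) (x u : V) (f : ℝ → ℝ)
    (hfm : Measurable f) (hf : ∃ L : ℝ, ∀ s t : ℝ, |s| < 1 → |t| < 1 → |f s - f t| ≤ L * |s - t|) :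
    ∀ ε : ℝ, 0 < ε → ∃ n : ℕ, ∀ w : WP V, G.dist w.c1 x + n ≤ w.R1 → G.dist w.c2 x + n ≤ w.R2 →
      |EI G lam ν (W1 G w) (fun r => f (tau G lam (W1 G w) x u r)) -
        EI G lam ν (W2 G w) (fun r => f (tau G lam (W2 G w) x u r))| ≤ ε := by
  intro ε hε
  have hT := h.tree
  obtain ⟨L, hL⟩ := hf
  -- make `L` positive
  set L' := |L| + 1 with hL'
  have hL'0 : 0 < L' := by positivity
  have hLf : ∀ s t : ℝ, |s| < 1 → |t| < 1 → |f s - f t| ≤ L' * |s - t| := by
    intro s t hs ht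
    refine (hL s t hs ht).trans ?_
    apply mul_le_mul_of_nonneg_right _ (abs_nonneg _)
    have := le_abs_self L
    linarith
  have hfb : ∃ C, ∀ t : ℝ, |t| < 1 → |f t| ≤ C := by
    refine ⟨|f 0| + L', fun t ht => ?_⟩
    have h1 := hLf t 0 ht (by simp)
    rw [sub_zero] at h1
    have h2 : |f t| ≤ |f t - f 0| + |f 0| := by
      have := abs_add_le (f t - f 0) (f 0)
      simpa using this
    have h3 : L' * |t| ≤ L' * 1 := mul_le_mul_of_nonneg_left ht.le hL'0.le
    linarith
  set η := ε / (2 * L') with hη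
  have hη0 : 0 < η := by positivity
  -- sup of the second moments over balls around `x`
  set n₁ := G.dist x u with hn₁
  set S : Set ℝ := Set.range (fun n : ℕ => P6.am G lam ν x u (bl G x (n₁ + n))) with hS
  have hmem : ∀ n : ℕ, x ∈ bl G x (n₁ + n) ∧ u ∈ bl G x (n₁ + n) := by
    intro n
    refine ⟨self_mem_bl hT x _, ?_⟩
    rw [mem_bl hT]
    omega
  have hbdd : BddAbove S := by
    refine ⟨1, ?_⟩
    rintro _ ⟨n, rfl⟩
    exact P6.am_le_one h hν (isSub_bl hT x _) (hmem n).1 (hmem n).2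
  have hSne : S.Nonempty := ⟨_, 0, rfl⟩
  obtain ⟨_, ⟨n, rfl⟩, hn⟩ := exists_lt_of_lt_csSup hSne
    (show sSup S - η ^ 2 < sSup S by nlinarith [pow_pos hη0 2])
  simp only at hn
  refine ⟨n₁ + n, ?_⟩
  -- one window
  have key : ∀ (c : V) (R : ℕ), G.dist c x + (n₁ + n) ≤ R →
      |EI G lam ν (bl G c R) (fun r => f (tau G lam (bl G c R) x u r)) -
        EI G lam ν (bl G x (n₁ + n)) (fun r => f (tau G lam (bl G x (n₁ + n)) x u r))| ≤
      ε / 2 := by
    intro c R hcR
    set W := bl G x (n₁ + n) with hW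
    set W' := bl G c R with hW'
    have hsub : W ⊆ W' := bl_subset_bl hT hcR
    have hWs : IsSub G W := isSub_bl hT x _
    have hWs' : IsSub G W' := isSub_bl hT c _
    have hxW := (hmem n).1
    have huW := (hmem n).2
    have hne' : W'.Nonempty := ⟨x, hsub hxW⟩
    -- second moments
    have h1 : P6.am G lam ν x u W' ≤ sSup S := by
      have h2 : W' ⊆ bl G x (n₁ + (G.dist x c + R)) := by
        apply bl_subset_bl hT
        omega
      refine (P6.am_mono h hν hWs' (isSub_bl hT x _) h2 (hsub hxW) (hsub huW)).trans ?_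
      exact le_csSup hbdd ⟨G.dist x c + R, rfl⟩
    have h2 := P6.am_diff h hν hWs hWs' hsub hxW huW
    have h3 : EI G lam ν W' (fun r => (tau G lam W' x u r - tau G lam W x u r) ^ 2) ≤ η ^ 2 := by
      rw [h2]; linarith
    have tW : Tst W' (fun r => f (tau G lam W x u r)) :=
      P6.tst_mono (P6.tst_ftau' h huW hfm hfb) hsub
    have tW' : Tst W' (fun r => f (tau G lam W' x u r)) := P6.tst_ftau' h (hsub huW) hfm hfb
    have h4 : EI G lam ν W (fun r => f (tau G lam W x u r)) =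
        EI G lam ν W' (fun r => f (tau G lam W x u r)) :=
      (EI_marg h hν hWs ⟨x, hxW⟩ hWs' hsub (P6.tst_ftau' h huW hfm hfb)).symm
    rw [h4, ← P6.EI_sub h hν tW' tW]
    have tt : Tst W' (tau G lam W x u) :=
      P6.tst_mono (P6.tst_mono (P6.tst_tau h huW) (desc_subset x u W)) hsub
    have tt' : Tst W' (tau G lam W' x u) :=
      P6.tst_mono (P6.tst_tau h (hsub huW)) (desc_subset x u W')
    have td : Tst W' (fun r => (tau G lam W' x u r - tau G lam W x u r) ^ 2) :=
      P6.tst_pow (P6.tst_sub tt' tt) 2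
    have h5 : |EI G lam ν W' (fun r => f (tau G lam W' x u r) - f (tau G lam W x u r))| ≤
        EI G lam ν W' (fun r => L' * η / 2 + L' / (2 * η) *
          (tau G lam W' x u r - tau G lam W x u r) ^ 2) := by
      apply P6.abs_EI_le h hν hWs' hne' (P6.tst_sub tW' tW)
        (P6.tst_add (P6.tst_const _) (P6.tst_mul (P6.tst_const _) td))
      intro r hr
      have a1 := tau_abs_lt h (x := x) (hsub huW) hr
      have a2 := tau_abs_lt h (x := x) huW (adm_mono hsub hr)
      refine (hLf _ _ a1 a2).trans ?_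
      set d := |tau G lam W' x u r - tau G lam W x u r| with hd
      have hd2 : (tau G lam W' x u r - tau G lam W x u r) ^ 2 = d ^ 2 := (sq_abs _).symm
      rw [hd2]
      have h6 : L' * η / 2 + L' / (2 * η) * d ^ 2 - L' * d = L' / (2 * η) * (η - d) ^ 2 := by
        field_simp
        ring
      have h7 : 0 ≤ L' / (2 * η) * (η - d) ^ 2 := by positivity
      linarith
    refine h5.trans ?_
    rw [P6.EI_add h hν (P6.tst_const _) (P6.tst_mul (P6.tst_const _) td),
      P6.EI_const h hν hWs' hne', P6.EI_const_mul]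
    have h8 : L' / (2 * η) * EI G lam ν W' (fun r =>
        (tau G lam W' x u r - tau G lam W x u r) ^ 2) ≤ L' / (2 * η) * η ^ 2 :=
      mul_le_mul_of_nonneg_left h3 (by positivity)
    have h9 : L' / (2 * η) * η ^ 2 = L' * η / 2 := by
      field_simp
    have h10 : L' * η = ε / 2 := by
      rw [hη]
      field_simp
    linarith
  intro w hw1 hw2
  have k1 := key w.c1 w.R1 hw1
  have k2 := key w.c2 w.R2 hw2
  have e1 : W1 G w = bl G w.c1 w.R1 := rfl
  have e2 : W2 G w = bl G w.c2 w.R2 := rfl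
  rw [e1, e2]
  rw [abs_le] at k1 k2 ⊢
  constructor <;> linarith [k1.1, k1.2, k2.1, k2.2]

/-! ### couplings -/

theorem P6.adm1 (h : Tr G lam b) {ν : Measure ℝ} {ρ : ℝ} (hν : Null ν ρ)
    {κ : WP V → Measure ((V → ℝ) × (V → ℝ))} (hκ : Coup G lam ν κ) (w : WP V) :
    ∀ᵐ p ∂(κ w), Adm (W1 G w) p.1 := by
  have h1 := IsStat.adm h hν (isSub_bl h.tree w.c1 w.R1) ⟨w.c1, self_mem_bl h.tree _ _⟩ (hκ.fst w)
  exact ae_of_ae_map measurable_fst.aemeasurable h1

theorem P6.adm2 (h : Tr G lam b) {ν : Measure ℝ} {ρ : ℝ} (hν : Null ν ρ)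
    {κ : WP V → Measure ((V → ℝ) × (V → ℝ))} (hκ : Coup G lam ν κ) (w : WP V) :
    ∀ᵐ p ∂(κ w), Adm (W2 G w) p.2 := by
  have h1 := IsStat.adm h hν (isSub_bl h.tree w.c2 w.R2) ⟨w.c2, self_mem_bl h.tree _ _⟩ (hκ.snd w)
  exact ae_of_ae_map measurable_snd.aemeasurable h1

theorem P6.int1 (h : Tr G lam b) {ν : Measure ℝ} {ρ : ℝ} (hν : Null ν ρ)
    {κ : WP V → Measure ((V → ℝ) × (V → ℝ))} (hκ : Coup G lam ν κ) (w : WP V)
    {F : (V → ℝ) → ℝ} (hF : Tst (W1 G w) F) :
    Integrable (fun p => F p.1) (κ w) ∧ ∫ p, F p.1 ∂(κ w) = EI G lam ν (W1 G w) F := by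
  obtain ⟨h1, h2⟩ := IsStat.integral h hν (isSub_bl h.tree w.c1 w.R1)
    ⟨w.c1, self_mem_bl h.tree _ _⟩ (hκ.fst w) hF
  constructor
  · exact h1.comp_measurable measurable_fst
  · exact (integral_map measurable_fst.aemeasurable hF.meas.aestronglyMeasurable).symm.trans h2

theorem P6.int2 (h : Tr G lam b) {ν : Measure ℝ} {ρ : ℝ} (hν : Null ν ρ)
    {κ : WP V → Measure ((V → ℝ) × (V → ℝ))} (hκ : Coup G lam ν κ) (w : WP V)
    {F : (V → ℝ) → ℝ} (hF : Tst (W2 G w) F) :
    Integrable (fun p => F p.2) (κ w) ∧ ∫ p, F p.2 ∂(κ w) = EI G lam ν (W2 G w) F := by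
  obtain ⟨h1, h2⟩ := IsStat.integral h hν (isSub_bl h.tree w.c2 w.R2)
    ⟨w.c2, self_mem_bl h.tree _ _⟩ (hκ.snd w) hF
  constructor
  · exact h1.comp_measurable measurable_snd
  · exact (integral_map measurable_snd.aemeasurable hF.meas.aestronglyMeasurable).symm.trans h2

theorem Dq_trivial (h : Tr G lam b) : ∃ C : ℝ, 0 < C ∧
    ∀ (ν : Measure ℝ) (ρ s : ℝ), Null ν ρ → Mom ν s →
    ∀ κ : WP V → Measure ((V → ℝ) × (V → ℝ)), Coup G lam ν κ → ∀ z : V,
      LimLe G z (Dq G lam κ z) (C * s) := by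
  obtain ⟨C, hC, hm⟩ := mom_MW h 1 le_rfl
  refine ⟨4 * C, by positivity, ?_⟩
  intro ν ρ s hν hs κ hκ z ε hε
  refine ⟨0, fun w hw1 hw2 => ?_⟩
  have hT := h.tree
  have hz1 : z ∈ W1 G w := by
    unfold W1
    rw [mem_bl hT]; omega
  have hz2 : z ∈ W2 G w := by
    unfold W2
    rw [mem_bl hT]; omega
  have m1 := hm ν ρ s hν hs (W1 G w) (isSub_bl hT _ _) z hz1
  have m2 := hm ν ρ s hν hs (W2 G w) (isSub_bl hT _ _) z hz2
  simp only [mul_one, pow_one] at m1 m2
  have t1 : Tst (W1 G w) (fun r => MW G lam (W1 G w) z r ^ 2) := P6.tst_pow (P6.tst_MW h hz1) 2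
  have t2 : Tst (W2 G w) (fun r => MW G lam (W2 G w) z r ^ 2) := P6.tst_pow (P6.tst_MW h hz2) 2
  have i1 := P6.int1 h hν hκ w t1
  have i2 := P6.int2 h hν hκ w t2
  unfold Dq
  calc ∫ p, (MW G lam (W1 G w) z p.1 - MW G lam (W2 G w) z p.2) ^ 2 ∂(κ w)
      ≤ ∫ p, (2 * MW G lam (W1 G w) z p.1 ^ 2 + 2 * MW G lam (W2 G w) z p.2 ^ 2) ∂(κ w) := by
        apply integral_mono_of_nonneg
        · exact ae_of_all _ fun p => sq_nonneg _
        · exact (i1.1.const_mul 2).add (i2.1.const_mul 2)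
        · refine ae_of_all _ fun p => ?_
          simp only
          nlinarith [sq_nonneg (MW G lam (W1 G w) z p.1 + MW G lam (W2 G w) z p.2)]
    _ = 2 * EI G lam ν (W1 G w) (fun r => MW G lam (W1 G w) z r ^ 2) +
        2 * EI G lam ν (W2 G w) (fun r => MW G lam (W2 G w) z r ^ 2) := by
        rw [integral_add (i1.1.const_mul 2) (i2.1.const_mul 2), integral_const_mul,
          integral_const_mul, i1.2, i2.2]
    _ ≤ 4 * C * s + ε := by linarith

end P6

end Crest.Agent.H14
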