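import Mathlib
import Crest.Agent.H14.Tail
import Crest.Agent.H14.MWbd

/-!
# Row 160: path sums, second moment recursion (tools for P7)
-/

set_option autoImplicit false

open MeasureTheory Filter Topology

namespace Crest.Agent.H14.P6

open Crest.Agent.H14

open scoped Classical

section Log

/-- truncated logarithm of the damping factor -/
noncomputable def gl (lam ρ t : ℝ) : ℝ :=
  Real.log (1 - lam ^ 2 * min (t ^ 2) (ρ ^ 2)) - Real.log (1 - min (t ^ 2) (ρ ^ 2))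

theorem gl_neg (lam ρ t : ℝ) : gl lam ρ (-t) = gl lam ρ t := by
  unfold gl; rw [neg_sq]

theorem measurable_gl (lam ρ : ℝ) : Measurable (gl lam ρ) := by
  unfold gl
  fun_prop

variable {lam ρ : ℝ}

theorem log_aux (hl : 0 ≤ lam) (hl1 : lam < 1) {u v : ℝ} (_hu : 0 ≤ u) (huv : u ≤ v) (hv : v < 1) :
    0 ≤ (Real.log (1 - lam ^ 2 * v) - Real.log (1 - v)) -
      (Real.log (1 - lam ^ 2 * u) - Real.log (1 - u)) ∧
    (Real.log (1 - lam ^ 2 * v) - Real.log (1 - v)) -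
      (Real.log (1 - lam ^ 2 * u) - Real.log (1 - u)) ≤ (v - u) / (1 - v) := by
  have hl2 : lam ^ 2 < 1 := by nlinarith
  have hl20 : 0 ≤ lam ^ 2 := sq_nonneg _
  have a1 : 0 < 1 - v := by linarith
  have a2 : 0 < 1 - u := by linarith
  have a3 : 0 < 1 - lam ^ 2 * v := by nlinarith
  have a4 : 0 < 1 - lam ^ 2 * u := by nlinarith
  constructor
  · have h1 : Real.log ((1 - lam ^ 2 * u) * (1 - v)) ≤ Real.log ((1 - lam ^ 2 * v) * (1 - u)) := by
      apply Real.log_le_log (by positivity)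
      nlinarith
    rw [Real.log_mul a4.ne' a1.ne', Real.log_mul a3.ne' a2.ne'] at h1
    linarith
  · have h1 : Real.log (1 - lam ^ 2 * v) ≤ Real.log (1 - lam ^ 2 * u) := by
      apply Real.log_le_log a3
      nlinarith
    have h2 : Real.log ((1 - u) / (1 - v)) ≤ (1 - u) / (1 - v) - 1 :=
      Real.log_le_sub_one_of_pos (by positivity)
    rw [Real.log_div a2.ne' a1.ne'] at h2
    have h3 : (1 - u) / (1 - v) - 1 = (v - u) / (1 - v) := by
      field_simp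
      ring
    linarith

theorem gl_sq_lip (hl : 0 ≤ lam) (hl1 : lam < 1) (hρ : 0 ≤ ρ) (hρ1 : ρ < 1) (s t : ℝ) :
    |gl lam ρ s - gl lam ρ t| ≤ |s ^ 2 - t ^ 2| / (1 - ρ ^ 2) := by
  have hρ2 : ρ ^ 2 < 1 := by nlinarith
  have key : ∀ s t : ℝ, t ^ 2 ≤ s ^ 2 →
      |gl lam ρ s - gl lam ρ t| ≤ |s ^ 2 - t ^ 2| / (1 - ρ ^ 2) := by
    intro s t hst
    have h0 : min (t ^ 2) (ρ ^ 2) ≤ min (s ^ 2) (ρ ^ 2) := min_le_min_right _ hst
    have h1 : min (s ^ 2) (ρ ^ 2) ≤ ρ ^ 2 := min_le_right _ _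
    have h2 : 0 ≤ min (t ^ 2) (ρ ^ 2) := le_min (sq_nonneg _) (sq_nonneg _)
    obtain ⟨b1, b2⟩ := log_aux hl hl1 h2 h0 (by linarith)
    have h3 : gl lam ρ s - gl lam ρ t =
      (Real.log (1 - lam ^ 2 * min (s ^ 2) (ρ ^ 2)) - Real.log (1 - min (s ^ 2) (ρ ^ 2))) -
      (Real.log (1 - lam ^ 2 * min (t ^ 2) (ρ ^ 2)) - Real.log (1 - min (t ^ 2) (ρ ^ 2))) := rfl
    rw [h3, abs_of_nonneg b1, abs_of_nonneg (by linarith)]
    refine b2.trans ?_
    have h4 : min (s ^ 2) (ρ ^ 2) - min (t ^ 2) (ρ ^ 2) ≤ s ^ 2 - t ^ 2 := by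
      rcases le_total (s ^ 2) (ρ ^ 2) with h | h
      · rw [min_eq_left h, min_eq_left (hst.trans h)]
      · rw [min_eq_right h]
        rcases le_total (t ^ 2) (ρ ^ 2) with h' | h'
        · rw [min_eq_left h']; linarith
        · rw [min_eq_right h']; linarith
    apply div_le_div₀ (by linarith) h4 (by linarith) (by linarith)
  rcases le_total (t ^ 2) (s ^ 2) with h | h
  · exact key s t h
  · rw [abs_sub_comm, abs_sub_comm (s ^ 2)]
    exact key t s h

theorem gl_zero : gl lam ρ 0 = 0 := by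
  unfold gl
  simp [min_eq_left (sq_nonneg ρ)]

theorem gl_bdd (hl : 0 ≤ lam) (hl1 : lam < 1) (hρ : 0 ≤ ρ) (hρ1 : ρ < 1) {t : ℝ} (ht : |t| < 1) :
    |gl lam ρ t| ≤ 1 / (1 - ρ ^ 2) := by
  have hρ2 : ρ ^ 2 < 1 := by nlinarith
  have h1 := gl_sq_lip hl hl1 hρ hρ1 t 0
  rw [gl_zero, sub_zero] at h1
  refine h1.trans ?_
  apply div_le_div_of_nonneg_right _ (by linarith)
  have : t ^ 2 < 1 := by rw [sq_lt_one_iff_abs_lt_one]; exact ht
  rw [abs_of_nonneg (by nlinarith [sq_nonneg t])]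
  nlinarith

/-- global bound -/
theorem gl_bdd' (hl : 0 ≤ lam) (hl1 : lam < 1) (hρ : 0 ≤ ρ) (hρ1 : ρ < 1) (t : ℝ) :
    |gl lam ρ t| ≤ 1 / (1 - ρ ^ 2) := by
  have hρ2 : ρ ^ 2 < 1 := by nlinarith
  have h2 : 0 ≤ min (t ^ 2) (ρ ^ 2) := le_min (sq_nonneg _) (sq_nonneg _)
  have h1 : min (t ^ 2) (ρ ^ 2) ≤ ρ ^ 2 := min_le_right _ _
  obtain ⟨b1, b2⟩ := log_aux hl hl1 le_rfl h2 (by linarith)
  have : gl lam ρ t =
      (Real.log (1 - lam ^ 2 * min (t ^ 2) (ρ ^ 2)) - Real.log (1 - min (t ^ 2) (ρ ^ 2))) -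
      (Real.log (1 - lam ^ 2 * 0) - Real.log (1 - 0)) := by
    unfold gl; simp
  rw [this, abs_of_nonneg b1]
  refine b2.trans ?_
  apply div_le_div₀ zero_le_one (by linarith) (by linarith) (by linarith)

theorem gl_nonneg (hl : 0 ≤ lam) (hl1 : lam < 1) (hρ : 0 ≤ ρ) (hρ1 : ρ < 1) (t : ℝ) :
    0 ≤ gl lam ρ t := by
  have hρ2 : ρ ^ 2 < 1 := by nlinarith
  have h2 : 0 ≤ min (t ^ 2) (ρ ^ 2) := le_min (sq_nonneg _) (sq_nonneg _)
  have h1 : min (t ^ 2) (ρ ^ 2) ≤ ρ ^ 2 := min_le_right _ _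
  obtain ⟨b1, _⟩ := log_aux hl hl1 le_rfl h2 (by linarith)
  have : gl lam ρ t =
      (Real.log (1 - lam ^ 2 * min (t ^ 2) (ρ ^ 2)) - Real.log (1 - min (t ^ 2) (ρ ^ 2))) -
      (Real.log (1 - lam ^ 2 * 0) - Real.log (1 - 0)) := by
    unfold gl; simp
  rw [this]
  exact b1

theorem gl_lip (hl : 0 ≤ lam) (hl1 : lam < 1) (hρ : 0 ≤ ρ) (hρ1 : ρ < 1) {s t : ℝ} (hs : |s| < 1)
    (ht : |t| < 1) : |gl lam ρ s - gl lam ρ t| ≤ 2 / (1 - ρ ^ 2) * |s - t| := by
  have hρ2 : ρ ^ 2 < 1 := by nlinarith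
  refine (gl_sq_lip hl hl1 hρ hρ1 s t).trans ?_
  rw [div_mul_eq_mul_div]
  apply div_le_div_of_nonneg_right _ (by linarith)
  have h1 : s ^ 2 - t ^ 2 = (s + t) * (s - t) := by ring
  rw [h1, abs_mul]
  apply mul_le_mul_of_nonneg_right _ (abs_nonneg _)
  have := abs_add_le s t
  linarith

/-- the damping factor is the exponential -/
theorem gam_eq_exp (hl : 0 ≤ lam) (hl1 : lam < 1) (hρ : 0 ≤ ρ) (hρ1 : ρ < 1) {t : ℝ}
    (ht : |t| ≤ ρ) : gam lam t = Real.exp (- gl lam ρ t) := by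
  have hl2 : lam ^ 2 < 1 := by nlinarith
  have h1 : t ^ 2 ≤ ρ ^ 2 := by
    rw [← sq_abs t]
    exact pow_le_pow_left₀ (abs_nonneg t) ht 2
  have hρ2 : ρ ^ 2 < 1 := by nlinarith
  have a1 : 0 < 1 - t ^ 2 := by linarith
  have a2 : 0 < 1 - lam ^ 2 * t ^ 2 := by nlinarith [sq_nonneg t, sq_nonneg lam]
  unfold gl gam
  rw [min_eq_left h1, neg_sub, ← Real.log_div a1.ne' a2.ne', Real.exp_log (by positivity)]

end Log

section Path

variable {V : Type*} {G : SimpleGraph V} {lam : ℝ} {b : ℕ}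

theorem pth_mono (hT : G.IsTree) {W W' : Finset V} {x y : V} (hW : ParClosed G x W)
    (hsub : W ⊆ W') (hy : y ∈ W) : pth G x x y W' = pth G x x y W := by
  ext z
  rw [mem_pth, mem_pth, mem_desc, mem_desc, mem_desc, mem_desc]
  constructor
  · rintro ⟨_, h2, ⟨_, h4⟩, _, h6⟩
    have hz := anc_mem' hT hW hy h6
    exact ⟨hz, h2, ⟨hz, h4⟩, hy, h6⟩
  · rintro ⟨h1, h2, ⟨_, h4⟩, _, h6⟩
    exact ⟨hsub h1, h2, ⟨hsub h1, h4⟩, hsub hy, h6⟩

theorem PP_eq_exp [G.LocallyFinite] (h : Tr G lam b) {W : Finset V} (hW : IsSub G W) {x : V}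
    (hx : x ∈ W) {r : V → ℝ} (hr : ∀ v ∈ W, |r v| ≤ 1 / 4) (y : V) :
    PP G lam W x x y r = Real.exp (- ∑ z ∈ pth G x x y W,
      gl lam ((1 - epc lam b) / (1 + epc lam b)) (tau G lam W x z r)) := by
  have hT := h.tree
  have hρ0 : 0 ≤ (1 - epc lam b) / (1 + epc lam b) :=
    (abs_nonneg _).trans (MW_bd h hW hx hr)
  unfold PP
  rw [← Finset.sum_neg_distrib, Real.exp_sum]
  apply Finset.prod_congr rfl
  intro z hz
  have hzW := (mem_pth.1 hz).1
  apply gam_eq_exp h.nonneg h.lam_lt hρ0 (bd_lt_one h)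
  exact MW_bd h (desc_isSub hT (hW.parClosed hx) hzW) (self_mem_desc hzW)
    (fun v hv => hr v (desc_subset x z W hv))

/-- uniqueness of the ancestor at a given level -/
theorem anc_unique (hT : G.IsTree) {x : V} : ∀ (n : ℕ) {v w w' : V}, G.dist w v = n →
    G.dist x v = G.dist x w + G.dist w v → G.dist x v = G.dist x w' + G.dist w' v →
    G.dist x w = G.dist x w' → w = w' := by
  intro n
  induction n with
  | zero =>
    intro v w w' hn h1 h2 h3
    have e1 : w = v := hT.connected.dist_eq_zero_iff.1 hn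
    have e2 : G.dist w' v = 0 := by omega
    have e3 : w' = v := hT.connected.dist_eq_zero_iff.1 e2
    rw [e1, e3]
  | succ n ih =>
    intro v w w' hn h1 h2 h3
    have hvw : v ≠ w := by
      rintro rfl
      simp at hn
    have hvw' : v ≠ w' := by
      rintro rfl
      have : G.dist v v = 0 := by simp
      omega
    have h4 := par_of_dist hT h1 hvw
    have h5 := par_of_dist hT h2 hvw'
    have h6 := dist_par hT h4.1
    exact ih (v := par G x v) (by omega) h4.2.2 h5.2.2 h3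

theorem lev_desc_disjoint (hT : G.IsTree) {x z w w' : V} {W W' : Finset V} {k : ℕ}
    (hw : w ∈ lev G x z W k) (hw' : w' ∈ lev G x z W k) (hne : w ≠ w') :
    Disjoint (desc G x w W') (desc G x w' W') := by
  rw [Finset.disjoint_left]
  intro v hv hv'
  rw [mem_desc] at hv hv'
  rw [mem_lev, mem_desc] at hw hw'
  apply hne
  apply anc_unique hT _ rfl hv.2 hv'.2
  omega

theorem mem_lev_succ (hT : G.IsTree) {x y : V} {W : Finset V} (hW : ParClosed G x W) {n : ℕ} :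
    y ∈ lev G x x W (n + 1) ↔ y ∈ W ∧ y ≠ x ∧ par G x y ∈ lev G x x W n := by
  rw [mem_lev_root, mem_lev_root]
  constructor
  · rintro ⟨h1, h2⟩
    have hyx : y ≠ x := by
      rintro rfl
      simp at h2
    have h3 := dist_par hT hyx
    exact ⟨h1, hyx, hW.par_mem y h1, by omega⟩
  · rintro ⟨h1, h2, h3, h4⟩
    have h5 := dist_par hT h2
    exact ⟨h1, by omega⟩

theorem lev_succ_bot (hT : G.IsTree) {x : V} {W : Finset V} (hW : ParClosed G x W) (n : ℕ) :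
    lev G x x W (n + 1) = (lev G x x W n).biUnion (fun u => chl G x u W) := by
  ext y
  rw [mem_lev_succ hT hW, Finset.mem_biUnion]
  constructor
  · rintro ⟨h1, h2, h3⟩
    exact ⟨par G x y, h3, mem_chl.2 ⟨h1, h2, rfl⟩⟩
  · rintro ⟨u, hu, hy⟩
    rw [mem_chl] at hy
    obtain ⟨h1, h2, h3⟩ := hy
    subst h3
    exact ⟨h1, h2, hu⟩

theorem sum_lev_succ_bot (hT : G.IsTree) {x : V} {W : Finset V} (hW : ParClosed G x W) (n : ℕ)
    (f : V → ℝ) :
    ∑ y ∈ lev G x x W (n + 1), f y = ∑ u ∈ lev G x x W n, ∑ y ∈ chl G x u W, f y := by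
  rw [lev_succ_bot hT hW, Finset.sum_biUnion]
  intro u _ u' _ hne
  simp only [Function.onFun]
  rw [Finset.disjoint_left]
  intro y hy hy'
  rw [mem_chl] at hy hy'
  exact hne (hy.2.2.symm.trans hy'.2.2)

/-- exchange of the order of summation: pairs (strict ancestor, vertex) -/
theorem sum_pairs (hT : G.IsTree) {x : V} {W : Finset V} (hW : ParClosed G x W) (n : ℕ)
    (f : V → V → ℝ) :
    ∑ y ∈ lev G x x W (n + 1), ∑ z ∈ pth G x x (par G x y) W, f z y =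
      ∑ z ∈ W.filter (fun z => z ≠ x ∧ G.dist x z ≤ n),
        ∑ y ∈ lev G x z W (n + 1 - G.dist x z), f z y := by
  apply Finset.sum_comm'
  intro y z
  rw [mem_lev_root, mem_pth, Finset.mem_filter, mem_lev, desc_root, mem_desc, mem_desc]
  constructor
  · rintro ⟨⟨hy, hyn⟩, hz, hzx, _, hpy, hpd⟩
    have hyx : y ≠ x := by
      rintro rfl
      simp at hyn
    have h1 := dist_par hT hyx
    have h2 := adj_par hT hyx
    have h3 : G.dist z y ≤ G.dist z (par G x y) + 1 := by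
      have := hT.connected.dist_triangle (u := z) (v := par G x y) (w := y)
      rw [SimpleGraph.dist_eq_one_iff_adj.2 h2.symm] at this
      exact this
    have h4 := hT.connected.dist_triangle (u := x) (v := z) (w := y)
    refine ⟨⟨⟨hy, by omega⟩, by omega⟩, hz, hzx, by omega⟩
  · rintro ⟨⟨⟨hy, hyd⟩, hzy⟩, hz, hzx, hzn⟩
    have hyz : y ≠ z := by
      rintro rfl
      have : G.dist y y = 0 := by simp
      omega
    have h1 := par_of_dist hT hyd hyz
    have h2 := dist_par hT h1.1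
    refine ⟨⟨hy, by omega⟩, hz, hzx, hz, hW.par_mem y hy, h1.2.2⟩

end Path

end Crest.Agent.H14.P6
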