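import Mathlib
import Crest.Agent.H14.StepAux
import Crest.Agent.H14.StatL

/-!
# Row 160: second moment recursion along levels, variances (tools for P7)
-/

set_option autoImplicit false

open MeasureTheory Filter Topology

namespace Crest.Agent.H14.P6

open Crest.Agent.H14

open scoped Classical

section Rec

variable {V : Type*} {G : SimpleGraph V} [G.LocallyFinite] {lam : ℝ} {b : ℕ}
  {Ω : Type*} [MeasurableSpace Ω]

/-- sum along the path from `x` (excluded) to `y` (included) -/
noncomputable def Fs (G : SimpleGraph V) (x : V) (W : Finset V) (Δ : V → Ω → ℝ) (y : V) (ω : Ω) :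
    ℝ := ∑ z ∈ pth G x x y W, Δ z ω

theorem T_bound (h : Tr G lam b) {x : V} {W : Finset V} (hW : ParClosed G x W) {κ : Measure Ω}
    [IsProbabilityMeasure κ] (Δ : V → Ω → ℝ) (hΔ : ∀ z ∈ W, MemLp (Δ z) 2 κ) (N : ℕ) (δ2 : ℝ)
    (c : ℕ → ℝ) (hδ : 0 ≤ δ2) (hc : ∀ k, 0 ≤ c k)
    (ha : ∀ z ∈ W, z ≠ x → ∫ ω, Δ z ω ^ 2 ∂κ ≤ δ2)
    (hb : ∀ z ∈ W, z ≠ x → ∀ k, 1 ≤ k → G.dist x z + k ≤ N →
      2 * ∫ ω, Δ z ω * ∑ w ∈ lev G x z W k, Δ w ω ∂κ ≤ (b:ℝ) ^ k * c k) :
    ∀ n, n ≤ N → ∑ y ∈ lev G x x W n, ∫ ω, Fs G x W Δ y ω ^ 2 ∂κ ≤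
      2 * (b:ℝ) ^ n * n * (δ2 + ∑ k ∈ Finset.Ioc 0 N, c k) := by
  have hT := h.tree
  set Q := δ2 + ∑ k ∈ Finset.Ioc 0 N, c k with hQ
  have hQ0 : 0 ≤ Q := add_nonneg hδ (Finset.sum_nonneg fun k _ => hc k)
  have hpthW : ∀ y, ∀ z ∈ pth G x x y W, z ∈ W := fun y z hz => (mem_pth.1 hz).1
  have hFsL : ∀ y, MemLp (Fs G x W Δ y) 2 κ := by
    intro y
    have : Fs G x W Δ y = fun ω => ∑ z ∈ pth G x x y W, Δ z ω := rfl
    rw [this]
    exact memLp_finsetSum _ fun z hz => hΔ z (hpthW y z hz)
  have hint : ∀ z ∈ W, ∀ w ∈ W, Integrable (fun ω => Δ z ω * Δ w ω) κ :=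
    fun z hz w hw => (hΔ z hz).integrable_mul (hΔ w hw)
  have hintsq : ∀ z ∈ W, Integrable (fun ω => Δ z ω ^ 2) κ := fun z hz => (hΔ z hz).integrable_sq
  intro n
  induction n with
  | zero =>
    intro _
    rw [lev_zero hT hW.root, Finset.sum_singleton]
    have : ∀ ω, Fs G x W Δ x ω = 0 := by
      intro ω
      unfold Fs
      rw [pth_self hT, Finset.sum_empty]
    simp [this]
  | succ n ih =>
    intro hn
    have ih' := ih (by omega)
    -- expansion of the square
    have hexp : ∀ y ∈ lev G x x W (n + 1), ∫ ω, Fs G x W Δ y ω ^ 2 ∂κ =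
        ∫ ω, Δ y ω ^ 2 ∂κ + (∑ z ∈ pth G x x (par G x y) W, 2 * ∫ ω, Δ z ω * Δ y ω ∂κ) +
        ∫ ω, Fs G x W Δ (par G x y) ω ^ 2 ∂κ := by
      intro y hy
      have hy' := (mem_lev_succ hT hW).1 hy
      have hF : ∀ ω, Fs G x W Δ y ω = Δ y ω + Fs G x W Δ (par G x y) ω := by
        intro ω
        unfold Fs
        rw [pth_insert_bot hT hW (by rw [desc_root]; exact hy'.1) hy'.2.1,
          Finset.sum_insert (notMem_pth_par hT hy'.2.1)]
      have e1 : (fun ω => Fs G x W Δ y ω ^ 2) = fun ω => (Δ y ω ^ 2 +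
          ∑ z ∈ pth G x x (par G x y) W, 2 * (Δ z ω * Δ y ω)) +
          Fs G x W Δ (par G x y) ω ^ 2 := by
        funext ω
        rw [hF ω, ← Finset.mul_sum, ← Finset.sum_mul]
        unfold Fs
        ring
      have i2 : Integrable (fun ω => ∑ z ∈ pth G x x (par G x y) W, 2 * (Δ z ω * Δ y ω)) κ :=
        integrable_finsetSum _ fun z hz => (hint z (hpthW _ z hz) y hy'.1).const_mul 2
      have i12 : Integrable (fun ω => Δ y ω ^ 2 +
          ∑ z ∈ pth G x x (par G x y) W, 2 * (Δ z ω * Δ y ω)) κ := (hintsq y hy'.1).add i2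
      have i3 : Integrable (fun ω => Fs G x W Δ (par G x y) ω ^ 2) κ := (hFsL _).integrable_sq
      rw [e1, integral_add i12 i3,
        integral_add (hintsq y hy'.1) i2, integral_finsetSum _ fun z hz =>
          (hint z (hpthW _ z hz) y hy'.1).const_mul 2]
      congr 2
      apply Finset.sum_congr rfl
      intro z _
      rw [integral_const_mul]
    rw [Finset.sum_congr rfl hexp, Finset.sum_add_distrib, Finset.sum_add_distrib]
    -- first part
    have p1 : ∑ y ∈ lev G x x W (n + 1), ∫ ω, Δ y ω ^ 2 ∂κ ≤ 2 * (b:ℝ) ^ (n + 1) * δ2 := by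
      calc ∑ y ∈ lev G x x W (n + 1), ∫ ω, Δ y ω ^ 2 ∂κ
          ≤ ∑ y ∈ lev G x x W (n + 1), δ2 := by
            apply Finset.sum_le_sum
            intro y hy
            have hy' := (mem_lev_succ hT hW).1 hy
            exact ha y hy'.1 hy'.2.1
        _ = ((lev G x x W (n + 1)).card : ℝ) * δ2 := by rw [Finset.sum_const, nsmul_eq_mul]
        _ ≤ 2 * (b:ℝ) ^ (n + 1) * δ2 := by
            apply mul_le_mul_of_nonneg_right _ hδ
            exact_mod_cast card_lev_root h hW (n + 1)
    -- second part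
    have p2 : ∑ y ∈ lev G x x W (n + 1), ∑ z ∈ pth G x x (par G x y) W,
        2 * ∫ ω, Δ z ω * Δ y ω ∂κ ≤ 2 * (b:ℝ) ^ (n + 1) * ∑ k ∈ Finset.Ioc 0 N, c k := by
      rw [sum_pairs hT hW n (fun z y => 2 * ∫ ω, Δ z ω * Δ y ω ∂κ)]
      have q1 : ∀ z ∈ W.filter (fun z => z ≠ x ∧ G.dist x z ≤ n),
          ∑ y ∈ lev G x z W (n + 1 - G.dist x z), 2 * ∫ ω, Δ z ω * Δ y ω ∂κ ≤
          (b:ℝ) ^ (n + 1 - G.dist x z) * c (n + 1 - G.dist x z) := by
        intro z hz
        rw [Finset.mem_filter] at hz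
        refine le_trans (le_of_eq ?_) (hb z hz.1 hz.2.1 (n + 1 - G.dist x z) (by omega) (by omega))
        rw [← Finset.mul_sum, ← integral_finsetSum]
        · congr 2
          funext ω
          rw [Finset.mul_sum]
        · intro w hw
          rw [mem_lev] at hw
          exact hint z hz.1 w (desc_subset x z W hw.1)
      refine (Finset.sum_le_sum q1).trans ?_
      -- group by the level
      have hmaps : ∀ z ∈ W.filter (fun z => z ≠ x ∧ G.dist x z ≤ n),
          G.dist x z ∈ Finset.Ioc 0 n := by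
        intro z hz
        rw [Finset.mem_filter] at hz
        rw [Finset.mem_Ioc]
        exact ⟨hT.connected.pos_dist_of_ne (Ne.symm hz.2.1), hz.2.2⟩
      rw [← Finset.sum_fiberwise_of_maps_to hmaps]
      calc ∑ j ∈ Finset.Ioc 0 n, ∑ z ∈ (W.filter (fun z => z ≠ x ∧ G.dist x z ≤ n)).filter
            (fun z => G.dist x z = j), (b:ℝ) ^ (n + 1 - G.dist x z) * c (n + 1 - G.dist x z)
          ≤ ∑ j ∈ Finset.Ioc 0 n, 2 * (b:ℝ) ^ (n + 1) * c (n + 1 - j) := by
            apply Finset.sum_le_sum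
            intro j hj
            rw [Finset.mem_Ioc] at hj
            calc ∑ z ∈ (W.filter (fun z => z ≠ x ∧ G.dist x z ≤ n)).filter
                  (fun z => G.dist x z = j),
                  (b:ℝ) ^ (n + 1 - G.dist x z) * c (n + 1 - G.dist x z)
                = ∑ z ∈ (W.filter (fun z => z ≠ x ∧ G.dist x z ≤ n)).filter
                  (fun z => G.dist x z = j), (b:ℝ) ^ (n + 1 - j) * c (n + 1 - j) := by
                  apply Finset.sum_congr rfl
                  intro z hz
                  rw [(Finset.mem_filter.1 hz).2]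
              _ = (((W.filter (fun z => z ≠ x ∧ G.dist x z ≤ n)).filter
                  (fun z => G.dist x z = j)).card : ℝ) *
                  ((b:ℝ) ^ (n + 1 - j) * c (n + 1 - j)) := by
                  rw [Finset.sum_const, nsmul_eq_mul]
              _ ≤ (2 * (b:ℝ) ^ j) * ((b:ℝ) ^ (n + 1 - j) * c (n + 1 - j)) := by
                  apply mul_le_mul_of_nonneg_right _ (mul_nonneg (by positivity) (hc _))
                  have h1 : ((W.filter (fun z => z ≠ x ∧ G.dist x z ≤ n)).filter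
                      (fun z => G.dist x z = j)).card ≤ (lev G x x W j).card := by
                    apply Finset.card_le_card
                    intro z hz
                    rw [Finset.mem_filter, Finset.mem_filter] at hz
                    exact mem_lev_root.2 ⟨hz.1.1, hz.2⟩
                  exact_mod_cast h1.trans (card_lev_root h hW j)
              _ = 2 * (b:ℝ) ^ (n + 1) * c (n + 1 - j) := by
                  have : (b:ℝ) ^ (n + 1) = (b:ℝ) ^ j * (b:ℝ) ^ (n + 1 - j) := by
                    rw [← pow_add]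
                    congr 1
                    omega
                  rw [this]
                  ring
        _ = 2 * (b:ℝ) ^ (n + 1) * ∑ j ∈ Finset.Ioc 0 n, c (n + 1 - j) := by
            rw [Finset.mul_sum]
        _ = 2 * (b:ℝ) ^ (n + 1) * ∑ k ∈ Finset.Ioc 0 n, c k := by
            congr 1
            refine Finset.sum_nbij' (fun j => n + 1 - j) (fun j => n + 1 - j) ?_ ?_ ?_ ?_ ?_
            · intro j hj
              simp only [Finset.mem_Ioc] at hj ⊢
              omega
            · intro j hj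
              simp only [Finset.mem_Ioc] at hj ⊢
              omega
            · intro j hj
              simp only [Finset.mem_Ioc] at hj
              omega
            · intro j hj
              simp only [Finset.mem_Ioc] at hj
              omega
            · intro j _
              rfl
        _ ≤ 2 * (b:ℝ) ^ (n + 1) * ∑ k ∈ Finset.Ioc 0 N, c k := by
            apply mul_le_mul_of_nonneg_left _ (by positivity)
            apply Finset.sum_le_sum_of_subset_of_nonneg
            · exact Finset.Ioc_subset_Ioc_right (by omega)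
            · intro k _ _
              exact hc k
    -- third part
    have p3 : ∑ y ∈ lev G x x W (n + 1), ∫ ω, Fs G x W Δ (par G x y) ω ^ 2 ∂κ ≤
        b * (2 * (b:ℝ) ^ n * n * Q) := by
      rw [sum_lev_succ_bot hT hW n (fun y => ∫ ω, Fs G x W Δ (par G x y) ω ^ 2 ∂κ)]
      calc ∑ u ∈ lev G x x W n, ∑ y ∈ chl G x u W, ∫ ω, Fs G x W Δ (par G x y) ω ^ 2 ∂κ
          ≤ ∑ u ∈ lev G x x W n, b * ∫ ω, Fs G x W Δ u ω ^ 2 ∂κ := by
            apply Finset.sum_le_sum
            intro u _
            have e1 : ∑ y ∈ chl G x u W, ∫ ω, Fs G x W Δ (par G x y) ω ^ 2 ∂κ =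
                ((chl G x u W).card : ℝ) * ∫ ω, Fs G x W Δ u ω ^ 2 ∂κ := by
              rw [← nsmul_eq_mul, ← Finset.sum_const]
              apply Finset.sum_congr rfl
              intro y hy
              rw [(mem_chl.1 hy).2.2]
            rw [e1]
            by_cases hux : u = x
            · subst hux
              have : ∀ ω, Fs G u W Δ u ω = 0 := by
                intro ω
                unfold Fs
                rw [pth_self hT, Finset.sum_empty]
              simp [this]
            · apply mul_le_mul_of_nonneg_right _ (integral_nonneg fun ω => sq_nonneg _)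
              have := card_chl_le hT h.reg hux W
              simp only [Nat.add_sub_cancel] at this
              exact_mod_cast this
        _ = b * ∑ u ∈ lev G x x W n, ∫ ω, Fs G x W Δ u ω ^ 2 ∂κ := by rw [Finset.mul_sum]
        _ ≤ b * (2 * (b:ℝ) ^ n * n * Q) := mul_le_mul_of_nonneg_left ih' (by positivity)
    have e : 2 * (b:ℝ) ^ (n + 1) * ((n + 1 : ℕ) : ℝ) * Q = 2 * (b:ℝ) ^ (n + 1) * δ2 +
        2 * (b:ℝ) ^ (n + 1) * ∑ k ∈ Finset.Ioc 0 N, c k + b * (2 * (b:ℝ) ^ n * n * Q) := by
      rw [hQ]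
      push_cast
      ring
    rw [e]
    linarith

end Rec

section Var

variable {V : Type*} {G : SimpleGraph V} [Countable V] {lam : ℝ} {b : ℕ}

theorem var_sum (h : Tr G lam b) {ν : Measure ℝ} {ρ : ℝ} (hν : Null ν ρ) {W : Finset V}
    (hW : IsSub G W) {x : V} (hx : x ∈ W) (L : Finset V) (hL : ∀ w ∈ L, w ∈ W ∧ w ≠ x)
    (hdis : ∀ w ∈ L, ∀ w' ∈ L, w ≠ w' → Disjoint (desc G x w W) (desc G x w' W))
    {φ : ℝ → ℝ} (hφm : Measurable φ) (hφe : ∀ t, φ (-t) = φ t) {B : ℝ}
    (hφb : ∀ t, |t| < 1 → |φ t| ≤ B) :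
    EI G lam ν W (fun r => (∑ w ∈ L, (φ (tau G lam W x w r) -
      EI G lam ν W (fun r => φ (tau G lam W x w r)))) ^ 2) ≤ L.card * B ^ 2 := by
  have hT := h.tree
  have hne : W.Nonempty := ⟨x, hx⟩
  set m : V → ℝ := fun w => EI G lam ν W (fun r => φ (tau G lam W x w r)) with hm
  set F : V → (V → ℝ) → ℝ := fun w r => φ (tau G lam W x w r) - m w with hF
  have hb' : ∃ C, ∀ t : ℝ, |t| < 1 → |φ t| ≤ C := ⟨B, hφb⟩
  have hFt : ∀ w ∈ L, Tst (desc G x w W) (F w) := fun w hw =>
    tst_sub (tst_ftau h (hL w hw).1 hφm hb') (tst_const _)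
  have hFt' : ∀ w ∈ L, Tst W (F w) := fun w hw => tst_mono (hFt w hw) (desc_subset x w W)
  have hφt : ∀ w ∈ L, Tst W (fun r => φ (tau G lam W x w r)) := fun w hw =>
    tst_ftau' h (hL w hw).1 hφm hb'
  have hFe : ∀ w ∈ L, EvenOn (desc G x w W) (F w) := by
    intro w hw r
    have h1 := even_ftau (G := G) (lam := lam) h (hL w hw).1 (x := x) hφe r
    simp only at h1
    simp only [hF]
    rw [h1]
  have hF0 : ∀ w ∈ L, EI G lam ν W (F w) = 0 := by
    intro w hw
    simp only [hF]
    rw [EI_sub h hν (hφt w hw) (tst_const _), EI_const h hν hW hne]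
    simp only [hm]
    ring
  -- off diagonal terms vanish
  have hoff : ∀ w ∈ L, ∀ w' ∈ L, w ≠ w' → EI G lam ν W (fun r => F w r * F w' r) = 0 := by
    intro w hw w' hw' hne'
    have hwW := (hL w hw).1
    have hwx := (hL w hw).2
    have hsub : desc G x w' W ⊆ W \ desc G x w W := by
      intro v hv
      rw [Finset.mem_sdiff]
      refine ⟨desc_subset x w' W hv, fun hv' => ?_⟩
      exact Finset.disjoint_left.1 (hdis w hw w' hw' hne') hv' hv
    have h1 := EI_indep h hν hW hx hwW hwx (hFt w hw) (hFe w hw) (tst_mono (hFt w' hw') hsub)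
    have h2 : EI G lam ν W (F w) = EI G lam ν (desc G x w W) (F w) :=
      EI_marg h hν (desc_isSub hT (hW.parClosed hx) hwW) ⟨w, self_mem_desc hwW⟩ hW
        (desc_subset x w W) (hFt w hw)
    rw [h1, ← h2, hF0 w hw, zero_mul]
  -- diagonal terms
  have hdiag : ∀ w ∈ L, EI G lam ν W (fun r => F w r * F w r) ≤ B ^ 2 := by
    intro w hw
    have e1 : (fun r => F w r * F w r) = fun r => (φ (tau G lam W x w r) ^ 2 + m w ^ 2) -
        2 * m w * φ (tau G lam W x w r) := by
      funext r
      simp only [hF]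
      ring
    rw [e1, EI_sub h hν (tst_add (tst_pow (hφt w hw) 2) (tst_const _))
      (tst_mul (tst_const _) (hφt w hw)), EI_add h hν (tst_pow (hφt w hw) 2) (tst_const _),
      EI_const h hν hW hne, EI_const_mul]
    have e2 : EI G lam ν W (fun r => φ (tau G lam W x w r)) = m w := rfl
    rw [e2]
    have h3 : EI G lam ν W (fun r => φ (tau G lam W x w r) ^ 2) ≤ B ^ 2 := by
      apply EI_le_const h hν hW hne (tst_pow (hφt w hw) 2)
      intro r hr
      have := hφb _ (tau_abs_lt h (x := x) (hL w hw).1 hr)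
      rw [← sq_abs]
      exact pow_le_pow_left₀ (abs_nonneg _) this 2
    nlinarith [sq_nonneg (m w)]
  have e3 : (fun r => (∑ w ∈ L, F w r) ^ 2) = fun r => ∑ w ∈ L, ∑ w' ∈ L, F w r * F w' r := by
    funext r
    rw [sq, Finset.sum_mul_sum]
  show EI G lam ν W (fun r => (∑ w ∈ L, F w r) ^ 2) ≤ L.card * B ^ 2
  rw [e3, EI_sum h hν L _ fun w hw => tst_sum L fun w' hw' => tst_mul (hFt' w hw) (hFt' w' hw')]
  calc ∑ w ∈ L, EI G lam ν W (fun r => ∑ w' ∈ L, F w r * F w' r)
      ≤ ∑ w ∈ L, B ^ 2 := by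
        apply Finset.sum_le_sum
        intro w hw
        rw [EI_sum h hν L _ fun w' hw' => tst_mul (hFt' w hw) (hFt' w' hw')]
        rw [Finset.sum_eq_single_of_mem w hw]
        · exact hdiag w hw
        · intro w' hw' hne'
          exact hoff w hw w' hw' (Ne.symm hne')
    _ = L.card * B ^ 2 := by rw [Finset.sum_const, nsmul_eq_mul]

end Var

end Crest.Agent.H14.P6
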