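import Mathlib
import Crest.Agent.H14.StepRec

/-!
# Row 160: the fixed window estimates of step A (tools for P7)
-/

set_option autoImplicit false

open MeasureTheory Filter Topology

namespace Crest.Agent.H14.P6

open Crest.Agent.H14

open scoped Classical

section Gen

theorem stat_bd {V : Type*} [Countable V] {G : SimpleGraph V} {lam : ℝ} {ν : Measure ℝ} {ρ : ℝ}
    (hν : Null ν ρ) {W : Finset V} {κ : Measure (V → ℝ)} (hκ : IsStat G lam ν W κ) :
    ∀ᵐ r ∂κ, ∀ v ∈ W, |r v| ≤ ρ := by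
  have hms : MeasurableSet {r : V → ℝ | ∀ v ∈ W, |r v| ≤ ρ} := by
    have : {r : V → ℝ | ∀ v ∈ W, |r v| ≤ ρ} = ⋂ v ∈ W, {r | |r v| ≤ ρ} := by
      ext r; simp
    rw [this]
    exact Finset.measurableSet_biInter _ fun v _ =>
      measurableSet_le (by fun_prop) measurable_const
  have hdep : ∀ r r' : V → ℝ, (∀ v ∈ (W : Set V), r v = r' v) →
      ((∀ v ∈ W, |r v| ≤ ρ) ↔ (∀ v ∈ W, |r' v| ≤ ρ)) := by
    intro r r' hr
    exact forall₂_congr fun v hv => by rw [hr v (by simpa using hv)]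
  rw [ae_iff]
  have h1 := hκ (Set.indicator {r : V → ℝ | ¬ ∀ v ∈ W, |r v| ≤ ρ} (fun _ => 1))
    (measurable_const.indicator hms.compl) (by
      intro r r' hr
      have := hdep r r' hr
      simp only [Set.indicator_apply, Set.mem_ofPred_eq, this])
  have h2 : ∫⁻ r, Set.indicator {r : V → ℝ | ¬ ∀ v ∈ W, |r v| ≤ ρ} (fun _ => (1 : ENNReal)) r ∂κ =
      κ {r : V → ℝ | ¬ ∀ v ∈ W, |r v| ≤ ρ} := by
    have hms' : MeasurableSet {r : V → ℝ | ¬ ∀ v ∈ W, |r v| ≤ ρ} := hms.compl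
    rw [lintegral_indicator hms', setLIntegral_one]
  rw [← h2, h1]
  have h3 : ∀ᵐ r ∂(Nm V ν), Set.indicator {r : V → ℝ | ¬ ∀ v ∈ W, |r v| ≤ ρ}
      (fun _ => (1 : ENNReal)) r * ENNReal.ofReal (LW G lam W r) = 0 := by
    filter_upwards [ae_bd hν W] with r hr
    have : r ∉ {r : V → ℝ | ¬ ∀ v ∈ W, |r v| ≤ ρ} := fun hn => hn hr
    rw [Set.indicator_of_notMem this, zero_mul]
  rw [lintegral_congr_ae h3, lintegral_zero]

/-- Hölder's inequality in the form needed -/
theorem holder_bd {Ω : Type*} [MeasurableSpace Ω] {κ : Measure Ω} [IsProbabilityMeasure κ]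
    {X Y : Ω → ℝ} (hXm : Measurable X) (hYm : Measurable Y) (p : ℕ) (hp : 2 ≤ p)
    (hX : ∀ᵐ ω ∂κ, 0 ≤ X ω ∧ X ω ≤ 4) (hY : ∀ᵐ ω ∂κ, 0 ≤ Y ω ∧ Y ω ≤ 4) {a : ℝ} (ha : 0 ≤ a)
    (hXp : ∫ ω, X ω ^ p ∂κ ≤ a ^ p) :
    ∫ ω, X ω * Y ω ∂κ ≤ a * (4 * (∫ ω, Y ω ∂κ) ^ (1 - 1 / (p:ℝ))) := by
  have hp1 : (1:ℝ) < p := by exact_mod_cast (show 1 < p by omega)
  have hp0 : (0:ℝ) < p := by linarith
  set q : ℝ := p / (p - 1) with hq
  have hq1 : 1 < q := by
    rw [hq, one_lt_div (by linarith)]; linarith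
  have hpq : (p:ℝ).HolderConjugate q := by
    rw [Real.holderConjugate_iff]
    refine ⟨hp1, ?_⟩
    rw [hq]
    field_simp
    ring
  have hqinv : 1 / q = 1 - 1 / (p:ℝ) := by
    rw [hq]
    field_simp
  have hXL : MemLp X (ENNReal.ofReal p) κ :=
    MemLp.of_bound hXm.aestronglyMeasurable 4 (by
      filter_upwards [hX] with ω hω
      rw [Real.norm_of_nonneg hω.1]; exact hω.2)
  have hYL : MemLp Y (ENNReal.ofReal q) κ :=
    MemLp.of_bound hYm.aestronglyMeasurable 4 (by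
      filter_upwards [hY] with ω hω
      rw [Real.norm_of_nonneg hω.1]; exact hω.2)
  have h1 := integral_mul_le_Lp_mul_Lq_of_nonneg hpq (hX.mono fun ω hω => hω.1)
    (hY.mono fun ω hω => hω.1) hXL hYL
  refine h1.trans ?_
  have hYint : Integrable Y κ := by
    apply Integrable.of_bound hYm.aestronglyMeasurable 4
    filter_upwards [hY] with ω hω
    rw [Real.norm_of_nonneg hω.1]; exact hω.2
  have hY0 : 0 ≤ ∫ ω, Y ω ∂κ := integral_nonneg_of_ae (hY.mono fun ω hω => hω.1)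
  have e1 : (∫ ω, X ω ^ (p:ℝ) ∂κ) ^ (1 / (p:ℝ)) ≤ a := by
    have e0 : ∫ ω, X ω ^ (p:ℝ) ∂κ = ∫ ω, X ω ^ p ∂κ := by
      congr 1
      funext ω
      rw [Real.rpow_natCast]
    rw [e0]
    have hnn : 0 ≤ ∫ ω, X ω ^ p ∂κ := by
      apply integral_nonneg_of_ae
      filter_upwards [hX] with ω hω
      exact pow_nonneg hω.1 p
    calc (∫ ω, X ω ^ p ∂κ) ^ (1 / (p:ℝ)) ≤ (a ^ p) ^ (1 / (p:ℝ)) :=
          Real.rpow_le_rpow hnn hXp (by positivity)
      _ = a := by
          rw [← Real.rpow_natCast, ← Real.rpow_mul ha]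
          rw [mul_one_div_cancel hp0.ne', Real.rpow_one]
  have e2 : (∫ ω, Y ω ^ q ∂κ) ^ (1 / q) ≤ 4 * (∫ ω, Y ω ∂κ) ^ (1 - 1 / (p:ℝ)) := by
    have h4 : ∫ ω, Y ω ^ q ∂κ ≤ (4:ℝ) ^ q * ∫ ω, Y ω ∂κ := by
      rw [← integral_const_mul]
      apply integral_mono_of_nonneg
      · filter_upwards [hY] with ω hω
        exact Real.rpow_nonneg hω.1 q
      · exact hYint.const_mul _
      · filter_upwards [hY] with ω hω
        have h5 : Y ω ^ q = (4:ℝ) ^ q * (Y ω / 4) ^ q := by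
          rw [← Real.mul_rpow (by norm_num) (by linarith [hω.1])]
          congr 1
          ring
        rw [h5]
        apply mul_le_mul_of_nonneg_left _ (by positivity)
        have h6 : (Y ω / 4) ^ q ≤ (Y ω / 4) ^ (1:ℝ) := by
          apply Real.rpow_le_rpow_of_exponent_ge' (by linarith [hω.1]) (by linarith [hω.2])
            zero_le_one hq1.le
        rw [Real.rpow_one] at h6
        linarith [hω.1]
    have hnn : 0 ≤ ∫ ω, Y ω ^ q ∂κ := by
      apply integral_nonneg_of_ae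
      filter_upwards [hY] with ω hω
      exact Real.rpow_nonneg hω.1 q
    calc (∫ ω, Y ω ^ q ∂κ) ^ (1 / q) ≤ ((4:ℝ) ^ q * ∫ ω, Y ω ∂κ) ^ (1 / q) :=
          Real.rpow_le_rpow hnn h4 (by positivity)
      _ = 4 * (∫ ω, Y ω ∂κ) ^ (1 - 1 / (p:ℝ)) := by
          rw [Real.mul_rpow (by positivity) hY0, ← Real.rpow_mul (by norm_num),
            mul_one_div_cancel (by linarith), Real.rpow_one, hqinv]
  apply mul_le_mul e1 e2 _ ha
  apply Real.rpow_nonneg
  apply integral_nonneg_of_ae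
  filter_upwards [hY] with ω hω
  exact Real.rpow_nonneg hω.1 q

end Gen

section Fixed

variable {V : Type*} {G : SimpleGraph V} [G.LocallyFinite] [Countable V] {lam : ℝ} {b : ℕ}

/-- the uniform bound -/
noncomputable def rh (lam : ℝ) (b : ℕ) : ℝ := (1 - epc lam b) / (1 + epc lam b)

omit [G.LocallyFinite] [Countable V] in
theorem rh_nonneg (h : Tr G lam b) : 0 ≤ rh lam b := by
  have h1 := epc_pos h
  have hl0 := h.nonneg
  have hl1 := h.lam_lt
  unfold rh
  apply div_nonneg _ (by linarith)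
  have : epc lam b ≤ 1 := by
    unfold epc
    have h2 : ((1 - lam) / (1 + lam)) ^ (b + 1) ≤ 1 := by
      apply pow_le_one₀
      · apply div_nonneg <;> linarith
      · rw [div_le_one (by linarith)]; linarith
    linarith
  linarith

omit [G.LocallyFinite] [Countable V] in
theorem rh_lt (h : Tr G lam b) : rh lam b < 1 := bd_lt_one h

/-- bound of `gl` -/
noncomputable def B0 (lam : ℝ) (b : ℕ) : ℝ := 1 / (1 - rh lam b ^ 2)

omit [G.LocallyFinite] [Countable V] in
theorem B0_pos (h : Tr G lam b) : 0 < B0 lam b := by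
  have h1 := rh_nonneg h
  have h2 := rh_lt h
  unfold B0
  apply div_pos one_pos
  nlinarith

/-- difference of the logarithms of the damping factors at `z` -/
noncomputable def Dl (G : SimpleGraph V) [G.LocallyFinite] (lam : ℝ) (b : ℕ) (w : WP V) (x z : V)
    (p : (V → ℝ) × (V → ℝ)) : ℝ :=
  gl lam (rh lam b) (tau G lam (W1 G w) x z p.1) - gl lam (rh lam b) (tau G lam (W2 G w) x z p.2)

omit [Countable V] in
theorem measurable_Dl (w : WP V) (x z : V) : Measurable (Dl G lam b w x z) := by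
  unfold Dl
  apply Measurable.sub
  · exact ((measurable_gl lam _).comp (measurable_MW _ _)).comp measurable_fst
  · exact ((measurable_gl lam _).comp (measurable_MW _ _)).comp measurable_snd

omit [Countable V] in
theorem abs_Dl_le (h : Tr G lam b) (w : WP V) (x z : V) (p : (V → ℝ) × (V → ℝ)) :
    |Dl G lam b w x z p| ≤ 2 * B0 lam b := by
  unfold Dl B0
  have h1 := gl_bdd' h.nonneg h.lam_lt (rh_nonneg h) (rh_lt h) (tau G lam (W1 G w) x z p.1)
  have h2 := gl_bdd' h.nonneg h.lam_lt (rh_nonneg h) (rh_lt h) (tau G lam (W2 G w) x z p.2)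
  have h3 := abs_sub (gl lam (rh lam b) (tau G lam (W1 G w) x z p.1))
    (gl lam (rh lam b) (tau G lam (W2 G w) x z p.2))
  linarith

variable {ν : Measure ℝ} {κ : WP V → Measure ((V → ℝ) × (V → ℝ))}

omit [Countable V] in
theorem memLp_Dl (h : Tr G lam b) (hκ : Coup G lam ν κ) (w : WP V) (x z : V) :
    MemLp (Dl G lam b w x z) 2 (κ w) := by
  have := hκ.prob w
  apply MemLp.of_bound (measurable_Dl w x z).aestronglyMeasurable (2 * B0 lam b)
  exact ae_of_all _ fun p => by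
    rw [Real.norm_eq_abs]; exact abs_Dl_le h w x z p

theorem bd1 {ρ : ℝ} (hν : Null ν ρ) (hκ : Coup G lam ν κ) (w : WP V) :
    ∀ᵐ p ∂(κ w), ∀ v ∈ W1 G w, |p.1 v| ≤ ρ :=
  ae_of_ae_map measurable_fst.aemeasurable (stat_bd hν (hκ.fst w))

theorem bd2 {ρ : ℝ} (hν : Null ν ρ) (hκ : Coup G lam ν κ) (w : WP V) :
    ∀ᵐ p ∂(κ w), ∀ v ∈ W2 G w, |p.2 v| ≤ ρ :=
  ae_of_ae_map measurable_snd.aemeasurable (stat_bd hν (hκ.snd w))

/-- second moment of `Dl` -/
theorem Dl_sq (h : Tr G lam b) {ρ : ℝ} (hν : Null ν ρ) {s : ℝ} (hs : Mom ν s)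
    (hκ : Coup G lam ν κ) (w : WP V) {x z : V} (hx1 : x ∈ W1 G w) (hx2 : x ∈ W2 G w)
    (hz1 : z ∈ W1 G w) (hz2 : z ∈ W2 G w) (hzx : z ≠ x) (p : ℕ) (hp : 2 ≤ p) {C : ℝ} (hC : 1 ≤ C)
    (hmom : ∀ W : Finset V, IsSub G W → ∀ u ∈ W,
      EI G lam ν W (fun r => MW G lam W u r ^ (2 * p)) ≤ C * s ^ p)
    {q : ℝ} (hq : 0 ≤ q) (hDz : Dq G lam κ z w ≤ q) (hDp : Dq G lam κ (par G x z) w ≤ q) :
    ∫ P, Dl G lam b w x z P ^ 2 ∂(κ w) ≤
      64 * C * ((1 + lam) / (1 - lam)) ^ 2 * B0 lam b ^ 2 * s * q ^ (1 - 1 / (p:ℝ)) := by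
  have hT := h.tree
  have hprob := hκ.prob w
  have hs0 := hs.pos
  have hW1 : IsSub G (W1 G w) := isSub_bl hT _ _
  have hW2 : IsSub G (W2 G w) := isSub_bl hT _ _
  have hA1 := adm1 h hν hκ w
  have hA2 := adm2 h hν hκ w
  set T1 : (V → ℝ) × (V → ℝ) → ℝ := fun P => tau G lam (W1 G w) x z P.1 with hT1
  set T2 : (V → ℝ) × (V → ℝ) → ℝ := fun P => tau G lam (W2 G w) x z P.2 with hT2
  have mT1 : Measurable T1 := (measurable_MW _ _).comp measurable_fst
  have mT2 : Measurable T2 := (measurable_MW _ _).comp measurable_snd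
  have b1 : ∀ᵐ P ∂(κ w), |T1 P| < 1 := hA1.mono fun P hP => tau_abs_lt h hz1 hP
  have b2 : ∀ᵐ P ∂(κ w), |T2 P| < 1 := hA2.mono fun P hP => tau_abs_lt h hz2 hP
  set Λ := (1 + lam) / (1 - lam) with hΛ
  have hΛ1 : 1 ≤ Λ := by
    rw [hΛ, one_le_div (by linarith [h.lam_lt])]
    linarith [h.nonneg]
  set X : (V → ℝ) × (V → ℝ) → ℝ := fun P => (T1 P + T2 P) ^ 2 with hX
  set Y : (V → ℝ) × (V → ℝ) → ℝ := fun P => (T1 P - T2 P) ^ 2 with hY
  have mX : Measurable X := (mT1.add mT2).pow_const 2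
  have mY : Measurable Y := (mT1.sub mT2).pow_const 2
  have hXb : ∀ᵐ P ∂(κ w), 0 ≤ X P ∧ X P ≤ 4 := by
    filter_upwards [b1, b2] with P h1 h2
    refine ⟨sq_nonneg _, ?_⟩
    have h3 := abs_lt.1 h1
    have h4 := abs_lt.1 h2
    simp only [hX]
    nlinarith
  have hYb : ∀ᵐ P ∂(κ w), 0 ≤ Y P ∧ Y P ≤ 4 := by
    filter_upwards [b1, b2] with P h1 h2
    refine ⟨sq_nonneg _, ?_⟩
    have h3 := abs_lt.1 h1
    have h4 := abs_lt.1 h2
    simp only [hY]
    nlinarith
  -- moments of X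
  have t1 : Tst (W1 G w) (fun r => tau G lam (W1 G w) x z r ^ (2 * p)) :=
    tst_pow (tst_mono (tst_tau h hz1) (desc_subset x z _)) _
  have t2 : Tst (W2 G w) (fun r => tau G lam (W2 G w) x z r ^ (2 * p)) :=
    tst_pow (tst_mono (tst_tau h hz2) (desc_subset x z _)) _
  have i1 := int1 h hν hκ w t1
  have i2 := int2 h hν hκ w t2
  have m1 : EI G lam ν (W1 G w) (fun r => tau G lam (W1 G w) x z r ^ (2 * p)) ≤ C * s ^ p := by
    have hD : IsSub G (desc G x z (W1 G w)) := desc_isSub hT (hW1.parClosed hx1) hz1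
    rw [EI_marg h hν hD ⟨z, self_mem_desc hz1⟩ hW1 (desc_subset x z _)
      (tst_pow (tst_tau h hz1) _)]
    exact hmom _ hD z (self_mem_desc hz1)
  have m2 : EI G lam ν (W2 G w) (fun r => tau G lam (W2 G w) x z r ^ (2 * p)) ≤ C * s ^ p := by
    have hD : IsSub G (desc G x z (W2 G w)) := desc_isSub hT (hW2.parClosed hx2) hz2
    rw [EI_marg h hν hD ⟨z, self_mem_desc hz2⟩ hW2 (desc_subset x z _)
      (tst_pow (tst_tau h hz2) _)]
    exact hmom _ hD z (self_mem_desc hz2)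
  have hXp : ∫ P, X P ^ p ∂(κ w) ≤ (4 * C * s) ^ p := by
    calc ∫ P, X P ^ p ∂(κ w)
        ≤ ∫ P, (2 ^ (p - 1) * 2 ^ p * tau G lam (W1 G w) x z P.1 ^ (2 * p) +
            2 ^ (p - 1) * 2 ^ p * tau G lam (W2 G w) x z P.2 ^ (2 * p)) ∂(κ w) := by
          apply integral_mono_of_nonneg
          · exact ae_of_all _ fun P => pow_nonneg (sq_nonneg _) p
          · exact (i1.1.const_mul _).add (i2.1.const_mul _)
          · refine ae_of_all _ fun P => ?_
            simp only [hX]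
            have e1 : ((T1 P + T2 P) ^ 2) ^ p ≤ (2 * T1 P ^ 2 + 2 * T2 P ^ 2) ^ p := by
              apply pow_le_pow_left₀ (sq_nonneg _)
              nlinarith [sq_nonneg (T1 P - T2 P)]
            have e2 := add_pow_le (show 0 ≤ 2 * T1 P ^ 2 by positivity)
              (show 0 ≤ 2 * T2 P ^ 2 by positivity) p
            refine e1.trans (e2.trans (le_of_eq ?_))
            simp only [hT1, hT2]
            rw [mul_pow, mul_pow, ← pow_mul, ← pow_mul]
            ring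
      _ = 2 ^ (p - 1) * 2 ^ p * EI G lam ν (W1 G w) (fun r =>
            tau G lam (W1 G w) x z r ^ (2 * p)) + 2 ^ (p - 1) * 2 ^ p *
            EI G lam ν (W2 G w) (fun r => tau G lam (W2 G w) x z r ^ (2 * p)) := by
          rw [integral_add (i1.1.const_mul _) (i2.1.const_mul _), integral_const_mul,
            integral_const_mul, i1.2, i2.2]
      _ ≤ 2 ^ (p - 1) * 2 ^ p * (C * s ^ p) + 2 ^ (p - 1) * 2 ^ p * (C * s ^ p) := by
          gcongr
      _ = 4 ^ p * (C * s ^ p) := by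
          have e3 : (2:ℝ) ^ (p - 1) * 2 = 2 ^ p := by
            rw [← pow_succ]; congr 1; omega
          have e4 : (4:ℝ) ^ p = 2 ^ p * 2 ^ p := by
            rw [← mul_pow]; norm_num
          rw [e4, ← e3]
          ring
      _ ≤ 4 ^ p * (C ^ p * s ^ p) := by
          apply mul_le_mul_of_nonneg_left _ (by positivity)
          apply mul_le_mul_of_nonneg_right _ (by positivity)
          calc C = C ^ 1 := (pow_one C).symm
            _ ≤ C ^ p := pow_le_pow_right₀ hC (by omega)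
      _ = (4 * C * s) ^ p := by rw [mul_pow, mul_pow]; ring
  have hHol := holder_bd mX mY p hp hXb hYb (by positivity : (0:ℝ) ≤ 4 * C * s) hXp
  -- first moment of Y
  have hpx1 : par G x z ∈ W1 G w := hW1 x hx1 z hz1
  have hpx2 : par G x z ∈ W2 G w := hW2 x hx2 z hz2
  have hYint : ∫ P, Y P ∂(κ w) ≤ 4 * Λ ^ 2 * q := by
    have iz : ∀ u, u ∈ W1 G w → u ∈ W2 G w → Integrable (fun P =>
        (MW G lam (W1 G w) u P.1 - MW G lam (W2 G w) u P.2) ^ 2) (κ w) := by
      intro u hu1 hu2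
      apply Integrable.of_bound _ 4
      · filter_upwards [hA1, hA2] with P h1 h2
        have h3 := abs_lt.1 (MW_abs_lt h hu1 h1)
        have h4 := abs_lt.1 (MW_abs_lt h hu2 h2)
        rw [Real.norm_of_nonneg (sq_nonneg _)]
        nlinarith
      · exact ((((measurable_MW _ _).comp measurable_fst).sub
          ((measurable_MW _ _).comp measurable_snd)).pow_const 2).aestronglyMeasurable
    calc ∫ P, Y P ∂(κ w)
        ≤ ∫ P, (2 * Λ ^ 2 * (MW G lam (W1 G w) z P.1 - MW G lam (W2 G w) z P.2) ^ 2 +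
          2 * Λ ^ 2 * (MW G lam (W1 G w) (par G x z) P.1 -
            MW G lam (W2 G w) (par G x z) P.2) ^ 2) ∂(κ w) := by
          apply integral_mono_of_nonneg
          · exact hYb.mono fun P hP => hP.1
          · exact ((iz z hz1 hz2).const_mul _).add ((iz _ hpx1 hpx2).const_mul _)
          · filter_upwards [hA1, hA2] with P h1 h2
            have h3 := tau_lip h hW1 hW2 hx1 hx2 hz1 hz2 hzx h1 h2
            simp only [hY]
            have h4 : (T1 P - T2 P) ^ 2 = |T1 P - T2 P| ^ 2 := (sq_abs _).symm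
            rw [h4]
            have h5 := pow_le_pow_left₀ (abs_nonneg _) h3 2
            refine h5.trans ?_
            rw [mul_pow]
            set a1 := |MW G lam (W1 G w) z P.1 - MW G lam (W2 G w) z P.2| with ha1
            set a2 := |MW G lam (W1 G w) (par G x z) P.1 - MW G lam (W2 G w) (par G x z) P.2|
              with ha2
            have e1 : (MW G lam (W1 G w) z P.1 - MW G lam (W2 G w) z P.2) ^ 2 = a1 ^ 2 :=
              (sq_abs _).symm
            have e2 : (MW G lam (W1 G w) (par G x z) P.1 -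
              MW G lam (W2 G w) (par G x z) P.2) ^ 2 = a2 ^ 2 := (sq_abs _).symm
            rw [e1, e2]
            have : 0 ≤ Λ ^ 2 := sq_nonneg _
            nlinarith [mul_nonneg this (sq_nonneg (a1 - a2))]
      _ = 2 * Λ ^ 2 * Dq G lam κ z w + 2 * Λ ^ 2 * Dq G lam κ (par G x z) w := by
          rw [integral_add ((iz z hz1 hz2).const_mul _) ((iz _ hpx1 hpx2).const_mul _),
            integral_const_mul, integral_const_mul]
          rfl
      _ ≤ 2 * Λ ^ 2 * q + 2 * Λ ^ 2 * q := by gcongr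
      _ = 4 * Λ ^ 2 * q := by ring
  have hθ0 : 0 ≤ 1 - 1 / (p:ℝ) := by
    have : (1:ℝ) ≤ p := by exact_mod_cast (show 1 ≤ p by omega)
    rw [sub_nonneg, div_le_one (by linarith)]
    exact this
  have hθ1 : 1 - 1 / (p:ℝ) ≤ 1 := by
    have : 0 ≤ 1 / (p:ℝ) := by positivity
    linarith
  have hYpow : (∫ P, Y P ∂(κ w)) ^ (1 - 1 / (p:ℝ)) ≤ 4 * Λ ^ 2 * q ^ (1 - 1 / (p:ℝ)) := by
    calc (∫ P, Y P ∂(κ w)) ^ (1 - 1 / (p:ℝ)) ≤ (4 * Λ ^ 2 * q) ^ (1 - 1 / (p:ℝ)) :=
          Real.rpow_le_rpow (integral_nonneg_of_ae (hYb.mono fun P hP => hP.1)) hYint hθ0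
      _ = (4 * Λ ^ 2) ^ (1 - 1 / (p:ℝ)) * q ^ (1 - 1 / (p:ℝ)) := by
          rw [Real.mul_rpow (by positivity) hq]
      _ ≤ (4 * Λ ^ 2) ^ (1:ℝ) * q ^ (1 - 1 / (p:ℝ)) := by
          apply mul_le_mul_of_nonneg_right _ (Real.rpow_nonneg hq _)
          apply Real.rpow_le_rpow_of_exponent_le _ hθ1
          nlinarith
      _ = _ := by rw [Real.rpow_one]
  -- conclusion
  have hB0 := B0_pos (G := G) h
  have hρ2 : 0 < 1 - rh lam b ^ 2 := by
    have h1 := rh_nonneg h
    have h2 := rh_lt h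
    nlinarith
  have iXY : Integrable (fun P => X P * Y P) (κ w) := by
    apply Integrable.of_bound (mX.mul mY).aestronglyMeasurable 16
    filter_upwards [hXb, hYb] with P h1 h2
    show ‖X P * Y P‖ ≤ 16
    rw [Real.norm_of_nonneg (mul_nonneg h1.1 h2.1)]
    calc X P * Y P ≤ 4 * 4 := mul_le_mul h1.2 h2.2 h2.1 (by norm_num)
      _ = 16 := by norm_num
  calc ∫ P, Dl G lam b w x z P ^ 2 ∂(κ w)
      ≤ ∫ P, B0 lam b ^ 2 * (X P * Y P) ∂(κ w) := by
        apply integral_mono_of_nonneg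
        · exact ae_of_all _ fun P => sq_nonneg _
        · exact iXY.const_mul _
        · refine ae_of_all _ fun P => ?_
          have h1 := gl_sq_lip h.nonneg h.lam_lt (rh_nonneg h) (rh_lt h) (T1 P) (T2 P)
          have h2 : |Dl G lam b w x z P| ≤ B0 lam b * |T1 P ^ 2 - T2 P ^ 2| := by
            unfold Dl B0
            rw [one_div_mul_eq_div]
            exact h1
          have h3 := pow_le_pow_left₀ (abs_nonneg _) h2 2
          rw [sq_abs, mul_pow, sq_abs] at h3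
          refine h3.trans (le_of_eq ?_)
          simp only [hX, hY]
          ring
    _ = B0 lam b ^ 2 * ∫ P, X P * Y P ∂(κ w) := integral_const_mul _ _
    _ ≤ B0 lam b ^ 2 * (4 * C * s * (4 * (4 * Λ ^ 2 * q ^ (1 - 1 / (p:ℝ))))) := by
        apply mul_le_mul_of_nonneg_left _ (sq_nonneg _)
        refine hHol.trans ?_
        apply mul_le_mul_of_nonneg_left _ (by positivity)
        linarith
    _ = _ := by ring

end Fixed

end Crest.Agent.H14.P6
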