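import Mathlib
import Crest.Agent.H14.StepCore

/-!
# Row 160: the fixed window estimates of step A, part 2 (tools for P7)
-/

set_option autoImplicit false

open MeasureTheory Filter Topology

namespace Crest.Agent.H14.P6

open Crest.Agent.H14

open scoped Classical

section Fixed

variable {V : Type*} {G : SimpleGraph V} [G.LocallyFinite] [Countable V] {lam : ℝ} {b : ℕ}
  {ν : Measure ℝ} {κ : WP V → Measure ((V → ℝ) × (V → ℝ))}

/-- mean of the truncated logarithm -/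
noncomputable def mg (G : SimpleGraph V) (lam : ℝ) (b : ℕ) (ν : Measure ℝ) (W : Finset V)
    (x u : V) : ℝ := EI G lam ν W (fun r => gl lam (rh lam b) (tau G lam W x u r))

omit [G.LocallyFinite] [Countable V] in
theorem int_aux {Ω : Type*} [MeasurableSpace Ω] {κ : Measure Ω} [IsProbabilityMeasure κ]
    {f g : Ω → ℝ} (hf : Integrable f κ) (hg : Integrable g κ) (a c : ℝ) :
    ∫ ω, (a * f ω + a * g ω + c) ∂κ = a * ∫ ω, f ω ∂κ + a * ∫ ω, g ω ∂κ + c := by
  have j : Integrable (fun ω => a * f ω + a * g ω) κ := (hf.const_mul a).add (hg.const_mul a)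
  rw [integral_add j (integrable_const c), integral_add (hf.const_mul a) (hg.const_mul a),
    integral_const_mul, integral_const_mul, integral_const]
  simp

/-- second moment of the sum over a level below `z` -/
theorem sum_Dl_sq (h : Tr G lam b) {ρ : ℝ} (hν : Null ν ρ) (hκ : Coup G lam ν κ) (w : WP V)
    {x z : V} {B : Finset V} (hP : ParClosed G x B) (hB1 : B ⊆ W1 G w) (hB2 : B ⊆ W2 G w)
    (hz : z ∈ B) (hzx : z ≠ x) (k : ℕ) {ε₀ : ℝ} (hε : 0 ≤ ε₀)
    (hmean : ∀ u ∈ B, u ≠ x → |mg G lam b ν (W1 G w) x u - mg G lam b ν (W2 G w) x u| ≤ ε₀) :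
    ∫ P, (∑ u ∈ lev G x z B k, Dl G lam b w x u P) ^ 2 ∂(κ w) ≤
      6 * ((b:ℝ) ^ k * B0 lam b ^ 2) + 3 * ((b:ℝ) ^ k * ε₀) ^ 2 := by
  have hT := h.tree
  have hprob := hκ.prob w
  have hW1 : IsSub G (W1 G w) := isSub_bl hT _ _
  have hW2 : IsSub G (W2 G w) := isSub_bl hT _ _
  have hxB : x ∈ B := hP.root
  set L := lev G x z B k with hL
  have hLB : ∀ u ∈ L, u ∈ B ∧ u ≠ x := by
    intro u hu
    rw [hL, mem_lev, mem_desc] at hu
    refine ⟨hu.1.1, ?_⟩
    rintro rfl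
    have h1 := hT.connected.pos_dist_of_ne (Ne.symm hzx)
    have h2 := hu.1.2
    simp only [SimpleGraph.dist_self] at h2
    omega
  have hcard : (L.card : ℝ) ≤ (b:ℝ) ^ k := by exact_mod_cast card_lev h hP k z hz hzx
  have hglm := measurable_gl lam (rh lam b)
  have hgle := gl_neg lam (rh lam b)
  have hglb : ∀ t : ℝ, |t| < 1 → |gl lam (rh lam b) t| ≤ B0 lam b := fun t _ =>
    gl_bdd' h.nonneg h.lam_lt (rh_nonneg h) (rh_lt h) t
  have hglb' : ∃ C, ∀ t : ℝ, |t| < 1 → |gl lam (rh lam b) t| ≤ C := ⟨_, hglb⟩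
  -- the two centred sums
  have v1 := var_sum h hν hW1 (hB1 hxB) L (fun u hu => ⟨hB1 (hLB u hu).1, (hLB u hu).2⟩)
    (fun u hu u' hu' hne => lev_desc_disjoint hT hu hu' hne) hglm hgle hglb
  have v2 := var_sum h hν hW2 (hB2 hxB) L (fun u hu => ⟨hB2 (hLB u hu).1, (hLB u hu).2⟩)
    (fun u hu u' hu' hne => lev_desc_disjoint hT hu hu' hne) hglm hgle hglb
  have t1 : Tst (W1 G w) (fun r => (∑ u ∈ L, (gl lam (rh lam b) (tau G lam (W1 G w) x u r) -
      EI G lam ν (W1 G w) (fun r => gl lam (rh lam b) (tau G lam (W1 G w) x u r)))) ^ 2) :=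
    tst_pow (tst_sum L fun u hu => tst_sub (tst_ftau' h (hB1 (hLB u hu).1) hglm hglb')
      (tst_const _)) 2
  have t2 : Tst (W2 G w) (fun r => (∑ u ∈ L, (gl lam (rh lam b) (tau G lam (W2 G w) x u r) -
      EI G lam ν (W2 G w) (fun r => gl lam (rh lam b) (tau G lam (W2 G w) x u r)))) ^ 2) :=
    tst_pow (tst_sum L fun u hu => tst_sub (tst_ftau' h (hB2 (hLB u hu).1) hglm hglb')
      (tst_const _)) 2
  have i1 := int1 h hν hκ w t1
  have i2 := int2 h hν hκ w t2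
  rw [← i1.2] at v1
  rw [← i2.2] at v2
  set A3 := ∑ u ∈ L, (mg G lam b ν (W1 G w) x u - mg G lam b ν (W2 G w) x u) with hA3
  have hA3le : A3 ^ 2 ≤ ((b:ℝ) ^ k * ε₀) ^ 2 := by
    rw [← sq_abs A3]
    apply pow_le_pow_left₀ (abs_nonneg _)
    calc |A3| ≤ ∑ u ∈ L, |mg G lam b ν (W1 G w) x u - mg G lam b ν (W2 G w) x u| :=
          Finset.abs_sum_le_sum_abs _ _
      _ ≤ ∑ u ∈ L, ε₀ := Finset.sum_le_sum fun u hu => hmean u (hLB u hu).1 (hLB u hu).2
      _ = L.card * ε₀ := by rw [Finset.sum_const, nsmul_eq_mul]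
      _ ≤ (b:ℝ) ^ k * ε₀ := mul_le_mul_of_nonneg_right hcard hε
  calc ∫ P, (∑ u ∈ L, Dl G lam b w x u P) ^ 2 ∂(κ w)
      ≤ ∫ P, (3 * (∑ u ∈ L, (gl lam (rh lam b) (tau G lam (W1 G w) x u P.1) -
          EI G lam ν (W1 G w) (fun r => gl lam (rh lam b) (tau G lam (W1 G w) x u r)))) ^ 2 +
        3 * (∑ u ∈ L, (gl lam (rh lam b) (tau G lam (W2 G w) x u P.2) -
          EI G lam ν (W2 G w) (fun r => gl lam (rh lam b) (tau G lam (W2 G w) x u r)))) ^ 2 +
        3 * A3 ^ 2) ∂(κ w) := by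
        apply integral_mono_of_nonneg
        · exact ae_of_all _ fun P => sq_nonneg _
        · exact ((i1.1.const_mul 3).add (i2.1.const_mul 3)).add (integrable_const _)
        · refine ae_of_all _ fun P => ?_
          simp only
          set a1 := ∑ u ∈ L, (gl lam (rh lam b) (tau G lam (W1 G w) x u P.1) -
            EI G lam ν (W1 G w) (fun r => gl lam (rh lam b) (tau G lam (W1 G w) x u r))) with ha1
          set a2 := ∑ u ∈ L, (gl lam (rh lam b) (tau G lam (W2 G w) x u P.2) -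
            EI G lam ν (W2 G w) (fun r => gl lam (rh lam b) (tau G lam (W2 G w) x u r))) with ha2
          have e : ∑ u ∈ L, Dl G lam b w x u P = a1 - a2 + A3 := by
            rw [ha1, ha2, hA3, ← Finset.sum_sub_distrib, ← Finset.sum_add_distrib]
            apply Finset.sum_congr rfl
            intro u _
            unfold Dl mg
            ring
          rw [e]
          nlinarith [sq_nonneg (a1 + a2), sq_nonneg (a1 - A3), sq_nonneg (a2 + A3)]
    _ = 3 * ∫ P, (∑ u ∈ L, (gl lam (rh lam b) (tau G lam (W1 G w) x u P.1) -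
          EI G lam ν (W1 G w) (fun r => gl lam (rh lam b) (tau G lam (W1 G w) x u r)))) ^ 2
          ∂(κ w) +
        3 * ∫ P, (∑ u ∈ L, (gl lam (rh lam b) (tau G lam (W2 G w) x u P.2) -
          EI G lam ν (W2 G w) (fun r => gl lam (rh lam b) (tau G lam (W2 G w) x u r)))) ^ 2
          ∂(κ w) + 3 * A3 ^ 2 := by
        exact int_aux i1.1 i2.1 3 (3 * A3 ^ 2)
    _ ≤ 3 * (L.card * B0 lam b ^ 2) + 3 * (L.card * B0 lam b ^ 2) + 3 * ((b:ℝ) ^ k * ε₀) ^ 2 := by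
        linarith
    _ ≤ 6 * ((b:ℝ) ^ k * B0 lam b ^ 2) + 3 * ((b:ℝ) ^ k * ε₀) ^ 2 := by
        have := mul_le_mul_of_nonneg_right hcard (sq_nonneg (B0 lam b))
        linarith

/-- the coefficients of the cross terms -/
noncomputable def cf (δ2 v ε₀ : ℝ) (k₀ : ℕ) (k : ℕ) : ℝ :=
  if k ≤ k₀ then 2 * δ2 else (3 / 4 : ℝ) ^ k * (δ2 + 6 * v) + 3 * (4 / 3 : ℝ) ^ k * ε₀ ^ 2

theorem cross_bd (h : Tr G lam b) {ρ : ℝ} (hν : Null ν ρ) (hκ : Coup G lam ν κ) (w : WP V)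
    {x z : V} {B : Finset V} (hP : ParClosed G x B) (hB1 : B ⊆ W1 G w) (hB2 : B ⊆ W2 G w)
    (hz : z ∈ B) (hzx : z ≠ x) (k : ℕ) {ε₀ : ℝ} (hε : 0 ≤ ε₀)
    (hmean : ∀ u ∈ B, u ≠ x → |mg G lam b ν (W1 G w) x u - mg G lam b ν (W2 G w) x u| ≤ ε₀)
    {δ2 : ℝ} (hδ : 0 ≤ δ2)
    (ha : ∀ z ∈ B, z ≠ x → ∫ P, Dl G lam b w x z P ^ 2 ∂(κ w) ≤ δ2) (k₀ : ℕ) :
    2 * ∫ P, Dl G lam b w x z P * ∑ u ∈ lev G x z B k, Dl G lam b w x u P ∂(κ w) ≤
      (b:ℝ) ^ k * cf δ2 (B0 lam b ^ 2) ε₀ k₀ k := by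
  have hT := h.tree
  have hprob := hκ.prob w
  have hb2 : (2:ℝ) ≤ b := by exact_mod_cast h.two
  set L := lev G x z B k with hL
  have hLB : ∀ u ∈ L, u ∈ B ∧ u ≠ x := by
    intro u hu
    rw [hL, mem_lev, mem_desc] at hu
    refine ⟨hu.1.1, ?_⟩
    rintro rfl
    have h1 := hT.connected.pos_dist_of_ne (Ne.symm hzx)
    have h2 := hu.1.2
    simp only [SimpleGraph.dist_self] at h2
    omega
  have hcard : (L.card : ℝ) ≤ (b:ℝ) ^ k := by exact_mod_cast card_lev h hP k z hz hzx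
  have hmem : ∀ u, MemLp (Dl G lam b w x u) 2 (κ w) := fun u => memLp_Dl h hκ w x u
  have hmul : ∀ u, Integrable (fun P => Dl G lam b w x z P * Dl G lam b w x u P) (κ w) :=
    fun u => (hmem z).integrable_mul (hmem u)
  have hsumL : MemLp (fun P => ∑ u ∈ L, Dl G lam b w x u P) 2 (κ w) :=
    memLp_finsetSum _ fun u _ => hmem u
  unfold cf
  split_ifs with hk
  · -- trivial bound
    calc 2 * ∫ P, Dl G lam b w x z P * ∑ u ∈ L, Dl G lam b w x u P ∂(κ w)
        = ∑ u ∈ L, 2 * ∫ P, Dl G lam b w x z P * Dl G lam b w x u P ∂(κ w) := by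
          rw [← Finset.mul_sum, ← integral_finsetSum _ fun u _ => hmul u]
          congr 2
          funext P
          rw [Finset.mul_sum]
      _ ≤ ∑ u ∈ L, 2 * δ2 := by
          apply Finset.sum_le_sum
          intro u hu
          have e : 2 * ∫ P, Dl G lam b w x z P * Dl G lam b w x u P ∂(κ w) ≤
              ∫ P, (Dl G lam b w x z P ^ 2 + Dl G lam b w x u P ^ 2) ∂(κ w) := by
            rw [← integral_const_mul]
            apply integral_mono
            · exact (hmul u).const_mul 2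
            · exact (hmem z).integrable_sq.add (hmem u).integrable_sq
            · intro P
              simp only
              nlinarith [sq_nonneg (Dl G lam b w x z P - Dl G lam b w x u P)]
          rw [integral_add (hmem z).integrable_sq (hmem u).integrable_sq] at e
          linarith [ha z hz hzx, ha u (hLB u hu).1 (hLB u hu).2]
      _ = L.card * (2 * δ2) := by rw [Finset.sum_const, nsmul_eq_mul]
      _ ≤ (b:ℝ) ^ k * (2 * δ2) := mul_le_mul_of_nonneg_right hcard (by linarith)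
  · -- bound by the variance
    have hS := sum_Dl_sq h hν hκ w hP hB1 hB2 hz hzx k hε hmean
    have hbk : (0:ℝ) < (b:ℝ) ^ k := by positivity
    set a : ℝ := (3 / 4 : ℝ) ^ k with hadef
    have ha0 : 0 < a := by positivity
    set η : ℝ := (b:ℝ) ^ k * a with hη
    have hη0 : 0 < η := by positivity
    have e : 2 * ∫ P, Dl G lam b w x z P * ∑ u ∈ L, Dl G lam b w x u P ∂(κ w) ≤
        ∫ P, (η * Dl G lam b w x z P ^ 2 + 1 / η *
          (∑ u ∈ L, Dl G lam b w x u P) ^ 2) ∂(κ w) := by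
      rw [← integral_const_mul]
      apply integral_mono
      · exact ((hmem z).integrable_mul hsumL).const_mul 2
      · exact ((hmem z).integrable_sq.const_mul _).add (hsumL.integrable_sq.const_mul _)
      · intro P
        simp only
        set d := Dl G lam b w x z P with hd
        set S := ∑ u ∈ L, Dl G lam b w x u P with hSdef
        have h1 : η * d ^ 2 + 1 / η * S ^ 2 - 2 * (d * S) = 1 / η * (η * d - S) ^ 2 := by
          field_simp
          ring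
        have h2 : 0 ≤ 1 / η * (η * d - S) ^ 2 := by positivity
        linarith
    rw [integral_add ((hmem z).integrable_sq.const_mul _) (hsumL.integrable_sq.const_mul _),
      integral_const_mul, integral_const_mul] at e
    have h1 : η * ∫ P, Dl G lam b w x z P ^ 2 ∂(κ w) ≤ η * δ2 :=
      mul_le_mul_of_nonneg_left (ha z hz hzx) hη0.le
    have h2 : 1 / η * ∫ P, (∑ u ∈ L, Dl G lam b w x u P) ^ 2 ∂(κ w) ≤
        1 / η * (6 * ((b:ℝ) ^ k * B0 lam b ^ 2) + 3 * ((b:ℝ) ^ k * ε₀) ^ 2) :=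
      mul_le_mul_of_nonneg_left hS (by positivity)
    have h3 : 1 / η * (6 * ((b:ℝ) ^ k * B0 lam b ^ 2) + 3 * ((b:ℝ) ^ k * ε₀) ^ 2) =
        6 * B0 lam b ^ 2 / a + (b:ℝ) ^ k * (3 * ε₀ ^ 2 / a) := by
      rw [hη]
      field_simp
    have h4 : 1 / a = (4 / 3 : ℝ) ^ k := by
      rw [hadef, one_div, ← inv_pow]
      norm_num
    have h5 : 6 * B0 lam b ^ 2 / a ≤ (b:ℝ) ^ k * (a * (6 * B0 lam b ^ 2)) := by
      rw [div_le_iff₀ ha0]
      have h6 : 1 ≤ (b:ℝ) ^ k * (a * a) := by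
        have : (b:ℝ) ^ k * (a * a) = (b * (9 / 16) : ℝ) ^ k := by
          rw [hadef, ← mul_pow, ← mul_pow]
          norm_num
        rw [this]
        apply one_le_pow₀
        nlinarith
      have h7 : 0 ≤ 6 * B0 lam b ^ 2 := by positivity
      nlinarith [mul_le_mul_of_nonneg_right h6 h7]
    have h8 : (b:ℝ) ^ k * (3 * ε₀ ^ 2 / a) = (b:ℝ) ^ k * (3 * (4 / 3 : ℝ) ^ k * ε₀ ^ 2) := by
      rw [← h4]
      field_simp
    calc 2 * ∫ P, Dl G lam b w x z P * ∑ u ∈ L, Dl G lam b w x u P ∂(κ w)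
        ≤ η * δ2 + (6 * B0 lam b ^ 2 / a + (b:ℝ) ^ k * (3 * ε₀ ^ 2 / a)) := by linarith
      _ ≤ η * δ2 + ((b:ℝ) ^ k * (a * (6 * B0 lam b ^ 2)) +
          (b:ℝ) ^ k * (3 * (4 / 3 : ℝ) ^ k * ε₀ ^ 2)) := by linarith
      _ = _ := by rw [hη]; ring

theorem cf_nonneg {δ2 v ε₀ : ℝ} (hδ : 0 ≤ δ2) (hv : 0 ≤ v) (k₀ k : ℕ) : 0 ≤ cf δ2 v ε₀ k₀ k := by
  unfold cf
  split_ifs
  · linarith
  · positivity

theorem sum_cf {δ2 v ε₀ : ℝ} (hδ : 0 ≤ δ2) (hv : 0 ≤ v) (k₀ N : ℕ) :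
    ∑ k ∈ Finset.Ioc 0 N, cf δ2 v ε₀ k₀ k ≤
      2 * k₀ * δ2 + 4 * (3 / 4 : ℝ) ^ k₀ * (δ2 + 6 * v) + 3 * N * (4 / 3 : ℝ) ^ N * ε₀ ^ 2 := by
  have h1 : ∀ k ∈ Finset.Ioc 0 N, cf δ2 v ε₀ k₀ k ≤
      (if k ≤ k₀ then 2 * δ2 else 0) + (if k ≤ k₀ then 0 else (3 / 4 : ℝ) ^ k * (δ2 + 6 * v)) +
        3 * (4 / 3 : ℝ) ^ N * ε₀ ^ 2 := by
    intro k hk
    rw [Finset.mem_Ioc] at hk
    unfold cf
    split_ifs with h
    · have : 0 ≤ 3 * (4 / 3 : ℝ) ^ N * ε₀ ^ 2 := by positivity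
      linarith
    · have h2 : (4 / 3 : ℝ) ^ k ≤ (4 / 3 : ℝ) ^ N := pow_le_pow_right₀ (by norm_num) hk.2
      have h3 := mul_le_mul_of_nonneg_right h2 (sq_nonneg ε₀)
      linarith
  refine (Finset.sum_le_sum h1).trans ?_
  rw [Finset.sum_add_distrib, Finset.sum_add_distrib]
  have p1 : ∑ k ∈ Finset.Ioc 0 N, (if k ≤ k₀ then 2 * δ2 else 0) ≤ 2 * k₀ * δ2 := by
    rw [← Finset.sum_filter, Finset.sum_const, nsmul_eq_mul]
    have : ((Finset.Ioc 0 N).filter (fun k => k ≤ k₀)).card ≤ k₀ := by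
      calc ((Finset.Ioc 0 N).filter (fun k => k ≤ k₀)).card ≤ (Finset.Ioc 0 k₀).card := by
            apply Finset.card_le_card
            intro k hk
            rw [Finset.mem_filter, Finset.mem_Ioc] at hk
            rw [Finset.mem_Ioc]
            omega
        _ = k₀ := by simp
    have h2 : (((Finset.Ioc 0 N).filter (fun k => k ≤ k₀)).card : ℝ) ≤ k₀ := by exact_mod_cast this
    nlinarith
  have p2 : ∑ k ∈ Finset.Ioc 0 N, (if k ≤ k₀ then 0 else (3 / 4 : ℝ) ^ k * (δ2 + 6 * v)) ≤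
      4 * (3 / 4 : ℝ) ^ k₀ * (δ2 + 6 * v) := by
    have q1 : ∑ k ∈ Finset.Ioc 0 N, (if k ≤ k₀ then 0 else (3 / 4 : ℝ) ^ k * (δ2 + 6 * v)) ≤
        ∑ k ∈ Finset.Ioc k₀ N, (3 / 4 : ℝ) ^ k * (δ2 + 6 * v) := by
      have : ∀ k, (if k ≤ k₀ then 0 else (3 / 4 : ℝ) ^ k * (δ2 + 6 * v)) =
          if k₀ < k then (3 / 4 : ℝ) ^ k * (δ2 + 6 * v) else 0 := by
        intro k
        by_cases hk : k ≤ k₀
        · rw [if_pos hk, if_neg (by omega)]
        · rw [if_neg hk, if_pos (by omega)]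
      simp only [this]
      rw [← Finset.sum_filter]
      apply Finset.sum_le_sum_of_subset_of_nonneg
      · intro k hk
        rw [Finset.mem_filter, Finset.mem_Ioc] at hk
        rw [Finset.mem_Ioc]
        omega
      · intro k _ _
        positivity
    refine q1.trans ?_
    rw [← Finset.sum_mul]
    apply mul_le_mul_of_nonneg_right _ (by positivity)
    have q2 := geom_tail (ρ := 3 / 4) (by norm_num) (by norm_num) k₀ 0 N
    simp only [Nat.sub_zero, Nat.cast_zero, zero_add] at q2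
    refine q2.trans (le_of_eq ?_)
    norm_num
    ring
  have p3 : ∑ _k ∈ Finset.Ioc 0 N, 3 * (4 / 3 : ℝ) ^ N * ε₀ ^ 2 =
      3 * N * (4 / 3 : ℝ) ^ N * ε₀ ^ 2 := by
    rw [Finset.sum_const, nsmul_eq_mul]
    simp
    ring
  linarith

end Fixed

end Crest.Agent.H14.P6
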