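import Mathlib
import Crest.Agent.H14.StepCross

/-!
# Row 160: the fixed window estimates of step A, part 3 (tools for P7)
-/

set_option autoImplicit false

open MeasureTheory Filter Topology

namespace Crest.Agent.H14.P6

open Crest.Agent.H14

open scoped Classical

theorem exp_neg_lip {a c : ℝ} (ha : 0 ≤ a) (hc : 0 ≤ c) :
    |Real.exp (-a) - Real.exp (-c)| ≤ |a - c| := by
  have key : ∀ a c : ℝ, 0 ≤ a → a ≤ c → |Real.exp (-a) - Real.exp (-c)| ≤ |a - c| := by
    intro a c ha hac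
    have h1 : Real.exp (-c) ≤ Real.exp (-a) := Real.exp_le_exp.2 (by linarith)
    rw [abs_of_nonneg (by linarith), abs_of_nonpos (by linarith)]
    have h2 : Real.exp (-c) = Real.exp (-a) * Real.exp (-(c - a)) := by
      rw [← Real.exp_add]; congr 1; ring
    have h3 := Real.add_one_le_exp (-(c - a))
    have h4 : Real.exp (-a) ≤ 1 := Real.exp_le_one_iff.2 (by linarith)
    have h5 : 0 < Real.exp (-a) := Real.exp_pos _
    rw [h2]
    nlinarith
  rcases le_total a c with h | h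
  · exact key a c ha h
  · rw [abs_sub_comm, abs_sub_comm a]
    exact key c a hc h

section Fixed

variable {V : Type*} {G : SimpleGraph V} [G.LocallyFinite] {lam : ℝ} {b : ℕ}

/-- pointwise bound of the difference of the covariances -/
theorem KK_diff (h : Tr G lam b) (w : WP V) {x y : V} {B : Finset V} (hP : ParClosed G x B)
    (hB1 : B ⊆ W1 G w) (hB2 : B ⊆ W2 G w) (hy : y ∈ B) {p : (V → ℝ) × (V → ℝ)}
    (h1 : ∀ v ∈ W1 G w, |p.1 v| ≤ 1 / 4) (h2 : ∀ v ∈ W2 G w, |p.2 v| ≤ 1 / 4) :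
    (KW G lam (W1 G w) x y p.1 - KW G lam (W2 G w) x y p.2) ^ 2 ≤
      (lam ^ G.dist x y) ^ 2 * (8 * (MW G lam (W1 G w) x p.1 - MW G lam (W2 G w) x p.2) ^ 2 +
        2 * Fs G x B (Dl G lam b w x) y p ^ 2) := by
  have hT := h.tree
  have hW1 : IsSub G (W1 G w) := isSub_bl hT _ _
  have hW2 : IsSub G (W2 G w) := isSub_bl hT _ _
  have hx1 := hB1 hP.root
  have hx2 := hB2 hP.root
  have a1 : Adm (W1 G w) p.1 := fun v hv => (h1 v hv).trans_lt (by norm_num)
  have a2 : Adm (W2 G w) p.2 := fun v hv => (h2 v hv).trans_lt (by norm_num)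
  rw [KW_prod h hW1 hx1 (hB1 hy) a1, KW_prod h hW2 hx2 (hB2 hy) a2,
    PP_eq_exp h hW1 hx1 h1, PP_eq_exp h hW2 hx2 h2,
    pth_mono hT hP hB1 hy, pth_mono hT hP hB2 hy]
  have hrh : (1 - epc lam b) / (1 + epc lam b) = rh lam b := rfl
  rw [hrh]
  set F1 := ∑ z ∈ pth G x x y B, gl lam (rh lam b) (tau G lam (W1 G w) x z p.1) with hF1
  set F2 := ∑ z ∈ pth G x x y B, gl lam (rh lam b) (tau G lam (W2 G w) x z p.2) with hF2
  have hF1n : 0 ≤ F1 := Finset.sum_nonneg fun z _ =>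
    gl_nonneg h.nonneg h.lam_lt (rh_nonneg h) (rh_lt h) _
  have hF2n : 0 ≤ F2 := Finset.sum_nonneg fun z _ =>
    gl_nonneg h.nonneg h.lam_lt (rh_nonneg h) (rh_lt h) _
  have hFs : Fs G x B (Dl G lam b w x) y p = F1 - F2 := by
    rw [hF1, hF2, ← Finset.sum_sub_distrib]
    rfl
  rw [hFs]
  set M1 := MW G lam (W1 G w) x p.1 with hM1
  set M2 := MW G lam (W2 G w) x p.2 with hM2
  have b1 := abs_lt.1 (MW_abs_lt h hx1 a1)
  have b2 := abs_lt.1 (MW_abs_lt h hx2 a2)
  rw [← hM1] at b1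
  rw [← hM2] at b2
  set e1 := Real.exp (-F1) with he1
  set e2 := Real.exp (-F2) with he2
  have e1n : 0 < e1 := Real.exp_pos _
  have e1le : e1 ≤ 1 := Real.exp_le_one_iff.2 (by linarith)
  have hexp := exp_neg_lip hF1n hF2n
  rw [← he1, ← he2] at hexp
  have hexp2 : (e1 - e2) ^ 2 ≤ (F1 - F2) ^ 2 := by
    rw [← sq_abs (e1 - e2), ← sq_abs (F1 - F2)]
    exact pow_le_pow_left₀ (abs_nonneg _) hexp 2
  have w2n : 0 ≤ 1 - M2 ^ 2 := by nlinarith
  have w2le : 1 - M2 ^ 2 ≤ 1 := by nlinarith [sq_nonneg M2]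
  have hw : (M2 ^ 2 - M1 ^ 2) ^ 2 ≤ 4 * (M1 - M2) ^ 2 := by
    have h3 : (M2 ^ 2 - M1 ^ 2) ^ 2 = (M1 + M2) ^ 2 * (M1 - M2) ^ 2 := by ring
    rw [h3]
    apply mul_le_mul_of_nonneg_right _ (sq_nonneg _)
    nlinarith
  have hmain : ((1 - M1 ^ 2) * e1 - (1 - M2 ^ 2) * e2) ^ 2 ≤
      8 * (M1 - M2) ^ 2 + 2 * (F1 - F2) ^ 2 := by
    have h4 : (1 - M1 ^ 2) * e1 - (1 - M2 ^ 2) * e2 =
        (M2 ^ 2 - M1 ^ 2) * e1 + (1 - M2 ^ 2) * (e1 - e2) := by ring
    rw [h4]
    have h5 : ((M2 ^ 2 - M1 ^ 2) * e1) ^ 2 ≤ 4 * (M1 - M2) ^ 2 := by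
      rw [mul_pow]
      have : e1 ^ 2 ≤ 1 := pow_le_one₀ e1n.le e1le
      nlinarith [sq_nonneg (M2 ^ 2 - M1 ^ 2)]
    have h6 : ((1 - M2 ^ 2) * (e1 - e2)) ^ 2 ≤ (F1 - F2) ^ 2 := by
      rw [mul_pow]
      have : (1 - M2 ^ 2) ^ 2 ≤ 1 := pow_le_one₀ w2n w2le
      nlinarith [sq_nonneg (e1 - e2)]
    nlinarith [sq_nonneg ((M2 ^ 2 - M1 ^ 2) * e1 - (1 - M2 ^ 2) * (e1 - e2))]
  calc ((1 - M1 ^ 2) * lam ^ G.dist x y * e1 - (1 - M2 ^ 2) * lam ^ G.dist x y * e2) ^ 2
      = (lam ^ G.dist x y) ^ 2 * ((1 - M1 ^ 2) * e1 - (1 - M2 ^ 2) * e2) ^ 2 := by ring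
    _ ≤ _ := mul_le_mul_of_nonneg_left hmain (sq_nonneg _)

/-- sum over the ball by levels -/
theorem sum_ball (hT : G.IsTree) (x : V) (N : ℕ) (f : V → ℝ) :
    ∑ y ∈ bl G x N, f y = ∑ n ∈ Finset.range (N + 1), ∑ y ∈ lev G x x (bl G x N) n, f y := by
  have hmaps : ∀ y ∈ bl G x N, G.dist x y ∈ Finset.range (N + 1) := by
    intro y hy
    rw [mem_bl hT] at hy
    rw [Finset.mem_range]
    omega
  rw [← Finset.sum_fiberwise_of_maps_to hmaps]
  apply Finset.sum_congr rfl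
  intro n _
  apply Finset.sum_congr _ fun _ _ => rfl
  ext y
  rw [Finset.mem_filter, mem_lev_root]

omit [G.LocallyFinite] in
theorem lam_pow_le (h : Tr G lam b) (n : ℕ) : (lam ^ n) ^ 2 * (b:ℝ) ^ n ≤ 1 := by
  have h1 : (lam ^ n) ^ 2 * (b:ℝ) ^ n = (lam ^ 2 * b) ^ n := by
    rw [mul_pow, ← pow_mul, ← pow_mul, mul_comm n 2]
  rw [h1]
  exact pow_le_one₀ (mul_nonneg (sq_nonneg _) (Nat.cast_nonneg _)) h.crit

variable [Countable V] {ν : Measure ℝ} {κ : WP V → Measure ((V → ℝ) × (V → ℝ))}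

omit [G.LocallyFinite] [Countable V] in
theorem abs_KW_le (h : Tr G lam b) {W : Finset V} (hW : IsSub G W) {x y : V} (hx : x ∈ W)
    (hy : y ∈ W) {r : V → ℝ} (hr : Adm W r) : KW G lam W x y r ^ 2 ≤ (lam ^ G.dist x y) ^ 2 := by
  refine (KW_sq_le h hW hx hy hr).trans ?_
  have := (PP_mem h x x y hr).2
  nlinarith [sq_nonneg (lam ^ G.dist x y)]

omit [Countable V] in
theorem meas_M1 (w : WP V) (z : V) : Measurable
    (fun P : (V → ℝ) × (V → ℝ) => MW G lam (W1 G w) z P.1) := (measurable_MW _ _).comp measurable_fst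

omit [Countable V] in
theorem meas_M2 (w : WP V) (z : V) : Measurable
    (fun P : (V → ℝ) × (V → ℝ) => MW G lam (W2 G w) z P.2) := (measurable_MW _ _).comp measurable_snd

omit [Countable V] in
theorem meas_K1 (w : WP V) (x z : V) : Measurable
    (fun P : (V → ℝ) × (V → ℝ) => KW G lam (W1 G w) x z P.1) :=
  (measurable_KW _ _ _).comp measurable_fst

omit [Countable V] in
theorem meas_K2 (w : WP V) (x z : V) : Measurable
    (fun P : (V → ℝ) × (V → ℝ) => KW G lam (W2 G w) x z P.2) :=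
  (measurable_KW _ _ _).comp measurable_snd

theorem int_MM (h : Tr G lam b) {ρ : ℝ} (hν : Null ν ρ) (hκ : Coup G lam ν κ) (w : WP V) {z : V}
    (hz1 : z ∈ W1 G w) (hz2 : z ∈ W2 G w) : Integrable (fun P =>
      (MW G lam (W1 G w) z P.1 - MW G lam (W2 G w) z P.2) ^ 2) (κ w) := by
  have hprob := hκ.prob w
  apply Integrable.of_bound (((meas_M1 w z).sub (meas_M2 w z)).pow_const 2).aestronglyMeasurable 4
  filter_upwards [adm1 h hν hκ w, adm2 h hν hκ w] with P h1 h2
  have h3 := abs_lt.1 (MW_abs_lt h hz1 h1)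
  have h4 := abs_lt.1 (MW_abs_lt h hz2 h2)
  show ‖(MW G lam (W1 G w) z P.1 - MW G lam (W2 G w) z P.2) ^ 2‖ ≤ 4
  rw [Real.norm_of_nonneg (sq_nonneg _)]
  nlinarith

/-- the near part of the first bracket -/
theorem near_sum (h : Tr G lam b) (hν : Null ν (1 / 4)) (hκ : Coup G lam ν κ) (w : WP V)
    {x : V} {N : ℕ} (hB1 : bl G x N ⊆ W1 G w) (hB2 : bl G x N ⊆ W2 G w)
    {ε₀ : ℝ} (hε : 0 ≤ ε₀)
    (hmean : ∀ u ∈ bl G x N, u ≠ x →
      |mg G lam b ν (W1 G w) x u - mg G lam b ν (W2 G w) x u| ≤ ε₀)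
    {δ2 q : ℝ} (hδ : 0 ≤ δ2) (hq : 0 ≤ q)
    (ha : ∀ z ∈ bl G x N, z ≠ x → ∫ P, Dl G lam b w x z P ^ 2 ∂(κ w) ≤ δ2)
    (hDx : Dq G lam κ x w ≤ q) (k₀ : ℕ) :
    ∑ y ∈ bl G x N, ∫ P, (KW G lam (W1 G w) x y P.1 - KW G lam (W2 G w) x y P.2) ^ 2 ∂(κ w) ≤
      (N + 1) * (16 * q + 4 * N * (δ2 + (2 * k₀ * δ2 +
        4 * (3 / 4 : ℝ) ^ k₀ * (δ2 + 6 * B0 lam b ^ 2) + 3 * N * (4 / 3 : ℝ) ^ N * ε₀ ^ 2))) := by
  have hT := h.tree
  have hprob := hκ.prob w
  set B := bl G x N with hB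
  have hP : ParClosed G x B := (isSub_bl hT x N).parClosed (self_mem_bl hT x N)
  have hx1 := hB1 hP.root
  have hx2 := hB2 hP.root
  have hmem : ∀ u, MemLp (Dl G lam b w x u) 2 (κ w) := fun u => memLp_Dl h hκ w x u
  set Q := δ2 + ∑ k ∈ Finset.Ioc 0 N, cf δ2 (B0 lam b ^ 2) ε₀ k₀ k with hQ
  have hQ0 : 0 ≤ Q := add_nonneg hδ (Finset.sum_nonneg fun k _ => cf_nonneg hδ (sq_nonneg _) _ _)
  have hQle : Q ≤ δ2 + (2 * k₀ * δ2 +
        4 * (3 / 4 : ℝ) ^ k₀ * (δ2 + 6 * B0 lam b ^ 2) + 3 * N * (4 / 3 : ℝ) ^ N * ε₀ ^ 2) :=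
    add_le_add le_rfl (sum_cf hδ (sq_nonneg _) k₀ N)
  have hTb := T_bound h hP (κ := κ w) (Dl G lam b w x) (fun z _ => hmem z) N δ2
    (cf δ2 (B0 lam b ^ 2) ε₀ k₀) hδ (fun k => cf_nonneg hδ (sq_nonneg _) _ _) ha
    (fun z hz hzx k _ _ => cross_bd h hν hκ w hP hB1 hB2 hz hzx k hε hmean hδ ha k₀)
  have hFsL : ∀ y, MemLp (Fs G x B (Dl G lam b w x) y) 2 (κ w) := by
    intro y
    have : Fs G x B (Dl G lam b w x) y = fun ω => ∑ z ∈ pth G x x y B, Dl G lam b w x z ω := rfl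
    rw [this]
    exact memLp_finsetSum _ fun z _ => hmem z
  have hone : ∀ y ∈ B, ∫ P, (KW G lam (W1 G w) x y P.1 - KW G lam (W2 G w) x y P.2) ^ 2 ∂(κ w) ≤
      (lam ^ G.dist x y) ^ 2 * (8 * q + 2 * ∫ P, Fs G x B (Dl G lam b w x) y P ^ 2 ∂(κ w)) := by
    intro y hy
    have iM := int_MM h hν hκ w hx1 hx2
    have iF : Integrable (fun P => Fs G x B (Dl G lam b w x) y P ^ 2) (κ w) :=
      (hFsL y).integrable_sq
    calc ∫ P, (KW G lam (W1 G w) x y P.1 - KW G lam (W2 G w) x y P.2) ^ 2 ∂(κ w)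
        ≤ ∫ P, (lam ^ G.dist x y) ^ 2 *
            (8 * (MW G lam (W1 G w) x P.1 - MW G lam (W2 G w) x P.2) ^ 2 +
            2 * Fs G x B (Dl G lam b w x) y P ^ 2) ∂(κ w) := by
          apply integral_mono_of_nonneg
          · exact ae_of_all _ fun P => sq_nonneg _
          · exact ((iM.const_mul 8).add (iF.const_mul 2)).const_mul _
          · filter_upwards [bd1 hν hκ w, bd2 hν hκ w] with P h1 h2
            exact KK_diff h w hP hB1 hB2 hy h1 h2
      _ = (lam ^ G.dist x y) ^ 2 * (8 * Dq G lam κ x w +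
            2 * ∫ P, Fs G x B (Dl G lam b w x) y P ^ 2 ∂(κ w)) := by
          rw [integral_const_mul, integral_add (iM.const_mul 8) (iF.const_mul 2),
            integral_const_mul, integral_const_mul]
          rfl
      _ ≤ _ := by
          apply mul_le_mul_of_nonneg_left _ (sq_nonneg _)
          linarith
  refine (Finset.sum_le_sum hone).trans ?_
  rw [sum_ball hT]
  calc ∑ n ∈ Finset.range (N + 1), ∑ y ∈ lev G x x (bl G x N) n,
        (lam ^ G.dist x y) ^ 2 * (8 * q + 2 * ∫ P, Fs G x B (Dl G lam b w x) y P ^ 2 ∂(κ w))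
      ≤ ∑ n ∈ Finset.range (N + 1), (16 * q + 4 * N * Q) := by
        apply Finset.sum_le_sum
        intro n hn
        have hnN : n ≤ N := by
          rw [Finset.mem_range] at hn; omega
        have hln := lam_pow_le h n
        have hcard : ((lev G x x B n).card : ℝ) ≤ 2 * (b:ℝ) ^ n := by
          exact_mod_cast card_lev_root h hP n
        have e1 : ∑ y ∈ lev G x x (bl G x N) n,
            (lam ^ G.dist x y) ^ 2 *
              (8 * q + 2 * ∫ P, Fs G x B (Dl G lam b w x) y P ^ 2 ∂(κ w)) =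
            (lam ^ n) ^ 2 * (8 * q * (lev G x x B n).card +
              2 * ∑ y ∈ lev G x x B n, ∫ P, Fs G x B (Dl G lam b w x) y P ^ 2 ∂(κ w)) := by
          rw [mul_add, Finset.mul_sum, Finset.mul_sum]
          have : ∀ y ∈ lev G x x (bl G x N) n, (lam ^ G.dist x y) ^ 2 *
              (8 * q + 2 * ∫ P, Fs G x B (Dl G lam b w x) y P ^ 2 ∂(κ w)) =
              (lam ^ n) ^ 2 * (8 * q) + (lam ^ n) ^ 2 *
                (2 * ∫ P, Fs G x B (Dl G lam b w x) y P ^ 2 ∂(κ w)) := by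
            intro y hy
            rw [(mem_lev_root.1 hy).2]
            ring
          rw [Finset.sum_congr rfl this, Finset.sum_add_distrib, Finset.sum_const, nsmul_eq_mul]
          rw [← hB]
          ring
        rw [e1]
        have h3 := hTb n hnN
        rw [← hQ] at h3
        have hl0 : 0 ≤ (lam ^ n) ^ 2 := sq_nonneg _
        calc (lam ^ n) ^ 2 * (8 * q * (lev G x x B n).card +
              2 * ∑ y ∈ lev G x x B n, ∫ P, Fs G x B (Dl G lam b w x) y P ^ 2 ∂(κ w))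
            ≤ (lam ^ n) ^ 2 * (8 * q * (2 * (b:ℝ) ^ n) + 2 * (2 * (b:ℝ) ^ n * n * Q)) := by
              apply mul_le_mul_of_nonneg_left _ hl0
              apply add_le_add
              · exact mul_le_mul_of_nonneg_left hcard (by positivity)
              · linarith
          _ = ((lam ^ n) ^ 2 * (b:ℝ) ^ n) * (16 * q + 4 * n * Q) := by ring
          _ ≤ 1 * (16 * q + 4 * n * Q) := by
              apply mul_le_mul_of_nonneg_right hln
              positivity
          _ ≤ 16 * q + 4 * N * Q := by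
              have : (n:ℝ) ≤ N := by exact_mod_cast hnN
              have := mul_le_mul_of_nonneg_right this hQ0
              linarith
    _ = (N + 1) * (16 * q + 4 * N * Q) := by
        rw [Finset.sum_const, Finset.card_range, nsmul_eq_mul]
        push_cast
        ring
    _ ≤ _ := by
        apply mul_le_mul_of_nonneg_left _ (by positivity)
        have : (0:ℝ) ≤ 4 * N := by positivity
        have := mul_le_mul_of_nonneg_left hQle this
        linarith

/-- the near part of the second bracket -/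
theorem near_sum2 (h : Tr G lam b) {ρ : ℝ} (hν : Null ν ρ) (hκ : Coup G lam ν κ) (w : WP V)
    {x : V} {N : ℕ} (hB1 : bl G x N ⊆ W1 G w) (hB2 : bl G x N ⊆ W2 G w) {q : ℝ} (hq : 0 ≤ q)
    (hD : ∀ z ∈ bl G x N, Dq G lam κ z w ≤ q) :
    ∑ y ∈ bl G x N, ∫ P, (MW G lam (W1 G w) y P.1 - MW G lam (W2 G w) y P.2) ^ 2 *
      KW G lam (W2 G w) x y P.2 ^ 2 ∂(κ w) ≤ (N + 1) * (2 * q) := by
  have hT := h.tree
  have hprob := hκ.prob w
  set B := bl G x N with hB
  have hP : ParClosed G x B := (isSub_bl hT x N).parClosed (self_mem_bl hT x N)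
  have hx2 := hB2 hP.root
  have hW2 : IsSub G (W2 G w) := isSub_bl hT _ _
  have hone : ∀ y ∈ B, ∫ P, (MW G lam (W1 G w) y P.1 - MW G lam (W2 G w) y P.2) ^ 2 *
      KW G lam (W2 G w) x y P.2 ^ 2 ∂(κ w) ≤ (lam ^ G.dist x y) ^ 2 * q := by
    intro y hy
    calc ∫ P, (MW G lam (W1 G w) y P.1 - MW G lam (W2 G w) y P.2) ^ 2 *
          KW G lam (W2 G w) x y P.2 ^ 2 ∂(κ w)
        ≤ ∫ P, (lam ^ G.dist x y) ^ 2 *
            (MW G lam (W1 G w) y P.1 - MW G lam (W2 G w) y P.2) ^ 2 ∂(κ w) := by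
          apply integral_mono_of_nonneg
          · exact ae_of_all _ fun P => mul_nonneg (sq_nonneg _) (sq_nonneg _)
          · exact (int_MM h hν hκ w (hB1 hy) (hB2 hy)).const_mul _
          · filter_upwards [adm2 h hν hκ w] with P h2
            have h3 := abs_KW_le h hW2 hx2 (hB2 hy) h2
            have h4 := sq_nonneg (MW G lam (W1 G w) y P.1 - MW G lam (W2 G w) y P.2)
            have h5 := mul_le_mul_of_nonneg_left h3 h4
            linarith
      _ = (lam ^ G.dist x y) ^ 2 * Dq G lam κ y w := by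
          rw [integral_const_mul]
          rfl
      _ ≤ _ := mul_le_mul_of_nonneg_left (hD y hy) (sq_nonneg _)
  refine (Finset.sum_le_sum hone).trans ?_
  rw [sum_ball hT]
  calc ∑ n ∈ Finset.range (N + 1), ∑ y ∈ lev G x x (bl G x N) n, (lam ^ G.dist x y) ^ 2 * q
      ≤ ∑ n ∈ Finset.range (N + 1), (2 * q) := by
        apply Finset.sum_le_sum
        intro n _
        have hln := lam_pow_le h n
        have hcard : ((lev G x x B n).card : ℝ) ≤ 2 * (b:ℝ) ^ n := by
          exact_mod_cast card_lev_root h hP n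
        have e1 : ∑ y ∈ lev G x x (bl G x N) n, (lam ^ G.dist x y) ^ 2 * q =
            (lev G x x B n).card * ((lam ^ n) ^ 2 * q) := by
          rw [← nsmul_eq_mul, ← Finset.sum_const]
          apply Finset.sum_congr rfl
          intro y hy
          rw [(mem_lev_root.1 hy).2]
        rw [e1]
        calc (lev G x x B n).card * ((lam ^ n) ^ 2 * q) ≤ 2 * (b:ℝ) ^ n * ((lam ^ n) ^ 2 * q) := by
              apply mul_le_mul_of_nonneg_right hcard (by positivity)
          _ = ((lam ^ n) ^ 2 * (b:ℝ) ^ n) * (2 * q) := by ring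
          _ ≤ 1 * (2 * q) := mul_le_mul_of_nonneg_right hln (by positivity)
          _ = 2 * q := one_mul _
    _ = (N + 1) * (2 * q) := by
        rw [Finset.sum_const, Finset.card_range, nsmul_eq_mul]
        push_cast
        ring

/-- `Tq` is bounded by the near parts and the tails -/
theorem Tq_le (h : Tr G lam b) {ρ : ℝ} (hν : Null ν ρ) (hκ : Coup G lam ν κ) (w : WP V)
    {x : V} {N : ℕ} (hB1 : bl G x N ⊆ W1 G w) (hB2 : bl G x N ⊆ W2 G w) :
    Tq G lam κ x w ≤
      ∑ y ∈ bl G x N, ∫ P, (KW G lam (W1 G w) x y P.1 - KW G lam (W2 G w) x y P.2) ^ 2 ∂(κ w) +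
      ∑ y ∈ bl G x N, ∫ P, (MW G lam (W1 G w) y P.1 - MW G lam (W2 G w) y P.2) ^ 2 *
        KW G lam (W2 G w) x y P.2 ^ 2 ∂(κ w) +
      2 * ∑ y ∈ (W1 G w).filter (fun y => N < G.dist x y),
        EI G lam ν (W1 G w) (fun r => KW G lam (W1 G w) x y r ^ 2) +
      6 * ∑ y ∈ (W2 G w).filter (fun y => N < G.dist x y),
        EI G lam ν (W2 G w) (fun r => KW G lam (W2 G w) x y r ^ 2) := by
  have hT := h.tree
  have hprob := hκ.prob w
  set B := bl G x N with hB
  have hP : ParClosed G x B := (isSub_bl hT x N).parClosed (self_mem_bl hT x N)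
  have hx1 := hB1 hP.root
  have hx2 := hB2 hP.root
  have hW1 : IsSub G (W1 G w) := isSub_bl hT _ _
  have hW2 : IsSub G (W2 G w) := isSub_bl hT _ _
  have hBmem : ∀ y, y ∉ B ↔ N < G.dist x y := by
    intro y
    rw [hB, mem_bl hT, not_le]
  -- integrals of the squares of the covariances
  have i1 : ∀ y ∈ W1 G w, Integrable (fun P : (V → ℝ) × (V → ℝ) =>
      KW G lam (W1 G w) x y P.1 ^ 2) (κ w) ∧
      ∫ P, KW G lam (W1 G w) x y P.1 ^ 2 ∂(κ w) =
        EI G lam ν (W1 G w) (fun r => KW G lam (W1 G w) x y r ^ 2) := fun y hy =>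
    int1 h hν hκ w (tst_pow (tst_KW h hW1 hx1 hy) 2)
  have i2 : ∀ y ∈ W2 G w, Integrable (fun P : (V → ℝ) × (V → ℝ) =>
      KW G lam (W2 G w) x y P.2 ^ 2) (κ w) ∧
      ∫ P, KW G lam (W2 G w) x y P.2 ^ 2 ∂(κ w) =
        EI G lam ν (W2 G w) (fun r => KW G lam (W2 G w) x y r ^ 2) := fun y hy =>
    int2 h hν hκ w (tst_pow (tst_KW h hW2 hx2 hy) 2)
  set E1 : V → ℝ := fun y => EI G lam ν (W1 G w) (fun r => KW G lam (W1 G w) x y r ^ 2) with hE1
  set E2 : V → ℝ := fun y => EI G lam ν (W2 G w) (fun r => KW G lam (W2 G w) x y r ^ 2) with hE2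
  have E2n : ∀ y ∈ W2 G w, 0 ≤ E2 y := by
    intro y hy
    rw [hE2]
    simp only
    rw [← (i2 y hy).2]
    exact integral_nonneg fun P => sq_nonneg _
  -- first bracket
  have p1 : ∑ y ∈ W1 G w ∪ W2 G w, ∫ P, (KK G lam (W1 G w) x y P.1 -
      KK G lam (W2 G w) x y P.2) ^ 2 ∂(κ w) ≤
      ∑ y ∈ B, ∫ P, (KW G lam (W1 G w) x y P.1 - KW G lam (W2 G w) x y P.2) ^ 2 ∂(κ w) +
      (2 * ∑ y ∈ (W1 G w).filter (fun y => N < G.dist x y), E1 y +
        2 * ∑ y ∈ (W2 G w).filter (fun y => N < G.dist x y), E2 y) := by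
    rw [← Finset.sum_sdiff (hB1.trans Finset.subset_union_left : B ⊆ W1 G w ∪ W2 G w), add_comm]
    apply add_le_add
    · apply le_of_eq
      apply Finset.sum_congr rfl
      intro y hy
      simp only [KK, if_pos (hB1 hy), if_pos (hB2 hy)]
    · have q1 : ∀ y ∈ (W1 G w ∪ W2 G w) \ B, ∫ P, (KK G lam (W1 G w) x y P.1 -
          KK G lam (W2 G w) x y P.2) ^ 2 ∂(κ w) ≤
          2 * (if y ∈ W1 G w then E1 y else 0) + 2 * (if y ∈ W2 G w then E2 y else 0) := by
        intro y _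
        by_cases h1 : y ∈ W1 G w
        · by_cases h2 : y ∈ W2 G w
          · simp only [KK, if_pos h1, if_pos h2]
            rw [hE1, hE2]
            simp only
            rw [← (i1 y h1).2, ← (i2 y h2).2, ← integral_const_mul, ← integral_const_mul,
              ← integral_add ((i1 y h1).1.const_mul 2) ((i2 y h2).1.const_mul 2)]
            apply integral_mono_of_nonneg
            · exact ae_of_all _ fun P => sq_nonneg _
            · exact ((i1 y h1).1.const_mul 2).add ((i2 y h2).1.const_mul 2)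
            · refine ae_of_all _ fun P => ?_
              simp only
              nlinarith [sq_nonneg (KW G lam (W1 G w) x y P.1 + KW G lam (W2 G w) x y P.2)]
          · simp only [KK, if_pos h1, if_neg h2, sub_zero, mul_zero, add_zero]
            rw [(i1 y h1).2]
            have : 0 ≤ E1 y := by
              rw [hE1]
              simp only
              rw [← (i1 y h1).2]
              exact integral_nonneg fun P => sq_nonneg _
            have e : EI G lam ν (W1 G w) (fun r => KW G lam (W1 G w) x y r ^ 2) = E1 y := rfl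
            rw [e]
            linarith
        · by_cases h2 : y ∈ W2 G w
          · simp only [KK, if_neg h1, if_pos h2, zero_sub, neg_sq, mul_zero, zero_add]
            rw [(i2 y h2).2]
            have := E2n y h2
            have e : EI G lam ν (W2 G w) (fun r => KW G lam (W2 G w) x y r ^ 2) = E2 y := rfl
            rw [e]
            linarith
          · simp only [KK, if_neg h1, if_neg h2]
            simp
      refine (Finset.sum_le_sum q1).trans (le_of_eq ?_)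
      rw [Finset.sum_add_distrib, ← Finset.mul_sum, ← Finset.mul_sum, ← Finset.sum_filter,
        ← Finset.sum_filter]
      have f1 : ((W1 G w ∪ W2 G w) \ B).filter (fun y => y ∈ W1 G w) =
          (W1 G w).filter (fun y => N < G.dist x y) := by
        ext y
        rw [Finset.mem_filter, Finset.mem_sdiff, Finset.mem_union, Finset.mem_filter, hBmem]
        tauto
      have f2 : ((W1 G w ∪ W2 G w) \ B).filter (fun y => y ∈ W2 G w) =
          (W2 G w).filter (fun y => N < G.dist x y) := by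
        ext y
        rw [Finset.mem_filter, Finset.mem_sdiff, Finset.mem_union, Finset.mem_filter, hBmem]
        tauto
      rw [f1, f2]
  -- second bracket
  have p2 : ∑ y ∈ W1 G w ∩ W2 G w, ∫ P, (MW G lam (W1 G w) y P.1 -
      MW G lam (W2 G w) y P.2) ^ 2 * KK G lam (W2 G w) x y P.2 ^ 2 ∂(κ w) ≤
      ∑ y ∈ B, ∫ P, (MW G lam (W1 G w) y P.1 - MW G lam (W2 G w) y P.2) ^ 2 *
        KW G lam (W2 G w) x y P.2 ^ 2 ∂(κ w) +
      4 * ∑ y ∈ (W2 G w).filter (fun y => N < G.dist x y), E2 y := by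
    rw [← Finset.sum_sdiff (Finset.subset_inter hB1 hB2 : B ⊆ W1 G w ∩ W2 G w), add_comm]
    apply add_le_add
    · apply le_of_eq
      apply Finset.sum_congr rfl
      intro y hy
      simp only [KK, if_pos (hB2 hy)]
    · have q1 : ∀ y ∈ (W1 G w ∩ W2 G w) \ B, ∫ P, (MW G lam (W1 G w) y P.1 -
          MW G lam (W2 G w) y P.2) ^ 2 * KK G lam (W2 G w) x y P.2 ^ 2 ∂(κ w) ≤ 4 * E2 y := by
        intro y hy
        rw [Finset.mem_sdiff, Finset.mem_inter] at hy
        obtain ⟨⟨h1, h2⟩, _⟩ := hy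
        simp only [KK, if_pos h2]
        rw [hE2]
        simp only
        rw [← (i2 y h2).2, ← integral_const_mul]
        apply integral_mono_of_nonneg
        · exact ae_of_all _ fun P => mul_nonneg (sq_nonneg _) (sq_nonneg _)
        · exact (i2 y h2).1.const_mul 4
        · filter_upwards [adm1 h hν hκ w, adm2 h hν hκ w] with P a1 a2
          have h3 := abs_lt.1 (MW_abs_lt h h1 a1)
          have h4 := abs_lt.1 (MW_abs_lt h h2 a2)
          apply mul_le_mul_of_nonneg_right _ (sq_nonneg _)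
          nlinarith
      refine (Finset.sum_le_sum q1).trans ?_
      rw [← Finset.mul_sum]
      apply mul_le_mul_of_nonneg_left _ (by norm_num)
      apply Finset.sum_le_sum_of_subset_of_nonneg
      · intro y hy
        rw [Finset.mem_sdiff, Finset.mem_inter, hBmem] at hy
        rw [Finset.mem_filter]
        exact ⟨hy.1.2, hy.2⟩
      · intro y hy _
        exact E2n y (Finset.mem_filter.1 hy).1
  unfold Tq
  linarith

end Fixed

end Crest.Agent.H14.P6
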