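import Mathlib
import Crest.Agent.H14.StepNear

/-!
# Row 160, P7: step A
-/

set_option autoImplicit false

open MeasureTheory Filter Topology

namespace Crest.Agent.H14

open P6

open scoped Classical

section P7
variable {V : Type*} {G : SimpleGraph V} [G.LocallyFinite] [Countable V] {lam : ℝ} {b : ℕ}

/-- `(1 - y)^⌈B / y⌉ ≤ exp (-B)` -/
theorem P6.pow_ceil_le {y B : ℝ} (hy : 0 < y) (hy1 : y ≤ 1) :
    (1 - y) ^ ⌈B / y⌉₊ ≤ Real.exp (-B) := by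
  have h1 : 1 - y ≤ Real.exp (-y) := by
    have := Real.add_one_le_exp (-y); linarith
  calc (1 - y) ^ ⌈B / y⌉₊ ≤ Real.exp (-y) ^ ⌈B / y⌉₊ :=
        pow_le_pow_left₀ (by linarith) h1 _
    _ = Real.exp (-(y * ⌈B / y⌉₊)) := by
        rw [← Real.exp_nat_mul]; congr 1; ring
    _ ≤ Real.exp (-B) := by
        apply Real.exp_le_exp.2
        have h2 := Nat.le_ceil (B / y)
        have h3 : B ≤ y * ⌈B / y⌉₊ := by
          rw [div_le_iff₀ hy] at h2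
          linarith
        linarith

/-- `exp (-(A (1 + log (1/s)))) ≤ s^A` -/
theorem P6.exp_log_le {s : ℝ} (hs : 0 < s) (A : ℕ) :
    Real.exp (-(A * (1 + Real.log (1 / s)))) ≤ s ^ A := by
  have h1 : Real.log (1 / s) = - Real.log s := by
    rw [one_div, Real.log_inv]
  calc Real.exp (-(A * (1 + Real.log (1 / s)))) ≤ Real.exp (A * Real.log s) := by
        apply Real.exp_le_exp.2
        rw [h1]
        have : (0:ℝ) ≤ A := Nat.cast_nonneg _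
        nlinarith
    _ = s ^ A := by
        rw [Real.exp_nat_mul, Real.exp_log hs]

/-- the numerical part of step A -/
theorem P6.final_num {Ct K₁ v s q θ ε ε₀ ε₁ ℓ Cn CA CB N k₀ T t4 pw : ℝ} {A : ℕ}
    (hs : 0 < s) (hs1 : s ≤ 1) (hℓ : 1 ≤ ℓ) (hCt : 0 < Ct) (hK : 0 < K₁) (hv : 0 ≤ v)
    (hN0 : 0 ≤ N) (hN : N + 1 ≤ Cn * ℓ / s) (hCn : 0 < Cn) (hk0 : 0 ≤ k₀)
    (hk : k₀ ≤ (4 * A + 5) * ℓ) (hpw0 : 0 ≤ pw) (hpw : pw ≤ s ^ (A + 1))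
    {qt q' : ℝ} (hq'0 : 0 ≤ q') (hqt0 : 0 ≤ qt) (hq't : q' ≤ 5 * qt) (hqt5 : qt ≤ 5)
    (hqt : qt ≤ q ^ θ + ε₁ ^ θ) (hqθ : 0 ≤ q ^ θ)
    (hCA : CA = 90 * Cn + 4 * Cn ^ 2 * (8 * A + 11) * K₁)
    (hCB : CB = 16 * Cn ^ 2 * (5 * K₁ + 6 * v) + 8 * Ct)
    (hε₁ : CA * ℓ ^ 3 / s * ε₁ ^ θ ≤ ε / 2)
    (hε₀ : 12 * (N + 1) * N ^ 2 * t4 * ε₀ ^ 2 ≤ ε / 2)
    (hT : T ≤ (N + 1) * (16 * q' + 4 * N * (K₁ * s * qt + (2 * k₀ * (K₁ * s * qt) +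
        4 * pw * (K₁ * s * qt + 6 * v) + 3 * N * t4 * ε₀ ^ 2))) + (N + 1) * (2 * q') +
        2 * (Ct / s * s ^ A) + 6 * (Ct / s * s ^ A)) :
    T ≤ (CA + CB) / s * ℓ ^ 3 * (q ^ θ + s ^ A) + ε := by
  have hA0 : (0:ℝ) ≤ A := Nat.cast_nonneg _
  have hsA : 0 < s ^ A := by positivity
  have hM0 : 0 < N + 1 := by linarith
  have hCA0 : 0 < CA := by rw [hCA]; positivity
  have hCB0 : 0 < CB := by rw [hCB]; positivity
  have hδ : K₁ * s * qt ≤ 5 * K₁ := by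
    have h1 : s * qt ≤ 1 * 5 := mul_le_mul hs1 hqt5 hqt0 zero_le_one
    nlinarith
  have hℓ3 : ℓ ≤ ℓ ^ 3 := by nlinarith [sq_nonneg ℓ, sq_nonneg (ℓ - 1)]
  have hℓ23 : ℓ ^ 2 ≤ ℓ ^ 3 := by nlinarith [sq_nonneg ℓ]
  -- term A
  have tA : 18 * (N + 1) * q' ≤ 90 * Cn * (ℓ ^ 3 / s * qt) := by
    calc 18 * (N + 1) * q' ≤ 18 * (Cn * ℓ / s) * (5 * qt) := by gcongr
      _ = 90 * Cn * (ℓ / s * qt) := by ring
      _ ≤ 90 * Cn * (ℓ ^ 3 / s * qt) := by gcongr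
  -- term B
  have tB : 4 * (N + 1) * N * ((1 + 2 * k₀) * (K₁ * s * qt)) ≤
      4 * Cn ^ 2 * (8 * A + 11) * K₁ * (ℓ ^ 3 / s * qt) := by
    have h1 : 1 + 2 * k₀ ≤ (8 * A + 11) * ℓ := by nlinarith
    calc 4 * (N + 1) * N * ((1 + 2 * k₀) * (K₁ * s * qt))
        ≤ 4 * (Cn * ℓ / s) * (Cn * ℓ / s) * (((8 * A + 11) * ℓ) * (K₁ * s * qt)) := by
          gcongr
          linarith
      _ = 4 * Cn ^ 2 * (8 * A + 11) * K₁ * (ℓ ^ 3 / s * qt) := by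
          field_simp
  -- term C
  have tC : 16 * (N + 1) * N * (pw * (K₁ * s * qt + 6 * v)) ≤
      16 * Cn ^ 2 * (5 * K₁ + 6 * v) * (ℓ ^ 3 / s * s ^ A) := by
    calc 16 * (N + 1) * N * (pw * (K₁ * s * qt + 6 * v))
        ≤ 16 * (Cn * ℓ / s) * (Cn * ℓ / s) * (s ^ (A + 1) * (5 * K₁ + 6 * v)) := by
          gcongr
          linarith
      _ = 16 * Cn ^ 2 * (5 * K₁ + 6 * v) * (ℓ ^ 2 / s * s ^ A) := by
          rw [pow_succ]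
          field_simp
      _ ≤ 16 * Cn ^ 2 * (5 * K₁ + 6 * v) * (ℓ ^ 3 / s * s ^ A) := by gcongr
  -- term E
  have tE : 8 * (Ct / s * s ^ A) ≤ 8 * Ct * (ℓ ^ 3 / s * s ^ A) := by
    have h1 : 1 ≤ ℓ ^ 3 := one_le_pow₀ hℓ
    calc 8 * (Ct / s * s ^ A) = 8 * Ct * (1 / s * s ^ A) := by ring
      _ ≤ 8 * Ct * (ℓ ^ 3 / s * s ^ A) := by gcongr
  have hsum : T ≤ CA * (ℓ ^ 3 / s * qt) + CB * (ℓ ^ 3 / s * s ^ A) +
      12 * (N + 1) * N ^ 2 * t4 * ε₀ ^ 2 := by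
    have e1 : (N + 1) * (16 * q' + 4 * N * (K₁ * s * qt + (2 * k₀ * (K₁ * s * qt) +
        4 * pw * (K₁ * s * qt + 6 * v) + 3 * N * t4 * ε₀ ^ 2))) + (N + 1) * (2 * q') +
        2 * (Ct / s * s ^ A) + 6 * (Ct / s * s ^ A) =
        18 * (N + 1) * q' + 4 * (N + 1) * N * ((1 + 2 * k₀) * (K₁ * s * qt)) +
        16 * (N + 1) * N * (pw * (K₁ * s * qt + 6 * v)) + 8 * (Ct / s * s ^ A) +
        12 * (N + 1) * N ^ 2 * t4 * ε₀ ^ 2 := by ring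
    rw [e1] at hT
    rw [hCA, hCB]
    linarith
  have h5 : CA * (ℓ ^ 3 / s * qt) ≤ CA * (ℓ ^ 3 / s * q ^ θ) + ε / 2 := by
    calc CA * (ℓ ^ 3 / s * qt) ≤ CA * (ℓ ^ 3 / s * (q ^ θ + ε₁ ^ θ)) := by gcongr
      _ = CA * (ℓ ^ 3 / s * q ^ θ) + CA * ℓ ^ 3 / s * ε₁ ^ θ := by ring
      _ ≤ _ := by linarith
  have h6 : (CA + CB) / s * ℓ ^ 3 * (q ^ θ + s ^ A) =
      CA * (ℓ ^ 3 / s * q ^ θ) + CB * (ℓ ^ 3 / s * s ^ A) +
      (CA * (ℓ ^ 3 / s * s ^ A) + CB * (ℓ ^ 3 / s * q ^ θ)) := by ring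
  have h7 : 0 ≤ CA * (ℓ ^ 3 / s * s ^ A) + CB * (ℓ ^ 3 / s * q ^ θ) := by positivity
  linarith

theorem stepA (h : Tr G lam b) (p : ℕ) (hp : 2 ≤ p) (A : ℕ) : ∃ C : ℝ, 0 < C ∧
    ∀ (ν : Measure ℝ) (s : ℝ), Null ν (1 / 4) → Mom ν s →
    ∀ κ : WP V → Measure ((V → ℝ) × (V → ℝ)), Coup G lam ν κ → ∀ q : ℝ, 0 ≤ q → q ≤ 4 →
      (∀ z, LimLe G z (Dq G lam κ z) q) → ∀ x : V,
      LimLe G x (Tq G lam κ x)
        (C / s * (1 + Real.log (1 / s)) ^ 3 * (q ^ (1 - 1 / (p : ℝ)) + s ^ A)) := by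
  have hT := h.tree
  obtain ⟨c, Ct, hc, hc1, hCt, htail⟩ := tail_KW h
  obtain ⟨Cm, hCm, hmom⟩ := mom_MW h p (by omega)
  set C₁ := max 1 Cm with hC₁
  have hC₁1 : 1 ≤ C₁ := le_max_left _ _
  have hΛ0 : 0 < (1 + lam) / (1 - lam) :=
    div_pos (by linarith [h.nonneg]) (by linarith [h.lam_lt])
  have hB0 := B0_pos (G := G) h
  set K₁ := 64 * C₁ * ((1 + lam) / (1 - lam)) ^ 2 * B0 lam b ^ 2 with hK₁
  have hK0 : 0 < K₁ := by positivity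
  set Cn : ℝ := Ct + A / c + 3 with hCn
  have hCn0 : 0 < Cn := by positivity
  set CA : ℝ := 90 * Cn + 4 * Cn ^ 2 * (8 * A + 11) * K₁ with hCA
  set CB : ℝ := 16 * Cn ^ 2 * (5 * K₁ + 6 * B0 lam b ^ 2) + 8 * Ct with hCB
  have hCA0 : 0 < CA := by positivity
  have hCB0 : 0 < CB := by positivity
  refine ⟨CA + CB, by positivity, ?_⟩
  intro ν s hν hs κ hκ q hq0 hq4 hq x ε hε
  have hs0 := hs.pos
  have hs1 := hs.le_one
  set ℓ := 1 + Real.log (1 / s) with hℓ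
  have hℓ1 : 1 ≤ ℓ := by
    have : 0 ≤ Real.log (1 / s) := Real.log_nonneg (by rw [le_div_iff₀ hs0]; linarith)
    linarith
  set θ : ℝ := 1 - 1 / (p:ℝ) with hθ
  have hp2 : (2:ℝ) ≤ p := by exact_mod_cast hp
  have hθ0 : 1 / 2 ≤ θ := by
    have : 1 / (p:ℝ) ≤ 1 / 2 := one_div_le_one_div_of_le (by norm_num) hp2
    rw [hθ]; linarith
  have hθ1 : θ ≤ 1 := by
    have : 0 ≤ 1 / (p:ℝ) := by positivity
    rw [hθ]; linarith
  have hcs : 0 < c * s := by positivity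
  have hcs1 : c * s ≤ 1 := by nlinarith
  set N : ℕ := ⌈Ct / s⌉₊ + ⌈A * ℓ / (c * s)⌉₊ with hN
  set k₀ : ℕ := ⌈4 * (A + 1) * ℓ⌉₊ with hk₀
  have hA0 : (0:ℝ) ≤ A := Nat.cast_nonneg _
  -- sizes
  have hN1 : (N:ℝ) + 1 ≤ Cn * ℓ / s := by
    have h1 : ((⌈Ct / s⌉₊ : ℕ) : ℝ) ≤ Ct / s + 1 := (Nat.ceil_lt_add_one (by positivity)).le
    have h2 : ((⌈A * ℓ / (c * s)⌉₊ : ℕ) : ℝ) ≤ A * ℓ / (c * s) + 1 :=
      (Nat.ceil_lt_add_one (by positivity)).le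
    have h3 : (N:ℝ) = ((⌈Ct / s⌉₊ : ℕ) : ℝ) + ((⌈A * ℓ / (c * s)⌉₊ : ℕ) : ℝ) := by
      rw [hN]; push_cast; ring
    have h4 : Ct / s ≤ Ct * ℓ / s := by
      apply div_le_div_of_nonneg_right _ hs0.le
      nlinarith
    have h5 : (3:ℝ) ≤ 3 * ℓ / s := by
      rw [le_div_iff₀ hs0]; nlinarith
    have h6 : Cn * ℓ / s = Ct * ℓ / s + A * ℓ / (c * s) + 3 * ℓ / s := by
      rw [hCn]; field_simp
    rw [h3, h6]
    linarith
  have hk1 : (k₀:ℝ) ≤ (4 * A + 5) * ℓ := by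
    have h1 : (k₀:ℝ) ≤ 4 * (A + 1) * ℓ + 1 := (Nat.ceil_lt_add_one (by positivity)).le
    nlinarith
  have hpw : (3 / 4 : ℝ) ^ k₀ ≤ s ^ (A + 1) := by
    have h1 := P6.pow_ceil_le (y := 1 / 4) (B := (A + 1) * ℓ) (by norm_num) (by norm_num)
    have e1 : (A + 1) * ℓ / (1 / 4) = 4 * (A + 1) * ℓ := by ring
    rw [e1] at h1
    have e2 : (1 - 1 / 4 : ℝ) = 3 / 4 := by norm_num
    rw [e2] at h1
    refine h1.trans ?_
    have h2 := P6.exp_log_le hs0 (A + 1)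
    push_cast at h2
    exact h2
  have htl : (1 - c * s) ^ (N - ⌈Ct / s⌉₊) ≤ s ^ A := by
    have h0 : N - ⌈Ct / s⌉₊ = ⌈A * ℓ / (c * s)⌉₊ := by rw [hN]; omega
    rw [h0]
    exact (P6.pow_ceil_le hcs hcs1).trans (P6.exp_log_le hs0 A)
  -- small parameters
  set H : ℝ := CA * ℓ ^ 3 / s with hH
  have hH0 : 0 < H := by positivity
  set ε₁ : ℝ := min 1 ((ε / (2 * H)) ^ 2) with hε₁
  have hε₁0 : 0 < ε₁ := lt_min one_pos (by positivity)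
  have hε₁1 : ε₁ ≤ 1 := min_le_left _ _
  have hε₁θ : H * ε₁ ^ θ ≤ ε / 2 := by
    have h1 : ε₁ ^ θ ≤ ε₁ ^ (1 / 2 : ℝ) :=
      Real.rpow_le_rpow_of_exponent_ge hε₁0 hε₁1 hθ0
    have h2 : ε₁ ^ (1 / 2 : ℝ) ≤ ((ε / (2 * H)) ^ 2) ^ (1 / 2 : ℝ) :=
      Real.rpow_le_rpow hε₁0.le (min_le_right _ _) (by norm_num)
    have h3 : ((ε / (2 * H)) ^ 2) ^ (1 / 2 : ℝ) = ε / (2 * H) := by
      rw [← Real.sqrt_eq_rpow, Real.sqrt_sq (by positivity)]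
    rw [h3] at h2
    calc H * ε₁ ^ θ ≤ H * (ε / (2 * H)) := mul_le_mul_of_nonneg_left (h1.trans h2) hH0.le
      _ = ε / 2 := by field_simp
  set H' : ℝ := 12 * ((N:ℝ) + 1) * (N:ℝ) ^ 2 * (4 / 3 : ℝ) ^ N + 1 with hH'
  have hH'0 : 0 < H' := by positivity
  set ε₀ : ℝ := min 1 (ε / (2 * H')) with hε₀
  have hε₀0 : 0 < ε₀ := lt_min one_pos (by positivity)
  have hε₀1 : ε₀ ≤ 1 := min_le_left _ _
  have hε₀b : 12 * ((N:ℝ) + 1) * (N:ℝ) ^ 2 * (4 / 3 : ℝ) ^ N * ε₀ ^ 2 ≤ ε / 2 := by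
    have h1 : ε₀ ^ 2 ≤ ε / (2 * H') := by
      calc ε₀ ^ 2 ≤ ε₀ := by nlinarith
        _ ≤ _ := min_le_right _ _
    calc 12 * ((N:ℝ) + 1) * (N:ℝ) ^ 2 * (4 / 3 : ℝ) ^ N * ε₀ ^ 2 ≤ H' * (ε / (2 * H')) := by
          apply mul_le_mul _ h1 (by positivity) hH'0.le
          rw [hH']; linarith
      _ = ε / 2 := by field_simp
  -- windows
  set B := bl G x N with hB
  choose nz hnz using fun z => hq z ε₁ hε₁0
  have hglm := measurable_gl lam (rh lam b)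
  choose nm hnm using fun u => mean_conv h hν x u (gl lam (rh lam b)) hglm
    ⟨2 / (1 - rh lam b ^ 2), fun s t hs ht =>
      gl_lip h.nonneg h.lam_lt (rh_nonneg h) (rh_lt h) hs ht⟩ ε₀ hε₀0
  refine ⟨N + (∑ z ∈ B, (nz z + G.dist x z) + ∑ u ∈ B, nm u), fun w hw1 hw2 => ?_⟩
  have hB1 : B ⊆ W1 G w := bl_subset_bl hT (by omega)
  have hB2 : B ⊆ W2 G w := bl_subset_bl hT (by omega)
  have hP : ParClosed G x B := (isSub_bl hT x N).parClosed (self_mem_bl hT x N)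
  have hDq : ∀ z ∈ B, Dq G lam κ z w ≤ q + ε₁ := by
    intro z hz
    have h1 : nz z + G.dist x z ≤ ∑ z ∈ B, (nz z + G.dist x z) :=
      Finset.single_le_sum (f := fun z => nz z + G.dist x z) (fun _ _ => Nat.zero_le _) hz
    apply hnz z w
    · have := hT.connected.dist_triangle (u := w.c1) (v := x) (w := z)
      omega
    · have := hT.connected.dist_triangle (u := w.c2) (v := x) (w := z)
      omega
  have hmean : ∀ u ∈ B, u ≠ x →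
      |mg G lam b ν (W1 G w) x u - mg G lam b ν (W2 G w) x u| ≤ ε₀ := by
    intro u hu _
    have h1 : nm u ≤ ∑ u ∈ B, nm u :=
      Finset.single_le_sum (f := nm) (fun _ _ => Nat.zero_le _) hu
    apply hnm u w <;> omega
  set q' := q + ε₁ with hq'
  have hq'0 : 0 < q' := by positivity
  have hq'5 : q' ≤ 5 := by rw [hq']; linarith
  set qt := q' ^ θ with hqt
  have hqt0 : 0 < qt := Real.rpow_pos_of_pos hq'0 _
  have hq't : q' ≤ 5 * qt := by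
    have h1 : q' = q' ^ (1 - θ) * q' ^ θ := by
      rw [← Real.rpow_add hq'0]
      simp
    have h2 : q' ^ (1 - θ) ≤ 5 := by
      calc q' ^ (1 - θ) ≤ 5 ^ (1 - θ) := Real.rpow_le_rpow hq'0.le hq'5 (by linarith)
        _ ≤ 5 ^ (1:ℝ) := Real.rpow_le_rpow_of_exponent_le (by norm_num) (by linarith)
        _ = 5 := Real.rpow_one 5
    calc q' = q' ^ (1 - θ) * q' ^ θ := h1
      _ ≤ 5 * qt := mul_le_mul_of_nonneg_right h2 hqt0.le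
  have hqt5 : qt ≤ 5 := by
    calc qt ≤ 5 ^ θ := Real.rpow_le_rpow hq'0.le hq'5 (by linarith)
      _ ≤ 5 ^ (1:ℝ) := Real.rpow_le_rpow_of_exponent_le (by norm_num) hθ1
      _ = 5 := Real.rpow_one 5
  have hqtadd : qt ≤ q ^ θ + ε₁ ^ θ :=
    Real.rpow_add_le_add_rpow hq0 hε₁0.le (by linarith) hθ1
  -- second moments
  have ha : ∀ z ∈ B, z ≠ x → ∫ P, Dl G lam b w x z P ^ 2 ∂(κ w) ≤ K₁ * s * qt := by
    intro z hz hzx
    exact Dl_sq h hν hs hκ w (hB1 hP.root) (hB2 hP.root) (hB1 hz) (hB2 hz) hzx p hp hC₁1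
      (fun W hW u hu => (hmom ν (1 / 4) s hν hs W hW u hu).trans
        (mul_le_mul_of_nonneg_right (le_max_right _ _) (by positivity)))
      hq'0.le (hDq z hz) (hDq _ (hP.par_mem z hz))
  have hδ0 : 0 ≤ K₁ * s * qt := by positivity
  have n1 := near_sum h hν hκ w hB1 hB2 hε₀0.le hmean hδ0 hq'0.le ha (hDq x hP.root) k₀
  have n2 := near_sum2 h hν hκ w hB1 hB2 hq'0.le hDq
  have n3 := Tq_le h hν hκ w hB1 hB2
  have htb : Ct / s * (1 - c * s) ^ (N - ⌈Ct / s⌉₊) ≤ Ct / s * s ^ A :=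
    mul_le_mul_of_nonneg_left htl (by positivity)
  have t1 := (htail ν (1 / 4) s hν hs w.c1 w.R1 x (hB1 hP.root) N).trans htb
  have t2 := (htail ν (1 / 4) s hν hs w.c2 w.R2 x (hB2 hP.root) N).trans htb
  have t1' : ∑ y ∈ (W1 G w).filter (fun y => N < G.dist x y),
      EI G lam ν (W1 G w) (fun r => KW G lam (W1 G w) x y r ^ 2) ≤ Ct / s * s ^ A := t1
  have t2' : ∑ y ∈ (W2 G w).filter (fun y => N < G.dist x y),
      EI G lam ν (W2 G w) (fun r => KW G lam (W2 G w) x y r ^ 2) ≤ Ct / s * s ^ A := t2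
  refine P6.final_num (Ct := Ct) (K₁ := K₁) (v := B0 lam b ^ 2) (θ := θ) (ε₀ := ε₀)
    (ε₁ := ε₁) (Cn := Cn) (N := N) (k₀ := k₀) (t4 := (4 / 3 : ℝ) ^ N)
    (pw := (3 / 4 : ℝ) ^ k₀) (qt := qt) (q' := q') hs0 hs1 hℓ1 hCt hK0 (sq_nonneg _)
    (Nat.cast_nonneg _) hN1 hCn0 (Nat.cast_nonneg _) hk1 (by positivity) hpw hq'0.le hqt0.le hq't
    hqt5 hqtadd (Real.rpow_nonneg hq0 _) hCA hCB hε₁θ hε₀b ?_
  linarith

end P7

end Crest.Agent.H14
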