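import Mathlib
import Crest.Agent.H14.StatL
import Crest.Agent.H14.Damp
import Crest.Agent.H12.MgfFam

/-!
# Row 160, P5 (helper12): weighted subtree sizes
-/

set_option autoImplicit false

open MeasureTheory Filter Topology

namespace Crest.Agent.H14

open scoped Classical

section P5
variable {V : Type*} {G : SimpleGraph V} [G.LocallyFinite] [Countable V] {lam : ℝ} {b : ℕ}

theorem Sh_mean (h : Tr G lam b) : ∃ C : ℝ, 0 < C ∧
    ∀ (ν : Measure ℝ) (ρ s : ℝ), Null ν ρ → Mom ν s → ∀ (c0 : V) (R : ℕ) (x u : V),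
      x ∈ bl G c0 R → u ∈ bl G c0 R →
      EI G lam ν (bl G c0 R) (Sh G lam (bl G c0 R) x u) ≤ C / s := by
  obtain ⟨c, C, hc, hc1, hC, hpath⟩ := damp_path h
  refine ⟨2 * (C + 1 + 1 / c), by positivity, ?_⟩
  intro ν ρ s hν hs c0 R x u hx hu
  have hs0 := hs.pos
  have hs1 := hs.le_one
  set W := bl G c0 R with hW
  have hsub : IsSub G W := isSub_bl h.tree c0 R
  have hb : (0:ℝ) < b := by have := h.two; positivity
  have hcs1 : c * s < 1 := by nlinarith
  have h1cs : 0 ≤ 1 - c * s := by linarith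
  have e1 : EI G lam ν W (Sh G lam W x u) =
      ∑ y ∈ desc G x u W, lam ^ (2 * G.dist u y) * EI G lam ν W (PP G lam W x u y) := by
    have : Sh G lam W x u = fun r => ∑ y ∈ desc G x u W,
        lam ^ (2 * G.dist u y) * PP G lam W x u y r := rfl
    rw [this, EI_sum h hν]
    · simp_rw [EI_const_mul]
    · intro y _
      exact ((Tst_PP h W x u y).mono (desc_subset x u W)).const_mul _
  rw [e1]
  have e2 : ∀ y ∈ desc G x u W, lam ^ (2 * G.dist u y) * EI G lam ν W (PP G lam W x u y) ≤
      (fun n : ℕ => ((b:ℝ) ^ n)⁻¹ * (1 - c * s) ^ (n - ⌈C / s⌉₊)) (G.dist u y) := by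
    intro y hy
    have hyW : y ∈ W := desc_subset x u W hy
    have h1 := hpath ν ρ s hν hs c0 R x u y hx hu hy 1 le_rfl (fun _ => 1)
      (Tst.const _ 1) (EvenOn.const _ 1) (fun _ => zero_le_one)
    rw [EI_one h hν (desc_isSub h.tree (hsub.parClosed hx) hyW) ⟨y, self_mem_desc hyW⟩] at h1
    have h2 : min (1:ℝ) (((1:ℕ):ℝ) * s) = s := by
      rw [Nat.cast_one, one_mul]
      exact min_eq_right hs1
    rw [h2] at h1
    simp only [pow_one, mul_one] at h1
    beta_reduce
    rw [← div_eq_inv_mul, le_div_iff₀ (by positivity)]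
    calc lam ^ (2 * G.dist u y) * EI G lam ν W (PP G lam W x u y) * (b:ℝ) ^ G.dist u y
        = (b * lam ^ 2) ^ G.dist u y * EI G lam ν W (PP G lam W x u y) := by
          rw [mul_pow, ← pow_mul]
          ring
      _ ≤ _ := h1
  refine (Finset.sum_le_sum e2).trans ?_
  obtain ⟨M, hM⟩ := sum_by_dist h hsub hu (desc_subset x u W)
    (fun n : ℕ => ((b:ℝ) ^ n)⁻¹ * (1 - c * s) ^ (n - ⌈C / s⌉₊))
    (fun n => mul_nonneg (by positivity) (pow_nonneg h1cs _))
  refine hM.trans ?_
  have e3 : ∑ n ∈ Finset.range M, 2 * (b:ℝ) ^ n * (((b:ℝ) ^ n)⁻¹ * (1 - c * s) ^ (n - ⌈C / s⌉₊)) =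
      2 * ∑ n ∈ Finset.range M, (1 - c * s) ^ (n - ⌈C / s⌉₊) := by
    rw [Finset.mul_sum]
    apply Finset.sum_congr rfl
    intro n _
    field_simp
  rw [e3]
  have h4 := sum_delay hc hc1 hs0 hs1 ⌈C / s⌉₊ M
  have h5 : (⌈C / s⌉₊ : ℝ) ≤ C / s + 1 := (Nat.ceil_lt_add_one (by positivity)).le
  have h6 : (1:ℝ) ≤ 1 / s := by rw [le_div_iff₀ hs0]; linarith
  calc 2 * ∑ n ∈ Finset.range M, (1 - c * s) ^ (n - ⌈C / s⌉₊)
      ≤ 2 * (C / s + 1 / s + 1 / (c * s)) := by linarith
    _ = 2 * (C + 1 + 1 / c) / s := by field_simp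


/-! ### Clipped version of the weighted size (bounded for every evidence field) -/

/-- clipped damping factor -/
noncomputable def gc (l t : ℝ) : ℝ := max 0 (min 1 (gam l t))

omit [G.LocallyFinite] [Countable V] in
theorem gc_eq (h : Tr G lam b) {t : ℝ} (ht : |t| < 1) : gc lam t = gam lam t := by
  unfold gc
  rw [min_eq_right (gam_le_one h.nonneg h.lam_lt ht.le),
    max_eq_right (gam_nonneg h.nonneg h.lam_lt ht.le)]

theorem gc_nonneg (l t : ℝ) : 0 ≤ gc l t := le_max_left _ _

theorem gc_le_one (l t : ℝ) : gc l t ≤ 1 := max_le zero_le_one (min_le_left _ _)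

theorem gc_neg (l t : ℝ) : gc l (-t) = gc l t := by
  unfold gc
  rw [gam_neg]

theorem measurable_gc (l : ℝ) : Measurable (gc l) := by
  unfold gc
  exact measurable_const.max (measurable_const.min (measurable_gam l))

noncomputable def PPc (G : SimpleGraph V) (lam : ℝ) (W : Finset V) (x u y : V) (r : V → ℝ) : ℝ :=
  ∏ z ∈ pth G x u y W, gc lam (tau G lam W x z r)

noncomputable def Shc (G : SimpleGraph V) (lam : ℝ) (W : Finset V) (x u : V) (r : V → ℝ) : ℝ :=
  ∑ y ∈ desc G x u W, lam ^ (2 * G.dist u y) * PPc G lam W x u y r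

omit [G.LocallyFinite] [Countable V] in
theorem Shc_eq (h : Tr G lam b) {W : Finset V} {r : V → ℝ} (hr : Adm W r) (x u : V) :
    Shc G lam W x u r = Sh G lam W x u r := by
  unfold Shc Sh
  apply Finset.sum_congr rfl
  intro y _
  congr 1
  unfold PPc PP
  apply Finset.prod_congr rfl
  intro z hz
  exact gc_eq h (tau_abs_lt h (pth_mem hz).1 hr)

omit [G.LocallyFinite] [Countable V] in
theorem PPc_nonneg (W : Finset V) (x u y : V) (r : V → ℝ) : 0 ≤ PPc G lam W x u y r :=
  Finset.prod_nonneg fun _ _ => gc_nonneg _ _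

omit [G.LocallyFinite] [Countable V] in
theorem PPc_le_one (W : Finset V) (x u y : V) (r : V → ℝ) : PPc G lam W x u y r ≤ 1 :=
  Finset.prod_le_one (fun _ _ => gc_nonneg _ _) fun _ _ => gc_le_one _ _

omit [G.LocallyFinite] [Countable V] in
theorem Shc_nonneg (h : Tr G lam b) (W : Finset V) (x u : V) (r : V → ℝ) :
    0 ≤ Shc G lam W x u r :=
  Finset.sum_nonneg fun _ _ => mul_nonneg (pow_nonneg h.nonneg _) (PPc_nonneg _ _ _ _ _)

omit [G.LocallyFinite] [Countable V] in
theorem Shc_le (h : Tr G lam b) (W : Finset V) (x u : V) (r : V → ℝ) :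
    Shc G lam W x u r ≤ W.card := by
  unfold Shc
  calc ∑ y ∈ desc G x u W, lam ^ (2 * G.dist u y) * PPc G lam W x u y r
      ≤ ∑ _y ∈ desc G x u W, (1:ℝ) := by
        apply Finset.sum_le_sum
        intro y _
        exact mul_le_one₀ (pow_le_one₀ h.nonneg h.lam_lt.le) (PPc_nonneg _ _ _ _ _)
          (PPc_le_one _ _ _ _ _)
    _ = (desc G x u W).card := by simp
    _ ≤ W.card := by exact_mod_cast Finset.card_le_card (desc_subset x u W)

omit [G.LocallyFinite] [Countable V] in
theorem Shc_rec (h : Tr G lam b) {W : Finset V} {x u : V} (hW : ParClosed G x W) (hu : u ∈ W)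
    (r : V → ℝ) :
    Shc G lam W x u r = 1 + lam ^ 2 *
      ∑ w ∈ chl G x u W, gc lam (tau G lam W x w r) * Shc G lam W x w r := by
  unfold Shc
  rw [sum_desc h.tree hW hu]
  congr 1
  · unfold PPc
    rw [pth_self h.tree]
    simp
  · rw [Finset.mul_sum]
    apply Finset.sum_congr rfl
    intro w hw
    rw [Finset.mul_sum, Finset.mul_sum]
    apply Finset.sum_congr rfl
    intro y hy
    have h1 := chl_dist h.tree hw
    have h2 : G.dist u y = 1 + G.dist w y := by
      have hwu := (mem_desc.1 (chl_subset_desc h.tree hw)).2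
      have := dist_between h.tree hwu (mem_desc.1 hy).2
      omega
    have h3 : PPc G lam W x u y r = gc lam (tau G lam W x w r) * PPc G lam W x w y r := by
      unfold PPc
      rw [pth_insert_top h.tree hw hy, Finset.prod_insert (notMem_pth_self x w y W)]
    rw [h3, h2]
    ring

omit [G.LocallyFinite] [Countable V] in
theorem Tst_gc_tau (h : Tr G lam b) {W : Finset V} {x z : V} (hz : z ∈ W) :
    Tst (desc G x z W) (fun r => gc lam (tau G lam W x z r)) :=
  (Tst_tau h hz).comp_lt (fun _ hr => MW_abs_lt h (self_mem_desc hz) hr) (measurable_gc lam)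
    ⟨1, fun t _ => by rw [abs_of_nonneg (gc_nonneg lam t)]; exact gc_le_one lam t⟩

omit [G.LocallyFinite] [Countable V] in
theorem Tst_Shc (h : Tr G lam b) (W : Finset V) (x u : V) :
    Tst (desc G x u W) (Shc G lam W x u) := by
  unfold Shc
  apply Tst.sum
  intro y _
  apply Tst.const_mul
  unfold PPc
  apply Tst.prod
  intro w hw
  have hw' := pth_mem hw
  exact (Tst_gc_tau h hw'.1).mono (desc_subset_desc h.tree hw'.2)

omit [G.LocallyFinite] [Countable V] in
theorem even_Shc (h : Tr G lam b) (W : Finset V) (x u : V) :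
    EvenOn (desc G x u W) (Shc G lam W x u) := by
  unfold Shc
  apply EvenOn.sum
  intro y _
  apply EvenOn.const_mul
  unfold PPc
  apply EvenOn.prod
  intro w hw
  have hw' := pth_mem hw
  exact (even_tau h hw'.1 (gc_neg lam)).mono (Tst_gc_tau h hw'.1).dep
    (desc_subset_desc h.tree hw'.2)

/-! ### The MGF family -/

/-- children structure, cut at the root -/
noncomputable def chF (G : SimpleGraph V) (W : Finset V) (x v : V) : Finset V :=
  (chl G x v W).filter (fun _ => v ≠ x)

noncomputable def YF (G : SimpleGraph V) (lam : ℝ) (b : ℕ) (W : Finset V) (x : V) (_v j : V)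
    (r : V → ℝ) : ℝ :=
  (b * lam ^ 2) * (gc lam (tau G lam W x j r) * Shc G lam W x j r)

noncomputable def XF (G : SimpleGraph V) (lam : ℝ) (b : ℕ) (W : Finset V) (x v : V)
    (r : V → ℝ) : ℝ :=
  1 + (1 / b : ℝ) * ∑ j ∈ chF G W x v, YF G lam b W x v j r

omit [G.LocallyFinite] [Countable V] in
theorem chF_subset (W : Finset V) (x v : V) : chF G W x v ⊆ chl G x v W :=
  Finset.filter_subset _ _

omit [G.LocallyFinite] [Countable V] in
theorem XF_eq (h : Tr G lam b) {W : Finset V} (hW : IsSub G W) {x v : V} (hx : x ∈ W)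
    (hv : v ∈ W) (hvx : v ≠ x) (r : V → ℝ) : XF G lam b W x v r = Shc G lam W x v r := by
  have hb : (b:ℝ) ≠ 0 := by have := h.two; positivity
  rw [Shc_rec h (hW.parClosed hx) hv]
  unfold XF YF chF
  rw [Finset.filter_true_of_mem (fun _ _ => hvx), ← Finset.mul_sum]
  field_simp

omit [G.LocallyFinite] [Countable V] in
theorem XF_eq_one {W : Finset V} (hW : IsSub G W) {x v : V} (hx : x ∈ W)
    (hv : ¬ (v ∈ W ∧ v ≠ x)) (r : V → ℝ) : XF G lam b W x v r = 1 := by
  have : chF G W x v = ∅ := by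
    rw [Finset.eq_empty_iff_forall_notMem]
    intro j hj
    unfold chF at hj
    rw [Finset.mem_filter, mem_chl] at hj
    apply hv
    refine ⟨?_, hj.2⟩
    rw [← hj.1.2.2]
    exact hW x hx j hj.1.1
  unfold XF
  rw [this]
  simp

theorem fam_Sh (h : Tr G lam b) {ν : Measure ℝ} {ρ : ℝ} (hν : Null ν ρ) {W : Finset V}
    (hW : IsSub G W) {x : V} (hx : x ∈ W) {A : ℝ} (hA1 : 1 ≤ A)
    (hA : ∀ u ∈ W, EI G lam ν W (Sh G lam W x u) ≤ A) :
    Crest.Agent.H12.MgfScale.Fam (PW G lam ν W) (chF G W x) (XF G lam b W x)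
      (YF G lam b W x) A (W.card + 1) b := by
  have hb2 : (2:ℝ) ≤ b := by exact_mod_cast h.two
  have hb0 : (0:ℝ) ≤ b * lam ^ 2 := by positivity
  have hb1 : (b:ℝ) * lam ^ 2 ≤ 1 := by
    have := h.crit
    linarith
  have hprob := PW_prob (lam := lam) h hν hW ⟨x, hx⟩
  have hYm : ∀ v, ∀ j ∈ chF G W x v, Measurable (YF G lam b W x v j) := by
    intro v j _
    unfold YF
    exact (((measurable_gc lam).comp (measurable_tau W x j)).mul
      (Tst_Shc h W x j).meas).const_mul _
  have hj : ∀ v, ∀ j ∈ chF G W x v, j ∈ W ∧ j ≠ x := by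
    intro v j hj
    have := mem_chl.1 (chF_subset W x v hj)
    exact ⟨this.1, this.2.1⟩
  have hY0 : ∀ v j r, 0 ≤ YF G lam b W x v j r := by
    intro v j r
    unfold YF
    exact mul_nonneg hb0 (mul_nonneg (gc_nonneg _ _) (Shc_nonneg h _ _ _ _))
  refine ⟨h.two, ?_, hYm, ?_, ?_, fun v j _ r => hY0 v j r, ?_, ?_, ?_, ?_, ?_⟩
  · intro v
    unfold XF
    exact ((Finset.measurable_sum _ fun j hj' => hYm v j hj').const_mul _).const_add _
  · intro v r
    unfold XF
    have : 0 ≤ (1 / b : ℝ) * ∑ j ∈ chF G W x v, YF G lam b W x v j r :=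
      mul_nonneg (by positivity) (Finset.sum_nonneg fun j _ => hY0 v j r)
    linarith
  · intro v r
    by_cases hv : v ∈ W ∧ v ≠ x
    · rw [XF_eq h hW hx hv.1 hv.2]
      linarith [Shc_le h W x v r]
    · rw [XF_eq_one hW hx hv]
      have : (0:ℝ) ≤ W.card := Nat.cast_nonneg _
      linarith
  · intro v j hj' r
    rw [XF_eq h hW hx (hj v j hj').1 (hj v j hj').2]
    unfold YF
    have h1 : gc lam (tau G lam W x j r) * Shc G lam W x j r ≤ Shc G lam W x j r :=
      mul_le_of_le_one_left (Shc_nonneg h _ _ _ _) (gc_le_one _ _)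
    have h2 : 0 ≤ gc lam (tau G lam W x j r) * Shc G lam W x j r :=
      mul_nonneg (gc_nonneg _ _) (Shc_nonneg h _ _ _ _)
    calc (b * lam ^ 2) * (gc lam (tau G lam W x j r) * Shc G lam W x j r)
        ≤ 1 * (gc lam (tau G lam W x j r) * Shc G lam W x j r) :=
          mul_le_mul_of_nonneg_right hb1 h2
      _ ≤ _ := by rw [one_mul]; exact h1
  · intro v
    unfold chF
    by_cases hvx : v = x
    · subst hvx
      simp
    · refine (Finset.card_le_card (Finset.filter_subset _ _)).trans ?_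
      exact card_chl_le h.tree h.reg hvx W
  · intro v
    have hC := chF_subset (G := G) W x v
    apply indep_children h hν hW hx hC (fun j => YF G lam b W x v j)
    · intro w hw
      have hw' := (hj v w hw).1
      unfold YF
      exact ((Tst_gc_tau h hw').mul (Tst_Shc h W x w)).const_mul _
    · intro w hw
      have hw' := (hj v w hw).1
      unfold YF
      exact ((even_tau h hw' (gc_neg lam)).mul (even_Shc h W x w)).const_mul _
  · intro v r
    rfl
  · intro v
    by_cases hv : v ∈ W ∧ v ≠ x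
    · have e : ∫ r, XF G lam b W x v r ∂(PW G lam ν W) = EI G lam ν W (Sh G lam W x v) := by
        rw [integral_PW h hν]
        apply EI_congr h hν
        intro r hr
        rw [XF_eq h hW hx hv.1 hv.2, Shc_eq h hr]
      rw [e]
      exact hA v hv.1
    · have e : ∫ r, XF G lam b W x v r ∂(PW G lam ν W) = 1 := by
        simp_rw [XF_eq_one hW hx hv]
        simp
      rw [e]
      exact hA1


/-- mean bound with a constant which is at least one, and the MGF family, in one statement -/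
theorem fam_exists (h : Tr G lam b) : ∃ C : ℝ, 0 < C ∧
    ∀ (ν : Measure ℝ) (ρ s : ℝ), Null ν ρ → Mom ν s → ∀ (c0 : V) (R : ℕ) (x : V),
      x ∈ bl G c0 R → 1 ≤ C / s ∧
      Crest.Agent.H12.MgfScale.Fam (PW G lam ν (bl G c0 R)) (chF G (bl G c0 R) x)
        (XF G lam b (bl G c0 R) x) (YF G lam b (bl G c0 R) x) (C / s)
        ((bl G c0 R).card + 1) b := by
  obtain ⟨C, hC, hmean⟩ := Sh_mean (G := G) (lam := lam) h
  refine ⟨C + 1, by positivity, ?_⟩
  intro ν ρ s hν hs c0 R x hx
  have hs0 := hs.pos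
  have hs1 := hs.le_one
  have h1 : 1 ≤ (C + 1) / s := by
    rw [le_div_iff₀ hs0]
    linarith
  refine ⟨h1, fam_Sh h hν (isSub_bl h.tree c0 R) hx h1 fun u hu => ?_⟩
  refine (hmean ν ρ s hν hs c0 R x u hx hu).trans ?_
  exact div_le_div_of_nonneg_right (by linarith) hs0.le

/-- integrals of functions of the weighted size -/
theorem int_PW_eq (h : Tr G lam b) {ν : Measure ℝ} {ρ : ℝ} (hν : Null ν ρ) {W : Finset V}
    (x u : V) (φ : ℝ → ℝ) :
    EI G lam ν W (fun r => φ (Sh G lam W x u r)) =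
      ∫ r, φ (Shc G lam W x u r) ∂(PW G lam ν W) := by
  rw [integral_PW h hν]
  apply EI_congr h hν
  intro r hr
  rw [Shc_eq h hr]

theorem Sh_sq (h : Tr G lam b) : ∃ C : ℝ, 0 < C ∧
    ∀ (ν : Measure ℝ) (ρ s : ℝ), Null ν ρ → Mom ν s → ∀ (c0 : V) (R : ℕ) (x u : V),
      x ∈ bl G c0 R → u ∈ bl G c0 R →
      EI G lam ν (bl G c0 R) (fun r => Sh G lam (bl G c0 R) x u r ^ 2) ≤ C / s ^ 2 := by
  obtain ⟨C, hC, hfam⟩ := fam_exists (G := G) (lam := lam) h
  refine ⟨18 * C ^ 2, by positivity, ?_⟩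
  intro ν ρ s hν hs c0 R x u hx hu
  obtain ⟨hA1, H⟩ := hfam ν ρ s hν hs c0 R x hx
  set W := bl G c0 R with hWdef
  have hW : IsSub G W := isSub_bl h.tree c0 R
  have hs0 := hs.pos
  have hb2 : (2:ℝ) ≤ b := by exact_mod_cast h.two
  have hprob := PW_prob (lam := lam) h hν hW ⟨x, hx⟩
  set A := C / s with hA
  have hfinal : 18 * A ^ 2 = 18 * C ^ 2 / s ^ 2 := by
    rw [hA, div_pow, mul_div_assoc]
  rw [← hfinal, int_PW_eq h hν x u (fun t => t ^ 2)]
  by_cases hux : u = x
  · subst hux
    -- the root: Cauchy-Schwarz over the children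
    set T := chl G u u W with hT
    have hTcard : (T.card : ℝ) ≤ b + 1 := by
      exact_mod_cast card_chl_root_le h.tree h.reg u W
    have hTm : ∀ w ∈ T, w ∈ W ∧ w ≠ u := fun w hw => ⟨(mem_chl.1 hw).1, (mem_chl.1 hw).2.1⟩
    have hsq : ∀ w ∈ T, ∫ r, Shc G lam W u w r ^ 2 ∂(PW G lam ν W) ≤ 2 * A ^ 2 := by
      intro w hw
      have := H.second w
      simp_rw [XF_eq h hW hx (hTm w hw).1 (hTm w hw).2] at this
      exact this
    have hbd : ∀ w, ∀ r, |Shc G lam W u w r| ≤ W.card := by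
      intro w r
      rw [abs_of_nonneg (Shc_nonneg h _ _ _ _)]
      exact Shc_le h _ _ _ _
    have hint : ∀ w, Integrable (fun r => Shc G lam W u w r ^ 2) (PW G lam ν W) := by
      intro w
      apply Integrable.of_bound ((Tst_Shc h W u w).meas.pow_const 2).aestronglyMeasurable
        ((W.card : ℝ) ^ 2)
      refine Eventually.of_forall fun r => ?_
      rw [Real.norm_eq_abs, abs_pow]
      exact pow_le_pow_left₀ (abs_nonneg _) (hbd w r) 2
    have hpt : ∀ r, Shc G lam W u u r ^ 2 ≤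
        2 + 2 * ((1 / b : ℝ) ^ 2 * ((b + 1) * ∑ w ∈ T, Shc G lam W u w r ^ 2)) := by
      intro r
      have hb0 : (0:ℝ) < b := by linarith
      have e := Shc_rec h (hW.parClosed hx) hu r
      set S1 := ∑ w ∈ T, gc lam (tau G lam W u w r) * Shc G lam W u w r with hS1
      set S2 := ∑ w ∈ T, Shc G lam W u w r with hS2
      have h0 : 0 ≤ S1 := Finset.sum_nonneg fun w _ =>
        mul_nonneg (gc_nonneg _ _) (Shc_nonneg h _ _ _ _)
      have h1 : S1 ≤ S2 := Finset.sum_le_sum fun w _ =>
        mul_le_of_le_one_left (Shc_nonneg h _ _ _ _) (gc_le_one _ _)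
      have h2 : lam ^ 2 ≤ 1 / b := by
        rw [le_div_iff₀ hb0]
        exact h.crit
      have h3 : lam ^ 2 * S1 ≤ 1 / b * S2 :=
        mul_le_mul h2 h1 h0 (by positivity)
      have h4 : 0 ≤ lam ^ 2 * S1 := mul_nonneg (sq_nonneg _) h0
      have h5 : S2 ^ 2 ≤ (b + 1) * ∑ w ∈ T, Shc G lam W u w r ^ 2 := by
        have := sq_sum_le_card_mul_sum_sq (s := T) (f := fun w => Shc G lam W u w r)
        refine this.trans ?_
        exact mul_le_mul_of_nonneg_right hTcard (Finset.sum_nonneg fun _ _ => sq_nonneg _)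
      rw [e]
      have h6 : (lam ^ 2 * S1) ^ 2 ≤ (1 / b * S2) ^ 2 := pow_le_pow_left₀ h4 h3 2
      calc (1 + lam ^ 2 * S1) ^ 2 ≤ 2 + 2 * (lam ^ 2 * S1) ^ 2 := by
            nlinarith [sq_nonneg (1 - lam ^ 2 * S1)]
        _ ≤ 2 + 2 * ((1 / b : ℝ) ^ 2 * S2 ^ 2) := by
            rw [← mul_pow]
            linarith
        _ ≤ _ := by
            have : (1 / b : ℝ) ^ 2 * S2 ^ 2 ≤
                (1 / b : ℝ) ^ 2 * ((b + 1) * ∑ w ∈ T, Shc G lam W u w r ^ 2) :=
              mul_le_mul_of_nonneg_left h5 (by positivity)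
            linarith
    have hint2 : Integrable (fun r => 2 + 2 * ((1 / b : ℝ) ^ 2 *
        ((b + 1) * ∑ w ∈ T, Shc G lam W u w r ^ 2))) (PW G lam ν W) := by
      apply (integrable_const _).add
      apply Integrable.const_mul
      apply Integrable.const_mul
      apply Integrable.const_mul
      exact integrable_finsetSum _ fun w _ => hint w
    have h7 : ∫ r, Shc G lam W u u r ^ 2 ∂(PW G lam ν W) ≤
        ∫ r, (2 + 2 * ((1 / b : ℝ) ^ 2 *
        ((b + 1) * ∑ w ∈ T, Shc G lam W u w r ^ 2))) ∂(PW G lam ν W) :=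
      integral_mono (hint u) hint2 hpt
    refine h7.trans ?_
    rw [integral_add (integrable_const _) (((((integrable_finsetSum _ fun w _ => hint w)).const_mul
      _).const_mul _).const_mul _), integral_const_mul, integral_const_mul, integral_const_mul,
      integral_finsetSum _ fun w _ => hint w]
    have h8 : ∑ w ∈ T, ∫ r, Shc G lam W u w r ^ 2 ∂(PW G lam ν W) ≤ (b + 1) * (2 * A ^ 2) := by
      refine (Finset.sum_le_sum hsq).trans ?_
      rw [Finset.sum_const, nsmul_eq_mul]
      exact mul_le_mul_of_nonneg_right hTcard (by positivity)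
    have h9 : (1 / b : ℝ) ^ 2 * ((b + 1) * ((b + 1) * (2 * A ^ 2))) ≤ 9 / 2 * A ^ 2 := by
      have hb0 : (0:ℝ) < b := by linarith
      have : (1 / b : ℝ) ^ 2 * ((b + 1) * ((b + 1) * (2 * A ^ 2))) =
          2 * A ^ 2 * ((b + 1) / b) ^ 2 := by
        field_simp
      rw [this]
      have h10 : ((b + 1) / b : ℝ) ≤ 3 / 2 := by
        rw [div_le_iff₀ hb0]
        linarith
      have h11 : ((b + 1) / b : ℝ) ^ 2 ≤ (3 / 2) ^ 2 := pow_le_pow_left₀ (by positivity) h10 2
      nlinarith [sq_nonneg A]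
    have h12 : (1 / b : ℝ) ^ 2 * ((b + 1) *
        ∑ w ∈ T, ∫ r, Shc G lam W u w r ^ 2 ∂(PW G lam ν W)) ≤ 9 / 2 * A ^ 2 := by
      refine le_trans ?_ h9
      apply mul_le_mul_of_nonneg_left _ (by positivity)
      exact mul_le_mul_of_nonneg_left h8 (by positivity)
    have h13 : ∫ _r : V → ℝ, (2:ℝ) ∂(PW G lam ν W) = 2 := by simp
    rw [h13]
    nlinarith
  · have h1 := H.second u
    simp_rw [XF_eq h hW hx hu hux] at h1
    refine h1.trans ?_
    nlinarith [sq_nonneg A]

theorem log_mul_bound {A t : ℝ} (hA : 1 ≤ A) (ht : 0 ≤ t) :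
    Real.log (1 + 10 * A * t) ≤ 10 * A + Real.log (1 + t) := by
  have h1 : 1 + 10 * A * t ≤ (1 + 10 * A) * (1 + t) := by nlinarith
  have h2 : Real.log (1 + 10 * A * t) ≤ Real.log ((1 + 10 * A) * (1 + t)) :=
    Real.log_le_log (by positivity) h1
  rw [Real.log_mul (by positivity) (by positivity)] at h2
  have h3 : Real.log (1 + 10 * A) ≤ 10 * A := by
    have := Real.log_le_sub_one_of_pos (show (0:ℝ) < 1 + 10 * A by positivity)
    linarith
  linarith

theorem Sh_exp (h : Tr G lam b) : ∃ C : ℝ, 0 < C ∧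
    ∀ (ν : Measure ℝ) (ρ s : ℝ), Null ν ρ → Mom ν s → ∀ (c0 : V) (R : ℕ) (x u : V),
      x ∈ bl G c0 R → u ∈ bl G c0 R → ∀ t : ℝ, 1 ≤ t →
      EI G lam ν (bl G c0 R) (fun r => Real.exp (t * Sh G lam (bl G c0 R) x u r)) ≤
        Real.exp (C * t * (1 / s + Real.log (1 + t))) := by
  obtain ⟨C, hC, hfam⟩ := fam_exists (G := G) (lam := lam) h
  refine ⟨36 * C + 3, by positivity, ?_⟩
  intro ν ρ s hν hs c0 R x u hx hu t ht
  obtain ⟨hA1, H⟩ := hfam ν ρ s hν hs c0 R x hx
  set W := bl G c0 R with hWdef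
  have hW : IsSub G W := isSub_bl h.tree c0 R
  have hs0 := hs.pos
  have hs1 := hs.le_one
  have hb2 : (2:ℝ) ≤ b := by exact_mod_cast h.two
  have hb0 : (0:ℝ) < b := by linarith
  have hprob := PW_prob (lam := lam) h hν hW ⟨x, hx⟩
  have ht0 : 0 ≤ t := by linarith
  have hL : 0 ≤ Real.log (1 + t) := Real.log_nonneg (by linarith)
  set A := C / s with hA
  have hfinal : t * (36 * A + 3 * Real.log (1 + t)) ≤
      (36 * C + 3) * t * (1 / s + Real.log (1 + t)) := by
    have e : (36 * C + 3) * t * (1 / s + Real.log (1 + t)) =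
        t * (36 * A + 3 * Real.log (1 + t)) + t * (3 * (1 / s) + 36 * C * Real.log (1 + t)) := by
      rw [hA]; ring
    rw [e]
    have : 0 ≤ t * (3 * (1 / s) + 36 * C * Real.log (1 + t)) := by positivity
    linarith
  rw [int_PW_eq h hν x u (fun y => Real.exp (t * y))]
  refine le_trans ?_ (Real.exp_le_exp.2 hfinal)
  -- bound for a non-root vertex, any `t' ≥ 0`
  have hnon : ∀ w ∈ W, w ≠ x → ∀ t' : ℝ, 0 ≤ t' → t' ≤ t →
      ∫ r, Real.exp (t' * Shc G lam W x w r) ∂(PW G lam ν W) ≤
        Real.exp (t' * (23 * A + 2 * Real.log (1 + t))) := by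
    intro w hw hwx t' ht' htt
    have h1 := H.mgf_log ht' w
    simp_rw [XF_eq h hW hx hw hwx] at h1
    refine h1.trans (Real.exp_le_exp.2 ?_)
    apply mul_le_mul_of_nonneg_left _ ht'
    have h2 := log_mul_bound hA1 ht'
    have h3 : Real.log (1 + t') ≤ Real.log (1 + t) :=
      Real.log_le_log (by linarith) (by linarith)
    linarith
  by_cases hux : u = x
  · subst hux
    set T := chl G u u W with hT
    have hTcard : (T.card : ℝ) ≤ b + 1 := by
      exact_mod_cast card_chl_root_le h.tree h.reg u W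
    have hTm : ∀ w ∈ T, w ∈ W ∧ w ≠ u := fun w hw => ⟨(mem_chl.1 hw).1, (mem_chl.1 hw).2.1⟩
    have h1 : ∀ r, Real.exp (t * Shc G lam W u u r) = Real.exp t *
        ∏ w ∈ T, Real.exp (t * lam ^ 2 * (gc lam (tau G lam W u w r) * Shc G lam W u w r)) := by
      intro r
      rw [Shc_rec h (hW.parClosed hx) hu, ← Real.exp_sum, ← Real.exp_add, ← Finset.mul_sum]
      congr 1
      ring
    simp_rw [h1]
    rw [integral_const_mul]
    have h2 := prod_indep h hν hW hx (Finset.Subset.refl T)
      (fun w r => Real.exp (t * lam ^ 2 * (gc lam (tau G lam W u w r) * Shc G lam W u w r)))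
      (fun w hw => (((Tst_gc_tau h (hTm w hw).1).mul (Tst_Shc h W u w)).const_mul _).exp)
      (fun w hw => (((even_tau h (hTm w hw).1 (gc_neg lam)).mul
        (even_Shc h W u w)).const_mul _).comp Real.exp)
    rw [← integral_PW h hν] at h2
    rw [h2]
    have h3 : ∀ w ∈ T, EI G lam ν W (fun r => Real.exp (t * lam ^ 2 *
        (gc lam (tau G lam W u w r) * Shc G lam W u w r))) ≤
        Real.exp (t / b * (23 * A + 2 * Real.log (1 + t))) := by
      intro w hw
      have htb : t / b ≤ t := div_le_self ht0 (by linarith)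
      refine le_trans ?_ (hnon w (hTm w hw).1 (hTm w hw).2 (t / b) (by positivity) htb)
      rw [integral_PW h hν]
      apply EI_mono h hν
      · exact (((Tst_gc_tau h (hTm w hw).1).mul (Tst_Shc h W u w)).const_mul _).exp.mono
          (desc_subset u w W)
      · exact (((Tst_Shc h W u w).const_mul _).exp).mono (desc_subset u w W)
      · intro r _
        apply Real.exp_le_exp.2
        have h4 : lam ^ 2 ≤ 1 / b := by
          rw [le_div_iff₀ hb0]
          exact h.crit
        have h5 : gc lam (tau G lam W u w r) * Shc G lam W u w r ≤ Shc G lam W u w r :=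
          mul_le_of_le_one_left (Shc_nonneg h _ _ _ _) (gc_le_one _ _)
        have h6 : 0 ≤ gc lam (tau G lam W u w r) * Shc G lam W u w r :=
          mul_nonneg (gc_nonneg _ _) (Shc_nonneg h _ _ _ _)
        have h7 : t * lam ^ 2 ≤ t / b := by
          rw [div_eq_mul_one_div]
          exact mul_le_mul_of_nonneg_left h4 ht0
        exact mul_le_mul h7 h5 h6 (by positivity)
    have hE1 : 1 ≤ Real.exp (t / b * (23 * A + 2 * Real.log (1 + t))) :=
      Real.one_le_exp (by positivity)
    have hEI0 : ∀ w ∈ T, 0 ≤ EI G lam ν W (fun r => Real.exp (t * lam ^ 2 *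
        (gc lam (tau G lam W u w r) * Shc G lam W u w r))) := by
      intro w _
      rw [← integral_PW h hν]
      exact integral_nonneg fun _ => (Real.exp_pos _).le
    calc Real.exp t * ∏ w ∈ T, EI G lam ν W (fun r => Real.exp (t * lam ^ 2 *
          (gc lam (tau G lam W u w r) * Shc G lam W u w r)))
        ≤ Real.exp t * ∏ _w ∈ T, Real.exp (t / b * (23 * A + 2 * Real.log (1 + t))) := by
          apply mul_le_mul_of_nonneg_left _ (Real.exp_pos _).le
          exact Finset.prod_le_prod hEI0 h3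
      _ = Real.exp t * Real.exp (t / b * (23 * A + 2 * Real.log (1 + t))) ^ T.card := by
          rw [Finset.prod_const]
      _ ≤ Real.exp t * Real.exp (t / b * (23 * A + 2 * Real.log (1 + t))) ^ (b + 1) := by
          apply mul_le_mul_of_nonneg_left _ (Real.exp_pos _).le
          apply pow_le_pow_right₀ hE1
          exact_mod_cast hTcard
      _ = Real.exp (t + ((b + 1) / b) * t * (23 * A + 2 * Real.log (1 + t))) := by
          rw [← Real.exp_nat_mul, ← Real.exp_add]
          congr 1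
          push_cast
          field_simp
      _ ≤ Real.exp (t * (36 * A + 3 * Real.log (1 + t))) := by
          apply Real.exp_le_exp.2
          have h10 : ((b + 1) / b : ℝ) ≤ 3 / 2 := by
            rw [div_le_iff₀ hb0]
            linarith
          have h11 : 0 ≤ t * (23 * A + 2 * Real.log (1 + t)) := by positivity
          have h12 := mul_le_mul_of_nonneg_right h10 h11
          have h13 : t * 1 ≤ t * A := mul_le_mul_of_nonneg_left hA1 ht0
          nlinarith
  · refine (hnon u hu hux t ht0 le_rfl).trans (Real.exp_le_exp.2 ?_)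
    apply mul_le_mul_of_nonneg_left _ ht0
    linarith

end P5

end Crest.Agent.H14
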