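import Mathlib
import Crest.Agent.H14.TstL
import Crest.Agent.H14.Telescope
import Crest.Agent.H14.Defs2

/-!
# Row 160, P8 part 1 (helper17): the pathwise telescoping inequality on a tree
-/

set_option autoImplicit false

open MeasureTheory Filter Topology

namespace Crest.Agent.H14

open scoped Classical

section Path

variable {V : Type*} {G : SimpleGraph V} {lam : ℝ} {b : ℕ}

/-- path data from `x` to `y` as sequences -/
theorem exists_path_seq (h : Tr G lam b) {x : V} {B W W' : Finset V} (hB : ParClosed G x B)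
    (hW : ParClosed G x W) (hW' : ParClosed G x W') (hBW : B ⊆ W) (hBW' : B ⊆ W')
    {r r' : V → ℝ} (hr : Adm W r) (hr' : Adm W' r') :
    ∀ (n : ℕ) (y : V), y ∈ B → G.dist x y = n → ∃ t t' : ℕ → ℝ,
      (∀ i, |t i| ≤ 1) ∧ (∀ i, |t' i| ≤ 1) ∧
      PP G lam W x x y r = ∏ i ∈ Finset.range n, gam lam (t i) ∧
      PP G lam W' x x y r' = ∏ i ∈ Finset.range n, gam lam (t' i) ∧
      ∑ c ∈ Finset.range n, (∏ i ∈ Finset.range c, gam lam (t i)) *
        (∏ i ∈ Finset.Ico (c + 1) n, gam lam (t' i)) * (t c - t' c) ^ 2 =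
      ∑ u ∈ pth G x x y B, PP G lam W x x (par G x u) r * PP G lam W' x u y r' *
        (tau G lam W x u r - tau G lam W' x u r') ^ 2 := by
  intro n
  induction n with
  | zero =>
    intro y _ hn
    have hxy : x = y := (h.tree.connected.dist_eq_zero_iff).1 hn
    subst hxy
    refine ⟨fun _ => 0, fun _ => 0, by simp, by simp, ?_, ?_, ?_⟩
    · rw [PP_root h]; simp
    · rw [PP_root h]; simp
    · rw [pth_self h.tree]; simp
  | succ n ih =>
    intro y hy hn
    have hyx : y ≠ x := by
      rintro rfl
      simp at hn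
    have hd := dist_par h.tree hyx
    have hp : par G x y ∈ B := hB.par_mem y hy
    obtain ⟨t, t', ht, ht', e1, e2, e3⟩ := ih (par G x y) hp (by omega)
    have hyW : y ∈ desc G x x W := by rw [desc_root]; exact hBW hy
    have hyW' : y ∈ desc G x x W' := by rw [desc_root]; exact hBW' hy
    have hyB : y ∈ desc G x x B := by rw [desc_root]; exact hy
    have hty : |tau G lam W x y r| ≤ 1 := (tau_abs_lt h (hBW hy) hr).le
    have hty' : |tau G lam W' x y r'| ≤ 1 := (tau_abs_lt h (hBW' hy) hr').le
    have g1 : ∀ m ≤ n, ∏ i ∈ Finset.range m,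
        gam lam ((fun i => if i = n then tau G lam W x y r else t i) i) =
        ∏ i ∈ Finset.range m, gam lam (t i) := by
      intro m hm
      refine Finset.prod_congr rfl fun i hi => ?_
      have : i ≠ n := by have := Finset.mem_range.1 hi; omega
      simp [this]
    have g2 : ∀ m ≤ n, ∏ i ∈ Finset.range m,
        gam lam ((fun i => if i = n then tau G lam W' x y r' else t' i) i) =
        ∏ i ∈ Finset.range m, gam lam (t' i) := by
      intro m hm
      refine Finset.prod_congr rfl fun i hi => ?_
      have : i ≠ n := by have := Finset.mem_range.1 hi; omega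
      simp [this]
    refine ⟨fun i => if i = n then tau G lam W x y r else t i,
      fun i => if i = n then tau G lam W' x y r' else t' i, ?_, ?_, ?_, ?_, ?_⟩
    · intro i
      beta_reduce
      split_ifs
      · exact hty
      · exact ht i
    · intro i
      beta_reduce
      split_ifs
      · exact hty'
      · exact ht' i
    · rw [PP_bot h hW hyW hyx, Finset.prod_range_succ, g1 n le_rfl, e1]
      simp [mul_comm]
    · rw [PP_bot h hW' hyW' hyx, Finset.prod_range_succ, g2 n le_rfl, e2]
      simp [mul_comm]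
    · rw [Finset.sum_range_succ, pth_insert_bot h.tree hB hyB hyx,
        Finset.sum_insert (notMem_pth_par h.tree hyx), add_comm]
      congr 1
      · rw [g1 n le_rfl, Finset.Ico_self, Finset.prod_empty, PP_root h, ← e1]
        simp
      · have s1 : ∀ c ∈ Finset.range n, (∏ i ∈ Finset.range c,
            gam lam ((fun i => if i = n then tau G lam W x y r else t i) i)) *
            (∏ i ∈ Finset.Ico (c + 1) (n + 1),
              gam lam ((fun i => if i = n then tau G lam W' x y r' else t' i) i)) *
            ((fun i => if i = n then tau G lam W x y r else t i) c -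
              (fun i => if i = n then tau G lam W' x y r' else t' i) c) ^ 2 =
            ((∏ i ∈ Finset.range c, gam lam (t i)) *
            (∏ i ∈ Finset.Ico (c + 1) n, gam lam (t' i)) * (t c - t' c) ^ 2) *
              gam lam (tau G lam W' x y r') := by
          intro c hc
          have hcn := Finset.mem_range.1 hc
          rw [g1 c hcn.le, Finset.prod_Ico_succ_top (by omega)]
          have s2 : ∏ i ∈ Finset.Ico (c + 1) n,
              gam lam ((fun i => if i = n then tau G lam W' x y r' else t' i) i) =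
              ∏ i ∈ Finset.Ico (c + 1) n, gam lam (t' i) := by
            refine Finset.prod_congr rfl fun i hi => ?_
            have : i ≠ n := by have := Finset.mem_Ico.1 hi; omega
            simp [this]
          rw [s2]
          have hcn' : c ≠ n := by omega
          simp only [hcn', if_false, if_true]
          ring
        rw [Finset.sum_congr rfl s1, ← Finset.sum_mul, e3, Finset.sum_mul]
        refine Finset.sum_congr rfl fun u hu => ?_
        have hu' := mem_pth.1 hu
        have hdu : G.dist x y = G.dist x u + G.dist u y := by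
          have h1 := (mem_desc.1 hu'.2.2.2).2
          have h2 : G.dist x y ≤ G.dist x u + G.dist u y :=
            h.tree.connected.dist_triangle
          have h3 : G.dist u y ≤ G.dist u (par G x y) + 1 := dist_le_dist_par h.tree u x y
          omega
        have hyu : y ∈ desc G x u W' := mem_desc.2 ⟨hBW' hy, hdu⟩
        have hyu' : y ≠ u := by
          rintro rfl
          exact notMem_pth_par h.tree hyx hu
        rw [PP_bot h hW' hyu hyu']
        ring

/-- constant of the telescoping inequality -/
noncomputable def Ctel (lam : ℝ) : ℝ := 8 / (1 - lam ^ 2) ^ 3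

theorem Ctel_nonneg (h : Tr G lam b) : 0 ≤ Ctel lam := by
  have := one_sub_sq_pos h.nonneg h.lam_lt
  unfold Ctel
  positivity

/-- squared difference of the covariances, one target vertex -/
theorem KW_diff_sq (h : Tr G lam b) {x : V} {B W W' : Finset V} (hB : ParClosed G x B)
    (hW : IsSub G W) (hW' : IsSub G W') (hBW : B ⊆ W) (hBW' : B ⊆ W')
    {r r' : V → ℝ} (hr : Adm W r) (hr' : Adm W' r') {y : V} (hy : y ∈ B) :
    (KW G lam W x y r - KW G lam W' x y r') ^ 2 ≤
      lam ^ (2 * G.dist x y) * (8 * (MW G lam W x r - MW G lam W' x r') ^ 2 *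
        PP G lam W' x x y r' + Ctel lam * ∑ u ∈ pth G x x y B,
          PP G lam W x x (par G x u) r * PP G lam W' x u y r' *
        (tau G lam W x u r - tau G lam W' x u r') ^ 2) := by
  have hxW : x ∈ W := hBW hB.root
  have hxW' : x ∈ W' := hBW' hB.root
  obtain ⟨t, t', ht, ht', e1, e2, e3⟩ := exists_path_seq h hB (hW.parClosed hxW)
    (hW'.parClosed hxW') hBW hBW' hr hr' (G.dist x y) y hy rfl
  have hm := abs_lt.1 (MW_abs_lt h hxW hr)
  have hm' := abs_lt.1 (MW_abs_lt h hxW' hr')
  set m := MW G lam W x r with hmdef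
  set m' := MW G lam W' x r' with hmdef'
  have hw : |1 - m ^ 2| ≤ 1 := by
    rw [abs_le]; constructor <;> nlinarith [sq_nonneg m]
  have key := telescope_sq lam h.nonneg h.lam_lt (G.dist x y) t t' ht ht' (1 - m ^ 2)
    (1 - m' ^ 2) hw
  rw [e3, ← e1, ← e2] at key
  rw [KW_prod h hW hxW (hBW hy) hr, KW_prod h hW' hxW' (hBW' hy) hr']
  have hlam : 0 ≤ lam ^ (2 * G.dist x y) := pow_nonneg h.nonneg _
  have e4 : ((1 - m ^ 2) * lam ^ G.dist x y * PP G lam W x x y r -
      (1 - m' ^ 2) * lam ^ G.dist x y * PP G lam W' x x y r') ^ 2 =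
      lam ^ (2 * G.dist x y) * ((1 - m ^ 2) * PP G lam W x x y r -
        (1 - m' ^ 2) * PP G lam W' x x y r') ^ 2 := by
    rw [pow_mul, ← pow_mul, mul_comm 2, pow_mul]
    ring
  rw [e4]
  apply mul_le_mul_of_nonneg_left _ hlam
  refine key.trans ?_
  have hP : 0 ≤ PP G lam W' x x y r' := PP_nonneg h hr' x x y
  have h1 : (1 - m ^ 2 - (1 - m' ^ 2)) ^ 2 ≤ 4 * (m - m') ^ 2 := by
    have e5 : (1 - m ^ 2 - (1 - m' ^ 2)) ^ 2 = (m + m') ^ 2 * (m - m') ^ 2 := by ring
    rw [e5]
    apply mul_le_mul_of_nonneg_right _ (sq_nonneg _)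
    nlinarith
  have hS : 0 ≤ ∑ u ∈ pth G x x y B, PP G lam W x x (par G x u) r * PP G lam W' x u y r' *
        (tau G lam W x u r - tau G lam W' x u r') ^ 2 :=
    Finset.sum_nonneg fun u _ => mul_nonneg (mul_nonneg (PP_nonneg h hr _ _ _)
      (PP_nonneg h hr' _ _ _)) (sq_nonneg _)
  have hC := Ctel_nonneg h
  apply add_le_add
  · calc 2 * (1 - m ^ 2 - (1 - m' ^ 2)) ^ 2 * PP G lam W' x x y r'
        ≤ 2 * (4 * (m - m') ^ 2) * PP G lam W' x x y r' := by gcongr
      _ = _ := by ring
  · unfold Ctel at hC ⊢
    apply mul_le_mul_of_nonneg_left _ hC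
    calc |1 - m ^ 2| * _ ≤ 1 * _ := mul_le_mul_of_nonneg_right hw hS
      _ = _ := one_mul _

/-- the pathwise inequality, summed over all targets in `B` -/
theorem sum_KW_diff_sq (h : Tr G lam b) {x : V} {B W W' : Finset V} (hB : ParClosed G x B)
    (hW : IsSub G W) (hW' : IsSub G W') (hBW : B ⊆ W) (hBW' : B ⊆ W')
    {r r' : V → ℝ} (hr : Adm W r) (hr' : Adm W' r') :
    ∑ y ∈ B, (KW G lam W x y r - KW G lam W' x y r') ^ 2 ≤
      8 * (MW G lam W x r - MW G lam W' x r') ^ 2 * Sh G lam W' x x r' +
      Ctel lam * ∑ u ∈ B.erase x, lam ^ (2 * G.dist x u) *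
        (PP G lam W x x (par G x u) r * (tau G lam W x u r - tau G lam W' x u r') ^ 2 *
          Sh G lam W' x u r') := by
  have h1 := Finset.sum_le_sum fun y hy => KW_diff_sq h hB hW hW' hBW hBW' hr hr' (y := y) hy
  refine h1.trans ?_
  simp_rw [mul_add, Finset.sum_add_distrib]
  apply add_le_add
  · have e1 : ∑ y ∈ B, lam ^ (2 * G.dist x y) * (8 * (MW G lam W x r - MW G lam W' x r') ^ 2 *
        PP G lam W' x x y r') = 8 * (MW G lam W x r - MW G lam W' x r') ^ 2 *
        ∑ y ∈ B, lam ^ (2 * G.dist x y) * PP G lam W' x x y r' := by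
      rw [Finset.mul_sum]
      exact Finset.sum_congr rfl fun y _ => by ring
    rw [e1]
    apply mul_le_mul_of_nonneg_left _ (by positivity)
    unfold Sh
    rw [desc_root]
    exact Finset.sum_le_sum_of_subset_of_nonneg hBW' fun y _ _ =>
      mul_nonneg (pow_nonneg h.nonneg _) (PP_nonneg h hr' _ _ _)
  · set a : V → ℝ := fun u => PP G lam W x x (par G x u) r *
      (tau G lam W x u r - tau G lam W' x u r') ^ 2 with ha
    have ha0 : ∀ u, 0 ≤ a u := fun u => mul_nonneg (PP_nonneg h hr _ _ _) (sq_nonneg _)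
    have e1 : ∑ y ∈ B, lam ^ (2 * G.dist x y) * (Ctel lam * ∑ u ∈ pth G x x y B,
          PP G lam W x x (par G x u) r * PP G lam W' x u y r' *
        (tau G lam W x u r - tau G lam W' x u r') ^ 2) =
        Ctel lam * ∑ y ∈ B, ∑ u ∈ pth G x x y B,
          lam ^ (2 * G.dist x y) * (a u * PP G lam W' x u y r') := by
      rw [Finset.mul_sum]
      refine Finset.sum_congr rfl fun y _ => ?_
      rw [← Finset.mul_sum, ha]
      have : ∀ u ∈ pth G x x y B, PP G lam W x x (par G x u) r * PP G lam W' x u y r' *
          (tau G lam W x u r - tau G lam W' x u r') ^ 2 =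
          PP G lam W x x (par G x u) r * (tau G lam W x u r - tau G lam W' x u r') ^ 2 *
            PP G lam W' x u y r' := fun u _ => by ring
      rw [Finset.sum_congr rfl this]
      ring
    rw [e1]
    apply mul_le_mul_of_nonneg_left _ (Ctel_nonneg h)
    rw [Finset.sum_comm' (t' := B.erase x) (s' := fun u => (desc G x u B))]
    · refine Finset.sum_le_sum fun u hu => ?_
      have e2 : ∑ y ∈ desc G x u B, lam ^ (2 * G.dist x y) * (a u * PP G lam W' x u y r') =
          lam ^ (2 * G.dist x u) * (a u *
            ∑ y ∈ desc G x u B, lam ^ (2 * G.dist u y) * PP G lam W' x u y r') := by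
        rw [Finset.mul_sum, Finset.mul_sum]
        refine Finset.sum_congr rfl fun y hy => ?_
        rw [(mem_desc.1 hy).2]
        ring
      rw [e2]
      apply mul_le_mul_of_nonneg_left _ (pow_nonneg h.nonneg _)
      apply mul_le_mul_of_nonneg_left _ (ha0 u)
      unfold Sh
      apply Finset.sum_le_sum_of_subset_of_nonneg
      · intro y hy
        rw [mem_desc] at hy ⊢
        exact ⟨hBW' hy.1, hy.2⟩
      · intro y _ _
        exact mul_nonneg (pow_nonneg h.nonneg _) (PP_nonneg h hr' _ _ _)
    · intro y u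
      rw [mem_pth, Finset.mem_erase, desc_root]
      constructor
      · rintro ⟨h1, h2, h3, h4, h5⟩
        exact ⟨h5, h3, h2⟩
      · rintro ⟨h1, h2, h3⟩
        exact ⟨(mem_desc.1 h1).1, h3, h2, h3, h1⟩

end Path

end Crest.Agent.H14
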