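import Mathlib
import Crest.Agent.H14.StepB1

/-!
# Row 160, P8 part 2 (helper17): scalar inequalities, level counts
-/

set_option autoImplicit false

open MeasureTheory Filter Topology

namespace Crest.Agent.H14

open scoped Classical

section Scalars

/-- entropy inequality, pointwise -/
theorem ent_pointwise {f S X Λ : ℝ} (hf : 0 ≤ f) (hf4 : f ≤ 4) :
    X * (f * S) ≤ f * (2 + X + Λ) + Real.exp (-X) * Real.exp (X * S - Λ) := by
  rcases hf.eq_or_lt with h0 | h0
  · rw [← h0]
    have : 0 ≤ Real.exp (-X) * Real.exp (X * S - Λ) := by positivity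
    simpa using this
  have hl4 : Real.log 4 ≤ 2 := by
    have h1 : Real.log 4 = 2 * Real.log 2 := by
      rw [show (4:ℝ) = 2 ^ 2 by norm_num, Real.log_pow]; norm_num
    have := Real.log_two_lt_d9
    linarith
  have hlf : Real.log f ≤ 2 := (Real.log_le_log h0 hf4).trans hl4
  set v := X * S - Λ with hv
  have h1 := Real.add_one_le_exp (v - (Real.log f + X))
  have h2 : Real.exp (v - (Real.log f + X)) = Real.exp (-X) * Real.exp v / f := by
    rw [Real.exp_sub, Real.exp_add, Real.exp_log h0, Real.exp_neg]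
    field_simp
  rw [h2, le_div_iff₀ h0] at h1
  have h3 : X * (f * S) = f * (v + Λ) := by rw [hv]; ring
  rw [h3]
  nlinarith

/-- level inequality, pointwise -/
theorem lev_pointwise {P f S s g : ℝ} {p : ℕ} (hP0 : 0 ≤ P) (hP1 : P ≤ 1) (hf : 0 ≤ f)
    (hf4 : f ≤ 4) (hS : 0 ≤ S) (hs : 0 < s) (hg : 0 ≤ g) (hp : 1 ≤ p) :
    P * (f * S) ≤ Real.exp (-(g / p)) * (f * S) + 2 / s * (Real.exp (3 * g) * P ^ p) +
      2 * s * (Real.exp (-g) * S ^ 2) := by
  have hfS : 0 ≤ f * S := mul_nonneg hf hS
  have t1 : 0 ≤ 2 / s * (Real.exp (3 * g) * P ^ p) := by positivity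
  have t2 : 0 ≤ 2 * s * (Real.exp (-g) * S ^ 2) := by positivity
  have t3 : 0 ≤ Real.exp (-(g / p)) * (f * S) := by positivity
  rcases le_or_gt P (Real.exp (-(g / p))) with h | h
  · have := mul_le_mul_of_nonneg_right h hfS
    linarith
  · have hp0 : (0:ℝ) < p := by exact_mod_cast hp
    have h1 : Real.exp (-g) ≤ P ^ p := by
      have e1 : Real.exp (-g) = Real.exp (-(g / p)) ^ p := by
        rw [← Real.exp_nat_mul]
        congr 1
        field_simp
      rw [e1]
      exact pow_le_pow_left₀ (Real.exp_pos _).le h.le p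
    have h2 : Real.exp g ≤ Real.exp (3 * g) * P ^ p := by
      have e2 : Real.exp g ≤ Real.exp (3 * g) * Real.exp (-g) := by
        rw [← Real.exp_add]
        exact Real.exp_le_exp.2 (by linarith)
      exact e2.trans (mul_le_mul_of_nonneg_left h1 (Real.exp_pos _).le)
    have h3 : P * (f * S) ≤ 4 * S := by
      have : f * S ≤ 4 * S := mul_le_mul_of_nonneg_right hf4 hS
      calc P * (f * S) ≤ 1 * (f * S) := mul_le_mul_of_nonneg_right hP1 hfS
        _ ≤ 4 * S := by linarith
    have h4 : 4 * S ≤ 2 / s * Real.exp g + 2 * s * (Real.exp (-g) * S ^ 2) := by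
      have e3 : Real.exp g * Real.exp (-g) = 1 := by rw [← Real.exp_add]; simp
      set a := Real.exp g with ha
      set c := Real.exp (-g) with hc
      have hapos : 0 < a := Real.exp_pos _
      have e4 : 2 / s * a + 2 * s * (c * S ^ 2) - 4 * S = 2 / (s * a) * (a - s * S) ^ 2 := by
        have hc' : c = 1 / a := by rw [eq_div_iff hapos.ne', mul_comm]; exact e3
        rw [hc']
        field_simp
        ring
      have e5 : 0 ≤ 2 / (s * a) * (a - s * S) ^ 2 := by positivity
      linarith
    have h5 : 2 / s * Real.exp g ≤ 2 / s * (Real.exp (3 * g) * P ^ p) :=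
      mul_le_mul_of_nonneg_left h2 (by positivity)
    linarith

theorem geom_exp_le {y : ℝ} (hy : 0 < y) (n : ℕ) :
    ∑ j ∈ Finset.range n, Real.exp (-(y * j)) ≤ 1 + 1 / y := by
  set q := Real.exp (-y) with hq
  have hq1 : q < 1 := by rw [hq, Real.exp_lt_one_iff]; linarith
  have hq0 : 0 < q := Real.exp_pos _
  have e1 : ∀ j ∈ Finset.range n, Real.exp (-(y * j)) = q ^ j := by
    intro j _
    rw [hq, ← Real.exp_nat_mul]
    congr 1
    ring
  rw [Finset.sum_congr rfl e1]
  have h1 : (1 - q) * ∑ j ∈ Finset.range n, q ^ j ≤ 1 := by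
    have := geom_sum_mul q n
    have h2 : 0 ≤ q ^ n := by positivity
    nlinarith
  have h3 : q ≤ 1 / (1 + y) := by
    rw [hq, Real.exp_neg, ← one_div]
    apply one_div_le_one_div_of_le (by linarith)
    have := Real.add_one_le_exp y
    linarith
  have h4 : y / (1 + y) ≤ 1 - q := by
    have : y / (1 + y) = 1 - 1 / (1 + y) := by field_simp; ring
    rw [this]
    linarith
  have h5 : 0 ≤ ∑ j ∈ Finset.range n, q ^ j := Finset.sum_nonneg fun j _ => by positivity
  have h6 : y / (1 + y) * ∑ j ∈ Finset.range n, q ^ j ≤ 1 :=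
    (mul_le_mul_of_nonneg_right h4 h5).trans h1
  have h7 : 1 + 1 / y = (1 + y) / y := by field_simp; ring
  rw [h7, le_div_iff₀ hy]
  have h8 : y / (1 + y) * (∑ j ∈ Finset.range n, q ^ j) * (1 + y) ≤ 1 * (1 + y) :=
    mul_le_mul_of_nonneg_right h6 (by linarith)
  have h9 : y / (1 + y) * (∑ j ∈ Finset.range n, q ^ j) * (1 + y) =
      (∑ j ∈ Finset.range n, q ^ j) * y := by field_simp
  linarith

/-- summation over the levels -/
theorem sum_levels {T : ℕ → ℝ} {N k0 K p : ℕ} {γ A M : ℝ} (hγ : 0 < γ) (hp : 1 ≤ p) (hA : 0 ≤ A)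
    (hM : 0 ≤ M) (h1 : ∀ k < N, T k ≤ A)
    (h2 : ∀ j : ℕ, k0 + j < N → T (k0 + j) ≤ Real.exp (-(γ * j / p)) * A + M * Real.exp (-(γ * j))) :
    ∑ k ∈ Finset.range N, T k ≤
      (k0 + K + 1 + p / γ) * A + M * Real.exp (-(γ * K)) * (1 + 1 / γ) := by
  have hp0 : (0:ℝ) < p := by exact_mod_cast hp
  set U : ℕ → ℝ := fun k => if k < k0 + K then A else
    Real.exp (-(γ * (k - k0 : ℕ) / p)) * A + M * Real.exp (-(γ * (k - k0 : ℕ))) with hU
  have hU0 : ∀ k, 0 ≤ U k := by
    intro k
    rw [hU]
    beta_reduce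
    split_ifs
    · exact hA
    · positivity
  have hTU : ∀ k ∈ Finset.range N, T k ≤ U k := by
    intro k hk
    have hkN := Finset.mem_range.1 hk
    rw [hU]
    beta_reduce
    split_ifs with h
    · exact h1 k hkN
    · have e : k0 + (k - k0) = k := by omega
      have := h2 (k - k0) (by omega)
      rwa [e] at this
  have s1 : ∑ k ∈ Finset.range N, T k ≤ ∑ k ∈ Finset.range (k0 + K + N), U k :=
    (Finset.sum_le_sum hTU).trans (Finset.sum_le_sum_of_subset_of_nonneg
      (Finset.range_subset_range.2 (by omega)) fun k _ _ => hU0 k)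
  refine s1.trans ?_
  rw [Finset.sum_range_add]
  have s2 : ∑ k ∈ Finset.range (k0 + K), U k = (k0 + K) * A := by
    have : ∀ k ∈ Finset.range (k0 + K), U k = A := by
      intro k hk
      rw [hU]
      beta_reduce
      rw [if_pos (Finset.mem_range.1 hk)]
    rw [Finset.sum_congr rfl this]
    simp
  have s3 : ∑ j ∈ Finset.range N, U (k0 + K + j) ≤
      (1 + p / γ) * A + M * Real.exp (-(γ * K)) * (1 + 1 / γ) := by
    have e1 : ∀ j ∈ Finset.range N, U (k0 + K + j) ≤
        Real.exp (-(γ / p * j)) * A + M * Real.exp (-(γ * K)) * Real.exp (-(γ * j)) := by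
      intro j _
      rw [hU]
      beta_reduce
      rw [if_neg (by omega)]
      have e2 : k0 + K + j - k0 = K + j := by omega
      rw [e2]
      push_cast
      apply add_le_add
      · apply mul_le_mul_of_nonneg_right _ hA
        apply Real.exp_le_exp.2
        have hK : (0:ℝ) ≤ K := Nat.cast_nonneg K
        have : γ / p * j ≤ γ * (K + j) / p := by
          rw [div_mul_eq_mul_div]
          apply div_le_div_of_nonneg_right _ hp0.le
          nlinarith
        linarith
      · rw [mul_assoc, ← Real.exp_add]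
        apply le_of_eq
        congr 2
        ring
    refine (Finset.sum_le_sum e1).trans ?_
    rw [Finset.sum_add_distrib, ← Finset.sum_mul, ← Finset.mul_sum]
    apply add_le_add
    · apply mul_le_mul_of_nonneg_right _ hA
      have := geom_exp_le (y := γ / p) (by positivity) N
      have e3 : 1 + 1 / (γ / p) = 1 + p / γ := by rw [one_div_div]
      rwa [e3] at this
    · apply mul_le_mul_of_nonneg_left (geom_exp_le hγ N)
      positivity
  rw [s2]
  linarith

end Scalars

section Levels

variable {V : Type*} {G : SimpleGraph V} [G.LocallyFinite] {lam : ℝ} {b : ℕ}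

/-- level `k` of the ball -/
noncomputable def levB (G : SimpleGraph V) [G.LocallyFinite] (x : V) (N k : ℕ) : Finset V :=
  (bl G x N).filter (fun u => G.dist x u = k)

theorem mem_levB (h : Tr G lam b) {x u : V} {N k : ℕ} :
    u ∈ levB G x N k ↔ G.dist x u = k ∧ k ≤ N := by
  unfold levB
  rw [Finset.mem_filter, mem_bl h.tree]
  constructor
  · rintro ⟨h1, h2⟩; exact ⟨h2, by omega⟩
  · rintro ⟨h1, h2⟩; exact ⟨by omega, h1⟩

theorem card_levB_succ (h : Tr G lam b) (x : V) (N : ℕ) :
    ∀ k : ℕ, (levB G x N (k + 1)).card ≤ (b + 1) * b ^ k := by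
  intro k
  induction k with
  | zero =>
    have h1 : levB G x N 1 ⊆ ch G x x := by
      intro u hu
      have hu' := (mem_levB h).1 hu
      rw [mem_ch h.tree]
      have hux : u ≠ x := by
        rintro rfl
        simp at hu'
      refine ⟨hux, ?_⟩
      have := dist_par h.tree hux
      have h2 : G.dist x (par G x u) = 0 := by omega
      exact ((h.tree.connected.dist_eq_zero_iff).1 h2).symm
    have h2 := Finset.card_le_card h1
    rw [card_ch_root_regular h.reg x] at h2
    simpa using h2
  | succ k ih =>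
    have h1 : levB G x N (k + 1 + 1) ⊆ (levB G x N (k + 1)).biUnion fun v => ch G x v := by
      intro u hu
      have hu' := (mem_levB h).1 hu
      have hux : u ≠ x := by
        rintro rfl
        simp at hu'
      have h2 := dist_par h.tree hux
      rw [Finset.mem_biUnion]
      refine ⟨par G x u, (mem_levB h).2 ⟨by omega, by omega⟩, ?_⟩
      rw [mem_ch h.tree]
      exact ⟨hux, rfl⟩
    refine (Finset.card_le_card h1).trans (Finset.card_biUnion_le.trans ?_)
    have h3 : ∀ v ∈ levB G x N (k + 1), (ch G x v).card ≤ b := by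
      intro v hv
      have hv' := (mem_levB h).1 hv
      have hvx : v ≠ x := by
        rintro rfl
        simp at hv'
      have := card_ch_regular h.tree h.reg hvx
      omega
    refine (Finset.sum_le_card_nsmul _ _ b h3).trans ?_
    rw [smul_eq_mul, pow_succ]
    calc (levB G x N (k + 1)).card * b ≤ ((b + 1) * b ^ k) * b := Nat.mul_le_mul_right b ih
      _ = (b + 1) * (b ^ k * b) := by ring

theorem card_levB_le (h : Tr G lam b) (x : V) (N k : ℕ) : (levB G x N k).card ≤ 2 * b ^ k := by
  have hb := h.two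
  cases k with
  | zero =>
    have h1 : levB G x N 0 ⊆ {x} := by
      intro u hu
      have hu' := (mem_levB h).1 hu
      rw [Finset.mem_singleton]
      exact ((h.tree.connected.dist_eq_zero_iff).1 hu'.1).symm
    have := Finset.card_le_card h1
    simp at this ⊢
    omega
  | succ k =>
    refine (card_levB_succ h x N k).trans ?_
    rw [pow_succ]
    have : (b + 1) * b ^ k ≤ (2 * b) * b ^ k := Nat.mul_le_mul_right _ (by omega)
    calc (b + 1) * b ^ k ≤ (2 * b) * b ^ k := this
      _ = 2 * (b ^ k * b) := by ring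

/-- sums over a ball by levels -/
theorem sum_bl_levels (h : Tr G lam b) (x : V) (N : ℕ) (F : V → ℝ) :
    ∑ y ∈ bl G x N, F y = ∑ k ∈ Finset.range (N + 1), ∑ y ∈ levB G x N k, F y := by
  unfold levB
  rw [Finset.sum_fiberwise_of_maps_to]
  intro y hy
  rw [mem_bl h.tree] at hy
  exact Finset.mem_range.2 (by omega)

/-- level-wise bound of a weighted sum over a ball -/
theorem sum_bl_le (h : Tr G lam b) (x : V) (N : ℕ) (F : V → ℝ) (T : ℕ → ℝ) (hT : ∀ k, 0 ≤ T k)
    (hF : ∀ y ∈ bl G x N, (b * lam ^ 2) ^ G.dist x y * F y ≤ T (G.dist x y)) :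
    ∑ y ∈ bl G x N, lam ^ (2 * G.dist x y) * F y ≤ 2 * ∑ k ∈ Finset.range (N + 1), T k := by
  rw [sum_bl_levels h, Finset.mul_sum]
  apply Finset.sum_le_sum
  intro k _
  have hb : (0:ℝ) < (b:ℝ) ^ k := by
    have : 0 < b := by have := h.two; omega
    positivity
  have h1 : ∀ y ∈ levB G x N k, lam ^ (2 * G.dist x y) * F y ≤ T k / (b:ℝ) ^ k := by
    intro y hy
    have hy' := (mem_levB h).1 hy
    have hyb : y ∈ bl G x N := by rw [mem_bl h.tree]; omega
    have h2 := hF y hyb
    rw [hy'.1] at h2 ⊢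
    rw [le_div_iff₀ hb]
    calc lam ^ (2 * k) * F y * (b:ℝ) ^ k = (b * lam ^ 2) ^ k * F y := by
          rw [mul_pow, pow_mul]; ring
      _ ≤ T k := h2
  have h3 := Finset.sum_le_card_nsmul _ _ _ h1
  rw [nsmul_eq_mul] at h3
  refine h3.trans ?_
  have h4 : ((levB G x N k).card : ℝ) ≤ 2 * (b:ℝ) ^ k := by exact_mod_cast card_levB_le h x N k
  have h5 : 0 ≤ T k / (b:ℝ) ^ k := div_nonneg (hT k) hb.le
  calc ((levB G x N k).card : ℝ) * (T k / (b:ℝ) ^ k) ≤ 2 * (b:ℝ) ^ k * (T k / (b:ℝ) ^ k) :=
        mul_le_mul_of_nonneg_right h4 h5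
    _ = 2 * T k := by field_simp

end Levels

end Crest.Agent.H14
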