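import Mathlib
import Crest.Agent.H14.StepB2
import Crest.Agent.H14.StatL

/-!
# Row 160, P8 part 3 (helper17): test functions of pairs, entropy and level estimates
-/

set_option autoImplicit false

open MeasureTheory Filter Topology

namespace Crest.Agent.H14

open scoped Classical

section PTs

variable {V : Type*} {W W' : Finset V} {f g : (V → ℝ) × (V → ℝ) → ℝ}

/-- test functions of a pair of evidence fields -/
structure PT (W W' : Finset V) (f : (V → ℝ) × (V → ℝ) → ℝ) : Prop where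
  meas : Measurable f
  bdd : ∃ C : ℝ, ∀ p : (V → ℝ) × (V → ℝ), Adm W p.1 → Adm W' p.2 → |f p| ≤ C

theorem PT.fst {F : (V → ℝ) → ℝ} (hF : Tst W F) : PT W W' (fun p => F p.1) := by
  obtain ⟨C, hC⟩ := hF.bdd
  exact ⟨hF.meas.comp measurable_fst, C, fun p h1 _ => hC p.1 h1⟩

theorem PT.snd {F : (V → ℝ) → ℝ} (hF : Tst W' F) : PT W W' (fun p => F p.2) := by
  obtain ⟨C, hC⟩ := hF.bdd
  exact ⟨hF.meas.comp measurable_snd, C, fun p _ h2 => hC p.2 h2⟩

theorem PT.const (c : ℝ) : PT W W' (fun _ => c) :=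
  ⟨measurable_const, |c|, fun _ _ _ => le_rfl⟩

theorem PT.add (hf : PT W W' f) (hg : PT W W' g) : PT W W' (fun p => f p + g p) := by
  obtain ⟨C, hC⟩ := hf.bdd
  obtain ⟨D, hD⟩ := hg.bdd
  exact ⟨hf.meas.add hg.meas, C + D, fun p h1 h2 =>
    (abs_add_le _ _).trans (add_le_add (hC p h1 h2) (hD p h1 h2))⟩

theorem PT.sub (hf : PT W W' f) (hg : PT W W' g) : PT W W' (fun p => f p - g p) := by
  obtain ⟨C, hC⟩ := hf.bdd
  obtain ⟨D, hD⟩ := hg.bdd
  exact ⟨hf.meas.sub hg.meas, C + D, fun p h1 h2 =>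
    (abs_sub _ _).trans (add_le_add (hC p h1 h2) (hD p h1 h2))⟩

theorem PT.mul (hf : PT W W' f) (hg : PT W W' g) : PT W W' (fun p => f p * g p) := by
  obtain ⟨C, hC⟩ := hf.bdd
  obtain ⟨D, hD⟩ := hg.bdd
  exact ⟨hf.meas.mul hg.meas, C * D, fun p h1 h2 => by
    rw [abs_mul]
    exact mul_le_mul (hC p h1 h2) (hD p h1 h2) (abs_nonneg _) ((abs_nonneg _).trans (hC p h1 h2))⟩

theorem PT.const_mul (c : ℝ) (hf : PT W W' f) : PT W W' (fun p => c * f p) :=
  (PT.const c).mul hf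

theorem PT.pow (hf : PT W W' f) (n : ℕ) : PT W W' (fun p => f p ^ n) := by
  induction n with
  | zero => simpa using PT.const (W := W) (W' := W') 1
  | succ n ih => simpa only [pow_succ] using ih.mul hf

theorem PT.sum {ι : Type*} (s : Finset ι) {F : ι → (V → ℝ) × (V → ℝ) → ℝ}
    (h : ∀ i ∈ s, PT W W' (F i)) : PT W W' (fun p => ∑ i ∈ s, F i p) := by
  induction s using Finset.induction_on with
  | empty => simpa using PT.const (W := W) (W' := W') 0
  | insert a s ha ih =>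
    simp only [Finset.sum_insert ha]
    exact (h a (Finset.mem_insert_self _ _)).add
      (ih fun i hi => h i (Finset.mem_insert_of_mem hi))

end PTs

section Pair

variable {V : Type*} {G : SimpleGraph V} {lam : ℝ} {b : ℕ} {ν : Measure ℝ} {ρ : ℝ}
  {W W' : Finset V} {P : Measure ((V → ℝ) × (V → ℝ))}

/-- pair of static laws on two windows -/
structure PL (G : SimpleGraph V) (lam : ℝ) (ν : Measure ℝ) (W W' : Finset V)
    (P : Measure ((V → ℝ) × (V → ℝ))) : Prop where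
  prob : IsProbabilityMeasure P
  sub : IsSub G W
  sub' : IsSub G W'
  ne : W.Nonempty
  ne' : W'.Nonempty
  st : IsStat G lam ν W (P.map Prod.fst)
  st' : IsStat G lam ν W' (P.map Prod.snd)

variable [Countable V]

theorem PL.adm (h : Tr G lam b) (hν : Null ν ρ) (hP : PL G lam ν W W' P) :
    ∀ᵐ p ∂P, Adm W p.1 ∧ Adm W' p.2 := by
  have h1 := ae_of_ae_map measurable_fst.aemeasurable (IsStat.adm h hν hP.sub hP.ne hP.st)
  have h2 := ae_of_ae_map measurable_snd.aemeasurable (IsStat.adm h hν hP.sub' hP.ne' hP.st')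
  filter_upwards [h1, h2] with p hp1 hp2 using ⟨hp1, hp2⟩

theorem PL.integrable (h : Tr G lam b) (hν : Null ν ρ) (hP : PL G lam ν W W' P)
    {f : (V → ℝ) × (V → ℝ) → ℝ} (hf : PT W W' f) : Integrable f P := by
  have := hP.prob
  obtain ⟨C, hC⟩ := hf.bdd
  refine Integrable.of_bound hf.meas.aestronglyMeasurable C ?_
  filter_upwards [hP.adm h hν] with p hp
  rw [Real.norm_eq_abs]
  exact hC p hp.1 hp.2

theorem PL.int_fst (h : Tr G lam b) (hν : Null ν ρ) (hP : PL G lam ν W W' P)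
    {F : (V → ℝ) → ℝ} (hF : Tst W F) : ∫ p, F p.1 ∂P = EI G lam ν W F := by
  rw [← (IsStat.integral h hν hP.sub hP.ne hP.st hF).2,
    integral_map measurable_fst.aemeasurable hF.meas.aestronglyMeasurable]

theorem PL.int_snd (h : Tr G lam b) (hν : Null ν ρ) (hP : PL G lam ν W W' P)
    {F : (V → ℝ) → ℝ} (hF : Tst W' F) : ∫ p, F p.2 ∂P = EI G lam ν W' F := by
  rw [← (IsStat.integral h hν hP.sub' hP.ne' hP.st' hF).2,
    integral_map measurable_snd.aemeasurable hF.meas.aestronglyMeasurable]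

theorem PL.mono (h : Tr G lam b) (hν : Null ν ρ) (hP : PL G lam ν W W' P)
    {f g : (V → ℝ) × (V → ℝ) → ℝ} (hf : PT W W' f) (hg : PT W W' g)
    (hle : ∀ p : (V → ℝ) × (V → ℝ), Adm W p.1 → Adm W' p.2 → f p ≤ g p) :
    ∫ p, f p ∂P ≤ ∫ p, g p ∂P := by
  apply integral_mono_ae (hP.integrable h hν hf) (hP.integrable h hν hg)
  filter_upwards [hP.adm h hν] with p hp using hle p hp.1 hp.2

theorem PL.nonneg (h : Tr G lam b) (hν : Null ν ρ) (hP : PL G lam ν W W' P)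
    {f : (V → ℝ) × (V → ℝ) → ℝ}
    (hle : ∀ p : (V → ℝ) × (V → ℝ), Adm W p.1 → Adm W' p.2 → 0 ≤ f p) :
    0 ≤ ∫ p, f p ∂P := by
  apply integral_nonneg_of_ae
  filter_upwards [hP.adm h hν] with p hp using hle p hp.1 hp.2

/-- **entropy bound** -/
theorem PL.ent (h : Tr G lam b) (hν : Null ν ρ) (hP : PL G lam ν W W' P)
    {f : (V → ℝ) × (V → ℝ) → ℝ} (hf : PT W W' f)
    (hf0 : ∀ p : (V → ℝ) × (V → ℝ), Adm W p.1 → Adm W' p.2 → 0 ≤ f p)
    (hf4 : ∀ p : (V → ℝ) × (V → ℝ), Adm W p.1 → Adm W' p.2 → f p ≤ 4)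
    {S : (V → ℝ) → ℝ} (hS : Tst W' S) {X Λ : ℝ} (hX : 1 ≤ X) (hΛ : 0 ≤ Λ)
    (hexp : EI G lam ν W' (fun r => Real.exp (X * S r)) ≤ Real.exp Λ) :
    ∫ p, f p * S p.2 ∂P ≤ (Λ / X + 3) * ∫ p, f p ∂P + Real.exp (-X) := by
  have hX0 : 0 < X := by linarith
  have hfS : PT W W' (fun p => f p * S p.2) := hf.mul (PT.snd hS)
  have hTe : Tst W' (fun r => Real.exp (X * S r)) := (hS.const_mul X).exp
  have hE : PT W W' (fun p : (V → ℝ) × (V → ℝ) => Real.exp (X * S p.2)) := PT.snd hTe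
  have h1 : ∫ p, X * (f p * S p.2) ∂P ≤
      ∫ p, ((2 + X + Λ) * f p + (Real.exp (-X) * Real.exp (-Λ)) * Real.exp (X * S p.2)) ∂P := by
    apply hP.mono h hν (hfS.const_mul X) ((hf.const_mul _).add (hE.const_mul _))
    intro p hp1 hp2
    have := ent_pointwise (S := S p.2) (X := X) (Λ := Λ) (hf0 p hp1 hp2) (hf4 p hp1 hp2)
    refine this.trans (le_of_eq ?_)
    rw [sub_eq_add_neg, Real.exp_add]
    ring
  rw [integral_const_mul, integral_add (hP.integrable h hν (hf.const_mul _))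
    (hP.integrable h hν (hE.const_mul _)), integral_const_mul, integral_const_mul,
    hP.int_snd h hν hTe] at h1
  have h2 : Real.exp (-X) * Real.exp (-Λ) * EI G lam ν W' (fun r => Real.exp (X * S r)) ≤
      Real.exp (-X) := by
    calc _ ≤ Real.exp (-X) * Real.exp (-Λ) * Real.exp Λ :=
          mul_le_mul_of_nonneg_left hexp (by positivity)
      _ = Real.exp (-X) := by rw [mul_assoc, ← Real.exp_add]; simp
  have hI : 0 ≤ ∫ p, f p ∂P := hP.nonneg h hν hf0
  set I := ∫ p, f p ∂P with hIdef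
  set J := ∫ p, f p * S p.2 ∂P with hJdef
  have h3 : X * J ≤ (2 + X + Λ) * I + Real.exp (-X) := by linarith
  have h4 : X * ((Λ / X + 3) * I + Real.exp (-X)) = Λ * I + 3 * X * I + X * Real.exp (-X) := by
    field_simp
  have h5 : (2 + X + Λ) * I + Real.exp (-X) ≤ X * ((Λ / X + 3) * I + Real.exp (-X)) := by
    rw [h4]
    have e1 := Real.exp_pos (-X)
    nlinarith
  exact le_of_mul_le_mul_left (h3.trans h5) hX0

/-- **level bound** -/
theorem PL.level (h : Tr G lam b) (hν : Null ν ρ) (hP : PL G lam ν W W' P)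
    {F1 f : (V → ℝ) × (V → ℝ) → ℝ} (hF1 : PT W W' F1) (hf : PT W W' f)
    (hF0 : ∀ p : (V → ℝ) × (V → ℝ), Adm W p.1 → Adm W' p.2 → 0 ≤ F1 p)
    (hF1' : ∀ p : (V → ℝ) × (V → ℝ), Adm W p.1 → Adm W' p.2 → F1 p ≤ 1)
    (hf0 : ∀ p : (V → ℝ) × (V → ℝ), Adm W p.1 → Adm W' p.2 → 0 ≤ f p)
    (hf4 : ∀ p : (V → ℝ) × (V → ℝ), Adm W p.1 → Adm W' p.2 → f p ≤ 4)
    {S : (V → ℝ) → ℝ} (hS : Tst W' S) (hS0 : ∀ r, Adm W' r → 0 ≤ S r)
    {β s g M2 : ℝ} {p : ℕ} (hβ : 0 ≤ β) (hβ1 : β ≤ 1) (hs : 0 < s) (hg : 0 ≤ g) (hp : 1 ≤ p)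
    (hd : β * ∫ q, F1 q ^ p ∂P ≤ Real.exp (-(4 * g)))
    (hM : EI G lam ν W' (fun r => S r ^ 2) ≤ M2) :
    β * ∫ q, F1 q * (f q * S q.2) ∂P ≤
      Real.exp (-(g / p)) * ∫ q, f q * S q.2 ∂P + (2 / s + 2 * s * M2) * Real.exp (-g) := by
  have hfS : PT W W' (fun q => f q * S q.2) := hf.mul (PT.snd hS)
  have hS2 : Tst W' (fun r => S r ^ 2) := hS.pow 2
  have hS2' : PT W W' (fun q : (V → ℝ) × (V → ℝ) => S q.2 ^ 2) := PT.snd hS2
  have h1 : ∫ q, β * (F1 q * (f q * S q.2)) ∂P ≤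
      ∫ q, ((Real.exp (-(g / p)) * (f q * S q.2) +
        (2 / s * Real.exp (3 * g) * β) * F1 q ^ p) + (2 * s * Real.exp (-g)) * S q.2 ^ 2) ∂P := by
    apply hP.mono h hν ((hF1.mul hfS).const_mul β)
      (((hfS.const_mul _).add ((hF1.pow p).const_mul _)).add (hS2'.const_mul _))
    intro q hq1 hq2
    have a1 := hF0 q hq1 hq2
    have a2 := hF1' q hq1 hq2
    have hb0 : 0 ≤ β * F1 q := mul_nonneg hβ a1
    have hb1 : β * F1 q ≤ 1 := mul_le_one₀ hβ1 a1 a2
    have := lev_pointwise (P := β * F1 q) (S := S q.2) hb0 hb1 (hf0 q hq1 hq2) (hf4 q hq1 hq2)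
      (hS0 q.2 hq2) hs hg hp
    have e1 : (β * F1 q) ^ p ≤ β * F1 q ^ p := by
      rw [mul_pow]
      apply mul_le_mul_of_nonneg_right _ (pow_nonneg a1 p)
      exact pow_le_of_le_one hβ hβ1 (by omega)
    have e2 : 2 / s * (Real.exp (3 * g) * (β * F1 q) ^ p) ≤
        2 / s * (Real.exp (3 * g) * (β * F1 q ^ p)) := by
      gcongr
    calc β * (F1 q * (f q * S q.2)) = β * F1 q * (f q * S q.2) := by ring
      _ ≤ _ := this
      _ ≤ Real.exp (-(g / p)) * (f q * S q.2) +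
        2 / s * (Real.exp (3 * g) * (β * F1 q ^ p)) + 2 * s * (Real.exp (-g) * S q.2 ^ 2) := by
          linarith
      _ = _ := by ring
  have i1 := hP.integrable h hν (hfS.const_mul (Real.exp (-(g / p))))
  have i2 := hP.integrable h hν ((hF1.pow p).const_mul (2 / s * Real.exp (3 * g) * β))
  have i3 := hP.integrable h hν (hS2'.const_mul (2 * s * Real.exp (-g)))
  have i12 := hP.integrable h hν ((hfS.const_mul (Real.exp (-(g / p)))).add
    ((hF1.pow p).const_mul (2 / s * Real.exp (3 * g) * β)))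
  rw [integral_const_mul, integral_add i12 i3, integral_add i1 i2, integral_const_mul,
    integral_const_mul, integral_const_mul, hP.int_snd h hν hS2] at h1
  have h2 : 2 / s * Real.exp (3 * g) * β * ∫ q, F1 q ^ p ∂P ≤ 2 / s * Real.exp (-g) := by
    calc 2 / s * Real.exp (3 * g) * β * ∫ q, F1 q ^ p ∂P
        = 2 / s * Real.exp (3 * g) * (β * ∫ q, F1 q ^ p ∂P) := by ring
      _ ≤ 2 / s * Real.exp (3 * g) * Real.exp (-(4 * g)) := by gcongr
      _ = 2 / s * Real.exp (-g) := by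
          rw [mul_assoc, ← Real.exp_add]
          congr 2
          ring
  have h3 : 2 * s * Real.exp (-g) * EI G lam ν W' (fun r => S r ^ 2) ≤
      2 * s * Real.exp (-g) * M2 := by gcongr
  calc _ ≤ _ := h1
    _ ≤ Real.exp (-(g / p)) * ∫ q, f q * S q.2 ∂P + 2 / s * Real.exp (-g) +
        2 * s * Real.exp (-g) * M2 := by linarith
    _ = _ := by ring

end Pair

end Crest.Agent.H14
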