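import Mathlib
import Crest.Agent.H14.StepB3
import Crest.Agent.H14.Damp
import Crest.Agent.H14.Conc

/-!
# Row 160, P8 part 4 (helper17): the near part of the bracket
-/

set_option autoImplicit false

open MeasureTheory Filter Topology

namespace Crest.Agent.H14

open scoped Classical

section LevelSums

variable {V : Type*} {G : SimpleGraph V} [G.LocallyFinite] {lam : ℝ} {b : ℕ}

/-- bound of a level -/
noncomputable def Tlev (k0 p : ℕ) (γ A M : ℝ) (k : ℕ) : ℝ :=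
  if k < k0 then A else
    min A (Real.exp (-(γ * (k - k0 : ℕ) / p)) * A + M * Real.exp (-(γ * (k - k0 : ℕ))))

theorem Tlev_nonneg {k0 p : ℕ} {γ A M : ℝ} (hA : 0 ≤ A) (hM : 0 ≤ M) (k : ℕ) :
    0 ≤ Tlev k0 p γ A M k := by
  unfold Tlev
  split_ifs
  · exact hA
  · exact le_min hA (by positivity)

theorem sum_Tlev {N k0 K p : ℕ} {γ A M : ℝ} (hγ : 0 < γ) (hp : 1 ≤ p) (hA : 0 ≤ A)
    (hM : 0 ≤ M) : ∑ k ∈ Finset.range N, Tlev k0 p γ A M k ≤
      (k0 + K + 1 + p / γ) * A + M * Real.exp (-(γ * K)) * (1 + 1 / γ) := by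
  apply sum_levels hγ hp hA hM
  · intro k _
    unfold Tlev
    split_ifs
    · exact le_rfl
    · exact min_le_left _ _
  · intro j _
    unfold Tlev
    rw [if_neg (by omega)]
    refine (min_le_right _ _).trans (le_of_eq ?_)
    simp

theorem Tr.beta_nonneg (_h : Tr G lam b) : 0 ≤ (b:ℝ) * lam ^ 2 := by positivity

theorem Tr.beta_le (h : Tr G lam b) : (b:ℝ) * lam ^ 2 ≤ 1 := by
  have := h.crit
  linarith

theorem level_sum (h : Tr G lam b) (x : V) (N : ℕ) (F : V → ℝ) {k0 K p : ℕ} {γ A M : ℝ}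
    (hγ : 0 < γ) (hp : 1 ≤ p) (hA : 0 ≤ A) (hM : 0 ≤ M)
    (h1 : ∀ y ∈ bl G x N, (b * lam ^ 2) ^ G.dist x y * F y ≤ A)
    (h2 : ∀ y ∈ bl G x N, ∀ j : ℕ, G.dist x y = k0 + j →
      (b * lam ^ 2) ^ G.dist x y * F y ≤
        Real.exp (-(γ * j / p)) * A + M * Real.exp (-(γ * j))) :
    ∑ y ∈ bl G x N, lam ^ (2 * G.dist x y) * F y ≤
      2 * ((k0 + K + 1 + p / γ) * A + M * Real.exp (-(γ * K)) * (1 + 1 / γ)) := by
  refine (sum_bl_le h x N F (Tlev k0 p γ A M) (Tlev_nonneg hA hM) ?_).trans ?_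
  · intro y hy
    unfold Tlev
    split_ifs with hk
    · exact h1 y hy
    · apply le_min (h1 y hy)
      exact h2 y hy (G.dist x y - k0) (by omega)
  · exact mul_le_mul_of_nonneg_left (sum_Tlev hγ hp hA hM) zero_le_two

theorem level_sum_erase (h : Tr G lam b) (x : V) (N : ℕ) (F : V → ℝ) {k0 K p : ℕ} {γ A M : ℝ}
    (hγ : 0 < γ) (hp : 1 ≤ p) (hA : 0 ≤ A) (hM : 0 ≤ M) (hF : ∀ y, 0 ≤ F y)
    (h1 : ∀ y ∈ (bl G x N).erase x, (b * lam ^ 2) ^ (G.dist x (par G x y)) * F y ≤ A)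
    (h2 : ∀ y ∈ (bl G x N).erase x, ∀ j : ℕ, G.dist x (par G x y) = k0 + j →
      (b * lam ^ 2) ^ (G.dist x (par G x y)) * F y ≤
        Real.exp (-(γ * j / p)) * A + M * Real.exp (-(γ * j))) :
    ∑ y ∈ (bl G x N).erase x, lam ^ (2 * G.dist x y) * F y ≤
      2 * ((k0 + K + 1 + p / γ) * A + M * Real.exp (-(γ * K)) * (1 + 1 / γ)) := by
  have hβ0 := h.beta_nonneg
  have hβ1 := h.beta_le
  have e1 : ∑ y ∈ (bl G x N).erase x, lam ^ (2 * G.dist x y) * F y =
      ∑ y ∈ bl G x N, lam ^ (2 * G.dist x y) * (if y = x then 0 else F y) := by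
    rw [← Finset.add_sum_erase (bl G x N) _ (self_mem_bl h.tree x N)]
    simp only [if_true, mul_zero, zero_add]
    refine Finset.sum_congr rfl fun y hy => ?_
    rw [if_neg (Finset.ne_of_mem_erase hy)]
  rw [e1]
  set T : ℕ → ℝ := fun k => if k = 0 then 0 else Tlev k0 p γ A M (k - 1) with hT
  refine (sum_bl_le h x N _ T ?_ ?_).trans ?_
  · intro k
    rw [hT]
    beta_reduce
    split_ifs
    · exact le_rfl
    · exact Tlev_nonneg hA hM _
  · intro y hy
    by_cases hyx : y = x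
    · subst hyx
      simp [hT]
    · rw [if_neg hyx]
      have hd := dist_par h.tree hyx
      have hye : y ∈ (bl G x N).erase x := Finset.mem_erase.2 ⟨hyx, hy⟩
      have e2 : T (G.dist x y) = Tlev k0 p γ A M (G.dist x (par G x y)) := by
        rw [hT]
        beta_reduce
        rw [if_neg (by omega), hd]
        simp
      rw [e2]
      have e3 : (b * lam ^ 2 : ℝ) ^ G.dist x y * F y ≤
          (b * lam ^ 2) ^ (G.dist x (par G x y)) * F y := by
        apply mul_le_mul_of_nonneg_right _ (hF y)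
        exact pow_le_pow_of_le_one hβ0 hβ1 (by omega)
      refine e3.trans ?_
      unfold Tlev
      split_ifs with hk
      · exact h1 y hye
      · apply le_min (h1 y hye)
        exact h2 y hye (G.dist x (par G x y) - k0) (by omega)
  · apply mul_le_mul_of_nonneg_left _ zero_le_two
    rw [Finset.sum_range_succ']
    have e4 : ∑ k ∈ Finset.range N, T (k + 1) = ∑ k ∈ Finset.range N, Tlev k0 p γ A M k := by
      refine Finset.sum_congr rfl fun k _ => ?_
      rw [hT]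
      simp
    have e5 : T 0 = 0 := by rw [hT]; simp
    rw [e4, e5, add_zero]
    exact sum_Tlev hγ hp hA hM

end LevelSums

section Near

variable {V : Type*} {G : SimpleGraph V} [G.LocallyFinite] [Countable V] {lam : ℝ} {b : ℕ}
  {ν : Measure ℝ} {ρ s : ℝ} {P : Measure ((V → ℝ) × (V → ℝ))}

/-- damping of the `p`-th power in exponential form -/
theorem damp_exp (h : Tr G lam b) {c C : ℝ} (hc : 0 < c) (hc1 : c < 1)
    (hdamp : ∀ (ν : Measure ℝ) (ρ s : ℝ), Null ν ρ → Mom ν s → ∀ (c0 : V) (R : ℕ) (x u y : V),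
      x ∈ bl G c0 R → u ∈ bl G c0 R → y ∈ desc G x u (bl G c0 R) → ∀ p : ℕ, 1 ≤ p →
      ∀ F : (V → ℝ) → ℝ, Tst (desc G x y (bl G c0 R)) F → EvenOn (desc G x y (bl G c0 R)) F →
      (∀ r, 0 ≤ F r) →
      (b * lam ^ 2) ^ G.dist u y *
        EI G lam ν (bl G c0 R) (fun r => PP G lam (bl G c0 R) x u y r ^ p * F r) ≤
      (1 - c * min 1 (p * s)) ^ (G.dist u y - ⌈C / s⌉₊) *
        EI G lam ν (desc G x y (bl G c0 R)) F)
    (hν : Null ν ρ) (hs : Mom ν s) {c0 x y : V} {R : ℕ} (hx : x ∈ bl G c0 R)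
    (hy : y ∈ bl G c0 R) {p : ℕ} (hp : 1 ≤ p) {j : ℕ} (hj : G.dist x y = ⌈C / s⌉₊ + j) :
    (b * lam ^ 2) ^ G.dist x y *
        EI G lam ν (bl G c0 R) (fun r => PP G lam (bl G c0 R) x x y r ^ p) ≤
      Real.exp (-(4 * (c * min 1 (p * s) / 4 * j))) := by
  have hyd : y ∈ desc G x x (bl G c0 R) := by rw [desc_root]; exact hy
  have key := hdamp ν ρ s hν hs c0 R x x y hx hx hyd p hp (fun _ => 1) (Tst.const _ 1)
    (EvenOn.const _ 1) (fun _ => zero_le_one)
  simp only [mul_one] at key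
  have hsub := isSub_bl h.tree c0 R
  rw [EI_one h hν (desc_isSub h.tree (hsub.parClosed hx) hy) ⟨y, self_mem_desc hy⟩, mul_one,
    hj, Nat.add_sub_cancel_left] at key
  rw [hj]
  refine key.trans ?_
  have hs0 := hs.pos
  have hm1 : min 1 ((p:ℝ) * s) ≤ 1 := min_le_left _ _
  have hm0 : 0 < min 1 ((p:ℝ) * s) := lt_min one_pos (by positivity)
  have h0 : 0 ≤ 1 - c * min 1 ((p:ℝ) * s) := by nlinarith
  calc (1 - c * min 1 ((p:ℝ) * s)) ^ j ≤ Real.exp (-(c * min 1 ((p:ℝ) * s))) ^ j :=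
        pow_le_pow_left₀ h0 (Real.one_sub_le_exp_neg _) j
    _ = Real.exp (-(4 * (c * min 1 (p * s) / 4 * j))) := by
        rw [← Real.exp_nat_mul]
        congr 1
        ring

/-- posterior mean difference -/
theorem delta_int (h : Tr G lam b) (hν : Null ν ρ) {W W' : Finset V}
    (hP : PL G lam ν W W' P) {x u : V} (hx : x ∈ W) (hx' : x ∈ W') (hu : u ∈ W) (hu' : u ∈ W')
    (hux : u ≠ x) {Q : ℝ}
    (hQ1 : ∫ p, (MW G lam W u p.1 - MW G lam W' u p.2) ^ 2 ∂P ≤ Q)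
    (hQ2 : ∫ p, (MW G lam W (par G x u) p.1 - MW G lam W' (par G x u) p.2) ^ 2 ∂P ≤ Q) :
    ∫ p, (tau G lam W x u p.1 - tau G lam W' x u p.2) ^ 2 ∂P ≤
      4 * ((1 + lam) / (1 - lam)) ^ 2 * Q := by
  have hpu := hP.sub x hx u hu
  have hpu' := hP.sub' x hx' u hu'
  have hD : ∀ z, z ∈ W → z ∈ W' → PT W W' (fun p : (V → ℝ) × (V → ℝ) =>
      (MW G lam W z p.1 - MW G lam W' z p.2) ^ 2) := fun z hz hz' =>
    ((PT.fst (Tst_MW h hz)).sub (PT.snd (Tst_MW h hz'))).pow 2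
  have hT : PT W W' (fun p : (V → ℝ) × (V → ℝ) =>
      (tau G lam W x u p.1 - tau G lam W' x u p.2) ^ 2) :=
    ((PT.fst (Tst_tau' h hu)).sub (PT.snd (Tst_tau' h hu'))).pow 2
  have h1 : ∫ p, (tau G lam W x u p.1 - tau G lam W' x u p.2) ^ 2 ∂P ≤
      ∫ p, (2 * ((1 + lam) / (1 - lam)) ^ 2) * ((MW G lam W u p.1 - MW G lam W' u p.2) ^ 2 +
        (MW G lam W (par G x u) p.1 - MW G lam W' (par G x u) p.2) ^ 2) ∂P := by
    apply hP.mono h hν hT (((hD u hu hu').add (hD _ hpu hpu')).const_mul _)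
    intro p hp1 hp2
    have hl := tau_lip h hP.sub hP.sub' hx hx' hu hu' hux hp1 hp2
    set L := (1 + lam) / (1 - lam) with hL
    have hL0 : 0 ≤ L := div_nonneg (by linarith [h.nonneg]) (by linarith [h.lam_lt])
    have h2 : (tau G lam W x u p.1 - tau G lam W' x u p.2) ^ 2 ≤
        (L * (|MW G lam W u p.1 - MW G lam W' u p.2| +
        |MW G lam W (par G x u) p.1 - MW G lam W' (par G x u) p.2|)) ^ 2 := by
      rw [← sq_abs]
      exact pow_le_pow_left₀ (abs_nonneg _) hl 2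
    refine h2.trans ?_
    rw [← sq_abs (MW G lam W u p.1 - MW G lam W' u p.2),
      ← sq_abs (MW G lam W (par G x u) p.1 - MW G lam W' (par G x u) p.2)]
    set α := |MW G lam W u p.1 - MW G lam W' u p.2|
    set β := |MW G lam W (par G x u) p.1 - MW G lam W' (par G x u) p.2|
    have h3 : (α + β) ^ 2 ≤ 2 * (α ^ 2 + β ^ 2) := by nlinarith [sq_nonneg (α - β)]
    calc (L * (α + β)) ^ 2 = L ^ 2 * (α + β) ^ 2 := by ring
      _ ≤ L ^ 2 * (2 * (α ^ 2 + β ^ 2)) := mul_le_mul_of_nonneg_left h3 (sq_nonneg L)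
      _ = _ := by ring
  rw [integral_const_mul, integral_add (hP.integrable h hν (hD u hu hu'))
    (hP.integrable h hν (hD _ hpu hpu'))] at h1
  refine h1.trans ?_
  have h4 : 0 ≤ 2 * ((1 + lam) / (1 - lam)) ^ 2 := by positivity
  calc _ ≤ 2 * ((1 + lam) / (1 - lam)) ^ 2 * (Q + Q) :=
        mul_le_mul_of_nonneg_left (add_le_add hQ1 hQ2) h4
    _ = _ := by ring

/-- near part of the first bracket, pathwise inequality integrated -/
theorem near_one (h : Tr G lam b) (hν : Null ν ρ) {W W' : Finset V}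
    (hP : PL G lam ν W W' P) {x : V} {N : ℕ} (hB : bl G x N ⊆ W) (hB' : bl G x N ⊆ W') :
    ∑ y ∈ bl G x N, ∫ p, (KW G lam W x y p.1 - KW G lam W' x y p.2) ^ 2 ∂P ≤
      8 * ∫ p, (MW G lam W x p.1 - MW G lam W' x p.2) ^ 2 * Sh G lam W' x x p.2 ∂P +
      Ctel lam * ∑ u ∈ (bl G x N).erase x, lam ^ (2 * G.dist x u) *
        ∫ p, PP G lam W x x (par G x u) p.1 *
          ((tau G lam W x u p.1 - tau G lam W' x u p.2) ^ 2 * Sh G lam W' x u p.2) ∂P := by
  have hxB := self_mem_bl h.tree x N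
  have hx := hB hxB
  have hx' := hB' hxB
  have hK : ∀ y, PT W W' (fun p : (V → ℝ) × (V → ℝ) =>
      (KW G lam W x y p.1 - KW G lam W' x y p.2) ^ 2) := fun y =>
    ((PT.fst (Tst.of_KW h hP.sub hP.ne x y)).sub (PT.snd (Tst.of_KW h hP.sub' hP.ne' x y))).pow 2
  have hShx : ∀ u, Tst W' (Sh G lam W' x u) := fun u =>
    (Tst_Sh h W' x u).mono (desc_subset x u W')
  have hPPx : ∀ v, Tst W (PP G lam W x x v) := fun v =>
    (Tst_PP h W x x v).mono (desc_subset x x W)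
  have hD : PT W W' (fun p : (V → ℝ) × (V → ℝ) =>
      (MW G lam W x p.1 - MW G lam W' x p.2) ^ 2 * Sh G lam W' x x p.2) :=
    (((PT.fst (Tst_MW h hx)).sub (PT.snd (Tst_MW h hx'))).pow 2).mul (PT.snd (hShx x))
  have hU : ∀ u ∈ (bl G x N).erase x, PT W W' (fun p : (V → ℝ) × (V → ℝ) =>
      PP G lam W x x (par G x u) p.1 *
          ((tau G lam W x u p.1 - tau G lam W' x u p.2) ^ 2 * Sh G lam W' x u p.2)) := by
    intro u hu
    have huB := Finset.mem_of_mem_erase hu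
    exact (PT.fst (hPPx _)).mul ((((PT.fst (Tst_tau' h (hB huB))).sub
      (PT.snd (Tst_tau' h (hB' huB)))).pow 2).mul (PT.snd (hShx u)))
  rw [← integral_finsetSum _ fun y _ => hP.integrable h hν (hK y)]
  have hsum : PT W W' (fun p : (V → ℝ) × (V → ℝ) => ∑ u ∈ (bl G x N).erase x,
      lam ^ (2 * G.dist x u) * (PP G lam W x x (par G x u) p.1 *
          ((tau G lam W x u p.1 - tau G lam W' x u p.2) ^ 2 * Sh G lam W' x u p.2))) :=
    PT.sum _ fun u hu => (hU u hu).const_mul _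
  have h1 : ∫ p, ∑ y ∈ bl G x N, (KW G lam W x y p.1 - KW G lam W' x y p.2) ^ 2 ∂P ≤
      ∫ p, (8 * ((MW G lam W x p.1 - MW G lam W' x p.2) ^ 2 * Sh G lam W' x x p.2) +
        Ctel lam * ∑ u ∈ (bl G x N).erase x, lam ^ (2 * G.dist x u) *
          (PP G lam W x x (par G x u) p.1 *
          ((tau G lam W x u p.1 - tau G lam W' x u p.2) ^ 2 * Sh G lam W' x u p.2))) ∂P := by
    apply hP.mono h hν (PT.sum _ fun y _ => hK y) ((hD.const_mul 8).add (hsum.const_mul _))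
    intro p hp1 hp2
    have := sum_KW_diff_sq h (B := bl G x N) (bl_parClosed h.tree hxB) hP.sub hP.sub' hB hB'
      hp1 hp2
    refine this.trans (le_of_eq ?_)
    congr 1
    · ring
    · congr 1
      refine Finset.sum_congr rfl fun u _ => ?_
      ring
  rw [integral_add (hP.integrable h hν (hD.const_mul 8)) (hP.integrable h hν (hsum.const_mul _)),
    integral_const_mul, integral_const_mul,
    integral_finsetSum _ fun u hu => hP.integrable h hν ((hU u hu).const_mul _)] at h1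
  simp only [integral_const_mul] at h1
  exact h1

end Near

end Crest.Agent.H14
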