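import Mathlib
import Crest.Agent.H14.StepB4

/-!
# Row 160, P8 part 5 (helper17): bound of the near part
-/

set_option autoImplicit false

open MeasureTheory Filter Topology

namespace Crest.Agent.H14

open scoped Classical

section Numbers

variable {c CD s X : ℝ}

theorem num_min (hs : 0 < s) (hs1 : s ≤ 1) (hX : 1 ≤ X) :
    0 < min 1 ((⌈X⌉₊ : ℝ) * s) ∧ s ≤ min 1 ((⌈X⌉₊ : ℝ) * s) ∧
      (⌈X⌉₊ : ℝ) ≤ min 1 ((⌈X⌉₊ : ℝ) * s) * (2 * X + 1 / s) ∧
      X ≤ min 1 ((⌈X⌉₊ : ℝ) * s) * (2 * X + 1 / s) := by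
  have h1 : X ≤ (⌈X⌉₊ : ℝ) := Nat.le_ceil X
  have h2 : (⌈X⌉₊ : ℝ) < X + 1 := Nat.ceil_lt_add_one (by linarith)
  set p : ℝ := (⌈X⌉₊ : ℝ) with hp
  have hp1 : 1 ≤ p := hX.trans h1
  have hs' : 0 < 1 / s := by positivity
  have hss : s * (1 / s) = 1 := by field_simp
  rcases le_total 1 (p * s) with h | h
  · rw [min_eq_left h]
    refine ⟨one_pos, hs1, ?_, ?_⟩ <;> linarith
  · rw [min_eq_right h]
    refine ⟨by positivity, by nlinarith, ?_, ?_⟩
    · have : p * s * (2 * X + 1 / s) = 2 * p * s * X + p * (s * (1 / s)) := by ring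
      rw [this, hss]
      have : 0 ≤ 2 * p * s * X := by positivity
      linarith
    · have : p * s * (2 * X + 1 / s) = 2 * p * s * X + p * (s * (1 / s)) := by ring
      rw [this, hss]
      have : 0 ≤ 2 * p * s * X := by positivity
      linarith

theorem num_bounds (hc : 0 < c) (hCD : 0 < CD) (hs : 0 < s) (hs1 : s ≤ 1)
    (hX : 1 ≤ X) {γ : ℝ} (hγ : γ = c * min 1 ((⌈X⌉₊ : ℝ) * s) / 4) :
    0 < γ ∧
    ((⌈CD / s⌉₊ : ℝ) + (⌈4 / c * (2 * X + 1 / s)⌉₊ : ℝ) + 1 + (⌈X⌉₊ : ℝ) / γ ≤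
      (CD + 16 / c + 3) * (1 / s + X)) ∧
    Real.exp (-(γ * (⌈4 / c * (2 * X + 1 / s)⌉₊ : ℝ))) ≤ Real.exp (-X) ∧
    1 + 1 / γ ≤ (1 + 4 / c) / s := by
  obtain ⟨m0, m1, m2, m3⟩ := num_min hs hs1 hX
  set m := min 1 ((⌈X⌉₊ : ℝ) * s) with hm
  have hγ0 : 0 < γ := by rw [hγ]; positivity
  have hs' : 0 < 1 / s := by positivity
  have h1s : 1 ≤ 1 / s := by rw [le_div_iff₀ hs]; linarith
  refine ⟨hγ0, ?_, ?_, ?_⟩
  · have a1 : (⌈CD / s⌉₊ : ℝ) ≤ CD / s + 1 := (Nat.ceil_lt_add_one (by positivity)).le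
    have a2 : (⌈4 / c * (2 * X + 1 / s)⌉₊ : ℝ) ≤ 4 / c * (2 * X + 1 / s) + 1 :=
      (Nat.ceil_lt_add_one (by positivity)).le
    have a3 : (⌈X⌉₊ : ℝ) / γ ≤ 4 / c * (2 * X + 1 / s) := by
      rw [div_le_iff₀ hγ0, hγ]
      have : 4 / c * (2 * X + 1 / s) * (c * m / 4) = m * (2 * X + 1 / s) := by
        field_simp
      rw [this]
      exact m2
    have a4 : 4 / c * (2 * X + 1 / s) ≤ 8 / c * (1 / s + X) := by
      have : 8 / c * (1 / s + X) - 4 / c * (2 * X + 1 / s) = 4 / c * (1 / s) := by ring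
      have h0 : 0 ≤ 4 / c * (1 / s) := by positivity
      linarith
    have a5 : CD / s = CD * (1 / s) := by ring
    have a6 : (CD + 16 / c + 3) * (1 / s + X) =
        CD * (1 / s) + CD * X + 2 * (8 / c * (1 / s + X)) + 3 * (1 / s) + 3 * X := by ring
    have a7 : 0 ≤ CD * X := by positivity
    rw [a6]
    linarith
  · apply Real.exp_le_exp.2
    have a1 : 4 / c * (2 * X + 1 / s) ≤ (⌈4 / c * (2 * X + 1 / s)⌉₊ : ℝ) := Nat.le_ceil _
    have a2 : γ * (4 / c * (2 * X + 1 / s)) ≤ γ * (⌈4 / c * (2 * X + 1 / s)⌉₊ : ℝ) :=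
      mul_le_mul_of_nonneg_left a1 hγ0.le
    have a3 : γ * (4 / c * (2 * X + 1 / s)) = m * (2 * X + 1 / s) := by
      rw [hγ]; field_simp
    linarith
  · have a1 : 1 / γ ≤ 4 / c / s := by
      rw [div_le_iff₀ hγ0, hγ]
      have : 4 / c / s * (c * m / 4) = m / s := by field_simp
      rw [this, le_div_iff₀ hs]
      linarith
    have a2 : (1 + 4 / c) / s = 1 / s + 4 / c / s := by ring
    rw [a2]
    linarith

end Numbers

section NearBound

variable {V : Type*} {G : SimpleGraph V} [G.LocallyFinite] [Countable V] {lam : ℝ} {b : ℕ}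

set_option maxHeartbeats 4000000 in
theorem near_bound (h : Tr G lam b) : ∃ C : ℝ, 0 < C ∧
    ∀ (ν : Measure ℝ) (ρ s : ℝ), Null ν ρ → Mom ν s → ∀ (c0 c0' : V) (R R' : ℕ)
      (P : Measure ((V → ℝ) × (V → ℝ))), PL G lam ν (bl G c0 R) (bl G c0' R') P →
      ∀ (x : V) (N : ℕ), bl G x N ⊆ bl G c0 R → bl G x N ⊆ bl G c0' R' →
      ∀ Q : ℝ, 0 ≤ Q →
      (∀ z ∈ bl G x N, ∫ p, (MW G lam (bl G c0 R) z p.1 - MW G lam (bl G c0' R') z p.2) ^ 2 ∂P ≤ Q) →
      ∀ X : ℝ, 1 ≤ X →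
      ∑ y ∈ bl G x N, ∫ p, (KW G lam (bl G c0 R) x y p.1 - KW G lam (bl G c0' R') x y p.2) ^ 2 ∂P +
      ∑ y ∈ bl G x N, ∫ p, (MW G lam (bl G c0 R) y p.1 - MW G lam (bl G c0' R') y p.2) ^ 2 *
        KW G lam (bl G c0' R') x y p.2 ^ 2 ∂P ≤
      C * (1 / s + X) * (1 / s + Real.log (1 + X)) * (Q + Real.exp (-X)) := by
  obtain ⟨c, CD, hc, hc1, hCD, hdamp⟩ := damp_path h
  obtain ⟨CE, hCE, hexp⟩ := Sh_exp (G := G) (lam := lam) h
  obtain ⟨CS, hCS, hsq⟩ := Sh_sq (G := G) (lam := lam) h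
  set L := (1 + lam) / (1 - lam) with hL
  have hL0 : 0 ≤ L := div_nonneg (by linarith [h.nonneg]) (by linarith [h.lam_lt])
  set CA := (CE + 3) * (4 * L ^ 2 + 1) with hCA
  set CK := CD + 16 / c + 3 with hCK
  have hCA1 : 1 ≤ CA := by
    rw [hCA]
    have : 0 ≤ L ^ 2 := sq_nonneg L
    nlinarith
  have hCK0 : 0 < CK := by rw [hCK]; positivity
  have hCt := Ctel_nonneg h
  refine ⟨8 * CA + Ctel lam * (2 * (CK * CA + 2 * (1 + CS) * (1 + 4 / c))) +
    2 * (CK + 4 * (1 + 4 / c)), by positivity, ?_⟩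
  intro ν ρ s hν hs c0 c0' R R' P hP x N hB hB' Q hQ0 hQ X hX
  have hs0 := hs.pos
  have hs1 := hs.le_one
  have hxB := self_mem_bl h.tree x N
  set W := bl G c0 R with hW
  set W' := bl G c0' R' with hW'
  have hx : x ∈ W := hB hxB
  have hx' : x ∈ W' := hB' hxB
  have hX0 : 0 < X := by linarith
  have hlog : 0 ≤ Real.log (1 + X) := Real.log_nonneg (by linarith)
  have h1s : 1 ≤ 1 / s := by rw [le_div_iff₀ hs0]; linarith
  set Lg := 1 / s + Real.log (1 + X) with hLg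
  set Z := 1 / s + X with hZ
  have hLg1 : 1 ≤ Lg := by rw [hLg]; linarith
  have hZ1 : 1 ≤ Z := by rw [hZ]; linarith
  set e := Real.exp (-X) with he
  have he0 : 0 < e := Real.exp_pos _
  set A := (CE * Lg + 3) * ((4 * L ^ 2 + 1) * Q) + e with hA
  have hA0 : 0 ≤ A := by rw [hA]; positivity
  -- entropy bound for all test functions
  have hent : ∀ (f : (V → ℝ) × (V → ℝ) → ℝ), PT W W' f →
      (∀ p : (V → ℝ) × (V → ℝ), Adm W p.1 → Adm W' p.2 → 0 ≤ f p) →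
      (∀ p : (V → ℝ) × (V → ℝ), Adm W p.1 → Adm W' p.2 → f p ≤ 4) →
      ∀ u ∈ bl G x N, ∫ p, f p * Sh G lam W' x u p.2 ∂P ≤ (CE * Lg + 3) * ∫ p, f p ∂P + e := by
    intro f hf hf0 hf4 u hu
    have hS : Tst W' (Sh G lam W' x u) := (Tst_Sh h W' x u).mono (desc_subset x u W')
    have h1 := hP.ent h hν hf hf0 hf4 hS (Λ := CE * X * Lg) hX (by positivity)
      (hexp ν ρ s hν hs c0' R' x u hx' (hB' hu) X hX)
    have e1 : CE * X * Lg / X = CE * Lg := by field_simp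
    rw [e1] at h1
    exact h1
  have hDPT : ∀ z ∈ bl G x N, PT W W' (fun p : (V → ℝ) × (V → ℝ) =>
      (MW G lam W z p.1 - MW G lam W' z p.2) ^ 2) := fun z hz =>
    ((PT.fst (Tst_MW h (hB hz))).sub (PT.snd (Tst_MW h (hB' hz)))).pow 2
  have sq4 : ∀ a b' : ℝ, |a| < 1 → |b'| < 1 → (a - b') ^ 2 ≤ 4 := by
    intro a b' ha hb
    have := abs_lt.1 ha
    have := abs_lt.1 hb
    nlinarith
  have hD4 : ∀ z ∈ bl G x N, ∀ p : (V → ℝ) × (V → ℝ), Adm W p.1 → Adm W' p.2 →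
      (MW G lam W z p.1 - MW G lam W' z p.2) ^ 2 ≤ 4 := fun z hz p hp1 hp2 =>
    sq4 _ _ (MW_abs_lt h (hB hz) hp1) (MW_abs_lt h (hB' hz) hp2)
  have hTPT : ∀ u ∈ bl G x N, PT W W' (fun p : (V → ℝ) × (V → ℝ) =>
      (tau G lam W x u p.1 - tau G lam W' x u p.2) ^ 2) := fun u hu =>
    ((PT.fst (Tst_tau' h (hB hu))).sub (PT.snd (Tst_tau' h (hB' hu)))).pow 2
  have hT4 : ∀ u ∈ bl G x N, ∀ p : (V → ℝ) × (V → ℝ), Adm W p.1 → Adm W' p.2 →
      (tau G lam W x u p.1 - tau G lam W' x u p.2) ^ 2 ≤ 4 := fun u hu p hp1 hp2 =>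
    sq4 _ _ (tau_abs_lt h (hB hu) hp1) (tau_abs_lt h (hB' hu) hp2)
  have hShPT : ∀ u, Tst W' (Sh G lam W' x u) := fun u =>
    (Tst_Sh h W' x u).mono (desc_subset x u W')
  have hPP1 : ∀ v, Tst W (PP G lam W x x v) := fun v =>
    (Tst_PP h W x x v).mono (desc_subset x x W)
  have hPP2 : ∀ v, Tst W' (PP G lam W' x x v) := fun v =>
    (Tst_PP h W' x x v).mono (desc_subset x x W')
  have hParB : ∀ u ∈ (bl G x N).erase x, par G x u ∈ bl G x N := fun u hu =>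
    (bl_parClosed h.tree hxB).par_mem u (Finset.mem_of_mem_erase hu)
  -- second moments of delta
  have hdelta : ∀ u ∈ (bl G x N).erase x,
      ∫ p, (tau G lam W x u p.1 - tau G lam W' x u p.2) ^ 2 ∂P ≤ 4 * L ^ 2 * Q := by
    intro u hu
    have huB := Finset.mem_of_mem_erase hu
    exact delta_int h hν hP hx hx' (hB huB) (hB' huB) (Finset.ne_of_mem_erase hu)
      (hQ u huB) (hQ _ (hParB u hu))
  have hCEL : 0 ≤ CE * Lg + 3 := by positivity
  have hA0' : ∫ p, (MW G lam W x p.1 - MW G lam W' x p.2) ^ 2 * Sh G lam W' x x p.2 ∂P ≤ A := by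
    refine (hent _ (hDPT x hxB) (fun p _ _ => sq_nonneg _) (hD4 x hxB) x hxB).trans ?_
    rw [hA]
    have h1 := hQ x hxB
    have h2 : Q ≤ (4 * L ^ 2 + 1) * Q := by nlinarith [sq_nonneg L, mul_nonneg (sq_nonneg L) hQ0]
    have h3 := mul_le_mul_of_nonneg_left (h1.trans h2) hCEL
    linarith
  have hA1 : ∀ u ∈ (bl G x N).erase x,
      ∫ p, (tau G lam W x u p.1 - tau G lam W' x u p.2) ^ 2 * Sh G lam W' x u p.2 ∂P ≤ A := by
    intro u hu
    have huB := Finset.mem_of_mem_erase hu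
    refine (hent _ (hTPT u huB) (fun p _ _ => sq_nonneg _) (hT4 u huB) u huB).trans ?_
    rw [hA]
    have h1 := hdelta u hu
    have h2 : 4 * L ^ 2 * Q ≤ (4 * L ^ 2 + 1) * Q := by nlinarith
    have h3 := mul_le_mul_of_nonneg_left (h1.trans h2) hCEL
    linarith
  -- numbers
  have hp1 : 1 ≤ ⌈X⌉₊ := Nat.one_le_ceil_iff.2 hX0
  set p := ⌈X⌉₊ with hpdef
  set γ := c * min 1 ((p : ℝ) * s) / 4 with hγ
  set k0 := ⌈CD / s⌉₊ with hk0
  set K := ⌈4 / c * (2 * X + 1 / s)⌉₊ with hK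
  obtain ⟨hγ0, n1, n2, n3⟩ := num_bounds hc hCD hs0 hs1 hX hγ
  -- first bracket: path sum
  set M := 2 / s + 2 * s * (CS / s ^ 2) with hM
  have hM0 : 0 ≤ M := by rw [hM]; positivity
  have hβ0 := h.beta_nonneg
  have hβ1 := h.beta_le
  set F : V → ℝ := fun u => if u ∈ (bl G x N).erase x then
    ∫ q, PP G lam W x x (par G x u) q.1 *
      ((tau G lam W x u q.1 - tau G lam W' x u q.2) ^ 2 * Sh G lam W' x u q.2) ∂P else 0 with hF
  have hFu : ∀ u ∈ (bl G x N).erase x, F u = ∫ q, PP G lam W x x (par G x u) q.1 *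
      ((tau G lam W x u q.1 - tau G lam W' x u q.2) ^ 2 * Sh G lam W' x u q.2) ∂P := by
    intro u hu
    rw [hF]
    beta_reduce
    rw [if_pos hu]
  have hF0 : ∀ u, 0 ≤ F u := by
    intro u
    rw [hF]
    beta_reduce
    split_ifs with hu
    · apply hP.nonneg h hν
      intro q hq1 hq2
      exact mul_nonneg (PP_nonneg h hq1 _ _ _) (mul_nonneg (sq_nonneg _) (Sh_nonneg h hq2 _ _))
    · exact le_rfl
  have hFA : ∀ u ∈ (bl G x N).erase x, F u ≤ A := by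
    intro u hu
    have huB := Finset.mem_of_mem_erase hu
    rw [hFu u hu]
    refine le_trans ?_ (hA1 u hu)
    apply hP.mono h hν
      ((PT.fst (hPP1 _)).mul ((hTPT u huB).mul (PT.snd (hShPT u))))
      ((hTPT u huB).mul (PT.snd (hShPT u)))
    intro q hq1 hq2
    have h1 : 0 ≤ (tau G lam W x u q.1 - tau G lam W' x u q.2) ^ 2 * Sh G lam W' x u q.2 :=
      mul_nonneg (sq_nonneg _) (Sh_nonneg h hq2 _ _)
    calc _ ≤ 1 * _ := mul_le_mul_of_nonneg_right (PP_le_one h hq1 _ _ _) h1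
      _ = _ := one_mul _
  have hsum1 := level_sum_erase h x N F (k0 := k0) (K := K) (p := p) (γ := γ) (A := A) (M := M)
    hγ0 hp1 hA0 hM0 hF0
    (by
      intro u hu
      calc _ ≤ 1 * F u := mul_le_mul_of_nonneg_right (pow_le_one₀ hβ0 hβ1) (hF0 u)
        _ = F u := one_mul _
        _ ≤ A := hFA u hu)
    (by
      intro u hu j hj
      have huB := Finset.mem_of_mem_erase hu
      rw [hFu u hu]
      have hd := damp_exp (ν := ν) (ρ := ρ) (s := s) h hc hc1 hdamp hν hs (c0 := c0) (R := R)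
        (x := x) (y := par G x u) hx (hB (hParB u hu)) hp1 hj
      have e1 : (4 * (c * min 1 ((p:ℝ) * s) / 4 * j)) = 4 * (γ * j) := by rw [hγ]
      rw [e1, ← hP.int_fst h hν ((hPP1 (par G x u)).pow p)] at hd
      have hlev := hP.level h hν (F1 := fun q => PP G lam W x x (par G x u) q.1)
        (f := fun q => (tau G lam W x u q.1 - tau G lam W' x u q.2) ^ 2)
        (PT.fst (hPP1 _)) (hTPT u huB)
        (fun q hq1 _ => PP_nonneg h hq1 _ _ _) (fun q hq1 _ => PP_le_one h hq1 _ _ _)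
        (fun q _ _ => sq_nonneg _) (hT4 u huB) (hShPT u) (fun r hr => Sh_nonneg h hr _ _)
        (β := (b * lam ^ 2) ^ G.dist x (par G x u)) (s := s) (g := γ * j) (M2 := CS / s ^ 2)
        (p := p) (pow_nonneg hβ0 _) (pow_le_one₀ hβ0 hβ1) hs0 (by positivity) hp1 hd
        (hsq ν ρ s hν hs c0' R' x u hx' (hB' huB))
      refine hlev.trans ?_
      apply add_le_add
      · exact mul_le_mul_of_nonneg_left (hA1 u hu) (Real.exp_pos _).le
      · exact le_rfl)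
  -- second bracket
  set F2 : V → ℝ := fun y => if y ∈ bl G x N then
    ∫ q, PP G lam W' x x y q.2 * ((MW G lam W y q.1 - MW G lam W' y q.2) ^ 2 * 1) ∂P else 0
    with hF2
  have hF2y : ∀ y ∈ bl G x N, F2 y = ∫ q, PP G lam W' x x y q.2 *
      ((MW G lam W y q.1 - MW G lam W' y q.2) ^ 2 * 1) ∂P := by
    intro y hy
    rw [hF2]
    beta_reduce
    rw [if_pos hy]
  have hT1 : Tst W' (fun _ : V → ℝ => (1:ℝ)) := Tst.const W' 1
  have hF20 : ∀ y, 0 ≤ F2 y := by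
    intro y
    rw [hF2]
    beta_reduce
    split_ifs with hy
    · apply hP.nonneg h hν
      intro q _ hq2
      exact mul_nonneg (PP_nonneg h hq2 _ _ _) (mul_nonneg (sq_nonneg _) zero_le_one)
    · exact le_rfl
  have hQ' : ∀ y ∈ bl G x N, ∫ q, (MW G lam W y q.1 - MW G lam W' y q.2) ^ 2 * 1 ∂P ≤ Q := by
    intro y hy
    simp only [mul_one]
    exact hQ y hy
  have hF2A : ∀ y ∈ bl G x N, F2 y ≤ Q := by
    intro y hy
    rw [hF2y y hy]
    refine le_trans ?_ (hQ' y hy)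
    apply hP.mono h hν ((PT.snd (hPP2 _)).mul ((hDPT y hy).mul (PT.const 1)))
      ((hDPT y hy).mul (PT.const 1))
    intro q hq1 hq2
    have h1 : 0 ≤ (MW G lam W y q.1 - MW G lam W' y q.2) ^ 2 * 1 :=
      mul_nonneg (sq_nonneg _) zero_le_one
    calc _ ≤ 1 * _ := mul_le_mul_of_nonneg_right (PP_le_one h hq2 _ _ _) h1
      _ = _ := one_mul _
  set M' := 2 / s + 2 * s * 1 with hM'
  have hM'0 : 0 ≤ M' := by rw [hM']; positivity
  have hsum2 := level_sum h x N F2 (k0 := k0) (K := K) (p := p) (γ := γ) (A := Q) (M := M')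
    hγ0 hp1 hQ0 hM'0
    (by
      intro y hy
      calc _ ≤ 1 * F2 y := mul_le_mul_of_nonneg_right (pow_le_one₀ hβ0 hβ1) (hF20 y)
        _ = F2 y := one_mul _
        _ ≤ Q := hF2A y hy)
    (by
      intro y hy j hj
      rw [hF2y y hy]
      have hd := damp_exp (ν := ν) (ρ := ρ) (s := s) h hc hc1 hdamp hν hs (c0 := c0') (R := R')
        (x := x) (y := y) hx' (hB' hy) hp1 hj
      have e1 : (4 * (c * min 1 ((p:ℝ) * s) / 4 * j)) = 4 * (γ * j) := by rw [hγ]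
      rw [e1, ← hP.int_snd h hν ((hPP2 y).pow p)] at hd
      have hEI1 : EI G lam ν W' (fun r => (fun _ : V → ℝ => (1:ℝ)) r ^ 2) ≤ 1 := by
        simp only [one_pow]
        exact (EI_one h hν hP.sub' hP.ne').le
      have hlev := hP.level h hν (F1 := fun q => PP G lam W' x x y q.2)
        (f := fun q => (MW G lam W y q.1 - MW G lam W' y q.2) ^ 2)
        (PT.snd (hPP2 _)) (hDPT y hy)
        (fun q _ hq2 => PP_nonneg h hq2 _ _ _) (fun q _ hq2 => PP_le_one h hq2 _ _ _)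
        (fun q _ _ => sq_nonneg _) (hD4 y hy) hT1 (fun r _ => zero_le_one)
        (β := (b * lam ^ 2) ^ G.dist x y) (s := s) (g := γ * j) (M2 := 1)
        (p := p) (pow_nonneg hβ0 _) (pow_le_one₀ hβ0 hβ1) hs0 (by positivity) hp1 hd hEI1
      refine hlev.trans ?_
      apply add_le_add
      · exact mul_le_mul_of_nonneg_left (hQ' y hy) (Real.exp_pos _).le
      · exact le_rfl)
  have hsum2' : ∑ y ∈ bl G x N, ∫ q, (MW G lam W y q.1 - MW G lam W' y q.2) ^ 2 *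
        KW G lam W' x y q.2 ^ 2 ∂P ≤ ∑ y ∈ bl G x N, lam ^ (2 * G.dist x y) * F2 y := by
    apply Finset.sum_le_sum
    intro y hy
    rw [hF2y y hy, ← integral_const_mul]
    have hKPT : Tst W' (KW G lam W' x y) := Tst.of_KW h hP.sub' hP.ne' x y
    apply hP.mono h hν ((hDPT y hy).mul ((PT.snd hKPT).pow 2))
      (((PT.snd (hPP2 _)).mul ((hDPT y hy).mul (PT.const 1))).const_mul _)
    intro q hq1 hq2
    have h1 : KW G lam W' x y q.2 ^ 2 ≤ lam ^ (2 * G.dist x y) * PP G lam W' x x y q.2 := by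
      rw [KW_prod h hP.sub' hx' (hB' hy) hq2]
      have m1 := abs_lt.1 (MW_abs_lt h hx' hq2)
      have p0 := PP_nonneg h hq2 (x := x) (u := x) (y := y)
      have p1 := PP_le_one h hq2 (x := x) (u := x) (y := y)
      set mm := MW G lam W' x q.2
      set pp := PP G lam W' x x y q.2
      have w1 : 0 ≤ 1 - mm ^ 2 := by nlinarith
      have w2 : 1 - mm ^ 2 ≤ 1 := by nlinarith [sq_nonneg mm]
      have w3 : (1 - mm ^ 2) ^ 2 ≤ 1 := pow_le_one₀ w1 w2
      have w4 : pp ^ 2 ≤ pp := by nlinarith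
      have l0 : 0 ≤ lam ^ (2 * G.dist x y) := pow_nonneg h.nonneg _
      have e1 : ((1 - mm ^ 2) * lam ^ G.dist x y * pp) ^ 2 =
          (1 - mm ^ 2) ^ 2 * (lam ^ (2 * G.dist x y) * pp ^ 2) := by
        rw [mul_comm 2 (G.dist x y), pow_mul]
        ring
      rw [e1]
      calc (1 - mm ^ 2) ^ 2 * (lam ^ (2 * G.dist x y) * pp ^ 2)
          ≤ 1 * (lam ^ (2 * G.dist x y) * pp ^ 2) :=
            mul_le_mul_of_nonneg_right w3 (by positivity)
        _ = lam ^ (2 * G.dist x y) * pp ^ 2 := one_mul _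
        _ ≤ lam ^ (2 * G.dist x y) * pp := mul_le_mul_of_nonneg_left w4 l0
    calc (MW G lam W y q.1 - MW G lam W' y q.2) ^ 2 * KW G lam W' x y q.2 ^ 2
        ≤ (MW G lam W y q.1 - MW G lam W' y q.2) ^ 2 *
          (lam ^ (2 * G.dist x y) * PP G lam W' x x y q.2) :=
          mul_le_mul_of_nonneg_left h1 (sq_nonneg _)
      _ = _ := by ring
  -- first bracket
  have hone := near_one h hν hP hB hB'
  have hsum1' : ∑ u ∈ (bl G x N).erase x, lam ^ (2 * G.dist x u) *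
        ∫ p, PP G lam W x x (par G x u) p.1 *
          ((tau G lam W x u p.1 - tau G lam W' x u p.2) ^ 2 * Sh G lam W' x u p.2) ∂P =
      ∑ u ∈ (bl G x N).erase x, lam ^ (2 * G.dist x u) * F u :=
    Finset.sum_congr rfl fun u hu => by rw [hFu u hu]
  rw [hsum1'] at hone
  -- numeric conclusion
  set Y := Z * Lg with hY
  have hY0 : 0 < Y := by rw [hY]; positivity
  have hYs : 1 / s ^ 2 ≤ Y := by
    rw [hY, hZ, hLg]
    have : 1 / s ^ 2 = (1 / s) * (1 / s) := by ring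
    rw [this]
    apply mul_le_mul <;> first | linarith | positivity
  have hAle : A ≤ CA * Lg * (Q + e) := by
    rw [hA, hCA]
    have h2 : (CE * Lg + 3) * ((4 * L ^ 2 + 1) * Q) ≤ (CE + 3) * (4 * L ^ 2 + 1) * Lg * Q := by
      have h3 : CE * Lg + 3 ≤ (CE + 3) * Lg := by nlinarith
      have h4 : 0 ≤ (4 * L ^ 2 + 1) * Q := by positivity
      calc _ ≤ (CE + 3) * Lg * ((4 * L ^ 2 + 1) * Q) := mul_le_mul_of_nonneg_right h3 h4
        _ = _ := by ring
    have h5 : e ≤ (CE + 3) * (4 * L ^ 2 + 1) * Lg * e := by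
      have h6 : 1 ≤ CA * Lg := by
        calc (1:ℝ) = 1 * 1 := by ring
          _ ≤ CA * Lg := mul_le_mul hCA1 hLg1 zero_le_one (by linarith)
      rw [hCA] at h6
      calc e = 1 * e := by ring
        _ ≤ _ := mul_le_mul_of_nonneg_right h6 he0.le
    have e3 : (CE + 3) * (4 * L ^ 2 + 1) * Lg * (Q + e) =
        (CE + 3) * (4 * L ^ 2 + 1) * Lg * Q + (CE + 3) * (4 * L ^ 2 + 1) * Lg * e := by ring
    rw [e3]
    linarith
  have hQe : 0 ≤ Q + e := by linarith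
  have hAle8 : A ≤ CA * Y * (Q + e) := by
    refine hAle.trans ?_
    rw [hY]
    have : CA * Lg ≤ CA * (Z * Lg) := by
      apply mul_le_mul_of_nonneg_left _ (by linarith)
      nlinarith
    exact mul_le_mul_of_nonneg_right this hQe
  have hKA : (k0 + K + 1 + p / γ) * A ≤ CK * CA * Y * (Q + e) := by
    calc (k0 + K + 1 + p / γ) * A ≤ (CK * Z) * (CA * Lg * (Q + e)) :=
          mul_le_mul n1 hAle hA0 (by positivity)
      _ = _ := by rw [hY]; ring
  have hKQ : (k0 + K + 1 + p / γ) * Q ≤ CK * Y * (Q + e) := by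
    calc (k0 + K + 1 + p / γ) * Q ≤ (CK * Z) * (Lg * (Q + e)) := by
          apply mul_le_mul n1 _ hQ0 (by positivity)
          nlinarith
      _ = _ := by rw [hY]; ring
  have hexpK : ∀ M₀ κ₀ : ℝ, 0 ≤ M₀ → 0 ≤ κ₀ → M₀ ≤ κ₀ / s →
      M₀ * Real.exp (-(γ * K)) * (1 + 1 / γ) ≤ κ₀ * (1 + 4 / c) * Y * (Q + e) := by
    intro M₀ κ₀ hM₀ hκ₀ hle
    have h1 : 0 ≤ 1 + 1 / γ := by positivity
    calc M₀ * Real.exp (-(γ * K)) * (1 + 1 / γ)
        ≤ (κ₀ / s) * e * ((1 + 4 / c) / s) := by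
          apply mul_le_mul _ n3 h1 (by positivity)
          exact mul_le_mul hle n2 (Real.exp_pos _).le (by positivity)
      _ = κ₀ * (1 + 4 / c) * (1 / s ^ 2) * e := by field_simp
      _ ≤ κ₀ * (1 + 4 / c) * Y * e := by gcongr
      _ ≤ κ₀ * (1 + 4 / c) * Y * (Q + e) := by
          apply mul_le_mul_of_nonneg_left _ (by positivity)
          linarith
  have hMle : M ≤ 2 * (1 + CS) / s := by
    rw [hM]
    apply le_of_eq
    field_simp
  have hM'le : M' ≤ 4 / s := by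
    rw [hM']
    have h1 : s ≤ 1 / s := by linarith
    have h2 : 4 / s = 2 / s + 2 * (1 / s) := by ring
    rw [h2]
    linarith
  have f1 := hexpK M (2 * (1 + CS)) hM0 (by positivity) hMle
  have f2 := hexpK M' 4 hM'0 (by norm_num) hM'le
  have g1 : ∑ u ∈ (bl G x N).erase x, lam ^ (2 * G.dist x u) * F u ≤
      2 * (CK * CA * Y * (Q + e) + 2 * (1 + CS) * (1 + 4 / c) * Y * (Q + e)) := by
    refine hsum1.trans ?_
    linarith
  have g2 : ∑ y ∈ bl G x N, lam ^ (2 * G.dist x y) * F2 y ≤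
      2 * (CK * Y * (Q + e) + 4 * (1 + 4 / c) * Y * (Q + e)) := by
    refine hsum2.trans ?_
    linarith
  have g3 := mul_le_mul_of_nonneg_left g1 hCt
  have e9 : (8 * CA + Ctel lam * (2 * (CK * CA + 2 * (1 + CS) * (1 + 4 / c))) +
    2 * (CK + 4 * (1 + 4 / c))) * Z * Lg * (Q + e) =
      8 * (CA * Y * (Q + e)) +
      Ctel lam * (2 * (CK * CA * Y * (Q + e) + 2 * (1 + CS) * (1 + 4 / c) * Y * (Q + e))) +
      2 * (CK * Y * (Q + e) + 4 * (1 + 4 / c) * Y * (Q + e)) := by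
    rw [hY]; ring
  rw [e9]
  linarith

end NearBound

end Crest.Agent.H14
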