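import Mathlib
import Crest.Agent.H14.StepB5

/-!
# Row 160, P8 part 6 (helper17): `stepB` from the tail bound
-/

set_option autoImplicit false

open MeasureTheory Filter Topology

namespace Crest.Agent.H14

open scoped Classical

section Far

variable {V : Type*} {G : SimpleGraph V} {lam : ℝ} {b : ℕ}
  {ν : Measure ℝ} {ρ : ℝ} {W W' : Finset V} {P : Measure ((V → ℝ) × (V → ℝ))}

theorem Tst_KK (h : Tr G lam b) (hW : IsSub G W) (hne : W.Nonempty) (x y : V) :
    Tst W (KK G lam W x y) := by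
  by_cases hy : y ∈ W
  · have : KK G lam W x y = KW G lam W x y := by
      funext r
      unfold KK
      rw [if_pos hy]
    rw [this]
    exact Tst.of_KW h hW hne x y
  · have : KK G lam W x y = fun _ => 0 := by
      funext r
      unfold KK
      rw [if_neg hy]
    rw [this]
    exact Tst.const W 0

theorem KK_of_mem {x y : V} (hy : y ∈ W) (r : V → ℝ) : KK G lam W x y r = KW G lam W x y r := by
  unfold KK
  rw [if_pos hy]

/-- sums of `KK ^ 2` over a bigger set reduce to the window -/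
theorem sum_KK_sq (T : Finset V) (x : V) (φ : V → Prop) [DecidablePred φ] (hT : W ⊆ T) :
    ∑ y ∈ T.filter φ, EI G lam ν W (fun r => KK G lam W x y r ^ 2) =
      ∑ y ∈ W.filter φ, EI G lam ν W (fun r => KW G lam W x y r ^ 2) := by
  have h1 : ∑ y ∈ W.filter φ, EI G lam ν W (fun r => KW G lam W x y r ^ 2) =
      ∑ y ∈ W.filter φ, EI G lam ν W (fun r => KK G lam W x y r ^ 2) := by
    refine Finset.sum_congr rfl fun y hy => ?_
    have hyW := (Finset.mem_filter.1 hy).1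
    congr 1
    funext r
    rw [KK_of_mem hyW]
  rw [h1]
  symm
  apply Finset.sum_subset
  · intro y hy
    rw [Finset.mem_filter] at hy ⊢
    exact ⟨hT hy.1, hy.2⟩
  · intro y hy hy'
    have hyW : y ∉ W := fun hyW => hy' (Finset.mem_filter.2 ⟨hyW, (Finset.mem_filter.1 hy).2⟩)
    have : (fun r : V → ℝ => KK G lam W x y r ^ 2) = fun _ => 0 := by
      funext r
      unfold KK
      rw [if_neg hyW]
      ring
    rw [this]
    unfold EI
    simp

theorem far_one [Countable V] (h : Tr G lam b) (hν : Null ν ρ) (hP : PL G lam ν W W' P) (x : V) (N : ℕ) :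
    ∑ y ∈ (W ∪ W').filter (fun y => N < G.dist x y),
      ∫ p, (KK G lam W x y p.1 - KK G lam W' x y p.2) ^ 2 ∂P ≤
    2 * ∑ y ∈ W.filter (fun y => N < G.dist x y), EI G lam ν W (fun r => KW G lam W x y r ^ 2) +
    2 * ∑ y ∈ W'.filter (fun y => N < G.dist x y),
      EI G lam ν W' (fun r => KW G lam W' x y r ^ 2) := by
  rw [← sum_KK_sq (W := W) (W ∪ W') x (fun y => N < G.dist x y) Finset.subset_union_left,
    ← sum_KK_sq (W := W') (W ∪ W') x (fun y => N < G.dist x y) Finset.subset_union_right,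
    Finset.mul_sum, Finset.mul_sum, ← Finset.sum_add_distrib]
  apply Finset.sum_le_sum
  intro y _
  have t1 : Tst W (KK G lam W x y) := Tst_KK h hP.sub hP.ne x y
  have t2 : Tst W' (KK G lam W' x y) := Tst_KK h hP.sub' hP.ne' x y
  have p1 : PT W W' (fun p : (V → ℝ) × (V → ℝ) => KK G lam W x y p.1 ^ 2) := PT.fst (t1.pow 2)
  have p2 : PT W W' (fun p : (V → ℝ) × (V → ℝ) => KK G lam W' x y p.2 ^ 2) := PT.snd (t2.pow 2)
  have h1 : ∫ p, (KK G lam W x y p.1 - KK G lam W' x y p.2) ^ 2 ∂P ≤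
      ∫ p, (2 * KK G lam W x y p.1 ^ 2 + 2 * KK G lam W' x y p.2 ^ 2) ∂P := by
    apply hP.mono h hν (((PT.fst t1).sub (PT.snd t2)).pow 2)
      ((p1.const_mul 2).add (p2.const_mul 2))
    intro p _ _
    nlinarith [sq_nonneg (KK G lam W x y p.1 + KK G lam W' x y p.2)]
  rw [integral_add (hP.integrable h hν (p1.const_mul 2)) (hP.integrable h hν (p2.const_mul 2)),
    integral_const_mul, integral_const_mul, hP.int_fst h hν (t1.pow 2),
    hP.int_snd h hν (t2.pow 2)] at h1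
  exact h1

theorem far_two [Countable V] (h : Tr G lam b) (hν : Null ν ρ) (hP : PL G lam ν W W' P) (x : V) (N : ℕ) :
    ∑ y ∈ (W ∩ W').filter (fun y => N < G.dist x y),
      ∫ p, (MW G lam W y p.1 - MW G lam W' y p.2) ^ 2 * KK G lam W' x y p.2 ^ 2 ∂P ≤
    4 * ∑ y ∈ W'.filter (fun y => N < G.dist x y),
      EI G lam ν W' (fun r => KW G lam W' x y r ^ 2) := by
  rw [← sum_KK_sq (W := W') W' x (fun y => N < G.dist x y) (Finset.Subset.refl _),
    Finset.mul_sum]
  have hnn : ∀ y, 0 ≤ 4 * EI G lam ν W' (fun r => KK G lam W' x y r ^ 2) := by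
    intro y
    have := EI_nonneg (G := G) (lam := lam) h hν (W := W') (F := fun r => KK G lam W' x y r ^ 2)
      (fun r _ => sq_nonneg _)
    positivity
  refine le_trans ?_ (Finset.sum_le_sum_of_subset_of_nonneg (s := (W ∩ W').filter
    (fun y => N < G.dist x y)) ?_ fun y _ _ => hnn y)
  · apply Finset.sum_le_sum
    intro y hy
    have hy1 := Finset.mem_inter.1 (Finset.mem_filter.1 hy).1
    have t2 : Tst W' (KK G lam W' x y) := Tst_KK h hP.sub' hP.ne' x y
    have p2 : PT W W' (fun p : (V → ℝ) × (V → ℝ) => KK G lam W' x y p.2 ^ 2) := PT.snd (t2.pow 2)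
    have pD : PT W W' (fun p : (V → ℝ) × (V → ℝ) => (MW G lam W y p.1 - MW G lam W' y p.2) ^ 2) :=
      ((PT.fst (Tst_MW h hy1.1)).sub (PT.snd (Tst_MW h hy1.2))).pow 2
    have h1 : ∫ p, (MW G lam W y p.1 - MW G lam W' y p.2) ^ 2 * KK G lam W' x y p.2 ^ 2 ∂P ≤
        ∫ p, 4 * KK G lam W' x y p.2 ^ 2 ∂P := by
      apply hP.mono h hν (pD.mul p2) (p2.const_mul 4)
      intro p hp1 hp2
      apply mul_le_mul_of_nonneg_right _ (sq_nonneg _)
      have a1 := abs_lt.1 (MW_abs_lt h hy1.1 hp1)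
      have a2 := abs_lt.1 (MW_abs_lt h hy1.2 hp2)
      nlinarith
    rw [integral_const_mul, hP.int_snd h hν (t2.pow 2)] at h1
    exact h1
  · intro y hy
    rw [Finset.mem_filter] at hy ⊢
    exact ⟨(Finset.mem_inter.1 hy.1).2, hy.2⟩

end Far

section Main

variable {V : Type*} {G : SimpleGraph V} [G.LocallyFinite] {lam : ℝ} {b : ℕ}

theorem Coup.pl (h : Tr G lam b) {ν : Measure ℝ}
    {κ : WP V → Measure ((V → ℝ) × (V → ℝ))} (hκ : Coup G lam ν κ) (w : WP V) :
    PL G lam ν (bl G w.c1 w.R1) (bl G w.c2 w.R2) (κ w) :=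
  ⟨hκ.prob w, isSub_bl h.tree _ _, isSub_bl h.tree _ _, ⟨_, self_mem_bl h.tree _ _⟩,
    ⟨_, self_mem_bl h.tree _ _⟩, hκ.fst w, hκ.snd w⟩

theorem filter_far_not {W : Finset V} (h : Tr G lam b) {x : V} {N : ℕ} (hB : bl G x N ⊆ W) :
    W.filter (fun y => ¬ N < G.dist x y) = bl G x N := by
  ext y
  rw [Finset.mem_filter, mem_bl h.tree]
  constructor
  · rintro ⟨_, h2⟩; omega
  · intro h1
    exact ⟨hB ((mem_bl h.tree).2 h1), by omega⟩

theorem stepB_of_tail [Countable V] (h : Tr G lam b)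
    (htail : ∃ c C : ℝ, 0 < c ∧ c < 1 ∧ 0 < C ∧
      ∀ (ν : Measure ℝ) (ρ s : ℝ), Null ν ρ → Mom ν s → ∀ (c0 : V) (R : ℕ) (x : V),
        x ∈ bl G c0 R → ∀ N : ℕ,
        ∑ y ∈ (bl G c0 R).filter (fun y => N < G.dist x y),
          EI G lam ν (bl G c0 R) (fun r => KW G lam (bl G c0 R) x y r ^ 2) ≤
        C / s * (1 - c * s) ^ (N - ⌈C / s⌉₊)) : ∃ C : ℝ, 0 < C ∧
    ∀ (ν : Measure ℝ) (ρ s : ℝ), Null ν ρ → Mom ν s →
    ∀ κ : WP V → Measure ((V → ℝ) × (V → ℝ)), Coup G lam ν κ → ∀ q : ℝ, 0 ≤ q → q ≤ 4 →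
      (∀ z, LimLe G z (Dq G lam κ z) q) → ∀ x : V, ∀ X : ℝ, 1 ≤ X →
      LimLe G x (Tq G lam κ x)
        (C * (1 / s + X) * (1 / s + Real.log (1 + X)) * (q + Real.exp (-X))) := by
  obtain ⟨C, hC, hnear⟩ := near_bound (G := G) (lam := lam) h
  obtain ⟨c, CT, hc, hc1, hCT, htl⟩ := htail
  refine ⟨C, hC, ?_⟩
  intro ν ρ s hν hs κ hκ q hq0 _ hq x X hX ε hε
  have hs0 := hs.pos
  have hs1 := hs.le_one
  have hlog : 0 ≤ Real.log (1 + X) := Real.log_nonneg (by linarith)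
  have h1s : 0 < 1 / s := by positivity
  set Y := C * (1 / s + X) * (1 / s + Real.log (1 + X)) with hY
  have hY0 : 0 < Y := by
    rw [hY]
    have : 0 < 1 / s + X := by linarith
    have : 0 < 1 / s + Real.log (1 + X) := by linarith
    positivity
  -- radius
  have htend : Tendsto (fun n : ℕ => CT / s * (1 - c * s) ^ (n - ⌈CT / s⌉₊)) atTop (𝓝 0) := by
    have hb0 : 0 ≤ 1 - c * s := by nlinarith
    have hb1 : 1 - c * s < 1 := by nlinarith
    have h1 := (tendsto_pow_atTop_nhds_zero_of_lt_one hb0 hb1).comp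
      (tendsto_sub_atTop_nat ⌈CT / s⌉₊)
    simpa using h1.const_mul (CT / s)
  obtain ⟨N, hN⟩ := (htend.eventually (gt_mem_nhds (show (0:ℝ) < ε / 16 by positivity))).exists
  set ε' := ε / (2 * Y) with hε'
  have hε'0 : 0 < ε' := by positivity
  -- windows
  have hz : ∀ z : V, ∃ n : ℕ, ∀ w : WP V, G.dist w.c1 z + n ≤ w.R1 → G.dist w.c2 z + n ≤ w.R2 →
      Dq G lam κ z w ≤ q + ε' := fun z => hq z ε' hε'0
  choose n hn using hz
  refine ⟨N + ∑ z ∈ bl G x N, n z, ?_⟩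
  intro w hw1 hw2
  have hB : bl G x N ⊆ bl G w.c1 w.R1 := bl_subset_bl h.tree (by omega)
  have hB' : bl G x N ⊆ bl G w.c2 w.R2 := bl_subset_bl h.tree (by omega)
  have hxB := self_mem_bl h.tree x N
  have hP := hκ.pl h w
  have hQ : ∀ z ∈ bl G x N, ∫ p, (MW G lam (bl G w.c1 w.R1) z p.1 -
      MW G lam (bl G w.c2 w.R2) z p.2) ^ 2 ∂(κ w) ≤ q + ε' := by
    intro z hzB
    have hz1 := (mem_bl h.tree).1 hzB
    have hle : n z ≤ ∑ z ∈ bl G x N, n z := Finset.single_le_sum (fun _ _ => Nat.zero_le _) hzB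
    have d1 := h.tree.connected.dist_triangle (u := w.c1) (v := x) (w := z)
    have d2 := h.tree.connected.dist_triangle (u := w.c2) (v := x) (w := z)
    exact hn z w (by omega) (by omega)
  have hnb := hnear ν ρ s hν hs w.c1 w.c2 w.R1 w.R2 (κ w) hP x N hB hB' (q + ε')
    (by linarith) hQ X hX
  set W := bl G w.c1 w.R1 with hW
  set W' := bl G w.c2 w.R2 with hW'
  have t1 := htl ν ρ s hν hs w.c1 w.R1 x (hB hxB) N
  have t2 := htl ν ρ s hν hs w.c2 w.R2 x (hB' hxB) N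
  have f1 := far_one h hν hP x N
  have f2 := far_two h hν hP x N
  unfold Tq
  have e1 : W1 G w = W := rfl
  have e2 : W2 G w = W' := rfl
  rw [e1, e2]
  rw [← Finset.sum_filter_add_sum_filter_not (W ∪ W') (fun y => N < G.dist x y),
    ← Finset.sum_filter_add_sum_filter_not (W ∩ W') (fun y => N < G.dist x y),
    filter_far_not h (hB.trans Finset.subset_union_left),
    filter_far_not h (Finset.subset_inter hB hB')]
  have s1 : ∑ y ∈ bl G x N, ∫ p, (KK G lam W x y p.1 - KK G lam W' x y p.2) ^ 2 ∂(κ w) =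
      ∑ y ∈ bl G x N, ∫ p, (KW G lam W x y p.1 - KW G lam W' x y p.2) ^ 2 ∂(κ w) := by
    refine Finset.sum_congr rfl fun y hy => ?_
    simp only [KK_of_mem (hB hy), KK_of_mem (hB' hy)]
  have s2 : ∑ y ∈ bl G x N, ∫ p, (MW G lam W y p.1 - MW G lam W' y p.2) ^ 2 *
      KK G lam W' x y p.2 ^ 2 ∂(κ w) = ∑ y ∈ bl G x N, ∫ p, (MW G lam W y p.1 -
        MW G lam W' y p.2) ^ 2 * KW G lam W' x y p.2 ^ 2 ∂(κ w) := by
    refine Finset.sum_congr rfl fun y hy => ?_
    simp only [KK_of_mem (hB' hy)]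
  rw [s1, s2]
  have hYe : Y * (q + ε' + Real.exp (-X)) = Y * (q + Real.exp (-X)) + ε / 2 := by
    have h2 : Y * ε' = ε / 2 := by
      rw [hε']
      field_simp
    rw [← h2]
    ring
  rw [hYe] at hnb
  linarith

end Main

end Crest.Agent.H14
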