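import Mathlib
import Crest.Agent.H14.StepB6
import Crest.Agent.H14.Tail

/-!
# Row 160, P8 (helper17): `stepB`
-/

set_option autoImplicit false

open MeasureTheory Filter Topology

namespace Crest.Agent.H14

open scoped Classical

variable {V : Type*} {G : SimpleGraph V} [G.LocallyFinite] [Countable V] {lam : ℝ} {b : ℕ}

theorem stepB (h : Tr G lam b) : ∃ C : ℝ, 0 < C ∧
    ∀ (ν : Measure ℝ) (ρ s : ℝ), Null ν ρ → Mom ν s →
    ∀ κ : WP V → Measure ((V → ℝ) × (V → ℝ)), Coup G lam ν κ → ∀ q : ℝ, 0 ≤ q → q ≤ 4 →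
      (∀ z, LimLe G z (Dq G lam κ z) q) → ∀ x : V, ∀ X : ℝ, 1 ≤ X →
      LimLe G x (Tq G lam κ x)
        (C * (1 / s + X) * (1 / s + Real.log (1 + X)) * (q + Real.exp (-X))) :=
  stepB_of_tail h (tail_KW h)

end Crest.Agent.H14
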