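import Mathlib
import Crest.Agent.H14.Defs2
import Crest.Agent.H14.Static
import Crest.Agent.H14.Exact
import Crest.Agent.H14.Channel
import Crest.Agent.H14.Nu
import Crest.Agent.H14.Evol
import Crest.Agent.H14.Scalar
import Crest.Agent.H14.Tail
import Crest.Agent.H14.StepA
import Crest.Agent.H14.StepB

/-! # Row 160 (S0241), R1: the differences vanish -/

set_option autoImplicit false

open MeasureTheory Filter Topology

namespace Crest.Agent.H14

open scoped Classical

section LimLeLemmas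

variable {V : Type*} {G : SimpleGraph V} [G.LocallyFinite]

theorem LimLe.mono {x : V} {F : WP V → ℝ} {c c' : ℝ} (hF : LimLe G x F c) (hc : c ≤ c') :
    LimLe G x F c' := by
  intro ε hε
  obtain ⟨n, hn⟩ := hF ε hε
  exact ⟨n, fun w h1 h2 => (hn w h1 h2).trans (by linarith)⟩

theorem LimLe.of_gt {x : V} {F : WP V → ℝ} {c : ℝ} (hF : ∀ c', c < c' → LimLe G x F c') :
    LimLe G x F c := by
  intro ε hε
  obtain ⟨n, hn⟩ := hF (c + ε / 2) (by linarith) (ε / 2) (by linarith)
  exact ⟨n, fun w h1 h2 => (hn w h1 h2).trans (by linarith)⟩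

theorem LimLe.mono_fun (hT : G.IsTree) {x : V} {F F' : WP V → ℝ} {c : ℝ} (hF : LimLe G x F c)
    (hFF : ∀ w, x ∈ W1 G w → x ∈ W2 G w → F' w ≤ F w) : LimLe G x F' c := by
  intro ε hε
  obtain ⟨n, hn⟩ := hF ε hε
  refine ⟨n, fun w h1 h2 => (hFF w ?_ ?_).trans (hn w h1 h2)⟩
  · unfold W1; rw [mem_bl hT]; omega
  · unfold W2; rw [mem_bl hT]; omega

end LimLeLemmas

section R1
variable {V : Type*} {G : SimpleGraph V} [G.LocallyFinite] [Countable V] {lam : ℝ} {b : ℕ}

/-- the coupling at time `s` of round `k` -/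
noncomputable def kap (G : SimpleGraph V) [G.LocallyFinite] (lam : ℝ) (k : ℕ) (s : ℝ) (w : WP V) :
    Measure ((V → ℝ) × (V → ℝ)) :=
  (Pm V).map (fun ω => (Xst (W1 G w) (mu G lam (W1 G w)) k s ω,
    Xst (W2 G w) (mu G lam (W2 G w)) k s ω))

omit [Countable V] in
theorem W1_sub (h : Tr G lam b) (w : WP V) : IsSub G (W1 G w) := isSub_bl h.tree _ _

omit [Countable V] in
theorem W2_sub (h : Tr G lam b) (w : WP V) : IsSub G (W2 G w) := isSub_bl h.tree _ _

omit [Countable V] in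
theorem W1_ne (h : Tr G lam b) (w : WP V) : (W1 G w).Nonempty := ⟨_, self_mem_bl h.tree w.c1 w.R1⟩

omit [Countable V] in
theorem W2_ne (h : Tr G lam b) (w : WP V) : (W2 G w).Nonempty := ⟨_, self_mem_bl h.tree w.c2 w.R2⟩

omit [Countable V] in
theorem pos1 (h : Tr G lam b) (w : WP V) : Pos (W1 G w) (mu G lam (W1 G w)) :=
  mu_total h (W1_sub h w) (W1_ne h w)

omit [Countable V] in
theorem pos2 (h : Tr G lam b) (w : WP V) : Pos (W2 G w) (mu G lam (W2 G w)) :=
  mu_total h (W2_sub h w) (W2_ne h w)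

theorem measurable_kapf (k : ℕ) (s : ℝ) (w : WP V) :
    Measurable (fun ω : V → ℕ → unitInterval => (Xst (W1 G w) (mu G lam (W1 G w)) k s ω,
      Xst (W2 G w) (mu G lam (W2 G w)) k s ω)) :=
  (measurable_Xst k s).prodMk (measurable_Xst k s)

theorem coup_kap (h : Tr G lam b) (k : ℕ) (s : ℝ) : Coup G lam (nuS k s) (kap G lam k s) := by
  have hP : IsProbabilityMeasure (Pm V) := by unfold Pm; infer_instance
  refine ⟨fun w => ?_, fun w => ?_, fun w => ?_⟩
  · unfold kap
    exact Measure.isProbabilityMeasure_map (measurable_kapf k s w).aemeasurable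
  · intro F hF hd
    unfold kap
    rw [Measure.map_map measurable_fst (measurable_kapf k s w)]
    rw [lintegral_map hF (measurable_fst.comp (measurable_kapf k s w))]
    exact law_Xst (pos1 h w) k s F hF hd
  · intro F hF hd
    unfold kap
    rw [Measure.map_map measurable_snd (measurable_kapf k s w)]
    rw [lintegral_map hF (measurable_snd.comp (measurable_kapf k s w))]
    exact law_Xst (pos2 h w) k s F hF hd

theorem Dq_kap (k : ℕ) (s : ℝ) (z : V) (w : WP V) :
    Dq G lam (kap G lam k s) z w =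
      Dg (W1 G w) (W2 G w) (mu G lam (W1 G w)) (mu G lam (W2 G w)) z k s := by
  unfold Dq kap Dg
  rw [integral_map (measurable_kapf k s w).aemeasurable]
  · rfl
  · apply Measurable.aestronglyMeasurable
    exact (((measurable_MW _ _).comp measurable_fst).sub
      ((measurable_MW _ _).comp measurable_snd)).pow_const 2

theorem measurable_KK (W : Finset V) (x y : V) : Measurable (KK G lam W x y) := by
  unfold KK
  by_cases hy : y ∈ W
  · simp only [hy, if_true]; exact measurable_KW W x y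
  · simp only [hy, if_false]; exact measurable_const

theorem Tq_kap (k : ℕ) (s : ℝ) (x : V) (w : WP V) :
    Tq G lam (kap G lam k s) x w =
      Tg (W1 G w) (W2 G w) (mu G lam (W1 G w)) (mu G lam (W2 G w)) x k s := by
  unfold Tq kap Tg
  congr 1
  · apply Finset.sum_congr rfl
    intro y _
    rw [integral_map (measurable_kapf k s w).aemeasurable]
    · rfl
    · apply Measurable.aestronglyMeasurable
      exact (((measurable_KK _ _ _).comp measurable_fst).sub
        ((measurable_KK _ _ _).comp measurable_snd)).pow_const 2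
  · apply Finset.sum_congr rfl
    intro y _
    rw [integral_map (measurable_kapf k s w).aemeasurable]
    · rfl
    · apply Measurable.aestronglyMeasurable
      exact ((((measurable_MW _ _).comp measurable_fst).sub
        ((measurable_MW _ _).comp measurable_snd)).pow_const 2).mul
        (((measurable_KK _ _ _).comp measurable_snd).pow_const 2)

/-! ### trivial bounds -/

theorem Coup.adm1 (h : Tr G lam b) {ν : Measure ℝ} {ρ : ℝ} (hν : Null ν ρ)
    {κ : WP V → Measure ((V → ℝ) × (V → ℝ))} (hκ : Coup G lam ν κ) (w : WP V) :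
    ∀ᵐ p ∂(κ w), Adm (W1 G w) p.1 :=
  ae_of_ae_map measurable_fst.aemeasurable
    (IsStat.adm h hν (W1_sub h w) (W1_ne h w) (hκ.fst w))

theorem Coup.adm2 (h : Tr G lam b) {ν : Measure ℝ} {ρ : ℝ} (hν : Null ν ρ)
    {κ : WP V → Measure ((V → ℝ) × (V → ℝ))} (hκ : Coup G lam ν κ) (w : WP V) :
    ∀ᵐ p ∂(κ w), Adm (W2 G w) p.2 :=
  ae_of_ae_map measurable_snd.aemeasurable
    (IsStat.adm h hν (W2_sub h w) (W2_ne h w) (hκ.snd w))

theorem Coup.int1 (h : Tr G lam b) {ν : Measure ℝ} {ρ : ℝ} (hν : Null ν ρ)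
    {κ : WP V → Measure ((V → ℝ) × (V → ℝ))} (hκ : Coup G lam ν κ) (w : WP V)
    {F : (V → ℝ) → ℝ} (hF : Tst (W1 G w) F) :
    Integrable (fun p => F p.1) (κ w) ∧ ∫ p, F p.1 ∂(κ w) = EI G lam ν (W1 G w) F := by
  obtain ⟨h1, h2⟩ := IsStat.integral h hν (W1_sub h w) (W1_ne h w) (hκ.fst w) hF
  constructor
  · exact h1.comp_measurable measurable_fst
  · rw [← h2, integral_map measurable_fst.aemeasurable hF.meas.aestronglyMeasurable]

theorem Coup.int2 (h : Tr G lam b) {ν : Measure ℝ} {ρ : ℝ} (hν : Null ν ρ)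
    {κ : WP V → Measure ((V → ℝ) × (V → ℝ))} (hκ : Coup G lam ν κ) (w : WP V)
    {F : (V → ℝ) → ℝ} (hF : Tst (W2 G w) F) :
    Integrable (fun p => F p.2) (κ w) ∧ ∫ p, F p.2 ∂(κ w) = EI G lam ν (W2 G w) F := by
  obtain ⟨h1, h2⟩ := IsStat.integral h hν (W2_sub h w) (W2_ne h w) (hκ.snd w) hF
  constructor
  · exact h1.comp_measurable measurable_snd
  · rw [← h2, integral_map measurable_snd.aemeasurable hF.meas.aestronglyMeasurable]

theorem Dq_le_four (h : Tr G lam b) {ν : Measure ℝ} {ρ : ℝ} (hν : Null ν ρ)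
    {κ : WP V → Measure ((V → ℝ) × (V → ℝ))} (hκ : Coup G lam ν κ) {z : V} {w : WP V}
    (hz1 : z ∈ W1 G w) (hz2 : z ∈ W2 G w) : Dq G lam κ z w ≤ 4 := by
  have := hκ.prob w
  unfold Dq
  calc ∫ p, (MW G lam (W1 G w) z p.1 - MW G lam (W2 G w) z p.2) ^ 2 ∂(κ w)
      ≤ ∫ _p, (4:ℝ) ∂(κ w) := by
        apply integral_mono_of_nonneg
        · exact Eventually.of_forall fun p => sq_nonneg _
        · exact integrable_const _
        · filter_upwards [hκ.adm1 h hν w, hκ.adm2 h hν w] with p h1 h2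
          have h3 := abs_lt.1 (MW_abs_lt h hz1 h1)
          have h4 := abs_lt.1 (MW_abs_lt h hz2 h2)
          nlinarith
    _ = 4 := by simp

omit [Countable V] in
theorem Dq_nonneg (κ : WP V → Measure ((V → ℝ) × (V → ℝ))) (z : V) (w : WP V) :
    0 ≤ Dq G lam κ z w := integral_nonneg fun _ => sq_nonneg _

omit [Countable V] in
theorem Tq_nonneg (κ : WP V → Measure ((V → ℝ) × (V → ℝ))) (z : V) (w : WP V) :
    0 ≤ Tq G lam κ z w :=
  add_nonneg (Finset.sum_nonneg fun _ _ => integral_nonneg fun _ => sq_nonneg _)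
    (Finset.sum_nonneg fun _ _ => integral_nonneg fun _ => mul_nonneg (sq_nonneg _) (sq_nonneg _))

/-- sum of the squared covariances -/
theorem sum_KW_le (h : Tr G lam b) : ∃ C : ℝ, 0 < C ∧
    ∀ (ν : Measure ℝ) (ρ s : ℝ), Null ν ρ → Mom ν s → ∀ (c0 : V) (R : ℕ) (x : V),
      x ∈ bl G c0 R →
      ∑ y ∈ bl G c0 R, EI G lam ν (bl G c0 R) (fun r => KW G lam (bl G c0 R) x y r ^ 2) ≤
        C / s := by
  obtain ⟨c, C, _, _, hC, hT⟩ := tail_KW h
  refine ⟨C + 4, by linarith, ?_⟩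
  intro ν ρ s hν hs c0 R x hx
  have h1 := hT ν ρ s hν hs c0 R x hx 0
  have h2 : (1 - c * s) ^ (0 - ⌈C / s⌉₊) = 1 := by simp
  rw [h2, mul_one] at h1
  rw [← Finset.sum_filter_add_sum_filter_not (bl G c0 R) (fun y => 0 < G.dist x y)]
  have h3 : ∑ y ∈ (bl G c0 R).filter (fun y => ¬ 0 < G.dist x y),
      EI G lam ν (bl G c0 R) (fun r => KW G lam (bl G c0 R) x y r ^ 2) ≤ 4 := by
    have hW := isSub_bl h.tree c0 R
    have hne : (bl G c0 R).Nonempty := ⟨x, hx⟩
    have hK : ∀ y, EI G lam ν (bl G c0 R) (fun r => KW G lam (bl G c0 R) x y r ^ 2) ≤ 4 := by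
      intro y
      have hpr := hν.prob
      have h5 : EI G lam ν (bl G c0 R) (fun _ => 4) = 4 := by
        have h6 := EI_one h hν hW hne
        unfold EI at h6 ⊢
        rw [integral_const_mul]
        simp only [one_mul] at h6
        rw [h6]; norm_num
      rw [← h5]
      unfold EI
      apply integral_mono_ae
      · exact Tst.integrable h hν ((Tst.of_KW h hW hne x y).pow 2)
      · exact Tst.integrable h hν (Tst.const _ 4)
      · filter_upwards [ae_adm hν (bl G c0 R)] with r hr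
        have h7 : |KW G lam (bl G c0 R) x y r| ≤ 2 :=
          abs_Kf_le (mu_total h hW hne) x y (fun v hv => (hr v hv).le)
        have h8 := (LW_pos h hne hr).le
        have h9 : KW G lam (bl G c0 R) x y r ^ 2 ≤ 4 := by
          have := abs_le.1 h7
          nlinarith
        exact mul_le_mul_of_nonneg_right h9 h8
    have hsub : (bl G c0 R).filter (fun y => ¬ 0 < G.dist x y) ⊆ {x} := by
      intro y hy
      rw [Finset.mem_filter] at hy
      have := hy.2
      rw [Finset.mem_singleton]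
      have h0 : G.dist x y = 0 := by omega
      exact ((h.tree.connected.dist_eq_zero_iff).1 h0).symm
    calc _ ≤ ∑ y ∈ ({x} : Finset V),
        EI G lam ν (bl G c0 R) (fun r => KW G lam (bl G c0 R) x y r ^ 2) := by
          apply Finset.sum_le_sum_of_subset_of_nonneg hsub
          intro y _ _
          unfold EI
          apply integral_nonneg_of_ae
          filter_upwards [ae_adm hν (bl G c0 R)] with r hr
          exact mul_nonneg (sq_nonneg _) (LW_pos h hne hr).le
      _ ≤ 4 := by rw [Finset.sum_singleton]; exact hK x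
  have h4 : (4:ℝ) ≤ 4 / s := by
    rw [le_div_iff₀ hs.pos]; nlinarith [hs.le_one]
  rw [add_div]
  linarith

theorem Tq_bound (h : Tr G lam b) : ∃ C : ℝ, 0 < C ∧
    ∀ (ν : Measure ℝ) (ρ s : ℝ), Null ν ρ → Mom ν s →
    ∀ κ : WP V → Measure ((V → ℝ) × (V → ℝ)), Coup G lam ν κ → ∀ (x : V) (w : WP V),
      x ∈ W1 G w → x ∈ W2 G w → Tq G lam κ x w ≤ C / s := by
  obtain ⟨C, hC, hS⟩ := sum_KW_le h
  refine ⟨8 * C, by linarith, ?_⟩
  intro ν ρ s hν hs κ hκ x w hx1 hx2
  have hpr := hκ.prob w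
  have A1 : ∑ y ∈ W1 G w, EI G lam ν (W1 G w) (fun r => KW G lam (W1 G w) x y r ^ 2) ≤ C / s :=
    hS ν ρ s hν hs w.c1 w.R1 x hx1
  have A2 : ∑ y ∈ W2 G w, EI G lam ν (W2 G w) (fun r => KW G lam (W2 G w) x y r ^ 2) ≤ C / s :=
    hS ν ρ s hν hs w.c2 w.R2 x hx2
  have k1 : ∀ y, Tst (W1 G w) (fun r => KK G lam (W1 G w) x y r ^ 2) := by
    intro y
    by_cases hy : y ∈ W1 G w
    · have e : (fun r => KK G lam (W1 G w) x y r ^ 2) = fun r => KW G lam (W1 G w) x y r ^ 2 := by
        funext r; unfold KK; rw [if_pos hy]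
      rw [e]
      exact (Tst.of_KW h (W1_sub h w) (W1_ne h w) x y).pow 2
    · have e : (fun r => KK G lam (W1 G w) x y r ^ 2) = fun _ => 0 := by
        funext r; unfold KK; rw [if_neg hy]; norm_num
      rw [e]
      exact Tst.const _ _
  have k2 : ∀ y, Tst (W2 G w) (fun r => KK G lam (W2 G w) x y r ^ 2) := by
    intro y
    by_cases hy : y ∈ W2 G w
    · have e : (fun r => KK G lam (W2 G w) x y r ^ 2) = fun r => KW G lam (W2 G w) x y r ^ 2 := by
        funext r; unfold KK; rw [if_pos hy]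
      rw [e]
      exact (Tst.of_KW h (W2_sub h w) (W2_ne h w) x y).pow 2
    · have e : (fun r => KK G lam (W2 G w) x y r ^ 2) = fun _ => 0 := by
        funext r; unfold KK; rw [if_neg hy]; norm_num
      rw [e]
      exact Tst.const _ _
  have i1 := fun y => hκ.int1 h hν w (k1 y)
  have i2 := fun y => hκ.int2 h hν w (k2 y)
  have e1 : ∑ y ∈ W1 G w ∪ W2 G w, ∫ p, KK G lam (W1 G w) x y p.1 ^ 2 ∂(κ w) ≤ C / s := by
    refine le_trans (le_of_eq ?_) A1
    symm
    apply Finset.sum_subset_zero_on_sdiff Finset.subset_union_left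
    · intro y hy
      rw [Finset.mem_sdiff] at hy
      have e : ∀ p : (V → ℝ) × (V → ℝ), KK G lam (W1 G w) x y p.1 ^ 2 = 0 := by
        intro p; unfold KK; rw [if_neg hy.2]; norm_num
      simp only [e, integral_zero]
    · intro y hy
      rw [(i1 y).2]
      have e : (fun r => KK G lam (W1 G w) x y r ^ 2) = fun r => KW G lam (W1 G w) x y r ^ 2 := by
        funext r; unfold KK; rw [if_pos hy]
      rw [e]
  have e2 : ∑ y ∈ W1 G w ∪ W2 G w, ∫ p, KK G lam (W2 G w) x y p.2 ^ 2 ∂(κ w) ≤ C / s := by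
    refine le_trans (le_of_eq ?_) A2
    symm
    apply Finset.sum_subset_zero_on_sdiff Finset.subset_union_right
    · intro y hy
      rw [Finset.mem_sdiff] at hy
      have e : ∀ p : (V → ℝ) × (V → ℝ), KK G lam (W2 G w) x y p.2 ^ 2 = 0 := by
        intro p; unfold KK; rw [if_neg hy.2]; norm_num
      simp only [e, integral_zero]
    · intro y hy
      rw [(i2 y).2]
      have e : (fun r => KK G lam (W2 G w) x y r ^ 2) = fun r => KW G lam (W2 G w) x y r ^ 2 := by
        funext r; unfold KK; rw [if_pos hy]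
      rw [e]
  have e3 : ∑ y ∈ W1 G w ∩ W2 G w, ∫ p, KK G lam (W2 G w) x y p.2 ^ 2 ∂(κ w) ≤ C / s := by
    refine le_trans ?_ e2
    apply Finset.sum_le_sum_of_subset_of_nonneg
    · exact Finset.inter_subset_left.trans Finset.subset_union_left
    · intro y _ _
      exact integral_nonneg fun _ => sq_nonneg _
  unfold Tq
  have b1 : ∑ y ∈ W1 G w ∪ W2 G w,
      ∫ p, (KK G lam (W1 G w) x y p.1 - KK G lam (W2 G w) x y p.2) ^ 2 ∂(κ w) ≤
      2 * ∑ y ∈ W1 G w ∪ W2 G w, ∫ p, KK G lam (W1 G w) x y p.1 ^ 2 ∂(κ w) +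
      2 * ∑ y ∈ W1 G w ∪ W2 G w, ∫ p, KK G lam (W2 G w) x y p.2 ^ 2 ∂(κ w) := by
    rw [Finset.mul_sum, Finset.mul_sum, ← Finset.sum_add_distrib]
    apply Finset.sum_le_sum
    intro y _
    rw [← integral_const_mul, ← integral_const_mul, ← integral_add ((i1 y).1.const_mul 2)
      ((i2 y).1.const_mul 2)]
    apply integral_mono_of_nonneg
    · exact Eventually.of_forall fun p => sq_nonneg _
    · exact ((i1 y).1.const_mul 2).add ((i2 y).1.const_mul 2)
    · apply Eventually.of_forall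
      intro p
      simp only [Pi.add_apply]
      nlinarith [sq_nonneg (KK G lam (W1 G w) x y p.1 + KK G lam (W2 G w) x y p.2)]
  have b2 : ∑ y ∈ W1 G w ∩ W2 G w,
      ∫ p, (MW G lam (W1 G w) y p.1 - MW G lam (W2 G w) y p.2) ^ 2 *
        KK G lam (W2 G w) x y p.2 ^ 2 ∂(κ w) ≤
      4 * ∑ y ∈ W1 G w ∩ W2 G w, ∫ p, KK G lam (W2 G w) x y p.2 ^ 2 ∂(κ w) := by
    rw [Finset.mul_sum]
    apply Finset.sum_le_sum
    intro y hy
    rw [Finset.mem_inter] at hy
    rw [← integral_const_mul]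
    apply integral_mono_of_nonneg
    · exact Eventually.of_forall fun p => mul_nonneg (sq_nonneg _) (sq_nonneg _)
    · exact (i2 y).1.const_mul 4
    · filter_upwards [hκ.adm1 h hν w, hκ.adm2 h hν w] with p h1 h2
      have h3 := abs_lt.1 (MW_abs_lt h hy.1 h1)
      have h4 := abs_lt.1 (MW_abs_lt h hy.2 h2)
      apply mul_le_mul_of_nonneg_right _ (sq_nonneg _)
      nlinarith
  have e4 : 8 * C / s = 8 * (C / s) := by ring
  rw [e4]
  linarith

/-- evolution in the limit (reverse Fatou) -/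
theorem limit_evol (h : Tr G lam b) (k : ℕ) {s₁ s₂ q Ψ a2 : ℝ} (hs : 0 < s₁ ∨ 1 ≤ k)
    (h0 : 0 ≤ s₁) (h12 : s₁ ≤ s₂) (h2 : s₂ ≤ 1) (ha : ∀ s ∈ Set.Icc s₁ s₂, str k s ^ 2 ≤ a2)
    (hΨ0 : 0 ≤ Ψ)
    (hq : ∀ z, LimLe G z (Dq G lam (kap G lam k s₁) z) q)
    (hΨ : ∀ s ∈ Set.Ioo s₁ s₂, ∀ x, LimLe G x (Tq G lam (kap G lam k s) x) Ψ) :
    ∀ z, LimLe G z (Dq G lam (kap G lam k s₂) z) (q + 32 * (s₂ - s₁) * a2 * Ψ) := by
  intro z ε hε
  by_contra hcon
  push Not at hcon
  choose w hw1 hw2 hw3 using hcon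
  have hz1 : ∀ n, z ∈ W1 G (w n) := by
    intro n; unfold W1; rw [mem_bl h.tree]; have := hw1 n; omega
  have hz2 : ∀ n, z ∈ W2 G (w n) := by
    intro n; unfold W2; rw [mem_bl h.tree]; have := hw2 n; omega
  have ha2 : 0 ≤ a2 := (sq_nonneg _).trans (ha s₁ ⟨le_rfl, h12⟩)
  obtain ⟨n0, hn0⟩ := hq z (ε / 2) (half_pos hε)
  -- uniform bound
  obtain ⟨C, hC, hTb⟩ := Tq_bound h
  obtain ⟨B, hB0, hB⟩ : ∃ B : ℝ, 0 < B ∧ ∀ s ∈ Set.Ioo s₁ s₂, ∀ n,
      Tq G lam (kap G lam k s) z (w n) ≤ B := by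
    rcases Nat.eq_zero_or_pos k with hk | hk
    · have hs1 : 0 < s₁ := by
        rcases hs with h | h
        · exact h
        · omega
      refine ⟨C / s₁, by positivity, ?_⟩
      intro s hs' n
      subst hk
      have h3 := hTb (nuS 0 s) _ s (null_nuS_zero s) (mom_nuS_zero (hs1.trans hs'.1)
        (hs'.2.le.trans h2)) (kap G lam 0 s) (coup_kap h 0 s) z (w n) (hz1 n) (hz2 n)
      refine h3.trans ?_
      apply div_le_div_of_nonneg_left hC.le hs1 hs'.1.le
    · refine ⟨C / 1, by positivity, ?_⟩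
      intro s hs' n
      obtain ⟨ρ, hρ⟩ := null_nuS k s
      exact hTb (nuS k s) ρ 1 hρ (mom_nuS k hk s) (kap G lam k s) (coup_kap h k s) z (w n)
        (hz1 n) (hz2 n)
  let F : ℕ → ℝ → ℝ := fun n s => max 0 (Tq G lam (kap G lam k s) z (w n) - Ψ)
  have hFm : ∀ n, Measurable (F n) := by
    intro n
    have e : ∀ s, Tq G lam (kap G lam k s) z (w n) = Tg (W1 G (w n)) (W2 G (w n))
      (mu G lam (W1 G (w n))) (mu G lam (W2 G (w n))) z k s := fun s => Tq_kap k s z (w n)
    simp only [F, e]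
    exact measurable_const.max ((Tg_measurable _ _ _ _ _ _).sub_const _)
  have hFlim : Tendsto (fun n => ∫ s in Set.Ioo s₁ s₂, F n s) atTop
      (𝓝 (∫ s in Set.Ioo s₁ s₂, (0:ℝ))) := by
    apply tendsto_integral_of_dominated_convergence (fun _ => B)
    · exact fun n => (hFm n).aestronglyMeasurable
    · exact integrable_const _
    · intro n
      filter_upwards [ae_restrict_mem measurableSet_Ioo] with s hs'
      rw [Real.norm_eq_abs, abs_of_nonneg (le_max_left _ _)]
      apply max_le hB0.le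
      have := hB s hs' n
      linarith
    · filter_upwards [ae_restrict_mem measurableSet_Ioo] with s hs'
      rw [Metric.tendsto_atTop]
      intro δ hδ
      obtain ⟨n1, hn1⟩ := hΨ s hs' z (δ / 2) (half_pos hδ)
      refine ⟨n1, fun n hn => ?_⟩
      have h3 := hn1 (w n) (by have := hw1 n; omega) (by have := hw2 n; omega)
      rw [Real.dist_eq, sub_zero, abs_of_nonneg (le_max_left _ _)]
      apply max_lt hδ
      linarith
  rw [integral_zero] at hFlim
  -- choose n
  have hpos : 0 < ε / (64 * (a2 + 1)) := by positivity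
  obtain ⟨n, hn, hFn⟩ := ((eventually_ge_atTop n0).and
    (hFlim.eventually (gt_mem_nhds hpos))).exists
  have h3 := hw3 n
  have h4 := hn0 (w n) (by have := hw1 n; omega) (by have := hw2 n; omega)
  have h5 := Dg_evol (pos1 h (w n)) (pos2 h (w n)) (hz1 n) (hz2 n) k h0 h12 h2
  rw [← Dq_kap, ← Dq_kap] at h5
  simp only [← Tq_kap] at h5
  rw [intervalIntegral.integral_of_le h12, integral_Ioc_eq_integral_Ioo] at h5
  have h6 : ∫ s in Set.Ioo s₁ s₂, str k s ^ 2 * Tq G lam (kap G lam k s) z (w n) ≤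
      ∫ s in Set.Ioo s₁ s₂, (a2 * Ψ + a2 * F n s) := by
    apply integral_mono_of_nonneg
    · exact Eventually.of_forall fun s => mul_nonneg (sq_nonneg _) (Tq_nonneg _ _ _)
    · apply Integrable.add (integrable_const _)
      apply Integrable.const_mul
      apply Integrable.of_bound (hFm n).aestronglyMeasurable B
      filter_upwards [ae_restrict_mem measurableSet_Ioo] with s hs'
      rw [Real.norm_eq_abs, abs_of_nonneg (le_max_left _ _)]
      apply max_le hB0.le
      have := hB s hs' n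
      linarith
    · filter_upwards [ae_restrict_mem measurableSet_Ioo] with s hs'
      have h7 := ha s ⟨hs'.1.le, hs'.2.le⟩
      have h8 := Tq_nonneg (G := G) (lam := lam) (kap G lam k s) z (w n)
      have h9 : Tq G lam (kap G lam k s) z (w n) ≤ Ψ + F n s := by
        have := le_max_right 0 (Tq G lam (kap G lam k s) z (w n) - Ψ)
        simp only [F]; linarith
      calc str k s ^ 2 * Tq G lam (kap G lam k s) z (w n)
          ≤ a2 * Tq G lam (kap G lam k s) z (w n) := mul_le_mul_of_nonneg_right h7 h8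
        _ ≤ a2 * (Ψ + F n s) := mul_le_mul_of_nonneg_left h9 ha2
        _ = a2 * Ψ + a2 * F n s := by ring
  have h7 : ∫ s in Set.Ioo s₁ s₂, (a2 * Ψ + a2 * F n s) =
      (s₂ - s₁) * (a2 * Ψ) + a2 * ∫ s in Set.Ioo s₁ s₂, F n s := by
    have hFi : IntegrableOn (F n) (Set.Ioo s₁ s₂) := by
      apply Integrable.of_bound (hFm n).aestronglyMeasurable B
      filter_upwards [ae_restrict_mem measurableSet_Ioo] with s hs'
      rw [Real.norm_eq_abs, abs_of_nonneg (le_max_left _ _)]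
      apply max_le hB0.le
      have := hB s hs' n
      linarith
    rw [integral_add (integrable_const _) (hFi.const_mul a2), integral_const_mul a2 (F n)]
    congr 1
    rw [setIntegral_const, smul_eq_mul]
    congr 1
    rw [measureReal_def, Real.volume_Ioo, ENNReal.toReal_ofReal (by linarith)]
  have h8 : a2 * ∫ s in Set.Ioo s₁ s₂, F n s ≤ ε / 64 := by
    have h9 : a2 * ∫ s in Set.Ioo s₁ s₂, F n s ≤ a2 * (ε / (64 * (a2 + 1))) :=
      mul_le_mul_of_nonneg_left hFn.le ha2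
    refine h9.trans ?_
    rw [mul_div_assoc', div_le_div_iff₀ (by positivity) (by norm_num)]
    nlinarith
  nlinarith

/-! ### the limiting difference -/

/-- best common bound of the limsup of the difference -/
noncomputable def qf (G : SimpleGraph V) [G.LocallyFinite] (lam : ℝ) (k : ℕ) (s : ℝ) : ℝ :=
  sInf {q : ℝ | 0 ≤ q ∧ ∀ z, LimLe G z (Dq G lam (kap G lam k s) z) q}

theorem qf_mem_four (h : Tr G lam b) (k : ℕ) (s : ℝ) (z : V) :
    LimLe G z (Dq G lam (kap G lam k s) z) 4 := by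
  intro ε hε
  refine ⟨0, fun w h1 h2 => ?_⟩
  obtain ⟨ρ, hρ⟩ := null_nuS k s
  have := Dq_le_four h hρ (coup_kap h k s) (z := z) (w := w)
    (by unfold W1; rw [mem_bl h.tree]; omega) (by unfold W2; rw [mem_bl h.tree]; omega)
  linarith

omit [Countable V] in
theorem qf_bdd (k : ℕ) (s : ℝ) :
    BddBelow {q : ℝ | 0 ≤ q ∧ ∀ z, LimLe G z (Dq G lam (kap G lam k s) z) q} :=
  ⟨0, fun _ hq => hq.1⟩

theorem qf_nonneg (h : Tr G lam b) (k : ℕ) (s : ℝ) : 0 ≤ qf G lam k s :=
  le_csInf ⟨4, by norm_num, qf_mem_four h k s⟩ fun _ hq => hq.1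

omit [Countable V] in
theorem qf_le {k : ℕ} {s q : ℝ} (hq : 0 ≤ q)
    (hz : ∀ z, LimLe G z (Dq G lam (kap G lam k s) z) q) : qf G lam k s ≤ q :=
  csInf_le (qf_bdd k s) ⟨hq, hz⟩

theorem qf_le_four (h : Tr G lam b) (k : ℕ) (s : ℝ) : qf G lam k s ≤ 4 :=
  qf_le (by norm_num) (qf_mem_four h k s)

theorem qf_lim (h : Tr G lam b) (k : ℕ) (s : ℝ) (z : V) :
    LimLe G z (Dq G lam (kap G lam k s) z) (qf G lam k s) := by
  apply LimLe.of_gt
  intro c' hc'
  have hne : {q : ℝ | 0 ≤ q ∧ ∀ z, LimLe G z (Dq G lam (kap G lam k s) z) q}.Nonempty :=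
    ⟨4, by norm_num, qf_mem_four h k s⟩
  obtain ⟨q, hq, hqc⟩ := exists_lt_of_csInf_lt hne hc'
  exact (hq.2 z).mono hqc.le

theorem qf_mono (h : Tr G lam b) (k : ℕ) {s₁ s₂ : ℝ} (h12 : s₁ ≤ s₂) :
    qf G lam k s₁ ≤ qf G lam k s₂ := by
  apply qf_le (qf_nonneg h k s₂)
  intro z
  apply (qf_lim h k s₂ z).mono_fun h.tree
  intro w hz1 hz2
  rw [Dq_kap, Dq_kap]
  exact Dg_mono (pos1 h w) (pos2 h w) hz1 hz2 k h12

theorem qf_evol (h : Tr G lam b) (k : ℕ) {s₁ s₂ Ψ a2 : ℝ} (hs : 0 < s₁ ∨ 1 ≤ k)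
    (h0 : 0 ≤ s₁) (h12 : s₁ ≤ s₂) (h2 : s₂ ≤ 1) (ha : ∀ s ∈ Set.Icc s₁ s₂, str k s ^ 2 ≤ a2)
    (hΨ0 : 0 ≤ Ψ)
    (hΨ : ∀ s ∈ Set.Ioo s₁ s₂, ∀ x, LimLe G x (Tq G lam (kap G lam k s) x) Ψ) :
    qf G lam k s₂ ≤ qf G lam k s₁ + 32 * (s₂ - s₁) * a2 * Ψ := by
  have ha2 : 0 ≤ a2 := (sq_nonneg _).trans (ha s₁ ⟨le_rfl, h12⟩)
  have h4 := qf_nonneg (lam := lam) h k s₁
  have h3 : 0 ≤ s₂ - s₁ := by linarith
  refine qf_le ?_ (limit_evol h k hs h0 h12 h2 ha hΨ0 (qf_lim h k s₁) hΨ)
  positivity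

theorem str_sq_zero {s s₂ : ℝ} (hs0 : 0 ≤ s) (hs : s ≤ s₂) : str 0 s ^ 2 ≤ s₂ / 16 := by
  unfold str a0
  split_ifs with h1 h2
  · rw [mul_pow, Real.sq_sqrt hs0]; linarith
  · exact absurd rfl h2
  · have : 0 ≤ s₂ := hs0.trans hs
    rw [zero_pow two_ne_zero]
    linarith

theorem str_sq_le (k : ℕ) (hk : 1 ≤ k) (s : ℝ) : str k s ^ 2 ≤ 1 / 16 := by
  unfold str a0
  split_ifs with h1 h2
  · omega
  · norm_num
  · norm_num

theorem qf_zero_one (h : Tr G lam b) : qf G lam 0 1 = 0 := by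
  obtain ⟨C₀, hC₀, hT⟩ := Dq_trivial h
  apply scalar_zero (fun s => qf G lam 0 s) (fun s => qf_nonneg h 0 s) (fun s => qf_le_four h 0 s)
    (fun s₁ s₂ _ h12 _ => qf_mono h 0 h12) C₀
  · intro s hs0 hs1
    apply qf_le (by positivity)
    intro z
    exact hT (nuS 0 s) _ s (null_nuS_zero s) (mom_nuS_zero hs0 hs1) (kap G lam 0 s)
      (coup_kap h 0 s) z
  · intro p A hp
    obtain ⟨C, hC, hA⟩ := stepA h p hp A
    refine ⟨2 * C, by linarith, ?_⟩
    intro s₁ s₂ hs1 h12 hs2
    have hq2 := qf_nonneg (lam := lam) h 0 s₂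
    have hlog : 0 ≤ Real.log (1 / s₁) := by
      apply Real.log_nonneg
      rw [le_div_iff₀ hs1]; linarith
    have hp1 : 0 ≤ 1 - 1 / (p:ℝ) := by
      have : (2:ℝ) ≤ p := by exact_mod_cast hp
      rw [sub_nonneg, div_le_one (by linarith)]; linarith
    have hs20 : 0 < s₂ := hs1.trans_le h12
    have hr : 0 ≤ qf G lam 0 s₂ ^ (1 - 1 / (p:ℝ)) := Real.rpow_nonneg hq2 _
    have key := qf_evol h 0 (s₁ := s₁) (s₂ := s₂) (a2 := s₂ / 16)
      (Ψ := C / s₁ * (1 + Real.log (1 / s₁)) ^ 3 * (qf G lam 0 s₂ ^ (1 - 1 / (p : ℝ)) + s₂ ^ A))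
      (Or.inl hs1) hs1.le h12 hs2 (fun s hs => str_sq_zero (hs1.le.trans hs.1) hs.2)
      (by positivity) ?_
    · calc qf G lam 0 s₂ ≤ _ := key
        _ = _ := by ring
    · intro s hs x
      have hs0 : 0 < s := hs1.trans hs.1
      have hq := qf_nonneg (lam := lam) h 0 s
      have h3 := hA (nuS 0 s) s (null_nuS_zero s) (mom_nuS_zero hs0 (hs.2.le.trans hs2))
        (kap G lam 0 s) (coup_kap h 0 s) (qf G lam 0 s) hq (qf_le_four h 0 s)
        (fun z => qf_lim h 0 s z) x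
      apply h3.mono
      have hlog' : 0 ≤ Real.log (1 / s) := by
        apply Real.log_nonneg
        rw [le_div_iff₀ hs0]; linarith [hs.2]
      have e1 : C / s ≤ C / s₁ := div_le_div_of_nonneg_left hC.le hs1 hs.1.le
      have e2 : Real.log (1 / s) ≤ Real.log (1 / s₁) := by
        apply Real.log_le_log (by positivity)
        exact one_div_le_one_div_of_le hs1 hs.1.le
      have e3 : qf G lam 0 s ^ (1 - 1 / (p:ℝ)) ≤ qf G lam 0 s₂ ^ (1 - 1 / (p:ℝ)) :=
        Real.rpow_le_rpow hq (qf_mono h 0 hs.2.le) hp1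
      have e4 : s ^ A ≤ s₂ ^ A := pow_le_pow_left₀ hs0.le hs.2.le _
      have e5 : (1 + Real.log (1 / s)) ^ 3 ≤ (1 + Real.log (1 / s₁)) ^ 3 :=
        pow_le_pow_left₀ (by linarith) (by linarith) _
      have e6 : 0 ≤ qf G lam 0 s ^ (1 - 1 / (p:ℝ)) := Real.rpow_nonneg hq _
      apply mul_le_mul
      · apply mul_le_mul e1 e5 (by positivity) (by positivity)
      · linarith
      · positivity
      · positivity
  · obtain ⟨C, hC, hB⟩ := stepB h
    refine ⟨2 * C, by linarith, ?_⟩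
    intro s₁ s₂ X hs1 h12 hs2 hX
    have hq2 := qf_nonneg (lam := lam) h 0 s₂
    have hs20 : 0 < s₂ := hs1.trans_le h12
    have hlX : 0 ≤ Real.log (1 + X) := Real.log_nonneg (by linarith)
    have key := qf_evol h 0 (s₁ := s₁) (s₂ := s₂) (a2 := s₂ / 16)
      (Ψ := C * (1 / s₁ + X) * (1 / s₁ + Real.log (1 + X)) * (qf G lam 0 s₂ + Real.exp (-X)))
      (Or.inl hs1) hs1.le h12 hs2 (fun s hs => str_sq_zero (hs1.le.trans hs.1) hs.2)
      (by positivity) ?_
    · calc qf G lam 0 s₂ ≤ _ := key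
        _ = _ := by ring
    · intro s hs x
      have hs0 : 0 < s := hs1.trans hs.1
      have hq := qf_nonneg (lam := lam) h 0 s
      have h3 := hB (nuS 0 s) _ s (null_nuS_zero s) (mom_nuS_zero hs0 (hs.2.le.trans hs2))
        (kap G lam 0 s) (coup_kap h 0 s) (qf G lam 0 s) hq (qf_le_four h 0 s)
        (fun z => qf_lim h 0 s z) x X hX
      apply h3.mono
      have e1 : 1 / s ≤ 1 / s₁ := one_div_le_one_div_of_le hs1 hs.1.le
      have e3 : qf G lam 0 s ≤ qf G lam 0 s₂ := qf_mono h 0 hs.2.le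
      have e4 : 0 < 1 / s := by positivity
      apply mul_le_mul _ (by linarith) (by positivity) (by positivity)
      apply mul_le_mul _ (by linarith) (by positivity) (by positivity)
      apply mul_le_mul_of_nonneg_left _ hC.le
      linarith

theorem qf_stay (h : Tr G lam b) (k : ℕ) (hk : 1 ≤ k) (h0 : qf G lam k 0 = 0) :
    qf G lam k 1 = 0 := by
  apply scalar_stay (fun s => qf G lam k s) (fun s => qf_nonneg h k s)
    (fun s => qf_le_four h k s) (fun s₁ s₂ _ h12 _ => qf_mono h k h12) h0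
  obtain ⟨C, hC, hB⟩ := stepB h
  refine ⟨2 * C, by linarith, ?_⟩
  intro s₁ s₂ X hs1 h12 hs2 hX
  have hq2 := qf_nonneg (lam := lam) h k s₂
  have hlX : 0 ≤ Real.log (1 + X) := Real.log_nonneg (by linarith)
  have key := qf_evol h k (s₁ := s₁) (s₂ := s₂) (a2 := 1 / 16)
    (Ψ := C * (1 + X) * (1 + Real.log (1 + X)) * (qf G lam k s₂ + Real.exp (-X)))
    (Or.inr hk) hs1 h12 hs2 (fun s hs => str_sq_le k hk s)
    (by positivity) ?_
  · calc qf G lam k s₂ ≤ _ := key
      _ = _ := by ring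
  · intro s hs x
    obtain ⟨ρ, hρ⟩ := null_nuS k s
    have hq := qf_nonneg (lam := lam) h k s
    have h3 := hB (nuS k s) ρ 1 hρ (mom_nuS k hk s)
      (kap G lam k s) (coup_kap h k s) (qf G lam k s) hq (qf_le_four h k s)
      (fun z => qf_lim h k s z) x X hX
    apply h3.mono
    have e3 : qf G lam k s ≤ qf G lam k s₂ := qf_mono h k hs.2.le
    rw [div_one]
    apply mul_le_mul_of_nonneg_left _ (by positivity)
    linarith

omit [Countable V] in
theorem kap_succ_zero (k : ℕ) : kap G lam (k + 1) 0 = kap G lam k 1 := by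
  funext w
  unfold kap
  simp only [Xst_zero, Xst_one]

omit [Countable V] [G.LocallyFinite] in
theorem MW_zero (h : Tr G lam b) {W : Finset V} {z : V} (hz : z ∈ W) :
    MW G lam W z (fun _ => 0) = 0 := by
  have h1 := MW_flip h hz (fun _ => (0:ℝ))
  have h2 : flip W (fun _ : V => (0:ℝ)) = fun _ => 0 := by
    funext v; unfold flip; split_ifs <;> simp
  rw [h2] at h1
  linarith

theorem Dq_zero (h : Tr G lam b) (k : ℕ) (z : V) :
    LimLe G z (Dq G lam (kap G lam k 0) z) 0 := by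
  have main : ∀ k, qf G lam k 0 = 0 := by
    intro k
    induction k with
    | zero =>
      apply le_antisymm _ (qf_nonneg h 0 0)
      apply qf_le le_rfl
      intro z ε hε
      refine ⟨0, fun w h1 h2 => ?_⟩
      rw [Dq_kap]
      unfold Dg
      have hz1 : z ∈ W1 G w := by unfold W1; rw [mem_bl h.tree]; omega
      have hz2 : z ∈ W2 G w := by unfold W2; rw [mem_bl h.tree]; omega
      have e1 : ∀ ω : V → ℕ → unitInterval,
          Mf (W1 G w) (mu G lam (W1 G w)) z (Xst (W1 G w) (mu G lam (W1 G w)) 0 0 ω) = 0 := by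
        intro ω
        rw [Xst_zero]
        exact MW_zero h hz1
      have e2 : ∀ ω : V → ℕ → unitInterval,
          Mf (W2 G w) (mu G lam (W2 G w)) z (Xst (W2 G w) (mu G lam (W2 G w)) 0 0 ω) = 0 := by
        intro ω
        rw [Xst_zero]
        exact MW_zero h hz2
      simp only [e1, e2, sub_zero]
      have : (0:ℝ) ^ 2 = 0 := by norm_num
      rw [this, integral_zero]
      linarith
    | succ k ih =>
      have h1 : qf G lam k 1 = 0 := by
        rcases Nat.eq_zero_or_pos k with hk | hk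
        · subst hk; exact qf_zero_one h
        · exact qf_stay h k hk ih
      unfold qf at h1 ⊢
      rw [kap_succ_zero]
      exact h1
  have := qf_lim h k 0 z
  rwa [main k] at this

end R1

end Crest.Agent.H14
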