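import Mathlib
import Crest.Agent.H14.Defs2
import Crest.Agent.H14.Rec

/-! Row 160: equivariance of all the constructions under bijections / automorphisms. -/

set_option autoImplicit false

open MeasureTheory Filter Topology

namespace Crest.Agent.H14

open scoped Classical

section Generic

variable {E : Type*} (π : E ≃ E) {W : Finset E} {w w' : Finset E → ℝ}

theorem sp_map (S : Finset E) (v : E) : sp (S.map π.toEmbedding) (π v) = sp S v := by
  unfold sp
  have : (π v ∈ S.map π.toEmbedding) ↔ v ∈ S := by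
    rw [Finset.mem_map_equiv]; simp
  simp only [this]

theorem tl_map (W : Finset E) (r : E → ℝ) (S : Finset E) :
    tl (W.map π.toEmbedding) r (S.map π.toEmbedding) = tl W (r ∘ π) S := by
  unfold tl
  rw [Finset.prod_map]
  apply Finset.prod_congr rfl
  intro v _
  show 1 + sp (S.map π.toEmbedding) (π v) * r (π v) = _
  rw [sp_map]; rfl

theorem sum_powerset_map {M : Type*} [AddCommMonoid M] (W : Finset E) (f : Finset E → M) :
    ∑ S ∈ (W.map π.toEmbedding).powerset, f S = ∑ S ∈ W.powerset, f (S.map π.toEmbedding) := by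
  symm
  apply Finset.sum_nbij' (fun S => S.map π.toEmbedding) (fun S => S.map π.symm.toEmbedding)
  · intro S hS
    rw [Finset.mem_powerset] at hS ⊢
    exact Finset.map_subset_map.2 hS
  · intro S hS
    rw [Finset.mem_powerset] at hS ⊢
    intro v hv
    rw [Finset.mem_map_equiv] at hv
    have := hS hv
    rw [Finset.mem_map_equiv] at this
    simpa using this
  · intro S _
    ext v
    simp [Finset.mem_map_equiv]
  · intro S _
    ext v
    simp [Finset.mem_map_equiv]
  · intro S _; rfl

theorem Lf_map (hw : ∀ S, S ⊆ W → w' (S.map π.toEmbedding) = w S) (r : E → ℝ) :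
    Lf (W.map π.toEmbedding) w' r = Lf W w (r ∘ π) := by
  unfold Lf
  rw [sum_powerset_map]
  apply Finset.sum_congr rfl
  intro S hS
  rw [tl_map, hw S (Finset.mem_powerset.1 hS)]

theorem Mf_map (hw : ∀ S, S ⊆ W → w' (S.map π.toEmbedding) = w S) (z : E) (r : E → ℝ) :
    Mf (W.map π.toEmbedding) w' (π z) r = Mf W w z (r ∘ π) := by
  unfold Mf Ef
  rw [Lf_map π hw, sum_powerset_map]
  congr 1
  apply Finset.sum_congr rfl
  intro S hS
  show w' (S.map π.toEmbedding) * tl (W.map π.toEmbedding) r (S.map π.toEmbedding) *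
    sp (S.map π.toEmbedding) (π z) = w S * tl W (r ∘ π) S * sp S z
  rw [tl_map, hw S (Finset.mem_powerset.1 hS), sp_map]

theorem stepZ_map (hw : ∀ S, S ⊆ W → w' (S.map π.toEmbedding) = w S) (r t a : E → ℝ)
    (u : E → unitInterval) (Z : E → ℝ) :
    stepZ (W.map π.toEmbedding) w' r t a u Z ∘ π =
      stepZ W w (r ∘ π) (t ∘ π) (a ∘ π) (u ∘ π) (Z ∘ π) := by
  funext v
  simp only [Function.comp, stepZ]
  have h1 : (π v ∈ W.map π.toEmbedding) ↔ v ∈ W := by
    rw [Finset.mem_map_equiv]; simp
  by_cases hv : v ∈ W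
  · rw [if_pos (h1.2 hv), if_pos hv, Mf_map π hw]
    rfl
  · rw [if_neg (fun h => hv (h1.1 h)), if_neg hv]

theorem Zrd_map (hw : ∀ S, S ⊆ W → w' (S.map π.toEmbedding) = w S) (r t a : E → ℝ)
    (u : E → unitInterval) :
    Zrd (W.map π.toEmbedding) w' r t a u ∘ π = Zrd W w (r ∘ π) (t ∘ π) (a ∘ π) (u ∘ π) := by
  unfold Zrd
  rw [Finset.card_map]
  have : ∀ n : ℕ, ((stepZ (W.map π.toEmbedding) w' r t a u)^[n] (fun _ => 0)) ∘ π =
      (stepZ W w (r ∘ π) (t ∘ π) (a ∘ π) (u ∘ π))^[n] (fun _ => 0) := by
    intro n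
    induction n with
    | zero => rfl
    | succ n ih =>
      rw [Function.iterate_succ_apply', Function.iterate_succ_apply', stepZ_map π hw, ih]
  exact this _

theorem Rst_map (hw : ∀ S, S ⊆ W → w' (S.map π.toEmbedding) = w S) :
    ∀ (k : ℕ) (ω : E → ℕ → unitInterval),
      Rst (W.map π.toEmbedding) w' k ω ∘ π = Rst W w k (ω ∘ π)
  | 0, _ => rfl
  | k + 1, ω => by
    have ih := Rst_map hw k ω
    have h2 := Zrd_map π hw (Rst (W.map π.toEmbedding) w' k ω) (tm k ω)
      (fun v => str k (tm k ω v)) (ns k ω)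
    rw [ih] at h2
    funext v
    have h3 := congrFun ih v
    have h4 := congrFun h2 v
    simp only [Function.comp] at h3 h4
    simp only [Rst, stt, Function.comp]
    rw [h3, h4]
    rfl

end Generic

section Tree

variable {V : Type*} {G : SimpleGraph V} {lam : ℝ}

theorem mu_iso (g : G ≃g G) (W S : Finset V) :
    mu G lam (W.map g.toEquiv.toEmbedding) (S.map g.toEquiv.toEmbedding) = mu G lam W S := by
  unfold mu Crest.ProbabilityR.TreeIsing.isingWeight
  congr 1
  symm
  apply Finset.prod_nbij' (fun e => Sym2.map g e) (fun e => Sym2.map g.symm e)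
  · intro e he
    induction e using Sym2.ind with
    | _ a b =>
      simp only [Finset.mem_filter, Finset.mk_mem_sym2_iff, SimpleGraph.mem_edgeSet, Sym2.map_mk]
        at he ⊢
      simp only [Finset.mem_map_equiv]
      have h : ∀ c : V, g.toEquiv.symm (g c) = c := fun c => g.toEquiv.symm_apply_apply c
      rw [h, h]
      exact ⟨he.1, g.map_adj_iff.2 he.2⟩
  · intro e he
    induction e using Sym2.ind with
    | _ a b =>
      simp only [Finset.mem_filter, Finset.mk_mem_sym2_iff, SimpleGraph.mem_edgeSet, Sym2.map_mk,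
        Finset.mem_map_equiv] at he ⊢
      refine ⟨⟨?_, ?_⟩, ?_⟩
      · exact he.1.1
      · exact he.1.2
      · exact g.symm.map_adj_iff.2 he.2
  · intro e _
    induction e using Sym2.ind with
    | _ a b => simp
  · intro e _
    induction e using Sym2.ind with
    | _ a b => simp
  · intro e _
    induction e using Sym2.ind with
    | _ a b =>
      have h : ∀ c : V, (g c ∈ S.map g.toEquiv.toEmbedding) ↔ c ∈ S := by
        intro c
        rw [Finset.mem_map_equiv]
        rw [show g.toEquiv.symm (g c) = c from g.toEquiv.symm_apply_apply c]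
      simp only [Sym2.map_mk, Sym2.mk_isDiag_iff, h]

variable [G.LocallyFinite]

/-- posterior mean at the centre `v` of the ball of radius `R` after `k` rounds -/
noncomputable def Mc (G : SimpleGraph V) [G.LocallyFinite] (lam : ℝ) (k R : ℕ) (v : V)
    (ω : V → ℕ → unitInterval) : ℝ :=
  MW G lam (bl G v R) v (Rst (bl G v R) (mu G lam (bl G v R)) k ω)

/-- posterior mean at `z` in the ball window `bl c R` after `k` rounds is equivariant -/
theorem MWb_iso (hT : G.IsTree) (g : G ≃g G) (k R : ℕ) (c z : V) (ω : V → ℕ → unitInterval) :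
    MW G lam (bl G (g c) R) (g z) (Rst (bl G (g c) R) (mu G lam (bl G (g c) R)) k ω) =
      MW G lam (bl G c R) z (Rst (bl G c R) (mu G lam (bl G c R)) k (ω ∘ g)) := by
  rw [bl_iso hT g c R]
  unfold MW
  have hw : ∀ S, S ⊆ bl G c R →
      mu G lam ((bl G c R).map g.toEquiv.toEmbedding) (S.map g.toEquiv.toEmbedding) =
        mu G lam (bl G c R) S := fun S _ => mu_iso g _ S
  have h1 := Mf_map g.toEquiv hw z
    (Rst ((bl G c R).map g.toEquiv.toEmbedding) (mu G lam ((bl G c R).map g.toEquiv.toEmbedding)) k ω)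
  rw [Rst_map g.toEquiv hw k ω] at h1
  exact h1

theorem Mc_iso (hT : G.IsTree) (g : G ≃g G) (k R : ℕ) (v : V) (ω : V → ℕ → unitInterval) :
    Mc G lam k R (g v) ω = Mc G lam k R v (ω ∘ g) := MWb_iso hT g k R v v ω

end Tree

end Crest.Agent.H14
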