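import Mathlib
import Crest.Agent.H14.Defs
import Crest.Agent.H14.Rec
import Crest.Agent.H14.Nu

/-! Row 160 (R2): the sign of the posterior mean identifies the spin; error bounds. -/

set_option autoImplicit false

open MeasureTheory Filter Topology

namespace Crest.Agent.H14

open scoped Classical

section Read

variable {E : Type*} {W : Finset E} {w : Finset E → ℝ} {ν : Measure ℝ} {ρ : ℝ}

instance instProbNm [hp : IsProbabilityMeasure ν] : IsProbabilityMeasure (Nm E ν) := by
  unfold Nm; infer_instance

/-- integral of a product over the coordinates of a finite set -/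
theorem integral_prod_Nm (hν : IsProbabilityMeasure ν) (W : Finset E) (f : E → ℝ → ℝ)
    (hf : ∀ v, Measurable (f v)) :
    ∫ r, ∏ v ∈ W, f v (r v) ∂(Nm E ν) = ∏ v ∈ W, ∫ x, f v x ∂ν := by
  have h := integral_restrict_infinitePi (μ := fun _ : E => ν) (s := W)
    (f := fun y : (∀ _ : W, ℝ) => ∏ i : W, f i (y i)) (by
      apply Measurable.aestronglyMeasurable
      apply Finset.measurable_prod
      intro i _
      exact (hf i).comp (measurable_pi_apply i))
  have h1 : ∀ r : E → ℝ, ∏ v ∈ W, f v (r v) = ∏ i : W, f i (W.restrict r i) := by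
    intro r
    rw [← Finset.prod_coe_sort]
    rfl
  unfold Nm
  simp_rw [h1]
  rw [h, integral_fintype_prod_eq_prod (μ := fun _ : W => ν) (fun (i : W) (x : ℝ) => f i x),
    ← Finset.prod_coe_sort W (fun v => ∫ x, f v x ∂ν)]

theorem ae_coordN (hν : IsProbabilityMeasure ν) {P : ℝ → Prop} (h : ∀ᵐ x ∂ν, P x) (v : E) :
    ∀ᵐ r ∂(Nm E ν), P (r v) :=
  (measurePreserving_eval_infinitePi (fun _ : E => ν) v).quasiMeasurePreserving.ae h

theorem ae_bdd (hν : Null ν ρ) (W : Finset E) : ∀ᵐ r ∂(Nm E ν), ∀ v ∈ W, |r v| ≤ ρ := by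
  rw [Filter.eventually_all_finset]
  intro v _
  exact ae_coordN hν.prob hν.supp v

theorem integral_id_zero (hν : Null ν ρ) : ∫ x, x ∂ν = 0 := by
  have h : ∫ x, x ∂(ν.map (fun x => -x)) = ∫ x, -x ∂ν :=
    integral_map measurable_neg.aemeasurable measurable_id.aestronglyMeasurable
  rw [hν.symm, integral_neg] at h
  linarith

theorem integrable_id' (hν : Null ν ρ) : Integrable (fun x : ℝ => x) ν := by
  have := hν.prob
  apply Integrable.of_bound (C := ρ) measurable_id.aestronglyMeasurable
  filter_upwards [hν.supp] with x hx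
  rw [Real.norm_eq_abs]; exact hx

/-- a tilted one-site function -/
theorem integral_tl_mul (hν : Null ν ρ) (W S : Finset E) {v : E} (hv : v ∈ W) (g : ℝ → ℝ)
    (hg : Measurable g) :
    ∫ r, tl W r S * g (r v) ∂(Nm E ν) = ∫ x, (1 + sp S v * x) * g x ∂ν := by
  have := hν.prob
  have h := integral_prod_Nm hν.prob W
    (fun u x => (1 + sp S u * x) * (if u = v then g x else 1)) (by
      intro u
      apply Measurable.mul
      · exact (measurable_id.const_mul _).const_add 1
      · by_cases h : u = v
        · simp only [h, if_true]; exact hg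
        · simp only [h, if_false]; exact measurable_const)
  have h1 : ∀ r : E → ℝ, ∏ u ∈ W, (1 + sp S u * r u) * (if u = v then g (r u) else 1) =
      tl W r S * g (r v) := by
    intro r
    rw [Finset.prod_mul_distrib]
    unfold tl
    congr 1
    rw [Finset.prod_ite_eq' W v (fun u => g (r u)), if_pos hv]
  simp_rw [h1] at h
  rw [h, ← Finset.mul_prod_erase W _ hv]
  simp only [if_true]
  have h2 : ∏ u ∈ W.erase v, ∫ x, (1 + sp S u * x) * (if u = v then g x else 1) ∂ν = 1 := by
    apply Finset.prod_eq_one
    intro u hu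
    have hne := Finset.ne_of_mem_erase hu
    simp only [if_neg hne, mul_one]
    rw [integral_add (integrable_const _) ((integrable_id' hν).const_mul _),
      integral_const_mul, integral_id_zero hν]
    simp
  rw [h2, mul_one]

theorem integral_tlN (hν : Null ν ρ) (W S : Finset E) :
    ∫ r, tl W r S ∂(Nm E ν) = 1 := by
  have := hν.prob
  have h := integral_prod_Nm hν.prob W (fun u x => (1 + sp S u * x)) (by
      intro u
      exact (measurable_id.const_mul _).const_add 1)
  unfold tl
  rw [h]
  apply Finset.prod_eq_one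
  intro u _
  rw [integral_add (integrable_const _) ((integrable_id' hν).const_mul _),
      integral_const_mul, integral_id_zero hν]
  simp

theorem tl_bdd {r : E → ℝ} (hr : ∀ v ∈ W, |r v| ≤ 1) (S : Finset E) :
    |tl W r S| ≤ 2 ^ W.card := by
  unfold tl
  rw [Finset.abs_prod]
  calc ∏ v ∈ W, |1 + sp S v * r v| ≤ ∏ v ∈ W, (2:ℝ) := by
        apply Finset.prod_le_prod (fun _ _ => abs_nonneg _)
        intro v hv
        calc |1 + sp S v * r v| ≤ |(1:ℝ)| + |sp S v| * |r v| := by
              rw [← abs_mul]; exact abs_add_le _ _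
          _ ≤ 1 + 1 * 1 := by
              rw [abs_one, abs_sp]
              have := hr v hv
              linarith
          _ = 2 := by norm_num
    _ = 2 ^ W.card := by simp

/-- bounded functions times `tl` are integrable -/
theorem integrable_mul_tl (hν : Null ν ρ) (W S : Finset E) {F : (E → ℝ) → ℝ}
    (hF : Measurable F) {C : ℝ} (hC : ∀ᵐ r ∂(Nm E ν), |F r| ≤ C) :
    Integrable (fun r => F r * tl W r S) (Nm E ν) := by
  have := hν.prob
  apply Integrable.of_bound (C := C * 2 ^ W.card)
  · exact (hF.mul (measurable_tl W S)).aestronglyMeasurable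
  · filter_upwards [hC, ae_bdd hν W] with r h1 h2
    rw [Real.norm_eq_abs, abs_mul]
    exact mul_le_mul h1 (tl_bdd (fun v hv => (h2 v hv).trans hν.lt.le) S) (abs_nonneg _)
      ((abs_nonneg _).trans h1)

theorem integrable_mul_Lf (hν : Null ν ρ) (W : Finset E) (w : Finset E → ℝ) {F : (E → ℝ) → ℝ}
    (hF : Measurable F) {C : ℝ} (hC : ∀ᵐ r ∂(Nm E ν), |F r| ≤ C) :
    Integrable (fun r => F r * Lf W w r) (Nm E ν) := by
  unfold Lf
  simp_rw [Finset.mul_sum]
  apply integrable_finsetSum
  intro S _
  have h := (integrable_mul_tl hν W S hF hC).const_mul (w S)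
  apply h.congr
  exact Eventually.of_forall fun r => by
    show w S * (F r * tl W r S) = F r * (w S * tl W r S)
    ring

/-- disagreement indicator between a decision and the spin -/
noncomputable def dis (d : Prop) (T : Finset E) (v : E) : ℝ := if (d ↔ v ∈ T) then 0 else 1

theorem dis_eq (d : Prop) (T : Finset E) (v : E) :
    dis d T v = (1 - (if d then 1 else -1) * sp T v) / 2 := by
  unfold dis sp
  by_cases h1 : d <;> by_cases h2 : v ∈ T <;> simp [h1, h2]

theorem dis_nonneg (d : Prop) (T : Finset E) (v : E) : 0 ≤ dis d T v := by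
  unfold dis; split_ifs <;> norm_num

theorem dis_le_one (d : Prop) (T : Finset E) (v : E) : dis d T v ≤ 1 := by
  unfold dis; split_ifs <;> norm_num

/-- posterior error of a decision -/
theorem sum_dis (hw : Pos W w) {r : E → ℝ} (hr : ∀ v ∈ W, |r v| < 1) (d : Prop) (v : E) :
    ∑ T ∈ W.powerset, w T * (dis d T v * tl W r T) =
      Lf W w r * (1 - (if d then 1 else -1) * Mf W w v r) / 2 := by
  have hL := Lf_pos hw hr
  have h1 : Lf W w r * Mf W w v r = ∑ S ∈ W.powerset, w S * tl W r S * sp S v := by
    unfold Mf Ef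
    exact mul_div_cancel₀ _ hL.ne'
  have h2 : Lf W w r * (1 - (if d then 1 else -1) * Mf W w v r) / 2 =
      (Lf W w r - (if d then 1 else -1) * (Lf W w r * Mf W w v r)) / 2 := by ring
  rw [h2, h1]
  unfold Lf
  rw [Finset.mul_sum, ← Finset.sum_sub_distrib, Finset.sum_div]
  apply Finset.sum_congr rfl
  intro T _
  rw [dis_eq]; ring

/-- the sign of the posterior mean is the best decision -/
theorem sum_dis_le (hw : Pos W w) {r : E → ℝ} (hr : ∀ v ∈ W, |r v| < 1) (d : Prop) (v : E) :
    ∑ T ∈ W.powerset, w T * (dis (0 < Mf W w v r) T v * tl W r T) ≤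
      ∑ T ∈ W.powerset, w T * (dis d T v * tl W r T) := by
  rw [sum_dis hw hr, sum_dis hw hr]
  have hL := Lf_pos hw hr
  apply div_le_div_of_nonneg_right _ zero_le_two
  apply mul_le_mul_of_nonneg_left _ hL.le
  by_cases h1 : 0 < Mf W w v r <;> by_cases h2 : d <;> simp only [h1, h2, if_true, if_false] <;>
    linarith

theorem sum_dis_abs (hw : Pos W w) {r : E → ℝ} (hr : ∀ v ∈ W, |r v| < 1) (v : E) :
    Lf W w r * (1 - |Mf W w v r|) / 2 =
      ∑ T ∈ W.powerset, w T * (dis (0 < Mf W w v r) T v * tl W r T) := by
  rw [sum_dis hw hr]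
  by_cases h1 : 0 < Mf W w v r
  · rw [abs_of_pos h1, if_pos h1, one_mul]
  · rw [abs_of_nonpos (not_lt.1 h1), if_neg h1]; ring

theorem measurable_dis {Ω : Type*} [MeasurableSpace Ω] {f : Ω → ℝ} (hf : Measurable f)
    (T : Finset E) (v : E) : Measurable (fun ω => dis (0 < f ω) T v) := by
  simp_rw [dis_eq]
  apply Measurable.div_const
  apply Measurable.const_sub
  apply Measurable.mul_const
  exact Measurable.ite (measurableSet_lt measurable_const hf) measurable_const measurable_const

/-- error of the decision "sign of the evidence at `v`" -/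
theorem dis_evidence (hν : Null ν ρ) (W T : Finset E) {v : E} (hv : v ∈ W) :
    ∫ r, dis (0 < r v) T v * tl W r T ∂(Nm E ν) ≤ ∫ x, Real.sqrt (1 - x ^ 2) ∂ν := by
  have := hν.prob
  have h1 := integral_tl_mul hν W T hv (fun x => dis (0 < x) T v)
    (measurable_dis measurable_id T v)
  have h2 : ∫ r, dis (0 < r v) T v * tl W r T ∂(Nm E ν) =
      ∫ r, tl W r T * dis (0 < r v) T v ∂(Nm E ν) := by
    congr 1; funext r; ring
  rw [h2, h1]
  apply integral_mono_ae
  · apply Integrable.of_bound (C := 2)
    · apply Measurable.aestronglyMeasurable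
      exact ((measurable_id.const_mul _).const_add 1).mul (measurable_dis measurable_id T v)
    · filter_upwards [hν.supp] with x hx
      rw [Real.norm_eq_abs, abs_mul]
      calc |1 + sp T v * x| * |dis (0 < x) T v| ≤ 2 * 1 := by
            apply mul_le_mul _ _ (abs_nonneg _) zero_le_two
            · calc |1 + sp T v * x| ≤ |(1:ℝ)| + |sp T v| * |x| := by
                    rw [← abs_mul]; exact abs_add_le _ _
                _ ≤ 2 := by
                    rw [abs_one, abs_sp]
                    have := hx.trans hν.lt.le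
                    linarith
            · rw [abs_of_nonneg (dis_nonneg _ _ _)]; exact dis_le_one _ _ _
        _ = 2 := by norm_num
  · apply Integrable.of_bound (C := 1)
    · exact (Real.continuous_sqrt.measurable.comp
        ((show Measurable (fun x : ℝ => x ^ 2) by fun_prop).const_sub 1)).aestronglyMeasurable
    · exact Eventually.of_forall fun x => by
        rw [Real.norm_eq_abs, abs_of_nonneg (Real.sqrt_nonneg _)]
        exact Real.sqrt_le_one.mpr (by have := sq_nonneg x; linarith)
  · filter_upwards [hν.supp] with x hx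
    have hx1 : |x| ≤ 1 := hx.trans hν.lt.le
    have hx2 := abs_le.1 hx1
    have key : 1 - |x| ≤ Real.sqrt (1 - x ^ 2) := by
      apply Real.le_sqrt_of_sq_le
      rw [← sq_abs x]
      nlinarith [abs_nonneg x]
    have hs := Real.sqrt_nonneg (1 - x ^ 2)
    unfold dis sp
    by_cases h3 : 0 < x <;> by_cases h4 : v ∈ T
    · simp [h3, h4]
    · simp only [h3, h4, iff_false, not_true, if_false]
      rw [abs_of_pos h3] at key
      linarith
    · simp only [h3, h4, iff_true, if_false, if_true]
      rw [abs_of_nonpos (not_lt.1 h3)] at key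
      linarith
    · simp [h3, h4]

/-- total error of the decision "sign of the posterior mean" -/
theorem err_le (hw : Pos W w) (hν : Null ν ρ) {v : E} (hv : v ∈ W) :
    ∑ T ∈ W.powerset, w T * ∫ r, dis (0 < Mf W w v r) T v * tl W r T ∂(Nm E ν) ≤
      ∫ x, Real.sqrt (1 - x ^ 2) ∂ν := by
  have := hν.prob
  have hd1 : ∀ (f : (E → ℝ) → ℝ), Measurable f → ∀ T : Finset E,
      Integrable (fun r => dis (0 < f r) T v * tl W r T) (Nm E ν) := by
    intro f hf T
    apply integrable_mul_tl hν W T (measurable_dis hf T v) (C := 1)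
    exact Eventually.of_forall fun r => by
      rw [abs_of_nonneg (dis_nonneg _ _ _)]; exact dis_le_one _ _ _
  have hsum : ∀ (f : (E → ℝ) → ℝ), Measurable f →
      ∑ T ∈ W.powerset, w T * ∫ r, dis (0 < f r) T v * tl W r T ∂(Nm E ν) =
        ∫ r, ∑ T ∈ W.powerset, w T * (dis (0 < f r) T v * tl W r T) ∂(Nm E ν) := by
    intro f hf
    rw [integral_finsetSum]
    · apply Finset.sum_congr rfl
      intro T _
      rw [integral_const_mul]
    · intro T _
      exact (hd1 f hf T).const_mul _
  calc ∑ T ∈ W.powerset, w T * ∫ r, dis (0 < Mf W w v r) T v * tl W r T ∂(Nm E ν)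
      = ∫ r, ∑ T ∈ W.powerset, w T * (dis (0 < Mf W w v r) T v * tl W r T) ∂(Nm E ν) :=
        hsum _ (measurable_Mf W w v)
    _ ≤ ∫ r, ∑ T ∈ W.powerset, w T * (dis (0 < r v) T v * tl W r T) ∂(Nm E ν) := by
        apply integral_mono_ae
        · exact integrable_finsetSum _ fun T _ => (hd1 _ (measurable_Mf W w v) T).const_mul _
        · exact integrable_finsetSum _ fun T _ => (hd1 _ (measurable_pi_apply v) T).const_mul _
        · filter_upwards [ae_bdd hν W] with r hr
          exact sum_dis_le hw (fun u hu => lt_of_le_of_lt (hr u hu) hν.lt) _ v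
    _ = ∑ T ∈ W.powerset, w T * ∫ r, dis (0 < r v) T v * tl W r T ∂(Nm E ν) :=
        (hsum _ (measurable_pi_apply v)).symm
    _ ≤ ∑ T ∈ W.powerset, w T * ∫ x, Real.sqrt (1 - x ^ 2) ∂ν := by
        apply Finset.sum_le_sum
        intro T hT
        exact mul_le_mul_of_nonneg_left (dis_evidence hν W T hv)
          (hw.nonneg T (Finset.mem_powerset.1 hT))
    _ = ∫ x, Real.sqrt (1 - x ^ 2) ∂ν := by
        rw [← Finset.sum_mul, hw.total, one_mul]

/-- the posterior mean is close to `±1` -/
theorem EE_one_sub_abs (hw : Pos W w) (hν : Null ν ρ) {v : E} (hv : v ∈ W) :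
    ∫ r, (1 - |Mf W w v r|) * Lf W w r ∂(Nm E ν) ≤ 2 * ∫ x, Real.sqrt (1 - x ^ 2) ∂ν := by
  have := hν.prob
  have hd1 : ∀ T : Finset E,
      Integrable (fun r => dis (0 < Mf W w v r) T v * tl W r T) (Nm E ν) := by
    intro T
    apply integrable_mul_tl hν W T (measurable_dis (measurable_Mf W w v) T v) (C := 1)
    exact Eventually.of_forall fun r => by
      rw [abs_of_nonneg (dis_nonneg _ _ _)]; exact dis_le_one _ _ _
  have h := err_le hw hν hv
  calc ∫ r, (1 - |Mf W w v r|) * Lf W w r ∂(Nm E ν)
      = ∫ r, 2 * ∑ T ∈ W.powerset, w T * (dis (0 < Mf W w v r) T v * tl W r T) ∂(Nm E ν) := by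
        apply integral_congr_ae
        filter_upwards [ae_bdd hν W] with r hr
        rw [← sum_dis_abs hw (fun u hu => lt_of_le_of_lt (hr u hu) hν.lt) v]
        ring
    _ = 2 * ∑ T ∈ W.powerset, w T * ∫ r, dis (0 < Mf W w v r) T v * tl W r T ∂(Nm E ν) := by
        rw [integral_const_mul, integral_finsetSum]
        · congr 1
          apply Finset.sum_congr rfl
          intro T _
          rw [integral_const_mul]
        · intro T _
          exact (hd1 T).const_mul _
    _ ≤ _ := by linarith

/-- law of the signs of the posterior means on a finite set `S` -/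
theorem sign_law (hw : Pos W w) (hν : Null ν ρ) {S : Finset E} (hS : S ⊆ W) (η : E → Prop) :
    |∫ r, (if ∀ v ∈ S, ((0 < Mf W w v r) ↔ η v) then (1:ℝ) else 0) * Lf W w r ∂(Nm E ν) -
      ∑ T ∈ W.powerset, w T * (if ∀ v ∈ S, (v ∈ T ↔ η v) then 1 else 0)| ≤
      S.card * ∫ x, Real.sqrt (1 - x ^ 2) ∂ν := by
  have := hν.prob
  set A : (E → ℝ) → ℝ := fun r => if ∀ v ∈ S, ((0 < Mf W w v r) ↔ η v) then (1:ℝ) else 0 with hA
  have hAm : Measurable A := by
    apply Measurable.ite _ measurable_const measurable_const
    have : {r : E → ℝ | ∀ v ∈ S, ((0 < Mf W w v r) ↔ η v)} =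
        ⋂ v ∈ S, {r : E → ℝ | (0 < Mf W w v r) ↔ η v} := by
      ext r; simp
    rw [this]
    apply Finset.measurableSet_biInter
    intro v _
    by_cases h : η v
    · simp only [h, iff_true]
      exact measurableSet_lt measurable_const (measurable_Mf W w v)
    · simp only [h, iff_false, not_lt]
      exact measurableSet_le (measurable_Mf W w v) measurable_const
  have hA1 : ∀ r, |A r| ≤ 1 := by
    intro r
    simp only [hA]
    split_ifs <;> simp
  have e1 : ∫ r, A r * Lf W w r ∂(Nm E ν) =
      ∑ T ∈ W.powerset, w T * ∫ r, A r * tl W r T ∂(Nm E ν) := by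
    unfold Lf
    simp_rw [Finset.mul_sum]
    rw [integral_finsetSum]
    · apply Finset.sum_congr rfl
      intro T _
      rw [← integral_const_mul]
      congr 1; funext r; ring
    · intro T _
      have h := (integrable_mul_tl hν W T hAm (Eventually.of_forall hA1)).const_mul (w T)
      apply h.congr
      exact Eventually.of_forall fun r => by
        show w T * (A r * tl W r T) = A r * (w T * tl W r T)
        ring
  rw [e1, ← Finset.sum_sub_distrib]
  have e2 : ∀ T ∈ W.powerset,
      |w T * ∫ r, A r * tl W r T ∂(Nm E ν) - w T * (if ∀ v ∈ S, (v ∈ T ↔ η v) then 1 else 0)| ≤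
        ∑ v ∈ S, w T * ∫ r, dis (0 < Mf W w v r) T v * tl W r T ∂(Nm E ν) := by
    intro T hT
    set c : ℝ := (if ∀ v ∈ S, (v ∈ T ↔ η v) then 1 else 0) with hc
    have hwT := hw.nonneg T (Finset.mem_powerset.1 hT)
    have h3 : ∫ r, A r * tl W r T ∂(Nm E ν) - c = ∫ r, (A r - c) * tl W r T ∂(Nm E ν) := by
      have h4 : ∫ r, c * tl W r T ∂(Nm E ν) = c := by
        rw [integral_const_mul, integral_tlN hν, mul_one]
      conv_lhs => rw [← h4]
      rw [← integral_sub (integrable_mul_tl hν W T hAm (Eventually.of_forall hA1))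
        (integrable_mul_tl hν W T measurable_const (C := |c|) (Eventually.of_forall fun _ => le_rfl))]
      congr 1; funext r; ring
    rw [← mul_sub, abs_mul, abs_of_nonneg hwT, ← Finset.mul_sum, h3]
    apply mul_le_mul_of_nonneg_left _ hwT
    have hi : ∀ v : E, Integrable (fun r => dis (0 < Mf W w v r) T v * tl W r T) (Nm E ν) := by
      intro v
      apply integrable_mul_tl hν W T (measurable_dis (measurable_Mf W w v) T v) (C := 1)
      exact Eventually.of_forall fun r => by
        rw [abs_of_nonneg (dis_nonneg _ _ _)]; exact dis_le_one _ _ _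
    rw [← integral_finsetSum _ fun v _ => hi v]
    calc |∫ r, (A r - c) * tl W r T ∂(Nm E ν)| ≤ ∫ r, |(A r - c) * tl W r T| ∂(Nm E ν) :=
          abs_integral_le_integral_abs
      _ ≤ ∫ r, ∑ v ∈ S, dis (0 < Mf W w v r) T v * tl W r T ∂(Nm E ν) := by
          apply integral_mono_ae
          · apply Integrable.abs
            apply integrable_mul_tl hν W T (hAm.sub_const c) (C := 1 + |c|)
            exact Eventually.of_forall fun r => (abs_sub _ _).trans (add_le_add (hA1 r) le_rfl)
          · exact integrable_finsetSum _ fun v _ => hi v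
          · filter_upwards [ae_bdd hν W] with r hr
            have htl : 0 ≤ tl W r T := tl_nonneg (fun v hv => (hr v hv).trans hν.lt.le) T
            rw [abs_mul, abs_of_nonneg htl, ← Finset.sum_mul]
            apply mul_le_mul_of_nonneg_right _ htl
            by_cases hall : ∀ v ∈ S, ((0 < Mf W w v r) ↔ v ∈ T)
            · have : A r = c := by
                simp only [hA, hc]
                congr 1
                apply propext
                constructor
                · intro h v hv; rw [← hall v hv]; exact h v hv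
                · intro h v hv; rw [hall v hv]; exact h v hv
              rw [this, sub_self, abs_zero]
              exact Finset.sum_nonneg fun v _ => dis_nonneg _ _ _
            · push Not at hall
              obtain ⟨v, hv, hne⟩ := hall
              have h5 : |A r - c| ≤ 1 := by
                simp only [hA, hc]
                split_ifs <;> simp
              have h6 : dis (0 < Mf W w v r) T v = 1 := by
                unfold dis
                rw [if_neg]
                intro hcon
                rcases hne with ⟨h1, h2⟩ | ⟨h1, h2⟩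
                · exact h2 (hcon.1 h1)
                · exact absurd (hcon.2 h2) (not_lt.2 h1)
              calc |A r - c| ≤ 1 := h5
                _ = dis (0 < Mf W w v r) T v := h6.symm
                _ ≤ _ := Finset.single_le_sum (f := fun v => dis (0 < Mf W w v r) T v)
                    (fun v _ => dis_nonneg _ _ _) hv
  calc |∑ T ∈ W.powerset, (w T * ∫ r, A r * tl W r T ∂(Nm E ν) -
        w T * (if ∀ v ∈ S, (v ∈ T ↔ η v) then 1 else 0))|
      ≤ ∑ T ∈ W.powerset, |w T * ∫ r, A r * tl W r T ∂(Nm E ν) -
        w T * (if ∀ v ∈ S, (v ∈ T ↔ η v) then 1 else 0)| := Finset.abs_sum_le_sum_abs _ _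
    _ ≤ ∑ T ∈ W.powerset, ∑ v ∈ S, w T * ∫ r, dis (0 < Mf W w v r) T v * tl W r T ∂(Nm E ν) :=
        Finset.sum_le_sum e2
    _ = ∑ v ∈ S, ∑ T ∈ W.powerset, w T * ∫ r, dis (0 < Mf W w v r) T v * tl W r T ∂(Nm E ν) :=
        Finset.sum_comm
    _ ≤ ∑ v ∈ S, ∫ x, Real.sqrt (1 - x ^ 2) ∂ν :=
        Finset.sum_le_sum fun v hv => err_le hw hν (hS hv)
    _ = S.card * ∫ x, Real.sqrt (1 - x ^ 2) ∂ν := by
        rw [Finset.sum_const, nsmul_eq_mul]

end Read

end Crest.Agent.H14
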