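import Mathlib
import Crest.Agent.H14.Defs2
import Crest.Agent.H14.BP
import Crest.Agent.H14.Equi
import Crest.Agent.H14.Nu
import Crest.Agent.H14.Readout
import Crest.Agent.H14.Exact

/-! Row 160 (R2): assembly. The statements `Dq_zero` (closing of the differences) and `Rst_mart`
(martingale property) are hypotheses here, see `FinalHyp`. -/

set_option autoImplicit false

open MeasureTheory Filter Topology

namespace Crest.Agent.H14

open scoped Classical

/-! ### generic part -/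

section Gen

variable {E : Type*} {W : Finset E} {w : Finset E → ℝ}

instance instProbPm : IsProbabilityMeasure (Pm E) := by unfold Pm; infer_instance

theorem measurable_MfR (W : Finset E) (w : Finset E → ℝ) (k : ℕ) (v : E) :
    Measurable (fun ω : E → ℕ → unitInterval => Mf W w v (Rst W w k ω)) :=
  (measurable_Mf W w v).comp (measurable_Rst k)

theorem abs_MfR_le (hw : Pos W w) (k : ℕ) (v : E) (ω : E → ℕ → unitInterval) :
    |Mf W w v (Rst W w k ω)| ≤ 1 :=
  abs_Mf_le hw v fun u _ => (abs_Rst_lt hw k ω u).le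

/-- law of the evidence after `k + 1` rounds, real version -/
theorem law_Rst_real [Countable E] (hw : Pos W w) (k : ℕ) {F : (E → ℝ) → ℝ} (hF : Measurable F)
    (hd : DependsOn F (W : Set E)) (hF0 : ∀ r, 0 ≤ F r) :
    ∫ ω, F (Rst W w (k + 1) ω) ∂(Pm E) = ∫ r, F r * Lf W w r ∂(Nm E (nuR (k + 1))) := by
  obtain ⟨ρ, hν⟩ := null_nuR (k + 1)
  have h := law_Xst hw k 3 (fun r => ENNReal.ofReal (F r)) hF.ennreal_ofReal (by
    intro r r' hrr
    show ENNReal.ofReal (F r) = ENNReal.ofReal (F r')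
    rw [hd hrr])
  have hprob := hν.prob
  have hnn : ∀ᵐ r ∂(Nm E (nuR (k + 1))), 0 ≤ F r * Lf W w r := by
    filter_upwards [ae_bdd hν W] with r hr
    exact mul_nonneg (hF0 r) (Lf_nonneg hw fun v hv => (hr v hv).trans hν.lt.le)
  rw [integral_eq_lintegral_of_nonneg_ae (Eventually.of_forall fun ω => hF0 _)
    (hF.comp (measurable_Rst (k + 1))).aestronglyMeasurable,
    integral_eq_lintegral_of_nonneg_ae (f := fun r => F r * Lf W w r) hnn
      (hF.mul (measurable_Lf W w)).aestronglyMeasurable]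
  congr 1
  have h1 : ∫⁻ ω, ENNReal.ofReal (F (Rst W w (k + 1) ω)) ∂(Pm E) =
      ∫⁻ r, ENNReal.ofReal (F r) * ENNReal.ofReal (Lf W w r) ∂(Nm E (nuR (k + 1))) := h
  rw [h1]
  apply lintegral_congr
  intro r
  rw [ENNReal.ofReal_mul (hF0 r)]

theorem dep_Mf (v : E) : DependsOn (Mf W w v) (W : Set E) := by
  intro r r' h
  exact Mf_congr v fun u hu => h u hu

/-- the posterior mean after `k+1` rounds is close to `±1` -/
theorem E_one_sub [Countable E] (hw : Pos W w) (k : ℕ) {v : E} (hv : v ∈ W) :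
    ∫ ω, (1 - |Mf W w v (Rst W w (k + 1) ω)|) ∂(Pm E) ≤ 2 * eps (k + 1) := by
  obtain ⟨ρ, hν⟩ := null_nuR (k + 1)
  have := hν.prob
  have h := law_Rst_real hw k (F := fun r => max 0 (1 - |Mf W w v r|))
    (measurable_const.max (((measurable_Mf W w v).abs).const_sub 1))
    (by
      intro r r' hrr
      show max 0 (1 - |Mf W w v r|) = max 0 (1 - |Mf W w v r'|)
      rw [dep_Mf v hrr])
    (fun r => le_max_left _ _)
  have e1 : ∀ ω, max 0 (1 - |Mf W w v (Rst W w (k + 1) ω)|) =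
      1 - |Mf W w v (Rst W w (k + 1) ω)| := fun ω =>
    max_eq_right (by have := abs_MfR_le hw (k + 1) v ω; linarith)
  simp only [e1] at h
  rw [h]
  have e2 : ∫ r, max 0 (1 - |Mf W w v r|) * Lf W w r ∂(Nm E (nuR (k + 1))) =
      ∫ r, (1 - |Mf W w v r|) * Lf W w r ∂(Nm E (nuR (k + 1))) := by
    apply integral_congr_ae
    filter_upwards [ae_bdd hν W] with r hr
    rw [max_eq_right]
    have := abs_Mf_le hw v (r := r) fun u hu => (hr u hu).trans hν.lt.le
    linarith
  rw [e2]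
  exact EE_one_sub_abs hw hν hv

/-- law of the signs -/
theorem sign_law_R [Countable E] (hw : Pos W w) (k : ℕ) {S : Finset E} (hS : S ⊆ W)
    (η : E → Prop) :
    |(Pm E).real {ω | ∀ v ∈ S, ((0 < Mf W w v (Rst W w (k + 1) ω)) ↔ η v)} -
      ∑ T ∈ W.powerset, w T * (if ∀ v ∈ S, (v ∈ T ↔ η v) then 1 else 0)| ≤
      S.card * eps (k + 1) := by
  obtain ⟨ρ, hν⟩ := null_nuR (k + 1)
  have := hν.prob
  set A : (E → ℝ) → ℝ := fun r => if ∀ v ∈ S, ((0 < Mf W w v r) ↔ η v) then (1:ℝ) else 0 with hA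
  have hset : MeasurableSet {r : E → ℝ | ∀ v ∈ S, ((0 < Mf W w v r) ↔ η v)} := by
    have : {r : E → ℝ | ∀ v ∈ S, ((0 < Mf W w v r) ↔ η v)} =
        ⋂ v ∈ S, {r : E → ℝ | (0 < Mf W w v r) ↔ η v} := by
      ext r; simp
    rw [this]
    apply Finset.measurableSet_biInter
    intro v _
    by_cases h : η v
    · simp only [h, iff_true]
      exact measurableSet_lt measurable_const (measurable_Mf W w v)
    · simp only [h, iff_false, not_lt]
      exact measurableSet_le (measurable_Mf W w v) measurable_const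
  have hAm : Measurable A := Measurable.ite hset measurable_const measurable_const
  have h := law_Rst_real hw k (F := A) hAm
    (by
      intro r r' hrr
      simp only [hA]
      have : ∀ v, Mf W w v r = Mf W w v r' := fun v => dep_Mf v hrr
      simp only [this])
    (fun r => by simp only [hA]; split_ifs <;> norm_num)
  have e1 : ∫ ω, A (Rst W w (k + 1) ω) ∂(Pm E) =
      (Pm E).real {ω | ∀ v ∈ S, ((0 < Mf W w v (Rst W w (k + 1) ω)) ↔ η v)} := by
    have hset' : MeasurableSet {ω | ∀ v ∈ S, ((0 < Mf W w v (Rst W w (k + 1) ω)) ↔ η v)} :=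
      (measurable_Rst (W := W) (w := w) (k + 1)) hset
    rw [← integral_indicator_one hset']
    apply integral_congr_ae
    apply Eventually.of_forall
    intro ω
    simp only [hA, Set.indicator, Set.mem_setOf_eq, Pi.one_apply]
  rw [← e1, h]
  exact sign_law hw hν hS η

/-- consecutive posterior means (needs the martingale property) -/
theorem E_sq_diff (hw : Pos W w) (k : ℕ) {v : E} (F : (E → ℝ) → ℝ)
    (hFdef : F = fun r => max (-1) (min 1 (Mf W w v r)))
    (hmart : ∫ ω, Mf W w v (Rst W w (k + 1) ω) * F (Rst W w k ω) ∂(Pm E) =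
      ∫ ω, Mf W w v (Rst W w k ω) * F (Rst W w k ω) ∂(Pm E)) :
    ∫ ω, (Mf W w v (Rst W w (k + 1) ω) - Mf W w v (Rst W w k ω)) ^ 2 ∂(Pm E) ≤
      2 * ∫ ω, (1 - |Mf W w v (Rst W w k ω)|) ∂(Pm E) := by
  set m : (E → ℕ → unitInterval) → ℝ := fun ω => Mf W w v (Rst W w k ω) with hm
  set m' : (E → ℕ → unitInterval) → ℝ := fun ω => Mf W w v (Rst W w (k + 1) ω) with hm'
  have hmm : Measurable m := measurable_MfR W w k v
  have hmm' : Measurable m' := measurable_MfR W w (k + 1) v
  have hb : ∀ ω, |m ω| ≤ 1 := abs_MfR_le hw k v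
  have hb' : ∀ ω, |m' ω| ≤ 1 := abs_MfR_le hw (k + 1) v
  have hF : ∀ ω, F (Rst W w k ω) = m ω := by
    intro ω
    rw [hFdef]
    show max (-1) (min 1 (m ω)) = m ω
    have := abs_le.1 (hb ω)
    rw [min_eq_right this.2, max_eq_right this.1]
  simp only [hF] at hmart
  have hint : ∀ (f : (E → ℕ → unitInterval) → ℝ) (C : ℝ), Measurable f → (∀ ω, |f ω| ≤ C) →
      Integrable f (Pm E) := fun f C hf hC =>
    Integrable.of_bound hf.aestronglyMeasurable C (Eventually.of_forall fun ω => hC ω)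
  have hpr : ∀ a b : ℝ, |a| ≤ 1 → |b| ≤ 1 → |a * b| ≤ 1 := by
    intro a b ha hb
    rw [abs_mul]
    exact mul_le_one₀ ha (abs_nonneg _) hb
  have i1 : Integrable (fun ω => m' ω * m' ω) (Pm E) :=
    hint _ 1 (hmm'.mul hmm') fun ω => hpr _ _ (hb' ω) (hb' ω)
  have i2 : Integrable (fun ω => m' ω * m ω) (Pm E) :=
    hint _ 1 (hmm'.mul hmm) fun ω => hpr _ _ (hb' ω) (hb ω)
  have i3 : Integrable (fun ω => m ω * m ω) (Pm E) :=
    hint _ 1 (hmm.mul hmm) fun ω => hpr _ _ (hb ω) (hb ω)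
  have e1 : ∫ ω, (m' ω - m ω) ^ 2 ∂(Pm E) =
      ∫ ω, m' ω * m' ω ∂(Pm E) - ∫ ω, m ω * m ω ∂(Pm E) := by
    have : ∀ ω, (m' ω - m ω) ^ 2 = m' ω * m' ω - 2 * (m' ω * m ω) + m ω * m ω := by
      intro ω; ring
    simp only [this]
    have j1 : ∫ ω, (m' ω * m' ω - 2 * (m' ω * m ω) + m ω * m ω) ∂(Pm E) =
        ∫ ω, (m' ω * m' ω - 2 * (m' ω * m ω)) ∂(Pm E) + ∫ ω, m ω * m ω ∂(Pm E) :=
      integral_add (i1.sub (i2.const_mul 2)) i3
    have j2 : ∫ ω, (m' ω * m' ω - 2 * (m' ω * m ω)) ∂(Pm E) =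
        ∫ ω, m' ω * m' ω ∂(Pm E) - ∫ ω, 2 * (m' ω * m ω) ∂(Pm E) :=
      integral_sub i1 (i2.const_mul 2)
    have j3 : ∫ ω, m' ω * m ω ∂(Pm E) = ∫ ω, m ω * m ω ∂(Pm E) := hmart
    rw [j1, j2, integral_const_mul, j3]
    ring
  have e2 : ∫ ω, m' ω * m' ω ∂(Pm E) ≤ 1 := by
    calc ∫ ω, m' ω * m' ω ∂(Pm E) ≤ ∫ ω, (1:ℝ) ∂(Pm E) := by
          apply integral_mono i1 (integrable_const _)
          intro ω
          exact (le_abs_self _).trans (hpr _ _ (hb' ω) (hb' ω))
      _ = 1 := by simp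
  have e3 : 1 - ∫ ω, m ω * m ω ∂(Pm E) ≤ 2 * ∫ ω, (1 - |m ω|) ∂(Pm E) := by
    have h1 : 1 - ∫ ω, m ω * m ω ∂(Pm E) = ∫ ω, (1 - m ω * m ω) ∂(Pm E) := by
      rw [integral_sub (integrable_const _) i3]; simp
    rw [h1, ← integral_const_mul]
    apply integral_mono ((integrable_const _).sub i3)
    · apply Integrable.const_mul
      exact hint _ 2 (hmm.abs.const_sub 1) fun ω => by
        have := hb ω
        have h0 := abs_nonneg (m ω)
        rw [abs_le]; constructor <;> linarith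
    · intro ω
      show 1 - m ω * m ω ≤ 2 * (1 - |m ω|)
      have h0 := abs_nonneg (m ω)
      have h2 : m ω * m ω = |m ω| * |m ω| := (abs_mul_abs_self _).symm
      rw [h2]
      nlinarith [hb ω, sq_nonneg (1 - |m ω|)]
  rw [e1]
  linarith

end Gen

/-! ### local rule -/

section Loc

variable {V : Type*} {G : SimpleGraph V} [G.LocallyFinite] {lam : ℝ} {b : ℕ}

/-- posterior mean at `z` in the window `bl c R` after `k` rounds -/
noncomputable def Mr (G : SimpleGraph V) [G.LocallyFinite] (lam : ℝ) (k : ℕ) (c : V) (R : ℕ) (z : V)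
    (ω : V → ℕ → unitInterval) : ℝ :=
  MW G lam (bl G c R) z (Rst (bl G c R) (mu G lam (bl G c R)) k ω)

theorem Mr_iso (hT : G.IsTree) (g : G ≃g G) (k R : ℕ) (c z : V) (ω : V → ℕ → unitInterval) :
    Mr G lam k (g c) R (g z) ω = Mr G lam k c R z (ω ∘ g) := MWb_iso hT g k R c z ω

theorem measurable_Mr (k : ℕ) (c : V) (R : ℕ) (z : V) : Measurable (Mr G lam k c R z) :=
  measurable_MfR _ _ k z

theorem pos_bl (h : Tr G lam b) (c : V) (R : ℕ) : Pos (bl G c R) (mu G lam (bl G c R)) :=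
  mu_total h (isSub_bl h.tree c R) ⟨c, self_mem_bl h.tree c R⟩

theorem abs_Mr_le (h : Tr G lam b) (k : ℕ) (c : V) (R : ℕ) (z : V) (ω : V → ℕ → unitInterval) :
    |Mr G lam k c R z ω| ≤ 1 := abs_MfR_le (pos_bl h c R) k z ω

/-- radius `n` is good for the vertex `v` and round `k` -/
def good (G : SimpleGraph V) [G.LocallyFinite] (lam : ℝ) (k : ℕ) (v : V) (n : ℕ) : Prop :=
  ∀ (c₁ c₂ : V) (R₁ R₂ : ℕ), G.dist c₁ v + n ≤ R₁ → G.dist c₂ v + n ≤ R₂ →
    ∫ ω, (Mr G lam k c₁ R₁ v ω - Mr G lam k c₂ R₂ v ω) ^ 2 ∂(Pm V) ≤ (1 / 4) ^ k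

theorem integral_comp_perm (π : V ≃ V) (F : (V → ℕ → unitInterval) → ℝ) (hF : Measurable F) :
    ∫ ω, F (ω ∘ π) ∂(Pm V) = ∫ ω, F ω ∂(Pm V) := by
  have h := Measure.map_infinitePi_infinitePi_of_inj
    (P := fun _ : V => Measure.infinitePi (fun _ : ℕ => (volume : Measure unitInterval)))
    (f := π) π.injective
  have h1 : (Pm V).map (fun ω : V → ℕ → unitInterval => ω ∘ π) = Pm V := h
  conv_rhs => rw [← h1]
  rw [integral_map _ hF.aestronglyMeasurable]
  apply Measurable.aemeasurable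
  rw [measurable_pi_iff]
  intro v
  exact measurable_pi_apply _

theorem good_iso (hT : G.IsTree) (g : G ≃g G) {k : ℕ} {v : V} {n : ℕ} (h : good G lam k v n) :
    good G lam k (g v) n := by
  intro c₁ c₂ R₁ R₂ h1 h2
  have e1 : c₁ = g (g.symm c₁) := (g.apply_symm_apply c₁).symm
  have e2 : c₂ = g (g.symm c₂) := (g.apply_symm_apply c₂).symm
  have h3 := h (g.symm c₁) (g.symm c₂) R₁ R₂ (by
    rw [← dist_iso hT g, g.apply_symm_apply]; exact h1) (by
    rw [← dist_iso hT g, g.apply_symm_apply]; exact h2)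
  rw [e1, e2]
  simp only [Mr_iso hT]
  have h4 := integral_comp_perm g.toEquiv (fun ω => (Mr G lam k (g.symm c₁) R₁ v ω -
    Mr G lam k (g.symm c₂) R₂ v ω) ^ 2)
    (((measurable_Mr k _ R₁ v).sub (measurable_Mr k _ R₂ v)).pow_const 2)
  exact h4.trans_le h3

theorem good_iff (hT : G.IsTree) (g : G ≃g G) {k : ℕ} {v : V} {n : ℕ} :
    good G lam k (g v) n ↔ good G lam k v n := by
  constructor
  · intro h
    have := good_iso hT g.symm h
    rwa [g.symm_apply_apply] at this
  · exact good_iso hT g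

/-- the radius used at the vertex `v` in round `k` -/
noncomputable def Nr (G : SimpleGraph V) [G.LocallyFinite] (lam : ℝ) (k : ℕ) (v : V) : ℕ :=
  sInf {n | good G lam k v n}

theorem Nr_iso (hT : G.IsTree) (g : G ≃g G) (k : ℕ) (v : V) : Nr G lam k (g v) = Nr G lam k v := by
  unfold Nr
  simp only [good_iff hT g]

/-- local approximation of the posterior mean -/
noncomputable def Mk (G : SimpleGraph V) [G.LocallyFinite] (lam : ℝ) (k : ℕ) (v : V)
    (ω : V → ℕ → unitInterval) : ℝ := Mr G lam k v (Nr G lam k v) v ω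

theorem Mk_iso (hT : G.IsTree) (g : G ≃g G) (k : ℕ) (v : V) (ω : V → ℕ → unitInterval) :
    Mk G lam k (g v) ω = Mk G lam k v (ω ∘ g) := by
  unfold Mk
  rw [Nr_iso hT g, Mr_iso hT]

theorem measurable_Mk (k : ℕ) (v : V) : Measurable (Mk G lam k v) := measurable_Mr k v _ v

/-- the spin field -/
noncomputable def Sf (G : SimpleGraph V) [G.LocallyFinite] (lam : ℝ) (ω : V → ℕ → unitInterval) :
    V → Bool := fun v => decide (∃ K : ℕ, ∀ k, K ≤ k → 0 < Mk G lam k v ω)

theorem Sf_iso (hT : G.IsTree) (g : G ≃g G) (ω : V → ℕ → unitInterval) :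
    Sf G lam (ω ∘ g) = Sf G lam ω ∘ g := by
  funext v
  unfold Sf
  simp only [Function.comp_apply, Mk_iso hT g]

theorem measurable_Sf : Measurable (Sf G lam) := by
  rw [measurable_pi_iff]
  intro v
  unfold Sf
  have hset : MeasurableSet {ω | ∃ K : ℕ, ∀ k, K ≤ k → 0 < Mk G lam k v ω} := by
    have : {ω | ∃ K : ℕ, ∀ k, K ≤ k → 0 < Mk G lam k v ω} =
        ⋃ K : ℕ, ⋂ k : ℕ, ⋂ _ : K ≤ k, {ω | 0 < Mk G lam k v ω} := by
      ext ω; simp
    rw [this]
    apply MeasurableSet.iUnion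
    intro K
    apply MeasurableSet.iInter
    intro k
    apply MeasurableSet.iInter
    intro _
    exact measurableSet_lt measurable_const (measurable_Mk k v)
  exact measurable_to_bool (by
    have : (fun ω => decide (∃ K : ℕ, ∀ k, K ≤ k → 0 < Mk G lam k v ω)) ⁻¹' {true} =
        {ω | ∃ K : ℕ, ∀ k, K ≤ k → 0 < Mk G lam k v ω} := by
      ext ω; simp
    rw [this]
    exact hset)

/-- the two inputs from the analysis -/
structure FinalHyp (G : SimpleGraph V) [G.LocallyFinite] (lam : ℝ) (b : ℕ) : Prop where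
  tr : Tr G lam b
  ex : ∀ (k : ℕ) (v : V), ∃ n, good G lam k v n
  mart : ∀ (W : Finset V) (w : Finset V → ℝ), Pos W w → ∀ (k : ℕ) (x : V) (F : (V → ℝ) → ℝ),
    Measurable F → (∀ r, |F r| ≤ 1) →
    ∫ ω, Mf W w x (Rst W w (k + 1) ω) * F (Rst W w k ω) ∂(Pm V) =
      ∫ ω, Mf W w x (Rst W w k ω) * F (Rst W w k ω) ∂(Pm V)

variable (H : FinalHyp G lam b)

include H

theorem good_Nr (k : ℕ) (v : V) : good G lam k v (Nr G lam k v) :=
  Nat.sInf_mem (s := {n | good G lam k v n}) (H.ex k v)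

theorem cmp (k : ℕ) (c v : V) (R : ℕ) (hR : G.dist c v + Nr G lam k v ≤ R) :
    ∫ ω, (Mk G lam k v ω - Mr G lam k c R v ω) ^ 2 ∂(Pm V) ≤ (1 / 4) ^ k :=
  good_Nr H k v v c _ R (by simp) hR

omit H in
theorem int_bd {f : (V → ℕ → unitInterval) → ℝ} {C : ℝ} (hf : Measurable f)
    (hC : ∀ ω, |f ω| ≤ C) : Integrable f (Pm V) :=
  Integrable.of_bound hf.aestronglyMeasurable C (Eventually.of_forall fun ω => hC ω)

theorem abs_Mk_le (k : ℕ) (v : V) (ω : V → ℕ → unitInterval) : |Mk G lam k v ω| ≤ 1 :=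
  abs_Mr_le H.tr k v _ v ω

omit H in
theorem int_sq {f f' : (V → ℕ → unitInterval) → ℝ} (hf : Measurable f)
    (hf' : Measurable f') (h1 : ∀ ω, |f ω| ≤ 1) (h2 : ∀ ω, |f' ω| ≤ 1) :
    Integrable (fun ω => (f ω - f' ω) ^ 2) (Pm V) := by
  apply int_bd (C := 4) ((hf.sub hf').pow_const 2)
  intro ω
  show |(f ω - f' ω) ^ 2| ≤ 4
  rw [abs_pow]
  have : |f ω - f' ω| ≤ 2 := (abs_sub _ _).trans (by linarith [h1 ω, h2 ω])
  nlinarith [abs_nonneg (f ω - f' ω)]

omit H in
theorem int_abs {f : (V → ℕ → unitInterval) → ℝ} (hf : Measurable f) (h1 : ∀ ω, |f ω| ≤ 1) :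
    Integrable (fun ω => 1 - |f ω|) (Pm V) := by
  apply int_bd (C := 2) (hf.abs.const_sub 1)
  intro ω
  have := h1 ω
  have h0 := abs_nonneg (f ω)
  rw [abs_le]; constructor <;> linarith

/-- the local approximations are close to `±1` -/
theorem E_Mr [Countable V] (k : ℕ) {c v : V} {R : ℕ} (hv : v ∈ bl G c R) :
    ∫ ω, (1 - |Mr G lam (k + 1) c R v ω|) ∂(Pm V) ≤ 2 * eps (k + 1) :=
  E_one_sub (pos_bl H.tr c R) k hv

theorem E_Mk [Countable V] (k : ℕ) (v : V) :
    ∫ ω, (1 - |Mk G lam (k + 1) v ω|) ∂(Pm V) ≤ 2 * eps (k + 1) :=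
  E_Mr H k (self_mem_bl H.tr.tree v _)

theorem E_step [Countable V] (k : ℕ) {c v : V} {R : ℕ} (hv : v ∈ bl G c R) :
    ∫ ω, (Mr G lam (k + 2) c R v ω - Mr G lam (k + 1) c R v ω) ^ 2 ∂(Pm V) ≤ 4 * eps (k + 1) := by
  have h1 := E_sq_diff (pos_bl H.tr c R) (k + 1) (v := v)
    (fun r => max (-1) (min 1 (Mf (bl G c R) (mu G lam (bl G c R)) v r))) rfl
    (H.mart _ _ (pos_bl H.tr c R) (k + 1) v _
      (measurable_const.max (measurable_const.min (measurable_Mf _ _ v)))
      (fun r => by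
        rw [abs_le]
        exact ⟨le_max_left _ _, max_le (by norm_num) (min_le_left _ _)⟩))
  have h2 := E_Mr H k hv
  have h3 : ∫ ω, (Mr G lam (k + 2) c R v ω - Mr G lam (k + 1) c R v ω) ^ 2 ∂(Pm V) ≤
      2 * ∫ ω, (1 - |Mr G lam (k + 1) c R v ω|) ∂(Pm V) := h1
  linarith

omit H [G.LocallyFinite] in
/-- sign comparison -/
theorem sign_cmp {a b : ℝ} (ha : |a| ≤ 1) (h : ¬ ((0 < a) ↔ (0 < b))) :
    1 ≤ 2 * (1 - |a|) + 4 * (a - b) ^ 2 := by
  have h0 : |a| ≤ |a - b| := by
    by_cases h1 : 0 < a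
    · have h2 : ¬ 0 < b := fun h2 => h ⟨fun _ => h2, fun _ => h1⟩
      rw [abs_of_pos h1, abs_of_nonneg (by linarith [not_lt.1 h2])]
      linarith [not_lt.1 h2]
    · have h2 : 0 < b := by
        by_contra h2
        exact h ⟨fun h3 => absurd h3 h1, fun h3 => absurd h3 h2⟩
      rw [abs_of_nonpos (not_lt.1 h1), abs_of_nonpos (by linarith [not_lt.1 h1])]
      linarith
  have h3 : |a| ^ 2 ≤ (a - b) ^ 2 := by
    rw [← sq_abs (a - b)]
    exact pow_le_pow_left₀ (abs_nonneg _) h0 2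
  nlinarith [sq_nonneg (|a| - 1 / 4), abs_nonneg a]

omit H in
/-- probability that two signs differ -/
theorem prob_sign {f f' : (V → ℕ → unitInterval) → ℝ} (hf : Measurable f)
    (hf' : Measurable f') (h1 : ∀ ω, |f ω| ≤ 1) (h2 : ∀ ω, |f' ω| ≤ 1) :
    (Pm V).real {ω | ¬ ((0 < f ω) ↔ (0 < f' ω))} ≤
      2 * ∫ ω, (1 - |f ω|) ∂(Pm V) + 4 * ∫ ω, (f ω - f' ω) ^ 2 ∂(Pm V) := by
  have hset : MeasurableSet {ω | ¬ ((0 < f ω) ↔ (0 < f' ω))} := by
    have a1 : MeasurableSet {ω | 0 < f ω} := measurableSet_lt measurable_const hf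
    have a2 : MeasurableSet {ω | 0 < f' ω} := measurableSet_lt measurable_const hf'
    have : {ω | ¬ ((0 < f ω) ↔ (0 < f' ω))} =
        ({ω | 0 < f ω} \ {ω | 0 < f' ω}) ∪ ({ω | 0 < f' ω} \ {ω | 0 < f ω}) := by
      ext ω
      simp only [Set.mem_setOf_eq, Set.mem_union, Set.mem_diff]
      tauto
    rw [this]
    exact (a1.diff a2).union (a2.diff a1)
  rw [← integral_indicator_one hset, ← integral_const_mul, ← integral_const_mul,
    ← integral_add ((int_abs hf h1).const_mul 2) ((int_sq hf hf' h1 h2).const_mul 4)]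
  apply integral_mono
  · exact (integrable_const (1:ℝ)).indicator hset
  · exact ((int_abs hf h1).const_mul 2).add ((int_sq hf hf' h1 h2).const_mul 4)
  · intro ω
    simp only [Set.indicator, Set.mem_setOf_eq, Pi.one_apply]
    split_ifs with h
    · have := h1 ω
      have := sq_nonneg (f ω - f' ω)
      linarith
    · exact sign_cmp (h1 ω) h

/-- consecutive local rules -/
theorem prob_step [Countable V] (k : ℕ) (v : V) :
    (Pm V).real {ω | ¬ ((0 < Mk G lam (k + 1) v ω) ↔ (0 < Mk G lam (k + 2) v ω))} ≤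
      52 * eps (k + 1) + 24 * (1 / 4) ^ (k + 1) := by
  have hT := H.tr.tree
  have h0 := prob_sign (measurable_Mk (G := G) (lam := lam) (k + 1) v)
    (measurable_Mk (k + 2) v) (abs_Mk_le H (k + 1) v) (abs_Mk_le H (k + 2) v)
  have h1 := E_Mk H k v
  set R := Nr G lam (k + 1) v + Nr G lam (k + 2) v with hR
  have c1 := cmp H (k + 1) v v R (by simp [hR])
  have c2 := cmp H (k + 2) v v R (by simp [hR])
  have c3 := E_step H k (c := v) (v := v) (R := R) (self_mem_bl hT v R)
  have i1 := int_sq (measurable_Mk (G := G) (lam := lam) (k + 1) v) (measurable_Mr (k + 1) v R v)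
    (abs_Mk_le H (k + 1) v) (abs_Mr_le H.tr (k + 1) v R v)
  have i2 := int_sq (measurable_Mk (G := G) (lam := lam) (k + 2) v) (measurable_Mr (k + 2) v R v)
    (abs_Mk_le H (k + 2) v) (abs_Mr_le H.tr (k + 2) v R v)
  have i3 := int_sq (measurable_Mr (G := G) (lam := lam) (k + 2) v R v)
    (measurable_Mr (k + 1) v R v)
    (abs_Mr_le H.tr (k + 2) v R v) (abs_Mr_le H.tr (k + 1) v R v)
  have h2 : ∫ ω, (Mk G lam (k + 1) v ω - Mk G lam (k + 2) v ω) ^ 2 ∂(Pm V) ≤
      3 * ((1 / 4) ^ (k + 1) + 4 * eps (k + 1) + (1 / 4) ^ (k + 2)) := by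
    calc ∫ ω, (Mk G lam (k + 1) v ω - Mk G lam (k + 2) v ω) ^ 2 ∂(Pm V)
        ≤ ∫ ω, 3 * ((Mk G lam (k + 1) v ω - Mr G lam (k + 1) v R v ω) ^ 2 +
            (Mr G lam (k + 2) v R v ω - Mr G lam (k + 1) v R v ω) ^ 2 +
            (Mk G lam (k + 2) v ω - Mr G lam (k + 2) v R v ω) ^ 2) ∂(Pm V) := by
          apply integral_mono
          · exact int_sq (measurable_Mk (k + 1) v) (measurable_Mk (k + 2) v)
              (abs_Mk_le H (k + 1) v) (abs_Mk_le H (k + 2) v)
          · exact ((i1.add i3).add i2).const_mul 3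
          · intro ω
            show (Mk G lam (k + 1) v ω - Mk G lam (k + 2) v ω) ^ 2 ≤
              3 * ((Mk G lam (k + 1) v ω - Mr G lam (k + 1) v R v ω) ^ 2 +
                (Mr G lam (k + 2) v R v ω - Mr G lam (k + 1) v R v ω) ^ 2 +
                (Mk G lam (k + 2) v ω - Mr G lam (k + 2) v R v ω) ^ 2)
            set a := Mk G lam (k + 1) v ω - Mr G lam (k + 1) v R v ω
            set c := Mr G lam (k + 2) v R v ω - Mr G lam (k + 1) v R v ω
            set d := Mk G lam (k + 2) v ω - Mr G lam (k + 2) v R v ω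
            have e : Mk G lam (k + 1) v ω - Mk G lam (k + 2) v ω = a - c - d := by
              simp only [a, c, d]; ring
            rw [e]
            nlinarith [sq_nonneg (a + c), sq_nonneg (a + d), sq_nonneg (c - d)]
      _ = 3 * (∫ ω, (Mk G lam (k + 1) v ω - Mr G lam (k + 1) v R v ω) ^ 2 ∂(Pm V) +
            ∫ ω, (Mr G lam (k + 2) v R v ω - Mr G lam (k + 1) v R v ω) ^ 2 ∂(Pm V) +
            ∫ ω, (Mk G lam (k + 2) v ω - Mr G lam (k + 2) v R v ω) ^ 2 ∂(Pm V)) := by
          rw [integral_const_mul]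
          congr 1
          have j1 := integral_add (i1.add i3) i2
          have j2 := integral_add i1 i3
          simp only [Pi.add_apply] at j1 j2
          rw [j1, j2]
      _ ≤ _ := by linarith
  have h3 : ((1:ℝ) / 4) ^ (k + 2) ≤ (1 / 4) ^ (k + 1) := by
    apply pow_le_pow_of_le_one <;> norm_num
  linarith

/-- the local rules stabilise -/
theorem ae_stab [Countable V] (v : V) : ∀ᵐ ω ∂(Pm V), ∀ᶠ k in atTop,
    ((0 < Mk G lam k v ω) ↔ (0 < Mk G lam (k + 1) v ω)) := by
  set s : ℕ → Set (V → ℕ → unitInterval) := fun k =>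
    {ω | ¬ ((0 < Mk G lam (k + 1) v ω) ↔ (0 < Mk G lam (k + 2) v ω))} with hs
  have hsum : ∑' k, (Pm V) (s k) ≠ ⊤ := by
    have h1 : ∀ k, (Pm V) (s k) ≤ ENNReal.ofReal (52 * eps (k + 1) + 24 * (1 / 4) ^ (k + 1)) := by
      intro k
      have := prob_step H k v
      rw [← ENNReal.ofReal_toReal (measure_ne_top (Pm V) (s k))]
      exact ENNReal.ofReal_le_ofReal this
    apply ne_top_of_le_ne_top _ (ENNReal.tsum_le_tsum h1)
    rw [← ENNReal.ofReal_tsum_of_nonneg]
    · exact ENNReal.ofReal_ne_top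
    · intro k
      have := eps_nonneg (k + 1)
      positivity
    · apply Summable.add
      · exact ((summable_nat_add_iff 1).2 summable_eps).mul_left _
      · apply Summable.mul_left
        exact (summable_nat_add_iff 1).2
          (summable_geometric_of_lt_one (by norm_num) (by norm_num))
  filter_upwards [ae_eventually_notMem hsum] with ω hω
  obtain ⟨K, hK⟩ := eventually_atTop.1 hω
  rw [eventually_atTop]
  refine ⟨K + 1, fun k hk => ?_⟩
  obtain ⟨j, rfl⟩ : ∃ j, k = j + 1 := ⟨k - 1, by omega⟩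
  have h1 := hK j (by omega)
  simp only [hs, Set.mem_setOf_eq, not_not] at h1
  exact h1

omit H in
theorem ev_Sf {v : V} {ω : V → ℕ → unitInterval}
    (h : ∀ᶠ k in atTop, ((0 < Mk G lam k v ω) ↔ (0 < Mk G lam (k + 1) v ω))) :
    ∀ᶠ k in atTop, ((0 < Mk G lam k v ω) ↔ Sf G lam ω v = true) := by
  obtain ⟨K, hK⟩ := eventually_atTop.1 h
  have h1 : ∀ j : ℕ, ((0 < Mk G lam (K + j) v ω) ↔ (0 < Mk G lam K v ω)) := by
    intro j
    induction j with
    | zero => rfl
    | succ j ih => rw [← ih]; exact (hK (K + j) (by omega)).symm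
  have h2 : Sf G lam ω v = true ↔ 0 < Mk G lam K v ω := by
    unfold Sf
    rw [decide_eq_true_iff]
    constructor
    · rintro ⟨K', hK'⟩
      have := hK' (K + K') (by omega)
      exact (h1 K').1 this
    · intro h3
      refine ⟨K, fun k hk => ?_⟩
      obtain ⟨j, rfl⟩ := Nat.exists_eq_add_of_le hk
      exact (h1 j).2 h3
  rw [eventually_atTop]
  refine ⟨K, fun k hk => ?_⟩
  obtain ⟨j, rfl⟩ := Nat.exists_eq_add_of_le hk
  rw [h2, h1 j]

omit H in
theorem measurableSet_signs {f : V → (V → ℕ → unitInterval) → ℝ} (hf : ∀ v, Measurable (f v))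
    (S : Finset V) (η : V → Prop) :
    MeasurableSet {ω | ∀ v ∈ S, ((0 < f v ω) ↔ η v)} := by
  have : {ω | ∀ v ∈ S, ((0 < f v ω) ↔ η v)} = ⋂ v ∈ S, {ω | (0 < f v ω) ↔ η v} := by
    ext r; simp
  rw [this]
  apply Finset.measurableSet_biInter
  intro v _
  by_cases h : η v
  · simp only [h, iff_true]
    exact measurableSet_lt measurable_const (hf v)
  · simp only [h, iff_false, not_lt]
    exact measurableSet_le (hf v) measurable_const

omit H in
theorem real_diff_le {f f' : V → (V → ℕ → unitInterval) → ℝ} (S : Finset V) (η : V → Prop) :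
    |(Pm V).real {ω | ∀ v ∈ S, ((0 < f v ω) ↔ η v)} -
      (Pm V).real {ω | ∀ v ∈ S, ((0 < f' v ω) ↔ η v)}| ≤
      ∑ v ∈ S, (Pm V).real {ω | ¬ ((0 < f v ω) ↔ (0 < f' v ω))} := by
  set D : Set (V → ℕ → unitInterval) := ⋃ v ∈ S, {ω | ¬ ((0 < f v ω) ↔ (0 < f' v ω))} with hD
  have hDle : (Pm V).real D ≤ ∑ v ∈ S, (Pm V).real {ω | ¬ ((0 < f v ω) ↔ (0 < f' v ω))} :=
    measureReal_biUnion_finset_le S _
  have key : ∀ g g' : V → (V → ℕ → unitInterval) → ℝ,
      (∀ v ∈ S, ∀ ω, ¬ ((0 < g v ω) ↔ (0 < g' v ω)) → ω ∈ D) →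
      (Pm V).real {ω | ∀ v ∈ S, ((0 < g v ω) ↔ η v)} ≤
        (Pm V).real {ω | ∀ v ∈ S, ((0 < g' v ω) ↔ η v)} + (Pm V).real D := by
    intro g g' hg
    calc (Pm V).real {ω | ∀ v ∈ S, ((0 < g v ω) ↔ η v)}
        ≤ (Pm V).real ({ω | ∀ v ∈ S, ((0 < g' v ω) ↔ η v)} ∪ D) := by
          apply measureReal_mono _ (measure_ne_top _ _)
          intro ω hω
          by_cases h : ∀ v ∈ S, ((0 < g v ω) ↔ (0 < g' v ω))
          · left
            intro v hv
            rw [← h v hv]
            exact hω v hv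
          · right
            push Not at h
            obtain ⟨v, hv, hne⟩ := h
            apply hg v hv ω
            intro hcon
            rcases hne with ⟨h1, h2⟩ | ⟨h1, h2⟩
            · exact absurd (hcon.1 h1) (not_lt.2 h2)
            · exact absurd (hcon.2 h2) (not_lt.2 h1)
      _ ≤ _ := measureReal_union_le _ _
  have k1 := key f f' (by
    intro v hv ω h
    simp only [hD, Set.mem_iUnion, Set.mem_setOf_eq]
    exact ⟨v, hv, h⟩)
  have k2 := key f' f (by
    intro v hv ω h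
    simp only [hD, Set.mem_iUnion, Set.mem_setOf_eq]
    exact ⟨v, hv, fun hcon => h hcon.symm⟩)
  rw [abs_le]
  constructor <;> linarith

/-- the law of the local rules on a subtree is close to the Ising weight -/
theorem law_k [Countable V] (k : ℕ) {S : Finset V} (hS : IsSub G S) (hne : S.Nonempty)
    (η : V → Prop) :
    |(Pm V).real {ω | ∀ v ∈ S, ((0 < Mk G lam (k + 1) v ω) ↔ η v)} -
      mu G lam S (S.filter η)| ≤ S.card * (5 * eps (k + 1) + 4 * (1 / 4) ^ (k + 1)) := by
  have hT := H.tr.tree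
  obtain ⟨c, hc⟩ := hne
  set R := ∑ v ∈ S, (G.dist c v + Nr G lam (k + 1) v) with hR
  have hRv : ∀ v ∈ S, G.dist c v + Nr G lam (k + 1) v ≤ R := fun v hv =>
    Finset.single_le_sum (f := fun v => G.dist c v + Nr G lam (k + 1) v)
      (fun _ _ => Nat.zero_le _) hv
  have hSW : S ⊆ bl G c R := by
    intro v hv
    rw [mem_bl hT]
    have := hRv v hv
    omega
  have h1 := real_diff_le (f := Mk G lam (k + 1)) (f' := fun v => Mr G lam (k + 1) c R v) S η
  have h2 : ∀ v ∈ S, (Pm V).real {ω | ¬ ((0 < Mk G lam (k + 1) v ω) ↔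
      (0 < Mr G lam (k + 1) c R v ω))} ≤ 4 * eps (k + 1) + 4 * (1 / 4) ^ (k + 1) := by
    intro v hv
    have h3 := prob_sign (measurable_Mk (G := G) (lam := lam) (k + 1) v)
      (measurable_Mr (k + 1) c R v) (abs_Mk_le H (k + 1) v) (abs_Mr_le H.tr (k + 1) c R v)
    have h4 := E_Mk H k v
    have h5 := cmp H (k + 1) c v R (hRv v hv)
    linarith
  have h3 := sign_law_R (pos_bl H.tr c R) k hSW η
  have h4 : ∑ T ∈ (bl G c R).powerset, mu G lam (bl G c R) T *
      (if ∀ v ∈ S, (v ∈ T ↔ η v) then 1 else 0) = mu G lam S (S.filter η) := by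
    rw [mu_consistent H.tr hS ⟨c, hc⟩ (isSub_bl hT c R) hSW (Finset.filter_subset η S),
      Finset.sum_filter]
    apply Finset.sum_congr rfl
    intro T _
    have : (∀ v ∈ S, (v ∈ T ↔ η v)) ↔ T ∩ S = S.filter η := by
      constructor
      · intro h
        ext v
        rw [Finset.mem_inter, Finset.mem_filter]
        constructor
        · rintro ⟨h5, h6⟩; exact ⟨h6, (h v h6).1 h5⟩
        · rintro ⟨h5, h6⟩; exact ⟨(h v h5).2 h6, h5⟩
      · intro h v hv
        have h5 : v ∈ T ∩ S ↔ v ∈ S.filter η := by rw [h]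
        rw [Finset.mem_inter, Finset.mem_filter] at h5
        tauto
    simp only [this, mul_ite, mul_one, mul_zero]
  rw [h4] at h3
  have h5 : ∑ v ∈ S, (Pm V).real {ω | ¬ ((0 < Mk G lam (k + 1) v ω) ↔
      (0 < Mr G lam (k + 1) c R v ω))} ≤ S.card * (4 * eps (k + 1) + 4 * (1 / 4) ^ (k + 1)) := by
    calc _ ≤ ∑ v ∈ S, (4 * eps (k + 1) + 4 * (1 / 4) ^ (k + 1)) := Finset.sum_le_sum h2
      _ = _ := by rw [Finset.sum_const, nsmul_eq_mul]
  have h6 : |(Pm V).real {ω | ∀ v ∈ S, ((0 < Mr G lam (k + 1) c R v ω) ↔ η v)} -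
      mu G lam S (S.filter η)| ≤ S.card * eps (k + 1) := h3
  have h7 := abs_sub_le ((Pm V).real {ω | ∀ v ∈ S, ((0 < Mk G lam (k + 1) v ω) ↔ η v)})
    ((Pm V).real {ω | ∀ v ∈ S, ((0 < Mr G lam (k + 1) c R v ω) ↔ η v)})
    (mu G lam S (S.filter η))
  have h8 : (S.card : ℝ) * (5 * eps (k + 1) + 4 * (1 / 4) ^ (k + 1)) =
      S.card * (4 * eps (k + 1) + 4 * (1 / 4) ^ (k + 1)) + S.card * eps (k + 1) := by ring
  rw [h8]
  linarith

/-- exact law of the spin field -/
theorem law_Sf [Countable V] {S : Finset V} (hS : IsSub G S) (hne : S.Nonempty)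
    (η : V → Bool) :
    (Pm V).real {ω | ∀ v ∈ S, Sf G lam ω v = η v} =
      mu G lam S (S.filter (fun v => η v = true)) := by
  have h1 : Tendsto (fun k => (Pm V) {ω | ∀ v ∈ S, ((0 < Mk G lam k v ω) ↔ η v = true)}) atTop
      (𝓝 ((Pm V) {ω | ∀ v ∈ S, Sf G lam ω v = η v})) := by
    apply tendsto_measure_of_ae_tendsto_indicator_of_isFiniteMeasure atTop
    · have : {ω | ∀ v ∈ S, Sf G lam ω v = η v} = ⋂ v ∈ S, {ω | Sf G lam ω v = η v} := by
        ext; simp
      rw [this]
      apply Finset.measurableSet_biInter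
      intro v _
      have hm : Measurable (fun ω => Sf G lam ω v) :=
        (measurable_pi_apply v).comp measurable_Sf
      exact hm (measurableSet_singleton (η v))
    · intro k
      exact measurableSet_signs (fun v => measurable_Mk k v) S _
    · have h2 : ∀ᵐ ω ∂(Pm V), ∀ v ∈ S, ∀ᶠ k in atTop,
          ((0 < Mk G lam k v ω) ↔ (0 < Mk G lam (k + 1) v ω)) := by
        rw [Filter.eventually_all_finset]
        intro v _
        exact ae_stab H v
      filter_upwards [h2] with ω hω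
      have h3 : ∀ᶠ k in atTop, ∀ v ∈ S, ((0 < Mk G lam k v ω) ↔ Sf G lam ω v = true) := by
        rw [Filter.eventually_all_finset]
        intro v hv
        exact ev_Sf (hω v hv)
      filter_upwards [h3] with k hk
      constructor
      · intro h v hv
        have h4 := h v hv
        rw [hk v hv] at h4
        exact Bool.eq_iff_iff.2 h4
      · intro h v hv
        rw [hk v hv, h v hv]
  have h2 : Tendsto (fun k => (Pm V).real {ω | ∀ v ∈ S, ((0 < Mk G lam k v ω) ↔ η v = true)}) atTop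
      (𝓝 ((Pm V).real {ω | ∀ v ∈ S, Sf G lam ω v = η v})) :=
    (ENNReal.tendsto_toReal (measure_ne_top _ _)).comp h1
  have h3 : Tendsto (fun k => (Pm V).real {ω | ∀ v ∈ S, ((0 < Mk G lam (k + 1) v ω) ↔ η v = true)})
      atTop (𝓝 (mu G lam S (S.filter (fun v => η v = true)))) := by
    rw [tendsto_iff_dist_tendsto_zero]
    apply squeeze_zero (fun _ => dist_nonneg) (g := fun k =>
      (S.card : ℝ) * (5 * eps (k + 1) + 4 * (1 / 4) ^ (k + 1)))
    · intro k
      rw [Real.dist_eq]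
      have h5 := law_k H k hS hne (fun v => η v = true)
      have h6 : (@Finset.filter V (fun v => η v = true)
          (fun a => Classical.propDecidable (η a = true)) S) = S.filter (fun v => η v = true) := by
        ext v; simp only [Finset.mem_filter]
      rw [h6] at h5
      exact h5
    · have e1 : Tendsto (fun k => eps (k + 1)) atTop (𝓝 0) :=
        (tendsto_add_atTop_iff_nat 1).2 tendsto_eps
      have e2 : Tendsto (fun k : ℕ => ((1:ℝ) / 4) ^ (k + 1)) atTop (𝓝 0) :=
        (tendsto_add_atTop_iff_nat 1).2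
          (tendsto_pow_atTop_nhds_zero_of_lt_one (by norm_num) (by norm_num))
      have := ((e1.const_mul 5).add (e2.const_mul 4)).const_mul (S.card : ℝ)
      simpa using this
  exact tendsto_nhds_unique ((tendsto_add_atTop_iff_nat 1).2 h2) h3

end Loc

/-! ### the factor map -/

section Fact

variable {V : Type*} {G : SimpleGraph V} {lam : ℝ} {b : ℕ}

theorem isingWeight_congr (S : Finset V) {η η' : V → Bool} (h : ∀ v ∈ S, η v = η' v) :
    Crest.ProbabilityR.TreeIsing.isingWeight G lam S η =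
      Crest.ProbabilityR.TreeIsing.isingWeight G lam S η' := by
  unfold Crest.ProbabilityR.TreeIsing.isingWeight
  congr 1
  apply Finset.prod_congr rfl
  intro e he
  induction e using Sym2.ind with
  | _ a b =>
    simp only [Finset.mem_filter, Finset.mk_mem_sym2_iff] at he
    simp only [Sym2.map_mk, Sym2.mk_isDiag_iff]
    rw [h a he.1.1, h b he.1.2]

theorem factor [G.LocallyFinite] (H : FinalHyp G lam b) :
    ∃ Φ : (V → unitInterval) → (V → Bool),
      Measurable Φ ∧
      (∀ (g : G ≃g G) (x : V → unitInterval), Φ (x ∘ ⇑g) = Φ x ∘ ⇑g) ∧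
      ∀ (S : Finset V) (η : V → Bool), (G.induce (S : Set V)).Connected →
        (Crest.ProbabilityR.Labels.labelMeasure V).map Φ {σ | ∀ v ∈ S, σ v = η v} =
          ENNReal.ofReal (Crest.ProbabilityR.TreeIsing.isingWeight G lam S η) := by
  have hT := H.tr.tree
  have : Countable V := countable_of_isTree hT
  obtain ⟨f, hfm, hf⟩ : ∃ f : unitInterval → (ℕ → unitInterval), Measurable f ∧
      (volume : Measure unitInterval).map f =
        Measure.infinitePi (fun _ : ℕ => (volume : Measure unitInterval)) :=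
    Measure.exists_measurable_map_eq _
  have hlab : Measurable (fun (x : V → unitInterval) (v : V) => f (x v)) := by
    rw [measurable_pi_iff]
    intro v
    exact hfm.comp (measurable_pi_apply v)
  have hQ : (Crest.ProbabilityR.Labels.labelMeasure V).map
      (fun (x : V → unitInterval) (v : V) => f (x v)) = Pm V := by
    unfold Crest.ProbabilityR.Labels.labelMeasure
    rw [Measure.infinitePi_map_pi _ (fun _ => hfm)]
    simp only [hf]
    rfl
  refine ⟨fun x => Sf G lam (fun v => f (x v)), measurable_Sf.comp hlab, ?_, ?_⟩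
  · intro g x
    exact Sf_iso hT g (fun v => f (x v))
  · intro S η hconn
    have hS : IsSub G S := isSub_of_connected hT hconn
    have hne : S.Nonempty := by
      obtain ⟨v, hv⟩ := hconn.nonempty
      exact ⟨v, hv⟩
    have h1 := law_Sf H hS hne η
    have hset : MeasurableSet {σ : V → Bool | ∀ v ∈ S, σ v = η v} := by
      have : {σ : V → Bool | ∀ v ∈ S, σ v = η v} = ⋂ v ∈ S, {σ : V → Bool | σ v = η v} := by
        ext; simp
      rw [this]
      apply Finset.measurableSet_biInter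
      intro v _
      have hm : Measurable (fun σ : V → Bool => σ v) := measurable_pi_apply v
      exact hm (measurableSet_singleton (η v))
    have h2 : (Crest.ProbabilityR.Labels.labelMeasure V).map
        (fun x => Sf G lam (fun v => f (x v))) = (Pm V).map (Sf G lam) := by
      rw [← hQ, Measure.map_map measurable_Sf hlab]
      rfl
    rw [h2, Measure.map_apply measurable_Sf hset]
    have h3 : (Sf G lam ⁻¹' {σ : V → Bool | ∀ v ∈ S, σ v = η v}) =
        {ω | ∀ v ∈ S, Sf G lam ω v = η v} := rfl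
    rw [h3, ← ENNReal.ofReal_toReal (measure_ne_top (Pm V) {ω | ∀ v ∈ S, Sf G lam ω v = η v})]
    congr 1
    rw [show ((Pm V) {ω | ∀ v ∈ S, Sf G lam ω v = η v}).toReal =
      (Pm V).real {ω | ∀ v ∈ S, Sf G lam ω v = η v} from rfl, h1]
    unfold mu
    apply isingWeight_congr
    intro v hv
    have : (v ∈ S.filter (fun v => η v = true)) ↔ η v = true := by
      rw [Finset.mem_filter]
      exact ⟨fun h => h.2, fun h => ⟨hv, h⟩⟩
    simp only [this]
    cases η v <;> simp

end Fact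

end Crest.Agent.H14
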