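import Mathlib
import Crest.Agent.H14.Exact

/-!
# Row 160: martingale property between rounds (Q3, helper17)
-/

set_option autoImplicit false

open MeasureTheory Filter Topology

namespace Crest.Agent.H14

open scoped Classical

variable {E : Type*} {W : Finset E} {w : Finset E → ℝ}

theorem lintegral_sS (k : ℕ) (s : ℝ) (θ : unitInterval) {σ : ℝ} (hσ : |σ| = 1) :
    ∫⁻ u : unitInterval, ENNReal.ofReal (1 + σ * sS k s θ u) = 1 := by
  unfold sS
  by_cases h : 2 * (θ : ℝ) < s
  · simp only [h, if_true]
    have hk : |σ * str k (2 * θ)| ≤ 1 / 2 := by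
      rw [abs_mul, abs_of_nonneg (str_nonneg k _), hσ, one_mul]
      exact (str_bd k _).2
    rw [← lintegral_one_add hk]
    apply lintegral_congr
    intro u
    congr 1
    ring
  · simp only [h, if_false, mul_zero, add_zero, ENNReal.ofReal_one]
    simp

theorem lintegral_prod_sS (k : ℕ) (s : ℝ) (θ : E → unitInterval) (S J : Finset E) :
    ∫⁻ η, ∏ v ∈ J, ENNReal.ofReal (1 + sp S v * sS k s (θ v) (η v)) ∂(Pc E) = 1 := by
  have hm1 : ∀ v : E, Measurable (fun η : E → unitInterval =>
      ENNReal.ofReal (1 + sp S v * sS k s (θ v) (η v))) := by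
    intro v
    have h1 : Measurable (fun η : E → unitInterval => sS k s (θ v) (η v)) :=
      (measurable_sS k s).comp (f := fun η : E → unitInterval => (θ v, η v))
        (measurable_const.prodMk (measurable_pi_apply v))
    exact ENNReal.measurable_ofReal.comp (measurable_const.add (h1.const_mul _))
  have hm : ∀ J : Finset E, Measurable (fun η : E → unitInterval =>
      ∏ v ∈ J, ENNReal.ofReal (1 + sp S v * sS k s (θ v) (η v))) := fun J =>
    Finset.measurable_prod J fun v _ => hm1 v
  induction J using Finset.induction_on with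
  | empty => simp
  | insert y J hy ih =>
    rw [lintegral_Pc y (hm (insert y J)), ← ih]
    apply lintegral_congr
    intro η
    have e1 : ∀ x : unitInterval, ∏ v ∈ insert y J,
        ENNReal.ofReal (1 + sp S v * sS k s (θ v) (Function.update η y x v)) =
        ENNReal.ofReal (1 + sp S y * sS k s (θ y) x) *
          ∏ v ∈ J, ENNReal.ofReal (1 + sp S v * sS k s (θ v) (η v)) := by
      intro x
      rw [Finset.prod_insert hy, Function.update_self]
      congr 1
      refine Finset.prod_congr rfl fun v hv => ?_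
      have hvy : v ≠ y := by
        rintro rfl
        exact hy hv
      rw [Function.update_of_ne hvy]
    simp only [e1]
    rw [lintegral_mul_const]
    · rw [lintegral_sS k s (θ y) (abs_sp S y), one_mul]
    · have h1 : Measurable (fun x : unitInterval => sS k s (θ y) x) :=
        (measurable_sS k s).comp (f := fun x : unitInterval => (θ y, x))
          (measurable_const.prodMk measurable_id)
      exact ENNReal.measurable_ofReal.comp (measurable_const.add (h1.const_mul _))

theorem lintegral_tl_zf (k : ℕ) (s : ℝ) (θ : E → unitInterval) (W S : Finset E) :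
    ∫⁻ η, ENNReal.ofReal (tl W (zf W k s θ η) S) ∂(Pc E) = 1 := by
  rw [← lintegral_prod_sS k s θ S W]
  apply lintegral_congr
  intro η
  unfold tl
  rw [ENNReal.ofReal_prod_of_nonneg]
  · refine Finset.prod_congr rfl fun v hv => ?_
    unfold zf
    rw [if_pos hv]
  · intro v _
    exact one_add_sp_nonneg (abs_zf_lt W k s θ η v).le S v

/-- one-round martingale property for fixed admissible past -/
theorem Psi_Mf (hw : Pos W w) (k : ℕ) (s : ℝ) (x : E) {r : E → ℝ} (hr : ∀ v ∈ W, |r v| < 1)
    (θ : E → unitInterval) :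
    Psi W w k s (fun r => ENNReal.ofReal (1 + Mf W w x r)) r θ =
      ENNReal.ofReal (1 + Mf W w x r) := by
  have hL := Lf_pos hw hr
  unfold Psi
  have hnn : ∀ S ∈ W.powerset, 0 ≤ w S * tl W r S / Lf W w r * (1 + sp S x) := by
    intro S hS
    apply mul_nonneg
    · exact div_nonneg (mul_nonneg (hw.nonneg S (Finset.mem_powerset.1 hS)) (tl_pos hr S).le) hL.le
    · have := one_add_sp_nonneg (x := 1) (by simp) S x
      simpa using this
  have e1 : ∀ η : E → unitInterval,
      ENNReal.ofReal (Df W w r (zf W k s θ η)) *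
        ENNReal.ofReal (1 + Mf W w x (oplf r (zf W k s θ η))) =
      ∑ S ∈ W.powerset, ENNReal.ofReal (w S * tl W r S / Lf W w r * (1 + sp S x)) *
        ENNReal.ofReal (tl W (zf W k s θ η) S) := by
    intro η
    have hz : ∀ v ∈ W, |zf W k s θ η v| < 1 := fun v _ => abs_zf_lt W k s θ η v
    have hL' : 0 < Lf W w (oplf r (zf W k s θ η)) :=
      Lf_pos hw fun v hv => abs_opl_lt (hr v hv) (hz v hv)
    rw [← ENNReal.ofReal_mul (Df_nonneg hw hr hz)]
    have e2 : Df W w r (zf W k s θ η) * (1 + Mf W w x (oplf r (zf W k s θ η))) =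
        ∑ S ∈ W.powerset, (w S * tl W r S / Lf W w r * (1 + sp S x)) *
          tl W (zf W k s θ η) S := by
      have h1 := sum_tl_tl (w := w) hr hz (fun S => 1 + sp S x)
      have h2 : Lf W w (oplf r (zf W k s θ η)) * (1 + Mf W w x (oplf r (zf W k s θ η))) =
          ∑ S ∈ W.powerset, w S * tl W (oplf r (zf W k s θ η)) S * (1 + sp S x) := by
        have h3 : Mf W w x (oplf r (zf W k s θ η)) * Lf W w (oplf r (zf W k s θ η)) =
            ∑ S ∈ W.powerset, w S * tl W (oplf r (zf W k s θ η)) S * sp S x := by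
          unfold Mf Ef
          rw [div_mul_cancel₀ _ hL'.ne']
        simp_rw [mul_add, mul_one, Finset.sum_add_distrib]
        rw [← h3]
        unfold Lf
        ring
      have h4 : ∑ S ∈ W.powerset, (w S * tl W r S / Lf W w r * (1 + sp S x)) *
          tl W (zf W k s θ η) S =
          (∑ S ∈ W.powerset, w S * (tl W r S * tl W (zf W k s θ η) S) * (1 + sp S x)) /
            Lf W w r := by
        rw [Finset.sum_div]
        refine Finset.sum_congr rfl fun S _ => ?_
        ring
      rw [h4, h1, ← h2]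
      unfold Df
      ring
    rw [e2, ENNReal.ofReal_sum_of_nonneg]
    · refine Finset.sum_congr rfl fun S hS => ?_
      rw [ENNReal.ofReal_mul (hnn S hS)]
    · intro S hS
      exact mul_nonneg (hnn S hS) (tl_pos hz S).le
  simp only [e1]
  have hmS : ∀ S : Finset E, Measurable (fun η : E → unitInterval =>
      ENNReal.ofReal (tl W (zf W k s θ η) S)) := by
    intro S
    have h2 : Measurable (fun η : E → unitInterval => zf W k s θ η) :=
      (measurable_zf W k s).comp (f := fun η : E → unitInterval => (θ, η))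
        (measurable_const.prodMk measurable_id)
    exact ENNReal.measurable_ofReal.comp ((measurable_tl W S).comp h2)
  rw [lintegral_finsetSum _ fun S _ => (hmS S).const_mul _]
  have e5 : ∀ S ∈ W.powerset, ∫⁻ η, ENNReal.ofReal (w S * tl W r S / Lf W w r * (1 + sp S x)) *
        ENNReal.ofReal (tl W (zf W k s θ η) S) ∂(Pc E) =
      ENNReal.ofReal (w S * tl W r S / Lf W w r * (1 + sp S x)) := by
    intro S _
    rw [lintegral_const_mul _ (hmS S), lintegral_tl_zf, mul_one]
  rw [Finset.sum_congr rfl e5, ← ENNReal.ofReal_sum_of_nonneg hnn]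
  congr 1
  have e6 : ∑ S ∈ W.powerset, w S * tl W r S / Lf W w r * (1 + sp S x) =
      (∑ S ∈ W.powerset, w S * tl W r S) / Lf W w r +
      (∑ S ∈ W.powerset, w S * tl W r S * sp S x) / Lf W w r := by
    rw [Finset.sum_div, Finset.sum_div, ← Finset.sum_add_distrib]
    refine Finset.sum_congr rfl fun S _ => ?_
    ring
  rw [e6]
  have e7 : (∑ S ∈ W.powerset, w S * tl W r S) / Lf W w r = 1 := div_self hL.ne'
  rw [e7]
  rfl

theorem mart_aux (hw : Pos W w) (k : ℕ) (x : E) {G : (E → ℝ) → ENNReal} (hG : Measurable G) :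
    ∫⁻ ω, ENNReal.ofReal (1 + Mf W w x (Rst W w (k + 1) ω)) * G (Rst W w k ω) ∂(Pm E) =
      ∫⁻ ω, ENNReal.ofReal (1 + Mf W w x (Rst W w k ω)) * G (Rst W w k ω) ∂(Pm E) := by
  have hF : Measurable (fun r : E → ℝ => ENNReal.ofReal (1 + Mf W w x r)) :=
    ENNReal.measurable_ofReal.comp (measurable_const.add (measurable_Mf W w x))
  have hm : Measurable (fun ω : E → ℕ → unitInterval =>
      ENNReal.ofReal (1 + Mf W w x (Rst W w (k + 1) ω)) * G (Rst W w k ω)) :=
    (hF.comp (measurable_Rst (k + 1))).mul (hG.comp (measurable_Rst k))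
  rw [lintegral_col (2 * k + 1) hm]
  apply lintegral_congr_ae
  filter_upwards [ae_injOn k W] with ω hω
  have e1 : ∀ η : E → unitInterval, Rst W w k (col ω (2 * k + 1) η) = Rst W w k ω := fun η =>
    Rst_col k (by omega) ω η
  simp only [e1, Rst_succ]
  rw [lintegral_mul_const]
  · rw [round_Pm hw k 3 hF hω, Psi_Mf hw k 3 x (fun v _ => abs_Rst_lt hw k ω v)]
  · have h1 : Measurable (fun η : E → unitInterval => col ω (2 * k + 1) η) :=
      (measurable_col (2 * k + 1)).comp (f := fun η : E → unitInterval => (ω, η))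
        (measurable_const.prodMk measurable_id)
    exact hF.comp ((measurable_Xst k 3).comp h1)

/-- martingale property of the posterior mean between rounds -/
theorem Rst_mart [Countable E] {W : Finset E} {w : Finset E → ℝ} (hw : Pos W w) (k : ℕ) (x : E)
    (F : (E → ℝ) → ℝ) (hF : Measurable F) (C : ℝ) (hb : ∀ r, |F r| ≤ C) :
    ∫ ω, Mf W w x (Rst W w (k + 1) ω) * F (Rst W w k ω) ∂(Pm E) =
      ∫ ω, Mf W w x (Rst W w k ω) * F (Rst W w k ω) ∂(Pm E) := by
  have hM : ∀ (j : ℕ) (ω : E → ℕ → unitInterval), |Mf W w x (Rst W w j ω)| ≤ 1 := fun j ω =>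
    abs_Mf_le hw x fun v _ => (abs_Rst_lt hw j ω v).le
  have hMm : ∀ j : ℕ, Measurable (fun ω : E → ℕ → unitInterval => Mf W w x (Rst W w j ω)) :=
    fun j => (measurable_Mf W w x).comp (measurable_Rst j)
  have hMi : ∀ j : ℕ, Integrable (fun ω : E → ℕ → unitInterval => Mf W w x (Rst W w j ω)) (Pm E) :=
    fun j => Integrable.of_bound (hMm j).aestronglyMeasurable 1
      (Filter.Eventually.of_forall fun ω => by rw [Real.norm_eq_abs]; exact hM j ω)
  have hC : 0 ≤ C := (abs_nonneg _).trans (hb fun _ => 0)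
  have key : ∀ (H : (E → ℝ) → ℝ), Measurable H → (∀ r, 0 ≤ H r) → (∀ r, H r ≤ 2 * C + 1) →
      ∫ ω, (1 + Mf W w x (Rst W w (k + 1) ω)) * H (Rst W w k ω) ∂(Pm E) =
      ∫ ω, (1 + Mf W w x (Rst W w k ω)) * H (Rst W w k ω) ∂(Pm E) := by
    intro H hH h0 _
    have e : ∀ j : ℕ, ∫ ω, (1 + Mf W w x (Rst W w j ω)) * H (Rst W w k ω) ∂(Pm E) =
        (∫⁻ ω, ENNReal.ofReal (1 + Mf W w x (Rst W w j ω)) *
          ENNReal.ofReal (H (Rst W w k ω)) ∂(Pm E)).toReal := by
      intro j
      have hnn : ∀ ω : E → ℕ → unitInterval, 0 ≤ 1 + Mf W w x (Rst W w j ω) := fun ω => by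
        have := abs_le.1 (hM j ω); linarith
      rw [integral_eq_lintegral_of_nonneg_ae]
      · congr 1
        apply lintegral_congr
        intro ω
        rw [ENNReal.ofReal_mul (hnn ω)]
      · exact Filter.Eventually.of_forall fun ω => mul_nonneg (hnn ω) (h0 _)
      · exact ((measurable_const.add (hMm j)).mul (hH.comp (measurable_Rst k))).aestronglyMeasurable
    have h := mart_aux hw k x (G := fun r => ENNReal.ofReal (H r))
      (ENNReal.measurable_ofReal.comp hH)
    rw [e, e, h]
  have h1 := key (fun _ => 1) measurable_const (fun _ => zero_le_one) (fun _ => by linarith)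
  have h2 := key (fun r => F r + C) (hF.add_const C) (fun r => by
    have := abs_le.1 (hb r); linarith) (fun r => by
    have := abs_le.1 (hb r); linarith)
  have hFi : Integrable (fun ω : E → ℕ → unitInterval => F (Rst W w k ω)) (Pm E) :=
    Integrable.of_bound (hF.comp (measurable_Rst k)).aestronglyMeasurable C
      (Filter.Eventually.of_forall fun ω => by rw [Real.norm_eq_abs]; exact hb _)
  have hMF : ∀ j : ℕ, Integrable (fun ω : E → ℕ → unitInterval =>
      Mf W w x (Rst W w j ω) * F (Rst W w k ω)) (Pm E) := fun j =>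
    Integrable.of_bound ((hMm j).mul (hF.comp (measurable_Rst k))).aestronglyMeasurable C
      (Filter.Eventually.of_forall fun ω => by
        rw [Real.norm_eq_abs, abs_mul]
        calc _ ≤ 1 * C := mul_le_mul (hM j ω) (hb _) (abs_nonneg _) zero_le_one
          _ = C := one_mul _)
  have e1 : ∀ j : ℕ, ∫ ω, (1 + Mf W w x (Rst W w j ω)) * 1 ∂(Pm E) =
      1 + ∫ ω, Mf W w x (Rst W w j ω) ∂(Pm E) := by
    intro j
    simp only [mul_one]
    rw [integral_add (integrable_const _) (hMi j)]
    simp
  have e2 : ∀ j : ℕ, ∫ ω, (1 + Mf W w x (Rst W w j ω)) * (F (Rst W w k ω) + C) ∂(Pm E) =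
      ∫ ω, F (Rst W w k ω) ∂(Pm E) + C + C * ∫ ω, Mf W w x (Rst W w j ω) ∂(Pm E) +
        ∫ ω, Mf W w x (Rst W w j ω) * F (Rst W w k ω) ∂(Pm E) := by
    intro j
    have e3 : ∀ ω : E → ℕ → unitInterval, (1 + Mf W w x (Rst W w j ω)) * (F (Rst W w k ω) + C) =
        (F (Rst W w k ω) + C) + C * Mf W w x (Rst W w j ω) +
          Mf W w x (Rst W w j ω) * F (Rst W w k ω) := fun ω => by ring
    simp only [e3]
    have i1 : Integrable (fun ω : E → ℕ → unitInterval => F (Rst W w k ω) + C) (Pm E) :=
      hFi.add (integrable_const C)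
    have i2 : Integrable (fun ω : E → ℕ → unitInterval => C * Mf W w x (Rst W w j ω)) (Pm E) :=
      (hMi j).const_mul C
    have i3 : Integrable (fun ω : E → ℕ → unitInterval =>
        F (Rst W w k ω) + C + C * Mf W w x (Rst W w j ω)) (Pm E) := i1.add i2
    rw [integral_add i3 (hMF j), integral_add i1 i2, integral_add hFi (integrable_const C),
      integral_const_mul]
    simp
  rw [e1, e1] at h1
  rw [e2, e2] at h2
  have h3 : ∫ ω, Mf W w x (Rst W w (k + 1) ω) ∂(Pm E) = ∫ ω, Mf W w x (Rst W w k ω) ∂(Pm E) := by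
    linarith
  rw [h3] at h2
  linarith

end Crest.Agent.H14
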