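import Mathlib
import Crest.Agent.H14.Final
import Crest.Agent.H14.Close
import Crest.Agent.H14.Mart

/-! Row 160 (R2): the hypotheses of the assembly. -/

set_option autoImplicit false

open MeasureTheory Filter Topology

namespace Crest.Agent.H14

open scoped Classical

section Top

variable {V : Type*} {G : SimpleGraph V} [G.LocallyFinite] {lam : ℝ} {b : ℕ}

theorem Dq_kapT (k : ℕ) (v : V) (w : WP V) :
    Dq G lam (kap G lam k 0) v w =
      ∫ ω, (Mr G lam k w.c1 w.R1 v ω - Mr G lam k w.c2 w.R2 v ω) ^ 2 ∂(Pm V) := by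
  have hm : Measurable (fun ω : V → ℕ → unitInterval =>
      (Xst (W1 G w) (mu G lam (W1 G w)) k 0 ω, Xst (W2 G w) (mu G lam (W2 G w)) k 0 ω)) :=
    (measurable_Xst k 0).prodMk (measurable_Xst k 0)
  have hf : Measurable (fun p : (V → ℝ) × (V → ℝ) =>
      (MW G lam (W1 G w) v p.1 - MW G lam (W2 G w) v p.2) ^ 2) :=
    ((((measurable_Mf _ _ v).comp measurable_fst)).sub
      ((measurable_Mf _ _ v).comp measurable_snd)).pow_const 2
  unfold Dq kap
  rw [integral_map hm.aemeasurable hf.aestronglyMeasurable]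
  simp only [Xst_of_nonpos (le_refl (0:ℝ))]
  rfl

theorem exists_good (h : Tr G lam b) (k : ℕ) (v : V) : ∃ n, good G lam k v n := by
  have : Countable V := countable_of_isTree h.tree
  obtain ⟨n, hn⟩ := Dq_zero h k v ((1 / 4) ^ k) (by positivity)
  refine ⟨n, fun c₁ c₂ R₁ R₂ h1 h2 => ?_⟩
  have := hn ⟨c₁, R₁, c₂, R₂⟩ h1 h2
  rw [Dq_kapT, zero_add] at this
  exact this

theorem finalHyp (h : Tr G lam b) : FinalHyp G lam b := by
  have : Countable V := countable_of_isTree h.tree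
  exact ⟨h, exists_good h, fun W w hw k x F hF hb => Rst_mart hw k x F hF 1 hb⟩

end Top

/-- the free Ising state on the `d`-regular tree is a factor of iid below the reconstruction
threshold, the threshold included -/
theorem main {V : Type*} (G : SimpleGraph V) [G.LocallyFinite] (hT : G.IsTree) (d : ℕ)
    (hd : 3 ≤ d) (hreg : G.IsRegularOfDegree d) (lam : ℝ) (h0 : 0 ≤ lam)
    (hl : lam ≤ ((d : ℝ) - 1) ^ (-(1 / 2 : ℝ))) :
    ∃ Φ : (V → unitInterval) → (V → Bool),
      Measurable Φ ∧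
      (∀ (g : G ≃g G) (x : V → unitInterval), Φ (x ∘ ⇑g) = Φ x ∘ ⇑g) ∧
      ∀ (S : Finset V) (η : V → Bool), (G.induce (S : Set V)).Connected →
        (Crest.ProbabilityR.Labels.labelMeasure V).map Φ {σ | ∀ v ∈ S, σ v = η v} =
          ENNReal.ofReal (Crest.ProbabilityR.TreeIsing.isingWeight G lam S η) := by
  obtain ⟨b, rfl⟩ : ∃ b, d = b + 1 := ⟨d - 1, by omega⟩
  have hb : 2 ≤ b := by omega
  have hbR : ((b + 1 : ℕ) : ℝ) - 1 = b := by push_cast; ring
  rw [hbR] at hl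
  have hbpos : (0:ℝ) < b := by
    have : (2:ℝ) ≤ b := by exact_mod_cast hb
    linarith
  have hcrit : lam ^ 2 * b ≤ 1 := by
    have h1 : lam ^ 2 ≤ (((b:ℝ)) ^ (-(1 / 2 : ℝ))) ^ 2 := pow_le_pow_left₀ h0 hl 2
    have h2 : (((b:ℝ)) ^ (-(1 / 2 : ℝ))) ^ 2 = (b:ℝ)⁻¹ := by
      rw [← Real.rpow_natCast, ← Real.rpow_mul hbpos.le]
      norm_num
      rw [Real.rpow_neg_one]
    rw [h2] at h1
    calc lam ^ 2 * b ≤ (b:ℝ)⁻¹ * b := mul_le_mul_of_nonneg_right h1 hbpos.le
      _ = 1 := inv_mul_cancel₀ hbpos.ne'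
  have htr : Tr G lam b := by
    refine ⟨hT, ?_, hb, h0, hcrit⟩
    intro inst
    intro v
    have := hreg v
    convert this
  exact factor (finalHyp htr)

end Crest.Agent.H14
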